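import Mathlib

/-!
# S0222, first-row bound: the potential (definitions only, plus elementary formulas)

`Phi` is the scaled potential, `fN N j = N Φ(j/N)`, `thN N j` the bound `θ_N(j)`:
`θ_N(0) = 1`, `θ_N(1) = 0`, `θ_N(j) = exp (-f_N(j) - g0)` for `j ≥ 2`.
-/

set_option autoImplicit false

namespace Crest.Agent.S0222Lib.FRCore.Pot

/-- The coefficient of the logarithmic part. -/
noncomputable def c1 : ℝ := 1 / 100
/-- The plateau begins at `x0`. -/
noncomputable def x0 : ℝ := 19 / 64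
/-- The additive constant. -/
noncomputable def g0 : ℝ := 7 / 10

/-- The scaled potential. -/
noncomputable def Phi (τ : ℝ) : ℝ :=
  if τ ≤ 0 then 0
  else if τ ≤ x0 then c1 * τ * (1 + Real.log (x0 / τ)) + x0 * τ - τ ^ 2 / 2
  else x0 * (c1 + x0 / 2)

/-- The potential at scale `N`. -/
noncomputable def fN (N : ℝ) (j : ℕ) : ℝ := N * Phi ((j : ℝ) / N)

/-- The bound on level `j` at scale `N`. -/
noncomputable def thN (N : ℝ) (j : ℕ) : ℝ :=
  if j = 0 then 1 else if j = 1 then 0 else Real.exp (-(fN N j) - g0)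

lemma x0_pos : 0 < x0 := by unfold x0; norm_num
lemma c1_pos : 0 < c1 := by unfold c1; norm_num
lemma g0_pos : 0 < g0 := by unfold g0; norm_num

@[simp] lemma thN_zero (N : ℝ) : thN N 0 = 1 := by simp [thN]
@[simp] lemma thN_one (N : ℝ) : thN N 1 = 0 := by simp [thN]

lemma thN_of_two_le (N : ℝ) {j : ℕ} (hj : 2 ≤ j) : thN N j = Real.exp (-(fN N j) - g0) := by
  unfold thN
  rw [if_neg (by omega), if_neg (by omega)]

lemma thN_nonneg (N : ℝ) (j : ℕ) : 0 ≤ thN N j := by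
  unfold thN
  split_ifs
  · norm_num
  · norm_num
  · exact (Real.exp_pos _).le

lemma thN_le_one_of_nonneg {N : ℝ} (hf : ∀ j, 2 ≤ j → 0 ≤ fN N j) (j : ℕ) : thN N j ≤ 1 := by
  unfold thN
  split_ifs with h0 h1
  · exact le_rfl
  · norm_num
  · have := hf j (by omega)
    have h2 := g0_pos
    exact Real.exp_le_one_iff.2 (by linarith)

/-- The formula below the plateau. -/
lemma Phi_of_mem {τ : ℝ} (h0 : 0 < τ) (h1 : τ ≤ x0) :
    Phi τ = c1 * τ * (1 + Real.log (x0 / τ)) + x0 * τ - τ ^ 2 / 2 := by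
  unfold Phi
  rw [if_neg (not_le.2 h0), if_pos h1]

/-- The plateau. -/
lemma Phi_of_ge {τ : ℝ} (h1 : x0 < τ) : Phi τ = x0 * (c1 + x0 / 2) := by
  unfold Phi
  rw [if_neg (not_le.2 (x0_pos.trans h1)), if_neg (not_le.2 h1)]

/-- The formula of `fN` below the plateau. -/
lemma fN_of_le {N : ℝ} (hN : 0 < N) {j : ℕ} (hj : 0 < j) (hjN : (j : ℝ) ≤ x0 * N) :
    fN N j = c1 * j * (1 + Real.log (x0 * N / j)) + x0 * j - (j : ℝ) ^ 2 / (2 * N) := by
  have hj' : (0 : ℝ) < j := by exact_mod_cast hj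
  unfold fN
  rw [Phi_of_mem (div_pos hj' hN) ((div_le_iff₀ hN).2 hjN)]
  have h1 : x0 / ((j : ℝ) / N) = x0 * N / j := by field_simp
  rw [h1]
  field_simp

/-- Homogeneity: `f_{2N}(2j) = 2 f_N(j)`. -/
lemma fN_double (N : ℝ) (hN : 0 < N) (j : ℕ) : fN (2 * N) (2 * j) = 2 * fN N j := by
  unfold fN
  have h1 : (((2 * j : ℕ) : ℝ) / (2 * N)) = (j : ℝ) / N := by
    push_cast
    field_simp
  rw [h1]
  ring

end Crest.Agent.S0222Lib.FRCore.Pot
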