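import Crest.Agent.S0222Lib.FRTableLow
import Crest.Agent.S0222Lib.FRTableL3
import Crest.Agent.S0222Lib.FRTableL4
import Crest.Agent.S0222Lib.FRTableL5
import Crest.Agent.S0222Lib.FRTableL6
import Crest.Agent.S0222Lib.FRPotDef

/-!
# S0222, first-row bound: the table for the sizes up to `128`

`θT D j` is a bound on the first-row numbers at size `2 ^ D`, `D ≤ 7`; `θT_close` is the closure of
the table, and `θT_le_thN` the junction with the potential at size `128`.
-/

set_option autoImplicit false
set_option linter.unusedSectionVars false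
set_option linter.unusedVariables false
set_option linter.unusedSimpArgs false

namespace Crest.Agent.S0222Lib.FRTable

open Finset
open Crest.Agent.S0222Lib.FRCore Crest.Agent.S0222Lib.FRCore.DX

/-- The table, in units of `2 ^ (-40)`. -/
def UT : ℕ → List ℕ
  | 0 => U0
  | 1 => U1
  | 2 => U2
  | 3 => U3
  | 4 => U4
  | 5 => U5
  | 6 => U6
  | 7 => U7
  | _ => []

/-- The bound on the first-row numbers, at size `2 ^ D`, for `D ≤ 7`. -/
noncomputable def θT (D j : ℕ) : ℝ := thU 40 (UT D) j

lemma θT_nonneg (D j : ℕ) : 0 ≤ θT D j := thU_nonneg _ _ _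

lemma UT_zero {D : ℕ} (hD : D ≤ 7) : (UT D).getD 0 0 = 2 ^ 40 := by
  interval_cases D <;> rfl

lemma UT_one {D : ℕ} (hD : D ≤ 7) : (UT D).getD 1 0 = 0 := by
  interval_cases D <;> rfl

/-- `θT D 0 = 1`. -/
lemma θT_zero {D : ℕ} (hD : D ≤ 7) : θT D 0 = 1 := by
  unfold θT thU
  rw [UT_zero hD]
  norm_num

/-- `θT D 1 = 0`. -/
lemma θT_one {D : ℕ} (hD : D ≤ 7) : θT D 1 = 0 := by
  unfold θT thU
  rw [UT_one hD]
  norm_num

/-- Each level of the table closes, for `2 ≤ b ≤ 2 N`. -/
theorem θT_close_mid {D b : ℕ} {ρ : ℕ → ℕ → ℕ → ℝ} (hD : D < 7) (hW : Weights (2 ^ D) b ρ)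
    (h2 : 2 ≤ b) (hb : b ≤ 2 * 2 ^ D) :
    triSum b (fun t r r' => θT D (t - r) * θT D (b - t - r') * ρ t r r') ≤
      θT (D + 1) b * triSum b ρ := by
  interval_cases D
  · exact low0 (by simpa using hW) h2 (by simpa using hb)
  · exact low1 (by simpa using hW) h2 (by simpa using hb)
  · exact low2 (by simpa using hW) h2 (by simpa using hb)
  · exact levelOK_sound (N := 8) (by simpa using hW) (by norm_num) h2 (by simpa using hb) level3_ok
  · exact levelOK_sound (N := 16) (by simpa using hW) (by norm_num) h2 (by simpa using hb) level4_ok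
  · exact levelOK_sound (N := 32) (by simpa using hW) (by norm_num) h2 (by simpa using hb) level5_ok
  · exact levelOK_sound (N := 64) (by simpa using hW) (by norm_num) h2 (by simpa using hb) level6_ok

/-- **The closure of the table**: for `D < 7` and all weights at the child size `2 ^ D`. -/
theorem θT_close {D b : ℕ} {ρ : ℕ → ℕ → ℕ → ℝ} (hD : D < 7) (hW : Weights (2 ^ D) b ρ) :
    triSum b (fun t r r' => θT D (t - r) * θT D (b - t - r') * ρ t r r') ≤
      θT (D + 1) b * triSum b ρ := by
  rcases Nat.lt_or_ge (2 * 2 ^ D) b with hb | hb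
  · exact close_big hW hb _ _
  · rcases Nat.lt_or_ge b 2 with h2 | h2
    · interval_cases b
      · rw [close_zero, θT_zero (by omega), θT_zero (by omega)]
        simp
      · exact close_one hW (Nat.one_le_two_pow) _ (θT_one (by omega)) _ (θT_nonneg _ _)
    · exact θT_close_mid hD hW h2 hb

/-! ### The junction with the potential -/

/-- The exponent of the comparison at `j`. -/
def kJ (j : ℕ) : ℕ := if j ≤ 38 then (6912 + 1900 * j - 25 * j * j) / 100 + 1 else 431

/-- The check of the junction. -/
def juncOK : Bool :=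
  (List.range 127).all fun i =>
    Nat.ble (U7.getD (i + 2) 0 * 64 ^ kJ (i + 2)) (2 ^ 40 * 63 ^ kJ (i + 2))

theorem juncOK_true : juncOK = true := by decide +kernel

/-- The bound of the potential by a multiple of `1 / 64`, on the range of the table. -/
lemma fN_le_kJ {j : ℕ} (h2 : 2 ≤ j) (hj : j ≤ 128) :
    Pot.fN 128 j + Pot.g0 ≤ (kJ j : ℝ) / 64 := by
  have hj0 : (0 : ℝ) < j := by exact_mod_cast (by omega : 0 < j)
  rcases Nat.lt_or_ge 38 j with h38 | h38
  · have h1 : Pot.fN 128 j = 128 * (Pot.x0 * (Pot.c1 + Pot.x0 / 2)) := by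
      unfold Pot.fN
      rw [Pot.Phi_of_ge]
      have h3 : (39 : ℝ) ≤ j := by exact_mod_cast h38
      rw [lt_div_iff₀ (by norm_num)]
      unfold Pot.x0
      norm_num
      linarith
    have h4 : kJ j = 431 := by
      unfold kJ
      rw [if_neg (by omega)]
    rw [h1, h4]
    unfold Pot.x0 Pot.c1 Pot.g0
    norm_num
  · have hjR : (j : ℝ) ≤ 38 := by exact_mod_cast h38
    have h1 := Pot.fN_of_le (N := 128) (by norm_num) (j := j) (by omega)
      (by unfold Pot.x0; norm_num; linarith)
    have h5 : Pot.x0 * 128 = 38 := by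
      unfold Pot.x0
      norm_num
    rw [h5] at h1
    have h6 : Real.log (38 / (j : ℝ)) ≤ 38 / j - 1 :=
      Real.log_le_sub_one_of_pos (by positivity)
    have h7 : (j : ℝ) * (1 + Real.log (38 / (j : ℝ))) ≤ 38 := by
      have h8 : (j : ℝ) * (1 + Real.log (38 / (j : ℝ))) ≤ j * (38 / j) :=
        mul_le_mul_of_nonneg_left (by linarith) hj0.le
      have h9 : (j : ℝ) * (38 / j) = 38 := by
        field_simp
      linarith
    have h10 : kJ j = (6912 + 1900 * j - 25 * j * j) / 100 + 1 := by
      unfold kJ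
      rw [if_pos h38]
    have h11 : 6912 + 1900 * j ≤ 100 * kJ j + 25 * j * j := by
      rw [h10]
      have := Nat.lt_mul_div_succ (6912 + 1900 * j - 25 * j * j) (show 0 < 100 by norm_num)
      omega
    have h12 : (6912 : ℝ) + 1900 * j ≤ 100 * kJ j + 25 * j * j := by
      exact_mod_cast h11
    rw [h1]
    unfold Pot.x0 Pot.c1 Pot.g0
    have h13 : (1 / 100 : ℝ) * j * (1 + Real.log (38 / (j : ℝ))) ≤ 38 / 100 := by
      linarith
    norm_num at h13 ⊢
    nlinarith

/-- **The junction**: the table at size `128` is below the potential. -/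
theorem θT_le_thN (j : ℕ) : θT 7 j ≤ Pot.thN 128 j := by
  rcases Nat.lt_or_ge j 2 with h2 | h2
  · interval_cases j
    · simp [θT_zero]
    · simp [θT_one]
  · rcases Nat.lt_or_ge 128 j with hj | hj
    · have h0 : θT 7 j = 0 := by
        have h1 : (UT 7).getD j 0 = 0 := by
          rw [List.getD_eq_default]
          show U7.length ≤ j
          have : U7.length = 129 := by decide +kernel
          omega
        unfold θT thU
        rw [h1]
        simp
      rw [h0]
      exact Pot.thN_nonneg _ _
    · rw [Pot.thN_of_two_le _ h2]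
      have hc := List.all_eq_true.1 juncOK_true (j - 2) (List.mem_range.2 (by omega))
      rw [show j - 2 + 2 = j by omega] at hc
      have hc1 : U7.getD j 0 * 64 ^ kJ j ≤ 2 ^ 40 * 63 ^ kJ j := Nat.le_of_ble_eq_true hc
      have hc2 : ((U7.getD j 0 : ℕ) : ℝ) * 64 ^ kJ j ≤ 2 ^ 40 * 63 ^ kJ j := by
        exact_mod_cast hc1
      have h3 : θT 7 j ≤ (63 / 64 : ℝ) ^ kJ j := by
        show ((U7.getD j 0 : ℕ) : ℝ) / 2 ^ 40 ≤ _
        rw [div_le_iff₀ (by positivity), div_pow, div_mul_eq_mul_div, le_div_iff₀ (by positivity)]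
        linarith
      have h4 : (63 / 64 : ℝ) ≤ Real.exp (-(1 / 64)) := by
        have := Real.add_one_le_exp (-(1 / 64 : ℝ))
        norm_num at this ⊢
        linarith
      have h5 : (63 / 64 : ℝ) ^ kJ j ≤ Real.exp (-(kJ j / 64)) := by
        have h6 : Real.exp (-((kJ j : ℝ) / 64)) = Real.exp (-(1 / 64)) ^ kJ j := by
          rw [← Real.exp_nat_mul]
          congr 1
          ring
        rw [h6]
        exact pow_le_pow_left₀ (by norm_num) h4 _
      refine h3.trans (h5.trans (Real.exp_le_exp.2 ?_))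
      have := fN_le_kJ h2 hj
      linarith

end Crest.Agent.S0222Lib.FRTable
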