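import Crest.Agent.S0222Lib.JCovFinal
import Crest.Agent.S0222Lib.FRPotDef

/-!
# S0222: the first-row potential against the coverage

`pot_ge`: the potential is large enough for `cov_of_pot_aux`; `ent_ge`: it is at least the entropy.
-/

set_option autoImplicit false

namespace Crest.Agent.S0222Lib.FRCore.Pot

lemma log_x0_ge : -1.23 ≤ Real.log x0 := by
  unfold x0
  have h : Real.log (64 / 19 : ℝ) ≤ 64 / 19 - 1 := Real.log_le_sub_one_of_pos (by norm_num)
  have h2 : Real.log (19 / 64 : ℝ) = -Real.log (64 / 19) := by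
    rw [← Real.log_inv]
    norm_num
  -- a sharper estimate, through powers of two
  have h3 : Real.log (64 / 19 : ℝ) ≤ 1.23 := by
    have h4 : (64 / 19 : ℝ) ^ 13 ≤ 2 ^ 23 := by norm_num
    have h5 := Real.log_le_log (by positivity) h4
    rw [Real.log_pow, Real.log_pow] at h5
    have h6 := Real.log_two_lt_d9
    norm_num at h5 h6 ⊢
    linarith
  rw [h2]
  linarith

/-- **The potential against the coverage.** -/
theorem pot_ge {N : ℝ} (hN : 0 < N) {j : ℕ} (hj : 0 < j) (hjN : (j : ℝ) ≤ N) :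
    (j : ℝ) * (36 + 4 * Real.log (N / j)) ≤ 780 * fN N j := by
  have hj' : (0 : ℝ) < j := by exact_mod_cast hj
  set l : ℝ := Real.log (N / j) with hl
  have hl0 : 0 ≤ l := Real.log_nonneg (by rw [le_div_iff₀ hj', one_mul]; exact hjN)
  by_cases hx : (j : ℝ) ≤ x0 * N
  · rw [fN_of_le hN hj hx]
    have h1 : Real.log (x0 * N / j) = Real.log x0 + l := by
      rw [hl, mul_div_assoc, Real.log_mul x0_pos.ne' (by positivity)]
    rw [h1]
    have h2 := log_x0_ge
    have h3 : (j : ℝ) ^ 2 / (2 * N) ≤ (j : ℝ) * (x0 / 2) := by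
      rw [div_le_iff₀ (by positivity)]
      have : (j : ℝ) * (j : ℝ) ≤ (j : ℝ) * (x0 * N) := mul_le_mul_of_nonneg_left hx hj'.le
      nlinarith
    have e : 780 * (c1 * (j : ℝ) * (1 + (Real.log x0 + l)) + x0 * j - (j : ℝ) ^ 2 / (2 * N)) =
        (j : ℝ) * (7.8 * (1 + Real.log x0 + l) + 780 * x0) - 780 * ((j : ℝ) ^ 2 / (2 * N)) := by
      unfold c1
      ring
    rw [e]
    have h4 : 780 * ((j : ℝ) ^ 2 / (2 * N)) ≤ (j : ℝ) * (390 * x0) := by
      calc 780 * ((j : ℝ) ^ 2 / (2 * N)) ≤ 780 * ((j : ℝ) * (x0 / 2)) :=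
            mul_le_mul_of_nonneg_left h3 (by norm_num)
        _ = _ := by ring
    have h5 : (j : ℝ) * (36 + 4 * l) ≤ (j : ℝ) * (7.8 * (1 + Real.log x0 + l) + 780 * x0 - 390 * x0) := by
      apply mul_le_mul_of_nonneg_left _ hj'.le
      unfold x0 at h2 ⊢
      norm_num at h2 ⊢
      linarith
    have e2 : (j : ℝ) * (7.8 * (1 + Real.log x0 + l) + 780 * x0 - 390 * x0) =
        (j : ℝ) * (7.8 * (1 + Real.log x0 + l) + 780 * x0) - (j : ℝ) * (390 * x0) := by ring
    rw [e2] at h5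
    linarith
  · have hx' : x0 * N < j := not_le.mp hx
    have hτ : x0 < (j : ℝ) / N := by
      rw [lt_div_iff₀ hN]
      exact hx'
    unfold fN
    rw [Phi_of_ge hτ]
    have h1 : l ≤ N / j - 1 := Real.log_le_sub_one_of_pos (by positivity)
    have h2 : (j : ℝ) * l ≤ N - j := by
      have := mul_le_mul_of_nonneg_left h1 hj'.le
      have e : (j : ℝ) * (N / j - 1) = N - j := by
        field_simp
      rwa [e] at this
    unfold x0 c1
    norm_num
    nlinarith

/-- **The potential against the entropy.** -/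
theorem ent_ge {N : ℝ} (hN : 0 < N) {j : ℕ} (hj : 0 < j) (hjN : (j : ℝ) ≤ N) :
    (1 / 100 : ℝ) * ((j : ℝ) * (1 + Real.log (N / j))) ≤ fN N j := by
  have hj' : (0 : ℝ) < j := by exact_mod_cast hj
  set l : ℝ := Real.log (N / j) with hl
  have hl0 : 0 ≤ l := Real.log_nonneg (by rw [le_div_iff₀ hj', one_mul]; exact hjN)
  by_cases hx : (j : ℝ) ≤ x0 * N
  · rw [fN_of_le hN hj hx]
    have h1 : Real.log (x0 * N / j) = Real.log x0 + l := by
      rw [hl, mul_div_assoc, Real.log_mul x0_pos.ne' (by positivity)]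
    rw [h1]
    have h2 := log_x0_ge
    have h3 : (j : ℝ) ^ 2 / (2 * N) ≤ (j : ℝ) * (x0 / 2) := by
      rw [div_le_iff₀ (by positivity)]
      have : (j : ℝ) * (j : ℝ) ≤ (j : ℝ) * (x0 * N) := mul_le_mul_of_nonneg_left hx hj'.le
      nlinarith
    have h5 : (0 : ℝ) ≤ (j : ℝ) * (c1 * Real.log x0 + x0 / 2) := by
      apply mul_nonneg hj'.le
      unfold c1 x0 at *
      norm_num at h2 ⊢
      linarith
    unfold c1 at *
    nlinarith
  · have hx' : x0 * N < j := not_le.mp hx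
    have hτ : x0 < (j : ℝ) / N := by
      rw [lt_div_iff₀ hN]
      exact hx'
    unfold fN
    rw [Phi_of_ge hτ]
    have h1 : l ≤ N / j - 1 := Real.log_le_sub_one_of_pos (by positivity)
    have h2 : (j : ℝ) * l ≤ N - j := by
      have := mul_le_mul_of_nonneg_left h1 hj'.le
      have e : (j : ℝ) * (N / j - 1) = N - j := by
        field_simp
      rwa [e] at this
    unfold x0 c1
    norm_num
    nlinarith

end Crest.Agent.S0222Lib.FRCore.Pot

namespace Crest.Agent.S0222Lib.SWord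

open Crest.Agent.S0222Lib.FRCore.Pot

/-- **The coverage for the potential.** -/
theorem cov_of_thN
    (hidx : ∀ {d b dV : ℕ} {S₀ : Finset (ℕ × Bool)} {T : S₀ → ℕ} {μ : ∀ s, Fin (T s) → ℕ}
      {m ds : S₀ → ℕ}, ShapeFacts d b dV T μ m ds →
      Real.log dV ≤ (b : ℝ) * (1 + Real.log ((2 : ℝ) ^ (d + 1) / b)) +
        ∑ s, (m s : ℝ) * (Real.log (T s) + Real.log ((b : ℝ) / m s)))
    (HX16 : ∀ T : ℕ, 2 ^ 16 ≤ T → Real.log (JBnum3.Xi3 T (1 / 1000) (1 / 1000)) ≤ 4.1 * JCov.XX T)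
    (HX1 : ∀ T : ℕ, 1 ≤ T → Real.log (JBnum3.Xi3 T (1 / 1000) (1 / 1000)) ≤ 38 * JCov.XX T)
    {θ : ℕ → ℕ → ℝ} {d : ℕ} (hθ : ∀ b, θ (d + 1) b = thN ((2 : ℝ) ^ (d + 1)) b) :
    Cov θ d := by
  refine cov_of_pot_aux hidx HX16 HX1 ?_
  intro b hb1 hbn hpos
  rw [hθ] at hpos ⊢
  have hN : (0 : ℝ) < (2 : ℝ) ^ (d + 1) := by positivity
  have hbr : (b : ℝ) ≤ (2 : ℝ) ^ (d + 1) := by exact_mod_cast hbn
  have hb2 : 2 ≤ b := by
    by_contra hcon
    have : b = 1 := by omega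
    rw [this, thN_one] at hpos
    exact lt_irrefl _ hpos
  rw [thN_of_two_le _ hb2, Real.log_exp]
  have h1 := pot_ge hN (show 0 < b by omega) hbr
  have h2 := g0_pos
  nlinarith

/-- **The entropy bound for the potential.** -/
theorem entBd_of_thN {θ : ℕ → ℕ → ℝ} {d : ℕ} (hθ : ∀ b, θ (d + 1) b = thN ((2 : ℝ) ^ (d + 1)) b) :
    EntBd θ d := by
  intro b hb1 hbn hpos
  rw [hθ] at hpos ⊢
  have hN : (0 : ℝ) < (2 : ℝ) ^ (d + 1) := by positivity
  have hbr : (b : ℝ) ≤ (2 : ℝ) ^ (d + 1) := by exact_mod_cast hbn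
  have hb2 : 2 ≤ b := by
    by_contra hcon
    have : b = 1 := by omega
    rw [this, thN_one] at hpos
    exact lt_irrefl _ hpos
  rw [thN_of_two_le _ hb2, Real.log_exp]
  have h1 := ent_ge hN (show 0 < b by omega) hbr
  have h2 := g0_pos
  push_cast
  linarith

end Crest.Agent.S0222Lib.SWord
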