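import Mathlib

/-!
# S0222, first-row bound: token words, `gl`-operators, levels

Words `w : X → Option Tok`; `none` is a blank.  All spaces live in the single space
`Vs X Tok = (X → Option Tok) → ℝ`.  `Eop a b` is the site sum `∑_x E^{(x)}_{ab}`:
`(Eop a b f) w = ∑_x [w x = a] f (w[x ↦ b])`.

* `Eop_comm`: the `gl` relations;
* `Dop e = Eop none (some e)` (sum out token `e`), `Uop e = Eop (some e) none` (its adjoint);
* `IsT T w`: `w` is a `T`-word: each token of `T` exactly once, no other token;
* `VT T`: functions supported on `T`-words;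
* `Fr r T`: functions on `T`-words depending on at most `|T| - r` tokens;
* `Lev r T = Fr r T ⊖ Fr (r+1) T`: level `j = |T| - r` (pure level `j`);
* `L1 = ∑_i U_i D_i` and the spectral bound `L1 ≥ r (N - 2t + r + 1)` on `Lev r T`
  (own elementary proof by commutation and Cauchy-Schwarz).
-/

set_option autoImplicit false
set_option linter.unusedSectionVars false

namespace Crest.Agent.S0222Lib.FRCore

open Finset Function

variable {X Tok : Type*} [Fintype X] [DecidableEq X] [Fintype Tok] [DecidableEq Tok]

/-- The space of functions on words. -/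
abbrev Vs (X Tok : Type*) := (X → Option Tok) → ℝ

section IP

variable {ι : Type*} [Fintype ι]

/-- The standard inner product on functions. -/
def ip (f g : ι → ℝ) : ℝ := ∑ w, f w * g w

lemma ip_comm (f g : ι → ℝ) : ip f g = ip g f := by
  unfold ip; exact Finset.sum_congr rfl fun w _ => mul_comm _ _

lemma ip_add_left (f f' g : ι → ℝ) : ip (f + f') g = ip f g + ip f' g := by
  unfold ip; rw [← Finset.sum_add_distrib]; exact Finset.sum_congr rfl fun w _ => by
    simp [add_mul]

lemma ip_add_right (f g g' : ι → ℝ) : ip f (g + g') = ip f g + ip f g' := by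
  unfold ip; rw [← Finset.sum_add_distrib]; exact Finset.sum_congr rfl fun w _ => by
    simp [mul_add]

lemma ip_sub_left (f f' g : ι → ℝ) : ip (f - f') g = ip f g - ip f' g := by
  unfold ip; rw [← Finset.sum_sub_distrib]; exact Finset.sum_congr rfl fun w _ => by
    simp [sub_mul]

lemma ip_sub_right (f g g' : ι → ℝ) : ip f (g - g') = ip f g - ip f g' := by
  unfold ip; rw [← Finset.sum_sub_distrib]; exact Finset.sum_congr rfl fun w _ => by
    simp [mul_sub]

lemma ip_smul_left (c : ℝ) (f g : ι → ℝ) : ip (c • f) g = c * ip f g := by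
  unfold ip; rw [Finset.mul_sum]; exact Finset.sum_congr rfl fun w _ => by
    simp [mul_assoc]

lemma ip_smul_right (c : ℝ) (f g : ι → ℝ) : ip f (c • g) = c * ip f g := by
  unfold ip; rw [Finset.mul_sum]; exact Finset.sum_congr rfl fun w _ => by
    simp; ring

lemma ip_zero_left (g : ι → ℝ) : ip 0 g = 0 := by simp [ip]
lemma ip_zero_right (g : ι → ℝ) : ip g 0 = 0 := by simp [ip]

lemma ip_sum_left {κ : Type*} (s : Finset κ) (f : κ → ι → ℝ) (g : ι → ℝ) :
    ip (∑ i ∈ s, f i) g = ∑ i ∈ s, ip (f i) g := by
  classical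
  induction s using Finset.induction_on with
  | empty => simp [ip_zero_left]
  | insert a s ha ih => rw [Finset.sum_insert ha, Finset.sum_insert ha, ip_add_left, ih]

lemma ip_sum_right {κ : Type*} (s : Finset κ) (f : κ → ι → ℝ) (g : ι → ℝ) :
    ip g (∑ i ∈ s, f i) = ∑ i ∈ s, ip g (f i) := by
  rw [ip_comm, ip_sum_left]; exact Finset.sum_congr rfl fun i _ => ip_comm _ _

lemma ip_self_nonneg (f : ι → ℝ) : 0 ≤ ip f f :=
  Finset.sum_nonneg fun w _ => mul_self_nonneg _

lemma ip_self_eq_zero {f : ι → ℝ} : ip f f = 0 ↔ f = 0 := by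
  constructor
  · intro h
    funext w
    have := (Finset.sum_eq_zero_iff_of_nonneg (fun w _ => mul_self_nonneg (f w))).1 h w
      (Finset.mem_univ w)
    simpa using this
  · rintro rfl; exact ip_zero_left _

/-- Norm. -/
noncomputable def nr (f : ι → ℝ) : ℝ := Real.sqrt (ip f f)

lemma nr_nonneg (f : ι → ℝ) : 0 ≤ nr f := Real.sqrt_nonneg _

lemma nr_sq (f : ι → ℝ) : nr f * nr f = ip f f := Real.mul_self_sqrt (ip_self_nonneg f)

lemma ip_le_nr_mul (f g : ι → ℝ) : ip f g ≤ nr f * nr g := by
  unfold ip nr ip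
  rw [← Real.sqrt_mul (Finset.sum_nonneg fun w _ => mul_self_nonneg _)]
  apply Real.le_sqrt_of_sq_le
  have := Finset.sum_mul_sq_le_sq_mul_sq Finset.univ f g
  simpa [pow_two] using this

lemma abs_ip_le_nr_mul (f g : ι → ℝ) : |ip f g| ≤ nr f * nr g := by
  rw [abs_le]
  constructor
  · have h := ip_le_nr_mul (-f) g
    have h1 : ip (-f) g = - ip f g := by
      unfold ip; rw [← Finset.sum_neg_distrib]; exact Finset.sum_congr rfl fun w _ => by simp
    have h2 : nr (-f) = nr f := by
      unfold nr ip; congr 1; exact Finset.sum_congr rfl fun w _ => by simp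
    rw [h1, h2] at h
    linarith
  · exact ip_le_nr_mul f g

end IP

/-! ### The site operators -/

/-- `(Eop a b f) w = ∑_x [w x = a] f (w[x ↦ b])`. -/
def Eop (a b : Option Tok) : Vs X Tok →ₗ[ℝ] Vs X Tok where
  toFun f w := ∑ x, if w x = a then f (update w x b) else 0
  map_add' f g := by
    funext w
    simp only [Pi.add_apply]
    rw [← Finset.sum_add_distrib]
    exact Finset.sum_congr rfl fun x _ => by split_ifs <;> simp
  map_smul' c f := by
    funext w
    simp only [Pi.smul_apply, smul_eq_mul, RingHom.id_apply]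
    rw [Finset.mul_sum]
    exact Finset.sum_congr rfl fun x _ => by split_ifs <;> simp

lemma Eop_apply (a b : Option Tok) (f : Vs X Tok) (w : X → Option Tok) :
    Eop a b f w = ∑ x, if w x = a then f (update w x b) else 0 := rfl

/-- The `gl` relation. -/
theorem Eop_comm (a b c d : Option Tok) (f : Vs X Tok) :
    Eop a b (Eop c d f) - Eop c d (Eop a b f) =
      (if b = c then Eop a d f else 0) - (if d = a then Eop c b f else 0) := by
  funext w
  simp only [Pi.sub_apply, Eop_apply]
  have key : ∀ x y : X, x ≠ y →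
      (if w x = a then (if update w x b y = c then f (update (update w x b) y d) else 0) else 0)
      = (if w y = c then (if update w y d x = a then f (update (update w y d) x b) else 0) else 0)
      := by
    intro x y hxy
    rw [update_of_ne hxy.symm, update_of_ne hxy, update_comm hxy]
    split_ifs <;> rfl
  have h1 : (∑ x, if w x = a then ∑ y, (if update w x b y = c then f (update (update w x b) y d) else 0) else 0)
      = ∑ x, ∑ y, (if w x = a then (if update w x b y = c then f (update (update w x b) y d) else 0) else 0) := by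
    refine Finset.sum_congr rfl fun x _ => ?_
    split_ifs <;> simp
  have h2 : (∑ y, if w y = c then ∑ x, (if update w y d x = a then f (update (update w y d) x b) else 0) else 0)
      = ∑ y, ∑ x, (if w y = c then (if update w y d x = a then f (update (update w y d) x b) else 0) else 0) := by
    refine Finset.sum_congr rfl fun x _ => ?_
    split_ifs <;> simp
  rw [h1, h2]
  have h2' : (∑ y, ∑ x, (if w y = c then (if update w y d x = a then f (update (update w y d) x b) else 0) else 0))
      = ∑ x, ∑ y, (if w y = c then (if update w y d x = a then f (update (update w y d) x b) else 0) else 0) :=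
    Finset.sum_comm
  rw [h2', ← Finset.sum_sub_distrib]
  have h3 : ∀ x : X, (∑ y, (if w x = a then (if update w x b y = c then f (update (update w x b) y d) else 0) else 0))
        - (∑ y, (if w y = c then (if update w y d x = a then f (update (update w y d) x b) else 0) else 0))
      = (if w x = a then (if b = c then f (update w x d) else 0) else 0)
        - (if w x = c then (if d = a then f (update w x b) else 0) else 0) := by
    intro x
    rw [← Finset.add_sum_erase _ _ (Finset.mem_univ x), ← Finset.add_sum_erase (a := x) _ (fun y => (if w y = c then (if update w y d x = a then f (update (update w y d) x b) else 0) else 0)) (Finset.mem_univ x)]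
    have h4 : (∑ y ∈ univ.erase x, (if w x = a then (if update w x b y = c then f (update (update w x b) y d) else 0) else 0))
        = ∑ y ∈ univ.erase x, (if w y = c then (if update w y d x = a then f (update (update w y d) x b) else 0) else 0) :=
      Finset.sum_congr rfl fun y hy => key x y (Finset.ne_of_mem_erase hy).symm
    rw [h4, update_self, update_self, update_idem, update_idem]
    ring
  rw [Finset.sum_congr rfl fun x _ => h3 x, Finset.sum_sub_distrib]
  congr 1
  · by_cases hbc : b = c
    · simp only [hbc, if_true]; rfl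
    · simp [hbc]
  · by_cases hda : d = a
    · simp only [hda, if_true]; rfl
    · simp [hda]

/-- Change of variables behind the adjoint. -/
lemma sum_update_swap (a b : Option Tok) (x : X) (F : (X → Option Tok) → (X → Option Tok) → ℝ) :
    (∑ w : X → Option Tok, if w x = a then F (update w x b) w else 0)
      = ∑ w' : X → Option Tok, if w' x = b then F w' (update w' x a) else 0 := by
  rw [← Finset.sum_filter, ← Finset.sum_filter]
  refine Finset.sum_nbij' (fun w => update w x b) (fun w' => update w' x a) ?_ ?_ ?_ ?_ ?_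
  · intro w _; simp
  · intro w _; simp
  · intro w hw
    have : w x = a := by simpa using hw
    simp [← this]
  · intro w hw
    have : w x = b := by simpa using hw
    simp [← this]
  · intro w hw
    have : w x = a := by simpa using hw
    simp [← this]

/-- The adjoint of `Eop a b` is `Eop b a`. -/
theorem ip_Eop (a b : Option Tok) (f g : Vs X Tok) :
    ip (Eop a b f) g = ip f (Eop b a g) := by
  unfold ip
  simp only [Eop_apply, Finset.sum_mul, Finset.mul_sum]
  have h1 : (∑ w : X → Option Tok, ∑ x : X, (if w x = a then f (update w x b) else 0) * g w)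
      = ∑ x : X, ∑ w : X → Option Tok, (if w x = a then f (update w x b) else 0) * g w :=
    Finset.sum_comm
  have h2 : (∑ w : X → Option Tok, ∑ x : X, f w * (if w x = b then g (update w x a) else 0))
      = ∑ x : X, ∑ w : X → Option Tok, f w * (if w x = b then g (update w x a) else 0) :=
    Finset.sum_comm
  rw [h1, h2]
  refine Finset.sum_congr rfl fun x _ => ?_
  have := sum_update_swap (X := X) (Tok := Tok) a b x (fun w' w => f w' * g w)
  calc _ = ∑ w : X → Option Tok, if w x = a then f (update w x b) * g w else 0 :=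
        Finset.sum_congr rfl fun w _ => by split_ifs <;> simp
    _ = _ := this
    _ = _ := Finset.sum_congr rfl fun w _ => by split_ifs <;> simp

/-! ### Token words -/

/-- Number of occurrences of a letter. -/
def cnt (w : X → Option Tok) (a : Option Tok) : ℕ := (univ.filter fun x => w x = a).card

lemma cnt_update (w : X → Option Tok) (x : X) (b c : Option Tok) :
    cnt (update w x b) c + (if w x = c then 1 else 0) = cnt w c + (if b = c then 1 else 0) := by
  unfold cnt
  simp only [Finset.card_filter]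
  rw [← Finset.add_sum_erase _ _ (Finset.mem_univ x),
    ← Finset.add_sum_erase (a := x) _ (fun y => if w y = c then 1 else 0) (Finset.mem_univ x)]
  have : ∑ y ∈ univ.erase x, (if update w x b y = c then 1 else 0)
      = ∑ y ∈ univ.erase x, (if w y = c then 1 else 0) :=
    Finset.sum_congr rfl fun y hy => by rw [update_of_ne (Finset.ne_of_mem_erase hy)]
  rw [this, update_self]
  omega

/-- `w` contains each token of `T` exactly once and no other token. -/
def IsT (T : Finset Tok) (w : X → Option Tok) : Prop :=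
  ∀ i, cnt w (some i) = if i ∈ T then 1 else 0

instance (T : Finset Tok) : DecidablePred (IsT (X := X) T) := fun _ => by
  unfold IsT; exact inferInstance

lemma cnt_pos_of_eq {w : X → Option Tok} {x : X} {a : Option Tok} (h : w x = a) : 0 < cnt w a :=
  Finset.card_pos.2 ⟨x, by simp [h]⟩

lemma IsT.mem {T : Finset Tok} {w : X → Option Tok} (h : IsT T w) {x : X} {e : Tok}
    (hx : w x = some e) : e ∈ T := by
  have h1 := h e
  have h2 := cnt_pos_of_eq hx
  by_contra hne
  rw [if_neg hne] at h1
  omega

lemma IsT_update_none {T : Finset Tok} {w : X → Option Tok} {x : X} {e : Tok} (hx : w x = none) :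
    IsT T (update w x (some e)) ↔ e ∈ T ∧ IsT (T.erase e) w := by
  have key : ∀ i, cnt (update w x (some e)) (some i) = cnt w (some i) + if e = i then 1 else 0 := by
    intro i
    have := cnt_update w x (some e) (some i)
    simp only [hx, reduceCtorEq, if_false, add_zero, Option.some.injEq] at this
    exact this
  constructor
  · intro h
    have he : e ∈ T := h.mem (x := x) (by simp)
    refine ⟨he, fun i => ?_⟩
    have h1 := h i
    rw [key] at h1
    by_cases hie : e = i
    · subst hie
      simp only [if_true, he, Finset.mem_erase, ne_eq, not_true_eq_false, false_and, if_false] at h1 ⊢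
      omega
    · have : i ≠ e := fun h => hie h.symm
      simp only [hie, if_false, add_zero] at h1
      simp only [Finset.mem_erase, ne_eq, this, not_false_eq_true, true_and]
      exact h1
  · rintro ⟨he, h⟩ i
    rw [key, h i]
    by_cases hie : e = i
    · subst hie
      simp [he]
    · have : i ≠ e := fun h => hie h.symm
      simp [hie, this]

lemma IsT_of_update_some {S : Finset Tok} {w : X → Option Tok} {x : X} {e : Tok}
    (hx : w x = some e) (he : e ∉ S) (h : IsT S (update w x none)) : IsT (insert e S) w := by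
  intro i
  have h1 := cnt_update w x none (some i)
  rw [h i, hx] at h1
  simp only [reduceCtorEq, if_false, add_zero, Option.some.injEq] at h1
  by_cases hie : e = i
  · subst hie
    simp only [if_true, he, if_false, Finset.mem_insert, true_or] at h1 ⊢
    omega
  · have : i ≠ e := fun h => hie h.symm
    simp only [hie, if_false, add_zero] at h1
    simp only [Finset.mem_insert, this, false_or]
    exact h1.symm

lemma IsT_of_update_relabel {S : Finset Tok} {w : X → Option Tok} {x : X} {e i : Tok}
    (hx : w x = some i) (he : e ∈ S) (hi : i ∉ S) (h : IsT S (update w x (some e))) :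
    IsT (insert i (S.erase e)) w := by
  have hie : i ≠ e := fun h => hi (h ▸ he)
  intro k
  have h1 := cnt_update w x (some e) (some k)
  rw [h k, hx] at h1
  simp only [Option.some.injEq] at h1
  by_cases hki : k = i
  · subst hki
    simp only [if_true, hi, if_false, Finset.mem_insert, true_or] at h1 ⊢
    have : e ≠ k := fun h => hie h.symm
    simp only [this, if_false] at h1
    omega
  · by_cases hke : k = e
    · subst hke
      simp only [he, if_true] at h1
      have : i ≠ k := hie
      simp only [this, if_false] at h1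
      simp only [Finset.mem_insert, hki, Finset.mem_erase, ne_eq, not_true_eq_false, false_and,
        or_self, if_false]
      omega
    · have h2 : i ≠ k := fun h => hki h.symm
      have h3 : e ≠ k := fun h => hke h.symm
      simp only [h2, h3, if_false, add_zero] at h1
      simp only [Finset.mem_insert, hki, false_or, Finset.mem_erase, ne_eq, hke, not_false_eq_true,
        true_and]
      exact h1.symm

/-- Blanks on a `T`-word. -/
lemma IsT.cnt_none {T : Finset Tok} {w : X → Option Tok} (h : IsT T w) :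
    (cnt w none : ℝ) = Fintype.card X - T.card := by
  have h1 : ∑ a : Option Tok, cnt w a = Fintype.card X := by
    unfold cnt
    simp only [Finset.card_filter]
    rw [Finset.sum_comm]
    simp [Finset.card_univ]
  rw [Fintype.sum_option] at h1
  have h2 : ∑ i : Tok, cnt w (some i) = T.card := by
    rw [Finset.sum_congr rfl fun i _ => h i]
    simp
  rw [h2] at h1
  have : (cnt w none : ℝ) + T.card = Fintype.card X := by exact_mod_cast h1
  linarith

lemma Eop_self_apply (a : Option Tok) (f : Vs X Tok) (w : X → Option Tok) :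
    Eop a a f w = cnt w a * f w := by
  rw [Eop_apply]
  unfold cnt
  rw [Finset.card_filter]
  push_cast
  rw [Finset.sum_mul]
  refine Finset.sum_congr rfl fun x _ => ?_
  split_ifs with h
  · rw [← h, update_eq_self]; simp
  · simp

/-- Functions supported on `T`-words. -/
def VT (T : Finset Tok) : Submodule ℝ (Vs X Tok) where
  carrier := {f | ∀ w, ¬ IsT T w → f w = 0}
  add_mem' := fun {f g} hf hg w hw => by simp [hf w hw, hg w hw]
  zero_mem' := fun _ _ => rfl
  smul_mem' := fun c f hf w hw => by simp [hf w hw]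

lemma mem_VT {T : Finset Tok} {f : Vs X Tok} : f ∈ VT T ↔ ∀ w, ¬ IsT T w → f w = 0 := Iff.rfl

/-- Sum out the token `e`. -/
abbrev Dop (e : Tok) : Vs X Tok →ₗ[ℝ] Vs X Tok := Eop none (some e)
/-- Insert the token `e` as a free variable (adjoint of `Dop`). -/
abbrev Uop (e : Tok) : Vs X Tok →ₗ[ℝ] Vs X Tok := Eop (some e) none
/-- Relabel. -/
abbrev Rop (i e : Tok) : Vs X Tok →ₗ[ℝ] Vs X Tok := Eop (some i) (some e)

lemma ip_Dop (e : Tok) (f g : Vs X Tok) : ip (Dop e f) g = ip f (Uop e g) := ip_Eop _ _ _ _
lemma ip_Uop (e : Tok) (f g : Vs X Tok) : ip (Uop e f) g = ip f (Dop e g) := ip_Eop _ _ _ _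

lemma Dop_mem {T : Finset Tok} {f : Vs X Tok} (hf : f ∈ VT T) {e : Tok} :
    Dop e f ∈ VT (T.erase e) := by
  intro w hw
  rw [Eop_apply]
  refine Finset.sum_eq_zero fun x _ => ?_
  split_ifs with hx
  · refine hf _ fun h => hw ?_
    exact ((IsT_update_none hx).1 h).2
  · rfl

lemma Dop_kill {T : Finset Tok} {f : Vs X Tok} (hf : f ∈ VT T) {e : Tok} (he : e ∉ T) :
    Dop e f = 0 := by
  funext w
  rw [Eop_apply]
  refine Finset.sum_eq_zero fun x _ => ?_
  split_ifs with hx
  · refine hf _ fun h => he ?_
    exact ((IsT_update_none hx).1 h).1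
  · rfl

lemma Uop_mem {S : Finset Tok} {f : Vs X Tok} (hf : f ∈ VT S) {e : Tok} (he : e ∉ S) :
    Uop e f ∈ VT (insert e S) := by
  intro w hw
  rw [Eop_apply]
  refine Finset.sum_eq_zero fun x _ => ?_
  split_ifs with hx
  · refine hf _ fun h => hw ?_
    exact IsT_of_update_some hx he h
  · rfl

lemma Rop_mem {S : Finset Tok} {f : Vs X Tok} (hf : f ∈ VT S) {e i : Tok} (he : e ∈ S) (hi : i ∉ S) :
    Rop i e f ∈ VT (insert i (S.erase e)) := by
  intro w hw
  rw [Eop_apply]
  refine Finset.sum_eq_zero fun x _ => ?_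
  split_ifs with hx
  · refine hf _ fun h => hw ?_
    exact IsT_of_update_relabel hx he hi h
  · rfl

lemma Rop_kill {S : Finset Tok} {f : Vs X Tok} (hf : f ∈ VT S) {e : Tok} (i : Tok) (he : e ∉ S) :
    Rop i e f = 0 := by
  funext w
  rw [Eop_apply]
  refine Finset.sum_eq_zero fun x _ => ?_
  split_ifs
  · refine hf _ fun h => he ?_
    exact h.mem (x := x) (by simp)
  · rfl

lemma E00_VT {T : Finset Tok} {f : Vs X Tok} (hf : f ∈ VT T) :
    Eop none none f = ((Fintype.card X : ℝ) - T.card) • f := by
  funext w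
  rw [Eop_self_apply]
  by_cases hw : IsT T w
  · rw [hw.cnt_none]; rfl
  · simp [hf w hw]

lemma Eii_kill {T : Finset Tok} {f : Vs X Tok} (hf : f ∈ VT T) {i : Tok} (hi : i ∉ T) :
    Eop (some i) (some i) f = 0 := by
  funext w
  rw [Eop_self_apply]
  by_cases hw : IsT T w
  · rw [hw i, if_neg hi]; simp
  · simp [hf w hw]

lemma Eii_mem {T : Finset Tok} {f : Vs X Tok} (hf : f ∈ VT T) {i : Tok} (hi : i ∈ T) :
    Eop (some i) (some i) f = f := by
  funext w
  rw [Eop_self_apply]
  by_cases hw : IsT T w
  · rw [hw i, if_pos hi]; simp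
  · simp [hf w hw]

lemma VT_orth {T T' : Finset Tok} (h : T ≠ T') {f g : Vs X Tok} (hf : f ∈ VT T) (hg : g ∈ VT T') :
    ip f g = 0 := by
  refine Finset.sum_eq_zero fun w _ => ?_
  by_cases hw : IsT T w
  · have : ¬ IsT T' w := by
      intro hw'
      apply h
      ext i
      have h1 := hw i
      have h2 := hw' i
      by_cases h3 : i ∈ T <;> by_cases h4 : i ∈ T' <;> simp_all
    simp [hg w this]
  · simp [hf w hw]

/-! Commutation relations -/

lemma D_comm (e i : Tok) (f : Vs X Tok) : Dop e (Dop i f) = Dop i (Dop e f) := by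
  have := Eop_comm (X := X) none (some e) none (some i) f
  simp only [reduceCtorEq, if_false, sub_zero] at this
  exact sub_eq_zero.1 this

lemma U_comm (e i : Tok) (f : Vs X Tok) : Uop e (Uop i f) = Uop i (Uop e f) := by
  have := Eop_comm (X := X) (some e) none (some i) none f
  simp only [reduceCtorEq, if_false, sub_zero] at this
  exact sub_eq_zero.1 this

lemma D_U (e i : Tok) (f : Vs X Tok) :
    Dop e (Uop i f) = Uop i (Dop e f) + (if e = i then Eop none none f else 0) - Rop i e f := by
  have := Eop_comm (X := X) none (some e) (some i) none f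
  simp only [Option.some.injEq, if_true] at this
  rw [sub_eq_iff_eq_add] at this
  rw [this]
  abel

lemma R_U (i e k : Tok) (f : Vs X Tok) :
    Rop i e (Uop k f) = Uop k (Rop i e f) + (if e = k then Uop i f else 0) := by
  have := Eop_comm (X := X) (some i) (some e) (some k) none f
  simp only [Option.some.injEq, reduceCtorEq, if_false, sub_zero] at this
  rw [sub_eq_iff_eq_add] at this
  rw [this]
  abel

/-- Relabelling is an isometry. -/
lemma ip_Rop_self {S : Finset Tok} {g : Vs X Tok} (hg : g ∈ VT S) {e i : Tok} (he : e ∈ S) (hi : i ∉ S) :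
    ip (Rop i e g) (Rop i e g) = ip g g := by
  rw [ip_Eop]
  have h := Eop_comm (X := X) (some e) (some i) (some i) (some e) g
  simp only [if_true] at h
  rw [Rop_kill (Tok := Tok) hg e hi, map_zero, Eii_kill hg hi, Eii_mem hg he] at *
  have h2 : Eop (some e) (some i) (Rop i e g) = g := by
    simpa using h
  rw [h2]

/-! ### Spectral lemma on an invariant subspace -/

section Spectral

variable {ι : Type*} [Fintype ι]

open scoped InnerProductSpace

/-- The eigenvalues of a symmetric operator on an invariant subspace control its quadratic form. -/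
theorem ge_of_eigen (S : Submodule ℝ (ι → ℝ)) (A : (ι → ℝ) →ₗ[ℝ] (ι → ℝ))
    (hsym : ∀ f g, ip (A f) g = ip f (A g)) (hinv : ∀ z ∈ S, A z ∈ S) (θ : ℝ)
    (h : ∀ z ∈ S, z ≠ 0 → ∀ μ : ℝ, A z = μ • z → θ ≤ μ) :
    ∀ z ∈ S, θ * ip z z ≤ ip z (A z) := by
  classical
  let E := EuclideanSpace ℝ ι
  let φ : E ≃ₗ[ℝ] (ι → ℝ) := WithLp.linearEquiv 2 ℝ (ι → ℝ)
  have hip : ∀ x y : E, inner ℝ x y = ip (φ x) (φ y) := by
    intro x y
    rw [PiLp.inner_apply]
    unfold ip
    refine Finset.sum_congr rfl fun i _ => ?_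
    simp only [RCLike.inner_apply, conj_trivial]
    exact mul_comm _ _
  let S' : Submodule ℝ E := S.comap φ.toLinearMap
  let A' : E →ₗ[ℝ] E := φ.symm.toLinearMap ∘ₗ A ∘ₗ φ.toLinearMap
  have hφA : ∀ x : E, φ (A' x) = A (φ x) := fun x => by simp [A']
  have hA' : A'.IsSymmetric := by
    intro x y
    rw [hip, hip, hφA, hφA, hsym]
  have hinv' : ∀ v ∈ S', A' v ∈ S' := by
    intro v hv
    show φ (A' v) ∈ S
    rw [hφA]
    exact hinv _ hv
  have hB := hA'.restrict_invariant hinv'
  let b := hB.eigenvectorBasis rfl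
  let μ := hB.eigenvalues rfl
  have hb : ∀ k, A' (b k : E) = μ k • (b k : E) := by
    intro k
    have h0 : (A'.restrict hinv') (b k) = (μ k) • b k := hB.apply_eigenvectorBasis rfl k
    have h2 := congrArg (Subtype.val) h0
    simpa [LinearMap.coe_restrict_apply] using h2
  have hμ : ∀ k, θ ≤ μ k := by
    intro k
    refine h (φ (b k : E)) (b k).2 ?_ (μ k) ?_
    · intro h0
      have h1 : ((b k : S') : E) = 0 := by simpa using h0
      have h2 : ‖b k‖ = 1 := b.orthonormal.1 k
      have h3 : b k = 0 := Subtype.ext h1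
      rw [h3] at h2
      simp at h2
    · rw [← hφA, hb, map_smul]
  intro z hz
  let z' : S' := ⟨φ.symm z, by show φ (φ.symm z) ∈ S; simpa using hz⟩
  have hz'φ : φ (z' : E) = z := by simp [z']
  have h1 : ip z z = ∑ k, inner ℝ z' (b k) * inner ℝ (b k) z' := by
    rw [b.sum_inner_mul_inner, Submodule.coe_inner, hip, hz'φ]
  have h2 : ip z (A z) = ∑ k, μ k * (inner ℝ z' (b k) * inner ℝ (b k) z') := by
    have h3 : ip z (A z) = inner ℝ z' ((A'.restrict hinv') z') := by
      rw [Submodule.coe_inner, hip, LinearMap.coe_restrict_apply, hφA, hz'φ]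
    rw [h3, ← b.sum_inner_mul_inner]
    refine Finset.sum_congr rfl fun k _ => ?_
    have h5 : inner ℝ (b k) ((A'.restrict hinv') z') = inner ℝ ((A'.restrict hinv') (b k)) z' :=
      (hB _ _).symm
    have h0 : (A'.restrict hinv') (b k) = (μ k) • b k := hB.apply_eigenvectorBasis rfl k
    have h6 : inner ℝ (μ k • b k) z' = μ k * inner ℝ (b k) z' :=
      real_inner_smul_left (b k) z' (μ k)
    rw [h5, h0, h6]
    ring
  rw [h1, h2, Finset.mul_sum]
  refine Finset.sum_le_sum fun k _ => ?_
  have h4 : (0 : ℝ) ≤ inner ℝ z' (b k) * inner ℝ (b k) z' := by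
    rw [real_inner_comm]
    exact mul_self_nonneg _
  exact mul_le_mul_of_nonneg_right (hμ k) h4

/-- The upper form of `ge_of_eigen`. -/
theorem le_of_eigen (S : Submodule ℝ (ι → ℝ)) (A : (ι → ℝ) →ₗ[ℝ] (ι → ℝ))
    (hsym : ∀ f g, ip (A f) g = ip f (A g)) (hinv : ∀ z ∈ S, A z ∈ S) (θ : ℝ)
    (h : ∀ z ∈ S, z ≠ 0 → ∀ μ : ℝ, A z = μ • z → μ ≤ θ) :
    ∀ z ∈ S, ip z (A z) ≤ θ * ip z z := by
  have := ge_of_eigen S (-A) (fun f g => by
      simp only [LinearMap.neg_apply]
      have h1 : ∀ f g : ι → ℝ, ip (-f) g = - ip f g := fun f g => by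
        unfold ip; rw [← Finset.sum_neg_distrib]; exact Finset.sum_congr rfl fun w _ => by simp
      rw [h1, ip_comm f (-(A g)), h1, hsym, ip_comm]
      ) (fun z hz => by simpa using S.neg_mem (hinv z hz)) (-θ) (fun z hz hz0 μ hμ => by
      have h1 : A z = (-μ) • z := by
        simp only [LinearMap.neg_apply] at hμ
        rw [neg_smul, ← hμ, neg_neg]
      have := h z hz hz0 (-μ) h1
      linarith)
  intro z hz
  have h2 := this z hz
  have h1 : ip z ((-A) z) = - ip z (A z) := by
    simp only [LinearMap.neg_apply]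
    unfold ip; rw [← Finset.sum_neg_distrib]; exact Finset.sum_congr rfl fun w _ => by simp
  rw [h1] at h2
  linarith

end Spectral

/-! ### Levels -/

section OrthDef

variable {ι : Type*} [Fintype ι]

/-- Orthogonal complement with respect to `ip`. -/
def orth (S : Submodule ℝ (ι → ℝ)) : Submodule ℝ (ι → ℝ) where
  carrier := {z | ∀ y ∈ S, ip z y = 0}
  add_mem' := fun {a b} ha hb y hy => by rw [ip_add_left, ha y hy, hb y hy, add_zero]
  zero_mem' := fun y _ => ip_zero_left y
  smul_mem' := fun c a ha y hy => by rw [ip_smul_left, ha y hy, mul_zero]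

lemma mem_orth {S : Submodule ℝ (ι → ℝ)} {z : ι → ℝ} : z ∈ orth S ↔ ∀ y ∈ S, ip z y = 0 := Iff.rfl

/-- `ip z` as a linear functional. -/
def ipL (z : ι → ℝ) : (ι → ℝ) →ₗ[ℝ] ℝ where
  toFun y := ip z y
  map_add' a b := ip_add_right _ _ _
  map_smul' c a := by simp [ip_smul_right]

end OrthDef

/-- Functions on `T`-words depending on at most `|T| - r` tokens. -/
def Fr : ℕ → Finset Tok → Submodule ℝ (Vs X Tok)
  | 0, T => VT T
  | r + 1, T => ⨆ i ∈ T, (Fr r (T.erase i)).map (Uop i)

lemma Fr_zero (T : Finset Tok) : (Fr 0 T : Submodule ℝ (Vs X Tok)) = VT T := rfl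

lemma Fr_succ (r : ℕ) (T : Finset Tok) :
    (Fr (r + 1) T : Submodule ℝ (Vs X Tok)) = ⨆ i ∈ T, (Fr r (T.erase i)).map (Uop i) := rfl

lemma U_mem_Fr {r : ℕ} {T : Finset Tok} {i : Tok} (hi : i ∈ T) {g : Vs X Tok}
    (hg : g ∈ Fr r (T.erase i)) : Uop i g ∈ Fr (r + 1) T := by
  rw [Fr_succ]
  exact Submodule.mem_iSup_of_mem i (Submodule.mem_iSup_of_mem hi ⟨g, hg, rfl⟩)

theorem Fr_le_VT (r : ℕ) (T : Finset Tok) : (Fr r T : Submodule ℝ (Vs X Tok)) ≤ VT T := by
  induction r generalizing T with
  | zero => exact le_rfl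
  | succ r ih =>
    rw [Fr_succ]
    refine iSup₂_le fun i hi => ?_
    rintro _ ⟨g, hg, rfl⟩
    have := Uop_mem (e := i) (ih _ hg) (Finset.notMem_erase i T)
    rwa [Finset.insert_erase hi] at this

theorem Fr_succ_le (r : ℕ) (T : Finset Tok) :
    (Fr (r + 1) T : Submodule ℝ (Vs X Tok)) ≤ Fr r T := by
  induction r generalizing T with
  | zero => exact Fr_le_VT 1 T
  | succ r ih =>
    rw [Fr_succ, Fr_succ]
    exact iSup₂_mono fun i _ => Submodule.map_mono (ih _)

theorem Fr_anti {r r' : ℕ} (h : r ≤ r') (T : Finset Tok) :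
    (Fr r' T : Submodule ℝ (Vs X Tok)) ≤ Fr r T := by
  induction h with
  | refl => exact le_rfl
  | step _ ih => exact (Fr_succ_le _ T).trans ih

theorem Fr_bot (r : ℕ) (T : Finset Tok) (h : T.card ≤ r) :
    (Fr (r + 1) T : Submodule ℝ (Vs X Tok)) = ⊥ := by
  induction r generalizing T with
  | zero =>
    have : T = ∅ := by simpa using h
    subst this
    simp [Fr_succ]
  | succ r ih =>
    rw [Fr_succ]
    refine le_bot_iff.1 (iSup₂_le fun i hi => ?_)
    have h1 : (T.erase i).card ≤ r := by
      rw [Finset.card_erase_of_mem hi]; omega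
    rw [ih _ h1, Submodule.map_bot]

/-- Operators commuting with the `Uop` and preserving the supports preserve `Fr`. -/
theorem Fr_map_of_comm (Z : Vs X Tok →ₗ[ℝ] Vs X Tok)
    (hU : ∀ i f, Z (Uop i f) = Uop i (Z f)) (hT : ∀ (T : Finset Tok) f, f ∈ VT T → Z f ∈ VT T)
    (r : ℕ) (T : Finset Tok) : ∀ f ∈ (Fr r T : Submodule ℝ (Vs X Tok)), Z f ∈ Fr r T := by
  induction r generalizing T with
  | zero => exact hT T
  | succ r ih =>
    have : (Fr (r + 1) T : Submodule ℝ (Vs X Tok)) ≤ (Fr (r + 1) T).comap Z := by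
      conv_lhs => rw [Fr_succ]
      refine iSup₂_le fun i hi => ?_
      rintro _ ⟨g, hg, rfl⟩
      show Z (Uop i g) ∈ (Fr (r + 1) T : Submodule ℝ (Vs X Tok))
      rw [hU]
      exact U_mem_Fr hi (ih _ _ hg)
    exact fun f hf => this hf

/-- Relabelling preserves the level. -/
theorem Rop_Fr (r : ℕ) (S : Finset Tok) {i e : Tok} (he : e ∈ S) (hi : i ∉ S) :
    ∀ f ∈ (Fr r S : Submodule ℝ (Vs X Tok)), Rop i e f ∈ Fr r (insert i (S.erase e)) := by
  induction r generalizing S with
  | zero => exact fun f hf => Rop_mem hf he hi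
  | succ r ih =>
    have : (Fr (r + 1) S : Submodule ℝ (Vs X Tok)) ≤
        (Fr (r + 1) (insert i (S.erase e))).comap (Rop i e) := by
      conv_lhs => rw [Fr_succ]
      refine iSup₂_le fun k hk => ?_
      rintro _ ⟨g, hg, rfl⟩
      show Rop i e (Uop k g) ∈ (Fr (r + 1) (insert i (S.erase e)) : Submodule ℝ (Vs X Tok))
      rw [R_U]
      have hgV := Fr_le_VT _ _ hg
      by_cases hek : e = k
      · subst hek
        rw [Rop_kill hgV i (Finset.notMem_erase e S), map_zero, zero_add, if_pos rfl]
        refine U_mem_Fr (Finset.mem_insert_self _ _) ?_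
        rw [Finset.erase_insert (fun h => hi (Finset.mem_of_mem_erase h))]
        exact hg
      · have hik : i ≠ k := fun h => hi (h ▸ hk)
        have he' : e ∈ S.erase k := Finset.mem_erase.2 ⟨hek, he⟩
        have hi' : i ∉ S.erase k := fun h => hi (Finset.mem_of_mem_erase h)
        have h1 := ih (S.erase k) he' hi' g hg
        rw [if_neg hek, add_zero]
        have hk' : k ∈ insert i (S.erase e) :=
          Finset.mem_insert_of_mem (Finset.mem_erase.2 ⟨fun h => hek h.symm, hk⟩)
        refine U_mem_Fr hk' ?_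
        have h2 : (insert i (S.erase e)).erase k = insert i ((S.erase k).erase e) := by
          rw [Finset.erase_insert_of_ne hik, Finset.erase_right_comm]
        rw [h2]
        exact h1
    exact fun f hf => this hf

/-- `Dop e` lowers `r` by one. -/
theorem Dop_Fr (r : ℕ) (T : Finset Tok) {e : Tok} (he : e ∈ T) :
    ∀ f ∈ (Fr (r + 1) T : Submodule ℝ (Vs X Tok)), Dop e f ∈ Fr r (T.erase e) := by
  induction r generalizing T with
  | zero =>
    intro f hf
    exact Dop_mem (Fr_le_VT 1 T hf)
  | succ r ih =>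
    have : (Fr (r + 1 + 1) T : Submodule ℝ (Vs X Tok)) ≤
        (Fr (r + 1) (T.erase e)).comap (Dop e) := by
      conv_lhs => rw [Fr_succ]
      refine iSup₂_le fun i hi => ?_
      rintro _ ⟨g, hg, rfl⟩
      show Dop e (Uop i g) ∈ (Fr (r + 1) (T.erase e) : Submodule ℝ (Vs X Tok))
      rw [D_U]
      have hgV := Fr_le_VT _ _ hg
      by_cases hei : e = i
      · subst hei
        rw [Dop_kill hgV (Finset.notMem_erase e T), map_zero, zero_add, if_pos rfl,
          Eii_kill hgV (Finset.notMem_erase e T), sub_zero, E00_VT hgV]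
        exact Submodule.smul_mem _ _ hg
      · have he' : e ∈ T.erase i := Finset.mem_erase.2 ⟨hei, he⟩
        have h1 := ih (T.erase i) he' g hg
        have hi' : i ∈ T.erase e := Finset.mem_erase.2 ⟨fun h => hei h.symm, hi⟩
        have h2 : (T.erase e).erase i = (T.erase i).erase e := Finset.erase_right_comm
        rw [if_neg hei, add_zero]
        refine Submodule.sub_mem _ (U_mem_Fr hi' (by rw [h2]; exact h1)) ?_
        have h3 := Rop_Fr (r + 1) (T.erase i) he' (Finset.notMem_erase i T) g hg
        have h4 : insert i ((T.erase i).erase e) = T.erase e := by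
          rw [← h2, Finset.insert_erase hi']
        rwa [h4] at h3
    exact fun f hf => this hf

/-- Level `|T| - r` at `T`. -/
def Lev (r : ℕ) (T : Finset Tok) : Submodule ℝ (Vs X Tok) := Fr r T ⊓ orth (Fr (r + 1) T)

lemma mem_Lev {r : ℕ} {T : Finset Tok} {z : Vs X Tok} :
    z ∈ Lev r T ↔ z ∈ Fr r T ∧ ∀ y ∈ (Fr (r + 1) T : Submodule ℝ (Vs X Tok)), ip z y = 0 := Iff.rfl

lemma Lev_le_VT (r : ℕ) (T : Finset Tok) : (Lev r T : Submodule ℝ (Vs X Tok)) ≤ VT T :=
  fun _ hz => Fr_le_VT r T hz.1

/-- `Dop e` maps `Lev (r+1) T` to `Lev r (T \\ e)`. -/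
theorem Dop_Lev {r : ℕ} {T : Finset Tok} {e : Tok} (he : e ∈ T) {z : Vs X Tok}
    (hz : z ∈ Lev (r + 1) T) : Dop e z ∈ Lev r (T.erase e) := by
  refine ⟨Dop_Fr r T he z hz.1, fun y hy => ?_⟩
  rw [ip_Dop]
  exact hz.2 _ (U_mem_Fr he hy)

/-- The sharpest level is killed by all `Dop`. -/
theorem Dop_Lev_zero {T : Finset Tok} {z : Vs X Tok} (hz : z ∈ Lev 0 T) (e : Tok) : Dop e z = 0 := by
  have hzV : z ∈ VT T := hz.1
  by_cases he : e ∈ T
  · have h1 : Dop e z ∈ VT (T.erase e) := Dop_mem hzV
    have h2 := hz.2 (Uop e (Dop e z)) (U_mem_Fr he h1)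
    rw [← ip_Dop] at h2
    exact ip_self_eq_zero.1 h2
  · exact Dop_kill hzV he

/-- A criterion for being orthogonal to the next step of the filtration. -/
lemma mem_orth_Fr_succ {r : ℕ} {T : Finset Tok} {z : Vs X Tok}
    (h : ∀ i ∈ T, ∀ g ∈ (Fr r (T.erase i) : Submodule ℝ (Vs X Tok)), ip (Dop i z) g = 0) :
    ∀ y ∈ (Fr (r + 1) T : Submodule ℝ (Vs X Tok)), ip z y = 0 := by
  have : (Fr (r + 1) T : Submodule ℝ (Vs X Tok)) ≤ LinearMap.ker (ipL z) := by
    conv_lhs => rw [Fr_succ]
    refine iSup₂_le fun i hi => ?_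
    rintro _ ⟨g, hg, rfl⟩
    show ip z (Uop i g) = 0
    rw [← ip_Dop]
    exact h i hi g hg
  exact fun y hy => this hy

/-- If all `Dop` kill `z ∈ Lev (r+1) T` then `z = 0`. -/
theorem Lev_eq_zero {r : ℕ} {T : Finset Tok} {z : Vs X Tok} (hz : z ∈ Lev (r + 1) T)
    (h : ∀ e ∈ T, Dop e z = 0) : z = 0 := by
  have h1 : z ∈ (Fr 1 T : Submodule ℝ (Vs X Tok)) := Fr_anti (by omega) T hz.1
  have h2 := mem_orth_Fr_succ (r := 0) (T := T) (z := z)
    (fun i hi g _ => by rw [h i hi, ip_zero_left]) z h1
  exact ip_self_eq_zero.1 h2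

/-- Levels at the same `T` are orthogonal. -/
theorem Lev_orth {r r' : ℕ} (h : r < r') {T : Finset Tok} {z z' : Vs X Tok}
    (hz : z ∈ Lev r T) (hz' : z' ∈ Lev r' T) : ip z z' = 0 :=
  hz.2 z' (Fr_anti (by omega) T hz'.1)

/-- The number operator `L_1 = ∑_i U_i D_i`. -/
def L1 : Vs X Tok →ₗ[ℝ] Vs X Tok := ∑ i, (Uop i).comp (Dop i)

lemma L1_apply (f : Vs X Tok) : L1 f = ∑ i, Uop i (Dop i f) := by
  simp [L1, LinearMap.sum_apply]

lemma ip_L1 (f g : Vs X Tok) : ip f (L1 g) = ∑ i, ip (Dop i f) (Dop i g) := by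
  rw [L1_apply, ip_sum_right]
  exact Finset.sum_congr rfl fun i _ => (ip_Dop _ _ _).symm

lemma L1_symm (f g : Vs X Tok) : ip (L1 f) g = ip f (L1 g) := by
  rw [ip_comm, ip_L1, ip_L1]
  exact Finset.sum_congr rfl fun i _ => ip_comm _ _

lemma L1_nonneg (f : Vs X Tok) : 0 ≤ ip f (L1 f) := by
  rw [ip_L1]
  exact Finset.sum_nonneg fun i _ => ip_self_nonneg _

theorem L1_Fr (r : ℕ) (T : Finset Tok) :
    ∀ f ∈ (Fr r T : Submodule ℝ (Vs X Tok)), L1 f ∈ Fr r T := by
  intro f hf
  rw [L1_apply]
  refine Submodule.sum_mem _ fun i _ => ?_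
  by_cases hi : i ∈ T
  · cases r with
    | zero =>
      have := Uop_mem (e := i) (Dop_mem (e := i) hf) (Finset.notMem_erase i T)
      rwa [Finset.insert_erase hi] at this
    | succ r => exact U_mem_Fr hi (Dop_Fr r T hi f hf)
  · rw [Dop_kill (Fr_le_VT _ _ hf) hi, map_zero]
    exact Submodule.zero_mem _

theorem L1_Lev {r : ℕ} {T : Finset Tok} {z : Vs X Tok} (hz : z ∈ Lev r T) : L1 z ∈ Lev r T := by
  refine ⟨L1_Fr r T z hz.1, fun y hy => ?_⟩
  rw [L1_symm]
  exact hz.2 _ (L1_Fr _ _ _ hy)

/-- The commutation of `Dop e` with `L1` on `VT T`. -/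
theorem D_L1 {T : Finset Tok} {z : Vs X Tok} (hz : z ∈ VT T) {e : Tok} (he : e ∈ T) :
    Dop e (L1 z) = L1 (Dop e z) + ((Fintype.card X : ℝ) - T.card + 1) • Dop e z
      - ∑ i ∈ T.erase e, Rop i e (Dop i z) := by
  rw [L1_apply, map_sum]
  simp only [D_U]
  rw [Finset.sum_sub_distrib, Finset.sum_add_distrib]
  have h1 : (∑ i, Uop i (Dop e (Dop i z))) = L1 (Dop e z) := by
    rw [L1_apply]
    exact Finset.sum_congr rfl fun i _ => by rw [D_comm]
  have h2 : (∑ i, if e = i then Eop none none (Dop i z) else 0)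
      = ((Fintype.card X : ℝ) - T.card + 1) • Dop e z := by
    rw [Finset.sum_ite_eq Finset.univ e]
    simp only [Finset.mem_univ, if_true]
    rw [E00_VT (Dop_mem (e := e) hz), Finset.card_erase_of_mem he]
    have : 1 ≤ T.card := Finset.card_pos.2 ⟨e, he⟩
    rw [Nat.cast_sub this]
    congr 1
    push_cast
    ring
  have h3 : (∑ i, Rop i e (Dop i z)) = ∑ i ∈ T.erase e, Rop i e (Dop i z) := by
    symm
    refine Finset.sum_subset (Finset.subset_univ _) fun i _ hi => ?_
    by_cases hie : i = e
    · subst hie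
      exact Eii_kill (Dop_mem hz) (Finset.notMem_erase i T)
    · have : i ∉ T := fun h => hi (Finset.mem_erase.2 ⟨hie, h⟩)
      rw [Dop_kill hz this, map_zero]
  rw [h1, h2, h3]

lemma sum_offdiag_le (T : Finset Tok) (s : Tok → ℝ) :
    ∑ e ∈ T, ∑ i ∈ T.erase e, s e * s i ≤ ((T.card : ℝ) - 1) * ∑ e ∈ T, s e * s e := by
  have h1 : ∀ e ∈ T, ∑ i ∈ T.erase e, s e * s i = s e * (∑ i ∈ T, s i) - s e * s e := by
    intro e he
    rw [← Finset.add_sum_erase T s he, mul_add, Finset.mul_sum]
    ring
  rw [Finset.sum_congr rfl h1, Finset.sum_sub_distrib, ← Finset.sum_mul]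
  have h2 := sq_sum_le_card_mul_sum_sq (s := T) (f := s)
  have h3 : ∑ e ∈ T, s e ^ 2 = ∑ e ∈ T, s e * s e :=
    Finset.sum_congr rfl fun e _ => pow_two _
  rw [h3] at h2
  nlinarith

/-- The lower bound of `L1` on a level. -/
noncomputable def aval (N : ℝ) (r t : ℕ) : ℝ := (r : ℝ) * (N - 2 * t + r + 1)

/-- **The spectral bound**: `L1 ≥ r (N - 2t + r + 1) = u G` on `Lev r T`, with `u = r = t - j`,
`G = N - t - j + 1`. -/
theorem L1_spec (r : ℕ) : ∀ (T : Finset Tok) (z : Vs X Tok), z ∈ Lev r T →
    aval (Fintype.card X : ℝ) r T.card * ip z z ≤ ip z (L1 z) := by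
  induction r with
  | zero =>
    intro T z _
    have := L1_nonneg z
    simpa [aval] using this
  | succ r ih =>
    intro T
    refine ge_of_eigen (Lev (r + 1) T) L1 L1_symm (fun z hz => L1_Lev hz) _ ?_
    intro z hz hz0 μ hμ
    have hzV : z ∈ VT T := Lev_le_VT _ _ hz
    set N : ℝ := (Fintype.card X : ℝ) with hN
    set t : ℝ := (T.card : ℝ) with ht
    -- the norms
    let s : Tok → ℝ := fun e => nr (Dop e z)
    have hs2 : ∀ e, s e * s e = ip (Dop e z) (Dop e z) := fun e => nr_sq _
    have hsum : ip z (L1 z) = ∑ e ∈ T, s e * s e := by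
      rw [ip_L1]
      symm
      rw [← Finset.sum_subset (Finset.subset_univ T) fun e _ he => by
        rw [Dop_kill hzV he]; exact ip_zero_left _]
      exact Finset.sum_congr rfl fun e _ => hs2 e
    have hzz : 0 < ip z z := lt_of_le_of_ne (ip_self_nonneg z) fun h => hz0 (ip_self_eq_zero.1 h.symm)
    have hmu1 : ip z (L1 z) = μ * ip z z := by rw [hμ, ip_smul_right]
    have hsum_pos : 0 < ∑ e ∈ T, s e * s e := by
      rw [← hsum]
      refine lt_of_le_of_ne (L1_nonneg z) fun h => hz0 ?_
      refine Lev_eq_zero hz fun e he => ?_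
      have h2 := (Finset.sum_eq_zero_iff_of_nonneg (fun e _ => mul_self_nonneg (s e))).1
        (hsum ▸ h.symm) e he
      rw [hs2] at h2
      exact ip_self_eq_zero.1 h2
    have hμpos : 0 < μ := by
      have : 0 < μ * ip z z := by rw [← hmu1, hsum]; exact hsum_pos
      exact (pos_iff_pos_of_mul_pos this).2 hzz
    -- the main identity
    have h_main : μ * μ * ip z z = ∑ e ∈ T, ip (Dop e z) (Dop e (L1 z)) := by
      have h1 : ip (L1 z) (L1 z) = μ * μ * ip z z := by
        rw [hμ, ip_smul_left, ip_smul_right]; ring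
      rw [← h1, L1_symm, ip_L1]
      symm
      exact Finset.sum_subset (Finset.subset_univ T) fun e _ he => by
        rw [Dop_kill hzV he]; exact ip_zero_left _
    have h_term : ∀ e ∈ T, (aval N r (T.card - 1) + N - t + 1) * (s e * s e)
        - ∑ i ∈ T.erase e, s e * s i ≤ ip (Dop e z) (Dop e (L1 z)) := by
      intro e he
      rw [D_L1 hzV he, ip_sub_right, ip_add_right, ip_smul_right, ip_sum_right]
      have h1 := ih (T.erase e) (Dop e z) (Dop_Lev he hz)
      rw [Finset.card_erase_of_mem he] at h1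
      have h2 : ∑ i ∈ T.erase e, ip (Dop e z) (Rop i e (Dop i z)) ≤ ∑ i ∈ T.erase e, s e * s i := by
        refine Finset.sum_le_sum fun i hi => ?_
        have hi1 : i ∈ T := Finset.mem_of_mem_erase hi
        have hie : i ≠ e := Finset.ne_of_mem_erase hi
        have h3 := ip_le_nr_mul (Dop e z) (Rop i e (Dop i z))
        have h4 : nr (Rop i e (Dop i z)) = s i := by
          show Real.sqrt _ = Real.sqrt _
          rw [ip_Rop_self (Dop_mem hzV) (Finset.mem_erase.2 ⟨hie.symm, he⟩)
            (Finset.notMem_erase i T)]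
        rw [h4] at h3
        exact h3
      rw [← hs2 e] at h1 ⊢
      rw [← hN, ← ht]
      have h6 : (aval N r (T.card - 1) + N - t + 1) * (s e * s e)
          = aval N r (T.card - 1) * (s e * s e) + (N - t + 1) * (s e * s e) := by ring
      rw [h6]
      linarith [h1, h2]
    have h_sum : (aval N r (T.card - 1) + N - t + 1 - (t - 1)) * ∑ e ∈ T, s e * s e
        ≤ μ * μ * ip z z := by
      rw [h_main]
      have h1 := Finset.sum_le_sum h_term
      rw [Finset.sum_sub_distrib, ← Finset.mul_sum] at h1
      have h2 := sum_offdiag_le T s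
      nlinarith [h1, h2]
    rw [← hsum, hmu1] at h_sum
    have h3 : (aval N r (T.card - 1) + N - t + 1 - (t - 1)) ≤ μ := by
      have : (aval N r (T.card - 1) + N - t + 1 - (t - 1)) * (μ * ip z z) ≤ μ * (μ * ip z z) := by
        linarith
      exact le_of_mul_le_mul_right this (mul_pos hμpos hzz)
    have h4 : aval N (r + 1) T.card = aval N r (T.card - 1) + N - t + 1 - (t - 1) := by
      unfold aval
      have hpos : 1 ≤ T.card := by
        by_contra hc
        have : T = ∅ := by simpa using hc
        subst this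
        exact absurd (Finset.sum_empty (f := fun e => s e * s e)) (ne_of_gt hsum_pos)
      rw [Nat.cast_sub hpos]
      push_cast
      rw [← ht]
      ring
    rw [h4]
    exact h3

end Crest.Agent.S0222Lib.FRCore
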