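import Crest.Agent.S0222Lib.Site

/-!
# Tensor products of matrices indexed by positions (operators on words)

`tp A` is the matrix on words `κ → ι` with entries `∏ k, A k (w k) (w' k)`.
-/

set_option autoImplicit false

namespace Crest.Agent.S0222Lib.Site

open Matrix
open scoped Kronecker ComplexOrder

variable {κ ι : Type*} [Fintype κ] [DecidableEq κ] [Fintype ι] [DecidableEq ι]

/-- Tensor product over positions: an operator on words. -/
def tp (A : κ → Matrix ι ι ℂ) : Matrix (κ → ι) (κ → ι) ℂ :=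
  Matrix.of fun w w' => ∏ k, A k (w k) (w' k)

@[simp] lemma tp_apply (A : κ → Matrix ι ι ℂ) (w w' : κ → ι) :
    tp A w w' = ∏ k, A k (w k) (w' k) := rfl

lemma tp_mul (A B : κ → Matrix ι ι ℂ) : tp A * tp B = tp (fun k => A k * B k) := by
  ext w w'
  simp only [Matrix.mul_apply, tp_apply]
  rw [Finset.prod_univ_sum]
  simp only [Fintype.piFinset_univ, Finset.prod_mul_distrib]

lemma tp_one : tp (fun _ : κ => (1 : Matrix ι ι ℂ)) = 1 := by
  ext w w'
  simp only [tp_apply, Matrix.one_apply]
  by_cases h : w = w'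
  · subst h; simp
  · rw [if_neg h]
    obtain ⟨k, hk⟩ := Function.ne_iff.mp h
    apply Finset.prod_eq_zero (Finset.mem_univ k)
    rw [if_neg hk]

lemma tp_conjTranspose (A : κ → Matrix ι ι ℂ) :
    (tp A)ᴴ = tp (fun k => (A k)ᴴ) := by
  ext w w'
  simp [Matrix.conjTranspose_apply, star_prod]

lemma tp_isHermitian {A : κ → Matrix ι ι ℂ} (h : ∀ k, (A k).IsHermitian) :
    (tp A).IsHermitian := by
  unfold Matrix.IsHermitian
  rw [tp_conjTranspose]
  congr 1
  funext k
  exact (h k).eq

lemma tp_posSemidef {A : κ → Matrix ι ι ℂ} (h : ∀ k, (A k).PosSemidef) :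
    (tp A).PosSemidef := by
  choose B hB using fun k => eq_conjTranspose_mul_self_of_psd (h k)
  have : tp A = (tp B)ᴴ * tp B := by
    rw [tp_conjTranspose, tp_mul]
    congr 1
    funext k
    exact hB k
  rw [this]
  exact posSemidef_conjTranspose_mul_self _

lemma tp_trace (A : κ → Matrix ι ι ℂ) : (tp A).trace = ∏ k, (A k).trace := by
  simp only [Matrix.trace, Matrix.diag_apply, tp_apply]
  rw [Finset.prod_univ_sum, Fintype.piFinset_univ]

/-- `tp` is additive in each single position. -/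
lemma tp_update_add (A : κ → Matrix ι ι ℂ) (k : κ) (X Y : Matrix ι ι ℂ) :
    tp (Function.update A k (X + Y)) = tp (Function.update A k X) + tp (Function.update A k Y) := by
  ext w w'
  simp only [tp_apply, Matrix.add_apply]
  rw [← Finset.mul_prod_erase Finset.univ _ (Finset.mem_univ k),
    ← Finset.mul_prod_erase Finset.univ _ (Finset.mem_univ k),
    ← Finset.mul_prod_erase Finset.univ _ (Finset.mem_univ k)]
  have e : ∀ Z : Matrix ι ι ℂ, ∏ x ∈ Finset.univ.erase k, (Function.update A k Z) x (w x) (w' x) =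
      ∏ x ∈ Finset.univ.erase k, A x (w x) (w' x) := by
    intro Z
    apply Finset.prod_congr rfl
    intro x hx
    rw [Function.update_of_ne (Finset.ne_of_mem_erase hx)]
  rw [e, e, e]
  simp only [Function.update_self, Matrix.add_apply]
  ring

/-- Monotonicity of `tp` in each position: `0 ≤ A k ≤ B k` gives `tp A ≤ tp B`. -/
theorem tp_mono {A B : κ → Matrix ι ι ℂ} (hA : ∀ k, (A k).PosSemidef)
    (hAB : ∀ k, (B k - A k).PosSemidef) : (tp B - tp A).PosSemidef := by
  classical
  have hB : ∀ k, (B k).PosSemidef := fun k => by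
    have := (hAB k).add (hA k)
    simpa using this
  -- hybrid
  set H : Finset κ → κ → Matrix ι ι ℂ := fun S k => if k ∈ S then B k else A k with hH
  have hstep : ∀ (S : Finset κ), (tp (H S) - tp A).PosSemidef := by
    intro S
    induction S using Finset.induction_on with
    | empty =>
      have : H ∅ = A := by funext k; simp [hH]
      rw [this]; simpa using PosSemidef.zero
    | insert k S hk ih =>
      have e1 : H (insert k S) = Function.update (H S) k (B k) := by
        funext j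
        by_cases hj : j = k
        · subst hj; simp [hH]
        · simp [hH, hj, Finset.mem_insert, Function.update_of_ne]
      have e2 : H S = Function.update (H S) k (A k) := by
        funext j
        by_cases hj : j = k
        · subst hj; simp [hH, hk]
        · simp [Function.update_of_ne, hj]
      have e3 : tp (Function.update (H S) k (B k)) =
          tp (Function.update (H S) k (B k - A k)) + tp (Function.update (H S) k (A k)) := by
        rw [← tp_update_add]; simp
      have hpos : (tp (Function.update (H S) k (B k - A k))).PosSemidef := by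
        apply tp_posSemidef
        intro j
        by_cases hj : j = k
        · subst hj; simpa using hAB j
        · rw [Function.update_of_ne hj]
          by_cases hjS : j ∈ S
          · simpa [hH, hjS] using hB j
          · simpa [hH, hjS] using hA j
      rw [e1, e3, ← e2]
      have : tp (Function.update (H S) k (B k - A k)) + tp (H S) - tp A =
          tp (Function.update (H S) k (B k - A k)) + (tp (H S) - tp A) := by abel
      rw [this]
      exact hpos.add ih
  have : H Finset.univ = B := by funext k; simp [hH]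
  have h := hstep Finset.univ
  rwa [this] at h

/-- Reindexing invariance of constant tensor powers. -/
lemma tp_const_reindex (A : Matrix ι ι ℂ) (σ : Equiv.Perm κ) (w w' : κ → ι) :
    tp (fun _ : κ => A) (w ∘ σ) (w' ∘ σ) = tp (fun _ : κ => A) w w' := by
  simp only [tp_apply, Function.comp]
  exact Fintype.prod_equiv σ _ _ (fun _ => rfl)

/-! ## Pair symmetrizer -/

/-- The swap on `ι × ι` as a matrix. -/
def swapM (ι : Type*) [DecidableEq ι] : Matrix (ι × ι) (ι × ι) ℂ :=
  (Equiv.prodComm ι ι).toPEquiv.toMatrix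

lemma swapM_apply (p q : ι × ι) : swapM ι p q = if p.swap = q then 1 else 0 := by
  simp [swapM, PEquiv.toMatrix_apply, Equiv.toPEquiv, Option.mem_def]

/-- The projection onto symmetric pair tensors. -/
noncomputable def Pi2 (ι : Type*) [DecidableEq ι] : Matrix (ι × ι) (ι × ι) ℂ :=
  (1 / 2 : ℂ) • (1 + swapM ι)

lemma swapM_mul_swapM : swapM ι * swapM ι = 1 := by
  ext p q
  simp only [Matrix.mul_apply, swapM_apply, Matrix.one_apply]
  rw [Finset.sum_eq_single p.swap]
  · simp [Prod.swap_swap]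
  · intro b _ hb
    simp [Ne.symm hb]
  · simp

lemma swapM_conjTranspose : (swapM ι)ᴴ = swapM ι := by
  ext p q
  simp only [conjTranspose_apply, swapM_apply]
  by_cases h : p.swap = q
  · subst h; simp
  · rw [if_neg h, if_neg]
    · simp
    · intro h2; apply h; rw [← h2]; simp

lemma Pi2_isHermitian : (Pi2 ι).IsHermitian := by
  unfold Matrix.IsHermitian Pi2
  rw [conjTranspose_smul, conjTranspose_add, conjTranspose_one, swapM_conjTranspose]
  congr 1
  simp

lemma Pi2_mul_self : Pi2 ι * Pi2 ι = Pi2 ι := by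
  unfold Pi2
  simp only [smul_mul_assoc, mul_smul_comm, smul_smul, Matrix.add_mul, Matrix.mul_add,
    Matrix.one_mul, Matrix.mul_one, swapM_mul_swapM]
  ext p q
  simp only [Matrix.smul_apply, Matrix.add_apply, smul_eq_mul]
  ring

lemma Pi2_posSemidef : (Pi2 ι).PosSemidef := by
  have := posSemidef_conjTranspose_mul_self (Pi2 ι)
  rwa [Pi2_isHermitian.eq, Pi2_mul_self] at this

lemma swapM_mul_kron_mul_swapM (a b : Matrix ι ι ℂ) :
    swapM ι * (a ⊗ₖ b) * swapM ι = b ⊗ₖ a := by
  ext p q
  have h1 : ∀ X : Matrix (ι × ι) (ι × ι) ℂ, (swapM ι * X) p = X p.swap := by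
    intro X
    ext r
    simp only [Matrix.mul_apply, swapM_apply]
    rw [Finset.sum_eq_single p.swap]
    · simp
    · intro b _ hb; simp [Ne.symm hb]
    · simp
  have h2 : ∀ (X : Matrix (ι × ι) (ι × ι) ℂ) (r : ι × ι), (X * swapM ι) r q = X r q.swap := by
    intro X r
    simp only [Matrix.mul_apply, swapM_apply]
    rw [Finset.sum_eq_single q.swap]
    · simp [Prod.swap_swap]
    · intro b _ hb
      have : b.swap ≠ q := by
        intro h; apply hb; rw [← h]; simp
      simp [this]
    · simp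
  rw [h2, h1]
  simp [Matrix.kroneckerMap_apply, mul_comm]

lemma Pi2_swap : Pi2 ι * swapM ι = Pi2 ι := by
  unfold Pi2
  simp only [smul_mul_assoc, Matrix.add_mul, Matrix.one_mul, swapM_mul_swapM]
  rw [add_comm]

lemma swap_Pi2 : swapM ι * Pi2 ι = Pi2 ι := by
  unfold Pi2
  simp only [mul_smul_comm, Matrix.mul_add, Matrix.mul_one, swapM_mul_swapM]
  rw [add_comm]

/-- `Π (a ⊗ b) Π = Π ½(a⊗b + b⊗a) Π`. -/
lemma Pi2_conj_kron (a b : Matrix ι ι ℂ) :
    Pi2 ι * (a ⊗ₖ b) * Pi2 ι = Pi2 ι * ((1 / 2 : ℂ) • (a ⊗ₖ b + b ⊗ₖ a)) * Pi2 ι := by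
  have h : Pi2 ι * (b ⊗ₖ a) * Pi2 ι = Pi2 ι * (a ⊗ₖ b) * Pi2 ι := by
    rw [← swapM_mul_kron_mul_swapM a b]
    calc Pi2 ι * (swapM ι * (a ⊗ₖ b) * swapM ι) * Pi2 ι
        = (Pi2 ι * swapM ι) * (a ⊗ₖ b) * (swapM ι * Pi2 ι) := by simp only [Matrix.mul_assoc]
      _ = _ := by rw [Pi2_swap, swap_Pi2]
  rw [mul_smul_comm, smul_mul_assoc, Matrix.mul_add, Matrix.add_mul, h]
  ext p q
  simp only [Matrix.smul_apply, Matrix.add_apply, smul_eq_mul]
  ring

/-- `c ⊗ c` commutes with the pair symmetrizer. -/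
lemma Pi2_comm_kron (c : Matrix ι ι ℂ) : Pi2 ι * (c ⊗ₖ c) = (c ⊗ₖ c) * Pi2 ι := by
  have h : swapM ι * (c ⊗ₖ c) = (c ⊗ₖ c) * swapM ι := by
    have := swapM_mul_kron_mul_swapM c c
    calc swapM ι * (c ⊗ₖ c) = swapM ι * (c ⊗ₖ c) * (swapM ι * swapM ι) := by
          rw [swapM_mul_swapM, Matrix.mul_one]
      _ = (swapM ι * (c ⊗ₖ c) * swapM ι) * swapM ι := by simp only [Matrix.mul_assoc]
      _ = _ := by rw [this]
  unfold Pi2
  simp only [smul_mul_assoc, mul_smul_comm, Matrix.add_mul, Matrix.mul_add, Matrix.one_mul,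
    Matrix.mul_one, h]

/-- The projected site inequality on the whole space:
`Π (a ⊗ b) Π ≤ (c ⊗ c) Π` when `c² = (a² + b²)/2`. -/
theorem site_proj {a b c : Matrix ι ι ℂ} (ha : a.IsHermitian) (hb : b.IsHermitian)
    (hc : c.PosSemidef) (h : c * c = (1 / 2 : ℂ) • (a * a + b * b)) :
    ((c ⊗ₖ c) * Pi2 ι - Pi2 ι * (a ⊗ₖ b) * Pi2 ι).PosSemidef := by
  have hs := site_cross ha hb hc h
  have hconj := hs.conjTranspose_mul_mul_same (Pi2 ι)
  rw [Pi2_isHermitian.eq, Matrix.mul_sub, Matrix.sub_mul] at hconj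
  rw [Pi2_conj_kron a b]
  have e : Pi2 ι * (c ⊗ₖ c) * Pi2 ι = (c ⊗ₖ c) * Pi2 ι := by
    rw [Pi2_comm_kron, Matrix.mul_assoc, Pi2_mul_self]
  rwa [e] at hconj

lemma kron_mul_Pi2_psd {c : Matrix ι ι ℂ} (hc : c.PosSemidef) : ((c ⊗ₖ c) * Pi2 ι).PosSemidef := by
  have h1 := (hc.kronecker hc).conjTranspose_mul_mul_same (Pi2 ι)
  rw [Pi2_isHermitian.eq, Pi2_comm_kron, Matrix.mul_assoc, Pi2_mul_self] at h1
  exact h1

/-- The doubled tensor inequality: with `P = tp Π`,
`P (a^{⊗κ} ⊗ b^{⊗κ}) P ≤ (c^{⊗κ} ⊗ c^{⊗κ}) P`,  written on words `κ → ι × ι`. -/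
theorem tp_site_proj {a b c : Matrix ι ι ℂ} (ha : a.PosSemidef) (hb : b.PosSemidef)
    (hc : c.PosSemidef) (h : c * c = (1 / 2 : ℂ) • (a * a + b * b)) :
    (tp (fun _ : κ => (c ⊗ₖ c) * Pi2 ι) -
      tp (fun _ : κ => Pi2 ι * (a ⊗ₖ b) * Pi2 ι)).PosSemidef := by
  refine tp_mono (fun _ => ?_) (fun _ => site_proj ha.isHermitian hb.isHermitian hc h)
  have := (ha.kronecker hb).conjTranspose_mul_mul_same (Pi2 ι)
  rwa [Pi2_isHermitian.eq] at this

end Crest.Agent.S0222Lib.Site
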