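import Crest.Agent.S0222Lib.Pass
import Crest.Agent.S0222Lib.WordTensor

/-!
# S0222: the shuffle acting on words

For any finite letter set `L`, permutations `g` of positions act on functions on words:
`(rhoG L g f)(w) = f (w ∘ g)`.  This file gives

* `rhoG`, `rhoHom`, `rho : ℝ[Perm X] →ₐ[ℝ] Matrix (X → L) (X → L) ℂ`;
* the *recursive* operators `Tw L D`, `Zw L D` on words `B D → L`, with
  `Tw L 0 = 1`, `Tw L (D+1) = (dbl (Tw L D) (Tw L D) * P)` reindexed along
  `pairE : (B (D+1) → L) ≃ (B D → L × L)`, and `Zw L D = (Tw L D)ᴴ * Tw L D`, so that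
  `Zw L (D+1)` is `P (Zw ⊗ Zw) P` reindexed (`Zw_succ`);
* `Tw_succ_eq_rho : Tw L (d+1) = rho L (passA d)`: the recursion is the shuffle;
* content preservation: `Zw_ne_zero` (`Zw L D w w' ≠ 0 → ∃ g, w' = w ∘ g`);
* tree automorphisms `IsAut` (rooted at the lowest bit) and the bi-invariance
  `rhoG_mul_Zw_mul_rhoG : rhoG L g * Zw L D * rhoG L h = Zw L D`.
-/

set_option autoImplicit false
set_option linter.unusedSectionVars false
set_option linter.unusedSimpArgs false
set_option linter.unnecessarySimpa false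

namespace Crest.Agent.S0222Lib.WordRep

open Matrix MonoidAlgebra
open scoped ComplexOrder
open Crest.Agent.S0222Lib Crest.Agent.S0222Lib.Site

section RhoG

variable {X : Type*} [Fintype X] [DecidableEq X] (L : Type*) [Fintype L] [DecidableEq L]

/-- The action of a permutation of the positions on functions on words:
`(rhoG L g f)(w) = f (w ∘ g)`. -/
def rhoG (g : Equiv.Perm X) : Matrix (X → L) (X → L) ℂ :=
  Matrix.of fun w w' => if w' = w ∘ g then 1 else 0

variable {L}

@[simp] lemma rhoG_apply (g : Equiv.Perm X) (w w' : X → L) :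
    rhoG L g w w' = if w' = w ∘ g then 1 else 0 := rfl

lemma rhoG_mul_apply (g : Equiv.Perm X) {m : Type*} [Fintype m] (A : Matrix (X → L) m ℂ)
    (w : X → L) (q : m) : (rhoG L g * A) w q = A (w ∘ g) q := by
  simp only [Matrix.mul_apply, rhoG_apply]
  rw [Finset.sum_eq_single (w ∘ g)]
  · simp
  · intro b _ hb; simp [hb]
  · simp

lemma mul_rhoG_apply (g : Equiv.Perm X) {m : Type*} [Fintype m] (A : Matrix m (X → L) ℂ)
    (p : m) (w' : X → L) : (A * rhoG L g) p w' = A p (w' ∘ ⇑g⁻¹) := by
  simp only [Matrix.mul_apply, rhoG_apply]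
  rw [Finset.sum_eq_single (w' ∘ ⇑g⁻¹)]
  · have : w' = w' ∘ ⇑g⁻¹ ∘ ⇑g := by funext x; simp
    rw [if_pos (by simpa [Function.comp_assoc] using this)]
    simp
  · intro b _ hb
    rw [if_neg, mul_zero]
    intro h
    apply hb
    rw [h]
    funext x
    simp
  · simp

lemma rhoG_mulVec (g : Equiv.Perm X) (f : (X → L) → ℂ) (w : X → L) :
    (rhoG L g *ᵥ f) w = f (w ∘ g) := by
  simp only [Matrix.mulVec, dotProduct, rhoG_apply]
  rw [Finset.sum_eq_single (w ∘ g)]
  · simp
  · intro b _ hb; simp [hb]
  · simp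

@[simp] lemma rhoG_one : rhoG L (1 : Equiv.Perm X) = 1 := by
  ext w w'
  simp only [rhoG_apply, Matrix.one_apply]
  by_cases h : w = w'
  · subst h; simp
  · rw [if_neg h, if_neg]
    intro h2
    apply h
    rw [h2]
    rfl

lemma rhoG_mul (g h : Equiv.Perm X) : rhoG L (g * h) = rhoG L g * rhoG L h := by
  ext w w'
  rw [rhoG_mul_apply]
  simp only [rhoG_apply]
  rfl

lemma rhoG_conjTranspose (g : Equiv.Perm X) : (rhoG L g)ᴴ = rhoG L g⁻¹ := by
  ext w w'
  simp only [conjTranspose_apply, rhoG_apply]
  by_cases h : w = w' ∘ g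
  · have : w' = w ∘ ⇑g⁻¹ := by rw [h]; funext x; simp
    rw [if_pos h, if_pos this]
    simp
  · rw [if_neg h, if_neg]
    · simp
    · intro h2
      apply h
      rw [h2]
      funext x
      simp

lemma rhoG_mul_inv (g : Equiv.Perm X) : rhoG L g * rhoG L g⁻¹ = 1 := by
  rw [← rhoG_mul, mul_inv_cancel, rhoG_one]

lemma rhoG_inv_mul (g : Equiv.Perm X) : rhoG L g⁻¹ * rhoG L g = 1 := by
  rw [← rhoG_mul, inv_mul_cancel, rhoG_one]

/-- The word representation as a monoid homomorphism. -/
def rhoHom : Equiv.Perm X →* Matrix (X → L) (X → L) ℂ where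
  toFun := rhoG L
  map_one' := rhoG_one
  map_mul' := rhoG_mul

variable (L) in
/-- The word representation of the group algebra. -/
noncomputable def rho : MonoidAlgebra ℝ (Equiv.Perm X) →ₐ[ℝ] Matrix (X → L) (X → L) ℂ :=
  MonoidAlgebra.lift ℝ _ _ (rhoHom (X := X) (L := L))

@[simp] lemma rho_single (g : Equiv.Perm X) (r : ℝ) : rho L (single g r) = r • rhoG L g := by
  simp [rho, rhoHom]

/-- Constant tensor powers commute with the position action. -/
lemma rhoG_mul_tp_const (g : Equiv.Perm X) {ι : Type*} [Fintype ι] [DecidableEq ι] [DecidableEq (X → ι)]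
    (a : Matrix ι ι ℂ) :
    rhoG ι g * tp (fun _ : X => a) = tp (fun _ : X => a) * rhoG ι g := by
  ext w w'
  rw [rhoG_mul_apply, mul_rhoG_apply]
  have := tp_const_reindex a g w (w' ∘ ⇑g⁻¹)
  rw [← this]
  congr 1
  funext x
  simp

end RhoG

/-! ## Pair words and the doubled operator -/

section Dbl

variable {κ L : Type*} [Fintype κ] [DecidableEq κ] [Fintype L] [DecidableEq L]

/-- The tensor product of two operators on words, as an operator on pair-words. -/
def dbl (A A' : Matrix (κ → L) (κ → L) ℂ) : Matrix (κ → L × L) (κ → L × L) ℂ :=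
  Matrix.of fun p q => A (fun k => (p k).1) (fun k => (q k).1) * A' (fun k => (p k).2) (fun k => (q k).2)

@[simp] lemma dbl_apply (A A' : Matrix (κ → L) (κ → L) ℂ) (p q : κ → L × L) :
    dbl A A' p q = A (fun k => (p k).1) (fun k => (q k).1) * A' (fun k => (p k).2) (fun k => (q k).2) :=
  rfl

/-- Pair words are pairs of words. -/
def unzipE : (κ → L × L) ≃ (κ → L) × (κ → L) where
  toFun p := (fun k => (p k).1, fun k => (p k).2)
  invFun w := fun k => (w.1 k, w.2 k)
  left_inv _ := rfl
  right_inv _ := rfl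

lemma dbl_mul (A A' C C' : Matrix (κ → L) (κ → L) ℂ) :
    dbl A A' * dbl C C' = dbl (A * C) (A' * C') := by
  ext p q
  simp only [Matrix.mul_apply, dbl_apply]
  rw [← Equiv.sum_comp (unzipE (κ := κ) (L := L)).symm]
  rw [Fintype.sum_prod_type, Finset.sum_mul_sum]
  refine Finset.sum_congr rfl (fun v _ => Finset.sum_congr rfl (fun v' _ => ?_))
  simp only [unzipE, Equiv.coe_fn_symm_mk]
  ring

lemma dbl_one : dbl (1 : Matrix (κ → L) (κ → L) ℂ) 1 = 1 := by
  ext p q
  simp only [dbl_apply, Matrix.one_apply]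
  by_cases h : p = q
  · subst h; simp
  · rw [if_neg h]
    obtain ⟨k, hk⟩ := Function.ne_iff.mp h
    by_cases h1 : (p k).1 = (q k).1
    · have h2 : (p k).2 ≠ (q k).2 := fun h2 => hk (Prod.ext h1 h2)
      have h3 : ¬ ((fun k => (p k).2) = fun k => (q k).2) := fun h3 => h2 (congrFun h3 k)
      rw [if_neg h3, mul_zero]
    · have h3 : ¬ ((fun k => (p k).1) = fun k => (q k).1) := fun h3 => h1 (congrFun h3 k)
      rw [if_neg h3, zero_mul]

lemma dbl_conjTranspose (A A' : Matrix (κ → L) (κ → L) ℂ) : (dbl A A')ᴴ = dbl Aᴴ A'ᴴ := by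
  ext p q
  simp [mul_comm]

/-- `dbl A A'` is the Kronecker product reindexed. -/
lemma dbl_eq_reindex_kron (A A' : Matrix (κ → L) (κ → L) ℂ) :
    dbl A A' = Matrix.reindex unzipE.symm unzipE.symm (Matrix.kroneckerMap (· * ·) A A') := by
  ext p q
  simp [unzipE, Matrix.kroneckerMap_apply]

lemma dbl_posSemidef {A A' : Matrix (κ → L) (κ → L) ℂ} (h : A.PosSemidef) (h' : A'.PosSemidef) :
    (dbl A A').PosSemidef := by
  rw [dbl_eq_reindex_kron]
  have := h.kronecker h'
  exact (Matrix.posSemidef_submatrix_equiv _).mpr this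

end Dbl

/-! ## Bit-vector positions -/

section Join

variable {D : ℕ}

/-- Add a top bit to a permutation: act by `σ₀` on the lower half and by `σ₁` on the upper half. -/
def joinP (σ₀ σ₁ : Equiv.Perm (B D)) : Equiv.Perm (B (D + 1)) where
  toFun x := snocB ((if topB x then σ₁ else σ₀) (ini x)) (topB x)
  invFun x := snocB ((if topB x then σ₁⁻¹ else σ₀⁻¹) (ini x)) (topB x)
  left_inv x := by
    cases h : topB x <;> simp [h] <;> (rw [← h]; simp)
  right_inv x := by
    cases h : topB x <;> simp [h] <;> (rw [← h]; simp)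

@[simp] lemma joinP_apply (σ₀ σ₁ : Equiv.Perm (B D)) (x : B (D + 1)) :
    joinP σ₀ σ₁ x = snocB ((if topB x then σ₁ else σ₀) (ini x)) (topB x) := rfl

lemma joinP_eq_joinPerm {d : ℕ} (σ₀ σ₁ : Equiv.Perm (B (d + 1))) :
    joinP σ₀ σ₁ = joinPerm σ₀ σ₁ := rfl

/-- Flip the top bit according to a coin depending on the lower bits. -/
def flipT (c : Coin D) : Equiv.Perm (B (D + 1)) where
  toFun x := snocB (ini x) (xor (topB x) (c (ini x)))
  invFun x := snocB (ini x) (xor (topB x) (c (ini x)))
  left_inv x := by simp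
  right_inv x := by simp

@[simp] lemma flipT_apply (c : Coin D) (x : B (D + 1)) :
    flipT c x = snocB (ini x) (xor (topB x) (c (ini x))) := rfl

lemma flipT_eq_flipTop {d : ℕ} (c : Coin (d + 1)) : flipT c = flipTop c := rfl

variable (L : Type*) [Fintype L] [DecidableEq L]

/-- Words on `D + 1` bits are pair-words on `D` bits. -/
def pairE (D : ℕ) : (B (D + 1) → L) ≃ (B D → L × L) where
  toFun w := fun u => (w (snocB u false), w (snocB u true))
  invFun p := fun x => if topB x then (p (ini x)).2 else (p (ini x)).1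
  left_inv w := by
    funext x
    cases h : topB x <;> simp only [h, if_true, if_false, Bool.false_eq_true] <;> (rw [← h]; simp)
  right_inv p := by
    funext u
    simp

variable {L}

@[simp] lemma pairE_apply (w : B (D + 1) → L) (u : B D) :
    pairE L D w u = (w (snocB u false), w (snocB u true)) := rfl

lemma pairE_symm_snoc (p : B D → L × L) (u : B D) (b : Bool) :
    (pairE L D).symm p (snocB u b) = if b then (p u).2 else (p u).1 := by
  simp [pairE]

/-- The word `w` evaluated at `x`, in terms of its pair-word. -/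
lemma eval_eq_pairE (w : B (D + 1) → L) (x : B (D + 1)) :
    w x = if topB x then (pairE L D w (ini x)).2 else (pairE L D w (ini x)).1 := by
  cases h : topB x <;> simp only [h, if_true, if_false, Bool.false_eq_true, pairE_apply] <;>
    (rw [← h]; simp)

lemma pairE_comp_joinP (w : B (D + 1) → L) (σ₀ σ₁ : Equiv.Perm (B D)) (u : B D) :
    pairE L D (w ∘ joinP σ₀ σ₁) u = ((pairE L D w (σ₀ u)).1, (pairE L D w (σ₁ u)).2) := by
  simp [pairE_apply, Function.comp]

lemma pairE_comp_flipT (w : B (D + 1) → L) (c : Coin D) (u : B D) :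
    pairE L D (w ∘ flipT c) u = if c u then (pairE L D w u).swap else pairE L D w u := by
  cases h : c u <;> simp [pairE_apply, Function.comp, h]

/-- The word-action of `joinP` in pair-word coordinates. -/
lemma reindex_rhoG_joinP (σ₀ σ₁ : Equiv.Perm (B D)) :
    Matrix.reindex (pairE L D) (pairE L D) (rhoG L (joinP σ₀ σ₁)) = dbl (rhoG L σ₀) (rhoG L σ₁) := by
  ext p q
  simp only [reindex_apply, submatrix_apply, rhoG_apply, dbl_apply]
  have key : ((pairE L D).symm q = (pairE L D).symm p ∘ joinP σ₀ σ₁) ↔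
      ((fun k => (q k).1) = (fun k => (p k).1) ∘ σ₀) ∧ ((fun k => (q k).2) = (fun k => (p k).2) ∘ σ₁) := by
    constructor
    · intro h
      have h' : q = pairE L D ((pairE L D).symm p ∘ joinP σ₀ σ₁) := by rw [← h]; simp
      constructor
      · funext k
        rw [h', pairE_comp_joinP]
        simp only [Equiv.apply_symm_apply, Function.comp]
      · funext k
        rw [h', pairE_comp_joinP]
        simp only [Equiv.apply_symm_apply, Function.comp]
    · rintro ⟨h1, h2⟩
      apply (pairE L D).injective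
      funext u
      rw [pairE_comp_joinP]
      simp only [Equiv.apply_symm_apply]
      exact Prod.ext (congrFun h1 u) (congrFun h2 u)
  by_cases h : (pairE L D).symm q = (pairE L D).symm p ∘ joinP σ₀ σ₁
  · rw [if_pos h]
    obtain ⟨h1, h2⟩ := key.mp h
    rw [if_pos h1, if_pos h2, one_mul]
  · rw [if_neg h]
    by_cases h1 : (fun k => (q k).1) = (fun k => (p k).1) ∘ σ₀
    · have h2 : ¬ (fun k => (q k).2) = (fun k => (p k).2) ∘ σ₁ := fun h2 => h (key.mpr ⟨h1, h2⟩)
      rw [if_neg h2, mul_zero]
    · rw [if_neg h1, zero_mul]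

/-- The word-action of a top flip in pair-word coordinates. -/
lemma reindex_rhoG_flipT (c : Coin D) :
    Matrix.reindex (pairE L D) (pairE L D) (rhoG L (flipT c)) =
      tp (fun u => if c u then swapM L else 1) := by
  ext p q
  simp only [reindex_apply, submatrix_apply, rhoG_apply, tp_apply]
  have key : ((pairE L D).symm q = (pairE L D).symm p ∘ flipT c) ↔
      ∀ u, q u = if c u then (p u).swap else p u := by
    constructor
    · intro h u
      have h' : q = pairE L D ((pairE L D).symm p ∘ flipT c) := by rw [← h]; simp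
      rw [h', pairE_comp_flipT]
      simp only [Equiv.apply_symm_apply]
    · intro h
      apply (pairE L D).injective
      funext u
      rw [pairE_comp_flipT]
      simp only [Equiv.apply_symm_apply]
      exact h u
  have hent : ∀ u, (if c u then swapM L else (1 : Matrix (L × L) (L × L) ℂ)) (p u) (q u) =
      if q u = (if c u then (p u).swap else p u) then 1 else 0 := by
    intro u
    cases h : c u
    · simp only [Bool.false_eq_true, if_false, Matrix.one_apply]
      by_cases h' : p u = q u
      · rw [if_pos h', if_pos h'.symm]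
      · rw [if_neg h', if_neg (Ne.symm h')]
    · simp only [if_true, swapM_apply]
      by_cases h' : (p u).swap = q u
      · rw [if_pos h', if_pos h'.symm]
      · rw [if_neg h', if_neg (Ne.symm h')]
  simp_rw [hent]
  by_cases h : (pairE L D).symm q = (pairE L D).symm p ∘ flipT c
  · rw [if_pos h]
    have := key.mp h
    symm
    apply Finset.prod_eq_one
    intro u _
    rw [if_pos (this u)]
  · rw [if_neg h]
    rw [key] at h
    push Not at h
    obtain ⟨u, hu⟩ := h
    symm
    apply Finset.prod_eq_zero (Finset.mem_univ u)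
    rw [if_neg hu]

/-- The average of the top flips is the pair symmetrizer. -/
lemma sum_tp_flips :
    (((Fintype.card (Coin D) : ℝ)⁻¹) • ∑ c : Coin D, tp (fun u => if c u then swapM L else 1)) =
      (tp (fun _ : B D => Pi2 L) : Matrix (B D → L × L) (B D → L × L) ℂ) := by
  ext p q
  simp only [Matrix.smul_apply, Matrix.sum_apply, tp_apply]
  have h := Finset.prod_univ_sum (fun _ : B D => (Finset.univ : Finset Bool))
    (fun u b => (if b then swapM L else (1 : Matrix (L × L) (L × L) ℂ)) (p u) (q u))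
  rw [Fintype.piFinset_univ] at h
  have h2 : ∑ c : Coin D, ∏ u, (if c u then swapM L else (1 : Matrix (L × L) (L × L) ℂ)) (p u) (q u) =
      ∏ u : B D, ∑ b : Bool, (if b then swapM L else (1 : Matrix (L × L) (L × L) ℂ)) (p u) (q u) :=
    h.symm
  rw [h2]
  have hPi : ∀ u : B D, Pi2 L (p u) (q u) = (1 / 2 : ℂ) *
      ∑ b : Bool, (if b then swapM L else (1 : Matrix (L × L) (L × L) ℂ)) (p u) (q u) := by
    intro u
    simp [Pi2, Matrix.smul_apply, Matrix.add_apply, add_comm]
  simp_rw [hPi]
  rw [Finset.prod_mul_distrib]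
  simp only [Finset.prod_const, Finset.card_univ]
  rw [Complex.real_smul]
  congr 1
  simp only [Coin, B, Fintype.card_fun, Fintype.card_bool, Fintype.card_fin]
  push_cast
  simp [one_div]

end Join

/-! ## Linearity of `dbl` -/

section DblLin

variable {κ L : Type*} [Fintype κ] [DecidableEq κ] [Fintype L] [DecidableEq L]

lemma dbl_add_left (A₁ A₂ A' : Matrix (κ → L) (κ → L) ℂ) :
    dbl (A₁ + A₂) A' = dbl A₁ A' + dbl A₂ A' := by
  ext p q; simp [add_mul]

lemma dbl_add_right (A A₁ A₂ : Matrix (κ → L) (κ → L) ℂ) :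
    dbl A (A₁ + A₂) = dbl A A₁ + dbl A A₂ := by
  ext p q; simp [mul_add]

@[simp] lemma dbl_zero_left (A' : Matrix (κ → L) (κ → L) ℂ) : dbl 0 A' = 0 := by
  ext p q; simp

@[simp] lemma dbl_zero_right (A : Matrix (κ → L) (κ → L) ℂ) : dbl A 0 = 0 := by
  ext p q; simp

lemma dbl_smul_left (r : ℝ) (A A' : Matrix (κ → L) (κ → L) ℂ) :
    dbl (r • A) A' = r • dbl A A' := by
  ext p q; simp [mul_assoc]

lemma dbl_smul_right (r : ℝ) (A A' : Matrix (κ → L) (κ → L) ℂ) :
    dbl A (r • A') = r • dbl A A' := by
  ext p q; simp [mul_left_comm]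

/-- `rhoG` on pair-words is the doubled `rhoG`. -/
lemma dbl_rhoG_self (g : Equiv.Perm κ) : dbl (rhoG L g) (rhoG L g) = rhoG (L × L) g := by
  ext p q
  simp only [dbl_apply, rhoG_apply]
  by_cases h : q = p ∘ g
  · rw [if_pos h, if_pos, if_pos, one_mul]
    · subst h; rfl
    · subst h; rfl
  · rw [if_neg h]
    by_cases h1 : (fun k => (q k).1) = (fun k => (p k).1) ∘ g
    · have h2 : ¬ (fun k => (q k).2) = (fun k => (p k).2) ∘ g := by
        intro h2
        apply h
        funext k
        exact Prod.ext (congrFun h1 k) (congrFun h2 k)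
      rw [if_neg h2, mul_zero]
    · rw [if_neg h1, zero_mul]

end DblLin

/-! ## The recursive operators -/

section Rec

variable (L : Type*) [Fintype L] [DecidableEq L]

/-- The symmetrizer `P = ⊗_u Π` on pair-words. -/
noncomputable def PP (D : ℕ) : Matrix (B D → L × L) (B D → L × L) ℂ :=
  tp (fun _ : B D => Pi2 L)

lemma PP_isHermitian (D : ℕ) : (PP L D).IsHermitian :=
  tp_isHermitian (fun _ => Pi2_isHermitian)

lemma PP_mul_self (D : ℕ) : PP L D * PP L D = PP L D := by
  unfold PP
  rw [tp_mul]
  simp only [Pi2_mul_self]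

lemma PP_posSemidef (D : ℕ) : (PP L D).PosSemidef :=
  tp_posSemidef (fun _ => Pi2_posSemidef)

/-- One pass on words, defined recursively: `T_{2N} = (T_N ⊗ T_N) P`. -/
noncomputable def Tw : (D : ℕ) → Matrix (B D → L) (B D → L) ℂ
  | 0 => 1
  | D + 1 => Matrix.reindex (pairE L D).symm (pairE L D).symm (dbl (Tw D) (Tw D) * PP L D)

/-- The square `Z_N = T_N^* T_N` on words. -/
noncomputable def Zw (D : ℕ) : Matrix (B D → L) (B D → L) ℂ := (Tw L D)ᴴ * Tw L D

@[simp] lemma Tw_zero : Tw L 0 = 1 := rfl

@[simp] lemma Zw_zero : Zw L 0 = 1 := by simp [Zw]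

lemma reindex_Tw_succ (D : ℕ) :
    Matrix.reindex (pairE L D) (pairE L D) (Tw L (D + 1)) = dbl (Tw L D) (Tw L D) * PP L D := by
  ext p q
  simp [Tw, Matrix.reindex_apply]

lemma Zw_isHermitian (D : ℕ) : (Zw L D).IsHermitian := by
  unfold Zw Matrix.IsHermitian
  simp [Matrix.conjTranspose_mul]

lemma Zw_posSemidef (D : ℕ) : (Zw L D).PosSemidef :=
  posSemidef_conjTranspose_mul_self _

lemma reindex_mul' {m : Type*} [Fintype m] {m' : Type*} [Fintype m'] (e : m ≃ m')
    (A C : Matrix m m ℂ) :
    Matrix.reindex e e (A * C) = Matrix.reindex e e A * Matrix.reindex e e C := by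
  simp only [Matrix.reindex_apply]
  rw [Matrix.submatrix_mul_equiv]

/-- **The recursion of `Z`**: `Z_{2N} = P (Z_N ⊗ Z_N) P`, in pair-word coordinates. -/
theorem reindex_Zw_succ (D : ℕ) :
    Matrix.reindex (pairE L D) (pairE L D) (Zw L (D + 1)) =
      PP L D * dbl (Zw L D) (Zw L D) * PP L D := by
  unfold Zw
  rw [reindex_mul', ← Matrix.conjTranspose_reindex, reindex_Tw_succ, Matrix.conjTranspose_mul,
    (PP_isHermitian L D).eq, dbl_conjTranspose,
    ← Matrix.mul_assoc, Matrix.mul_assoc (PP L D), dbl_mul]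

/-- The entrywise form of the recursion of `Z`. -/
theorem Zw_succ (D : ℕ) (w w' : B (D + 1) → L) :
    Zw L (D + 1) w w' =
      (PP L D * dbl (Zw L D) (Zw L D) * PP L D) (pairE L D w) (pairE L D w') := by
  rw [← reindex_Zw_succ]
  simp [Matrix.reindex_apply]

/-! ### Agreement with the shuffle -/

lemma reindex_rho_stepAvg_zero :
    Matrix.reindex (pairE L 0) (pairE L 0) (rho L (stepAvg 0)) = PP L 0 := by
  have hstep : ∀ c : Coin 0, stepPermB c = flipT c := by
    intro c
    ext x i
    have hi : i = 0 := Fin.ext (by omega)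
    subst hi
    have hl : (0 : Fin 1) = Fin.last 0 := rfl
    simp only [stepPermB_apply, stepB, consB, Fin.cons_zero, flipT_apply, snocB]
    rw [hl]
    simp only [Fin.snoc_last]
  unfold PP
  rw [← sum_tp_flips]
  ext p q
  simp only [stepAvg, map_smul, map_sum, rho_single, one_smul, hstep]
  simp only [Matrix.reindex_apply, Matrix.submatrix_apply, Matrix.smul_apply, Matrix.sum_apply]
  congr 1
  refine Finset.sum_congr rfl (fun c _ => ?_)
  have := congrFun (congrFun (reindex_rhoG_flipT (L := L) c) p) q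
  simpa [Matrix.reindex_apply] using this

lemma reindex_rho_topAvg (d : ℕ) :
    Matrix.reindex (pairE L (d + 1)) (pairE L (d + 1)) (rho L (topAvg d)) = PP L (d + 1) := by
  unfold PP
  rw [← sum_tp_flips]
  ext p q
  simp only [topAvg, map_smul, map_sum, rho_single, one_smul, ← flipT_eq_flipTop]
  simp only [Matrix.reindex_apply, Matrix.submatrix_apply, Matrix.smul_apply, Matrix.sum_apply]
  congr 1
  refine Finset.sum_congr rfl (fun c _ => ?_)
  have := congrFun (congrFun (reindex_rhoG_flipT (L := L) c) p) q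
  simpa [Matrix.reindex_apply] using this

lemma reindex_smul' {m m' : Type*} (e : m ≃ m') (r : ℝ) (A : Matrix m m ℂ) :
    Matrix.reindex e e (r • A) = r • Matrix.reindex e e A := by
  ext p q; simp [Matrix.reindex_apply]

lemma reindex_add' {m m' : Type*} (e : m ≃ m') (A C : Matrix m m ℂ) :
    Matrix.reindex e e (A + C) = Matrix.reindex e e A + Matrix.reindex e e C := by
  ext p q; simp [Matrix.reindex_apply]

lemma reindex_rho_join (d : ℕ) (x y : GA d) :
    Matrix.reindex (pairE L (d + 1)) (pairE L (d + 1))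
        (rho L (mapDomainAlgHom ℝ ℝ (ι₀ d) x * mapDomainAlgHom ℝ ℝ (ι₁ d) y)) =
      dbl (rho L x) (rho L y) := by
  classical
  induction x using MonoidAlgebra.induction_linear with
  | zero => ext p q; simp [Matrix.reindex_apply]
  | add x₁ x₂ h₁ h₂ =>
    rw [map_add, add_mul, map_add, reindex_add', h₁, h₂, map_add, dbl_add_left]
  | single σ₀ r₀ =>
    induction y using MonoidAlgebra.induction_linear with
    | zero => ext p q; simp [Matrix.reindex_apply]
    | add y₁ y₂ h₁ h₂ =>
      rw [map_add, mul_add, map_add, reindex_add', h₁, h₂, map_add, dbl_add_right]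
    | single σ₁ r₁ =>
      simp only [mapDomainAlgHom_apply, mapDomain_single, single_mul_single, rho_single]
      rw [ι₀_mul_ι₁, reindex_smul', ← joinP_eq_joinPerm, reindex_rhoG_joinP, dbl_smul_left,
        dbl_smul_right, smul_smul]

/-- **The recursion is the shuffle**: one pass in the word representation. -/
theorem Tw_succ_eq_rho (d : ℕ) : Tw L (d + 1) = rho L (passA d) := by
  induction d with
  | zero =>
    apply (Matrix.reindex (pairE L 0) (pairE L 0)).injective
    rw [reindex_Tw_succ]
    have h0 : passA 0 = stepAvg 0 := by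
      unfold passA
      rw [lawAlg_eq_pow, pow_one]
    rw [h0, reindex_rho_stepAvg_zero]
    simp [dbl_one]
  | succ d ih =>
    apply (Matrix.reindex (pairE L (d + 1)) (pairE L (d + 1))).injective
    rw [reindex_Tw_succ, passA_succ, map_mul, reindex_mul', reindex_rho_join, reindex_rho_topAvg, ih]

/-- `Z` in terms of the group-algebra element of a pass. -/
theorem Zw_succ_eq_rho (d : ℕ) :
    Zw L (d + 1) = (rho L (passA d))ᴴ * rho L (passA d) := by
  unfold Zw
  rw [Tw_succ_eq_rho]

/-! ### Content preservation -/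

variable {L}

lemma rho_ne_zero {X : Type*} [Fintype X] [DecidableEq X] (x : MonoidAlgebra ℝ (Equiv.Perm X))
    (w w' : X → L) (h : rho L x w w' ≠ 0) : ∃ g : Equiv.Perm X, w' = w ∘ g := by
  classical
  induction x using MonoidAlgebra.induction_linear with
  | zero => simp at h
  | add x₁ x₂ h₁ h₂ =>
    by_cases h1 : rho L x₁ w w' = 0
    · apply h₂
      rw [map_add, Matrix.add_apply, h1, zero_add] at h
      exact h
    · exact h₁ h1
  | single g r =>
    refine ⟨g, ?_⟩
    rw [rho_single, Matrix.smul_apply, rhoG_apply] at h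
    by_contra hg
    rw [if_neg hg] at h
    simp at h

/-- The entries of `T` are supported on rearrangements. -/
theorem Tw_ne_zero {D : ℕ} {w w' : B D → L} (h : Tw L D w w' ≠ 0) :
    ∃ g : Equiv.Perm (B D), w' = w ∘ g := by
  cases D with
  | zero =>
    refine ⟨1, ?_⟩
    simp only [Tw_zero, Matrix.one_apply] at h
    have : w = w' := by
      by_contra hne
      rw [if_neg hne] at h
      exact h rfl
    subst this
    rfl
  | succ d =>
    rw [Tw_succ_eq_rho] at h
    exact rho_ne_zero _ _ _ h

/-- **Content preservation**: the entries of `Z` are supported on rearrangements. -/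
theorem Zw_ne_zero {D : ℕ} {w w' : B D → L} (h : Zw L D w w' ≠ 0) :
    ∃ g : Equiv.Perm (B D), w' = w ∘ g := by
  unfold Zw at h
  rw [Matrix.mul_apply] at h
  obtain ⟨v, -, hv⟩ := Finset.exists_ne_zero_of_sum_ne_zero h
  have h1 : Tw L D v w ≠ 0 := by
    intro h0
    apply hv
    simp [Matrix.conjTranspose_apply, h0]
  have h2 : Tw L D v w' ≠ 0 := by
    intro h0
    apply hv
    simp [h0]
  obtain ⟨g, hg⟩ := Tw_ne_zero h1
  obtain ⟨g', hg'⟩ := Tw_ne_zero h2
  refine ⟨g⁻¹ * g', ?_⟩
  rw [hg', hg]
  funext x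
  simp

/-- Rearrangements preserve the number of occurrences of each letter. -/
lemma card_fiber_comp {X : Type*} [Fintype X] [DecidableEq X] (w : X → L) (g : Equiv.Perm X) (a : L) :
    (Finset.univ.filter (fun x => (w ∘ g) x = a)).card = (Finset.univ.filter (fun x => w x = a)).card := by
  apply Finset.card_bij (fun x _ => g x)
  · intro x hx; simpa using hx
  · intro x _ y _ h; exact g.injective h
  · intro y hy
    refine ⟨g⁻¹ y, ?_, by simp⟩
    simpa using hy

theorem Zw_content {D : ℕ} {w w' : B D → L} (h : Zw L D w w' ≠ 0) (a : L) :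
    (Finset.univ.filter (fun x => w' x = a)).card = (Finset.univ.filter (fun x => w x = a)).card := by
  obtain ⟨g, rfl⟩ := Zw_ne_zero h
  exact card_fiber_comp w g a

/-! ### The entries are real -/

lemma rho_star_apply {X : Type*} [Fintype X] [DecidableEq X] (x : MonoidAlgebra ℝ (Equiv.Perm X))
    (w w' : X → L) : star (rho L x w w') = rho L x w w' := by
  classical
  induction x using MonoidAlgebra.induction_linear with
  | zero => simp
  | add x₁ x₂ h₁ h₂ => simp [map_add, h₁, h₂]
  | single g r =>
    rw [rho_single, Matrix.smul_apply, rhoG_apply]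
    by_cases hg : w' = w ∘ g <;> simp [hg]

theorem Tw_star_apply {D : ℕ} (w w' : B D → L) : star (Tw L D w w') = Tw L D w w' := by
  cases D with
  | zero =>
    simp only [Tw_zero, Matrix.one_apply]
    split_ifs <;> simp
  | succ d =>
    rw [Tw_succ_eq_rho]
    exact rho_star_apply _ _ _

theorem Zw_star_apply {D : ℕ} (w w' : B D → L) : star (Zw L D w w') = Zw L D w w' := by
  unfold Zw
  simp only [Matrix.mul_apply, star_sum, star_mul', conjTranspose_apply, star_star, Tw_star_apply]

/-- `Z` is symmetric. -/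
theorem Zw_symm {D : ℕ} (w w' : B D → L) : Zw L D w w' = Zw L D w' w := by
  have h := congrFun (congrFun (Zw_isHermitian L D) w) w'
  rw [Matrix.conjTranspose_apply, Zw_star_apply] at h
  exact h.symm

end Rec

/-! ## Tree automorphisms -/

section Aut

/-- `g` is an automorphism of the binary tree whose root splits on the lowest bit:
the bit `i` of `g x` is the bit `i` of `x` flipped according to the bits of `x` below `i`. -/
def IsAut {D : ℕ} (g : Equiv.Perm (B D)) : Prop :=
  ∀ (x y : B D) (i : Fin D), (∀ j, j < i → x j = y j) → xor (g x i) (x i) = xor (g y i) (y i)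

variable {D : ℕ}

lemma IsAut.one : IsAut (1 : Equiv.Perm (B D)) := by
  intro x y i _
  simp

lemma IsAut.agree {g : Equiv.Perm (B D)} (hg : IsAut g) {x y : B D} {i : Fin D}
    (h : ∀ j, j < i → x j = y j) : ∀ j, j < i → g x j = g y j := by
  intro j hj
  have h1 := hg x y j (fun k hk => h k (lt_trans hk hj))
  rw [h j hj] at h1
  cases hgx : g x j <;> cases hgy : g y j <;> cases hyj : y j <;> simp_all

lemma IsAut.mul {g h : Equiv.Perm (B D)} (hg : IsAut g) (hh : IsAut h) : IsAut (g * h) := by
  intro x y i hxy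
  have h1 := hh x y i hxy
  have h2 := hg (h x) (h y) i (hh.agree hxy)
  simp only [Equiv.Perm.mul_apply]
  cases a1 : g (h x) i <;> cases a2 : g (h y) i <;> cases a3 : h x i <;> cases a4 : h y i <;>
    cases a5 : x i <;> cases a6 : y i <;> simp_all

lemma IsAut.pow {g : Equiv.Perm (B D)} (hg : IsAut g) (n : ℕ) : IsAut (g ^ n) := by
  induction n with
  | zero => simpa using IsAut.one
  | succ n ih => rw [pow_succ]; exact ih.mul hg

lemma IsAut.inv {g : Equiv.Perm (B D)} (hg : IsAut g) : IsAut g⁻¹ := by
  have : g⁻¹ = g ^ (orderOf g - 1) := by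
    apply inv_eq_of_mul_eq_one_right
    rw [← pow_succ', Nat.sub_add_cancel (orderOf_pos g), pow_orderOf_eq_one]
  rw [this]
  exact hg.pow _

/-- The group of tree automorphisms. -/
def autGroup (D : ℕ) : Subgroup (Equiv.Perm (B D)) where
  carrier := {g | IsAut g}
  one_mem' := IsAut.one
  mul_mem' := fun ha hb => IsAut.mul ha hb
  inv_mem' := fun ha => IsAut.inv ha

lemma mem_autGroup {g : Equiv.Perm (B D)} : g ∈ autGroup D ↔ IsAut g := Iff.rfl

/-- The lower part of a tree automorphism. -/
lemma IsAut.ini_eq {g : Equiv.Perm (B (D + 1))} (hg : IsAut g) (x y : B (D + 1))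
    (h : ini x = ini y) : ini (g x) = ini (g y) := by
  funext i
  have hi := hg.agree (x := x) (y := y) (i := Fin.last D) (by
    intro j hj
    obtain ⟨j', rfl⟩ : ∃ j' : Fin D, j = j'.castSucc := ⟨⟨j.val, hj⟩, rfl⟩
    exact congrFun h j')
  exact hi i.castSucc (Fin.castSucc_lt_last i)

/-- Decomposition of a tree automorphism into a flip of the top bit and a lower automorphism. -/
theorem IsAut.decompose {g : Equiv.Perm (B (D + 1))} (hg : IsAut g) :
    ∃ h : Equiv.Perm (B D), IsAut h ∧ ∃ c : Coin D, g = joinP h h * flipT c := by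
  classical
  set h₀ : B D → B D := fun u => ini (g (snocB u false)) with hh₀
  have hh₀aut : ∀ (u v : B D) (i : Fin D), (∀ j, j < i → u j = v j) →
      xor (h₀ u i) (u i) = xor (h₀ v i) (v i) := by
    intro u v i huv
    have := hg (snocB u false) (snocB v false) i.castSucc (by
      intro j hj
      obtain ⟨j', rfl⟩ : ∃ j' : Fin D, j = j'.castSucc := ⟨⟨j.val, lt_trans hj i.isLt⟩, rfl⟩
      simpa [snocB] using huv j' (by simpa using hj))
    simpa [hh₀, ini, snocB] using this
  have hinj : Function.Injective h₀ := by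
    intro u v huv
    have key : ∀ n (hn : n < D), u ⟨n, hn⟩ = v ⟨n, hn⟩ := by
      intro n
      induction n using Nat.strong_induction_on with
      | _ n ih =>
        intro hn
        have h1 := hh₀aut u v ⟨n, hn⟩ (fun j hj => ih j.val hj j.isLt)
        rw [huv] at h1
        simpa using h1
    funext i
    exact key i.val i.isLt
  let h : Equiv.Perm (B D) := Equiv.ofBijective h₀ (Finite.injective_iff_bijective.mp hinj)
  refine ⟨h, hh₀aut, fun u => topB (g (snocB u false)), ?_⟩
  ext x : 1
  simp only [Equiv.Perm.mul_apply, joinP_apply, flipT_apply, ini_snocB, topB_snocB, ite_self]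
  have h1 : ini (g x) = h₀ (ini x) := hg.ini_eq _ _ (by simp)
  have h2 := hg x (snocB (ini x) false) (Fin.last D) (by
    intro j hj
    obtain ⟨j', rfl⟩ : ∃ j' : Fin D, j = j'.castSucc := ⟨⟨j.val, hj⟩, rfl⟩
    simp [snocB, ini])
  have h3 : (snocB (ini x) false) (Fin.last D) = false := by simp [snocB]
  rw [h3] at h2
  have h4 : topB (g x) = xor (topB x) (topB (g (snocB (ini x) false))) := by
    change g x (Fin.last D) = xor (x (Fin.last D)) (g (snocB (ini x) false) (Fin.last D))
    cases a1 : g x (Fin.last D) <;> cases a2 : x (Fin.last D) <;>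
      cases a3 : g (snocB (ini x) false) (Fin.last D) <;> simp_all
  rw [← h4]
  conv_lhs => rw [← snocB_ini_topB (g x)]
  rw [h1]
  rfl

variable (L : Type*) [Fintype L] [DecidableEq L]

/-- **Right invariance of a pass under tree automorphisms**. -/
theorem Tw_mul_rhoG {D : ℕ} {g : Equiv.Perm (B D)} (hg : IsAut g) :
    Tw L D * rhoG L g = Tw L D := by
  induction D with
  | zero =>
    have : g = 1 := Subsingleton.elim _ _
    subst this
    simp
  | succ D ih =>
    obtain ⟨h, hh, c, rfl⟩ := hg.decompose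
    apply (Matrix.reindex (pairE L D) (pairE L D)).injective
    rw [reindex_mul', reindex_Tw_succ, rhoG_mul, reindex_mul', reindex_rhoG_joinP, reindex_rhoG_flipT,
      dbl_rhoG_self]
    have hcomm : PP L D * rhoG (L × L) h = rhoG (L × L) h * PP L D :=
      (rhoG_mul_tp_const h (Pi2 L)).symm
    have hflip : PP L D * tp (fun u => if c u then swapM L else 1) = PP L D := by
      unfold PP
      rw [tp_mul]
      congr 1
      funext u
      cases hc : c u
      · simp
      · simp [Pi2_swap]
    calc dbl (Tw L D) (Tw L D) * PP L D * (rhoG (L × L) h * tp fun u => if c u then swapM L else 1)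
        = dbl (Tw L D) (Tw L D) * (PP L D * rhoG (L × L) h) * tp (fun u => if c u then swapM L else 1) := by
          simp only [Matrix.mul_assoc]
      _ = dbl (Tw L D) (Tw L D) * rhoG (L × L) h * (PP L D * tp (fun u => if c u then swapM L else 1)) := by
          rw [hcomm]; simp only [Matrix.mul_assoc]
      _ = dbl (Tw L D) (Tw L D) * PP L D := by
          rw [hflip, ← dbl_rhoG_self, dbl_mul, ih hh]

theorem Tw_mul_rhoG_inv {D : ℕ} {g : Equiv.Perm (B D)} (hg : IsAut g) :
    Tw L D * rhoG L g⁻¹ = Tw L D := Tw_mul_rhoG L hg.inv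

/-- `Z` is invariant under tree automorphisms from the right. -/
theorem Zw_mul_rhoG {D : ℕ} {g : Equiv.Perm (B D)} (hg : IsAut g) :
    Zw L D * rhoG L g = Zw L D := by
  unfold Zw
  rw [Matrix.mul_assoc, Tw_mul_rhoG L hg]

/-- `Z` is invariant under tree automorphisms from the left. -/
theorem rhoG_mul_Zw {D : ℕ} {g : Equiv.Perm (B D)} (hg : IsAut g) :
    rhoG L g * Zw L D = Zw L D := by
  unfold Zw
  rw [← Matrix.mul_assoc]
  have : rhoG L g * (Tw L D)ᴴ = (Tw L D * rhoG L g⁻¹)ᴴ := by
    rw [Matrix.conjTranspose_mul, rhoG_conjTranspose, inv_inv]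
  rw [this, Tw_mul_rhoG_inv L hg]

/-- **Bi-invariance of `Z` under `Aut(T) × Aut(T)`**. -/
theorem rhoG_mul_Zw_mul_rhoG {D : ℕ} {g h : Equiv.Perm (B D)} (hg : IsAut g) (hh : IsAut h) :
    rhoG L g * Zw L D * rhoG L h = Zw L D := by
  rw [rhoG_mul_Zw L hg, Zw_mul_rhoG L hh]

variable {L}

/-- Entrywise form of the bi-invariance. -/
theorem Zw_comp_left {D : ℕ} {g : Equiv.Perm (B D)} (hg : IsAut g) (w w' : B D → L) :
    Zw L D (w ∘ g) w' = Zw L D w w' := by
  have := congrFun (congrFun (rhoG_mul_Zw L hg) w) w'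
  rw [rhoG_mul_apply] at this
  exact this

theorem Zw_comp_right {D : ℕ} {g : Equiv.Perm (B D)} (hg : IsAut g) (w w' : B D → L) :
    Zw L D w (w' ∘ g) = Zw L D w w' := by
  have := congrFun (congrFun (Zw_mul_rhoG L hg.inv) w) w'
  rw [mul_rhoG_apply, inv_inv] at this
  exact this

end Aut

end Crest.Agent.S0222Lib.WordRep
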