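import Crest.Agent.S0222Lib.PlanchTop
import Crest.Agent.S0222Lib.FRCore
import Crest.Agent.S0222Lib.WordRep

/-!
# S0222: from a representation to token words

A representation `V_i` of level `b` embeds, through `Φ` with base point the word of an injective
`b`-tuple, in the functions on `T`-words (each of `b` tokens exactly once) which are killed by all
the deletion operators `Dop e` (`Φ_Dop`): an element with a token deleted would give a vector
fixed by the stabiliser of a `(b-1)`-tuple, contradicting minimality of the level.

`Family.nsq_le_of_word`: a bound for `T` on the pure level `b` of token words gives the bound on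
`V_i`.
-/

set_option autoImplicit false
set_option linter.unusedSectionVars false

namespace Crest.Agent.S0222Lib.Planch

open Finset Matrix Function
open Crest.Agent.S0222Lib Crest.Agent.S0222Lib.FRCore Crest.Agent.S0222Lib.WordRep

section Words

variable {X : Type*} [Fintype X] [DecidableEq X] {L : Type*} [Fintype L] [DecidableEq L]

attribute [local instance] arrowAction

lemma pinv_self (g : Equiv.Perm X) (x : X) : g⁻¹ (g x) = x := by simp

lemma self_pinv (g : Equiv.Perm X) (x : X) : g (g⁻¹ x) = x := by simp

lemma smul_word (g : Equiv.Perm X) (w : X → L) : g • w = w ∘ ⇑g⁻¹ := rfl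

lemma lact_word (h : Equiv.Perm X) (f : (X → L) → ℂ) : lact h f = rhoG L h *ᵥ f := by
  funext w
  rw [rhoG_mulVec]
  simp [lact, smul_word]

lemma lactA_toC_word (x : MonoidAlgebra ℝ (Equiv.Perm X)) (f : (X → L) → ℂ) :
    lactA (toC x) f = rho L x *ᵥ f := by
  classical
  induction x using MonoidAlgebra.induction_linear with
  | zero =>
    unfold lactA
    simp
  | add x₁ x₂ h₁ h₂ =>
    rw [map_add, map_add, Matrix.add_mulVec, ← h₁, ← h₂]
    unfold lactA
    rw [← Finset.sum_add_distrib]
    refine Finset.sum_congr rfl fun g _ => ?_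
    simp only [MonoidAlgebra.coeff_add, Finsupp.add_apply, add_smul]
  | single g r =>
    rw [rho_single, Matrix.smul_mulVec, ← lact_word]
    unfold lactA
    rw [Finset.sum_eq_single g]
    · simp only [coeff_toC, MonoidAlgebra.coeff_single, Finsupp.single_eq_same]
      funext w
      simp
    · intro h _ hne
      simp only [coeff_toC, MonoidAlgebra.coeff_single]
      rw [Finsupp.single_eq_of_ne (by exact hne)]
      simp
    · simp

/-- The word of a tuple: the token `j` at `a j`. -/
noncomputable def tupW {b : ℕ} (a : Fin b → X) : X → Option (Fin b) :=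
  open Classical in fun x => if h : ∃ j, a j = x then some (Classical.choose h) else none

variable {b : ℕ} {a : Fin b → X}

lemma tupW_apply (ha : Injective a) (j : Fin b) : tupW a (a j) = some j := by
  unfold tupW
  have h : ∃ k, a k = a j := ⟨j, rfl⟩
  rw [dif_pos h, ha (Classical.choose_spec h)]

lemma tupW_none {x : X} (h : ∀ j, a j ≠ x) : tupW a x = none := by
  unfold tupW
  rw [dif_neg]
  rintro ⟨j, hj⟩
  exact h j hj

lemma tupW_eq_some (ha : Injective a) {x : X} {j : Fin b} : tupW a x = some j ↔ a j = x := by
  constructor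
  · intro h
    by_cases hx : ∃ k, a k = x
    · obtain ⟨k, rfl⟩ := hx
      rw [tupW_apply ha] at h
      rw [Option.some.inj h]
    · rw [tupW_none (fun k hk => hx ⟨k, hk⟩)] at h
      cases h
  · rintro rfl
    exact tupW_apply ha j

lemma smul_tupW_eq_iff (ha : Injective a) (g : Equiv.Perm X) :
    g • tupW a = tupW a ↔ g ∈ ptStab a := by
  constructor
  · intro h j
    have h1 := congrFun h (a j)
    rw [smul_word] at h1
    simp only [Function.comp_apply] at h1
    rw [tupW_apply ha, tupW_eq_some ha] at h1
    conv_lhs => rw [h1]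
    exact self_pinv g _
  · intro h
    have hinv : ∀ j, g⁻¹ (a j) = a j := fun j => by
      rw [Equiv.Perm.inv_eq_iff_eq, h j]
    funext x
    rw [smul_word]
    simp only [Function.comp_apply]
    by_cases hx : ∃ j, a j = x
    · obtain ⟨j, rfl⟩ := hx
      rw [hinv]
    · have hx' : ∀ j, a j ≠ x := fun j hj => hx ⟨j, hj⟩
      rw [tupW_none hx', tupW_none]
      intro j hj
      apply hx' j
      have := congrArg g hj
      rw [self_pinv, h j] at this
      exact this

/-- A rearrangement of the word of a tuple is a `T`-word. -/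
lemma isT_smul_tupW (ha : Injective a) (g : Equiv.Perm X) :
    IsT (univ : Finset (Fin b)) (g • tupW a) := by
  intro i
  rw [if_pos (mem_univ i)]
  unfold cnt
  have : (univ.filter fun x => (g • tupW a) x = some i) = {g (a i)} := by
    ext x
    simp only [mem_filter, mem_univ, true_and, mem_singleton]
    rw [smul_word]
    simp only [Function.comp_apply]
    rw [tupW_eq_some ha]
    constructor
    · intro h
      rw [h]
      simp
    · rintro rfl
      simp
  rw [this]
  simp

/-- Orbit sums with complex values. -/
lemma sum_smul_eqC {G Ω : Type*} [Group G] [Fintype G] [DecidableEq G] [Fintype Ω] [DecidableEq Ω]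
    [MulAction G Ω] (ω₀ : Ω) (f : Ω → ℂ) (hf : ∀ ω, (¬ ∃ g : G, g • ω₀ = ω) → f ω = 0) :
    ∑ g : G, f (g • ω₀) = (stabCard (G := G) ω₀ : ℂ) * ∑ ω, f ω := by
  have h1 := sum_smul_eq (G := G) ω₀ (fun ω => (f ω).re) (fun ω hω => by simp [hf ω hω])
  have h2 := sum_smul_eq (G := G) ω₀ (fun ω => (f ω).im) (fun ω hω => by simp [hf ω hω])
  apply Complex.ext
  · rw [Complex.re_sum]
    simp only [Complex.mul_re, Complex.natCast_re, Complex.natCast_im, zero_mul, sub_zero,
      Complex.re_sum]
    exact h1
  · rw [Complex.im_sum]
    simp only [Complex.mul_im, Complex.natCast_re, Complex.natCast_im, zero_mul, add_zero,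
      Complex.im_sum]
    exact h2

/-- **Deleting a token**: the image of `Φ` is killed by the deletion operators if the
representation has no vector fixed by the stabiliser of a shorter tuple. -/
theorem sum_update_Phi {b' : ℕ} {a : Fin (b' + 1) → X} (ha : Injective a) (e : Fin (b' + 1))
    {d : ℕ} {R : URep (Equiv.Perm X) d} {v : Fin d → ℂ}
    (hv : ∀ g : Equiv.Perm X, g • tupW a = tupW a → R.ρ g *ᵥ v = v)
    (hno : ∀ w : Fin d → ℂ, (∀ h ∈ ptStab (a ∘ e.succAbove), R.ρ h *ᵥ w = w) → w = 0)
    (u : Fin d → ℂ) (w : X → Option (Fin (b' + 1))) :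
    ∑ x, (if w x = none then Phi R (tupW a) v u (update w x (some e)) else 0) = 0 := by
  classical
  by_cases hex : ∃ x₀, w x₀ = none ∧ ∃ g : Equiv.Perm X, g • tupW a = update w x₀ (some e)
  · obtain ⟨x₀, hx₀, g, hg⟩ := hex
    set a' := a ∘ e.succAbove with ha'
    have hinj' : Injective a' := ha.comp (Fin.succAbove_right_injective)
    -- the position of `e`
    have hpos : g (a e) = x₀ := by
      have h1 := congrFun hg x₀
      rw [update_self, smul_word] at h1
      simp only [Function.comp_apply] at h1
      rw [tupW_eq_some ha] at h1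
      rw [h1]
      simp
    -- the other tokens
    have hother : ∀ y, y ≠ a e → w (g y) = tupW a y := by
      intro y hy
      have h1 := congrFun hg (g y)
      rw [update_of_ne (by
        rw [← hpos]
        exact fun h => hy (g.injective h)), smul_word] at h1
      simp only [Function.comp_apply, pinv_self] at h1
      exact h1.symm
    have hmem' : ∀ y, y ∈ Set.range a' ↔ (y ≠ a e ∧ ∃ j, a j = y) := by
      intro y
      constructor
      · rintro ⟨j, rfl⟩
        refine ⟨?_, ⟨e.succAbove j, rfl⟩⟩
        intro h
        exact Fin.succAbove_ne e j (ha h)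
      · rintro ⟨hy, j, rfl⟩
        have hj : j ≠ e := fun h => hy (by rw [h])
        obtain ⟨k, rfl⟩ := Fin.exists_succAbove_eq hj
        exact ⟨k, rfl⟩
    have hnone : ∀ y, w (g y) = none ↔ y ∉ Set.range a' := by
      intro y
      rw [hmem']
      by_cases hy : y = a e
      · subst hy
        rw [hpos, hx₀]
        simp
      · rw [hother y hy]
        constructor
        · intro h
          rintro ⟨_, j, rfl⟩
          rw [tupW_apply ha] at h
          cases h
        · intro h
          apply tupW_none
          intro j hj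
          exact h ⟨hy, j, hj⟩
    -- the group elements
    have hact : ∀ h ∈ ptStab a', (g * h) • tupW a = update w (g (h (a e))) (some e) := by
      intro h hh
      have hhj : ∀ j, j ≠ e → h (a j) = a j := by
        intro j hj
        obtain ⟨k, rfl⟩ := Fin.exists_succAbove_eq hj
        exact hh k
      have hhinv : ∀ j, j ≠ e → h⁻¹ (a j) = a j := by
        intro j hj
        rw [Equiv.Perm.inv_eq_iff_eq, hhj j hj]
      funext x
      obtain ⟨y, rfl⟩ := g.surjective x
      rw [smul_word]
      simp only [Function.comp_apply, _root_.mul_inv_rev, Equiv.Perm.mul_apply, pinv_self]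
      by_cases hy : y = h (a e)
      · subst hy
        rw [update_self]
        simp only [pinv_self]
        exact tupW_apply ha e
      · rw [update_of_ne (fun h2 => hy (g.injective h2))]
        have hy' : h⁻¹ y ≠ a e := by
          intro h2
          apply hy
          rw [← h2]
          simp
        by_cases hyr : ∃ j, a j = h⁻¹ y
        · obtain ⟨j, hj⟩ := hyr
          have hje : j ≠ e := fun h2 => hy' (by rw [← hj, h2])
          have hyj : y = a j := by
            have := congrArg h hj
            rw [self_pinv, hhj j hje] at this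
            exact this.symm
          rw [← hj, tupW_apply ha, hother y (by
            rw [hyj]
            exact fun h2 => hje (ha h2)), hyj, tupW_apply ha]
        · rw [tupW_none (fun j hj => hyr ⟨j, hj⟩)]
          by_cases hye : y = a e
          · rw [hye, hpos, hx₀]
          · rw [hother y hye]
            apply (tupW_none _).symm
            intro j hj
            have hje : j ≠ e := fun h2 => hye (by rw [← hj, h2])
            apply hyr
            refine ⟨j, ?_⟩
            rw [← hj, hhinv j hje]
    -- the orbit sum
    set H' := ptStab a' with hH'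
    let F' : X → ℂ := fun y => if y ∈ Set.range a' then 0 else
      Phi R (tupW a) v u (update w (g y) (some e))
    have hae : a e ∉ Set.range a' := by
      rw [hmem']
      simp
    have hoff : ∀ y, (¬ ∃ h : H', h • a e = y) → F' y = 0 := by
      intro y hy
      by_cases hyr : y ∈ Set.range a'
      · exact if_pos hyr
      · exfalso
        apply hy
        have hmem : Equiv.swap (a e) y ∈ H' := by
          intro j
          apply Equiv.swap_apply_of_ne_of_ne
          · intro h2
            exact hae ⟨j, h2⟩
          · intro h2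
            exact hyr ⟨j, h2⟩
        refine ⟨⟨_, hmem⟩, ?_⟩
        show Equiv.swap (a e) y (a e) = y
        simp
    have hsum := sum_smul_eqC (G := H') (a e) F' hoff
    have hterm : ∀ h : H', F' (h • a e) = Phi R (tupW a) v u ((g * (h : Equiv.Perm X)) • tupW a) := by
      intro h
      have h2 : (h • a e) = (h : Equiv.Perm X) (a e) := rfl
      have hn : (h : Equiv.Perm X) (a e) ∉ Set.range a' := by
        rintro ⟨j, hj⟩
        apply hae
        refine ⟨j, ?_⟩
        have h3 : (h : Equiv.Perm X) (a' j) = a' j := h.2 j
        apply (h : Equiv.Perm X).injective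
        rw [h3, hj]
      rw [h2]
      simp only [F', if_neg hn]
      rw [hact _ h.2]
    simp_rw [hterm] at hsum
    have hzero := sum_Phi_eq_zero hv H' hno g u
    rw [hzero] at hsum
    have hne : (stabCard (G := H') (a e) : ℂ) ≠ 0 := by
      exact_mod_cast (stabCard_pos (G := H') (a e)).ne'
    have hF : ∑ y, F' y = 0 := by
      rcases mul_eq_zero.1 hsum.symm with h1 | h1
      · exact absurd h1 hne
      · exact h1
    have hL : ∑ x, (if w x = none then Phi R (tupW a) v u (update w x (some e)) else 0) = ∑ y, F' y := by
      rw [← Equiv.sum_comp g (fun x => if w x = none then Phi R (tupW a) v u (update w x (some e)) else 0)]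
      refine Finset.sum_congr rfl fun y _ => ?_
      by_cases hy : y ∈ Set.range a'
      · have h1 : F' y = 0 := if_pos hy
        rw [h1, if_neg]
        rw [hnone]
        exact not_not.2 hy
      · have h1 : F' y = Phi R (tupW a) v u (update w (g y) (some e)) := if_neg hy
        rw [h1, if_pos ((hnone y).2 hy)]
    rw [hL, hF]
  · refine Finset.sum_eq_zero fun x _ => ?_
    split_ifs with hx
    · apply Phi_off
      rintro ⟨g, hg⟩
      exact hex ⟨x, hx, g, hg⟩
    · rfl

end Words

section Bridge

variable {Tok : Type*} [Fintype Tok] [DecidableEq Tok]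

/-- Real functions as complex functions. -/
def ofR {ι : Type*} (z : ι → ℝ) : ι → ℂ := fun w => (z w : ℂ)

/-- The norm of a real function. -/
lemma nsq_ofR {ι : Type*} [Fintype ι] (z : ι → ℝ) : nsq (ofR z) = ip z z := by
  unfold nsq ofR ip
  refine Finset.sum_congr rfl fun w _ => ?_
  rw [Complex.norm_real, Real.norm_eq_abs, sq_abs, pow_two]

lemma nsq_re_im {ι : Type*} [Fintype ι] (f : ι → ℂ) :
    nsq f = ip (fun w => (f w).re) (fun w => (f w).re) + ip (fun w => (f w).im) (fun w => (f w).im) := by
  unfold nsq ip
  rw [← Finset.sum_add_distrib]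
  refine Finset.sum_congr rfl fun w _ => ?_
  rw [← Complex.normSq_eq_norm_sq, Complex.normSq_apply]

lemma eq_ofR_add {ι : Type*} (f : ι → ℂ) :
    f = ofR (fun w => (f w).re) + Complex.I • ofR (fun w => (f w).im) := by
  funext w
  simp only [ofR, Pi.add_apply, Pi.smul_apply, smul_eq_mul]
  rw [mul_comm, Complex.re_add_im]

/-- A real matrix acts on real and imaginary parts separately. -/
lemma nsq_mulVec_of_real {ι : Type*} [Fintype ι] {M : Matrix ι ι ℂ}
    (hM : ∀ w w', star (M w w') = M w w') (f : ι → ℂ) :
    nsq (M *ᵥ f) = nsq (M *ᵥ ofR (fun w => (f w).re)) + nsq (M *ᵥ ofR (fun w => (f w).im)) := by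
  have hr : ∀ (z : ι → ℝ) w, ((M *ᵥ ofR z) w).im = 0 := by
    intro z w
    simp only [Matrix.mulVec, dotProduct, ofR, Complex.im_sum, Complex.mul_im, Complex.ofReal_re,
      Complex.ofReal_im, mul_zero, add_zero]
    refine Finset.sum_eq_zero fun k _ => ?_
    have := hM w k
    have h2 : (M w k).im = 0 := by
      have h3 := congrArg Complex.im this
      simp only [Complex.star_def, Complex.conj_im] at h3
      linarith
    simp [h2]
  have hf : M *ᵥ f = M *ᵥ ofR (fun w => (f w).re) + Complex.I • (M *ᵥ ofR (fun w => (f w).im)) := by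
    conv_lhs => rw [eq_ofR_add f]
    rw [Matrix.mulVec_add, Matrix.mulVec_smul]
  rw [nsq_re_im (M *ᵥ f), hf]
  have h1 : ∀ w, ((M *ᵥ ofR (fun w => (f w).re) + Complex.I • (M *ᵥ ofR (fun w => (f w).im))) w).re =
      ((M *ᵥ ofR (fun w => (f w).re)) w).re := by
    intro w
    simp [hr]
  have h2 : ∀ w, ((M *ᵥ ofR (fun w => (f w).re) + Complex.I • (M *ᵥ ofR (fun w => (f w).im))) w).im =
      ((M *ᵥ ofR (fun w => (f w).im)) w).re := by
    intro w
    simp [hr]
  simp_rw [h1, h2]
  rw [nsq_re_im (M *ᵥ ofR (fun w => (f w).re)), nsq_re_im (M *ᵥ ofR (fun w => (f w).im))]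
  simp only [hr]
  simp [ip]

end Bridge

section Main

open Crest.Agent.S0222Lib

attribute [local instance] arrowAction

variable {d : ℕ} (F : Family (Equiv.Perm (B (d + 1))))

/-- **The bridge**: a bound for `T` on the functions on `T`-words killed by the deletion operators
gives the bound on the representations of that level. -/
theorem Family.nsq_le_of_word (i : Fin F.r) {s : ℝ}
    (H : ∀ z : Vs (B (d + 1)) (Fin (F.level i)), z ∈ VT (univ : Finset (Fin (F.level i))) →
      (∀ e, Dop e z = 0) →
      nsq (Tw (Option (Fin (F.level i))) (d + 1) *ᵥ ofR z) ≤ s * ip z z)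
    (u : Fin (F.d i) → ℂ) :
    nsq ((F.R i).lift (toC (passA d)) *ᵥ u) ≤ s * nsq u := by
  classical
  obtain ⟨b, hb⟩ : ∃ b, b = F.level i := ⟨_, rfl⟩
  have hlev : F.HasLevel i b := hb ▸ F.level_spec i
  have hmin : ∀ c, c < b → ¬ F.HasLevel i c := fun c hc => F.level_min i (hb ▸ hc)
  obtain ⟨a, ha, hfix⟩ := hlev
  obtain ⟨v, hv0, hv⟩ := F.mem_fixedIdx.1 hfix
  have hH : ∀ z : Vs (B (d + 1)) (Fin b), z ∈ VT (univ : Finset (Fin b)) →
      (∀ e, Dop e z = 0) → nsq (Tw (Option (Fin b)) (d + 1) *ᵥ ofR z) ≤ s * ip z z := by
    subst hb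
    exact H
  have hfixW : ∀ g : Equiv.Perm (B (d + 1)), g • tupW a = tupW a → (F.R i).ρ g *ᵥ v = v :=
    fun g hg => hv g ((smul_tupW_eq_iff ha g).1 hg)
  refine F.transfer i hfixW hv0 _ (fun u => ?_) u
  rw [lactA_toC_word, ← Tw_succ_eq_rho]
  set f := Phi (F.R i) (tupW a) v u with hf
  have hoff : ∀ w, ¬ IsT (univ : Finset (Fin b)) w → f w = 0 := by
    intro w hw
    apply Phi_off
    rintro ⟨g, rfl⟩
    exact hw (isT_smul_tupW ha g)
  have hdel : ∀ (e : Fin b) (w : B (d + 1) → Option (Fin b)),
      ∑ x, (if w x = none then f (update w x (some e)) else 0) = 0 := by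
    intro e w
    cases b with
    | zero => exact e.elim0
    | succ b' =>
      refine sum_update_Phi ha e hfixW ?_ u w
      intro y hy
      by_contra hy0
      exact hmin b' (by omega) ⟨a ∘ e.succAbove, ha.comp Fin.succAbove_right_injective,
        F.mem_fixedIdx.2 ⟨y, hy0, hy⟩⟩
  have hVT : ∀ φ : ℂ → ℝ, φ 0 = 0 →
      (fun w => φ (f w)) ∈ (VT (univ : Finset (Fin b)) : Submodule ℝ (Vs (B (d + 1)) (Fin b))) := by
    intro φ h0 w hw
    show φ (f w) = 0
    rw [hoff w hw, h0]
  have hDre : ∀ e, Dop e (fun w => (f w).re) = 0 := by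
    intro e
    funext w
    have := congrArg Complex.re (hdel e w)
    rw [Complex.re_sum] at this
    simp only [Complex.zero_re] at this
    rw [Pi.zero_apply, Eop_apply]
    refine Eq.trans (Finset.sum_congr rfl fun x _ => ?_) this
    split_ifs <;> simp
  have hDim : ∀ e, Dop e (fun w => (f w).im) = 0 := by
    intro e
    funext w
    have := congrArg Complex.im (hdel e w)
    rw [Complex.im_sum] at this
    simp only [Complex.zero_im] at this
    rw [Pi.zero_apply, Eop_apply]
    refine Eq.trans (Finset.sum_congr rfl fun x _ => ?_) this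
    split_ifs <;> simp
  have h1 := hH _ (hVT (fun c => c.re) rfl) hDre
  have h2 := hH _ (hVT (fun c => c.im) rfl) hDim
  rw [nsq_mulVec_of_real (Tw_star_apply) f, nsq_re_im f]
  rw [mul_add]
  exact add_le_add h1 h2

end Main

end Crest.Agent.S0222Lib.Planch
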