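import Crest.Agent.S0222Lib.FRBridge
import Crest.Agent.S0222Lib.PlanchFR

/-!
# S0222, first-row bound: the abstract closure problem

`Weights N b ρ` lists everything the token structure says about the weights
`ρ t r r'` (the mass of the parent with `t` tokens on the left, at level `t - r` on the left and at
level `b - t - r'` on the right); `weights_of_parent` proves it.

`fr_main`: to get a bound `θ D b` for `Z_{2^D}` on the pure functions of `b` tokens it is enough to
close a purely numerical recursion: `hclose`.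

`fr_top`: the consequence on the members of a complete family.
-/

set_option autoImplicit false
set_option linter.unusedSectionVars false
set_option linter.unusedVariables false

namespace Crest.Agent.S0222Lib.FRCore

open Finset Function Matrix
open Crest.Agent.S0222Lib Crest.Agent.S0222Lib.WordRep Crest.Agent.S0222Lib.Site

/-- The triple sum on the weights. -/
noncomputable def triSum (b : ℕ) (F : ℕ → ℕ → ℕ → ℝ) : ℝ :=
  ∑ t ∈ Finset.range (b + 1), ∑ r ∈ Finset.range (t + 1), ∑ r' ∈ Finset.range (b - t + 1), F t r r'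

/-- The equation lemma of `triSum` is generated here, once. -/
theorem triSum_eqns_here : True := by
  have _ := @triSum.eq_1
  trivial

/-- The bound on the `k`-th moment `S_k / ‖ξ‖²` of the signed sums. -/
noncomputable def Sk (N b m : ℕ) : ℝ :=
  ((m.factorial * ∑ p ∈ Finset.range (m / 2 + 1), N.choose p *
        ((b / 2).choose p * (2 * (b / 2)).choose (m - 2 * p)) : ℕ) : ℝ)

/-- The abstract weights: a parent of `b` tokens on `N + N` sites. -/
structure Weights (N b : ℕ) (ρ : ℕ → ℕ → ℕ → ℝ) : Prop where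
  nonneg : ∀ t r r', 0 ≤ ρ t r r'
  moment : ∀ k k', triSum b (fun t r r' =>
      coL k r (Gv (N : ℝ) r t) * coL k' r' (Gv (N : ℝ) r' (b - t)) * ρ t r r') ≤
    (k.factorial : ℝ) * (k'.factorial : ℝ) * ((k + k').choose k : ℝ) * (1 / 4 : ℝ) ^ (k + k') *
      Sk N b (k + k') * triSum b ρ
  floor_left : ∀ t r r', t ≤ b → N < r + (b - t) → ρ t r r' = 0
  floor_right : ∀ t r r', t ≤ b → N < r' + t → ρ t r r' = 0
  coin : ∃ w : ℕ → ℝ, (∀ d, 0 ≤ w d) ∧ ∑ d ∈ Finset.range (b / 2 + 1), w d = triSum b ρ ∧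
    ∀ φ : ℕ → ℝ, triSum b (fun t r r' => φ t * ρ t r r') =
      ∑ d ∈ Finset.range (b / 2 + 1), w d *
        ∑ s ∈ Finset.range (b - 2 * d + 1),
          ((b - 2 * d).choose s : ℝ) / 2 ^ (b - 2 * d) * φ (d + s)
  coin_exp : ∀ μ : ℝ, 0 ≤ μ → μ * b < 2 → triSum b (fun t r r' =>
      Real.exp (μ * ((t : ℝ) - b / 2) ^ 2) * ρ t r r') ≤
    (1 - μ * b / 2) ^ (-(1 / 2 : ℝ)) * triSum b ρ

section Agg

variable {Tok : Type} [Fintype Tok] [DecidableEq Tok]
variable {S : Type} [Fintype S] [DecidableEq S]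

/-- The aggregated weights of a parent. -/
noncomputable def rhoW (T : Finset Tok) (H : Vs (S × Bool) Tok) (t r r' : ℕ) : ℝ :=
  ∑ A ∈ powersetCard t T, piM A (T \ A) (Xi H T A) r r'

/-- Sums on the subsets of `T` which depend on the size, in terms of the aggregated weights. -/
lemma sum_rhoW (T : Finset Tok) (H : Vs (S × Bool) Tok) (F : ℕ → ℕ → ℕ → ℝ) :
    ∑ A ∈ T.powerset, ∑ r ∈ Finset.range (A.card + 1), ∑ r' ∈ Finset.range ((T \ A).card + 1),
        F A.card r r' * piM A (T \ A) (Xi H T A) r r'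
      = triSum T.card (fun t r r' => F t r r' * rhoW T H t r r') := by
  unfold triSum rhoW
  rw [Finset.sum_powerset]
  refine Finset.sum_congr rfl fun t _ => ?_
  have h1 : ∀ A ∈ powersetCard t T,
      ∑ r ∈ Finset.range (A.card + 1), ∑ r' ∈ Finset.range ((T \ A).card + 1),
        F A.card r r' * piM A (T \ A) (Xi H T A) r r'
      = ∑ r ∈ Finset.range (t + 1), ∑ r' ∈ Finset.range (T.card - t + 1),
        F t r r' * piM A (T \ A) (Xi H T A) r r' := by
    intro A hA
    obtain ⟨h2, h3⟩ := mem_powersetCard.1 hA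
    rw [Finset.card_sdiff_of_subset h2, h3]
  rw [Finset.sum_congr rfl h1, Finset.sum_comm]
  refine Finset.sum_congr rfl fun r _ => ?_
  rw [Finset.sum_comm]
  refine Finset.sum_congr rfl fun r' _ => ?_
  show _ = F t r r' * _
  rw [Finset.mul_sum]

lemma triSum_rhoW (T : Finset Tok) {H : Vs (S × Bool) Tok}
    (hH : H ∈ (VT T : Submodule ℝ (Vs (S × Bool) Tok))) :
    triSum T.card (rhoW T H) = ip H H := by
  have h := sum_rhoW T H (fun _ _ _ => 1)
  simp only [one_mul] at h
  rw [← h, ← fr_mass hH, fro_XiF_eq_ip]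

/-- **The facts on the weights.** -/
theorem weights_of_parent {T : Finset Tok} {H : Vs (S × Bool) Tok}
    (hH : H ∈ (VT T : Submodule ℝ (Vs (S × Bool) Tok))) (hD : ∀ e, Dop e H = 0)
    (hflip : ∀ a c, H (c ∘ FR.flipPos a) = H c) :
    Weights (Fintype.card S) T.card (rhoW T H) where
  nonneg t r r' := Finset.sum_nonneg fun A _ => piM_nonneg _ _ _ _ _
  moment k k' := by
    have h1 := fr_moment hH hD k k'
    have h2 := sum_rhoW T H (fun t r r' =>
      coL k r (Gv (Fintype.card S : ℝ) r t) *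
        coL k' r' (Gv (Fintype.card S : ℝ) r' (T.card - t)))
    have h3 : ∀ A ∈ T.powerset, (T \ A).card = T.card - A.card := fun A hA =>
      Finset.card_sdiff_of_subset (Finset.mem_powerset.1 hA)
    have h4 : ∑ A ∈ T.powerset, ∑ r ∈ Finset.range (A.card + 1),
        ∑ r' ∈ Finset.range ((T \ A).card + 1),
        coL k r (Gv (Fintype.card S : ℝ) r A.card) *
          coL k' r' (Gv (Fintype.card S : ℝ) r' (T \ A).card) * piM A (T \ A) (Xi H T A) r r'
        = ∑ A ∈ T.powerset, ∑ r ∈ Finset.range (A.card + 1),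
        ∑ r' ∈ Finset.range ((T \ A).card + 1),
        coL k r (Gv (Fintype.card S : ℝ) r A.card) *
          coL k' r' (Gv (Fintype.card S : ℝ) r' (T.card - A.card)) *
            piM A (T \ A) (Xi H T A) r r' := by
      refine Finset.sum_congr rfl fun A hA => ?_
      rw [h3 A hA]
    rw [h4, h2] at h1
    have h5 := sum_SqE_le hH hflip (k + k')
    have h6 : (0 : ℝ) ≤ (k.factorial : ℝ) * (k'.factorial : ℝ) * ((k + k').choose k : ℝ) *
        (1 / 4 : ℝ) ^ (k + k') := by positivity
    refine h1.trans ((mul_le_mul_of_nonneg_left h5 h6).trans (le_of_eq ?_))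
    rw [triSum_rhoW T hH]
    unfold Sk
    ring
  floor_left t r r' ht hlt := by
    refine Finset.sum_eq_zero fun A hA => ?_
    obtain ⟨h2, h3⟩ := mem_powersetCard.1 hA
    refine piM_floor_left h2 hD ?_
    rwa [Finset.card_sdiff_of_subset h2, h3]
  floor_right t r r' ht hlt := by
    refine Finset.sum_eq_zero fun A hA => ?_
    obtain ⟨h2, h3⟩ := mem_powersetCard.1 hA
    refine piM_floor_right h2 hD ?_
    rwa [h3]
  coin := by
    classical
    refine ⟨fun d => ∑ f ∈ (univ : Finset (FR.Cfg ↥T S)).filter (fun f => FR.dbl f = d),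
      hat T H f ^ 2, fun d => Finset.sum_nonneg fun _ _ => sq_nonneg _, ?_, ?_⟩
    · rw [triSum_rhoW T hH, ← sum_hat_sq hH, ← Finset.sum_fiberwise_of_maps_to
        (s := (univ : Finset (FR.Cfg ↥T S))) (t := Finset.range (T.card / 2 + 1))
        (g := fun f => FR.dbl f)]
      intro f _
      have h1 := FR.two_mul_dbl_le f
      rw [Fintype.card_coe] at h1
      exact Finset.mem_range.2 (by omega)
    · intro φ
      have h1 := sum_rhoW T H (fun t _ _ => φ t)
      rw [← h1]
      have h2 : ∑ A ∈ T.powerset, ∑ r ∈ Finset.range (A.card + 1),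
          ∑ r' ∈ Finset.range ((T \ A).card + 1),
          φ A.card * piM A (T \ A) (Xi H T A) r r' = _ := coin_link hH φ
      rw [h2, sum_leftTok_law hH hflip φ]
      rw [← Finset.sum_fiberwise_of_maps_to
        (s := (univ : Finset (FR.Cfg ↥T S))) (t := Finset.range (T.card / 2 + 1))
        (g := fun f => FR.dbl f)]
      · refine Finset.sum_congr rfl fun d _ => ?_
        rw [Finset.sum_mul]
        refine Finset.sum_congr rfl fun f hf => ?_
        rw [(Finset.mem_filter.1 hf).2]
      · intro f _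
        have h3 := FR.two_mul_dbl_le f
        rw [Fintype.card_coe] at h3
        exact Finset.mem_range.2 (by omega)
  coin_exp μ hμ hb := by
    have h1 := sum_rhoW T H (fun t _ _ => Real.exp (μ * ((t : ℝ) - T.card / 2) ^ 2))
    rw [← h1, triSum_rhoW T hH]
    have h2 := coin_link hH (fun n => Real.exp (μ * ((n : ℝ) - T.card / 2) ^ 2))
    rw [h2]
    exact sum_leftTok_exp_sq_le hH hflip hμ hb

end Agg

section Main

variable {Tok : Type} [Fintype Tok] [DecidableEq Tok]

lemma card_B (D : ℕ) : Fintype.card (B D) = 2 ^ D := by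
  simp [B]

/-- **The first-row bound from the closure of the numerical recursion**. -/
theorem fr_main (θ : ℕ → ℕ → ℝ) (hθ0 : ∀ D j, 0 ≤ θ D j) (hbase : 1 ≤ θ 0 0)
    (hclose : ∀ (D b : ℕ) (ρ : ℕ → ℕ → ℕ → ℝ), Weights (2 ^ D) b ρ →
      triSum b (fun t r r' => θ D (t - r) * θ D (b - t - r') * ρ t r r') ≤
        θ (D + 1) b * triSum b ρ)
    (D : ℕ) (T : Finset Tok) (ξ : Vs (B D) Tok) (hξ : ξ ∈ (VT T : Submodule ℝ (Vs (B D) Tok)))
    (hD : ∀ e, Dop e ξ = 0) :
    ip ξ (Zop Tok D ξ) ≤ θ D T.card * ip ξ ξ := by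
  refine fr_induction θ hθ0 hbase ?_ D T ξ hξ hD
  intro d T H hH hHD hflip
  have h1 := weights_of_parent hH hHD hflip
  rw [card_B] at h1
  have h2 := hclose d T.card (rhoW T H) h1
  rw [triSum_rhoW T hH] at h2
  refine le_trans (le_of_eq ?_) h2
  have h3 := sum_rhoW T H (fun t r r' => θ d (t - r) * θ d (T.card - t - r'))
  rw [← h3]
  refine Finset.sum_congr rfl fun A hA => ?_
  rw [Finset.card_sdiff_of_subset (Finset.mem_powerset.1 hA)]

/-- The norm of one pass on a real function. -/
lemma nsq_Tw_ofR (D : ℕ) (z : Vs (B D) Tok) :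
    Planch.nsq (Tw (Option Tok) D *ᵥ Planch.ofR z) = ip z (Zop Tok D z) := by
  set A := Tw (Option Tok) D with hA
  set x : (B D → Option Tok) → ℂ := Planch.ofR z with hx
  have hstar : star x = x := by
    funext w
    simp [hx, Planch.ofR]
  have h1 : star (A *ᵥ x) ⬝ᵥ (A *ᵥ x) = x ⬝ᵥ (Zw (Option Tok) D *ᵥ x) := by
    rw [Matrix.star_mulVec, hstar, ← Matrix.dotProduct_mulVec, Matrix.mulVec_mulVec]
    rfl
  have h2 : Planch.nsq (A *ᵥ x) = (star (A *ᵥ x) ⬝ᵥ (A *ᵥ x)).re := by
    unfold Planch.nsq dotProduct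
    rw [Complex.re_sum]
    refine Finset.sum_congr rfl fun a _ => ?_
    rw [Pi.star_apply, Complex.star_def, mul_comm, Complex.mul_conj, Complex.normSq_eq_norm_sq,
      Complex.ofReal_re]
  rw [h2, h1]
  unfold dotProduct ip Zop
  rw [Complex.re_sum]
  refine Finset.sum_congr rfl fun w _ => ?_
  have h3 : x w = ((z w : ℝ) : ℂ) := rfl
  rw [h3, Complex.re_ofReal_mul]
  congr 1
  rw [Matrix.mulVec, dotProduct, Complex.re_sum, Mop_apply]
  refine Finset.sum_congr rfl fun w' _ => ?_
  have h4 : x w' = ((z w' : ℝ) : ℂ) := rfl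
  rw [h4, Complex.re_mul_ofReal]

/-- **The bound on the members of a complete family**, from the closure of the numerical
recursion. -/
theorem fr_top (θ : ℕ → ℕ → ℝ) (hθ0 : ∀ D j, 0 ≤ θ D j) (hbase : 1 ≤ θ 0 0)
    (hclose : ∀ (D b : ℕ) (ρ : ℕ → ℕ → ℕ → ℝ), Weights (2 ^ D) b ρ →
      triSum b (fun t r r' => θ D (t - r) * θ D (b - t - r') * ρ t r r') ≤
        θ (D + 1) b * triSum b ρ)
    {d : ℕ} (F : Planch.Family (Equiv.Perm (B (d + 1)))) (i : Fin F.r) (u : Fin (F.d i) → ℂ) :
    Planch.nsq ((F.R i).lift (Planch.toC (passA d)) *ᵥ u) ≤ θ (d + 1) (F.level i) * Planch.nsq u := by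
  refine F.nsq_le_of_word i (fun z hz hD => ?_) u
  rw [nsq_Tw_ofR]
  have h := fr_main θ hθ0 hbase hclose (d + 1) (univ : Finset (Fin (F.level i))) z hz hD
  simpa using h

end Main

end Crest.Agent.S0222Lib.FRCore
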