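import Crest.Agent.S0222Lib.Model

/-!
# S0222: the group-algebra model of the shuffle

Positions are bit vectors `B (d+1) = Fin (d+1) → Bool` (index `0` = least significant, `Fin.last d`
= top bit).  One shuffle with coin table `c : B d → Bool` is `stepB c`.

* `stepAvg d`: the average of one shuffle in the group algebra `GA d = ℝ[Perm (B (d+1))]`;
* `lawAlg d t = stepAvg d ^ t`: the law of `t` shuffles (`lawAlg_eq_pow`);
* `passA d = lawAlg d (d+1)`: the law of one pass of `d+1` shuffles, `(passA d) ^ K = lawAlg d (K*(d+1))`;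
* `passA_succ`: **`passA (d+1) = ι₀(passA d) * ι₁(passA d) * topAvg d`**: first the coin flips on the
  pairs `x ↔ x ⊕ top` (`topAvg`, a projection), then two independent passes on the lower and upper
  halves: this is `T_{2N} = (T_N ⊗ T_N) P`;
* `tv_sq_le_pass`: `tv(2^d, K(d+1))^2 ≤ (N! ∑_g ((passA d)^K).coeff g ^ 2 - 1)/4`.
-/

set_option autoImplicit false

namespace Crest.Agent.S0222Lib

open Crest.ProbabilityR.Shuffle MonoidAlgebra

abbrev B (D : ℕ) := Fin D → Bool
abbrev Coin (d : ℕ) := B d → Bool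

/-- All but the top bit. -/
def ini {d : ℕ} (x : B (d + 1)) : B d := fun i => x i.castSucc
/-- The top bit. -/
def topB {d : ℕ} (x : B (d + 1)) : Bool := x (Fin.last d)
/-- Add a new bit at the top. -/
def snocB {d : ℕ} (u : B d) (b : Bool) : B (d + 1) := Fin.snoc (α := fun _ => Bool) u b
/-- Add a new bit at the bottom. -/
def consB {d : ℕ} (b : Bool) (u : B d) : B (d + 1) := Fin.cons (α := fun _ => Bool) b u

@[simp] theorem ini_snocB {d : ℕ} (u : B d) (b : Bool) : ini (snocB u b) = u := by
  funext i; simp [ini, snocB]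
@[simp] theorem topB_snocB {d : ℕ} (u : B d) (b : Bool) : topB (snocB u b) = b := by
  simp [topB, snocB]
@[simp] theorem snocB_ini_topB {d : ℕ} (x : B (d + 1)) : snocB (ini x) (topB x) = x := by
  funext i
  refine Fin.lastCases ?_ (fun j => ?_) i
  · simp [snocB, topB]
  · simp [snocB, ini]

theorem B_ext_top {d : ℕ} {x y : B (d + 1)} (h1 : ini x = ini y) (h2 : topB x = topB y) : x = y := by
  rw [← snocB_ini_topB x, ← snocB_ini_topB y, h1, h2]

/-- One shuffle on bit vectors. -/
def stepB {d : ℕ} (c : Coin d) (x : B (d + 1)) : B (d + 1) :=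
  consB (xor (topB x) (c (ini x))) (ini x)

theorem stepB_injective {d : ℕ} (c : Coin d) : Function.Injective (stepB c) := by
  intro x y h
  have h0 : ∀ i : Fin d, (stepB c x) i.succ = (stepB c y) i.succ := fun i => by rw [h]
  have hini : ini x = ini y := by
    funext i
    have := h0 i
    simpa [stepB, consB] using this
  have h1 : (stepB c x) 0 = (stepB c y) 0 := by rw [h]
  have h2 : xor (topB x) (c (ini x)) = xor (topB y) (c (ini y)) := by
    simpa [stepB, consB] using h1
  rw [hini] at h2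
  exact B_ext_top hini (by simpa using h2)

/-- One shuffle as a permutation. -/
noncomputable def stepPermB {d : ℕ} (c : Coin d) : Equiv.Perm (B (d + 1)) :=
  Equiv.ofBijective (stepB c) (Finite.injective_iff_bijective.mp (stepB_injective c))

@[simp] theorem stepPermB_apply {d : ℕ} (c : Coin d) (x : B (d + 1)) :
    stepPermB c x = stepB c x := rfl

/-- A run of `t` shuffles as a permutation. -/
noncomputable def runPerm {d : ℕ} : (t : ℕ) → (Fin t → Coin d) → Equiv.Perm (B (d + 1))
  | 0, _ => 1
  | t + 1, T => stepPermB (T (Fin.last t)) * runPerm t (fun i => T i.castSucc)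

/-- The group algebra. -/
abbrev GA (d : ℕ) := MonoidAlgebra ℝ (Equiv.Perm (B (d + 1)))

/-- The average of one shuffle. -/
noncomputable def stepAvg (d : ℕ) : GA d :=
  ((Fintype.card (Coin d) : ℝ)⁻¹) • ∑ c : Coin d, single (stepPermB c) (1 : ℝ)

/-- The law of `t` shuffles. -/
noncomputable def lawAlg (d t : ℕ) : GA d :=
  ((Fintype.card (Fin t → Coin d) : ℝ)⁻¹) • ∑ T : Fin t → Coin d, single (runPerm t T) (1 : ℝ)

theorem lawAlg_zero (d : ℕ) : lawAlg d 0 = 1 := by
  simp [lawAlg, runPerm, one_def]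

theorem lawAlg_succ (d t : ℕ) : lawAlg d (t + 1) = stepAvg d * lawAlg d t := by
  classical
  unfold lawAlg stepAvg
  rw [smul_mul_smul_comm, Finset.sum_mul_sum]
  have hcard : (Fintype.card (Fin (t + 1) → Coin d) : ℝ) =
      (Fintype.card (Coin d) : ℝ) * (Fintype.card (Fin t → Coin d) : ℝ) := by
    rw [← Nat.cast_mul, ← Fintype.card_prod]
    exact_mod_cast Fintype.card_congr (Fin.snocEquiv (fun _ : Fin (t + 1) => Coin d)).symm
  rw [hcard, mul_inv]
  congr 1
  rw [← Finset.sum_product', Finset.univ_product_univ,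
    ← Equiv.sum_comp (Fin.snocEquiv (fun _ : Fin (t + 1) => Coin d))]
  refine Finset.sum_congr rfl (fun p _ => ?_)
  rw [single_mul_single, one_mul]
  congr 1
  simp only [runPerm]
  congr 1
  · simp [Fin.snocEquiv]
  · congr 1
    funext i
    simp [Fin.snocEquiv]

theorem lawAlg_eq_pow (d t : ℕ) : lawAlg d t = stepAvg d ^ t := by
  induction t with
  | zero => simp [lawAlg_zero]
  | succ t ih => rw [lawAlg_succ, ih, pow_succ']

/-- The law of one pass of `d + 1` shuffles. -/
noncomputable def passA (d : ℕ) : GA d := lawAlg d (d + 1)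

theorem passA_pow (d K : ℕ) : passA d ^ K = lawAlg d (K * (d + 1)) := by
  rw [passA, lawAlg_eq_pow, lawAlg_eq_pow, ← pow_mul, mul_comm]

/-! ## Recursion of a pass -/

/-- Act by `σ₀` on the lower half and by `σ₁` on the upper half. -/
def joinPerm {d : ℕ} (σ₀ σ₁ : Equiv.Perm (B (d + 1))) : Equiv.Perm (B (d + 2)) where
  toFun x := snocB ((if topB x then σ₁ else σ₀) (ini x)) (topB x)
  invFun x := snocB ((if topB x then σ₁⁻¹ else σ₀⁻¹) (ini x)) (topB x)
  left_inv x := by
    cases h : topB x <;> simp [h] <;> (rw [← h]; simp)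
  right_inv x := by
    cases h : topB x <;> simp [h] <;> (rw [← h]; simp)

@[simp] theorem joinPerm_apply {d : ℕ} (σ₀ σ₁ : Equiv.Perm (B (d + 1))) (x : B (d + 2)) :
    joinPerm σ₀ σ₁ x = snocB ((if topB x then σ₁ else σ₀) (ini x)) (topB x) := rfl

theorem joinPerm_mul {d : ℕ} (a b c e : Equiv.Perm (B (d + 1))) :
    joinPerm (a * c) (b * e) = joinPerm a b * joinPerm c e := by
  ext x : 1
  cases h : topB x <;> simp [h]

/-- The lower half embedding. -/
def ι₀ (d : ℕ) : Equiv.Perm (B (d + 1)) →* Equiv.Perm (B (d + 2)) where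
  toFun σ := joinPerm σ 1
  map_one' := by ext x : 1; cases h : topB x <;> simp [h] <;> (rw [← h]; simp)
  map_mul' a b := by rw [← joinPerm_mul, one_mul]

/-- The upper half embedding. -/
def ι₁ (d : ℕ) : Equiv.Perm (B (d + 1)) →* Equiv.Perm (B (d + 2)) where
  toFun σ := joinPerm 1 σ
  map_one' := by ext x : 1; cases h : topB x <;> simp [h] <;> (rw [← h]; simp)
  map_mul' a b := by rw [← joinPerm_mul, one_mul]

theorem ι₀_mul_ι₁ {d : ℕ} (σ₀ σ₁ : Equiv.Perm (B (d + 1))) :
    ι₀ d σ₀ * ι₁ d σ₁ = joinPerm σ₀ σ₁ := by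
  change joinPerm σ₀ 1 * joinPerm 1 σ₁ = _
  rw [← joinPerm_mul, mul_one, one_mul]

/-- Flip the top bit when the coin says so. -/
def flipTop {d : ℕ} (c : Coin (d + 1)) : Equiv.Perm (B (d + 2)) where
  toFun x := snocB (ini x) (xor (topB x) (c (ini x)))
  invFun x := snocB (ini x) (xor (topB x) (c (ini x)))
  left_inv x := by simp
  right_inv x := by simp

@[simp] theorem flipTop_apply {d : ℕ} (c : Coin (d + 1)) (x : B (d + 2)) :
    flipTop c x = snocB (ini x) (xor (topB x) (c (ini x))) := rfl

/-- The average of the flips on top pairs: a projection. -/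
noncomputable def topAvg (d : ℕ) : GA (d + 1) :=
  ((Fintype.card (Coin (d + 1)) : ℝ)⁻¹) • ∑ c : Coin (d + 1), single (flipTop c) (1 : ℝ)

section Insert

variable {d : ℕ}

/-- Insert the bit `b` at position `i`. -/
def ins {n : ℕ} (i : Fin (n + 1)) (b : Bool) (u : B n) : B (n + 1) :=
  Fin.insertNth (α := fun _ => Bool) i b u

theorem ins_val_lt {n : ℕ} (i : Fin (n + 1)) (b : Bool) (u : B n) (j : Fin (n + 1))
    (h : j.val < i.val) : ins i b u j = u ⟨j.val, by omega⟩ := by
  unfold ins
  rw [Fin.insertNth_apply_below (Fin.lt_def.mpr h)]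
  simp only [eq_rec_constant]
  congr 1

theorem ins_val_gt {n : ℕ} (i : Fin (n + 1)) (b : Bool) (u : B n) (j : Fin (n + 1))
    (h : i.val < j.val) : ins i b u j = u ⟨j.val - 1, by omega⟩ := by
  unfold ins
  rw [Fin.insertNth_apply_above (Fin.lt_def.mpr h)]
  simp only [eq_rec_constant]
  congr 1

theorem ins_val_eq {n : ℕ} (i : Fin (n + 1)) (b : Bool) (u : B n) (j : Fin (n + 1))
    (h : i.val = j.val) : ins i b u j = b := by
  have : j = i := Fin.ext h.symm
  subst this
  simp [ins]

theorem ini_ins (i : Fin (d + 1)) (b : Bool) (y : B (d + 1)) :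
    ini (ins i.castSucc b y) = ins i b (ini y) := by
  funext j
  change ins i.castSucc b y j.castSucc = ins i b (ini y) j
  rcases lt_trichotomy j.val i.val with h | h | h
  · rw [ins_val_lt i b (ini y) j h, ins_val_lt i.castSucc b y j.castSucc (by simpa using h)]
    rfl
  · rw [ins_val_eq i b (ini y) j h.symm, ins_val_eq i.castSucc b y j.castSucc (by simpa using h.symm)]
  · rw [ins_val_gt i b (ini y) j h, ins_val_gt i.castSucc b y j.castSucc (by simpa using h)]
    rfl

theorem topB_ins (i : Fin (d + 1)) (b : Bool) (y : B (d + 1)) :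
    topB (ins i.castSucc b y) = topB y := by
  unfold topB
  have hi := i.isLt
  rw [ins_val_gt _ _ _ _ (by simp [Fin.val_last]; omega)]
  congr 1

theorem ins_succ_consB (i : Fin (d + 1)) (b v : Bool) (w : B d) :
    ins i.succ b (consB v w) = consB v (ins i b w) := by
  unfold ins consB
  exact Fin.insertNth_succ_cons i b v w

theorem stepB_ins (c : Coin (d + 1)) (i : Fin (d + 1)) (b : Bool) (y : B (d + 1)) :
    stepB c (ins i.castSucc b y) =
      ins i.succ b (stepB (fun u => c (ins i b u)) y) := by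
  unfold stepB
  rw [ins_succ_consB, ini_ins, topB_ins]

/-- A run driven by a sequence of coins. -/
def runN (cs : ℕ → Coin d) : ℕ → B (d + 1) → B (d + 1)
  | 0, x => x
  | t + 1, x => stepB (cs t) (runN cs t x)

theorem runPerm_eq_runN (cs : ℕ → Coin d) (t : ℕ) (T : Fin t → Coin d)
    (h : ∀ i : Fin t, cs i.val = T i) (x : B (d + 1)) : runPerm t T x = runN cs t x := by
  induction t with
  | zero => rfl
  | succ t ih =>
    simp only [runPerm, Equiv.Perm.mul_apply, stepPermB_apply, runN]
    rw [ih (fun i => T i.castSucc) (fun i => h i.castSucc), ← h (Fin.last t)]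
    simp

/-- The coins of the sub-run in the half with top bit `b`, as a sequence. -/
noncomputable def subN (b : Bool) (cs : ℕ → Coin (d + 1)) : ℕ → Coin d := fun i =>
  if h : i < d + 1 then fun u => cs (i + 1) (ins ⟨i, h⟩ b u) else fun _ => false

theorem runN_ins (cs : ℕ → Coin (d + 1)) (x : B (d + 2)) (t : ℕ) (ht : t < d + 2) :
    runN cs (t + 1) x =
      ins ⟨t, ht⟩ (xor (topB x) (cs 0 (ini x))) (runN (subN (xor (topB x) (cs 0 (ini x))) cs) t (ini x)) := by
  induction t with
  | zero =>
    simp only [runN, stepB, ins]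
    exact (Fin.insertNth_zero' _ _).symm
  | succ t ih =>
    have ht' : t < d + 1 := by omega
    have := ih (by omega)
    rw [show t + 1 + 1 = (t + 1) + 1 from rfl, runN, this]
    have hcast : (⟨t, by omega⟩ : Fin (d + 2)) = (⟨t, ht'⟩ : Fin (d + 1)).castSucc := rfl
    rw [hcast, stepB_ins]
    have hsucc : (⟨t + 1, ht⟩ : Fin (d + 2)) = (⟨t, ht'⟩ : Fin (d + 1)).succ := rfl
    rw [hsucc]
    congr 1
    simp only [runN, subN, dif_pos ht']

/-- The coins of the sub-run in the half with top bit `b`. -/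
def subT (b : Bool) (T : Fin (d + 2) → Coin (d + 1)) : Fin (d + 1) → Coin d :=
  fun i u => T i.succ (ins i b u)

/-- Extension of a table to a sequence. -/
noncomputable def extT {t : ℕ} (T : Fin t → Coin d) : ℕ → Coin d :=
  fun i => if h : i < t then T ⟨i, h⟩ else fun _ => false

theorem extT_val {t : ℕ} (T : Fin t → Coin d) (i : Fin t) : extT T i.val = T i := by
  simp [extT]

theorem runPerm_recursion (T : Fin (d + 2) → Coin (d + 1)) :
    runPerm (d + 2) T =
      joinPerm (runPerm (d + 1) (subT false T)) (runPerm (d + 1) (subT true T)) * flipTop (T 0) := by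
  ext x : 1
  simp only [Equiv.Perm.mul_apply, joinPerm_apply, flipTop_apply, ini_snocB, topB_snocB]
  set b := xor (topB x) (T 0 (ini x)) with hb
  have h0 : extT T 0 = T 0 := extT_val T 0
  have key := runN_ins (extT T) x (d + 1) (by omega)
  rw [h0, ← hb] at key
  rw [runPerm_eq_runN (extT T) (d + 2) T (extT_val T)]
  change runN (extT T) ((d + 1) + 1) x = _
  rw [key]
  have hsub : ∀ (c : Bool), ∀ i : Fin (d + 1), subN c (extT T) i.val = subT c T i := by
    intro c i
    funext u
    simp only [subN, dif_pos i.isLt, subT]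
    have : extT T (i.val + 1) = T i.succ := by
      have := extT_val T i.succ
      simpa using this
    rw [this]
  have hlast : (⟨d + 1, by omega⟩ : Fin (d + 2)) = Fin.last (d + 1) := rfl
  rw [hlast]
  have hins : ∀ (u : B (d + 1)), ins (Fin.last (d + 1)) b u = snocB u b := by
    intro u
    unfold ins snocB
    exact Fin.insertNth_last' b u
  rw [hins]
  cases hbb : b
  · simp only [if_false, Bool.false_eq_true]
    rw [runPerm_eq_runN (subN false (extT T)) (d + 1) (subT false T) (hsub false)]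
  · simp only [if_true]
    rw [runPerm_eq_runN (subN true (extT T)) (d + 1) (subT true T) (hsub true)]

/-- The splitting of a table of coins. -/
def splitT (T : Fin (d + 2) → Coin (d + 1)) :
    Coin (d + 1) × (Fin (d + 1) → Coin d) × (Fin (d + 1) → Coin d) :=
  (T 0, subT false T, subT true T)

theorem splitT_injective : Function.Injective (splitT (d := d)) := by
  intro T T' h
  simp only [splitT, Prod.mk.injEq] at h
  obtain ⟨h0, h1, h2⟩ := h
  funext i
  refine Fin.cases h0 (fun j => ?_) i
  funext u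
  have hu : u = ins j (u j) (fun k => u (j.succAbove k)) := by
    unfold ins
    exact (Fin.insertNth_self_removeNth j u).symm
  rw [hu]
  cases hb : u j
  · exact congrFun (congrFun h1 j) _
  · exact congrFun (congrFun h2 j) _

theorem card_coin (d : ℕ) : Fintype.card (Coin d) = 2 ^ (2 ^ d) := by
  simp [Coin, B]

theorem card_splitT :
    Fintype.card (Fin (d + 2) → Coin (d + 1)) =
      Fintype.card (Coin (d + 1) × (Fin (d + 1) → Coin d) × (Fin (d + 1) → Coin d)) := by
  simp only [Fintype.card_prod, Fintype.card_fun, Fintype.card_fin, Fintype.card_bool]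
  have h2 : (2 : ℕ) ^ (2 : ℕ) ^ (d + 1) = ((2 : ℕ) ^ (2 : ℕ) ^ d) ^ 2 := by
    rw [pow_succ 2 d, pow_mul]
  rw [h2]
  ring

/-- The splitting of a table of coins, as an equivalence. -/
noncomputable def splitEquiv (d : ℕ) : (Fin (d + 2) → Coin (d + 1)) ≃
    Coin (d + 1) × (Fin (d + 1) → Coin d) × (Fin (d + 1) → Coin d) :=
  Equiv.ofBijective splitT
    ((Fintype.bijective_iff_injective_and_card _).mpr ⟨splitT_injective, card_splitT⟩)

end Insert

/-- **The recursion of a pass**: `T_{2N} = (T_N ⊗ T_N) P`. -/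
theorem passA_succ (d : ℕ) :
    passA (d + 1) =
      mapDomainAlgHom ℝ ℝ (ι₀ d) (passA d) * mapDomainAlgHom ℝ ℝ (ι₁ d) (passA d) * topAvg d := by
  classical
  have hA : passA (d + 1) = ((Fintype.card (Fin (d + 2) → Coin (d + 1)) : ℝ)⁻¹) •
      ∑ T : Fin (d + 2) → Coin (d + 1), single (runPerm (d + 2) T) (1 : ℝ) := rfl
  have hB : passA d = ((Fintype.card (Fin (d + 1) → Coin d) : ℝ)⁻¹) •
      ∑ T : Fin (d + 1) → Coin d, single (runPerm (d + 1) T) (1 : ℝ) := rfl
  rw [hA, hB, topAvg]
  simp only [map_smul, map_sum, mapDomainAlgHom_apply, mapDomain_single]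
  rw [smul_mul_smul_comm, smul_mul_smul_comm]
  have hcard : (Fintype.card (Fin (d + 2) → Coin (d + 1)) : ℝ)⁻¹ =
      ((Fintype.card (Fin (d + 1) → Coin d) : ℝ)⁻¹ * (Fintype.card (Fin (d + 1) → Coin d) : ℝ)⁻¹) *
        (Fintype.card (Coin (d + 1)) : ℝ)⁻¹ := by
    rw [← mul_inv, ← mul_inv]
    congr 1
    rw [card_splitT (d := d)]
    simp only [Fintype.card_prod]
    push_cast
    ring
  rw [hcard]
  congr 1
  have hsum : ∀ F : Coin (d + 1) × (Fin (d + 1) → Coin d) × (Fin (d + 1) → Coin d) → GA (d + 1),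
      ∑ T : Fin (d + 2) → Coin (d + 1), F (splitEquiv d T) =
        ∑ p : Coin (d + 1) × (Fin (d + 1) → Coin d) × (Fin (d + 1) → Coin d), F p :=
    fun F => Equiv.sum_comp (splitEquiv d) F
  have hrec : ∀ T : Fin (d + 2) → Coin (d + 1),
      single (runPerm (d + 2) T) (1 : ℝ) =
        (fun p : Coin (d + 1) × (Fin (d + 1) → Coin d) × (Fin (d + 1) → Coin d) =>
          (single (ι₀ d (runPerm (d + 1) p.2.1)) (1 : ℝ) *
            single (ι₁ d (runPerm (d + 1) p.2.2)) (1 : ℝ)) * single (flipTop p.1) (1 : ℝ))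
          (splitEquiv d T) := by
    intro T
    change _ = (single (ι₀ d (runPerm (d + 1) (subT false T))) (1 : ℝ) *
            single (ι₁ d (runPerm (d + 1) (subT true T))) (1 : ℝ)) * single (flipTop (T 0)) (1 : ℝ)
    rw [single_mul_single, single_mul_single, ι₀_mul_ι₁, runPerm_recursion]
    simp
  refine (Finset.sum_congr rfl (fun T _ => hrec T)).trans ((hsum (fun p =>
    (single (ι₀ d (runPerm (d + 1) p.2.1)) (1 : ℝ) *
            single (ι₁ d (runPerm (d + 1) p.2.2)) (1 : ℝ)) * single (flipTop p.1) (1 : ℝ))).trans ?_)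
  rw [Fintype.sum_prod_type]
  simp only [Fintype.sum_prod_type]
  rw [Finset.mul_sum]
  refine Finset.sum_congr rfl (fun c _ => ?_)
  rw [Finset.sum_mul_sum, Finset.sum_mul]
  refine Finset.sum_congr rfl (fun S0 _ => ?_)
  rw [Finset.sum_mul]

/-! ## Transport to the statement's positions -/

/-- The bits of a number. -/
def bitsOf (D : ℕ) (x : Fin (2 ^ D)) : B D := fun i => x.val.testBit i.val

theorem bitsOf_injective (D : ℕ) : Function.Injective (bitsOf D) := by
  intro x y h
  apply Fin.ext
  apply Nat.eq_of_testBit_eq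
  intro i
  by_cases hi : i < D
  · exact congrFun h ⟨i, hi⟩
  · have hle : 2 ^ D ≤ 2 ^ i := Nat.pow_le_pow_right (by norm_num) (by omega)
    rw [Nat.testBit_lt_two_pow (lt_of_lt_of_le x.isLt hle),
      Nat.testBit_lt_two_pow (lt_of_lt_of_le y.isLt hle)]

/-- Numbers below `2 ^ D` are bit vectors. -/
noncomputable def bitsEquiv (D : ℕ) : Fin (2 ^ D) ≃ B D :=
  Equiv.ofBijective (bitsOf D) ((Fintype.bijective_iff_injective_and_card _).mpr
    ⟨bitsOf_injective D, by simp⟩)

/-- The positions of the statement are bit vectors. -/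
noncomputable def posEquiv (d : ℕ) : Fin (2 * 2 ^ d) ≃ B (d + 1) :=
  (finCongr (by rw [pow_succ]; ring)).trans (bitsEquiv (d + 1))

theorem posEquiv_apply (d : ℕ) (x : Fin (2 * 2 ^ d)) (i : Fin (d + 1)) :
    posEquiv d x i = x.val.testBit i.val := rfl

theorem ini_posEquiv (d : ℕ) (x : Fin (2 * 2 ^ d)) :
    ini (posEquiv d x) = bitsEquiv d ⟨x.val % 2 ^ d, Nat.mod_lt _ (by positivity)⟩ := by
  funext i
  change x.val.testBit i.val = (x.val % 2 ^ d).testBit i.val
  rw [Nat.testBit_mod_two_pow]
  simp [i.isLt]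

theorem topB_posEquiv (d : ℕ) (x : Fin (2 * 2 ^ d)) :
    topB (posEquiv d x) = decide (2 ^ d ≤ x.val) := by
  change x.val.testBit d = _
  have hx := x.isLt
  have hp : 0 < 2 ^ d := by positivity
  rw [Nat.testBit_eq_decide_div_mod_eq]
  by_cases h : 2 ^ d ≤ x.val
  · have h1 : x.val / 2 ^ d = 1 := by
      apply Nat.div_eq_of_lt_le <;> omega
    simp [h1, h]
  · have h1 : x.val / 2 ^ d = 0 := Nat.div_eq_of_lt (by omega)
    simp [h1, h]

/-- The coin table of the statement as a coin table on bit vectors. -/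
noncomputable def coinE (d : ℕ) (c : Fin (2 ^ d) → Bool) : Coin d := c ∘ (bitsEquiv d).symm

theorem posEquiv_stepPos (d : ℕ) (c : Fin (2 ^ d) → Bool) (x : Fin (2 * 2 ^ d)) :
    posEquiv d (stepPos (2 ^ d) c x) = stepB (coinE d c) (posEquiv d x) := by
  have hp : 0 < 2 ^ d := by positivity
  funext i
  rw [posEquiv_apply]
  unfold stepB
  rw [ini_posEquiv, topB_posEquiv]
  simp only [coinE, Function.comp_apply, Equiv.symm_apply_apply, stepPos]
  refine Fin.cases ?_ (fun j => ?_) i
  · simp only [consB, Fin.cons_zero, Fin.val_zero]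
    rw [Nat.testBit_zero]
    split_ifs with h
    · simp only [h]
      have : (2 * (x.val % 2 ^ d) + 1) % 2 = 1 := by omega
      simp [this]
    · have h' : (xor (decide (2 ^ d ≤ x.val))
          (c ⟨x.val % 2 ^ d, Nat.mod_lt _ hp⟩)) = false := by simpa using h
      rw [h']
      have : (2 * (x.val % 2 ^ d)) % 2 = 0 := by omega
      simp [this]
  · simp only [consB, Fin.cons_succ, Fin.val_succ]
    rw [Nat.testBit_succ]
    have hdiv : (2 * (x.val % 2 ^ d) +
        (if (xor (decide (2 ^ d ≤ x.val)) (c ⟨x.val % 2 ^ d, Nat.mod_lt _ hp⟩)) = true then 1 else 0)) / 2 =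
        x.val % 2 ^ d := by
      split_ifs <;> omega
    rw [hdiv]
    rfl

theorem posEquiv_iterPos (d t : ℕ) (cs : Fin t → Fin (2 ^ d) → Bool) (x : Fin (2 * 2 ^ d)) :
    posEquiv d (iterPos (2 ^ d) t cs x) = runPerm t (fun i => coinE d (cs i)) (posEquiv d x) := by
  induction t with
  | zero => rfl
  | succ t ih =>
    simp only [iterPos, runPerm, Equiv.Perm.mul_apply, stepPermB_apply]
    rw [posEquiv_stepPos, ih]

theorem coeff_lawAlg (d t : ℕ) (h : Equiv.Perm (B (d + 1))) :
    (lawAlg d t).coeff h =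
      ((Finset.univ.filter (fun T : Fin t → Coin d => runPerm t T = h)).card : ℝ) /
        (Fintype.card (Fin t → Coin d) : ℝ) := by
  classical
  unfold lawAlg
  rw [coeff_smul_apply, coeff_sum, Finset.sum_apply', div_eq_inv_mul, smul_eq_mul]
  congr 1
  rw [Finset.card_filter]
  push_cast
  refine Finset.sum_congr rfl (fun T _ => ?_)
  rw [coeff_single, Finsupp.single_apply]

/-- The table transport. -/
noncomputable def tableEquiv (d t : ℕ) : (Fin t → Fin (2 ^ d) → Bool) ≃ (Fin t → Coin d) :=
  Equiv.piCongrRight (fun _ => Equiv.arrowCongr (bitsEquiv d) (Equiv.refl _))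

theorem tableEquiv_apply (d t : ℕ) (cs : Fin t → Fin (2 ^ d) → Bool) :
    tableEquiv d t cs = fun i => coinE d (cs i) := rfl

theorem lawP_eq_coeff (d t : ℕ) (g : Equiv.Perm (Fin (2 * 2 ^ d))) :
    lawP (2 ^ d) t g = (lawAlg d t).coeff ((posEquiv d).permCongr g) := by
  classical
  rw [lawP_eq, coeff_lawAlg]
  have hc : Fintype.card (Fin t → Fin (2 ^ d) → Bool) = Fintype.card (Fin t → Coin d) :=
    Fintype.card_congr (tableEquiv d t)
  rw [hc]
  congr 2
  apply Finset.card_bij (fun a _ => tableEquiv d t a)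
  · intro a ha
    simp only [Finset.mem_filter, Finset.mem_univ, true_and] at ha ⊢
    rw [tableEquiv_apply]
    ext x : 1
    obtain ⟨y, rfl⟩ := (posEquiv d).surjective x
    rw [← posEquiv_iterPos, ← iterPerm_coe, ha]
    simp [Equiv.permCongr]
  · intro a _ b _ h
    exact (tableEquiv d t).injective h
  · intro b hb
    refine ⟨(tableEquiv d t).symm b, ?_, by simp⟩
    simp only [Finset.mem_filter, Finset.mem_univ, true_and] at hb ⊢
    ext y : 1
    apply (posEquiv d).injective
    have h1 := posEquiv_iterPos d t ((tableEquiv d t).symm b) y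
    rw [← iterPerm_coe] at h1
    rw [h1]
    have h2 : (fun i => coinE d (((tableEquiv d t).symm b) i)) = b := by
      rw [← tableEquiv_apply]; simp
    rw [h2, hb]
    simp [Equiv.permCongr]

/-- **The model theorem**: the total variation distance after `K` passes is controlled by the
`ℓ²` norm of the `K`-th power of a pass in the group algebra. -/
theorem tv_sq_le_pass (d K : ℕ) :
    (tvFromUniform (2 ^ d) (K * (d + 1))) ^ 2 ≤
      (((2 * 2 ^ d).factorial : ℝ) *
          ∑ g : Equiv.Perm (B (d + 1)), ((passA d ^ K).coeff g) ^ 2 - 1) / 4 := by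
  refine (tv_sq_le (m := 2 ^ d) (K * (d + 1))).trans (le_of_eq ?_)
  rw [passA_pow, ← Equiv.sum_comp (posEquiv d).permCongr]
  simp_rw [lawP_eq_coeff]

/-- **The reduction of S0222** to the `ℓ²` convergence after `1600` passes. -/
theorem tendsto_tv_of_tendsto_l2
    (h : Filter.Tendsto (fun d : ℕ => ((2 * 2 ^ d).factorial : ℝ) *
        ∑ g : Equiv.Perm (B (d + 1)), ((passA d ^ 1600).coeff g) ^ 2) Filter.atTop (nhds 1)) :
    Filter.Tendsto (fun d : ℕ => tvFromUniform (2 ^ d) (1600 * (d + 1))) Filter.atTop (nhds 0) := by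
  have hnn : ∀ d : ℕ, 0 ≤ tvFromUniform (2 ^ d) (1600 * (d + 1)) := by
    intro d
    unfold tvFromUniform
    positivity
  have h1 : Filter.Tendsto (fun d : ℕ => (((2 * 2 ^ d).factorial : ℝ) *
        ∑ g : Equiv.Perm (B (d + 1)), ((passA d ^ 1600).coeff g) ^ 2 - 1) / 4) Filter.atTop (nhds 0) := by
    have := (h.sub_const 1).div_const (4 : ℝ)
    simpa using this
  have h2 : Filter.Tendsto (fun d : ℕ => (tvFromUniform (2 ^ d) (1600 * (d + 1))) ^ 2)
      Filter.atTop (nhds 0) :=
    squeeze_zero (fun d => by positivity) (fun d => tv_sq_le_pass d 1600) h1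
  have h3 := h2.sqrt
  simp only [Real.sqrt_zero] at h3
  refine h3.congr (fun d => ?_)
  exact Real.sqrt_sq (hnn d)

end Crest.Agent.S0222Lib
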