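import Crest.Agent.S0222Lib.PlanchFinal
import Crest.Agent.S0222Lib.Pass

/-!
# S0222: the top of the proof

`shuffle_of_good`: the main statement of S0222 follows from a bound on each non-trivial member of
a complete family of unitary representations: `Family.Good`.
-/

set_option autoImplicit false
set_option linter.unusedSectionVars false

namespace Crest.Agent.S0222Lib.Planch

open Finset Matrix

section General

variable {X : Type*} [Fintype X] [DecidableEq X] (F : Family (Equiv.Perm X))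

/-- **The requirement on one representation**: either the pass vanishes on it, or it contracts
by `e^{-ℓ}` in the square norm with `ℓ` at least the entropy of the level, and `ℓ ≥ log d / 780`. -/
def Family.Good (A : MonoidAlgebra ℝ (Equiv.Perm X)) (c : ℝ) (i : Fin F.r) : Prop :=
  (F.R i).lift (toC A) = 0 ∨ ∃ ℓ : ℝ,
    (∀ v, nsq ((F.R i).lift (toC A) *ᵥ v) ≤ Real.exp (-ℓ) * nsq v) ∧
    c * ((F.level i : ℝ) * (1 + Real.log ((Fintype.card X : ℝ) / F.level i))) ≤ ℓ ∧
    Real.log (F.d i) ≤ 780 * ℓ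

/-- The bound on the `ℓ²` norm from `Good`. -/
theorem Family.l2_le (A : MonoidAlgebra ℝ (Equiv.Perm X)) (hA : ∑ g, A.coeff g = 1) {c : ℝ}
    (hc : 1 / 100 ≤ c) (hn : 10 ^ 16 ≤ Fintype.card X)
    (hgood : ∀ i, i ≠ F.i0 → F.Good A c i) {K : ℕ} (hK : K = 1600) :
    (Fintype.card (Equiv.Perm X) : ℝ) * ∑ g, ((A ^ K).coeff g) ^ 2 ≤
      1 + 2 / (Fintype.card X : ℝ) := by
  classical
  subst hK
  have hex : ∀ i, ∃ s ℓ : ℝ, 0 ≤ s ∧
      (i ≠ F.i0 → ∀ v, nsq ((F.R i).lift (toC A) *ᵥ v) ≤ s * nsq v) ∧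
      (i ≠ F.i0 → s ≠ 0 → s ≤ Real.exp (-ℓ)) ∧
      (i ≠ F.i0 → s ≠ 0 →
        c * ((F.level i : ℝ) * (1 + Real.log ((Fintype.card X : ℝ) / F.level i))) ≤ ℓ) ∧
      (i ≠ F.i0 → s ≠ 0 → Real.log (F.d i) ≤ 780 * ℓ) := by
    intro i
    by_cases hi : i = F.i0
    · exact ⟨0, 0, le_rfl, fun h => absurd hi h, fun h => absurd hi h, fun h => absurd hi h,
        fun h => absurd hi h⟩
    · rcases hgood i hi with h0 | ⟨ℓ, h1, h2, h3⟩
      · refine ⟨0, 0, le_rfl, fun _ v => ?_, fun _ h => absurd rfl h, fun _ h => absurd rfl h,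
          fun _ h => absurd rfl h⟩
        rw [h0, Matrix.zero_mulVec]
        have : nsq (0 : Fin (F.d i) → ℂ) = 0 := nsq_eq_zero_iff.2 rfl
        simp [this]
      · exact ⟨Real.exp (-ℓ), ℓ, (Real.exp_pos _).le, fun _ => h1, fun _ _ => le_rfl, fun _ _ => h2,
          fun _ _ => h3⟩
  choose s ℓ hs0 hs1 hs2 hs3 hs4 using hex
  have h1 := F.chi2_le A hA s (fun i _ => hs0 i) hs1 1600
  have h2 := F.final_sum hc hn s ℓ hs0 hs2 hs3 hs4
  linarith

include F in
/-- The `ℓ²` norm is at least `1`. -/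
theorem Family.one_le_l2 (A : MonoidAlgebra ℝ (Equiv.Perm X)) (hA : ∑ g, A.coeff g = 1) (K : ℕ) :
    1 ≤ (Fintype.card (Equiv.Perm X) : ℝ) * ∑ g, ((A ^ K).coeff g) ^ 2 := by
  classical
  have hP := F.plancherel (toC (A ^ K))
  have h1 : ∑ g, ‖(toC (A ^ K)).coeff g‖ ^ 2 = ∑ g, ((A ^ K).coeff g) ^ 2 := by
    refine Finset.sum_congr rfl fun g _ => ?_
    rw [coeff_toC, Complex.norm_real, Real.norm_eq_abs, sq_abs]
  rw [h1] at hP
  rw [hP]
  have h0 : (F.d F.i0 : ℝ) * hsq ((F.R F.i0).lift (toC (A ^ K))) = 1 := by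
    have h2 : (F.R F.i0).lift (toC A) = 1 := by
      rw [F.lift_of_triv F.i0 F.rho_i0]
      simp only [coeff_toC]
      rw [← Complex.ofReal_sum, hA]
      simp
    rw [map_pow, map_pow, h2, one_pow, hsq_one]
    simp [F.d_i0]
  rw [← h0]
  exact Finset.single_le_sum (f := fun i => (F.d i : ℝ) * hsq ((F.R i).lift (toC (A ^ K))))
    (fun i _ => mul_nonneg (by positivity) (hsq_nonneg _)) (Finset.mem_univ F.i0)

end General

section Shuffle

open Crest.Agent.S0222Lib

lemma sum_coeff_single {G : Type*} [Fintype G] [DecidableEq G] (a : G) (r : ℝ) :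
    ∑ g, (MonoidAlgebra.single a r).coeff g = r := by
  rw [Finset.sum_eq_single a]
  · simp [MonoidAlgebra.coeff_single]
  · intro g _ hne
    simp [MonoidAlgebra.coeff_single, hne.symm]
  · simp

/-- A pass is a probability law. -/
theorem sum_coeff_lawAlg (d t : ℕ) : ∑ g, (lawAlg d t).coeff g = 1 := by
  classical
  unfold lawAlg
  have hne : (Fintype.card (Fin t → Coin d) : ℝ) ≠ 0 := by
    exact_mod_cast Fintype.card_ne_zero
  have h1 : ∀ g, (((Fintype.card (Fin t → Coin d) : ℝ)⁻¹) •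
      ∑ T : Fin t → Coin d, MonoidAlgebra.single (runPerm t T) (1 : ℝ)).coeff g =
      (Fintype.card (Fin t → Coin d) : ℝ)⁻¹ *
        ∑ T : Fin t → Coin d, (MonoidAlgebra.single (runPerm t T) (1 : ℝ)).coeff g := by
    intro g
    rw [MonoidAlgebra.coeff_smul_apply, MonoidAlgebra.coeff_sum, Finsupp.finsetSum_apply, smul_eq_mul]
  simp_rw [h1]
  rw [← Finset.mul_sum, Finset.sum_comm]
  simp only [sum_coeff_single, Finset.sum_const, Finset.card_univ, nsmul_eq_mul, mul_one]
  exact inv_mul_cancel₀ hne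

theorem sum_coeff_passA (d : ℕ) : ∑ g, (passA d).coeff g = 1 := sum_coeff_lawAlg d (d + 1)

lemma card_B (D : ℕ) : Fintype.card (B D) = 2 ^ D := by
  simp [B]

/-- The limit of the `ℓ²` norm, with the number of passes kept as a variable: a literal `1600`
sends definitional unfolding of the power into a deep recursion. -/
theorem tendsto_l2_of_good {c : ℝ} (hc : 1 / 100 ≤ c)
    (H : ∀ᶠ D : ℕ in Filter.atTop, ∀ F : Family (Equiv.Perm (B (D + 1))), ∀ i, i ≠ F.i0 →
      F.Good (passA D) c i) (K : ℕ) (hK : K = 1600) :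
    Filter.Tendsto (fun d : ℕ => ((2 * 2 ^ d).factorial : ℝ) *
        ∑ g : Equiv.Perm (B (d + 1)), ((passA d ^ K).coeff g) ^ 2) Filter.atTop (nhds 1) := by
  classical
  have hfac : ∀ d : ℕ, ((2 * 2 ^ d).factorial : ℝ) = (Fintype.card (Equiv.Perm (B (d + 1))) : ℝ) := by
    intro d
    rw [Fintype.card_perm, card_B, pow_succ, mul_comm]
  simp_rw [hfac]
  have hlim : Filter.Tendsto (fun d : ℕ => (1 : ℝ) + 2 / (2 : ℝ) ^ (d + 1)) Filter.atTop (nhds 1) := by
    have h1 : Filter.Tendsto (fun d : ℕ => (2 : ℝ) / (2 : ℝ) ^ (d + 1)) Filter.atTop (nhds 0) := by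
      have h2 : Filter.Tendsto (fun d : ℕ => ((1 : ℝ) / 2) ^ d) Filter.atTop (nhds 0) :=
        tendsto_pow_atTop_nhds_zero_of_lt_one (by norm_num) (by norm_num)
      refine h2.congr fun d => ?_
      rw [pow_succ, one_div, inv_pow]
      field_simp
    simpa using h1.const_add 1
  refine tendsto_of_tendsto_of_tendsto_of_le_of_le' tendsto_const_nhds hlim ?_ ?_
  · refine Filter.Eventually.of_forall fun d => ?_
    obtain ⟨F⟩ := exists_family (Equiv.Perm (B (d + 1)))
    exact F.one_le_l2 (passA d) (sum_coeff_passA d) K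
  · filter_upwards [H, Filter.eventually_ge_atTop 60] with D hD hD60
    obtain ⟨F⟩ := exists_family (Equiv.Perm (B (D + 1)))
    have hn : 10 ^ 16 ≤ Fintype.card (B (D + 1)) := by
      rw [card_B]
      have h61 : (10 : ℕ) ^ 16 ≤ 2 ^ 61 := by norm_num
      exact h61.trans (Nat.pow_le_pow_right (by norm_num) (by omega))
    have := F.l2_le (passA D) (sum_coeff_passA D) hc hn (hD F) hK
    rw [card_B] at this
    push_cast at this
    exact this

/-- **The main statement of S0222 from the bound on each representation**. -/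
theorem shuffle_of_good {c : ℝ} (hc : 1 / 100 ≤ c)
    (H : ∀ᶠ D : ℕ in Filter.atTop, ∀ F : Family (Equiv.Perm (B (D + 1))), ∀ i, i ≠ F.i0 →
      F.Good (passA D) c i) :
    Filter.Tendsto (fun d : ℕ => Crest.ProbabilityR.Shuffle.tvFromUniform (2 ^ d) (1600 * (d + 1)))
      Filter.atTop (nhds 0) :=
  tendsto_tv_of_tendsto_l2 (tendsto_l2_of_good hc H 1600 rfl)

end Shuffle

end Crest.Agent.S0222Lib.Planch
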