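import Crest.Agent.S0222Lib.JTopMix3
import Crest.Agent.S0222Lib.FRFacts
import Crest.Agent.S0222Lib.PlanchTop

/-!
# S0222: the requirement `Family.Good` from the first-row bound and Theorem J

`ShapeFacts`: what the shape data of a representation satisfy.

`Cov θ d`: the numerical coverage: for shape data, with `θ = θ (d+1) b > 0`, there are levels of conversion `Ds`
with `log d_V ≤ 780 max (-log θ, Jval/2)`.

`good_of_fr_cov`: `Good` from the closure of the recursion of `θ`, the entropy bound of `θ`, and the coverage.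
`shuffle_of_fr_cov`: the main statement of S0222 from these.
-/

set_option autoImplicit false
set_option linter.unusedSectionVars false
set_option linter.unusedSimpArgs false

namespace Crest.Agent.S0222Lib.SWord

open Matrix MonoidAlgebra
open scoped ComplexOrder MatrixOrder
open Crest.Agent.S0222Lib.Planch Crest.Agent.S0222Lib.WordRep Crest.Agent.S0222Lib.JCore

/-- What the shape data of a representation of dimension `dV` and level `b` of `Perm (B (d+1))` satisfy. -/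
structure ShapeFacts (d b dV : ℕ) {S₀ : Finset (ℕ × Bool)} (T : S₀ → ℕ) (μ : ∀ s, Fin (T s) → ℕ)
    (m ds : S₀ → ℕ) : Prop where
  dV_pos : 0 < dV
  ds_pos : ∀ s, 0 < ds s
  dyadic : ∀ s a, 2 ^ s.1.1 ≤ μ s a ∧ μ s a < 2 ^ (s.1.1 + 1)
  anti : ∀ s, Antitone (μ s)
  T_pos : ∀ s, 0 < T s
  m_eq : ∀ s, m s = ∑ a, μ s a
  T_le : ∀ s, T s ≤ 3 * 2 ^ s.1.1 + 3
  T_sq : ∀ s, 256 ≤ 2 ^ s.1.1 → 5 * T s ^ 2 ≤ 8 * m s
  sum_m : ∑ s, m s = b
  b_pos : 1 ≤ b
  b_le : b ≤ 2 ^ (d + 1)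
  frob : ∀ s, (m s).factorial * ∏ a : Fin (T s), (T s - 1 - a.val).factorial ≤
    ds s * ∏ a : Fin (T s), (μ s a + (T s - 1 - a.val)).factorial
  prim : dV * ((2 ^ (d + 1) - b).factorial * ∏ s, (m s).factorial) ≤
    (2 ^ (d + 1)).factorial * ∏ s, ds s
  index : dV * ((2 ^ (d + 1) - b).factorial * ∏ s, ∏ a, (μ s a).factorial) ≤ (2 ^ (d + 1)).factorial

/-- The constants of the conversion. -/
noncomputable def C3 {S₀ : Type} (T Ds : S₀ → ℕ) (s : S₀) : ℝ :=
  (4 / 3) * √2 * ((2 ^ Ds s : ℕ) : ℝ) * JBnum3.Xi3 (T s) (1 / 1000) (1 / 1000)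

/-- The numerical coverage at `d`. -/
def Cov (θ : ℕ → ℕ → ℝ) (d : ℕ) : Prop :=
  ∀ (b dV : ℕ) (S₀ : Finset (ℕ × Bool)) (T : S₀ → ℕ) (μ : ∀ s, Fin (T s) → ℕ) (m ds : S₀ → ℕ),
    0 < θ (d + 1) b → ShapeFacts d b dV T μ m ds →
    ∃ Ds : S₀ → ℕ, (∀ s, Ds s ≤ d + 1) ∧
      Real.log dV ≤ 780 * max (-Real.log (θ (d + 1) b)) (Jval d m ds Ds (C3 T Ds) / 2)

/-- The entropy bound of `θ` at `d`. -/
def EntBd (θ : ℕ → ℕ → ℝ) (d : ℕ) : Prop :=
  ∀ b : ℕ, 1 ≤ b → b ≤ 2 ^ (d + 1) → 0 < θ (d + 1) b →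
    (1 / 100 : ℝ) * ((b : ℝ) * (1 + Real.log (((2 ^ (d + 1) : ℕ) : ℝ) / b))) ≤ -Real.log (θ (d + 1) b)

lemma lift_eq_zero_of_nsq {n : ℕ} {A : Matrix (Fin n) (Fin n) ℂ}
    (h : ∀ u : Fin n → ℂ, nsq (A *ᵥ u) ≤ 0 * nsq u) : A = 0 := by
  classical
  ext a c
  have h1 := h (Pi.single c 1)
  rw [zero_mul, Matrix.mulVec_single_one] at h1
  have h2 : ∀ x ∈ Finset.univ, ‖(A.col c) x‖ ^ 2 = 0 := by
    refine (Finset.sum_eq_zero_iff_of_nonneg fun x _ => by positivity).1 (le_antisymm ?_ ?_)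
    · exact h1
    · exact Finset.sum_nonneg fun x _ => by positivity
  have h3 := h2 a (Finset.mem_univ a)
  have h4 : ‖A a c‖ = 0 := by
    have : ‖A a c‖ ^ 2 = 0 := h3
    exact pow_eq_zero_iff (by norm_num) |>.1 this
  simpa using h4

/-- **`Good`** from the closure of the recursion, the entropy bound and the coverage. -/
theorem good_of_fr_cov {θ : ℕ → ℕ → ℝ} (hθ0 : ∀ D j, 0 ≤ θ D j) (hbase : 1 ≤ θ 0 0)
    (hclose : ∀ (D b : ℕ) (ρ : ℕ → ℕ → ℕ → ℝ), FRCore.Weights (2 ^ D) b ρ →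
      FRCore.triSum b (fun t r r' => θ D (t - r) * θ D (b - t - r') * ρ t r r') ≤
        θ (D + 1) b * FRCore.triSum b ρ)
    {d : ℕ} (hent : EntBd θ d) (hcov : Cov θ d) (F : Family (Equiv.Perm (B (d + 1)))) (i : Fin F.r)
    (hi : i ≠ F.i0) : F.Good (passA d) (1 / 100) i := by
  classical
  have hfr := FRCore.fr_top θ hθ0 hbase hclose F i
  set b := F.level i with hb
  have hb1 : 1 ≤ b := F.level_pos hi
  have hcard : Fintype.card (B (d + 1)) = 2 ^ (d + 1) := FRCore.card_B (d + 1)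
  have hbn : b ≤ 2 ^ (d + 1) := by
    rw [← hcard]
    exact F.level_le_card i
  rcases (hθ0 (d + 1) b).eq_or_lt with hθ | hθ
  · left
    refine lift_eq_zero_of_nsq fun u => ?_
    have := hfr u
    rwa [← hθ] at this
  · right
    obtain ⟨Fm⟩ : Nonempty (∀ m : ℕ, Family (Equiv.Perm (Fin m))) :=
      ⟨fun m => Classical.choice (exists_family (Equiv.Perm (Fin m)))⟩
    obtain ⟨S₀, T, μ, m, j, hdy, hanti, hT, hm, hTle, hT2, hlev, hfrob, hdim, hidx, hmain⟩ :=
      J_top_val_mix3 F i Fm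
    rw [hcard] at hdim hidx
    have hfacts : ShapeFacts d b (F.d i) T μ m (fun s => (Fm (m s)).d (j s)) :=
      { dV_pos := F.dpos i
        ds_pos := fun s => (Fm (m s)).dpos _
        dyadic := hdy
        anti := hanti
        T_pos := hT
        m_eq := hm
        T_le := hTle
        T_sq := hT2
        sum_m := hlev
        b_pos := hb1
        b_le := hbn
        frob := hfrob
        prim := hdim
        index := hidx }
    obtain ⟨Ds, hDs, hlog⟩ := hcov b (F.d i) S₀ T μ m _ hθ hfacts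
    set J := Jval d m (fun s => (Fm (m s)).d (j s)) Ds (C3 T Ds) / 2 with hJ
    refine ⟨max (-Real.log (θ (d + 1) b)) J, ?_, ?_, hlog⟩
    · intro u
      rcases max_choice (-Real.log (θ (d + 1) b)) J with h | h
      · rw [h, neg_neg, Real.exp_log hθ]
        exact hfr u
      · rw [h]
        exact hmain Ds hDs u
    · refine le_trans ?_ (le_max_left _ _)
      have := hent b hb1 hbn hθ
      rw [hcard]
      exact this

/-- **The main statement of S0222** from the closure of the recursion, the entropy bound and the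
coverage for all large `d`. -/
theorem shuffle_of_fr_cov {θ : ℕ → ℕ → ℝ} (hθ0 : ∀ D j, 0 ≤ θ D j) (hbase : 1 ≤ θ 0 0)
    (hclose : ∀ (D b : ℕ) (ρ : ℕ → ℕ → ℕ → ℝ), FRCore.Weights (2 ^ D) b ρ →
      FRCore.triSum b (fun t r r' => θ D (t - r) * θ D (b - t - r') * ρ t r r') ≤
        θ (D + 1) b * FRCore.triSum b ρ)
    (h : ∀ᶠ d : ℕ in Filter.atTop, EntBd θ d ∧ Cov θ d) :
    Filter.Tendsto (fun d : ℕ => Crest.ProbabilityR.Shuffle.tvFromUniform (2 ^ d) (1600 * (d + 1)))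
      Filter.atTop (nhds 0) := by
  refine shuffle_of_good (c := 1 / 100) le_rfl ?_
  filter_upwards [h] with d hd F i hi
  exact good_of_fr_cov hθ0 hbase hclose hd.1 hd.2 F i hi

end Crest.Agent.S0222Lib.SWord
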