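import Crest.Agent.S0222Lib.FRClose
import Crest.Agent.S0222Lib.JCovPot
import Crest.Agent.S0222Lib.JGood
import Crest.Agent.S0222Lib.FRTable

/-!
# S0222: the final assembly

From the closure `PotClose` of the potential for `b ≥ 4`, the table (`TableData`), and the
facts on the shapes and on `Xi3` used by the coverage.
-/

set_option autoImplicit false

namespace Crest.Agent.S0222Lib.SWord

open Crest.Agent.S0222Lib.FRCore.Pot

/-- The data of the table. -/
theorem tableData_θT : TableData FRTable.θT where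
  nonneg := FRTable.θT_nonneg
  base := by rw [FRTable.θT_zero (by norm_num)]
  close := fun D hD b ρ hW => FRTable.θT_close hD hW
  junction := FRTable.θT_le_thN

theorem shuffle_of_potClose (hP : PotClose)
    (hidx : ∀ {d b dV : ℕ} {S₀ : Finset (ℕ × Bool)} {T : S₀ → ℕ} {μ : ∀ s, Fin (T s) → ℕ}
      {m ds : S₀ → ℕ}, ShapeFacts d b dV T μ m ds →
      Real.log dV ≤ (b : ℝ) * (1 + Real.log ((2 : ℝ) ^ (d + 1) / b)) +
        ∑ s, (m s : ℝ) * (Real.log (T s) + Real.log ((b : ℝ) / m s)))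
    (HX16 : ∀ T : ℕ, 2 ^ 16 ≤ T → Real.log (JBnum3.Xi3 T (1 / 1000) (1 / 1000)) ≤ 4.1 * JCov.XX T)
    (HX1 : ∀ T : ℕ, 1 ≤ T → Real.log (JBnum3.Xi3 T (1 / 1000) (1 / 1000)) ≤ 38 * JCov.XX T) :
    Filter.Tendsto (fun d : ℕ => Crest.ProbabilityR.Shuffle.tvFromUniform (2 ^ d) (1600 * (d + 1)))
      Filter.atTop (nhds 0) := by
  have hT := tableData_θT
  refine shuffle_of_fr_cov (θ := θfin FRTable.θT) (θfin_nonneg hT) (θfin_base hT) (θfin_close hT hP) ?_
  filter_upwards [Filter.eventually_ge_atTop 7] with d hd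
  have hθ : ∀ b, θfin FRTable.θT (d + 1) b = thN ((2 : ℝ) ^ (d + 1)) b := fun b =>
    θfin_of_ge FRTable.θT (by omega) b
  exact ⟨entBd_of_thN hθ, cov_of_thN hidx HX16 HX1 hθ⟩

end Crest.Agent.S0222Lib.SWord
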