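import Crest.Agent.S0222Lib.FRPotBoxQ

/-!
# S0222, first-row bound: the runs of the checker, and `BoxFacts`
-/

set_option autoImplicit false

namespace Crest.Agent.S0222Lib.FRCore.Pot.BoxQ

set_option maxRecDepth 100000

theorem run1 : chk (test dom0 lbTU (454 / 100000)) 30 (7 / 32) (91 / 128) 0 1 = true := by
  decide +kernel

theorem run2 : chk (test dom0 lbTT (1001 / 100000)) 30 (7 / 32) (91 / 128) 0 1 = true := by
  decide +kernel

theorem run3 : chk (test dom3 lbUU 0) 30 (7 / 32) (91 / 128) 0 1 = true := by decide +kernel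

theorem run4 : chk (test dom1 lbTT 0) 30 (181 / 256) (13 / 16) 0 1 = true := by decide +kernel

theorem run5 : chk (test dom1 lbTU 0) 30 (181 / 256) (13 / 16) 0 1 = true := by decide +kernel

theorem run6 : chk (test dom1 lbUU 0) 30 (181 / 256) (13 / 16) 0 1 = true := by decide +kernel

/-- **`BoxFacts`.** -/
theorem boxFacts : BoxFacts := by
  refine ⟨?_, ?_, ?_, ?_, ?_, ?_⟩
  · intro y τ h1 h2 h3 h4
    have := of_chk0 (E := fun y τ => Tf y τ + Uf y (2 * y ^ 2 - τ) + Qf y τ - 2 * Phi (y ^ 2))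
      (fun y₁ y₂ t₁ t₂ y τ h0 hy a1 a2 a3 a4 => lbTU_le h0 hy a1 a2 a3 a4) run1
      (show H0 y τ from ⟨h1, h2, h3, h4⟩)
    norm_num at this ⊢
    linarith
  · intro y τ h1 h2 h3 h4
    have := of_chk0 (E := fun y τ => Tf y τ + Tf y (2 * y ^ 2 - τ) + Qf y τ - 2 * Phi (y ^ 2))
      (fun y₁ y₂ t₁ t₂ y τ h0 hy a1 a2 a3 a4 => lbTT_le h0 hy a1 a2 a3 a4) run2
      (show H0 y τ from ⟨h1, h2, h3, h4⟩)
    norm_num at this ⊢
    linarith
  · intro y τ h1 h2 h3 h4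
    have := of_chk3 (E := fun y τ => Uf y τ + Uf y (2 * y ^ 2 - τ) + Qf y τ - 2 * Phi (y ^ 2))
      (fun y₁ y₂ t₁ t₂ y τ h0 hy a1 a2 a3 a4 => lbUU_le h0 hy a1 a2 a3 a4) run3
      (show H3 y τ from ⟨h1, h2, h3, h4⟩)
    norm_num at this ⊢
    linarith
  · intro y τ h0 h1 h2 h3 h4 h5 h6
    have := of_chk1 (E := fun y τ => Tf y τ + Tf y (2 * y ^ 2 - τ) + Qf y τ - 2 * Phi (y ^ 2))
      (fun y₁ y₂ t₁ t₂ y τ h0 hy a1 a2 a3 a4 => lbTT_le h0 hy a1 a2 a3 a4) run4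
      (show H1 y τ from ⟨h0, h1, h2, h3, h4, h5, h6⟩)
    norm_num at this ⊢
    linarith
  · intro y τ h0 h1 h2 h3 h4 h5 h6
    have := of_chk1 (E := fun y τ => Tf y τ + Uf y (2 * y ^ 2 - τ) + Qf y τ - 2 * Phi (y ^ 2))
      (fun y₁ y₂ t₁ t₂ y τ h0 hy a1 a2 a3 a4 => lbTU_le h0 hy a1 a2 a3 a4) run5
      (show H1 y τ from ⟨h0, h1, h2, h3, h4, h5, h6⟩)
    norm_num at this ⊢
    linarith
  · intro y τ h0 h1 h2 h3 h4 h5 h6
    have := of_chk1 (E := fun y τ => Uf y τ + Uf y (2 * y ^ 2 - τ) + Qf y τ - 2 * Phi (y ^ 2))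
      (fun y₁ y₂ t₁ t₂ y τ h0 hy a1 a2 a3 a4 => lbUU_le h0 hy a1 a2 a3 a4) run6
      (show H1 y τ from ⟨h0, h1, h2, h3, h4, h5, h6⟩)
    norm_num at this ⊢
    linarith

end Crest.Agent.S0222Lib.FRCore.Pot.BoxQ
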