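import Crest.Agent.S0222Lib.FRPotDef

/-!
# S0222, first-row bound: the closure of the potential for `b ≤ N / 10`, by hand

Let `z = (3/5) / (b/2 + √(N b/2))`, `T0 t = t (1/2) log (1 + z (N - t + 1))`. For `128 ≤ N`, `4 ≤ b`,
`10 b ≤ N`, `t + t' = b`:

* `small_TU`: `f_{2N}(b) + 0.581 ≤ T0 t + f_N(t') + (7/10)/b ((t - t')/2)²`;
* `small_TT`: `f_{2N}(b) + 0.7 + 0.581 ≤ T0 t + T0 t' + (7/10)/b ((t - t')/2)²`.

With `r = √(2N/b)`: `z (N - b) = (3/5)(r² - 2)/(1 + r)`, so `1 + z (N - t + 1) ≥ ρ(r)`, `ρ(r)² ≥ κ r`;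
this gives `ψ - e ≥ w`, where `e = f_{2N}(b)/b`, and the rest is a quadratic in `u = 1/2 - t/b`.
-/

set_option autoImplicit false
set_option linter.unusedSectionVars false
set_option linter.unusedVariables false

namespace Crest.Agent.S0222Lib.FRCore.Pot

open Real

/-- `f_N(0) = 0`. -/
lemma fN_zero' (N : ℝ) : fN N 0 = 0 := by
  unfold fN Phi
  simp

/-- The value of `ρ`: a lower bound of `1 + z (N - t + 1)` in terms of `r = √(2N/b)`. -/
lemma rho_lower {Nr B r T z : ℝ} (hB : 0 < B) (hN : 0 < Nr) (hr : 0 < r) (hr2 : r ^ 2 = 2 * Nr / B)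
    (hz : z = (3 / 5) / (B / 2 + Real.sqrt (Nr * (B / 2)))) (hT : T ≤ B) :
    1 + (3 / 5) * (r ^ 2 - 2) / (1 + r) ≤ 1 + z * (Nr - T + 1) := by
  have hB2 : B = 2 * Nr / r ^ 2 := by
    rw [hr2]
    field_simp
  have hsq : Real.sqrt (Nr * (B / 2)) = Nr / r := by
    have h1 : Nr * (B / 2) = (Nr / r) ^ 2 := by
      rw [hB2]
      field_simp
    rw [h1, Real.sqrt_sq (by positivity)]
  have hz2 : z = (3 / 5) * r ^ 2 / (Nr * (1 + r)) := by
    rw [hz, hsq, hB2]
    field_simp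
  have hzpos : 0 < z := by
    rw [hz2]
    positivity
  have h3 : z * (Nr - B) = (3 / 5) * (r ^ 2 - 2) / (1 + r) := by
    rw [hz2, hB2]
    field_simp
  have h4 : z * (Nr - B) ≤ z * (Nr - T + 1) :=
    mul_le_mul_of_nonneg_left (by linarith) hzpos.le
  linarith

/-- From `ρ ≥ 3r/5 + c` to `ρ² ≥ κ r`. -/
lemma rho_sq {r c κ : ℝ} (hc : 0 ≤ c) (hr : 0 < r) (h1 : c * (1 + r) ≤ (2 / 5) * r - 1 / 5)
    (h2 : κ * r ≤ (3 / 5 * r + c) ^ 2) :
    κ * r ≤ (1 + (3 / 5) * (r ^ 2 - 2) / (1 + r)) ^ 2 := by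
  have h3 : 3 / 5 * r + c ≤ 1 + (3 / 5) * (r ^ 2 - 2) / (1 + r) := by
    have h4 : 1 + (3 / 5) * (r ^ 2 - 2) / (1 + r) - 3 / 5 * r = ((2 / 5) * r - 1 / 5) / (1 + r) := by
      field_simp
      ring
    have h5 : c ≤ ((2 / 5) * r - 1 / 5) / (1 + r) := by
      rw [le_div_iff₀ (by positivity)]
      exact h1
    linarith
  refine h2.trans ?_
  exact pow_le_pow_left₀ (by positivity) h3 2

/-- The bound `E0`. -/
lemma E0_le : x0 + c1 * (1 + Real.log x0) ≤ 295 / 1000 := by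
  have h1 : Real.log x0 ≤ 3 / 16 - 2 * Real.log 2 := by
    have h2 : x0 = (19 / 16) / 2 ^ 2 := by
      unfold x0
      norm_num
    rw [h2, Real.log_div (by norm_num) (by norm_num), Real.log_pow]
    have h3 := Real.log_le_sub_one_of_pos (show (0 : ℝ) < 19 / 16 by norm_num)
    push_cast
    linarith
  have h4 := Real.log_two_gt_d9
  unfold x0 c1 at *
  linarith

/-- The lower bound of `w = ψ - e`. -/
lemma w_lower {Nr B r z κ lr T : ℝ} (hB : 0 < B) (hN : 0 < Nr) (hr : 0 < r) (hr2 : r ^ 2 = 2 * Nr / B)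
    (hz : z = (3 / 5) / (B / 2 + Real.sqrt (Nr * (B / 2)))) (hT : T ≤ B) (hκ : 0 < κ)
    (hρ : κ * r ≤ (1 + (3 / 5) * (r ^ 2 - 2) / (1 + r)) ^ 2) (hlr : lr ≤ Real.log r)
    (hρ0 : 0 < 1 + (3 / 5) * (r ^ 2 - 2) / (1 + r)) (hB4 : 0 < B) :
    (1 / 4) * Real.log κ + (23 / 100) * lr - 295 / 1000 +
      (c1 * (1 + Real.log (x0 * (2 * Nr) / B)) + x0 - B / (4 * Nr)) ≤
      (1 / 2) * Real.log (1 + z * (Nr - T + 1)) := by
  set ρ := 1 + (3 / 5) * (r ^ 2 - 2) / (1 + r) with hρdef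
  have h1 : ρ ≤ 1 + z * (Nr - T + 1) := rho_lower hB hN hr hr2 hz hT
  have h2 : Real.log ρ ≤ Real.log (1 + z * (Nr - T + 1)) := Real.log_le_log hρ0 h1
  have h3 : Real.log κ + Real.log r ≤ 2 * Real.log ρ := by
    have h4 := Real.log_le_log (by positivity) hρ
    rw [Real.log_mul hκ.ne' hr.ne', Real.log_pow] at h4
    push_cast at h4
    exact h4
  have h5 : Real.log (x0 * (2 * Nr) / B) = Real.log x0 + 2 * Real.log r := by
    have h6 : x0 * (2 * Nr) / B = x0 * r ^ 2 := by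
      rw [hr2]
      ring
    rw [h6, Real.log_mul x0_pos.ne' (by positivity), Real.log_pow]
    push_cast
    ring
  rw [h5]
  have h7 := E0_le
  have h8 : 0 ≤ B / (4 * Nr) := by positivity
  have h9 : c1 = 1 / 100 := rfl
  rw [h9] at h7 ⊢
  nlinarith


/-- The formula of `f_{2N}(b)`. -/
lemma fN2_eq {N b : ℕ} (hb : 0 < b) (hbN : 10 * b ≤ N) :
    fN (2 * (N : ℝ)) b = (b : ℝ) * (c1 * (1 + Real.log (x0 * (2 * (N : ℝ)) / b)) + x0 - b / (4 * (N : ℝ))) := by
  have hB : (0 : ℝ) < b := by exact_mod_cast hb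
  have hN : (0 : ℝ) < N := by
    have : 0 < N := by omega
    exact_mod_cast this
  have hbN' : 10 * (b : ℝ) ≤ N := by exact_mod_cast hbN
  rw [fN_of_le (N := 2 * (N : ℝ)) (by positivity) hb (by unfold x0; linarith)]
  field_simp
  ring

/-- The potential at a part: `f_N(t') ≥ t' e - κ U⁺`. -/
lemma fN_part {N b t' : ℕ} (hb : 0 < b) (hbN : 10 * b ≤ N) (ht' : t' ≤ b) {U : ℝ}
    (hU : U = (t' : ℝ) - b / 2) :
    (t' : ℝ) * (c1 * (1 + Real.log (x0 * (2 * (N : ℝ)) / b)) + x0 - b / (4 * (N : ℝ))) -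
        (2 * c1 + b / (2 * (N : ℝ))) * max U 0 ≤ fN (N : ℝ) t' := by
  have hB : (0 : ℝ) < b := by exact_mod_cast hb
  have hN : (0 : ℝ) < N := by
    have : 0 < N := by omega
    exact_mod_cast this
  have hbN' : 10 * (b : ℝ) ≤ N := by exact_mod_cast hbN
  have ht'R : (t' : ℝ) ≤ b := by exact_mod_cast ht'
  have hκ : 0 ≤ 2 * c1 + b / (2 * (N : ℝ)) := by
    have := c1_pos
    positivity
  rcases Nat.eq_zero_or_pos t' with rfl | htpos
  · rw [fN_zero']
    have := mul_nonneg hκ (le_max_right U 0)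
    simp only [Nat.cast_zero, zero_mul]
    linarith
  · have hT : (0 : ℝ) < t' := by exact_mod_cast htpos
    rw [fN_of_le hN htpos (by unfold x0; linarith)]
    have h1 : Real.log (x0 * (N : ℝ) / t') - Real.log (x0 * (2 * (N : ℝ)) / b) =
        Real.log ((b : ℝ) / (2 * t')) := by
      rw [← Real.log_div (by have := x0_pos; positivity) (by have := x0_pos; positivity)]
      congr 1
      have := x0_pos
      field_simp
    have h2 : 1 - 2 * (t' : ℝ) / b ≤ Real.log ((b : ℝ) / (2 * t')) := by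
      have h3 := Real.one_sub_inv_le_log_of_pos (show (0 : ℝ) < (b : ℝ) / (2 * t') by positivity)
      rw [inv_div] at h3
      exact h3
    have h4 : c1 * (t' : ℝ) * (1 - 2 * (t' : ℝ) / b) ≤ c1 * t' * Real.log ((b : ℝ) / (2 * t')) :=
      mul_le_mul_of_nonneg_left h2 (by have := c1_pos; positivity)
    have h5 : c1 * (t' : ℝ) * (1 - 2 * (t' : ℝ) / b) = -(2 * c1 * ((t' : ℝ) / b) * U) := by
      rw [hU]
      field_simp
      ring
    have h6 : (t' : ℝ) * (b / (4 * (N : ℝ))) - (t' : ℝ) ^ 2 / (2 * (N : ℝ)) =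
        -((b : ℝ) / (2 * (N : ℝ)) * ((t' : ℝ) / b) * U) := by
      rw [hU]
      field_simp
      ring
    have h7 : ((t' : ℝ) / b) * U ≤ max U 0 := by
      have h8 : (t' : ℝ) / b ≤ 1 := (div_le_one hB).2 ht'R
      have h9 : 0 ≤ (t' : ℝ) / b := by positivity
      rcases le_total 0 U with h0 | h0
      · rw [max_eq_left h0]
        nlinarith
      · rw [max_eq_right h0]
        nlinarith
    have h10 : 0 ≤ 2 * c1 := by
      have := c1_pos
      positivity
    have h11 : 0 ≤ (b : ℝ) / (2 * (N : ℝ)) := by positivity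
    have h12 := mul_le_mul_of_nonneg_left h7 h10
    have h13 := mul_le_mul_of_nonneg_left h7 h11
    have h14 : c1 * t' * (Real.log (x0 * (N : ℝ) / t') - Real.log (x0 * (2 * (N : ℝ)) / b)) =
        c1 * t' * Real.log ((b : ℝ) / (2 * t')) := by
      rw [h1]
    nlinarith


/-- The bound of `ψ` at all points. -/
lemma psi_of {N b : ℕ} {z κ c lr w r : ℝ} (hb : 0 < b) (hbN : 10 * b ≤ N)
    (hz : z = (3 / 5) / ((b : ℝ) / 2 + Real.sqrt ((N : ℝ) * ((b : ℝ) / 2))))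
    (hc : 0 ≤ c) (hκ : 0 < κ) (hr : r = Real.sqrt (2 * (N : ℝ) / b))
    (h1 : c * (1 + r) ≤ (2 / 5) * r - 1 / 5) (h2 : κ * r ≤ (3 / 5 * r + c) ^ 2)
    (hlr : lr ≤ Real.log r) (hw : w ≤ (1 / 4) * Real.log κ + (23 / 100) * lr - 295 / 1000)
    {T : ℝ} (hT : T ≤ b) :
    w + (c1 * (1 + Real.log (x0 * (2 * (N : ℝ)) / b)) + x0 - b / (4 * (N : ℝ))) ≤
      (1 / 2) * Real.log (1 + z * ((N : ℝ) - T + 1)) := by
  have hB : (0 : ℝ) < b := by exact_mod_cast hb
  have hN : (0 : ℝ) < N := by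
    have : 0 < N := by omega
    exact_mod_cast this
  have hbN' : 10 * (b : ℝ) ≤ N := by exact_mod_cast hbN
  have hr2 : r ^ 2 = 2 * (N : ℝ) / b := by
    rw [hr, Real.sq_sqrt (by positivity)]
  have hr20 : 20 ≤ r ^ 2 := by
    rw [hr2, le_div_iff₀ hB]
    linarith
  have hr0 : 0 < r := by
    rw [hr]
    exact Real.sqrt_pos.2 (by positivity)
  have hρ0 : 0 < 1 + (3 / 5) * (r ^ 2 - 2) / (1 + r) := by
    have : 0 ≤ (3 / 5) * (r ^ 2 - 2) / (1 + r) :=
      div_nonneg (mul_nonneg (by norm_num) (by linarith)) (by positivity)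
    linarith
  have h3 := w_lower (T := T) hB hN hr0 hr2 hz hT hκ (rho_sq hc hr0 h1 h2) hlr hρ0 hB
  linarith

/-- The numbers at the end of `small_TU`. -/
lemma num_TU {B T T' w κ κ₀ G U : ℝ} (hB : 0 < B) (hTT : T + T' = B) (hU : U = T' - B / 2)
    (hκ : κ ≤ κ₀) (hw : 0 ≤ w) (hG : G ≤ w / 2 - (w + κ₀) ^ 2 * (5 / 14))
    (hBG : 581 / 1000 ≤ B * G) (hBw : 581 / 1000 ≤ B / 2 * w) :
    581 / 1000 ≤ T * w - κ * max U 0 + (7 / 10) / B * U ^ 2 := by
  have hT : T = B / 2 - U := by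
    rw [hU]
    linarith
  rcases le_total 0 U with h0 | h0
  · rw [max_eq_left h0]
    set u := U / B with hu
    have hU2 : U = B * u := by
      rw [hu]
      field_simp
    have hu0 : 0 ≤ u := by positivity
    have h1 : κ * U ≤ κ₀ * U := mul_le_mul_of_nonneg_right hκ h0
    have h2 : (7 / 10) / B * U ^ 2 = B * ((7 / 10) * u ^ 2) := by
      rw [hU2]
      field_simp
    have h3 : T * w = B * ((1 / 2 - u) * w) := by
      rw [hT, hU2]
      ring
    have h4 : κ₀ * U = B * (κ₀ * u) := by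
      rw [hU2]
      ring
    have h5 : G ≤ (1 / 2 - u) * w - κ₀ * u + (7 / 10) * u ^ 2 := by
      have h6 := sq_nonneg (u - (w + κ₀) * (5 / 7))
      nlinarith
    have h7 : B * G ≤ B * ((1 / 2 - u) * w - κ₀ * u + (7 / 10) * u ^ 2) :=
      mul_le_mul_of_nonneg_left h5 hB.le
    rw [h2, h3]
    nlinarith
  · rw [max_eq_right h0]
    have h1 : 0 ≤ (7 / 10) / B * U ^ 2 := by positivity
    have h2 : B / 2 * w ≤ T * w := mul_le_mul_of_nonneg_right (by rw [hT]; linarith) hw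
    linarith

/-- `small_TU`, from the bound of `ψ` and the numbers. -/
lemma TU_of {N b t t' : ℕ} {z w : ℝ} (hb : 0 < b) (hbN : 10 * b ≤ N) (ht : t + t' = b)
    (hψ : w + (c1 * (1 + Real.log (x0 * (2 * (N : ℝ)) / b)) + x0 - b / (4 * (N : ℝ))) ≤
      (1 / 2) * Real.log (1 + z * ((N : ℝ) - t + 1)))
    (hnum : 581 / 1000 ≤ (t : ℝ) * w - (2 * c1 + b / (2 * (N : ℝ))) * max ((t' : ℝ) - b / 2) 0 +
      (7 / 10) / b * ((t' : ℝ) - b / 2) ^ 2) :
    fN (2 * (N : ℝ)) b + 581 / 1000 ≤ (t : ℝ) * (1 / 2) * Real.log (1 + z * ((N : ℝ) - t + 1)) +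
      fN (N : ℝ) t' + (7 / 10) / (b : ℝ) * (((t : ℝ) - t') / 2) ^ 2 := by
  have hbR : (b : ℝ) = t + t' := by
    rw [← ht]
    push_cast
    ring
  have h1 := fN_part (N := N) (b := b) (t' := t') hb hbN (by omega) (U := (t' : ℝ) - b / 2) rfl
  have h2 := fN2_eq (N := N) hb hbN
  set e := c1 * (1 + Real.log (x0 * (2 * (N : ℝ)) / b)) + x0 - b / (4 * (N : ℝ)) with he
  have h3 : (t : ℝ) * (w + e) ≤ (t : ℝ) * ((1 / 2) * Real.log (1 + z * ((N : ℝ) - t + 1))) :=
    mul_le_mul_of_nonneg_left hψ (by positivity)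
  have h4 : ((t : ℝ) - t') / 2 = -((t' : ℝ) - b / 2) := by
    rw [hbR]
    ring
  rw [h4, neg_sq, h2]
  have h5 : (b : ℝ) * e = t * e + t' * e := by
    rw [hbR]
    ring
  rw [h5]
  nlinarith

/-- `small_TT`, from the bound of `ψ` and the numbers. -/
lemma TT_of {N b t t' : ℕ} {z w : ℝ} (hb : 0 < b) (hbN : 10 * b ≤ N) (ht : t + t' = b)
    (hψ : w + (c1 * (1 + Real.log (x0 * (2 * (N : ℝ)) / b)) + x0 - b / (4 * (N : ℝ))) ≤
      (1 / 2) * Real.log (1 + z * ((N : ℝ) - t + 1)))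
    (hψ' : w + (c1 * (1 + Real.log (x0 * (2 * (N : ℝ)) / b)) + x0 - b / (4 * (N : ℝ))) ≤
      (1 / 2) * Real.log (1 + z * ((N : ℝ) - t' + 1)))
    (hnum : 7 / 10 + 581 / 1000 ≤ (b : ℝ) * w) :
    fN (2 * (N : ℝ)) b + 7 / 10 + 581 / 1000 ≤
      (t : ℝ) * (1 / 2) * Real.log (1 + z * ((N : ℝ) - t + 1)) +
      (t' : ℝ) * (1 / 2) * Real.log (1 + z * ((N : ℝ) - t' + 1)) +
      (7 / 10) / (b : ℝ) * (((t : ℝ) - t') / 2) ^ 2 := by
  have hB : (0 : ℝ) < b := by exact_mod_cast hb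
  have hbR : (b : ℝ) = t + t' := by
    rw [← ht]
    push_cast
    ring
  have h2 := fN2_eq (N := N) hb hbN
  set e := c1 * (1 + Real.log (x0 * (2 * (N : ℝ)) / b)) + x0 - b / (4 * (N : ℝ)) with he
  have h3 : (t : ℝ) * (w + e) ≤ (t : ℝ) * ((1 / 2) * Real.log (1 + z * ((N : ℝ) - t + 1))) :=
    mul_le_mul_of_nonneg_left hψ (by positivity)
  have h3' : (t' : ℝ) * (w + e) ≤ (t' : ℝ) * ((1 / 2) * Real.log (1 + z * ((N : ℝ) - t' + 1))) :=
    mul_le_mul_of_nonneg_left hψ' (by positivity)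
  have h4 : 0 ≤ (7 / 10) / (b : ℝ) * (((t : ℝ) - t') / 2) ^ 2 := by positivity
  rw [h2]
  have h5 : (b : ℝ) * e = t * e + t' * e := by
    rw [hbR]
    ring
  have h6 : (b : ℝ) * w = t * w + t' * w := by
    rw [hbR]
    ring
  rw [h5]
  rw [h6] at hnum
  nlinarith


/-! ### The four ranges of `b` -/

lemma log_49_25 : Real.log 2 - 1 / 49 ≤ Real.log (49 / 25) := by
  have h1 : (49 / 25 : ℝ) = 2 * (49 / 50) := by norm_num
  rw [h1, Real.log_mul (by norm_num) (by norm_num)]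
  have h2 := Real.one_sub_inv_le_log_of_pos (show (0 : ℝ) < 49 / 50 by norm_num)
  norm_num at h2 ⊢
  linarith

lemma log_5_2 : Real.log 2 + 1 / 5 ≤ Real.log (5 / 2) := by
  have h1 : (5 / 2 : ℝ) = 2 * (5 / 4) := by norm_num
  rw [h1, Real.log_mul (by norm_num) (by norm_num)]
  have h2 := Real.one_sub_inv_le_log_of_pos (show (0 : ℝ) < 5 / 4 by norm_num)
  norm_num at h2 ⊢
  linarith

lemma log_3 : (3 / 2) * Real.log 2 + 1 / 18 ≤ Real.log 3 := by
  have h1 : (9 : ℝ) = 2 ^ 3 * (9 / 8) := by norm_num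
  have h2 : Real.log 9 = 2 * Real.log 3 := by
    rw [show (9 : ℝ) = 3 ^ 2 by norm_num, Real.log_pow]
    norm_num
  have h3 : Real.log 9 = 3 * Real.log 2 + Real.log (9 / 8) := by
    rw [h1, Real.log_mul (by norm_num) (by norm_num), Real.log_pow]
    norm_num
  have h4 := Real.one_sub_inv_le_log_of_pos (show (0 : ℝ) < 9 / 8 by norm_num)
  norm_num at h4
  linarith

/-- Logarithms by comparison with a power of two. -/
lemma log_of_pow_le {r : ℝ} (hr : 0 < r) {k n : ℕ} (hn : 0 < n) (h : (2 : ℝ) ^ k ≤ r ^ n) :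
    (k : ℝ) / n * Real.log 2 ≤ Real.log r := by
  have h1 := Real.log_le_log (by positivity) h
  rw [Real.log_pow, Real.log_pow] at h1
  have hn' : (0 : ℝ) < n := by exact_mod_cast hn
  rw [div_mul_eq_mul_div, div_le_iff₀ hn']
  linarith

section cases

variable {N b t t' : ℕ} {z : ℝ}

/-- The case `b ≥ 8`. -/
lemma psi_A (hb : 8 ≤ b) (hbN : 10 * b ≤ N)
    (hz : z = (3 / 5) / ((b : ℝ) / 2 + Real.sqrt ((N : ℝ) * ((b : ℝ) / 2)))) {T : ℝ} (hT : T ≤ b) :
    1 / 5 + (c1 * (1 + Real.log (x0 * (2 * (N : ℝ)) / b)) + x0 - b / (4 * (N : ℝ))) ≤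
      (1 / 2) * Real.log (1 + z * ((N : ℝ) - T + 1)) := by
  have hB : (0 : ℝ) < b := by
    have : 0 < b := by omega
    exact_mod_cast this
  have hbN' : 10 * (b : ℝ) ≤ N := by exact_mod_cast hbN
  have hs : (20 : ℝ) ≤ 2 * (N : ℝ) / b := by
    rw [le_div_iff₀ hB]
    linarith
  have hr0 : (447 / 100 : ℝ) ≤ Real.sqrt (2 * (N : ℝ) / b) := by
    rw [Real.le_sqrt' (by norm_num)]
    norm_num at hs ⊢
    linarith
  have hr2 : Real.sqrt (2 * (N : ℝ) / b) ^ 2 = 2 * (N : ℝ) / b := Real.sq_sqrt (by linarith)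
  set r := Real.sqrt (2 * (N : ℝ) / b) with hr
  have hrpos : 0 < r := by linarith
  have h8 : (2 : ℝ) ^ 17 ≤ r ^ 8 := by
    have h9 : r ^ 8 = (r ^ 2) ^ 4 := by ring
    rw [h9, hr2]
    have h10 : (20 : ℝ) ^ 4 ≤ (2 * (N : ℝ) / b) ^ 4 := pow_le_pow_left₀ (by norm_num) hs 4
    norm_num at h10 ⊢
    linarith
  have hlr := log_of_pow_le hrpos (by norm_num) h8
  have hl2 := Real.log_two_gt_d9
  refine psi_of (κ := 49 / 25) (c := 7 / 25) (lr := (17 : ℕ) / (8 : ℕ) * Real.log 2) (by omega) hbN hz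
    (by norm_num) (by norm_num) hr (by nlinarith) (by nlinarith [sq_nonneg (r - 447 / 100)]) hlr ?_ hT
  have h1 := log_49_25
  push_cast
  linarith

/-- The case `r ≥ 6`. -/
lemma psi_B (hb : 0 < b) (hbN : 10 * b ≤ N) (hs : (36 : ℝ) ≤ 2 * (N : ℝ) / b) {k n : ℕ} (hn : 0 < n)
    (hk : (2 : ℝ) ^ k ≤ (Real.sqrt (2 * (N : ℝ) / b)) ^ n) {w : ℝ}
    (hw : w ≤ (1 / 4) * (Real.log 2 + 1 / 5) + (23 / 100) * ((k : ℝ) / n * Real.log 2) - 295 / 1000)
    (hz : z = (3 / 5) / ((b : ℝ) / 2 + Real.sqrt ((N : ℝ) * ((b : ℝ) / 2)))) {T : ℝ} (hT : T ≤ b) :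
    w + (c1 * (1 + Real.log (x0 * (2 * (N : ℝ)) / b)) + x0 - b / (4 * (N : ℝ))) ≤
      (1 / 2) * Real.log (1 + z * ((N : ℝ) - T + 1)) := by
  have hr0 : (6 : ℝ) ≤ Real.sqrt (2 * (N : ℝ) / b) := by
    rw [Real.le_sqrt' (by norm_num)]
    norm_num at hs ⊢
    linarith
  set r := Real.sqrt (2 * (N : ℝ) / b) with hr
  have hrpos : 0 < r := by linarith
  have hlr := log_of_pow_le hrpos hn hk
  refine psi_of (κ := 5 / 2) (c := 31 / 100) (lr := (k : ℝ) / n * Real.log 2) hb hbN hz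
    (by norm_num) (by norm_num) hr (by nlinarith) (by nlinarith [sq_nonneg (r - 6)]) hlr ?_ hT
  have h1 := log_5_2
  linarith

/-- The case `b = 4`. -/
lemma psi_D (hN : 128 ≤ N) (hbN : 10 * 4 ≤ N)
    (hz : z = (3 / 5) / (((4 : ℕ) : ℝ) / 2 + Real.sqrt ((N : ℝ) * (((4 : ℕ) : ℝ) / 2)))) {T : ℝ}
    (hT : T ≤ ((4 : ℕ) : ℝ)) :
    9 / 20 + (c1 * (1 + Real.log (x0 * (2 * (N : ℝ)) / ((4 : ℕ) : ℝ))) + x0 - ((4 : ℕ) : ℝ) / (4 * (N : ℝ))) ≤
      (1 / 2) * Real.log (1 + z * ((N : ℝ) - T + 1)) := by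
  have hN' : (128 : ℝ) ≤ N := by exact_mod_cast hN
  have hs : (64 : ℝ) ≤ 2 * (N : ℝ) / ((4 : ℕ) : ℝ) := by
    rw [le_div_iff₀ (by norm_num)]
    push_cast
    linarith
  have hr0 : (8 : ℝ) ≤ Real.sqrt (2 * (N : ℝ) / ((4 : ℕ) : ℝ)) := by
    rw [Real.le_sqrt' (by norm_num)]
    norm_num at hs ⊢
    linarith
  set r := Real.sqrt (2 * (N : ℝ) / ((4 : ℕ) : ℝ)) with hr
  have hrpos : 0 < r := by linarith
  have hlr := log_of_pow_le (k := 3) (n := 1) hrpos (by norm_num) (by norm_num; linarith)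
  have hl2 := Real.log_two_gt_d9
  refine psi_of (κ := 3) (c := 33 / 100) (lr := (3 : ℕ) / (1 : ℕ) * Real.log 2) (by omega) hbN hz
    (by norm_num) (by norm_num) hr (by nlinarith) (by nlinarith [sq_nonneg (r - 8)]) hlr ?_ hT
  have h1 := log_3
  push_cast
  linarith

end cases


/-! ### The statements -/

/-- **The case of `T`, `U`, for `b ≤ N / 10`.** -/
theorem small_TU {N b t t' : ℕ} (hN : 128 ≤ N) (hb : 4 ≤ b) (hbN : 10 * b ≤ N) (ht : t + t' = b) {z : ℝ}
    (hz : z = (3 / 5) / ((b : ℝ) / 2 + Real.sqrt ((N : ℝ) * ((b : ℝ) / 2)))) :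
    fN (2 * (N : ℝ)) b + 581 / 1000 ≤ (t : ℝ) * (1 / 2) * Real.log (1 + z * ((N : ℝ) - t + 1)) +
      fN (N : ℝ) t' + (7 / 10) / (b : ℝ) * (((t : ℝ) - t') / 2) ^ 2 := by
  have hB : (0 : ℝ) < b := by
    have : 0 < b := by omega
    exact_mod_cast this
  have hN' : (128 : ℝ) ≤ N := by exact_mod_cast hN
  have hNpos : (0 : ℝ) < N := by linarith
  have hbN' : 10 * (b : ℝ) ≤ N := by exact_mod_cast hbN
  have htb : (t : ℝ) ≤ b := by exact_mod_cast (by omega : t ≤ b)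
  have hTT : (t : ℝ) + t' = b := by exact_mod_cast ht
  have hl2 := Real.log_two_gt_d9
  have hc1 : c1 = 1 / 100 := rfl
  rcases Nat.lt_or_ge b 5 with h4 | h5
  · -- `b = 4`
    obtain rfl : b = 4 := by omega
    have hψ := psi_D (N := N) hN hbN hz (T := (t : ℝ)) htb
    refine TU_of (by omega) hbN ht hψ ?_
    have hκ : 2 * c1 + ((4 : ℕ) : ℝ) / (2 * (N : ℝ)) ≤ 357 / 10000 := by
      have : ((4 : ℕ) : ℝ) / (2 * (N : ℝ)) ≤ 1 / 64 := by
        rw [div_le_iff₀ (by positivity)]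
        push_cast
        linarith
      rw [hc1]
      linarith
    have ht4 : t ≤ 4 := by omega
    norm_num only at hκ
    interval_cases t
    · obtain rfl : t' = 4 := by omega
      norm_num
      linarith
    · obtain rfl : t' = 3 := by omega
      norm_num
      linarith
    · obtain rfl : t' = 2 := by omega
      norm_num
    · obtain rfl : t' = 1 := by omega
      norm_num
    · obtain rfl : t' = 0 := by omega
      norm_num
  · rcases Nat.lt_or_ge b 6 with h6 | h6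
    · -- `b = 5`
      obtain rfl : b = 5 := by omega
      have hs : (256 / 5 : ℝ) ≤ 2 * (N : ℝ) / ((5 : ℕ) : ℝ) := by
        rw [le_div_iff₀ (by norm_num)]
        push_cast
        linarith
      have hψ := psi_B (N := N) (b := 5) (w := 35 / 100) (k := 11) (n := 4) (by norm_num) hbN (by linarith)
        (by norm_num)
        (by
          have h1 : Real.sqrt (2 * (N : ℝ) / ((5 : ℕ) : ℝ)) ^ 4 =
              (2 * (N : ℝ) / ((5 : ℕ) : ℝ)) ^ 2 := by
            rw [show (4 : ℕ) = 2 * 2 by norm_num, pow_mul, Real.sq_sqrt (by linarith)]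
          rw [h1]
          have h2 := pow_le_pow_left₀ (by norm_num) hs 2
          norm_num at h2 ⊢
          linarith)
        (by
          push_cast
          norm_num
          linarith)
        hz (T := (t : ℝ)) htb
      refine TU_of (by omega) hbN ht hψ ?_
      refine num_TU (T' := (t' : ℝ)) (κ₀ := 4 / 100) (G := 12 / 100) hB hTT rfl ?_ (by norm_num)
        (by norm_num) (by norm_num) (by norm_num)
      have : ((5 : ℕ) : ℝ) / (2 * (N : ℝ)) ≤ 5 / 256 := by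
        rw [div_le_iff₀ (by positivity)]
        push_cast
        linarith
      rw [hc1]
      linarith
    · rcases Nat.lt_or_ge b 8 with h8 | h8
      · -- `b = 6, 7`
        have hb7 : (b : ℝ) ≤ 7 := by exact_mod_cast (by omega : b ≤ 7)
        have hb6 : (6 : ℝ) ≤ b := by exact_mod_cast h6
        have hs : (36 : ℝ) ≤ 2 * (N : ℝ) / b := by
          rw [le_div_iff₀ hB]
          nlinarith
        have hψ := psi_B (N := N) (b := b) (w := 3 / 10) (k := 5) (n := 2) (by omega) hbN hs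
          (by norm_num)
          (by
            rw [Real.sq_sqrt (by linarith)]
            norm_num
            linarith)
          (by
            push_cast
            norm_num
            linarith)
          hz (T := (t : ℝ)) htb
        refine TU_of (by omega) hbN ht hψ ?_
        refine num_TU (T' := (t' : ℝ)) (κ₀ := 48 / 1000) (G := 1067 / 10000) hB hTT rfl ?_ (by norm_num)
          (by norm_num) (by nlinarith) (by nlinarith)
        have : (b : ℝ) / (2 * (N : ℝ)) ≤ 7 / 256 := by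
          rw [div_le_iff₀ (by positivity)]
          nlinarith
        rw [hc1]
        linarith
      · -- `b ≥ 8`
        have hb8 : (8 : ℝ) ≤ b := by exact_mod_cast h8
        have hψ := psi_A (N := N) (b := b) h8 hbN hz (T := (t : ℝ)) htb
        refine TU_of (by omega) hbN ht hψ ?_
        refine num_TU (T' := (t' : ℝ)) (κ₀ := 7 / 100) (G := 739 / 10000) hB hTT rfl ?_ (by norm_num)
          (by norm_num) (by nlinarith) (by nlinarith)
        have : (b : ℝ) / (2 * (N : ℝ)) ≤ 5 / 100 := by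
          rw [div_le_iff₀ (by positivity)]
          nlinarith
        rw [hc1]
        linarith

/-- **The case of `T`, `T`, for `b ≤ N / 10`.** -/
theorem small_TT {N b t t' : ℕ} (hN : 128 ≤ N) (hb : 4 ≤ b) (hbN : 10 * b ≤ N) (ht : t + t' = b) {z : ℝ}
    (hz : z = (3 / 5) / ((b : ℝ) / 2 + Real.sqrt ((N : ℝ) * ((b : ℝ) / 2)))) :
    fN (2 * (N : ℝ)) b + 7 / 10 + 581 / 1000 ≤
      (t : ℝ) * (1 / 2) * Real.log (1 + z * ((N : ℝ) - t + 1)) +
      (t' : ℝ) * (1 / 2) * Real.log (1 + z * ((N : ℝ) - t' + 1)) +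
      (7 / 10) / (b : ℝ) * (((t : ℝ) - t') / 2) ^ 2 := by
  have hB : (0 : ℝ) < b := by
    have : 0 < b := by omega
    exact_mod_cast this
  have hN' : (128 : ℝ) ≤ N := by exact_mod_cast hN
  have htb : (t : ℝ) ≤ b := by exact_mod_cast (by omega : t ≤ b)
  have htb' : (t' : ℝ) ≤ b := by exact_mod_cast (by omega : t' ≤ b)
  have hl2 := Real.log_two_gt_d9
  rcases Nat.lt_or_ge b 5 with h4 | h5
  · obtain rfl : b = 4 := by omega
    refine TT_of (w := 9 / 20) (by omega) hbN ht (psi_D (N := N) hN hbN hz htb)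
      (psi_D (N := N) hN hbN hz htb') (by norm_num)
  · rcases Nat.lt_or_ge b 8 with h8 | h8
    · have hb7 : (b : ℝ) ≤ 7 := by exact_mod_cast (by omega : b ≤ 7)
      have hb5 : (5 : ℝ) ≤ b := by exact_mod_cast h5
      have hs : (36 : ℝ) ≤ 2 * (N : ℝ) / b := by
        rw [le_div_iff₀ hB]
        nlinarith
      have hψ : ∀ {T : ℝ}, T ≤ b → 3 / 10 + (c1 * (1 + Real.log (x0 * (2 * (N : ℝ)) / b)) + x0 -
          b / (4 * (N : ℝ))) ≤ (1 / 2) * Real.log (1 + z * ((N : ℝ) - T + 1)) := fun {T} hT =>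
        psi_B (N := N) (b := b) (w := 3 / 10) (k := 5) (n := 2) (by omega) hbN hs
          (by norm_num)
          (by
            rw [Real.sq_sqrt (by linarith)]
            norm_num
            linarith)
          (by
            push_cast
            norm_num
            linarith)
          hz hT
      refine TT_of (w := 3 / 10) (by omega) hbN ht (hψ htb) (hψ htb') (by nlinarith)
    · have hb8 : (8 : ℝ) ≤ b := by exact_mod_cast h8
      refine TT_of (w := 1 / 5) (by omega) hbN ht (psi_A h8 hbN hz htb) (psi_A h8 hbN hz htb')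
        (by nlinarith)

end Crest.Agent.S0222Lib.FRCore.Pot
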