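import Crest.Agent.S0222Lib.FRPotMain
import Crest.Agent.S0222Lib.FRPotSmall

/-!
# S0222, first-row bound: the inequalities for `b ≤ N / 10` in the form of `FRPotMain`
-/

set_option autoImplicit false
set_option linter.unusedSectionVars false
set_option linter.unusedVariables false

namespace Crest.Agent.S0222Lib.FRCore.Pot

/-- `SmallFacts`. -/
theorem smallFacts : SmallFacts := by
  intro N b t t' hN hb hbN ht
  have hz : zz N b = (3 / 5) / ((b : ℝ) / 2 + Real.sqrt ((N : ℝ) * ((b : ℝ) / 2))) := rfl
  have h1 := small_TU hN hb hbN ht hz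
  have h2 := small_TT hN hb hbN ht hz
  unfold T0
  norm_num at h1 h2 ⊢
  constructor
  · linarith
  · linarith

end Crest.Agent.S0222Lib.FRCore.Pot
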