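import Crest.Agent.S0222Lib.FRFacts

/-!
# S0222, first-row bound: the dual step of the closure

`Weights N b ρ` gives two families of test functions:

* the moments: `U = (1 + z G_L⁺)^r (1 + z G_R⁺)^r'` has mean at most `Ψ` (`triSum_U_le`), where
  `Ψ = ∑_m (z/2)^m Sk N b m ≤ (1 - A) / ((1 - A - B) (1 - A + B))` (`sum_Sk_le`);
* the coin: `V = exp (μ (t - b/2)²)` has mean at most `(1 - μ b / 2)^(-1/2)` (`triSum_V_le`).

`fr_dual`, `fr_dual_holder`: a pointwise bound of `θ(t-r) θ(b-t-r')` by a mixture of them gives the closure.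
-/

set_option autoImplicit false
set_option linter.unusedSectionVars false
set_option linter.unusedVariables false

namespace Crest.Agent.S0222Lib.FRCore

open Finset Function
open scoped Nat

section Gam

/-- `coP r G k ≥ (r)_k G^k`. -/
lemma coP_ge (r : ℕ) {G : ℝ} (hG : 0 ≤ G) (k : ℕ) :
    (r.descFactorial k : ℝ) * G ^ k ≤ coP r G k := by
  induction k generalizing r G with
  | zero => simp [coP_zero]
  | succ k ih =>
    cases r with
    | zero => simp [coP]
    | succ r =>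
      have h1 : coP (r + 1) G (k + 1) = ((r : ℝ) + 1) * G * coP r (G + 1) k := rfl
      rw [h1, Nat.succ_descFactorial_succ]
      push_cast
      have h2 := ih r (G := G + 1) (by linarith)
      have h3 : G ^ k ≤ (G + 1) ^ k := pow_le_pow_left₀ hG (by linarith) k
      have h4 : (r.descFactorial k : ℝ) * G ^ k ≤ (r.descFactorial k : ℝ) * (G + 1) ^ k :=
        mul_le_mul_of_nonneg_left h3 (by positivity)
      calc ((r : ℝ) + 1) * (r.descFactorial k : ℝ) * G ^ (k + 1)
          = ((r : ℝ) + 1) * G * ((r.descFactorial k : ℝ) * G ^ k) := by ring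
        _ ≤ ((r : ℝ) + 1) * G * coP r (G + 1) k :=
            mul_le_mul_of_nonneg_left (h4.trans h2) (by positivity)

/-- The positive part of a level coordinate. -/
noncomputable abbrev posPart' (G : ℝ) : ℝ := max G 0

/-- `(1 + z G⁺)^r` is bounded by the moment series. -/
lemma one_add_pow_le_sum_coL {z : ℝ} (hz : 0 ≤ z) (r : ℕ) (G : ℝ) {K : ℕ} (hK : r ≤ K) :
    (1 + z * max G 0) ^ r ≤ ∑ k ∈ range (K + 1), z ^ k / (k ! : ℝ) * coL k r G := by
  classical
  have hterm : ∀ k, 0 ≤ z ^ k / (k ! : ℝ) * coL k r G := fun k =>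
    mul_nonneg (by positivity) (coL_nonneg _ _ _)
  by_cases hG : 0 ≤ G
  · rw [max_eq_left hG]
    have h1 : (1 + z * G) ^ r = ∑ k ∈ range (r + 1), (r.choose k : ℝ) * (z * G) ^ k := by
      rw [add_comm, add_pow]
      refine Finset.sum_congr rfl fun k _ => ?_
      rw [one_pow, mul_one, mul_comm]
    rw [h1]
    have h2 : ∑ k ∈ range (r + 1), (r.choose k : ℝ) * (z * G) ^ k ≤
        ∑ k ∈ range (r + 1), z ^ k / (k ! : ℝ) * coL k r G := by
      refine Finset.sum_le_sum fun k _ => ?_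
      have h3 := coP_ge r hG k
      have h4 : coL k r G = coP r G k := by simp [coL, hG]
      rw [h4]
      have h5 : (r.descFactorial k : ℝ) = (k ! : ℝ) * (r.choose k : ℝ) := by
        rw [Nat.descFactorial_eq_factorial_mul_choose]
        push_cast
        ring
      have hk : (0 : ℝ) < (k ! : ℝ) := by exact_mod_cast Nat.factorial_pos k
      rw [h5] at h3
      calc (r.choose k : ℝ) * (z * G) ^ k = z ^ k / (k ! : ℝ) * ((k ! : ℝ) * (r.choose k : ℝ) * G ^ k) := by
            field_simp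
            ring
        _ ≤ _ := mul_le_mul_of_nonneg_left h3 (by positivity)
    refine h2.trans (Finset.sum_le_sum_of_subset_of_nonneg ?_ fun k _ _ => hterm k)
    intro k hk
    rw [mem_range] at hk ⊢
    omega
  · rw [max_eq_right (not_le.1 hG).le]
    simp only [mul_zero, add_zero, one_pow]
    have h0 : z ^ 0 / ((0 ! : ℕ) : ℝ) * coL 0 r G = 1 := by
      simp [coL, hG]
    calc (1 : ℝ) = z ^ 0 / ((0 ! : ℕ) : ℝ) * coL 0 r G := h0.symm
      _ ≤ _ := Finset.single_le_sum (f := fun k => z ^ k / (k ! : ℝ) * coL k r G)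
          (fun k _ => hterm k) (by simp)

end Gam

section Ghat

lemma choose_mul_fact_le (n k : ℕ) : n.choose k * k ! ≤ n ^ k := by
  have h := Nat.descFactorial_le_pow n k
  rw [Nat.descFactorial_eq_factorial_mul_choose, mul_comm] at h
  exact h

/-- One term of the moment series. -/
lemma Sk_term_le {y : ℝ} (hy : 0 ≤ y) (N M p q : ℕ) :
    y ^ (2 * p + q) * (((2 * p + q)! * (N.choose p * (M.choose p * (2 * M).choose q)) : ℕ) : ℝ) ≤
      ((2 * p + q).choose q : ℝ) * (4 * y ^ 2 * N * M) ^ p * (2 * M * y) ^ q := by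
  -- the factorials
  have hfp : (0 : ℝ) < (p ! : ℝ) := by exact_mod_cast Nat.factorial_pos p
  have hfq : (0 : ℝ) < (q ! : ℝ) := by exact_mod_cast Nat.factorial_pos q
  have h1 : ((2 * p + q)! : ℝ) = ((2 * p + q).choose q : ℝ) * (((2 * p)! : ℕ) : ℝ) * (q ! : ℝ) := by
    have := Nat.add_choose_mul_factorial_mul_factorial (2 * p) q
    rw [← this]
    push_cast
    ring
  have h3 : (((2 * p)! : ℕ) : ℝ) ≤ 4 ^ p * ((p ! : ℝ) * (p ! : ℝ)) := by
    have := Nat.centralBinom_le_four_pow p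
    have h4 : (2 * p)! = p.centralBinom * (p ! * p !) := by
      rw [Nat.centralBinom_eq_two_mul_choose]
      have h5 := Nat.choose_mul_factorial_mul_factorial (show p ≤ 2 * p by omega)
      have h6 : 2 * p - p = p := by omega
      rw [h6] at h5
      rw [← h5]
      ring
    rw [h4]
    push_cast
    have h7 : (p.centralBinom : ℝ) ≤ 4 ^ p := by exact_mod_cast this
    exact mul_le_mul_of_nonneg_right h7 (by positivity)
  have h8 : (N.choose p : ℝ) * (p ! : ℝ) ≤ (N : ℝ) ^ p := by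
    exact_mod_cast choose_mul_fact_le N p
  have h9 : (M.choose p : ℝ) * (p ! : ℝ) ≤ (M : ℝ) ^ p := by
    exact_mod_cast choose_mul_fact_le M p
  have h10 : ((2 * M).choose q : ℝ) * (q ! : ℝ) ≤ ((2 * M : ℕ) : ℝ) ^ q := by
    exact_mod_cast choose_mul_fact_le (2 * M) q
  push_cast
  rw [h1]
  have hc : (0 : ℝ) ≤ ((2 * p + q).choose q : ℝ) := by positivity
  have hN : (0 : ℝ) ≤ (N.choose p : ℝ) := by positivity
  have hM : (0 : ℝ) ≤ (M.choose p : ℝ) := by positivity
  have hQ : (0 : ℝ) ≤ ((2 * M).choose q : ℝ) := by positivity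
  have key : ((2 * p)! : ℝ) * (q ! : ℝ) * ((N.choose p : ℝ) * ((M.choose p : ℝ) * ((2 * M).choose q : ℝ))) ≤
      4 ^ p * (N : ℝ) ^ p * (M : ℝ) ^ p * ((2 * (M : ℝ)) ^ q) := by
    calc ((2 * p)! : ℝ) * (q ! : ℝ) * ((N.choose p : ℝ) * ((M.choose p : ℝ) * ((2 * M).choose q : ℝ)))
        ≤ (4 ^ p * ((p ! : ℝ) * (p ! : ℝ))) * (q ! : ℝ) *
            ((N.choose p : ℝ) * ((M.choose p : ℝ) * ((2 * M).choose q : ℝ))) := by
          gcongr
      _ = 4 ^ p * ((N.choose p : ℝ) * (p ! : ℝ)) * ((M.choose p : ℝ) * (p ! : ℝ)) *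
            (((2 * M).choose q : ℝ) * (q ! : ℝ)) := by ring
      _ ≤ 4 ^ p * (N : ℝ) ^ p * (M : ℝ) ^ p * ((2 * (M : ℝ)) ^ q) := by
          have h11 : ((2 * M).choose q : ℝ) * (q ! : ℝ) ≤ (2 * (M : ℝ)) ^ q := by
            simpa using h10
          gcongr
  have hpow : y ^ (2 * p + q) = (y ^ 2) ^ p * y ^ q := by
    rw [pow_add, pow_mul]
  calc y ^ (2 * p + q) * (((2 * p + q).choose q : ℝ) * ((2 * p)! : ℝ) * (q ! : ℝ) *
        ((N.choose p : ℝ) * ((M.choose p : ℝ) * ((2 * M).choose q : ℝ))))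
      = y ^ (2 * p + q) * ((2 * p + q).choose q : ℝ) * (((2 * p)! : ℝ) * (q ! : ℝ) *
        ((N.choose p : ℝ) * ((M.choose p : ℝ) * ((2 * M).choose q : ℝ)))) := by ring
    _ ≤ y ^ (2 * p + q) * ((2 * p + q).choose q : ℝ) *
        (4 ^ p * (N : ℝ) ^ p * (M : ℝ) ^ p * ((2 * (M : ℝ)) ^ q)) :=
        mul_le_mul_of_nonneg_left key (by positivity)
    _ = ((2 * p + q).choose q : ℝ) * (4 * y ^ 2 * N * M) ^ p * (2 * M * y) ^ q := by
        rw [hpow, mul_pow, mul_pow, mul_pow, mul_pow]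
        ring

/-- **The series of moments.** -/
theorem sum_Sk_le (N b : ℕ) {z : ℝ} (hz : 0 ≤ z) {A B : ℝ} (hA : A = z * ((b / 2 : ℕ) : ℝ))
    (hB : B = z * Real.sqrt ((N : ℝ) * ((b / 2 : ℕ) : ℝ))) (hAB : A + B < 1) :
    ∑ m ∈ range (2 * b + 1), (z / 2) ^ m * Sk N b m ≤ (1 - A) / ((1 - A - B) * (1 - A + B)) := by
  classical
  set M := b / 2 with hM
  set y := z / 2 with hy
  have hy0 : 0 ≤ y := by positivity
  have hB0 : 0 ≤ B := by
    rw [hB]
    positivity
  have hA0 : 0 ≤ A := by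
    rw [hA]
    positivity
  have hA1 : A < 1 := by linarith
  set X := B ^ 2 with hX
  have hX' : 4 * y ^ 2 * N * M = X := by
    rw [hX, hB, mul_pow, Real.sq_sqrt (by positivity), hy]
    ring
  have hA' : 2 * M * y = A := by
    rw [hA, hy]
    ring
  set f : ℕ → ℕ → ℝ := fun p q => ((2 * p + q).choose q : ℝ) * X ^ p * A ^ q with hf
  have hf0 : ∀ p q, 0 ≤ f p q := fun p q => by
    have hX0 : 0 ≤ X := by positivity
    simp only [hf]
    positivity
  have h1 : ∀ m, (z / 2) ^ m * Sk N b m ≤ ∑ p ∈ range (m / 2 + 1), f p (m - 2 * p) := by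
    intro m
    unfold Sk
    rw [Nat.cast_mul, Nat.cast_sum, mul_comm ((m ! : ℕ) : ℝ), Finset.sum_mul, Finset.mul_sum]
    refine Finset.sum_le_sum fun p hp => ?_
    have hp' : 2 * p ≤ m := by
      have := Finset.mem_range.1 hp
      omega
    have e : 2 * p + (m - 2 * p) = m := by omega
    have h2 := Sk_term_le hy0 N M p (m - 2 * p)
    rw [e, hX', hA'] at h2
    have hfe : f p (m - 2 * p) = ((m.choose (m - 2 * p) : ℕ) : ℝ) * X ^ p * A ^ (m - 2 * p) := by
      simp only [hf, e]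
    rw [hfe]
    refine le_trans (le_of_eq ?_) h2
    push_cast
    ring
  have h2 : ∑ m ∈ range (2 * b + 1), ∑ p ∈ range (m / 2 + 1), f p (m - 2 * p) =
      ∑ p ∈ range (b + 1), ∑ m ∈ Finset.Ico (2 * p) (2 * b + 1), f p (m - 2 * p) := by
    refine Finset.sum_comm' ?_
    intro m p
    simp only [Finset.mem_range, Finset.mem_Ico]
    omega
  have h3 : ∀ p, ∑ m ∈ Finset.Ico (2 * p) (2 * b + 1), f p (m - 2 * p) ≤
      X ^ p * (1 / (1 - A) ^ (2 * p + 1)) := by
    intro p
    rw [Finset.sum_Ico_eq_sum_range]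
    have hnorm : ‖A‖ < 1 := by
      rw [Real.norm_of_nonneg hA0]
      exact hA1
    have hsum := summable_choose_mul_geometric_of_norm_lt_one (2 * p) hnorm
    have hts := tsum_choose_mul_geometric_of_norm_lt_one (2 * p) hnorm
    have h4 : ∑ q ∈ range (2 * b + 1 - 2 * p), (((q + 2 * p).choose (2 * p) : ℕ) : ℝ) * A ^ q ≤
        1 / (1 - A) ^ (2 * p + 1) := by
      rw [← hts]
      exact hsum.sum_le_tsum _ (fun i _ => by positivity)
    have hX0 : 0 ≤ X := by positivity
    calc ∑ q ∈ range (2 * b + 1 - 2 * p), f p (2 * p + q - 2 * p)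
        = X ^ p * ∑ q ∈ range (2 * b + 1 - 2 * p), (((q + 2 * p).choose (2 * p) : ℕ) : ℝ) * A ^ q := by
          rw [Finset.mul_sum]
          refine Finset.sum_congr rfl fun q _ => ?_
          have e1 : 2 * p + q - 2 * p = q := by omega
          have e2 : (2 * p + q).choose q = (q + 2 * p).choose (2 * p) := by
            rw [add_comm, Nat.choose_symm_add]
          simp only [hf, e1, e2]
          ring
      _ ≤ _ := mul_le_mul_of_nonneg_left h4 (pow_nonneg hX0 _)
  have hpos : 0 < 1 - A := by linarith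
  have hR0 : 0 ≤ X / (1 - A) ^ 2 := by positivity
  have hden : 0 < (1 - A - B) * (1 - A + B) := by
    apply mul_pos <;> linarith
  have hR1 : X / (1 - A) ^ 2 < 1 := by
    rw [div_lt_one (by positivity)]
    nlinarith
  have h4 : ∀ p, X ^ p * (1 / (1 - A) ^ (2 * p + 1)) = 1 / (1 - A) * (X / (1 - A) ^ 2) ^ p := by
    intro p
    have hc : (1 - A) ^ (2 * p) ≠ 0 := pow_ne_zero _ hpos.ne'
    rw [div_pow, ← pow_mul, pow_succ (1 - A) (2 * p)]
    field_simp
    rw [← pow_mul]
  have hgeom := summable_geometric_of_lt_one hR0 hR1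
  have hts := tsum_geometric_of_lt_one hR0 hR1
  calc ∑ m ∈ range (2 * b + 1), (z / 2) ^ m * Sk N b m
      ≤ ∑ m ∈ range (2 * b + 1), ∑ p ∈ range (m / 2 + 1), f p (m - 2 * p) :=
        Finset.sum_le_sum fun m _ => h1 m
    _ = _ := h2
    _ ≤ ∑ p ∈ range (b + 1), 1 / (1 - A) * (X / (1 - A) ^ 2) ^ p :=
        Finset.sum_le_sum fun p _ => (h3 p).trans (le_of_eq (h4 p))
    _ = 1 / (1 - A) * ∑ p ∈ range (b + 1), (X / (1 - A) ^ 2) ^ p := by
        rw [Finset.mul_sum]
    _ ≤ 1 / (1 - A) * (1 - X / (1 - A) ^ 2)⁻¹ := by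
        rw [← hts]
        exact mul_le_mul_of_nonneg_left (hgeom.sum_le_tsum _ (fun i _ => by positivity))
          (by positivity)
    _ = (1 - A) / ((1 - A - B) * (1 - A + B)) := by
        have h5 : (1 - A - B) * (1 - A + B) = (1 - A) ^ 2 - X := by
          rw [hX]
          ring
        have h6 : 1 - X / (1 - A) ^ 2 = ((1 - A - B) * (1 - A + B)) / (1 - A) ^ 2 := by
          rw [h5]
          field_simp
        rw [h6, inv_div]
        field_simp

end Ghat

section Coin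

open MeasureTheory ProbabilityTheory

/-- The moment generating function of the symmetric binomial law. -/
lemma binom_mgf (n : ℕ) (l : ℝ) :
    ∑ s ∈ range (n + 1), (n.choose s : ℝ) / 2 ^ n * Real.exp (l * ((s : ℝ) - n / 2)) =
      Real.cosh (l / 2) ^ n := by
  rw [Real.cosh_eq, div_pow, add_pow]
  rw [Finset.sum_div]
  refine Finset.sum_congr rfl fun s hs => ?_
  have hs' : s ≤ n := by
    have := Finset.mem_range.1 hs
    omega
  have h1 : Real.exp (l / 2) ^ s * Real.exp (-(l / 2)) ^ (n - s) = Real.exp (l * ((s : ℝ) - n / 2)) := by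
    rw [← Real.exp_nat_mul, ← Real.exp_nat_mul, ← Real.exp_add]
    congr 1
    rw [Nat.cast_sub hs']
    ring
  rw [h1]
  ring

/-- **The Gaussian bound for the symmetric binomial law.** -/
theorem binom_exp_sq_le (n : ℕ) {μ : ℝ} (hμ : 0 ≤ μ) (hn : μ * n < 2) :
    ∑ s ∈ range (n + 1), (n.choose s : ℝ) / 2 ^ n * Real.exp (μ * ((s : ℝ) - n / 2) ^ 2) ≤
      (Real.sqrt (1 - μ * n / 2))⁻¹ := by
  set t : ℝ := Real.sqrt (2 * μ) with ht
  have ht2 : t ^ 2 = 2 * μ := Real.sq_sqrt (by positivity)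
  set x : ℕ → ℝ := fun s => (s : ℝ) - n / 2 with hx
  set a : ℕ → ℝ := fun s => (n.choose s : ℝ) / 2 ^ n with ha
  have hpt : ∀ g : ℝ, ∑ s ∈ range (n + 1), a s * Real.exp (t * x s * g) ≤
      Real.exp ((μ * n / 4) * g ^ 2) * 1 := by
    intro g
    have h1 := binom_mgf n (t * g)
    have h2 : ∀ s : ℕ, Real.exp (t * g * ((s : ℝ) - n / 2)) = Real.exp (t * x s * g) := by
      intro s
      congr 1
      simp only [hx]
      ring
    simp only [h2] at h1
    rw [mul_one]
    refine h1.le.trans ?_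
    have h3 : Real.cosh (t * g / 2) ≤ Real.exp ((t * g / 2) ^ 2 / 2) := Real.cosh_le_exp_half_sq _
    have h4 := pow_le_pow_left₀ (Real.cosh_pos _).le h3 n
    refine h4.trans (le_of_eq ?_)
    rw [← Real.exp_nat_mul]
    congr 1
    have : ((t * g / 2) ^ 2 / 2) = (t ^ 2) * g ^ 2 / 8 := by ring
    rw [this, ht2]
    ring
  have hL : ∑ s ∈ range (n + 1), a s * Real.exp (μ * x s ^ 2) =
      ∫ g, ∑ s ∈ range (n + 1), a s * Real.exp (t * x s * g) ∂FR.gam := by
    rw [MeasureTheory.integral_finsetSum]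
    · refine Finset.sum_congr rfl (fun s _ => ?_)
      rw [MeasureTheory.integral_const_mul, FR.gam_integral_exp]
      congr 2
      rw [mul_pow, ht2]
      ring
    · intro s _
      exact (FR.gam_integrable_exp _).const_mul _
  have hint1 : Integrable (fun g => ∑ s ∈ range (n + 1), a s * Real.exp (t * x s * g)) FR.gam :=
    MeasureTheory.integrable_finsetSum _ (fun s _ => (FR.gam_integrable_exp _).const_mul _)
  have hc : μ * n / 4 < 1 / 2 := by linarith
  have hint2 : Integrable (fun g => Real.exp ((μ * n / 4) * g ^ 2) * 1) FR.gam :=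
    (FR.gam_integrable_exp_sq hc).mul_const _
  have hmono := MeasureTheory.integral_mono hint1 hint2 hpt
  rw [← hL, MeasureTheory.integral_mul_const, FR.gam_integral_exp_sq hc, mul_one] at hmono
  have e : 1 - 2 * (μ * n / 4) = 1 - μ * n / 2 := by ring
  rw [e] at hmono
  exact hmono

end Coin

section Dual

variable {N b : ℕ} {ρ : ℕ → ℕ → ℕ → ℝ}

lemma triSum_mono {F G : ℕ → ℕ → ℕ → ℝ}
    (h : ∀ t r r', t ≤ b → r ≤ t → r' ≤ b - t → F t r r' ≤ G t r r') : triSum b F ≤ triSum b G := by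
  unfold triSum
  refine Finset.sum_le_sum fun t ht => Finset.sum_le_sum fun r hr => Finset.sum_le_sum fun r' hr' => ?_
  rw [Finset.mem_range] at ht hr hr'
  exact h t r r' (by omega) (by omega) (by omega)

lemma triSum_add (F G : ℕ → ℕ → ℕ → ℝ) :
    triSum b (fun t r r' => F t r r' + G t r r') = triSum b F + triSum b G := by
  unfold triSum
  simp only [Finset.sum_add_distrib]

lemma triSum_const_mul (c : ℝ) (F : ℕ → ℕ → ℕ → ℝ) :
    triSum b (fun t r r' => c * F t r r') = c * triSum b F := by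
  unfold triSum
  simp only [Finset.mul_sum]

lemma triSum_sum {ι : Type*} (s : Finset ι) (F : ι → ℕ → ℕ → ℕ → ℝ) :
    triSum b (fun t r r' => ∑ i ∈ s, F i t r r') = ∑ i ∈ s, triSum b (F i) := by
  classical
  induction s using Finset.induction_on with
  | empty => simp [triSum]
  | insert a s ha ih =>
    simp only [Finset.sum_insert ha]
    rw [triSum_add, ih]

lemma triSum_nonneg (hW : Weights N b ρ) : 0 ≤ triSum b ρ :=
  Finset.sum_nonneg fun _ _ => Finset.sum_nonneg fun _ _ => Finset.sum_nonneg fun _ _ => hW.nonneg _ _ _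

/-- The test function of the moments. -/
noncomputable def testU (N b : ℕ) (z : ℝ) (t r r' : ℕ) : ℝ :=
  (1 + z * max (Gv (N : ℝ) r t) 0) ^ r * (1 + z * max (Gv (N : ℝ) r' (b - t)) 0) ^ r'

/-- **The mean of the test function of the moments.** -/
theorem triSum_U_le (hW : Weights N b ρ) {z : ℝ} (hz : 0 ≤ z) :
    triSum b (fun t r r' => testU N b z t r r' * ρ t r r') ≤
      (∑ m ∈ range (2 * b + 1), (z / 2) ^ m * Sk N b m) * triSum b ρ := by
  classical
  have hmass := triSum_nonneg hW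
  -- pointwise
  set c : ℕ → ℝ := fun k => z ^ k / (k ! : ℝ) with hc
  have hc0 : ∀ k, 0 ≤ c k := fun k => by
    simp only [hc]
    positivity
  have h1 : triSum b (fun t r r' => testU N b z t r r' * ρ t r r') ≤
      triSum b (fun t r r' => ∑ k ∈ range (b + 1), ∑ k' ∈ range (b + 1), c k * c k' *
        (coL k r (Gv (N : ℝ) r t) * coL k' r' (Gv (N : ℝ) r' (b - t)) * ρ t r r')) := by
    refine triSum_mono fun t r r' ht hr hr' => ?_
    have h2 := one_add_pow_le_sum_coL hz r (Gv (N : ℝ) r t) (K := b) (by omega)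
    have h3 := one_add_pow_le_sum_coL hz r' (Gv (N : ℝ) r' (b - t)) (K := b) (by omega)
    have h4 := mul_le_mul h2 h3 (pow_nonneg (by
      have : 0 ≤ max (Gv (N : ℝ) r' (b - t)) 0 := le_max_right _ _
      positivity) _) (Finset.sum_nonneg fun k _ => mul_nonneg (hc0 k) (coL_nonneg _ _ _))
    refine (mul_le_mul_of_nonneg_right h4 (hW.nonneg t r r')).trans (le_of_eq ?_)
    rw [Finset.sum_mul_sum, Finset.sum_mul]
    refine Finset.sum_congr rfl fun k _ => ?_
    rw [Finset.sum_mul]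
    refine Finset.sum_congr rfl fun k' _ => ?_
    simp only [hc]
    ring
  refine h1.trans ?_
  rw [triSum_sum]
  simp only [triSum_sum, triSum_const_mul]
  -- the moments
  have h5 : ∀ k k', c k * c k' * triSum b (fun t r r' =>
      coL k r (Gv (N : ℝ) r t) * coL k' r' (Gv (N : ℝ) r' (b - t)) * ρ t r r') ≤
      ((k + k').choose k : ℝ) * ((z / 4) ^ (k + k') * Sk N b (k + k') * triSum b ρ) := by
    intro k k'
    have h6 := hW.moment k k'
    have h7 : 0 ≤ c k * c k' := mul_nonneg (hc0 k) (hc0 k')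
    refine (mul_le_mul_of_nonneg_left h6 h7).trans (le_of_eq ?_)
    have hk : (k ! : ℝ) ≠ 0 := by exact_mod_cast (Nat.factorial_pos k).ne'
    have hk' : (k' ! : ℝ) ≠ 0 := by exact_mod_cast (Nat.factorial_pos k').ne'
    simp only [hc]
    rw [div_pow (z) 4, pow_add z]
    rw [one_div, inv_pow]
    field_simp
  have hSk : ∀ m, 0 ≤ Sk N b m := fun m => by
    unfold Sk
    positivity
  have hz4 : 0 ≤ z / 4 := by positivity
  set a : ℕ → ℕ → ℝ := fun k k' => ((k + k').choose k : ℝ) *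
    ((z / 4) ^ (k + k') * Sk N b (k + k') * triSum b ρ) with ha
  have ha0 : ∀ k k', 0 ≤ a k k' := fun k k' => by
    have := hSk (k + k')
    simp only [ha]
    positivity
  calc ∑ k ∈ range (b + 1), ∑ k' ∈ range (b + 1), c k * c k' * triSum b (fun t r r' =>
        coL k r (Gv (N : ℝ) r t) * coL k' r' (Gv (N : ℝ) r' (b - t)) * ρ t r r')
      ≤ ∑ k ∈ range (b + 1), ∑ k' ∈ range (b + 1), a k k' :=
        Finset.sum_le_sum fun k _ => Finset.sum_le_sum fun k' _ => h5 k k'
    _ = ∑ x ∈ range (b + 1) ×ˢ range (b + 1), a x.1 x.2 := by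
        rw [Finset.sum_product]
    _ = ∑ m ∈ range (2 * b + 1), ∑ x ∈ (range (b + 1) ×ˢ range (b + 1)).filter
          (fun x => x.1 + x.2 = m), a x.1 x.2 := by
        rw [Finset.sum_fiberwise_of_maps_to]
        intro x hx
        rw [Finset.mem_product, Finset.mem_range, Finset.mem_range] at hx
        rw [Finset.mem_range]
        omega
    _ ≤ ∑ m ∈ range (2 * b + 1), ∑ x ∈ antidiagonal m, a x.1 x.2 := by
        refine Finset.sum_le_sum fun m _ => ?_
        refine Finset.sum_le_sum_of_subset_of_nonneg ?_ fun x _ _ => ha0 _ _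
        intro x hx
        rw [Finset.HasAntidiagonal.mem_antidiagonal]
        exact (Finset.mem_filter.1 hx).2
    _ = ∑ m ∈ range (2 * b + 1), (z / 2) ^ m * Sk N b m * triSum b ρ := by
        refine Finset.sum_congr rfl fun m _ => ?_
        have h8 : ∀ x ∈ antidiagonal m, a x.1 x.2 =
            (m.choose x.1 : ℝ) * ((z / 4) ^ m * Sk N b m * triSum b ρ) := by
          intro x hx
          rw [Finset.HasAntidiagonal.mem_antidiagonal] at hx
          simp only [ha, hx]
        rw [Finset.sum_congr rfl h8, ← Finset.sum_mul]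
        have h9 : ∑ x ∈ antidiagonal m, (m.choose x.1 : ℝ) = 2 ^ m := by
          rw [Finset.Nat.sum_antidiagonal_eq_sum_range_succ_mk]
          have := Nat.sum_range_choose m
          exact_mod_cast this
        rw [h9]
        have h10 : (z / 2) ^ m = 2 ^ m * (z / 4) ^ m := by
          rw [← mul_pow]
          congr 1
          ring
        rw [h10]
        ring
    _ = _ := by
        rw [← Finset.sum_mul]

/-- **The mean of the test function of the coin.** -/
theorem triSum_V_le (hW : Weights N b ρ) {μ : ℝ} (hμ : 0 ≤ μ) (hμb : μ * b < 2) :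
    triSum b (fun t r r' => Real.exp (μ * ((t : ℝ) - b / 2) ^ 2) * ρ t r r') ≤
      (Real.sqrt (1 - μ * b / 2))⁻¹ * triSum b ρ := by
  classical
  obtain ⟨w, hw0, hwsum, hw⟩ := hW.coin
  rw [hw (fun t => Real.exp (μ * ((t : ℝ) - b / 2) ^ 2)), ← hwsum, Finset.mul_sum]
  refine Finset.sum_le_sum fun d hd => ?_
  rw [mul_comm]
  refine mul_le_mul_of_nonneg_right ?_ (hw0 d)
  have hd' : 2 * d ≤ b := by
    have := Finset.mem_range.1 hd
    omega
  set n := b - 2 * d with hn
  have hnb : (n : ℝ) = (b : ℝ) - 2 * d := by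
    rw [hn, Nat.cast_sub hd']
    push_cast
    ring
  have hle : (n : ℝ) ≤ b := by
    have : (0 : ℝ) ≤ d := by positivity
    linarith
  have hμn : μ * n < 2 := lt_of_le_of_lt (mul_le_mul_of_nonneg_left hle hμ) hμb
  have h1 := binom_exp_sq_le n hμ hμn
  have h2 : ∀ s : ℕ, Real.exp (μ * (((d + s : ℕ) : ℝ) - b / 2) ^ 2) = Real.exp (μ * ((s : ℝ) - n / 2) ^ 2) := by
    intro s
    congr 2
    rw [hnb]
    push_cast
    ring
  simp only [h2]
  refine h1.trans ?_
  -- monotonicity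
  have h3 : 0 < 1 - μ * b / 2 := by linarith
  have h4 : 1 - μ * b / 2 ≤ 1 - μ * n / 2 := by
    have := mul_le_mul_of_nonneg_left hle hμ
    linarith
  exact inv_anti₀ (Real.sqrt_pos.2 h3) (Real.sqrt_le_sqrt h4)

/-- **The dual step of the closure**: a pointwise bound by a mixture of the test functions. -/
theorem fr_dual (hW : Weights N b ρ) {θ : ℕ → ℝ} {Θ z μ Ψ Ψc p : ℝ} (hz : 0 ≤ z) (hμ : 0 ≤ μ)
    (hμb : μ * b < 2) (hΘ : 0 ≤ Θ) (hp0 : 0 ≤ p) (hp1 : p ≤ 1) (hΨ0 : 0 < Ψ)
    (hΨ : ∑ m ∈ range (2 * b + 1), (z / 2) ^ m * Sk N b m ≤ Ψ) (hΨc0 : 0 < Ψc)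
    (hΨc : (Real.sqrt (1 - μ * b / 2))⁻¹ ≤ Ψc)
    (hpt : ∀ t r r', t ≤ b → r ≤ t → r' ≤ b - t → r + (b - t) ≤ N → r' + t ≤ N →
      θ (t - r) * θ (b - t - r') ≤ Θ * (p * (testU N b z t r r' / Ψ) +
        (1 - p) * (Real.exp (μ * ((t : ℝ) - b / 2) ^ 2) / Ψc))) :
    triSum b (fun t r r' => θ (t - r) * θ (b - t - r') * ρ t r r') ≤ Θ * triSum b ρ := by
  have hmass := triSum_nonneg hW
  have h1 : triSum b (fun t r r' => θ (t - r) * θ (b - t - r') * ρ t r r') ≤
      triSum b (fun t r r' => Θ * (p / Ψ * (testU N b z t r r' * ρ t r r') +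
        (1 - p) / Ψc * (Real.exp (μ * ((t : ℝ) - b / 2) ^ 2) * ρ t r r'))) := by
    refine triSum_mono fun t r r' ht hr hr' => ?_
    by_cases h2 : N < r + (b - t)
    · rw [hW.floor_left t r r' ht h2]
      simp
    by_cases h3 : N < r' + t
    · rw [hW.floor_right t r r' ht h3]
      simp
    have h4 := hpt t r r' ht hr hr' (not_lt.1 h2) (not_lt.1 h3)
    refine (mul_le_mul_of_nonneg_right h4 (hW.nonneg t r r')).trans (le_of_eq ?_)
    ring
  refine h1.trans ?_
  rw [triSum_const_mul, triSum_add, triSum_const_mul, triSum_const_mul]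
  refine mul_le_mul_of_nonneg_left ?_ hΘ
  have h5 := triSum_U_le hW hz
  have h6 := triSum_V_le hW hμ hμb
  have h7 : triSum b (fun t r r' => testU N b z t r r' * ρ t r r') ≤ Ψ * triSum b ρ :=
    h5.trans (mul_le_mul_of_nonneg_right hΨ hmass)
  have h8 : triSum b (fun t r r' => Real.exp (μ * ((t : ℝ) - b / 2) ^ 2) * ρ t r r') ≤ Ψc * triSum b ρ :=
    h6.trans (mul_le_mul_of_nonneg_right hΨc hmass)
  have h9 : p / Ψ * triSum b (fun t r r' => testU N b z t r r' * ρ t r r') ≤ p * triSum b ρ := by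
    have := mul_le_mul_of_nonneg_left h7 (div_nonneg hp0 hΨ0.le)
    refine this.trans (le_of_eq ?_)
    field_simp
  have h10 : (1 - p) / Ψc * triSum b (fun t r r' => Real.exp (μ * ((t : ℝ) - b / 2) ^ 2) * ρ t r r') ≤
      (1 - p) * triSum b ρ := by
    have := mul_le_mul_of_nonneg_left h8 (div_nonneg (by linarith : 0 ≤ 1 - p) hΨc0.le)
    refine this.trans (le_of_eq ?_)
    field_simp
  linarith

/-- **The dual step of the closure, Hölder form.** -/
theorem fr_dual_holder (hW : Weights N b ρ) {θ : ℕ → ℝ} {Θ z μ Ψ Ψc p : ℝ} (hz : 0 ≤ z) (hμ : 0 ≤ μ)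
    (hμb : μ * b < 2) (hΘ : 0 ≤ Θ) (hp0 : 0 ≤ p) (hp1 : p ≤ 1) (hΨ0 : 0 < Ψ)
    (hΨ : ∑ m ∈ range (2 * b + 1), (z / 2) ^ m * Sk N b m ≤ Ψ) (hΨc0 : 0 < Ψc)
    (hΨc : (Real.sqrt (1 - μ * b / 2))⁻¹ ≤ Ψc)
    (hpt : ∀ t r r', t ≤ b → r ≤ t → r' ≤ b - t → r + (b - t) ≤ N → r' + t ≤ N →
      θ (t - r) * θ (b - t - r') ≤ Θ * ((testU N b z t r r' / Ψ) ^ p *
        (Real.exp (μ * ((t : ℝ) - b / 2) ^ 2) / Ψc) ^ (1 - p))) :
    triSum b (fun t r r' => θ (t - r) * θ (b - t - r') * ρ t r r') ≤ Θ * triSum b ρ := by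
  refine fr_dual hW hz hμ hμb hΘ hp0 hp1 hΨ0 hΨ hΨc0 hΨc fun t r r' ht hr hr' h1 h2 => ?_
  refine (hpt t r r' ht hr hr' h1 h2).trans (mul_le_mul_of_nonneg_left ?_ hΘ)
  have hU : 0 ≤ testU N b z t r r' / Ψ := by
    refine div_nonneg ?_ hΨ0.le
    unfold testU
    have h3 : 0 ≤ max (Gv (N : ℝ) r t) 0 := le_max_right _ _
    have h4 : 0 ≤ max (Gv (N : ℝ) r' (b - t)) 0 := le_max_right _ _
    positivity
  have hV : 0 ≤ Real.exp (μ * ((t : ℝ) - b / 2) ^ 2) / Ψc := by positivity
  exact Real.geom_mean_le_arith_mean2_weighted hp0 (by linarith) hU hV (by ring)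

end Dual

end Crest.Agent.S0222Lib.FRCore
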