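import Crest.Agent.S0222Lib.FRPotSide
import Crest.Agent.S0222Lib.FRDual

/-!
# S0222, first-row bound: the closure of the potential for `b ≥ 4`, `N ≥ 128`

The reduction to two sets of numerical facts: `BoxFacts` (the scaled inequalities for `b/N ≥ 1/10`)
and `SmallFacts` (`b/N ≤ 1/10`).
-/

set_option autoImplicit false
set_option linter.unusedSectionVars false
set_option linter.unusedVariables false

namespace Crest.Agent.S0222Lib.FRCore.Pot

open Finset
open Crest.Agent.S0222Lib.FRCore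

/-- The parameter of the test function. -/
noncomputable def zz (N b : ℕ) : ℝ := (3 / 5) / ((b : ℝ) / 2 + Real.sqrt ((N : ℝ) * ((b : ℝ) / 2)))

/-- The scaled root of the weight. -/
noncomputable def yy (N b : ℕ) : ℝ := Real.sqrt ((b : ℝ) / (2 * N))

section Basic

variable {N b : ℕ}

lemma yy_nonneg : 0 ≤ yy N b := Real.sqrt_nonneg _

lemma yy_sq : (yy N b) ^ 2 = (b : ℝ) / (2 * N) := Real.sq_sqrt (by positivity)

lemma sqrt_eq (hN : 0 < N) : Real.sqrt ((N : ℝ) * ((b : ℝ) / 2)) = N * yy N b := by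
  have hN' : (0 : ℝ) < N := by exact_mod_cast hN
  rw [Real.sqrt_eq_iff_mul_self_eq (by positivity) (by have := yy_nonneg (N := N) (b := b); positivity)]
  have h := yy_sq (N := N) (b := b)
  symm
  calc (N : ℝ) * yy N b * (N * yy N b) = N ^ 2 * (yy N b) ^ 2 := by ring
    _ = _ := by
      rw [h]
      field_simp

lemma yy_pos (hN : 0 < N) (hb : 0 < b) : 0 < yy N b := by
  have hN' : (0 : ℝ) < N := by exact_mod_cast hN
  have hb' : (0 : ℝ) < b := by exact_mod_cast hb
  exact Real.sqrt_pos.2 (by positivity)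

lemma zz_pos (hN : 0 < N) (hb : 0 < b) : 0 < zz N b := by
  have hN' : (0 : ℝ) < N := by exact_mod_cast hN
  have hb' : (0 : ℝ) < b := by exact_mod_cast hb
  unfold zz
  positivity

lemma zz_mul (hN : 0 < N) (hb : 0 < b) : zz N b * N = zNf (yy N b) := by
  have hN' : (0 : ℝ) < N := by exact_mod_cast hN
  have hb' : (0 : ℝ) < b := by exact_mod_cast hb
  have hy := yy_pos hN hb
  have h := yy_sq (N := N) (b := b)
  unfold zz zNf
  rw [sqrt_eq hN, h]
  have e1 : (b : ℝ) / 2 + N * yy N b = N * ((b : ℝ) / (2 * N) + yy N b) := by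
    field_simp
  rw [e1]
  field_simp

lemma two_yy_sq (hN : 0 < N) : 2 * (yy N b) ^ 2 = (b : ℝ) / N := by
  have hN' : (0 : ℝ) < N := by exact_mod_cast hN
  rw [yy_sq]
  field_simp

/-- The condition of the chord. -/
lemma cond_z (hN : 0 < N) (hb : 0 < b) {t J : ℝ} (h1 : t + J - 1 ≤ 2 * b) (h2 : t + J - 1 ≤ N) :
    zz N b * (t + J - 1) ≤ 1 := by
  have hN' : (0 : ℝ) < N := by exact_mod_cast hN
  have hb' : (0 : ℝ) < b := by exact_mod_cast hb
  have hy := yy_pos hN hb
  have hz := zz_pos hN hb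
  have hzN := zz_mul hN hb
  have hsq := yy_sq (N := N) (b := b)
  have hyy : 0 < (yy N b) ^ 2 + yy N b := by positivity
  by_cases hc : yy N b ≤ 1 / 2
  · have e : zz N b * (2 * b) = (12 / 5) * (yy N b) / (yy N b + 1) := by
      have e1 : (b : ℝ) = 2 * N * (yy N b) ^ 2 := by
        rw [hsq]
        field_simp
      have e2 : zz N b * (2 * b) = (zz N b * N) * (4 * (yy N b) ^ 2) := by
        rw [e1]
        ring
      rw [e2, hzN]
      unfold zNf
      field_simp
      ring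
    have h3 : (12 / 5) * (yy N b) / (yy N b + 1) ≤ 1 := by
      rw [div_le_one (by positivity)]
      linarith
    have h4 := mul_le_mul_of_nonneg_left h1 hz.le
    rw [e] at h4
    linarith
  · have hc' : 1 / 2 < yy N b := not_le.mp hc
    have h3 : zNf (yy N b) ≤ 1 := by
      unfold zNf
      rw [div_le_one hyy]
      nlinarith
    have h4 := mul_le_mul_of_nonneg_left h2 hz.le
    rw [hzN] at h4
    linarith

end Basic

lemma Phi_le_Pl (τ : ℝ) : Phi τ ≤ Pl := by
  by_cases h : τ ≤ x0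
  · have := Phi_mono h
    rw [Phi_eq_PhiF' x0_pos.le le_rfl, PhiF_x0] at this
    exact this
  · rw [Phi_eq_Pl (not_le.mp h)]

lemma two_mul_eq {N b : ℕ} (hN : 0 < N) : 2 * (yy N b) ^ 2 = (b : ℝ) / N := two_yy_sq hN

/-- The floor, in the original scale. -/
noncomputable def eN (N b : ℕ) : ℝ := max ((b : ℝ) - N) 0

lemma eN_eq {N b : ℕ} (hN : 0 < N) : eN N b = N * eF (yy N b) := by
  have hN' : (0 : ℝ) < N := by exact_mod_cast hN
  unfold eN eF
  rw [two_yy_sq hN]
  have e : (b : ℝ) / N - 1 = ((b : ℝ) - N) / N := by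
    field_simp
  rw [e]
  by_cases h : (b : ℝ) - N ≤ 0
  · rw [max_eq_right h, max_eq_right (div_nonpos_of_nonpos_of_nonneg h hN'.le), mul_zero]
  · have h' : 0 < (b : ℝ) - N := not_le.mp h
    rw [max_eq_left h'.le, max_eq_left (div_pos h' hN').le]
    field_simp

/-- **The lower end.** -/
lemma HS_ge_Tf {N b : ℕ} (hN : 0 < N) (hb : 0 < b) {t : ℝ} (ht : eN N b ≤ t) :
    (N : ℝ) * Tf (yy N b) (t / N) ≤ HS N (zz N b) t (eN N b) := by
  have hN' : (0 : ℝ) < N := by exact_mod_cast hN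
  have hz := zz_pos hN hb
  unfold HS Tf
  set e := eF (yy N b) with he
  have hE := eN_eq (N := N) (b := b) hN
  rw [← he] at hE
  have e1 : eN N b / N = e := by
    rw [hE]
    field_simp
  rw [e1]
  have e2 : (N : ℝ) * max (t / N - e) 0 = t - eN N b := by
    have : t / N - e = (t - eN N b) / N := by
      rw [hE]
      field_simp
    rw [this, max_eq_left (div_nonneg (by linarith) hN'.le)]
    field_simp
  have e3 : zNf (yy N b) * max (1 - t / N - e) 0 = zz N b * max ((N : ℝ) - t - eN N b) 0 := by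
    rw [← zz_mul hN hb]
    have : 1 - t / N - e = ((N : ℝ) - t - eN N b) / N := by
      rw [hE]
      field_simp
    rw [this]
    by_cases h : (N : ℝ) - t - eN N b ≤ 0
    · rw [max_eq_right h, max_eq_right (div_nonpos_of_nonpos_of_nonneg h hN'.le)]
      ring
    · have h' : 0 < (N : ℝ) - t - eN N b := not_le.mp h
      rw [max_eq_left h'.le, max_eq_left (div_pos h' hN').le]
      field_simp
  have hlog : Real.log (1 + zNf (yy N b) * max (1 - t / N - e) 0) ≤
      Real.log (1 + zz N b * max ((N : ℝ) - t - eN N b + 1) 0) := by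
    rw [e3]
    apply Real.log_le_log
    · have := mul_nonneg hz.le (le_max_right ((N : ℝ) - t - eN N b) 0)
      linarith
    · have h1 : max ((N : ℝ) - t - eN N b) 0 ≤ max ((N : ℝ) - t - eN N b + 1) 0 :=
        max_le_max (by linarith) le_rfl
      have := mul_le_mul_of_nonneg_left h1 hz.le
      linarith
  unfold psiS
  have h3 : (N : ℝ) * (Phi e + 1 / 2 * max (t / N - e) 0 *
      Real.log (1 + zNf (yy N b) * max (1 - t / N - e) 0)) =
      N * Phi e + (t - eN N b) * (1 / 2 * Real.log (1 + zNf (yy N b) * max (1 - t / N - e) 0)) := by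
    rw [← e2]
    ring
  rw [h3]
  have h4 : 0 ≤ t - eN N b := by linarith
  have h5 := mul_le_mul_of_nonneg_left hlog (show 0 ≤ (t - eN N b) * (1 / 2) by positivity)
  nlinarith

/-- The quantity `J₁`. -/
noncomputable def Jup (N t : ℝ) : ℝ := min t (min (x0 * N) (N - t + 1))

/-- **The bound of `HS` at all levels.** -/
theorem HS_ge {N b : ℕ} (hN : 0 < N) (hb : 0 < b) {t j : ℕ} (hjt : j ≤ t) (htN : t ≤ N) (htb : t ≤ b)
    (hfl : b ≤ N + j) :
    (N : ℝ) * min (Tf (yy N b) ((t : ℝ) / N)) (Uf (yy N b) ((t : ℝ) / N)) ≤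
      HS N (zz N b) t j := by
  have hN' : (0 : ℝ) < N := by exact_mod_cast hN
  have hz := zz_pos hN hb
  have hx := x0_pos
  set τ := (t : ℝ) / N with hτ
  have htr : (t : ℝ) = N * τ := by
    rw [hτ]
    field_simp
  have hjr : (j : ℝ) ≤ t := by exact_mod_cast hjt
  have ht0 : (0 : ℝ) ≤ t := Nat.cast_nonneg t
  have hj0 : (0 : ℝ) ≤ j := Nat.cast_nonneg j
  have hNr : (t : ℝ) ≤ N := by exact_mod_cast htN
  have hbr : (t : ℝ) ≤ b := by exact_mod_cast htb
  have hfr : (b : ℝ) ≤ N + j := by exact_mod_cast hfl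
  have he0 : 0 ≤ eN N b := le_max_right _ _
  have hej : eN N b ≤ j := by
    apply max_le
    · linarith
    · exact hj0
  have hE := eN_eq (N := N) (b := b) hN
  set e := eF (yy N b) with he
  -- the tail is nonnegative
  have hH : ∀ u : ℝ, u ≤ t → (N : ℝ) * Phi (u / N) ≤ HS N (zz N b) t u := by
    intro u hu
    unfold HS
    have := mul_nonneg (show 0 ≤ (t : ℝ) - u by linarith)
      (psiS_nonneg (N := N) (t := t) (j := u) hz.le)
    linarith
  -- the bound of the upper function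
  have hU : ∀ a : ℝ, e ≤ a → (min τ (1 - τ) ≤ a ∨ x0 ≤ a) →
      Uf (yy N b) τ ≤ Phi a := by
    intro a hea hc
    unfold Uf
    rw [← he]
    rcases hc with hc | hc
    · exact Phi_mono (max_le hea hc)
    · have h1 : Phi a = Pl := by
        by_cases h2 : a = x0
        · rw [h2, Phi_eq_PhiF' hx.le le_rfl, PhiF_x0]
        · exact Phi_eq_Pl (lt_of_le_of_ne hc (Ne.symm h2))
      rw [h1]
      exact Phi_le_Pl _
  have hej' : e ≤ (j : ℝ) / N := by
    rw [le_div_iff₀ hN']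
    rw [hE] at hej
    linarith
  set J := Jup N t with hJ
  have hJt : J ≤ t := min_le_left _ _
  have hJx : J ≤ x0 * N := (min_le_right _ _).trans (min_le_left _ _)
  have hJG : J ≤ (N : ℝ) - t + 1 := (min_le_right _ _).trans (min_le_right _ _)
  have hJ0 : 0 ≤ J := by
    apply le_min ht0
    apply le_min
    · positivity
    · linarith
  by_cases hjJ : (j : ℝ) ≤ J
  · -- the chord
    have hch := chord hN' hz he0 hej hjJ hJt hJx hJG (cond_z hN hb (by linarith) (by linarith))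
    refine le_trans ?_ hch
    apply le_min
    · have h1 := HS_ge_Tf hN hb (t := t) (hej.trans hjr)
      exact le_trans (mul_le_mul_of_nonneg_left (min_le_left _ _) hN'.le) h1
    · refine le_trans (mul_le_mul_of_nonneg_left (min_le_right _ _) hN'.le) ?_
      refine le_trans (mul_le_mul_of_nonneg_left ?_ hN'.le) (hH J hJt)
      apply hU
      · rw [le_div_iff₀ hN']
        rw [hE] at hej
        linarith
      · -- the cases of the minimum
        unfold Jup at hJ
        by_cases h1 : (t : ℝ) ≤ min (x0 * N) ((N : ℝ) - t + 1)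
        · left
          have : J = t := by
            rw [hJ]
            exact min_eq_left h1
          rw [this]
          exact (min_le_left _ _).trans (le_of_eq hτ)
        · have h2 := not_le.mp h1
          have h3 : J = min (x0 * N) ((N : ℝ) - t + 1) := by
            rw [hJ]
            exact min_eq_right h2.le
          by_cases h4 : x0 * N ≤ (N : ℝ) - t + 1
          · right
            rw [h3, min_eq_left h4]
            field_simp
            rfl
          · left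
            have h5 : J = (N : ℝ) - t + 1 := by
              rw [h3]
              exact min_eq_right (not_le.mp h4).le
            rw [h5]
            refine (min_le_right _ _).trans ?_
            rw [le_div_iff₀ hN', hτ]
            have : (1 - (t : ℝ) / N) * N = N - t := by
              field_simp
            rw [this]
            linarith
  · -- above `J₁`
    have hjJ' : J < j := not_le.mp hjJ
    refine le_trans (mul_le_mul_of_nonneg_left (min_le_right _ _) hN'.le) ?_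
    refine le_trans (mul_le_mul_of_nonneg_left ?_ hN'.le) (hH j hjr)
    apply hU _ hej'
    unfold Jup at hJ
    by_cases h1 : (t : ℝ) ≤ min (x0 * N) ((N : ℝ) - t + 1)
    · have : J = t := by
        rw [hJ]
        exact min_eq_left h1
      rw [this] at hjJ'
      linarith
    · have h2 := not_le.mp h1
      have h3 : J = min (x0 * N) ((N : ℝ) - t + 1) := by
        rw [hJ]
        exact min_eq_right h2.le
      by_cases h4 : x0 * N ≤ (N : ℝ) - t + 1
      · right
        rw [h3, min_eq_left h4] at hjJ'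
        rw [le_div_iff₀ hN']
        exact hjJ'.le
      · left
        have h5 : J = (N : ℝ) - t + 1 := by
          rw [h3]
          exact min_eq_right (not_le.mp h4).le
        rw [h5] at hjJ'
        refine (min_le_right _ _).trans ?_
        rw [le_div_iff₀ hN', hτ]
        have : (1 - (t : ℝ) / N) * N = N - t := by
          field_simp
        rw [this]
        linarith


/-! ### The numerical facts -/

/-- The tail at level `0`. -/
noncomputable def T0 (N b t : ℕ) : ℝ :=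
  (t : ℝ) * ((1 / 2) * Real.log (1 + zz N b * ((N : ℝ) - t + 1)))

/-- The scaled inequalities, for `b/N ≥ 1/10`. -/
def BoxFacts : Prop :=
  (∀ y τ : ℝ, 7 / 32 ≤ y → 2 * y ^ 2 ≤ 1 → 0 ≤ τ → τ ≤ 2 * y ^ 2 →
    0.00454 ≤ Tf y τ + Uf y (2 * y ^ 2 - τ) + Qf y τ - 2 * Phi (y ^ 2)) ∧
  (∀ y τ : ℝ, 7 / 32 ≤ y → 2 * y ^ 2 ≤ 1 → 0 ≤ τ → τ ≤ 2 * y ^ 2 →
    0.01001 ≤ Tf y τ + Tf y (2 * y ^ 2 - τ) + Qf y τ - 2 * Phi (y ^ 2)) ∧
  (∀ y τ : ℝ, 7 / 32 ≤ y → 2 * y ^ 2 ≤ 1 → 45 / 64 ≤ τ → τ ≤ 2 * y ^ 2 →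
    0 ≤ Uf y τ + Uf y (2 * y ^ 2 - τ) + Qf y τ - 2 * Phi (y ^ 2)) ∧
  (∀ y τ : ℝ, 0 ≤ y → 1 ≤ 2 * y ^ 2 → y ≤ 13 / 16 → eF y ≤ τ → τ ≤ 1 → eF y ≤ 2 * y ^ 2 - τ →
    2 * y ^ 2 - τ ≤ 1 → 0 ≤ Tf y τ + Tf y (2 * y ^ 2 - τ) + Qf y τ - 2 * Phi (y ^ 2)) ∧
  (∀ y τ : ℝ, 0 ≤ y → 1 ≤ 2 * y ^ 2 → y ≤ 13 / 16 → eF y ≤ τ → τ ≤ 1 → eF y ≤ 2 * y ^ 2 - τ →
    2 * y ^ 2 - τ ≤ 1 → 0 ≤ Tf y τ + Uf y (2 * y ^ 2 - τ) + Qf y τ - 2 * Phi (y ^ 2)) ∧
  (∀ y τ : ℝ, 0 ≤ y → 1 ≤ 2 * y ^ 2 → y ≤ 13 / 16 → eF y ≤ τ → τ ≤ 1 → eF y ≤ 2 * y ^ 2 - τ →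
    2 * y ^ 2 - τ ≤ 1 → 0 ≤ Uf y τ + Uf y (2 * y ^ 2 - τ) + Qf y τ - 2 * Phi (y ^ 2))

/-- The inequalities for `b/N ≤ 1/10`. -/
def SmallFacts : Prop :=
  ∀ N b t t' : ℕ, 128 ≤ N → 4 ≤ b → 10 * b ≤ N → t + t' = b →
    (fN (2 * N) b + 0.581 ≤ T0 N b t + fN N t' +
      (7 / 10) / (b : ℝ) * (((t : ℝ) - t') / 2) ^ 2) ∧
    (fN (2 * N) b + 0.7 + 0.581 ≤ T0 N b t + T0 N b t' +
      (7 / 10) / (b : ℝ) * (((t : ℝ) - t') / 2) ^ 2)

/-- The full value of a level. -/
noncomputable def Fj (N : ℝ) (j : ℕ) : ℝ := if j = 0 then 0 else fN N j + g0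

/-- The value of one side. -/
noncomputable def Side (N z : ℝ) (t j : ℕ) : ℝ := Fj N j + ((t : ℝ) - j) * psiS N z t j

lemma g0_val : g0 = 0.7 := by
  unfold g0
  norm_num

/-- The alternatives for one side, `b ≤ N`. -/
lemma side_alt {N b : ℕ} (hN : 0 < N) (hb : 0 < b) (hbN : b ≤ N) {t j : ℕ} (hj1 : j ≠ 1)
    (hjt : j ≤ t) (htN : t ≤ N) (htb : t ≤ b) :
    (N : ℝ) * Tf (yy N b) ((t : ℝ) / N) ≤ Side N (zz N b) t j ∨
      (2 ≤ t ∧ g0 + (N : ℝ) * Uf (yy N b) ((t : ℝ) / N) ≤ Side N (zz N b) t j) := by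
  have hN' : (0 : ℝ) < N := by exact_mod_cast hN
  have hbr : (b : ℝ) ≤ N := by exact_mod_cast hbN
  have hg := g0_pos
  by_cases hj0 : j = 0
  · left
    subst hj0
    have he : eN N b = 0 := by
      unfold eN
      exact max_eq_right (by linarith)
    have h1 := HS_ge_Tf hN hb (t := (t : ℝ)) (by rw [he]; positivity)
    rw [he] at h1
    refine h1.trans (le_of_eq ?_)
    unfold HS Side Fj
    simp [Phi_zero]
  · have hj2 : 2 ≤ j := by omega
    have h1 := HS_ge hN hb hjt htN htb (by omega)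
    have e : Side N (zz N b) t j = g0 + HS N (zz N b) t j := by
      unfold Side Fj HS fN
      rw [if_neg hj0]
      ring
    rw [e]
    rcases le_total (Tf (yy N b) ((t : ℝ) / N)) (Uf (yy N b) ((t : ℝ) / N)) with h | h
    · left
      rw [min_eq_left h] at h1
      linarith
    · right
      rw [min_eq_right h] at h1
      exact ⟨by omega, by linarith⟩

/-- The alternatives for one side, `b/N ≤ 1/10`. -/
lemma side_alt_small {N b : ℕ} (hN : 0 < N) (hb : 0 < b) (hbN : 10 * b ≤ N) {t j : ℕ} (hj1 : j ≠ 1)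
    (hjt : j ≤ t) (htb : t ≤ b) :
    T0 N b t ≤ Side N (zz N b) t j ∨ (2 ≤ t ∧ g0 + fN N t ≤ Side N (zz N b) t j) := by
  have hN' : (0 : ℝ) < N := by exact_mod_cast hN
  have hb10 : 10 * (b : ℝ) ≤ N := by exact_mod_cast hbN
  have htr : (t : ℝ) ≤ b := by exact_mod_cast htb
  have ht0 : (0 : ℝ) ≤ t := Nat.cast_nonneg t
  have hjr : (j : ℝ) ≤ t := by exact_mod_cast hjt
  have hg := g0_pos
  have hz := zz_pos hN hb
  have hG : (0 : ℝ) ≤ (N : ℝ) - t - ((0 : ℕ) : ℝ) + 1 := by
    push_cast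
    linarith
  have e0 : HS N (zz N b) t ((0 : ℕ) : ℝ) = T0 N b t := by
    unfold HS T0 psiS
    rw [max_eq_left hG]
    simp [Phi_zero]
  by_cases hj0 : j = 0
  · left
    subst hj0
    rw [← e0]
    unfold Side Fj HS
    simp [Phi_zero]
  · have hj2 : 2 ≤ j := by omega
    have e : Side N (zz N b) t j = g0 + HS N (zz N b) t j := by
      unfold Side Fj HS fN
      rw [if_neg hj0]
      ring
    rw [e]
    have hx : (1 : ℝ) / 10 ≤ x0 := by
      unfold x0
      norm_num
    have hch := chord (N := N) (z := zz N b) (t := t) (j₀ := ((0 : ℕ) : ℝ)) (j := j) (j₁ := t) hN' hz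
      (by simp) (by simp) hjr le_rfl (by
        have : (1 / 10) * (N : ℝ) ≤ x0 * N := mul_le_mul_of_nonneg_right hx hN'.le
        linarith) (by linarith) (cond_z hN hb (by linarith) (by linarith))
    have e1 : HS N (zz N b) t t = fN N t := by
      unfold HS fN
      simp
    rw [e0, e1] at hch
    rcases le_total (T0 N b t) (fN N t) with h | h
    · left
      rw [min_eq_left h] at hch
      linarith
    · right
      rw [min_eq_right h] at hch
      exact ⟨by omega, by linarith⟩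

/-- The quadratic term. -/
lemma Qf_eq {N b t t' : ℕ} (hN : 0 < N) (hb : 0 < b) (htt : t + t' = b) :
    (7 / 10) / (b : ℝ) * (((t : ℝ) - t') / 2) ^ 2 = (N : ℝ) * Qf (yy N b) ((t : ℝ) / N) := by
  have hN' : (0 : ℝ) < N := by exact_mod_cast hN
  have hb' : (0 : ℝ) < b := by exact_mod_cast hb
  have hbt : (t' : ℝ) = b - t := by
    have : (t : ℝ) + t' = b := by exact_mod_cast htt
    linarith
  unfold Qf
  rw [two_yy_sq hN, hbt]
  field_simp
  ring

lemma Qf_symm {y τ : ℝ} : Qf y (2 * y ^ 2 - τ) = Qf y τ := by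
  unfold Qf
  congr 2
  ring

lemma fN_double_eq {N b : ℕ} (hN : 0 < N) :
    fN (2 * N) b = (N : ℝ) * (2 * Phi ((yy N b) ^ 2)) := by
  unfold fN
  rw [yy_sq]
  ring

/-- `t' / N = 2 y² - t / N`. -/
lemma tau_eq {N b t t' : ℕ} (hN : 0 < N) (htt : t + t' = b) :
    (t' : ℝ) / N = 2 * (yy N b) ^ 2 - (t : ℝ) / N := by
  have hN' : (0 : ℝ) < N := by exact_mod_cast hN
  have hbt : (t' : ℝ) = b - t := by
    have : (t : ℝ) + t' = b := by exact_mod_cast htt
    linarith
  rw [two_yy_sq hN, hbt]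
  field_simp

/-- Below `45/64` the upper function is the potential. -/
lemma Uf_eq {N b t : ℕ} (hN : 0 < N) (hbN : b ≤ N) (h : (t : ℝ) / N ≤ 45 / 64) :
    (N : ℝ) * Uf (yy N b) ((t : ℝ) / N) = fN N t := by
  have hN' : (0 : ℝ) < N := by exact_mod_cast hN
  have hbr : (b : ℝ) ≤ N := by exact_mod_cast hbN
  have he : eF (yy N b) = 0 := by
    unfold eF
    rw [two_yy_sq hN]
    apply max_eq_right
    have : (b : ℝ) / N ≤ 1 := by
      rw [div_le_one hN']
      exact hbr
    linarith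
  unfold Uf fN
  rw [he]
  have ht0 : 0 ≤ (t : ℝ) / N := by positivity
  congr 1
  by_cases h1 : (t : ℝ) / N ≤ 1 - (t : ℝ) / N
  · rw [min_eq_left h1, max_eq_right ht0]
  · have h2 := not_le.mp h1
    rw [min_eq_right h2.le]
    have h3 : 0 ≤ 1 - (t : ℝ) / N := by linarith
    rw [max_eq_right h3]
    have hx : x0 = 19 / 64 := rfl
    have h4 : x0 ≤ 1 - (t : ℝ) / N := by
      rw [hx]
      linarith
    have h5 : x0 < (t : ℝ) / N := by
      rw [hx]
      linarith
    rw [Phi_eq_Pl h5]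
    rcases h4.eq_or_lt with h6 | h6
    · rw [← h6, Phi_eq_PhiF' x0_pos.le le_rfl, PhiF_x0]
    · exact Phi_eq_Pl h6

set_option maxHeartbeats 4000000 in
/-- **The main inequality.** -/
theorem main_ineq (hbox : BoxFacts) (hsmall : SmallFacts) {N b t t' j j' : ℕ} (hN : 128 ≤ N)
    (hb : 4 ≤ b) (htt : t + t' = b) (hjt : j ≤ t) (hjt' : j' ≤ t') (htN : t ≤ N) (htN' : t' ≤ N)
    (hfl : b ≤ N + j) (hfl' : b ≤ N + j') (hj1 : j ≠ 1) (hj1' : j' ≠ 1) :
    fN (2 * N) b + g0 + 0.581 ≤ Side N (zz N b) t j + Side N (zz N b) t' j' +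
      (7 / 10) / (b : ℝ) * (((t : ℝ) - t') / 2) ^ 2 := by
  obtain ⟨B1, B2, B3, B4, B5, B6⟩ := hbox
  have hN0 : 0 < N := by omega
  have hb0 : 0 < b := by omega
  have hN' : (128 : ℝ) ≤ N := by exact_mod_cast hN
  have hNr : (0 : ℝ) < N := by linarith
  have hbr : (4 : ℝ) ≤ b := by exact_mod_cast hb
  have hg : g0 = 0.7 := g0_val
  have hQ : 0 ≤ (7 / 10) / (b : ℝ) * (((t : ℝ) - t') / 2) ^ 2 := by positivity
  have hQE := Qf_eq hN0 hb0 htt
  have hF := fN_double_eq (N := N) (b := b) hN0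
  set y := yy N b with hy
  set τ := (t : ℝ) / N with hτ
  have hτ' : (t' : ℝ) / N = 2 * y ^ 2 - τ := tau_eq hN0 htt
  have hτ0 : 0 ≤ τ := by positivity
  have hxy : 2 * y ^ 2 = (b : ℝ) / N := two_yy_sq hN0
  have hτx : τ ≤ 2 * y ^ 2 := by
    rw [hxy, hτ]
    apply div_le_div_of_nonneg_right _ hNr.le
    have : t ≤ b := by omega
    exact_mod_cast this
  have htt' : (t : ℝ) + t' = b := by exact_mod_cast htt
  -- the case of the large weights: both levels on the plateau
  by_cases hbig : (83 / 64 : ℝ) * N ≤ b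
  · have hS : ∀ u i : ℕ, i ≤ u → b ≤ N + i → g0 + (N : ℝ) * Pl ≤ Side N (zz N b) u i := by
      intro u i hiu hi
      have hir : (b : ℝ) ≤ N + i := by exact_mod_cast hi
      have hi1 : (19 / 64 : ℝ) * N ≤ i := by linarith
      have hi0 : i ≠ 0 := by
        rintro rfl
        simp only [Nat.cast_zero] at hi1
        linarith
      have hi2 : x0 ≤ (i : ℝ) / N := by
        rw [le_div_iff₀ hNr]
        exact hi1
      have hPl : Phi ((i : ℝ) / N) = Pl := by
        rcases hi2.eq_or_lt with h6 | h6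
        · rw [← h6, Phi_eq_PhiF' x0_pos.le le_rfl, PhiF_x0]
        · exact Phi_eq_Pl h6
      unfold Side Fj fN
      rw [if_neg hi0, hPl]
      have hiur : (i : ℝ) ≤ u := by exact_mod_cast hiu
      have := mul_nonneg (show 0 ≤ (u : ℝ) - i by linarith)
        (psiS_nonneg (N := N) (t := u) (j := i) (zz_pos hN0 hb0).le)
      linarith
    have h1 := hS t j hjt hfl
    have h2 := hS t' j' hjt' hfl'
    have h3 : Phi (y ^ 2) ≤ Pl := Phi_le_Pl _
    have h4 := mul_le_mul_of_nonneg_left h3 hNr.le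
    rw [hF]
    rw [hg] at h1 h2 ⊢
    norm_num at h1 h2 ⊢
    linarith
  have hbig' : (b : ℝ) < (83 / 64 : ℝ) * N := not_le.mp hbig
  by_cases hgt : N < b
  · -- above the deck
    have hgtr : (N : ℝ) ≤ b := by exact_mod_cast hgt.le
    have hx1 : 1 ≤ 2 * y ^ 2 := by
      rw [hxy, le_div_iff₀ hNr]
      linarith
    have hy0 : 0 ≤ y := yy_nonneg
    have hy13 : y ≤ 13 / 16 := by
      have h1 : 2 * y ^ 2 ≤ 83 / 64 := by
        rw [hxy, div_le_iff₀ hNr]
        exact hbig'.le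
      nlinarith
    have heF : eF y = ((b : ℝ) - N) / N := by
      unfold eF
      rw [hxy, max_eq_left]
      · field_simp
      · linarith
    have hlev : ∀ u i : ℕ, i ≤ u → b ≤ N + i → eF y ≤ (u : ℝ) / N := by
      intro u i hiu hi
      have hir : (b : ℝ) ≤ N + i := by exact_mod_cast hi
      have hiur : (i : ℝ) ≤ u := by exact_mod_cast hiu
      rw [heF]
      apply div_le_div_of_nonneg_right _ hNr.le
      linarith
    have hτ1 : τ ≤ 1 := by
      rw [hτ, div_le_one hNr]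
      exact_mod_cast htN
    have hτ1' : 2 * y ^ 2 - τ ≤ 1 := by
      rw [← hτ', div_le_one hNr]
      exact_mod_cast htN'
    have heτ : eF y ≤ τ := hlev t j hjt hfl
    have heτ' : eF y ≤ 2 * y ^ 2 - τ := by
      rw [← hτ']
      exact hlev t' j' hjt' hfl'
    -- the two sides
    have hS : ∀ u i : ℕ, i ≠ 1 → i ≤ u → u ≤ N → u ≤ b → b ≤ N + i →
        g0 + (N : ℝ) * min (Tf y ((u : ℝ) / N)) (Uf y ((u : ℝ) / N)) ≤ Side N (zz N b) u i := by
      intro u i hi1 hiu huN hub hi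
      have hi0 : i ≠ 0 := by omega
      have h1 := HS_ge hN0 hb0 hiu huN hub hi
      have e : Side N (zz N b) u i = g0 + HS N (zz N b) u i := by
        unfold Side Fj HS fN
        rw [if_neg hi0]
        ring
      rw [e]
      linarith
    have h1 := hS t j hj1 hjt htN (by omega) hfl
    have h2 := hS t' j' hj1' hjt' htN' (by omega) hfl'
    rw [hτ'] at h2
    rw [← hτ] at h1
    -- all the combinations
    have key : 0 ≤ min (Tf y τ) (Uf y τ) + min (Tf y (2 * y ^ 2 - τ)) (Uf y (2 * y ^ 2 - τ)) +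
        Qf y τ - 2 * Phi (y ^ 2) := by
      rcases le_total (Tf y τ) (Uf y τ) with h3 | h3 <;>
        rcases le_total (Tf y (2 * y ^ 2 - τ)) (Uf y (2 * y ^ 2 - τ)) with h4 | h4
      · rw [min_eq_left h3, min_eq_left h4]
        exact B4 y τ hy0 hx1 hy13 heτ hτ1 heτ' hτ1'
      · rw [min_eq_left h3, min_eq_right h4]
        exact B5 y τ hy0 hx1 hy13 heτ hτ1 heτ' hτ1'
      · rw [min_eq_right h3, min_eq_left h4]
        have h5 := B5 y (2 * y ^ 2 - τ) hy0 hx1 hy13 heτ' hτ1' (by linarith) (by linarith)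
        have e1 : 2 * y ^ 2 - (2 * y ^ 2 - τ) = τ := by ring
        rw [e1, Qf_symm] at h5
        linarith
      · rw [min_eq_right h3, min_eq_right h4]
        exact B6 y τ hy0 hx1 hy13 heτ hτ1 heτ' hτ1'
    have h5 := mul_nonneg hNr.le key
    rw [hQE, hF]
    rw [hg] at h1 h2 ⊢
    norm_num at h1 h2 ⊢
    linarith
  have hbN : b ≤ N := not_lt.mp hgt
  by_cases hsm : 10 * b ≤ N
  · -- small weights
    obtain ⟨S1, S2⟩ := hsmall N b t t' hN hb hsm htt
    obtain ⟨S3, S4⟩ := hsmall N b t' t hN hb hsm (by omega)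
    have e : (7 / 10) / (b : ℝ) * (((t' : ℝ) - t) / 2) ^ 2 =
        (7 / 10) / (b : ℝ) * (((t : ℝ) - t') / 2) ^ 2 := by ring
    rw [e] at S3 S4
    have h1 := side_alt_small hN0 hb0 hsm hj1 hjt (by omega : t ≤ b)
    have h2 := side_alt_small hN0 hb0 hsm hj1' hjt' (by omega : t' ≤ b)
    rw [hg] at h1 h2 ⊢
    rcases h1 with h1 | ⟨ht2, h1⟩ <;> rcases h2 with h2 | ⟨ht2', h2⟩
    · linarith
    · linarith
    · linarith
    · have h3 := fN_UU hNr (t := t) (t' := t') (by omega) (by omega)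
      have e1 : ((t : ℝ) + t') = b := htt'
      rw [e1] at h3
      have e2 : t + t' = b := htt
      rw [e2] at h3
      norm_num at h1 h2 ⊢
      linarith
  -- the scaled inequalities
  have hy0 : 0 ≤ y := yy_nonneg
  have hx1 : 2 * y ^ 2 ≤ 1 := by
    rw [hxy, div_le_one hNr]
    exact_mod_cast hbN
  have hy7 : 7 / 32 ≤ y := by
    have h1 : (N : ℝ) < 10 * b := by exact_mod_cast not_le.mp hsm
    have h2 : (1 : ℝ) / 10 < 2 * y ^ 2 := by
      rw [hxy, lt_div_iff₀ hNr]
      linarith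
    nlinarith
  have h1 := side_alt hN0 hb0 hbN hj1 hjt htN (by omega : t ≤ b)
  have h2 := side_alt hN0 hb0 hbN hj1' hjt' htN' (by omega : t' ≤ b)
  rw [hτ'] at h2
  rw [← hτ] at h1
  rw [hQE, hF]
  have hτ'0 : 0 ≤ 2 * y ^ 2 - τ := by linarith
  have hτ'x : 2 * y ^ 2 - τ ≤ 2 * y ^ 2 := by linarith
  rw [hg] at h1 h2 ⊢
  rcases h1 with h1 | ⟨ht2, h1⟩ <;> rcases h2 with h2 | ⟨ht2', h2⟩
  · have h3 := B2 y τ hy7 hx1 hτ0 hτx
    have h4 := mul_le_mul_of_nonneg_left h3 hNr.le
    have e : (N : ℝ) * (Tf y τ + Tf y (2 * y ^ 2 - τ) + Qf y τ - 2 * Phi (y ^ 2)) =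
      N * Tf y τ + N * Tf y (2 * y ^ 2 - τ) + N * Qf y τ - N * (2 * Phi (y ^ 2)) := by ring
    rw [e] at h4
    norm_num at h4 ⊢
    linarith
  · have h3 := B1 y τ hy7 hx1 hτ0 hτx
    have h4 := mul_le_mul_of_nonneg_left h3 hNr.le
    have e : (N : ℝ) * (Tf y τ + Uf y (2 * y ^ 2 - τ) + Qf y τ - 2 * Phi (y ^ 2)) =
      N * Tf y τ + N * Uf y (2 * y ^ 2 - τ) + N * Qf y τ - N * (2 * Phi (y ^ 2)) := by ring
    rw [e] at h4
    norm_num at h2 h4 ⊢
    linarith
  · have h3 := B1 y (2 * y ^ 2 - τ) hy7 hx1 hτ'0 hτ'x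
    have e1 : 2 * y ^ 2 - (2 * y ^ 2 - τ) = τ := by ring
    rw [e1, Qf_symm] at h3
    have h4 := mul_le_mul_of_nonneg_left h3 hNr.le
    have e : (N : ℝ) * (Tf y (2 * y ^ 2 - τ) + Uf y τ + Qf y τ - 2 * Phi (y ^ 2)) =
      N * Tf y (2 * y ^ 2 - τ) + N * Uf y τ + N * Qf y τ - N * (2 * Phi (y ^ 2)) := by ring
    rw [e] at h4
    norm_num at h1 h4 ⊢
    linarith
  · -- the top/top case
    by_cases h5 : τ ≤ 45 / 64
    · by_cases h6 : 2 * y ^ 2 - τ ≤ 45 / 64
      · have e1 := Uf_eq (N := N) (b := b) (t := t) hN0 hbN h5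
        have e2 := Uf_eq (N := N) (b := b) (t := t') hN0 hbN (by rw [hτ']; exact h6)
        rw [hτ'] at e2
        rw [← hτ] at e1
        rw [e1] at h1
        rw [e2] at h2
        have h3 := fN_UU hNr (t := t) (t' := t') (by omega) (by omega)
        have e3 : ((t : ℝ) + t') = b := htt'
        rw [e3, htt, hF, hQE] at h3
        norm_num at h1 h2 h3 ⊢
        linarith
      · have h7 : 45 / 64 ≤ 2 * y ^ 2 - τ := (not_le.mp h6).le
        have h3 := B3 y (2 * y ^ 2 - τ) hy7 hx1 h7 hτ'x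
        have e1 : 2 * y ^ 2 - (2 * y ^ 2 - τ) = τ := by ring
        rw [e1, Qf_symm] at h3
        have h4 := mul_nonneg hNr.le h3
        norm_num at h1 h2 h4 ⊢
        linarith
    · have h7 : 45 / 64 ≤ τ := (not_le.mp h5).le
      have h3 := B3 y τ hy7 hx1 h7 hτx
      have h4 := mul_nonneg hNr.le h3
      norm_num at h1 h2 h4 ⊢
      linarith

end Crest.Agent.S0222Lib.FRCore.Pot
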