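import Crest.Agent.S0222Lib.FRDual
import Crest.Agent.S0222Lib.FRPotMain

/-!
# S0222, first-row bound: the wiring of the closure of the potential

From the scalar inequality `hmain` (one side at a time) to the closure of the potential, by `fr_dual_holder`.
-/

set_option autoImplicit false

namespace Crest.Agent.S0222Lib.FRCore.Pot

open Finset

lemma log_seven_fourths_le : Real.log (7 / 4) ≤ 5597 / 10000 := by
  rw [Real.log_le_iff_le_exp (by norm_num)]
  have h := Real.sum_le_exp_of_nonneg (x := 5597 / 10000) (by norm_num) 9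
  refine le_trans ?_ h
  simp only [Finset.sum_range_succ, Finset.sum_range_zero, Nat.factorial]
  norm_num

lemma log_ten_thirds_le : Real.log (10 / 3) ≤ 1204 / 1000 := by
  rw [Real.log_le_iff_le_exp (by norm_num)]
  have h := Real.sum_le_exp_of_nonneg (x := 1204 / 1000) (by norm_num) 14
  refine le_trans ?_ h
  simp only [Finset.sum_range_succ, Finset.sum_range_zero, Nat.factorial]
  norm_num

/-- The constant of the certificate. -/
lemma Cbar_le : Real.log (7 / 4) * (1 / 2) + Real.log ((√(3 / 10 : ℝ))⁻¹) * (1 / 2) ≤ 581 / 1000 := by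
  have h1 := log_seven_fourths_le
  have h2 := log_ten_thirds_le
  have h3 : Real.log ((√(3 / 10 : ℝ))⁻¹) = Real.log (10 / 3) / 2 := by
    rw [Real.log_inv, Real.log_sqrt (by norm_num)]
    have : (10 / 3 : ℝ) = (3 / 10)⁻¹ := by norm_num
    rw [this, Real.log_inv]
    ring
  rw [h3]
  linarith

lemma thN_eq_exp (N : ℝ) {j : ℕ} (hj : j ≠ 1) : thN N j = Real.exp (-Fj N j) := by
  unfold thN Fj
  by_cases h0 : j = 0
  · simp [h0]
  · rw [if_neg h0, if_neg hj, if_neg h0]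
    congr 1
    ring

/-- The series of the moments is at most `7/4`. -/
lemma hΨ_zz {N b : ℕ} (hb : 4 ≤ b) (hbN : b ≤ 2 * N) :
    ∑ m ∈ range (2 * b + 1), (zz N b / 2) ^ m * Sk N b m ≤ 7 / 4 := by
  have hb' : (4 : ℝ) ≤ b := by exact_mod_cast hb
  have hNpos : 0 < N := by omega
  have hN' : (0 : ℝ) < N := by exact_mod_cast hNpos
  set M := b / 2 with hM
  have hMb : (M : ℝ) ≤ (b : ℝ) / 2 := by
    rw [hM]
    have := Nat.cast_div_le (α := ℝ) (m := b) (n := 2)
    simpa using this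
  have hMN : M ≤ N := by omega
  have hMN' : (M : ℝ) ≤ N := by exact_mod_cast hMN
  have hM0 : (0 : ℝ) ≤ M := Nat.cast_nonneg _
  set S := √((N : ℝ) * ((b : ℝ) / 2)) with hS
  have hS0 : 0 ≤ S := Real.sqrt_nonneg _
  have hden : 0 < (b : ℝ) / 2 + S := by
    have : (0 : ℝ) < (b : ℝ) / 2 := by linarith
    linarith
  have hz0 : 0 ≤ zz N b := by
    unfold zz
    rw [← hS]
    positivity
  have hzeq : zz N b * ((b : ℝ) / 2 + S) = 3 / 5 := by
    unfold zz
    rw [← hS]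
    field_simp
  set z := zz N b with hz
  set A := z * (M : ℝ) with hA
  set B := z * √((N : ℝ) * (M : ℝ)) with hB
  have hS2 : √((N : ℝ) * (M : ℝ)) ≤ S := by
    refine Real.sqrt_le_sqrt ?_
    exact mul_le_mul_of_nonneg_left hMb hN'.le
  have hA0 : 0 ≤ A := mul_nonneg hz0 hM0
  have hB0 : 0 ≤ B := mul_nonneg hz0 (Real.sqrt_nonneg _)
  have hAB : A + B ≤ 3 / 5 := by
    have h1 : A ≤ z * ((b : ℝ) / 2) := mul_le_mul_of_nonneg_left hMb hz0
    have h2 : B ≤ z * S := mul_le_mul_of_nonneg_left hS2 hz0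
    nlinarith
  have hAleB : A ≤ B := by
    refine mul_le_mul_of_nonneg_left ?_ hz0
    refine Real.le_sqrt_of_sq_le ?_
    nlinarith
  have h := sum_Sk_le N b hz0 (A := A) (B := B) rfl rfl (by linarith)
  refine h.trans ?_
  have h1 : 0 < 1 - A - B := by linarith
  have h2 : 0 < 1 - A + B := by linarith
  rw [div_le_iff₀ (mul_pos h1 h2)]
  nlinarith [mul_nonneg (sub_nonneg.2 hAleB) (sub_nonneg.2 hAB), mul_nonneg hA0 hB0, mul_nonneg hB0 hB0,
    mul_nonneg (sub_nonneg.2 hAB) (sub_nonneg.2 hAB), mul_nonneg (sub_nonneg.2 hAleB) hA0,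
    mul_nonneg (sub_nonneg.2 hAleB) hB0]

/-- The scalar inequality gives the pointwise bound. -/
theorem hpt_of_main {N b : ℕ} (hb : 4 ≤ b)
    (t r r' : ℕ) (ht : t ≤ b) (hr : r ≤ t) (hr' : r' ≤ b - t)
    (hmain : t - r ≠ 1 → b - t - r' ≠ 1 →
      fN (2 * (N : ℝ)) b + g0 + 581 / 1000 ≤
        Side N (zz N b) t (t - r) + Side N (zz N b) (b - t) (b - t - r') +
          (7 / 10) / (b : ℝ) * (((t : ℝ) - ((b - t : ℕ) : ℝ)) / 2) ^ 2)
    (hz0 : 0 ≤ zz N b) :
    thN N (t - r) * thN N (b - t - r') ≤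
      thN (2 * N) b * ((testU N b (zz N b) t r r' / (7 / 4)) ^ (1 / 2 : ℝ) *
        (Real.exp (((7 / 5) / (b : ℝ)) * ((t : ℝ) - b / 2) ^ 2) / (√(3 / 10 : ℝ))⁻¹) ^ (1 - 1 / 2 : ℝ)) := by
  have hb0 : (0 : ℝ) < b := by
    have : (4 : ℝ) ≤ b := by exact_mod_cast hb
    linarith
  set z := zz N b with hz
  set j := t - r with hj
  set t' := b - t with ht'
  set j' := t' - r' with hj'
  have hsq : 0 < (√(3 / 10 : ℝ))⁻¹ := by
    have : 0 < √(3 / 10 : ℝ) := Real.sqrt_pos.2 (by norm_num)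
    positivity
  have hR0 : 0 ≤ thN (2 * N) b * ((testU N b z t r r' / (7 / 4)) ^ (1 / 2 : ℝ) *
        (Real.exp (((7 / 5) / (b : ℝ)) * ((t : ℝ) - b / 2) ^ 2) / (√(3 / 10 : ℝ))⁻¹) ^ (1 - 1 / 2 : ℝ)) := by
    refine mul_nonneg (thN_nonneg _ _) (mul_nonneg (Real.rpow_nonneg ?_ _) (Real.rpow_nonneg ?_ _))
    · refine div_nonneg ?_ (by norm_num)
      unfold testU
      have h3 : 0 ≤ max (Gv (N : ℝ) r t) 0 := le_max_right _ _
      have h4 : 0 ≤ max (Gv (N : ℝ) r' t') 0 := le_max_right _ _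
      positivity
    · positivity
  by_cases h1 : j = 1
  · rw [h1, thN_one, zero_mul]
    exact hR0
  by_cases h2 : j' = 1
  · rw [h2, thN_one, mul_zero]
    exact hR0
  have hmain' := hmain h1 h2
  -- the logarithm of the test function
  have ejr : (j : ℝ) = (t : ℝ) - r := by
    rw [hj, Nat.cast_sub hr]
  have htt' : (t' : ℝ) = (b : ℝ) - t := by
    rw [ht', Nat.cast_sub ht]
  have ejr' : (j' : ℝ) = (t' : ℝ) - r' := by
    rw [hj', Nat.cast_sub hr']
  have eGL : Gv (N : ℝ) r t = (N : ℝ) - t - j + 1 := by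
    unfold Gv
    rw [ejr]
    ring
  have eGR : Gv (N : ℝ) r' t' = (N : ℝ) - t' - j' + 1 := by
    unfold Gv
    rw [ejr']
    ring
  set Ga := max ((N : ℝ) - t - j + 1) 0 with hGa
  set Gb := max ((N : ℝ) - t' - j' + 1) 0 with hGb
  have hGa0 : 0 ≤ Ga := le_max_right _ _
  have hGb0 : 0 ≤ Gb := le_max_right _ _
  have hL0 : 0 < 1 + z * Ga := by positivity
  have hR0' : 0 < 1 + z * Gb := by positivity
  have eU : testU N b z t r r' = (1 + z * Ga) ^ r * (1 + z * Gb) ^ r' := by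
    unfold testU
    rw [eGL, eGR]
  have hU0 : 0 < testU N b z t r r' := by
    rw [eU]
    positivity
  have hlogU : Real.log (testU N b z t r r') =
      (r : ℝ) * Real.log (1 + z * Ga) + (r' : ℝ) * Real.log (1 + z * Gb) := by
    rw [eU, Real.log_mul (pow_pos hL0 _).ne' (pow_pos hR0' _).ne', Real.log_pow, Real.log_pow]
  have ep : psiS (N : ℝ) z (t : ℝ) (j : ℝ) = (1 / 2) * Real.log (1 + z * Ga) := rfl
  have ep' : psiS (N : ℝ) z (t' : ℝ) (j' : ℝ) = (1 / 2) * Real.log (1 + z * Gb) := rfl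
  have hrpow1 : (testU N b z t r r' / (7 / 4)) ^ (1 / 2 : ℝ) =
      Real.exp ((Real.log (testU N b z t r r') - Real.log (7 / 4)) * (1 / 2)) := by
    rw [Real.rpow_def_of_pos (div_pos hU0 (by norm_num)), Real.log_div hU0.ne' (by norm_num)]
  have hrpow2 : (Real.exp (((7 / 5) / (b : ℝ)) * ((t : ℝ) - b / 2) ^ 2) / (√(3 / 10 : ℝ))⁻¹) ^ (1 - 1 / 2 : ℝ) =
      Real.exp ((((7 / 5) / (b : ℝ)) * ((t : ℝ) - b / 2) ^ 2 - Real.log ((√(3 / 10 : ℝ))⁻¹)) * (1 / 2)) := by
    rw [Real.rpow_def_of_pos (div_pos (Real.exp_pos _) hsq), Real.log_div (Real.exp_pos _).ne' hsq.ne',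
      Real.log_exp]
    norm_num
  rw [hrpow1, hrpow2, thN_eq_exp _ h1, thN_eq_exp _ h2, thN_of_two_le _ (by omega : 2 ≤ b),
    ← Real.exp_add, ← Real.exp_add, ← Real.exp_add, Real.exp_le_exp, hlogU]
  have hC := Cbar_le
  unfold Side at hmain'
  rw [ep, ep'] at hmain'
  have hq : (7 / 10) / (b : ℝ) * (((t : ℝ) - (t' : ℝ)) / 2) ^ 2 =
      ((7 / 5) / (b : ℝ)) * ((t : ℝ) - b / 2) ^ 2 * (1 / 2) := by
    rw [htt']
    ring
  rw [hq] at hmain'
  have et : (t : ℝ) - j = r := by rw [ejr]; ring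
  have et' : (t' : ℝ) - j' = r' := by rw [ejr']; ring
  rw [et, et'] at hmain'
  nlinarith

/-- **The closure of the potential from the scalar inequality.** -/
theorem potClose_of_main
    (hmain : ∀ {N b t t' j j' : ℕ}, 128 ≤ N → 4 ≤ b → t + t' = b → j ≤ t → j' ≤ t' → t ≤ N → t' ≤ N →
      b ≤ N + j → b ≤ N + j' → j ≠ 1 → j' ≠ 1 →
      fN (2 * (N : ℝ)) b + g0 + 581 / 1000 ≤
        Side N (zz N b) t j + Side N (zz N b) t' j' + (7 / 10) / (b : ℝ) * (((t : ℝ) - t') / 2) ^ 2) :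
    ∀ N : ℕ, 128 ≤ N → ∀ b : ℕ, 4 ≤ b → b ≤ 2 * N → ∀ ρ : ℕ → ℕ → ℕ → ℝ, Weights N b ρ →
      triSum b (fun t r r' => thN N (t - r) * thN N (b - t - r') * ρ t r r') ≤
        thN (2 * N) b * triSum b ρ := by
  intro N hN b hb hbN ρ hW
  have hb0 : (0 : ℝ) < b := by
    have : (4 : ℝ) ≤ b := by exact_mod_cast hb
    linarith
  have hz0 : 0 ≤ zz N b := by
    unfold zz
    positivity
  refine fr_dual_holder hW (θ := thN N) (Θ := thN (2 * N) b) (z := zz N b) (μ := (7 / 5) / (b : ℝ))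
    (Ψ := 7 / 4) (Ψc := (√(3 / 10 : ℝ))⁻¹) (p := 1 / 2) hz0 (by positivity) ?_ (thN_nonneg _ _)
    (by norm_num) (by norm_num) (by norm_num) (hΨ_zz hb hbN) ?_ ?_ ?_
  · have : (7 / 5) / (b : ℝ) * (b : ℝ) = 7 / 5 := by field_simp
    rw [this]
    norm_num
  · have h : 0 < √(3 / 10 : ℝ) := Real.sqrt_pos.2 (by norm_num)
    positivity
  · have : (1 : ℝ) - (7 / 5) / (b : ℝ) * (b : ℝ) / 2 = 3 / 10 := by
      field_simp
      norm_num
    rw [this]
  · intro t r r' ht hr hr' h1 h2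
    refine hpt_of_main hb t r r' ht hr hr' (fun hj hj' => ?_) hz0
    refine hmain hN hb (by omega) (Nat.sub_le _ _) (Nat.sub_le _ _) (by omega) (by omega) (by omega)
      (by omega) hj hj'

/-- **The closure of the potential from the numerical facts.** -/
theorem potClose_of_facts (hbox : BoxFacts) (hsmall : SmallFacts) :
    ∀ N : ℕ, 128 ≤ N → ∀ b : ℕ, 4 ≤ b → b ≤ 2 * N → ∀ ρ : ℕ → ℕ → ℕ → ℝ, Weights N b ρ →
      triSum b (fun t r r' => thN N (t - r) * thN N (b - t - r') * ρ t r r') ≤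
        thN (2 * N) b * triSum b ρ :=
  potClose_of_main fun {N b t t' j j'} hN hb htt hjt hjt' htN htN' hfl hfl' hj1 hj1' => by
    have h := main_ineq hbox hsmall hN hb htt hjt hjt' htN htN' hfl hfl' hj1 hj1'
    have e : (0.581 : ℝ) = 581 / 1000 := by norm_num
    rw [e] at h
    exact h

end Crest.Agent.S0222Lib.FRCore.Pot
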