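import Crest.Agent.S0222Lib.JGood

/-!
# S0222: the index bound of `ShapeFacts` in logarithmic form

`log_index_le`, `ShapeFacts.m_bounds`.
-/

set_option autoImplicit false
set_option linter.unusedSectionVars false
set_option linter.unusedSimpArgs false
set_option linter.unusedVariables false

namespace Crest.Agent.S0222Lib.SWord

open Finset

/-- `log μ! ≥ μ (log μ - 1)` -/
lemma idx_log_factorial_ge (n : ℕ) : (n : ℝ) * (Real.log n - 1) ≤ Real.log (n.factorial : ℝ) := by
  rcases Nat.eq_zero_or_pos n with rfl | hn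
  · simp
  have hn0 : (0 : ℝ) < n := by exact_mod_cast hn
  have h1 : (n : ℝ) ^ n / n.factorial ≤ Real.exp n := by
    have := Real.pow_div_factorial_le_exp (n : ℝ) hn0.le n
    exact this
  have hf : (0 : ℝ) < n.factorial := by exact_mod_cast n.factorial_pos
  have h2 : (n : ℝ) ^ n ≤ Real.exp n * n.factorial := by
    rwa [div_le_iff₀ hf] at h1
  have h3 := Real.log_le_log (by positivity) h2
  rw [Real.log_pow, Real.log_mul (Real.exp_pos _).ne' hf.ne', Real.log_exp] at h3
  nlinarith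

/-- Gibbs -/
lemma idx_gibbs {T : ℕ} (hT : 0 < T) (μ : Fin T → ℕ) (hμ : ∀ a, 0 < μ a) :
    (∑ a, (μ a : ℝ)) * Real.log ((∑ a, (μ a : ℝ)) / T) ≤ ∑ a, (μ a : ℝ) * Real.log (μ a) := by
  set M : ℝ := ∑ a, (μ a : ℝ) with hM
  have hT0 : (0 : ℝ) < T := by exact_mod_cast hT
  have : Nonempty (Fin T) := ⟨⟨0, hT⟩⟩
  have hM0 : 0 < M := Finset.sum_pos (fun a _ => by exact_mod_cast hμ a) Finset.univ_nonempty
  have key : ∀ a, (μ a : ℝ) * Real.log (M / T) ≤ (μ a : ℝ) * Real.log (μ a) + (M / T - μ a) := by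
    intro a
    have hμa : (0 : ℝ) < μ a := by exact_mod_cast hμ a
    have h1 : Real.log ((M / T) / μ a) ≤ (M / T) / μ a - 1 :=
      Real.log_le_sub_one_of_pos (by positivity)
    rw [Real.log_div (by positivity) hμa.ne'] at h1
    have h2 : (μ a : ℝ) * (Real.log (M / T) - Real.log (μ a)) ≤ (μ a : ℝ) * ((M / T) / μ a - 1) :=
      mul_le_mul_of_nonneg_left h1 hμa.le
    have h3 : (μ a : ℝ) * ((M / T) / μ a - 1) = M / T - μ a := by
      field_simp
    rw [h3] at h2
    linarith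
  have hs := Finset.sum_le_sum (fun a (_ : a ∈ (Finset.univ : Finset (Fin T))) => key a)
  rw [← Finset.sum_mul, Finset.sum_add_distrib, Finset.sum_sub_distrib] at hs
  simp only [Finset.sum_const, Finset.card_univ, Fintype.card_fin, nsmul_eq_mul] at hs
  have h4 : (T : ℝ) * (M / T) = M := by field_simp
  rw [h4, ← hM] at hs
  linarith

variable {d b dV : ℕ} {S₀ : Finset (ℕ × Bool)} {T : S₀ → ℕ} {μ : ∀ s, Fin (T s) → ℕ} {m ds : S₀ → ℕ}

/-- `m s` between `T s * 2^k` and `T s * 2^(k+1)`. -/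
lemma ShapeFacts.m_bounds (h : ShapeFacts d b dV T μ m ds) (s : S₀) :
    T s * 2 ^ s.1.1 ≤ m s ∧ m s < T s * 2 ^ (s.1.1 + 1) := by
  rw [h.m_eq s]
  have : Nonempty (Fin (T s)) := ⟨⟨0, h.T_pos s⟩⟩
  constructor
  · have := Finset.sum_le_sum (s := (Finset.univ : Finset (Fin (T s))))
      (f := fun _ => 2 ^ s.1.1) (g := fun a => μ s a) (fun a _ => (h.dyadic s a).1)
    simpa using this
  · have := Finset.sum_lt_sum_of_nonempty (s := (Finset.univ : Finset (Fin (T s))))
      Finset.univ_nonempty (f := fun a => μ s a) (g := fun _ => 2 ^ (s.1.1 + 1))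
      (fun a _ => (h.dyadic s a).2)
    simpa using this

lemma ShapeFacts.μ_pos (h : ShapeFacts d b dV T μ m ds) (s : S₀) (a : Fin (T s)) : 0 < μ s a :=
  lt_of_lt_of_le (by positivity) (h.dyadic s a).1

lemma ShapeFacts.m_pos (h : ShapeFacts d b dV T μ m ds) (s : S₀) : 0 < m s := by
  have h1 := (h.m_bounds s).1
  have h2 := h.T_pos s
  exact lt_of_lt_of_le (by positivity) h1

/-- for one class: `∑_a log μ_a! ≥ m (log (m/T) - 1)` -/
lemma ShapeFacts.log_class (h : ShapeFacts d b dV T μ m ds) (s : S₀) :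
    (m s : ℝ) * (Real.log ((m s : ℝ) / T s) - 1) ≤ ∑ a, Real.log ((μ s a).factorial : ℝ) := by
  have hm : (m s : ℝ) = ∑ a, (μ s a : ℝ) := by
    rw [h.m_eq s]; push_cast; rfl
  have hg := idx_gibbs (h.T_pos s) (μ s) (h.μ_pos s)
  rw [← hm] at hg
  have hf : ∑ a, (μ s a : ℝ) * (Real.log (μ s a) - 1) ≤ ∑ a, Real.log ((μ s a).factorial : ℝ) :=
    Finset.sum_le_sum fun a _ => idx_log_factorial_ge (μ s a)
  have e : ∑ a, (μ s a : ℝ) * (Real.log (μ s a) - 1) =
      ∑ a, (μ s a : ℝ) * Real.log (μ s a) - m s := by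
    rw [hm, ← Finset.sum_sub_distrib]
    exact Finset.sum_congr rfl fun a _ => by ring
  rw [e] at hf
  nlinarith

/-- **The index bound in logarithmic form.** -/
theorem log_index_le (h : ShapeFacts d b dV T μ m ds) :
    Real.log dV ≤ (b : ℝ) * (1 + Real.log ((2 : ℝ) ^ (d + 1) / b)) +
      ∑ s, (m s : ℝ) * (Real.log (T s) + Real.log ((b : ℝ) / m s)) := by
  classical
  set n : ℕ := 2 ^ (d + 1) with hn
  have hb0 : (0 : ℝ) < b := by exact_mod_cast h.b_pos
  have hnR : (0 : ℝ) < (n : ℝ) := by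
    have : 0 < n := by positivity
    exact_mod_cast this
  have hncast : (2 : ℝ) ^ (d + 1) = n := by rw [hn]; push_cast; rfl
  have hdV : (0 : ℝ) < dV := by exact_mod_cast h.dV_pos
  -- the index inequality in reals, with descFactorial
  have hbn : b ≤ n := h.b_le
  have hdesc : n.factorial = (n - b).factorial * n.descFactorial b :=
    (Nat.factorial_mul_descFactorial hbn).symm
  have hidx := h.index
  rw [← hn, hdesc] at hidx
  have hidx2 : dV * ∏ s, ∏ a, (μ s a).factorial ≤ n.descFactorial b := by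
    have hpos : 0 < (n - b).factorial := Nat.factorial_pos _
    refine Nat.le_of_mul_le_mul_left ?_ hpos
    calc (n - b).factorial * (dV * ∏ s, ∏ a, (μ s a).factorial)
        = dV * ((n - b).factorial * ∏ s, ∏ a, (μ s a).factorial) := by ring
      _ ≤ _ := hidx
  have hidx3 : dV * ∏ s, ∏ a, (μ s a).factorial ≤ n ^ b :=
    hidx2.trans (Nat.descFactorial_le_pow n b)
  have hidx4 : (dV : ℝ) * ∏ s, ∏ a, ((μ s a).factorial : ℝ) ≤ (n : ℝ) ^ b := by
    exact_mod_cast hidx3
  have hprod : ∀ s : S₀, (0 : ℝ) < ∏ a, ((μ s a).factorial : ℝ) := fun s =>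
    Finset.prod_pos fun a _ => by exact_mod_cast (μ s a).factorial_pos
  have hprod2 : (0 : ℝ) < ∏ s, ∏ a, ((μ s a).factorial : ℝ) :=
    Finset.prod_pos fun s _ => hprod s
  have hlog := Real.log_le_log (mul_pos hdV hprod2) hidx4
  rw [Real.log_mul hdV.ne' hprod2.ne', Real.log_pow, Real.log_prod (fun s _ => (hprod s).ne')] at hlog
  have hinner : ∀ s : S₀, Real.log (∏ a, ((μ s a).factorial : ℝ)) =
      ∑ a, Real.log ((μ s a).factorial : ℝ) := fun s =>
    Real.log_prod fun a _ => by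
      have : (0 : ℝ) < (μ s a).factorial := by exact_mod_cast (μ s a).factorial_pos
      exact this.ne'
  simp only [hinner] at hlog
  have hclass : ∑ s, (m s : ℝ) * (Real.log ((m s : ℝ) / T s) - 1) ≤
      ∑ s, ∑ a, Real.log ((μ s a).factorial : ℝ) :=
    Finset.sum_le_sum fun s _ => h.log_class s
  have hsumm : ∑ s, (m s : ℝ) = b := by exact_mod_cast h.sum_m
  -- rewriting the two sums
  have eL : ∑ s, (m s : ℝ) * (Real.log ((m s : ℝ) / T s) - 1) =
      ∑ s, (m s : ℝ) * (Real.log (m s) - Real.log (T s)) - b := by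
    rw [← hsumm, ← Finset.sum_sub_distrib]
    refine Finset.sum_congr rfl fun s _ => ?_
    have hms : (0 : ℝ) < m s := by exact_mod_cast h.m_pos s
    have hTs : (0 : ℝ) < T s := by exact_mod_cast h.T_pos s
    rw [Real.log_div hms.ne' hTs.ne']
    ring
  have eR : ∑ s, (m s : ℝ) * (Real.log (T s) + Real.log ((b : ℝ) / m s)) =
      (b : ℝ) * Real.log b - ∑ s, (m s : ℝ) * (Real.log (m s) - Real.log (T s)) := by
    rw [← hsumm, Finset.sum_mul, ← Finset.sum_sub_distrib]
    refine Finset.sum_congr rfl fun s _ => ?_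
    have hms : (0 : ℝ) < m s := by exact_mod_cast h.m_pos s
    rw [hsumm, Real.log_div hb0.ne' hms.ne']
    ring
  rw [eR, hncast, Real.log_div hnR.ne' hb0.ne']
  rw [eL] at hclass
  have : ((b : ℕ) : ℝ) * Real.log n = (b : ℝ) * Real.log n := rfl
  nlinarith

end Crest.Agent.S0222Lib.SWord
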