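import Crest.Agent.S0222Lib.JBnum

/-!
# S0222: numerical leaves of the coverage

`log_d_lower`: the lower bound of `log d` from the Frobenius bound at a shape with nearly equal rows.
-/

set_option autoImplicit false
set_option linter.unusedSectionVars false
set_option linter.unusedSimpArgs false
set_option linter.unusedVariables false

namespace Crest.Agent.S0222Lib.JCov

open Finset
open scoped Nat
open Crest.Agent.S0222Lib.JMix Crest.Agent.S0222Lib.JBnum

/-- one term of the binomial expansion of `(z + (1 - z)) ^ (m + v)` -/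
lemma choose_term_le {z : ℝ} (hz0 : 0 ≤ z) (hz1 : z ≤ 1) (m v : ℕ) :
    ((m + v).choose m : ℝ) * z ^ m * (1 - z) ^ v ≤ 1 := by
  have h := add_pow z (1 - z) (m + v)
  have h1 : z + (1 - z) = 1 := by ring
  rw [h1, one_pow] at h
  have h1z : 0 ≤ 1 - z := by linarith
  have h2 := Finset.single_le_sum
    (f := fun j => z ^ j * (1 - z) ^ (m + v - j) * ((m + v).choose j : ℝ)) (s := range (m + v + 1))
    (fun j _ => by positivity) (mem_range.2 (by omega : m < m + v + 1))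
  rw [← h] at h2
  have e : m + v - m = v := by omega
  simp only [e] at h2
  calc ((m + v).choose m : ℝ) * z ^ m * (1 - z) ^ v = z ^ m * (1 - z) ^ v * ((m + v).choose m : ℝ) := by
        ring
    _ ≤ 1 := h2

/-- `E ≥ i (log r - log (9/8))` for nearly equal parts -/
lemma EE_lower {r i k : ℕ} (hr : 0 < r) (μ : Fin r → ℕ) (hsum : ∑ a, μ a = i)
    (hsize : ∀ a, 2 ^ k ≤ μ a ∧ μ a < 2 ^ (k + 1)) :
    (i : ℝ) * (Real.log r - Real.log (9 / 8)) ≤ EE i μ := by
  have hμ0 : ∀ a, 0 < μ a := fun a => lt_of_lt_of_le (by positivity) (hsize a).1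
  have hr0 : (0 : ℝ) < r := by exact_mod_cast hr
  have hi0 : 0 < i := by
    rw [← hsum]
    exact Finset.sum_pos (fun a _ => hμ0 a) ⟨⟨0, hr⟩, mem_univ _⟩
  have hi : (0 : ℝ) < i := by exact_mod_cast hi0
  set m : ℝ := (2 : ℝ) ^ k with hm
  have hsumR : ∑ a, (μ a : ℝ) = i := by exact_mod_cast hsum
  -- Kantorovich
  have hK : ∀ a, (μ a : ℝ) ^ 2 ≤ 3 * m * μ a - 2 * m ^ 2 := by
    intro a
    have h1 : m ≤ μ a := by
      rw [hm]
      exact_mod_cast (hsize a).1
    have h2 : (μ a : ℝ) ≤ 2 * m := by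
      have : ((μ a : ℕ) : ℝ) < ((2 ^ (k + 1) : ℕ) : ℝ) := by exact_mod_cast (hsize a).2
      rw [hm]
      push_cast at this
      rw [pow_succ] at this
      linarith
    nlinarith [mul_nonneg (sub_nonneg.2 h1) (sub_nonneg.2 h2)]
  have hS : ∑ a, (μ a : ℝ) ^ 2 ≤ 3 * m * i - 2 * m ^ 2 * r := by
    calc ∑ a, (μ a : ℝ) ^ 2 ≤ ∑ a, (3 * m * μ a - 2 * m ^ 2) := Finset.sum_le_sum fun a _ => hK a
      _ = _ := by
        rw [Finset.sum_sub_distrib, ← Finset.mul_sum, hsumR, Finset.sum_const, Finset.card_univ,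
          Fintype.card_fin, nsmul_eq_mul]
        ring
  have hS2 : (r : ℝ) * ∑ a, (μ a : ℝ) ^ 2 ≤ 9 / 8 * (i : ℝ) ^ 2 := by
    have := mul_le_mul_of_nonneg_left hS hr0.le
    nlinarith [sq_nonneg (m * r - 3 / 4 * i)]
  set c : ℝ := 9 / 8 / r with hc
  have hc0 : 0 < c := by positivity
  have hlogc : Real.log c = Real.log (9 / 8) - Real.log r := by
    rw [hc, Real.log_div (by norm_num) hr0.ne']
  have hterm : ∀ a, (μ a : ℝ) * (1 - μ a / (i * c)) ≤
      (μ a : ℝ) * Real.log ((i : ℝ) / μ a) + (μ a : ℝ) * Real.log c := by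
    intro a
    have hp : (0 : ℝ) < μ a := by exact_mod_cast hμ0 a
    have hx : 0 < (i : ℝ) * c / μ a := by positivity
    have h1 := Real.one_sub_inv_le_log_of_pos hx
    have e1 : ((i : ℝ) * c / μ a)⁻¹ = μ a / (i * c) := by rw [inv_div]
    have e2 : Real.log ((i : ℝ) * c / μ a) = Real.log ((i : ℝ) / μ a) + Real.log c := by
      rw [mul_div_right_comm, Real.log_mul (by positivity) hc0.ne']
    rw [e1, e2] at h1
    calc (μ a : ℝ) * (1 - μ a / (i * c)) ≤ (μ a : ℝ) * (Real.log ((i : ℝ) / μ a) + Real.log c) :=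
          mul_le_mul_of_nonneg_left h1 hp.le
      _ = _ := by ring
  have hsum2 : (i : ℝ) - (∑ a, (μ a : ℝ) ^ 2) / (i * c) ≤ EE i μ + i * Real.log c := by
    have e : (i : ℝ) - (∑ a, (μ a : ℝ) ^ 2) / (i * c) = ∑ a, (μ a : ℝ) * (1 - μ a / (i * c)) := by
      have : ∀ a, (μ a : ℝ) * (1 - μ a / (i * c)) = (μ a : ℝ) - (μ a : ℝ) ^ 2 / (i * c) := by
        intro a
        ring
      simp only [this]
      rw [Finset.sum_sub_distrib, hsumR, Finset.sum_div]
    rw [e]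
    unfold EE
    calc _ ≤ ∑ a, ((μ a : ℝ) * Real.log ((i : ℝ) / μ a) + (μ a : ℝ) * Real.log c) :=
          Finset.sum_le_sum fun a _ => hterm a
      _ = _ := by
        rw [Finset.sum_add_distrib, ← Finset.sum_mul, hsumR]
  have hq : (∑ a, (μ a : ℝ) ^ 2) / (i * c) ≤ i := by
    rw [div_le_iff₀ (by positivity)]
    have e : (i : ℝ) * (i * c) = 9 / 8 * (i : ℝ) ^ 2 / r := by
      rw [hc]
      field_simp
    rw [e, le_div_iff₀ hr0]
    linarith
  rw [hlogc] at hsum2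
  nlinarith

lemma sum_rev (r : ℕ) : ∑ a : Fin r, ((r - 1 - (a : ℕ) : ℕ) : ℝ) = (r : ℝ) * (r - 1) / 2 := by
  induction r with
  | zero => simp
  | succ n ih =>
    rw [Fin.sum_univ_succ]
    have e : ∀ a : Fin n, ((n + 1 - 1 - ((a.succ : Fin (n + 1)) : ℕ) : ℕ) : ℝ) =
        ((n - 1 - (a : ℕ) : ℕ) : ℝ) := by
      intro a
      congr 1
      simp only [Fin.val_succ]
      omega
    simp only [e, ih]
    simp only [Fin.val_zero]
    have : ((n + 1 - 1 - 0 : ℕ) : ℝ) = n := by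
      simp
    rw [this]
    push_cast
    ring

theorem log_d_lower {r i d k : ℕ} (hr : 0 < r) (μ : Fin r → ℕ) (hμ : Antitone μ)
    (hsum : ∑ a, μ a = i) (hsize : ∀ a, 2 ^ k ≤ μ a ∧ μ a < 2 ^ (k + 1))
    (hd : i ! * (∏ a : Fin r, (r - 1 - a)!) ≤ d * ∏ a : Fin r, (μ a + (r - 1 - a))!)
    {z ε : ℝ} (hz0 : 0 < z) (hz1 : z < 1) (hε : 0 < ε) :
    (i : ℝ) * (Real.log r - Real.log (9 / 8) - ε - Real.log (1 / z)) -
        ((r : ℝ) * (r - 1) / 2) * Real.log (1 / (1 - z)) -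
        r * Real.log ((1 - Real.exp (-ε))⁻¹) ≤ Real.log d := by
  have hμ0 : ∀ a, 0 < μ a := fun a => lt_of_lt_of_le (by positivity) (hsize a).1
  have hi0 : 0 < i := by
    rw [← hsum]
    exact Finset.sum_pos (fun a _ => hμ0 a) ⟨⟨0, hr⟩, mem_univ _⟩
  have hi : (0 : ℝ) < i := by exact_mod_cast hi0
  have h1z : 0 < 1 - z := by linarith
  -- the factorial identity
  set C : Fin r → ℕ := fun a => (μ a + (r - 1 - a)).choose (μ a) with hC
  have hfac : ∏ a : Fin r, (μ a + (r - 1 - a))! =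
      (∏ a, C a) * (∏ a, (μ a)!) * ∏ a : Fin r, (r - 1 - a)! := by
    rw [← Finset.prod_mul_distrib, ← Finset.prod_mul_distrib]
    refine Finset.prod_congr rfl fun a _ => ?_
    have h0 := Nat.add_choose_mul_factorial_mul_factorial (μ a) (r - 1 - a)
    rw [← Nat.choose_symm_add] at h0
    exact h0.symm
  have hvpos : 0 < ∏ a : Fin r, (r - 1 - a)! := Finset.prod_pos fun a _ => Nat.factorial_pos _
  have hi2 : i ! ≤ d * (∏ a, C a) * ∏ a, (μ a)! := by
    rw [hfac] at hd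
    have h2 : i ! * (∏ a : Fin r, (r - 1 - a)!) ≤
        (d * (∏ a, C a) * ∏ a, (μ a)!) * ∏ a : Fin r, (r - 1 - a)! := by
      calc _ ≤ _ := hd
        _ = _ := by ring
    exact Nat.le_of_mul_le_mul_right h2 hvpos
  have hd0 : 0 < d := by
    rcases Nat.eq_zero_or_pos d with h | h
    · rw [h] at hi2
      simp at hi2
      exact absurd hi2 (Nat.factorial_ne_zero _)
    · exact h
  have hdR : (0 : ℝ) < d := by exact_mod_cast hd0
  have hCpos : ∀ a, 0 < C a := fun a => Nat.choose_pos (by omega)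
  have hCR : ∀ a, (0 : ℝ) < C a := fun a => by exact_mod_cast hCpos a
  have hPC : (0 : ℝ) < ∏ a, (C a : ℝ) := Finset.prod_pos fun a _ => hCR a
  have hPμ : (0 : ℝ) < ∏ a, ((μ a)! : ℝ) := Finset.prod_pos fun a _ => by positivity
  -- the mode bound
  have hmode := exp_EE_le (T := r) (i := i) hr hi0 ⟨μ, hsum⟩
  simp only at hmode
  set B : ℝ := ((i + r - 1).choose (r - 1) : ℝ) with hB
  have hB0 : 0 < B := by
    rw [hB]
    exact_mod_cast Nat.choose_pos (by omega)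
  have hi2R : (i ! : ℝ) ≤ d * (∏ a, (C a : ℝ)) * ∏ a, ((μ a)! : ℝ) := by exact_mod_cast hi2
  have hexp : Real.exp (EE i μ) ≤ B * (d * ∏ a, (C a : ℝ)) := by
    have h3 : Real.exp (EE i μ) * ∏ a, ((μ a)! : ℝ) ≤ (B * (d * ∏ a, (C a : ℝ))) * ∏ a, ((μ a)! : ℝ) := by
      calc _ ≤ B * (i ! : ℝ) := hmode
        _ ≤ B * (d * (∏ a, (C a : ℝ)) * ∏ a, ((μ a)! : ℝ)) := mul_le_mul_of_nonneg_left hi2R hB0.le
        _ = _ := by ring
    exact le_of_mul_le_mul_right h3 hPμ
  have hlog : EE i μ ≤ Real.log B + (Real.log d + ∑ a, Real.log (C a)) := by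
    have h4 := Real.log_le_log (Real.exp_pos _) hexp
    rw [Real.log_exp, Real.log_mul hB0.ne' (by positivity), Real.log_mul hdR.ne' hPC.ne',
      Real.log_prod (fun a _ => (hCR a).ne')] at h4
    exact h4
  -- bound of `B`
  have hBle : Real.log B ≤ i * ε + r * Real.log ((1 - Real.exp (-ε))⁻¹) := by
    have h5 := choose_le_exp (T := r) hr i hε
    have hz1' : Real.exp (-ε) < 1 := by simpa using Real.exp_lt_exp.2 (by linarith : -ε < 0)
    have hy : 0 < (1 - Real.exp (-ε))⁻¹ := inv_pos.2 (by linarith)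
    have h6 := Real.log_le_log hB0 h5
    rwa [Real.log_mul (Real.exp_pos _).ne' (by positivity), Real.log_exp, Real.log_pow] at h6
  -- bound of `C a`
  have hCle : ∀ a : Fin r, Real.log (C a) ≤
      (μ a : ℝ) * Real.log (1 / z) + ((r - 1 - (a : ℕ) : ℕ) : ℝ) * Real.log (1 / (1 - z)) := by
    intro a
    have h7 := choose_term_le hz0.le hz1.le (μ a) (r - 1 - a)
    have h8 : Real.log (C a) + (μ a : ℝ) * Real.log z + ((r - 1 - (a : ℕ) : ℕ) : ℝ) * Real.log (1 - z) ≤ 0 := by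
      have h9 : 0 < (C a : ℝ) * z ^ μ a * (1 - z) ^ (r - 1 - (a : ℕ)) :=
        mul_pos (mul_pos (hCR a) (pow_pos hz0 _)) (pow_pos h1z _)
      have h10 := Real.log_le_log h9 h7
      rw [Real.log_one, Real.log_mul (mul_pos (hCR a) (pow_pos hz0 _)).ne' (pow_pos h1z _).ne',
        Real.log_mul (hCR a).ne' (pow_pos hz0 _).ne', Real.log_pow, Real.log_pow] at h10
      exact h10
    rw [one_div, one_div, Real.log_inv, Real.log_inv]
    linarith
  have hsumC : ∑ a, Real.log (C a) ≤ (i : ℝ) * Real.log (1 / z) +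
      ((r : ℝ) * (r - 1) / 2) * Real.log (1 / (1 - z)) := by
    calc _ ≤ ∑ a : Fin r, ((μ a : ℝ) * Real.log (1 / z) +
          ((r - 1 - (a : ℕ) : ℕ) : ℝ) * Real.log (1 / (1 - z))) :=
          Finset.sum_le_sum fun a _ => hCle a
      _ = _ := by
        have hsumR : ∑ a, (μ a : ℝ) = i := by exact_mod_cast hsum
        rw [Finset.sum_add_distrib, ← Finset.sum_mul, ← Finset.sum_mul, hsumR, sum_rev]
  have hE := EE_lower hr μ hsum hsize
  nlinarith

/-! ### The bound of `log Xi` -/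

/-- the summand -/
noncomputable def psi (a : ℕ) : ℝ :=
  Real.log ((1 - Real.exp (-(1 / 1000) / 4) * ((a : ℝ) + 1) ^ (-(1 : ℝ) / 8))⁻¹)

/-- the partial sums -/
noncomputable def SS (T : ℕ) : ℝ := ∑ a ∈ range T, psi a

lemma rpow_eighth_le {x y : ℝ} (hx : 0 < x) (hy : 0 < y) (h : x⁻¹ ≤ y ^ 8) :
    x ^ (-(1 : ℝ) / 8) ≤ y := by
  have e : x ^ (-(1 : ℝ) / 8) = (x⁻¹) ^ ((1 : ℝ) / 8) := by
    rw [Real.inv_rpow hx.le, ← Real.rpow_neg hx.le]
    congr 1
    ring
  rw [e]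
  calc (x⁻¹) ^ ((1 : ℝ) / 8) ≤ (y ^ 8) ^ ((1 : ℝ) / 8) :=
        Real.rpow_le_rpow (by positivity) h (by norm_num)
    _ = y := by
      rw [← Real.rpow_natCast, ← Real.rpow_mul hy.le]
      norm_num

lemma exp_factor_le : Real.exp (-(1 / 1000) / 4) ≤ 1 := by
  rw [Real.exp_le_one_iff]
  norm_num

lemma psi_le {a x : ℕ} {y : ℝ} (hx : 0 < x) (ha : x ≤ a + 1) (hy0 : 0 < y) (hy1 : y < 1)
    (h : (x : ℝ)⁻¹ ≤ y ^ 8) : psi a ≤ -Real.log (1 - y) := by
  unfold psi
  have hxR : (0 : ℝ) < x := by exact_mod_cast hx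
  have haR : (x : ℝ) ≤ (a : ℝ) + 1 := by exact_mod_cast ha
  have ht1 : ((a : ℝ) + 1) ^ (-(1 : ℝ) / 8) ≤ y :=
    rpow_eighth_le (by positivity) hy0 (le_trans (inv_anti₀ hxR haR) h)
  set u : ℝ := ((a : ℝ) + 1) ^ (-(1 : ℝ) / 8) with hu
  have hu0 : 0 < u := by positivity
  have he := exp_factor_le
  have he0 : 0 < Real.exp (-(1 / 1000) / 4) := Real.exp_pos _
  have ht : Real.exp (-(1 / 1000) / 4) * u ≤ y := by nlinarith
  rw [Real.log_inv]
  apply neg_le_neg
  exact Real.log_le_log (by linarith) (by linarith)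

lemma nlog_pow {y : ℝ} {p q : ℕ} (hy : y < 1) (hq : 0 < q)
    (h : ((1 - y)⁻¹) ^ q ≤ (27182818283 / 10000000000 : ℝ) ^ p) :
    -Real.log (1 - y) ≤ (p : ℝ) / q := by
  have h1y : 0 < 1 - y := by linarith
  have hq' : (0 : ℝ) < q := by exact_mod_cast hq
  rw [le_div_iff₀ hq', ← Real.log_inv]
  have h1 : ((1 - y)⁻¹) ^ q ≤ Real.exp p := by
    refine h.trans ?_
    rw [show (p : ℝ) = ((p : ℕ) : ℝ) * 1 by ring, Real.exp_nat_mul]
    have he : (27182818283 / 10000000000 : ℝ) ≤ Real.exp 1 := by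
      have := Real.exp_one_gt_d9
      norm_num at this ⊢
      linarith
    exact pow_le_pow_left₀ (by norm_num) he p
  have h2 := Real.log_le_log (by positivity) h1
  rw [Real.log_pow, Real.log_exp] at h2
  linarith

lemma nlog_series {y : ℝ} (hy0 : 0 ≤ y) (hy1 : y < 1) (n : ℕ) :
    -Real.log (1 - y) ≤ ∑ i ∈ range n, y ^ (i + 1) / (i + 1) + y ^ (n + 1) / (1 - y) := by
  have h := Real.abs_log_sub_add_sum_range_le (x := y) (by rwa [abs_of_nonneg hy0]) n
  rw [abs_of_nonneg hy0] at h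
  have h2 := (neg_abs_le _).trans' (neg_le_neg h)
  linarith [neg_abs_le ((∑ i ∈ range n, y ^ (i + 1) / ((i : ℝ) + 1)) + Real.log (1 - y)),
    abs_le.1 h]

lemma block (j : ℕ) {U : ℝ} (h : ∀ a, 2 ^ j ≤ a + 1 → psi a ≤ U) :
    SS (2 ^ (j + 1) - 1) ≤ SS (2 ^ j - 1) + 2 ^ j * U := by
  have hp : 1 ≤ 2 ^ j := Nat.one_le_two_pow
  have e : 2 ^ (j + 1) - 1 = (2 ^ j - 1) + 2 ^ j := by
    rw [pow_succ]
    omega
  unfold SS
  rw [e, Finset.sum_range_add]
  have h1 : ∑ x ∈ range (2 ^ j), psi (2 ^ j - 1 + x) ≤ 2 ^ j * U := by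
    have h2 : ∑ x ∈ range (2 ^ j), psi (2 ^ j - 1 + x) ≤ ∑ _x ∈ range (2 ^ j), U :=
      Finset.sum_le_sum fun x _ => h _ (by omega)
    rw [Finset.sum_const, Finset.card_range, nsmul_eq_mul] at h2
    exact_mod_cast h2
  linarith

lemma psi_zero_le : psi 0 ≤ 9 := by
  unfold psi
  have hx : Real.exp (-(1 / 1000) / 4) ≤ 4000 / 4001 := by
    have h1 := Real.add_one_le_exp ((1 : ℝ) / 4000)
    have e : Real.exp (-(1 / 1000) / 4) = (Real.exp (1 / 4000))⁻¹ := by
      rw [← Real.exp_neg]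
      congr 1
      norm_num
    rw [e]
    calc (Real.exp (1 / 4000))⁻¹ ≤ ((1 : ℝ) / 4000 + 1)⁻¹ := inv_anti₀ (by norm_num) h1
      _ = 4000 / 4001 := by norm_num
  have he0 : 0 < Real.exp (-(1 / 1000) / 4) := Real.exp_pos _
  simp only [Nat.cast_zero, zero_add, Real.one_rpow, mul_one]
  rw [Real.log_inv]
  have h3 : (1 : ℝ) / 4001 ≤ 1 - Real.exp (-(1 / 1000) / 4) := by linarith [hx, (by norm_num : (1:ℝ) - 4000/4001 = 1/4001)]
  have h4 := Real.log_le_log (by norm_num) h3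
  have h5 := nlog_pow (y := 4000 / 4001) (p := 9) (q := 1) (by norm_num) (by norm_num) (by norm_num)
  norm_num at h5
  have e : Real.log (1 / 4001 : ℝ) = -Real.log 4001 := by
    rw [one_div, Real.log_inv]
  rw [e] at h4
  linarith

lemma psi_tab (j : ℕ) {y L : ℝ} (hy0 : 0 < y) (hy1 : y < 1) (h8 : ((2 : ℝ) ^ j)⁻¹ ≤ y ^ 8)
    (hL : -Real.log (1 - y) ≤ L) : SS (2 ^ (j + 1) - 1) ≤ SS (2 ^ j - 1) + 2 ^ j * L := by
  refine block j fun a ha => ?_
  refine (psi_le (x := 2 ^ j) (by positivity) ha hy0 hy1 ?_).trans hL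
  push_cast
  exact h8

lemma SS_base : SS (2 ^ 16) ≤ 237568 / 10 := by
  have h0 : SS (2 ^ 1 - 1) ≤ 9 := by
    unfold SS
    norm_num
    exact psi_zero_le
  have h1 := psi_tab 1 (y := 9171 / 10000) (L := (3 : ℕ) / (1 : ℕ)) (by norm_num) (by norm_num)
    (by norm_num) (nlog_pow (by norm_num) (by norm_num) (by norm_num))
  have h2 := psi_tab 2 (y := 8409 / 10000) (L := (2 : ℕ) / (1 : ℕ)) (by norm_num) (by norm_num)
    (by norm_num) (nlog_pow (by norm_num) (by norm_num) (by norm_num))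
  have h3 := psi_tab 3 (y := 7712 / 10000) (L := (3 : ℕ) / (2 : ℕ)) (by norm_num) (by norm_num)
    (by norm_num) (nlog_pow (by norm_num) (by norm_num) (by norm_num))
  have h4 := psi_tab 4 (y := 7072 / 10000) (L := (5 : ℕ) / (4 : ℕ)) (by norm_num) (by norm_num)
    (by norm_num) (nlog_pow (by norm_num) (by norm_num) (by norm_num))
  have h5 := psi_tab 5 (y := 6485 / 10000) (L := (11 : ℕ) / (10 : ℕ)) (by norm_num) (by norm_num)
    (by norm_num) (nlog_pow (by norm_num) (by norm_num) (by norm_num))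
  have h6 := psi_tab 6 (y := 5947 / 10000) (L := (1 : ℕ) / (1 : ℕ)) (by norm_num) (by norm_num)
    (by norm_num) (nlog_pow (by norm_num) (by norm_num) (by norm_num))
  have h7 := psi_tab 7 (y := 5453 / 10000) (L := (4 : ℕ) / (5 : ℕ)) (by norm_num) (by norm_num)
    (by norm_num) (nlog_pow (by norm_num) (by norm_num) (by norm_num))
  have h8 := psi_tab 8 (y := 5001 / 10000) (L := (7 : ℕ) / (10 : ℕ)) (by norm_num) (by norm_num)
    (by norm_num) (nlog_pow (by norm_num) (by norm_num) (by norm_num))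
  have h9 := psi_tab 9 (y := 4586 / 10000) (L := 615 / 1000) (by norm_num) (by norm_num)
    (by norm_num) ((nlog_series (by norm_num) (by norm_num) 9).trans
      (by norm_num [Finset.sum_range_succ]))
  have h10 := psi_tab 10 (y := 4205 / 10000) (L := 547 / 1000) (by norm_num) (by norm_num)
    (by norm_num) ((nlog_series (by norm_num) (by norm_num) 8).trans
      (by norm_num [Finset.sum_range_succ]))
  have h11 := psi_tab 11 (y := 3856 / 10000) (L := 488 / 1000) (by norm_num) (by norm_num)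
    (by norm_num) ((nlog_series (by norm_num) (by norm_num) 7).trans
      (by norm_num [Finset.sum_range_succ]))
  have h12 := psi_tab 12 (y := 3536 / 10000) (L := 437 / 1000) (by norm_num) (by norm_num)
    (by norm_num) ((nlog_series (by norm_num) (by norm_num) 7).trans
      (by norm_num [Finset.sum_range_succ]))
  have h13 := psi_tab 13 (y := 3243 / 10000) (L := 393 / 1000) (by norm_num) (by norm_num)
    (by norm_num) ((nlog_series (by norm_num) (by norm_num) 6).trans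
      (by norm_num [Finset.sum_range_succ]))
  have h14 := psi_tab 14 (y := 2974 / 10000) (L := 354 / 1000) (by norm_num) (by norm_num)
    (by norm_num) ((nlog_series (by norm_num) (by norm_num) 5).trans
      (by norm_num [Finset.sum_range_succ]))
  have h15 := psi_tab 15 (y := 2727 / 10000) (L := 319 / 1000) (by norm_num) (by norm_num)
    (by norm_num) ((nlog_series (by norm_num) (by norm_num) 5).trans
      (by norm_num [Finset.sum_range_succ]))
  have h16 : psi (2 ^ 16 - 1) ≤ 289 / 1000 := by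
    refine (psi_le (x := 2 ^ 16) (y := 2501 / 10000) (by positivity) (by norm_num) (by norm_num)
      (by norm_num) (by norm_num)).trans ?_
    exact (nlog_series (by norm_num) (by norm_num) 5).trans (by norm_num [Finset.sum_range_succ])
  have hlast : SS (2 ^ 16) = SS (2 ^ 16 - 1) + psi (2 ^ 16 - 1) := by
    unfold SS
    rw [show (2 ^ 16 : ℕ) = (2 ^ 16 - 1) + 1 by norm_num, Finset.sum_range_succ]
    norm_num
  norm_num at h0 h1 h2 h3 h4 h5 h6 h7 h8 h9 h10 h11 h12 h13 h14 h15 h16 hlast ⊢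
  linarith

lemma rpow_step (T : ℕ) : (7 / 8 : ℝ) * ((T : ℝ) + 1) ^ (-(1 : ℝ) / 8) ≤
    ((T : ℝ) + 1) ^ ((7 : ℝ) / 8) - (T : ℝ) ^ ((7 : ℝ) / 8) := by
  set X : ℝ := (T : ℝ) + 1 with hX
  have hX0 : 0 < X := by positivity
  have hs : -1 ≤ -(1 / X) := by
    have : 1 / X ≤ 1 := by
      rw [div_le_one hX0, hX]
      have : (0 : ℝ) ≤ T := by positivity
      linarith
    linarith
  have h := rpow_one_add_le_one_add_mul_self hs (p := 7 / 8) (by norm_num) (by norm_num)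
  have e1 : (T : ℝ) = X * (1 + -(1 / X)) := by
    rw [hX]
    field_simp
    ring
  have h1X : 0 ≤ 1 + -(1 / X) := by linarith
  have e2 : (T : ℝ) ^ ((7 : ℝ) / 8) = X ^ ((7 : ℝ) / 8) * (1 + -(1 / X)) ^ ((7 : ℝ) / 8) := by
    conv_lhs => rw [e1]
    rw [Real.mul_rpow hX0.le h1X]
  have e3 : X ^ (-(1 : ℝ) / 8) = X ^ ((7 : ℝ) / 8) * (1 / X) := by
    have : (-(1 : ℝ) / 8) = (7 : ℝ) / 8 - 1 := by norm_num
    rw [this, Real.rpow_sub_one hX0.ne']
    ring
  rw [e2, e3]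
  have hp : 0 ≤ X ^ ((7 : ℝ) / 8) := by positivity
  have := mul_le_mul_of_nonneg_left h hp
  nlinarith

lemma psi_step {T : ℕ} (hT : 2 ^ 16 ≤ T) : psi T ≤ (29 / 20) * (7 / 8 : ℝ) * ((T : ℝ) + 1) ^ (-(1 : ℝ) / 8) := by
  set y : ℝ := ((T : ℝ) + 1) ^ (-(1 : ℝ) / 8) with hy
  have hX0 : (0 : ℝ) < (T : ℝ) + 1 := by positivity
  have hy0 : 0 < y := by positivity
  have hTR : (2 : ℝ) ^ 16 ≤ T := by exact_mod_cast hT
  have hy1 : y ≤ 1 / 4 := by
    apply rpow_eighth_le hX0 (by norm_num)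
    have : ((T : ℝ) + 1)⁻¹ ≤ ((2 : ℝ) ^ 16)⁻¹ := inv_anti₀ (by positivity) (by linarith)
    refine this.trans (by norm_num)
  have h1 : psi T ≤ -Real.log (1 - y) := by
    unfold psi
    have he := exp_factor_le
    have he0 : 0 < Real.exp (-(1 / 1000) / 4) := Real.exp_pos _
    have ht : Real.exp (-(1 / 1000) / 4) * y ≤ y := by nlinarith
    rw [← hy, Real.log_inv]
    apply neg_le_neg
    exact Real.log_le_log (by linarith) (by linarith)
  have h2 := nlog_series hy0.le (by linarith : y < 1) 2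
  simp only [Finset.sum_range_succ, Finset.sum_range_zero] at h2
  norm_num at h2
  have h3 : y ^ 3 / (1 - y) ≤ y ^ 3 * (4 / 3) := by
    rw [div_le_iff₀ (by linarith)]
    have : 0 ≤ y ^ 3 := by positivity
    nlinarith
  have h4 : y ^ 2 ≤ y * (1 / 4) := by nlinarith
  have h5 : y ^ 3 ≤ y * (1 / 16) := by
    have : y ^ 3 = y * y ^ 2 := by ring
    rw [this]
    have : y ^ 2 ≤ 1 / 16 := by nlinarith
    nlinarith
  nlinarith

lemma two16 : ((2 : ℝ) ^ 16) ^ ((7 : ℝ) / 8) = 2 ^ 14 := by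
  rw [← Real.rpow_natCast 2 16, ← Real.rpow_mul (by norm_num)]
  norm_num

theorem SS_le (T : ℕ) (hT : 2 ^ 16 ≤ T) : SS T ≤ (29 / 20) * (T : ℝ) ^ ((7 : ℝ) / 8) := by
  induction T, hT using Nat.le_induction with
  | base =>
    refine SS_base.trans ?_
    have e : (((2 ^ 16 : ℕ) : ℝ)) ^ ((7 : ℝ) / 8) = 2 ^ 14 := by
      rw [show (((2 ^ 16 : ℕ) : ℝ)) = (2 : ℝ) ^ 16 by norm_num]
      exact two16
    rw [e]
    norm_num
  | succ T hT ih =>
    have e : SS (T + 1) = SS T + psi T := by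
      unfold SS
      rw [Finset.sum_range_succ]
    rw [e]
    have h1 := psi_step hT
    have h2 := rpow_step T
    push_cast
    nlinarith

theorem log_Xi_le (T : ℕ) (hT : 2 ^ 16 ≤ T) :
    Real.log (Xi T (1 / 1000) (1 / 1000)) ≤ (5801 / 1000) * (T : ℝ) ^ ((15 : ℝ) / 8) := by
  unfold Xi
  have hT0 : (0 : ℝ) < T := by
    have : 0 < T := lt_of_lt_of_le (by norm_num) hT
    exact_mod_cast this
  -- first factor
  have hA : (27182818283 / 10000000000 : ℝ) ≤ Real.exp 1 := by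
    have := Real.exp_one_gt_d9
    norm_num at this ⊢
    linarith
  have he1 : Real.exp (-(1 / 1000)) ≤ 1000 / 1001 := by
    have h1 := Real.add_one_le_exp ((1 : ℝ) / 1000)
    have e : Real.exp (-(1 / 1000)) = (Real.exp (1 / 1000))⁻¹ := Real.exp_neg _
    rw [e]
    calc (Real.exp (1 / 1000))⁻¹ ≤ ((1 : ℝ) / 1000 + 1)⁻¹ := inv_anti₀ (by norm_num) h1
      _ = 1000 / 1001 := by norm_num
  have hA0 : 0 < 1 - Real.exp (-(1 / 1000)) := by linarith
  have hA1 : Real.log ((1 - Real.exp (-(1 / 1000)))⁻¹) ≤ 7 := by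
    rw [Real.log_inv]
    have h3 : (1 : ℝ) / 1001 ≤ 1 - Real.exp (-(1 / 1000)) := by
      have : (1 : ℝ) - 1000 / 1001 = 1 / 1001 := by norm_num
      linarith
    have h4 := Real.log_le_log (by norm_num) h3
    have h5 := nlog_pow (y := 1000 / 1001) (p := 7) (q := 1) (by norm_num) (by norm_num) (by norm_num)
    norm_num at h5
    have e : Real.log (1 / 1001 : ℝ) = -Real.log 1001 := by
      rw [one_div, Real.log_inv]
    rw [e] at h4
    linarith
  -- the product factors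
  have hB : ∀ a : Fin T, 0 < 1 - Real.exp (-(1 / 1000) / 4) * ((a : ℝ) + 1) ^ (-(1 : ℝ) / 8) := by
    intro a
    have h1 := za_eq (δ := 1 / 1000) (a : ℕ)
    have h0 := w_pos (δ := 1 / 1000) (by norm_num) (a : ℕ)
    have e : ((a : ℕ) : ℝ) = (a : ℝ) := rfl
    rw [e] at h1 h0
    rw [h1]
    have : Real.exp (-(1 / 1000 / 4 + Real.log ((a : ℝ) + 1) / 8)) < 1 := by
      rw [Real.exp_lt_one_iff]
      linarith
    linarith
  have hlog : Real.log (((1 - Real.exp (-(1 / 1000)))⁻¹) ^ (2 * T) *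
      ∏ a : Fin T, ((1 - Real.exp (-(1 / 1000) / 4) * ((a : ℝ) + 1) ^ (-(1 : ℝ) / 8))⁻¹) ^ (4 * T)) =
      (2 * T : ℝ) * Real.log ((1 - Real.exp (-(1 / 1000)))⁻¹) + 4 * T * SS T := by
    rw [Real.log_mul (pow_pos (inv_pos.2 hA0) _).ne'
      (Finset.prod_pos fun a _ => pow_pos (inv_pos.2 (hB a)) _).ne', Real.log_pow,
      Real.log_prod (fun a _ => (pow_pos (inv_pos.2 (hB a)) _).ne')]
    congr 1
    · push_cast
      ring
    · unfold SS
      rw [← Fin.sum_univ_eq_sum_range psi, Finset.mul_sum]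
      refine Finset.sum_congr rfl fun a _ => ?_
      rw [Real.log_pow]
      unfold psi
      push_cast
      ring
  rw [hlog]
  have hS := SS_le T hT
  have hTR : ((2 : ℝ) ^ 16) ≤ T := by exact_mod_cast hT
  have hP : (2 : ℝ) ^ 14 ≤ (T : ℝ) ^ ((7 : ℝ) / 8) := by
    rw [← two16]
    exact Real.rpow_le_rpow (by positivity) hTR (by norm_num)
  have e15 : (T : ℝ) ^ ((15 : ℝ) / 8) = T * (T : ℝ) ^ ((7 : ℝ) / 8) := by
    rw [show ((15 : ℝ) / 8) = 1 + 7 / 8 by norm_num, Real.rpow_add hT0, Real.rpow_one]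
  rw [e15]
  set P : ℝ := (T : ℝ) ^ ((7 : ℝ) / 8) with hPdef
  have h1 : (2 * T : ℝ) * Real.log ((1 - Real.exp (-(1 / 1000)))⁻¹) ≤ (2 * T : ℝ) * 7 :=
    mul_le_mul_of_nonneg_left hA1 (by positivity)
  have h2 : (4 * T : ℝ) * SS T ≤ (4 * T : ℝ) * ((29 / 20) * P) :=
    mul_le_mul_of_nonneg_left hS (by positivity)
  have h3 : (T : ℝ) * 2 ^ 14 ≤ T * P := mul_le_mul_of_nonneg_left hP hT0.le
  nlinarith

end Crest.Agent.S0222Lib.JCov
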