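import Crest.Agent.S0222Lib.JBnum3
import Crest.Agent.S0222Lib.JCovLeaf

/-!
# S0222: numerical bound of `Xi3`

`log_Xi3_le_one`, `log_Xi3_le_16`, `log_Xi3_le_256`, `log_Xi3_le_65536`: for `δ = δ' = 1/1000`,
`log Xi3 T ≤ Λ T^{11/6}` with `Λ = 38` for `T ≥ 1`, `9.18` for `T ≥ 16`, `5.04` for `T ≥ 256`,
`3.69` for `T ≥ 65536`.
-/

set_option autoImplicit false
set_option linter.unusedSectionVars false
set_option linter.unusedSimpArgs false
set_option linter.unusedVariables false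

namespace Crest.Agent.S0222Lib.JCov

open Finset
open Crest.Agent.S0222Lib.JBnum3

/-- the summand -/
noncomputable def psi3 (a : ℕ) : ℝ :=
  Real.log ((1 - Real.exp (-(1 / 1000) / 3) * ((a : ℝ) + 1) ^ (-(1 : ℝ) / 6))⁻¹)

/-- the partial sums -/
noncomputable def SS3 (T : ℕ) : ℝ := ∑ a ∈ range T, psi3 a

/-- the weighted partial sums -/
noncomputable def RR3 (T : ℕ) : ℝ := ∑ a ∈ range T, (3 * (T : ℝ) - a) * psi3 a

lemma SS3_succ (T : ℕ) : SS3 (T + 1) = SS3 T + psi3 T := by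
  unfold SS3
  rw [Finset.sum_range_succ]

lemma RR3_succ (T : ℕ) : RR3 (T + 1) = RR3 T + 3 * SS3 T + (2 * (T : ℝ) + 3) * psi3 T := by
  unfold RR3 SS3
  rw [Finset.sum_range_succ, Finset.mul_sum, ← Finset.sum_add_distrib]
  congr 1
  · refine Finset.sum_congr rfl fun a _ => ?_
    push_cast
    ring
  · push_cast
    ring

lemma rpow_sixth_le {x y : ℝ} (hx : 0 < x) (hy : 0 < y) (h : x⁻¹ ≤ y ^ 6) :
    x ^ (-(1 : ℝ) / 6) ≤ y := by
  have e : x ^ (-(1 : ℝ) / 6) = (x⁻¹) ^ ((1 : ℝ) / 6) := by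
    rw [Real.inv_rpow hx.le, ← Real.rpow_neg hx.le]
    congr 1
    ring
  rw [e]
  calc (x⁻¹) ^ ((1 : ℝ) / 6) ≤ (y ^ 6) ^ ((1 : ℝ) / 6) :=
        Real.rpow_le_rpow (by positivity) h (by norm_num)
    _ = y := by
      rw [← Real.rpow_natCast, ← Real.rpow_mul hy.le]
      norm_num

lemma exp_factor3_le : Real.exp (-(1 / 1000) / 3) ≤ 1 := by
  rw [Real.exp_le_one_iff]
  norm_num

lemma psi3_le {a x : ℕ} {y : ℝ} (hx : 0 < x) (ha : x ≤ a + 1) (hy0 : 0 < y) (hy1 : y < 1)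
    (h : (x : ℝ)⁻¹ ≤ y ^ 6) : psi3 a ≤ -Real.log (1 - y) := by
  unfold psi3
  have hxR : (0 : ℝ) < x := by exact_mod_cast hx
  have haR : (x : ℝ) ≤ (a : ℝ) + 1 := by exact_mod_cast ha
  have ht1 : ((a : ℝ) + 1) ^ (-(1 : ℝ) / 6) ≤ y :=
    rpow_sixth_le (by positivity) hy0 (le_trans (inv_anti₀ hxR haR) h)
  set u : ℝ := ((a : ℝ) + 1) ^ (-(1 : ℝ) / 6) with hu
  have hu0 : 0 < u := by positivity
  have he := exp_factor3_le
  have he0 : 0 < Real.exp (-(1 / 1000) / 3) := Real.exp_pos _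
  have ht : Real.exp (-(1 / 1000) / 3) * u ≤ y := by nlinarith
  rw [Real.log_inv]
  apply neg_le_neg
  exact Real.log_le_log (by linarith) (by linarith)

lemma sum_id_real (T : ℕ) : ∑ x ∈ range T, (x : ℝ) = (T : ℝ) * (T - 1) / 2 := by
  induction T with
  | zero => simp
  | succ n ih =>
    rw [Finset.sum_range_succ, ih]
    push_cast
    ring

/-- one dyadic step -/
lemma dy_step (T T' : ℕ) (hT' : T' = 2 * T) {L : ℝ} (h : ∀ a, T ≤ a → psi3 a ≤ L) :
    SS3 T' ≤ SS3 T + T * L ∧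
      RR3 T' ≤ RR3 T + 3 * T * SS3 T + L * (9 / 2 * (T : ℝ) ^ 2 + T / 2) := by
  subst hT'
  have e : 2 * T = T + T := by ring
  constructor
  · unfold SS3
    rw [e, Finset.sum_range_add]
    have h1 : ∑ x ∈ range T, psi3 (T + x) ≤ ∑ _x ∈ range T, L :=
      Finset.sum_le_sum fun x _ => h _ (by omega)
    rw [Finset.sum_const, Finset.card_range, nsmul_eq_mul] at h1
    linarith
  · unfold RR3 SS3
    rw [e, Finset.sum_range_add]
    have h1 : ∑ x ∈ range T, (3 * ((T + T : ℕ) : ℝ) - ((T + x : ℕ) : ℝ)) * psi3 (T + x) ≤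
        ∑ x ∈ range T, (5 * (T : ℝ) - x) * L := by
      refine Finset.sum_le_sum fun x hx => ?_
      have hx' : (x : ℝ) ≤ T := by exact_mod_cast (mem_range.1 hx).le
      have e2 : (3 * ((T + T : ℕ) : ℝ) - ((T + x : ℕ) : ℝ)) = 5 * (T : ℝ) - x := by
        push_cast
        ring
      rw [e2]
      have h0 : (0 : ℝ) ≤ T := by positivity
      exact mul_le_mul_of_nonneg_left (h _ (by omega)) (by linarith)
    have h2 : ∑ x ∈ range T, (5 * (T : ℝ) - x) * L = L * (9 / 2 * (T : ℝ) ^ 2 + T / 2) := by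
      rw [← Finset.sum_mul, Finset.sum_sub_distrib, sum_id_real, Finset.sum_const, Finset.card_range,
        nsmul_eq_mul]
      ring
    have h3 : ∑ a ∈ range T, (3 * ((T + T : ℕ) : ℝ) - a) * psi3 a =
        ∑ a ∈ range T, (3 * (T : ℝ) - a) * psi3 a + 3 * T * ∑ a ∈ range T, psi3 a := by
      rw [Finset.mul_sum, ← Finset.sum_add_distrib]
      refine Finset.sum_congr rfl fun a _ => ?_
      push_cast
      ring
    rw [h3]
    linarith

lemma nlog_le_mul {y₀ : ℝ} (h0 : 0 < y₀) (h1 : y₀ < 1) {y : ℝ} (hy : 0 ≤ y) (hyy : y ≤ y₀) :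
    -Real.log (1 - y) ≤ (1 + y₀ / 2 + y₀ ^ 2 / 3 + y₀ ^ 3 / (1 - y₀)) * y := by
  have hy1 : y < 1 := by linarith
  have h2 := nlog_series hy hy1 3
  simp only [Finset.sum_range_succ, Finset.sum_range_zero] at h2
  norm_num at h2
  have h3 : y ^ 2 ≤ y₀ * y := by nlinarith
  have h4 : y ^ 3 ≤ y₀ ^ 2 * y := by
    have : y ^ 2 ≤ y₀ ^ 2 := pow_le_pow_left₀ hy hyy 2
    have e : y ^ 3 = y ^ 2 * y := by ring
    rw [e]
    exact mul_le_mul_of_nonneg_right this hy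
  have h5 : y ^ 4 / (1 - y) ≤ y₀ ^ 3 / (1 - y₀) * y := by
    have hd : 0 < 1 - y := by linarith
    have hd0 : 0 < 1 - y₀ := by linarith
    rw [div_le_iff₀ hd]
    have e : y₀ ^ 3 / (1 - y₀) * y * (1 - y) = (y₀ ^ 3 * y) * ((1 - y) / (1 - y₀)) := by
      field_simp
    rw [e]
    have hr : 1 ≤ (1 - y) / (1 - y₀) := by
      rw [one_le_div hd0]
      linarith
    have h6 : y ^ 3 ≤ y₀ ^ 3 := pow_le_pow_left₀ hy hyy 3
    have h7 : y ^ 4 ≤ y₀ ^ 3 * y := by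
      have e : y ^ 4 = y ^ 3 * y := by ring
      rw [e]
      exact mul_le_mul_of_nonneg_right h6 hy
    calc y ^ 4 ≤ y₀ ^ 3 * y := h7
      _ ≤ (y₀ ^ 3 * y) * ((1 - y) / (1 - y₀)) := le_mul_of_one_le_right (by positivity) hr
  have e : (1 + y₀ / 2 + y₀ ^ 2 / 3 + y₀ ^ 3 / (1 - y₀)) * y =
      y + y₀ * y / 2 + y₀ ^ 2 * y / 3 + y₀ ^ 3 / (1 - y₀) * y := by ring
  rw [e]
  norm_num at h5
  linarith

lemma inc56 (T : ℕ) : (5 / 6 : ℝ) * ((T : ℝ) + 1) ^ (-(1 : ℝ) / 6) ≤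
    ((T : ℝ) + 1) ^ ((5 : ℝ) / 6) - (T : ℝ) ^ ((5 : ℝ) / 6) := by
  set X : ℝ := (T : ℝ) + 1 with hX
  have hX0 : 0 < X := by positivity
  have hs : -1 ≤ -(1 / X) := by
    have : 1 / X ≤ 1 := by
      rw [div_le_one hX0, hX]
      have : (0 : ℝ) ≤ T := by positivity
      linarith
    linarith
  have h := rpow_one_add_le_one_add_mul_self hs (p := 5 / 6) (by norm_num) (by norm_num)
  have e1 : (T : ℝ) = X * (1 + -(1 / X)) := by
    rw [hX]
    field_simp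
    try ring
  have h1X : 0 ≤ 1 + -(1 / X) := by linarith
  have e2 : (T : ℝ) ^ ((5 : ℝ) / 6) = X ^ ((5 : ℝ) / 6) * (1 + -(1 / X)) ^ ((5 : ℝ) / 6) := by
    conv_lhs => rw [e1]
    rw [Real.mul_rpow hX0.le h1X]
  have e3 : X ^ (-(1 : ℝ) / 6) = X ^ ((5 : ℝ) / 6) * (1 / X) := by
    have : (-(1 : ℝ) / 6) = (5 : ℝ) / 6 - 1 := by norm_num
    rw [this, Real.rpow_sub_one hX0.ne']
    ring
  rw [e2, e3]
  have hp : 0 ≤ X ^ ((5 : ℝ) / 6) := by positivity
  have := mul_le_mul_of_nonneg_left h hp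
  nlinarith

lemma rp116 {T : ℝ} (hT : 0 < T) : T ^ ((11 : ℝ) / 6) = T * T ^ ((5 : ℝ) / 6) := by
  rw [show ((11 : ℝ) / 6) = 1 + 5 / 6 by norm_num, Real.rpow_add hT, Real.rpow_one]

lemma inc116 {T : ℕ} (hT : 1 ≤ T) : (11 / 6 : ℝ) * (T : ℝ) ^ ((5 : ℝ) / 6) ≤
    ((T : ℝ) + 1) ^ ((11 : ℝ) / 6) - (T : ℝ) ^ ((11 : ℝ) / 6) := by
  have hT0 : (0 : ℝ) < T := by exact_mod_cast hT
  have hs : -1 ≤ 1 / (T : ℝ) := by
    have : 0 < 1 / (T : ℝ) := by positivity
    linarith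
  have h := one_add_mul_self_le_rpow_one_add hs (p := 11 / 6) (by norm_num)
  have e1 : (T : ℝ) + 1 = T * (1 + 1 / T) := by
    field_simp
  have e2 : ((T : ℝ) + 1) ^ ((11 : ℝ) / 6) = (T : ℝ) ^ ((11 : ℝ) / 6) * (1 + 1 / (T : ℝ)) ^ ((11 : ℝ) / 6) := by
    rw [← Real.mul_rpow hT0.le (by positivity), ← e1]
  rw [e2, rp116 hT0]
  have hP : 0 < (T : ℝ) * (T : ℝ) ^ ((5 : ℝ) / 6) := by positivity
  have h3 := mul_le_mul_of_nonneg_left h hP.le
  have e3 : (T : ℝ) * (T : ℝ) ^ ((5 : ℝ) / 6) * (1 + 11 / 6 * (1 / T)) =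
      (T : ℝ) * (T : ℝ) ^ ((5 : ℝ) / 6) + 11 / 6 * (T : ℝ) ^ ((5 : ℝ) / 6) := by
    field_simp
  rw [e3] at h3
  linarith

/-- **The induction.** -/
theorem SR_bound {T₀ : ℕ} (hT₀ : 1 ≤ T₀) {K₁ K₂ y₀ : ℝ} (hy0 : 0 < y₀) (hy1 : y₀ < 1)
    (hy : (((T₀ : ℝ) + 1))⁻¹ ≤ y₀ ^ 6)
    (hK₁ : 1 + y₀ / 2 + y₀ ^ 2 / 3 + y₀ ^ 3 / (1 - y₀) ≤ (5 / 6) * K₁)
    (hK₂ : 3 * K₁ + (1 + y₀ / 2 + y₀ ^ 2 / 3 + y₀ ^ 3 / (1 - y₀)) * (2 + 3 / (T₀ : ℝ)) ≤ (11 / 6) * K₂)
    (hS0 : SS3 T₀ ≤ K₁ * (T₀ : ℝ) ^ ((5 : ℝ) / 6)) (hR0 : RR3 T₀ ≤ K₂ * (T₀ : ℝ) ^ ((11 : ℝ) / 6))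
    (T : ℕ) (hT : T₀ ≤ T) :
    SS3 T ≤ K₁ * (T : ℝ) ^ ((5 : ℝ) / 6) ∧ RR3 T ≤ K₂ * (T : ℝ) ^ ((11 : ℝ) / 6) := by
  set c : ℝ := 1 + y₀ / 2 + y₀ ^ 2 / 3 + y₀ ^ 3 / (1 - y₀) with hc
  have hd : 0 < 1 - y₀ := by linarith
  have hc0 : 0 < c := by positivity
  have hK₁0 : 0 < K₁ := by linarith
  have hK₂0 : 0 < K₂ := by
    have h3 : (0 : ℝ) ≤ 2 + 3 / (T₀ : ℝ) := by positivity
    have := mul_nonneg hc0.le h3
    nlinarith
  induction T, hT using Nat.le_induction with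
  | base => exact ⟨hS0, hR0⟩
  | succ T hT ih =>
    obtain ⟨ihS, ihR⟩ := ih
    have hT1 : 1 ≤ T := hT₀.trans hT
    have hTR : (0 : ℝ) < T := by exact_mod_cast hT1
    have hTT : (T₀ : ℝ) ≤ T := by exact_mod_cast hT
    set y : ℝ := ((T : ℝ) + 1) ^ (-(1 : ℝ) / 6) with hydef
    have hX0 : (0 : ℝ) < (T : ℝ) + 1 := by positivity
    have hy0' : 0 < y := by positivity
    have hyy : y ≤ y₀ := by
      apply rpow_sixth_le hX0 hy0
      refine le_trans (inv_anti₀ (by positivity) (by linarith)) hy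
    have hpsi : psi3 T ≤ c * y := by
      refine le_trans ?_ (nlog_le_mul hy0 hy1 hy0'.le hyy)
      unfold psi3
      have he := exp_factor3_le
      have he0 : 0 < Real.exp (-(1 / 1000) / 3) := Real.exp_pos _
      have ht : Real.exp (-(1 / 1000) / 3) * y ≤ y := by nlinarith
      rw [← hydef, Real.log_inv]
      apply neg_le_neg
      exact Real.log_le_log (by linarith) (by linarith)
    have hinc := inc56 T
    have hinc2 := inc116 hT1
    set P : ℝ := (T : ℝ) ^ ((5 : ℝ) / 6) with hP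
    have hP0 : 0 < P := by positivity
    push_cast
    constructor
    · rw [SS3_succ]
      have h1 : c * y ≤ (5 / 6) * K₁ * y := mul_le_mul_of_nonneg_right hK₁ hy0'.le
      have h2 : (5 / 6) * K₁ * y ≤ K₁ * (((T : ℝ) + 1) ^ ((5 : ℝ) / 6) - P) := by
        have := mul_le_mul_of_nonneg_left hinc hK₁0.le
        calc (5 / 6) * K₁ * y = K₁ * ((5 / 6 : ℝ) * y) := by ring
          _ ≤ _ := this
      have h3 : K₁ * (((T : ℝ) + 1) ^ ((5 : ℝ) / 6) - P) =
          K₁ * ((T : ℝ) + 1) ^ ((5 : ℝ) / 6) - K₁ * P := by ring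
      linarith
    · rw [RR3_succ]
      have h1 : (2 * (T : ℝ) + 3) * y ≤ (2 + 3 / (T₀ : ℝ)) * P := by
        -- `y ≤ T^{-1/6}`
        have hy2 : y ≤ (T : ℝ) ^ (-(1 : ℝ) / 6) :=
          Real.rpow_le_rpow_of_nonpos hTR (by linarith) (by norm_num)
        have e5 : (T : ℝ) ^ (-(1 : ℝ) / 6) = P / T := by
          have : (-(1 : ℝ) / 6) = (5 : ℝ) / 6 - 1 := by norm_num
          rw [this, Real.rpow_sub_one hTR.ne']
        rw [e5] at hy2
        have h6 : (2 * (T : ℝ) + 3) * y ≤ (2 * (T : ℝ) + 3) * (P / T) :=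
          mul_le_mul_of_nonneg_left hy2 (by positivity)
        refine h6.trans ?_
        have e6 : (2 * (T : ℝ) + 3) * (P / T) = (2 + 3 / (T : ℝ)) * P := by
          field_simp
        rw [e6]
        apply mul_le_mul_of_nonneg_right _ hP0.le
        have hT₀R : (0 : ℝ) < T₀ := by exact_mod_cast hT₀
        have : 3 / (T : ℝ) ≤ 3 / (T₀ : ℝ) := div_le_div_of_nonneg_left (by norm_num) hT₀R hTT
        linarith
      have h2 : (2 * (T : ℝ) + 3) * psi3 T ≤ c * ((2 + 3 / (T₀ : ℝ)) * P) := by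
        calc (2 * (T : ℝ) + 3) * psi3 T ≤ (2 * (T : ℝ) + 3) * (c * y) :=
              mul_le_mul_of_nonneg_left hpsi (by positivity)
          _ = c * ((2 * (T : ℝ) + 3) * y) := by ring
          _ ≤ _ := mul_le_mul_of_nonneg_left h1 hc0.le
      have h3 : (3 * K₁ + c * (2 + 3 / (T₀ : ℝ))) * P ≤ ((11 / 6) * K₂) * P :=
        mul_le_mul_of_nonneg_right hK₂ hP0.le
      have h4 := mul_le_mul_of_nonneg_left hinc2 hK₂0.le
      have h5 : K₂ * ((11 / 6 : ℝ) * P) = ((11 / 6) * K₂) * P := by ring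
      have h6 : K₂ * (((T : ℝ) + 1) ^ ((11 : ℝ) / 6) - (T : ℝ) ^ ((11 : ℝ) / 6)) =
          K₂ * ((T : ℝ) + 1) ^ ((11 : ℝ) / 6) - K₂ * (T : ℝ) ^ ((11 : ℝ) / 6) := by ring
      have h7 : 3 * SS3 T ≤ 3 * (K₁ * P) := by linarith
      have h8 : c * ((2 + 3 / (T₀ : ℝ)) * P) = c * (2 + 3 / (T₀ : ℝ)) * P := by ring
      have h9 : (3 * K₁ + c * (2 + 3 / (T₀ : ℝ))) * P = 3 * (K₁ * P) + c * (2 + 3 / (T₀ : ℝ)) * P := by ring
      linarith

/-- `log Xi3` -/
theorem log_Xi3_eq (T : ℕ) :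
    Real.log (Xi3 T (1 / 1000) (1 / 1000)) =
      2 * T * Real.log ((1 - Real.exp (-(1 / 1000)))⁻¹) + RR3 T := by
  unfold Xi3
  have he1 : Real.exp (-(1 / 1000)) < 1 := by
    rw [Real.exp_lt_one_iff]
    norm_num
  have hA0 : 0 < 1 - Real.exp (-(1 / 1000)) := by linarith
  have hB : ∀ a : Fin T, 0 < 1 - Real.exp (-(1 / 1000) / 3) * ((a : ℝ) + 1) ^ (-(1 : ℝ) / 6) := by
    intro a
    have h1 := za3_eq (δ := 1 / 1000) (a : ℕ)
    have h0 := w3_pos (δ := 1 / 1000) (by norm_num) (a : ℕ)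
    have e : ((a : ℕ) : ℝ) = (a : ℝ) := rfl
    rw [e] at h1 h0
    rw [h1]
    have : Real.exp (-(1 / 1000 / 3 + Real.log ((a : ℝ) + 1) / 6)) < 1 := by
      rw [Real.exp_lt_one_iff]
      linarith
    linarith
  rw [Real.log_mul (pow_pos (inv_pos.2 hA0) _).ne'
      (Finset.prod_pos fun a _ => pow_pos (inv_pos.2 (hB a)) _).ne', Real.log_pow,
      Real.log_prod (fun a _ => (pow_pos (inv_pos.2 (hB a)) _).ne')]
  congr 1
  · push_cast
    ring
  · unfold RR3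
    rw [← Fin.sum_univ_eq_sum_range (fun a => (3 * (T : ℝ) - a) * psi3 a)]
    refine Finset.sum_congr rfl fun a _ => ?_
    rw [Real.log_pow]
    unfold psi3
    have ha := a.2
    rw [Nat.cast_sub (by omega)]
    push_cast
    ring

lemma log_A_le : Real.log ((1 - Real.exp (-(1 / 1000 : ℝ)))⁻¹) ≤ 173 / 25 := by
  have he1 : Real.exp (-(1 / 1000 : ℝ)) ≤ 1000 / 1001 := by
    have h1 := Real.add_one_le_exp ((1 : ℝ) / 1000)
    have e : Real.exp (-(1 / 1000 : ℝ)) = (Real.exp (1 / 1000))⁻¹ := Real.exp_neg _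
    rw [e]
    calc (Real.exp (1 / 1000))⁻¹ ≤ ((1 : ℝ) / 1000 + 1)⁻¹ := inv_anti₀ (by norm_num) h1
      _ = 1000 / 1001 := by norm_num
  rw [Real.log_inv]
  have h3 : (1 : ℝ) / 1001 ≤ 1 - Real.exp (-(1 / 1000 : ℝ)) := by
    have : (1 : ℝ) - 1000 / 1001 = 1 / 1001 := by norm_num
    linarith
  have h4 := Real.log_le_log (by norm_num) h3
  have h5 := nlog_pow (y := 1000 / 1001) (p := 173) (q := 25) (by norm_num) (by norm_num) (by norm_num)
  norm_num at h5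
  have e : Real.log (1 / 1001 : ℝ) = -Real.log 1001 := by
    rw [one_div, Real.log_inv]
  rw [e] at h4
  have e2 : ((173 : ℕ) : ℝ) / ((25 : ℕ) : ℝ) = 173 / 25 := by norm_num
  linarith

lemma psi3_zero_le : psi3 0 ≤ 201 / 25 := by
  unfold psi3
  have hx : Real.exp (-(1 / 1000) / 3) ≤ 3000 / 3001 := by
    have h1 := Real.add_one_le_exp ((1 : ℝ) / 3000)
    have e : Real.exp (-(1 / 1000) / 3) = (Real.exp (1 / 3000))⁻¹ := by
      rw [← Real.exp_neg]
      congr 1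
      norm_num
    rw [e]
    calc (Real.exp (1 / 3000))⁻¹ ≤ ((1 : ℝ) / 3000 + 1)⁻¹ := inv_anti₀ (by norm_num) h1
      _ = 3000 / 3001 := by norm_num
  simp only [Nat.cast_zero, zero_add, Real.one_rpow, mul_one]
  rw [Real.log_inv]
  have h3 : (1 : ℝ) / 3001 ≤ 1 - Real.exp (-(1 / 1000) / 3) := by
    have : (1 : ℝ) - 3000 / 3001 = 1 / 3001 := by norm_num
    linarith
  have h4 := Real.log_le_log (by norm_num) h3
  have h5 := nlog_pow (y := 3000 / 3001) (p := 201) (q := 25) (by norm_num) (by norm_num) (by norm_num)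
  norm_num at h5
  have e : Real.log (1 / 3001 : ℝ) = -Real.log 3001 := by
    rw [one_div, Real.log_inv]
  rw [e] at h4
  linarith

set_option maxHeartbeats 4000000 in
/-- the dyadic table -/
theorem base_chain :
    (SS3 2 ≤ (1029 / 100 : ℝ) ∧ RR3 2 ≤ (5949 / 100 : ℝ)) ∧
    (SS3 16 ≤ (2929 / 100 : ℝ) ∧ RR3 16 ≤ (125237 / 100 : ℝ)) ∧
    (SS3 256 ≤ (96181 / 500 : ℝ) ∧ RR3 256 ≤ (12721477 / 100 : ℝ)) ∧
    (SS3 65536 ≤ (7444789 / 500 : ℝ) ∧ RR3 65536 ≤ (1244164277273 / 500 : ℝ)) := by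
  have h0 := psi3_zero_le
  have hS0 : SS3 1 ≤ (201 / 25 : ℝ) := by
    unfold SS3
    simpa using h0
  have hR0 : RR3 1 ≤ (603 / 25 : ℝ) := by
    unfold RR3
    simp only [Finset.sum_range_one]
    norm_num
    norm_num at h0
    linarith
  have h0 := dy_step 1 2 (by norm_num) (L := ((45 : ℕ) / (20 : ℕ) : ℝ)) (fun a ha =>
    (psi3_le (a := a) (x := 2) (y := (8909 / 10000 : ℝ)) (by norm_num) (by omega) (by norm_num) (by norm_num)
      (by norm_num)).trans (nlog_pow (p := 45) (q := 20) (by norm_num) (by norm_num) (by norm_num)))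
  have hS1 : SS3 2 ≤ (1029 / 100 : ℝ) := by
    have := h0.1
    norm_num at this hS0 ⊢
    linarith
  have hR1 : RR3 2 ≤ (5949 / 100 : ℝ) := by
    have := h0.2
    norm_num at this hS0 hR0 ⊢
    linarith
  have h1 := dy_step 2 4 (by norm_num) (L := ((36 : ℕ) / (20 : ℕ) : ℝ)) (fun a ha =>
    (psi3_le (a := a) (x := 3) (y := (8327 / 10000 : ℝ)) (by norm_num) (by omega) (by norm_num) (by norm_num)
      (by norm_num)).trans (nlog_pow (p := 36) (q := 20) (by norm_num) (by norm_num) (by norm_num)))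
  have hS2 : SS3 4 ≤ (1389 / 100 : ℝ) := by
    have := h1.1
    norm_num at this hS1 ⊢
    linarith
  have hR2 : RR3 4 ≤ (15543 / 100 : ℝ) := by
    have := h1.2
    norm_num at this hS1 hR1 ⊢
    linarith
  have h2 := dy_step 4 8 (by norm_num) (L := ((29 : ℕ) / (20 : ℕ) : ℝ)) (fun a ha =>
    (psi3_le (a := a) (x := 5) (y := (478 / 625 : ℝ)) (by norm_num) (by omega) (by norm_num) (by norm_num)
      (by norm_num)).trans (nlog_pow (p := 29) (q := 20) (by norm_num) (by norm_num) (by norm_num)))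
  have hS3 : SS3 8 ≤ (1969 / 100 : ℝ) := by
    have := h2.1
    norm_num at this hS2 ⊢
    linarith
  have hR3 : RR3 8 ≤ (42941 / 100 : ℝ) := by
    have := h2.2
    norm_num at this hS2 hR2 ⊢
    linarith
  have h3 := dy_step 8 16 (by norm_num) (L := ((24 : ℕ) / (20 : ℕ) : ℝ)) (fun a ha =>
    (psi3_le (a := a) (x := 9) (y := (3467 / 5000 : ℝ)) (by norm_num) (by omega) (by norm_num) (by norm_num)
      (by norm_num)).trans (nlog_pow (p := 24) (q := 20) (by norm_num) (by norm_num) (by norm_num)))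
  have hS4 : SS3 16 ≤ (2929 / 100 : ℝ) := by
    have := h3.1
    norm_num at this hS3 ⊢
    linarith
  have hR4 : RR3 16 ≤ (125237 / 100 : ℝ) := by
    have := h3.2
    norm_num at this hS3 hR3 ⊢
    linarith
  have h4 := dy_step 16 32 (by norm_num) (L := ((20 : ℕ) / (20 : ℕ) : ℝ)) (fun a ha =>
    (psi3_le (a := a) (x := 17) (y := (6237 / 10000 : ℝ)) (by norm_num) (by omega) (by norm_num) (by norm_num)
      (by norm_num)).trans (nlog_pow (p := 20) (q := 20) (by norm_num) (by norm_num) (by norm_num)))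
  have hS5 : SS3 32 ≤ (4529 / 100 : ℝ) := by
    have := h4.1
    norm_num at this hS4 ⊢
    linarith
  have hR5 : RR3 32 ≤ (381829 / 100 : ℝ) := by
    have := h4.2
    norm_num at this hS4 hR4 ⊢
    linarith
  have h5 := dy_step 32 64 (by norm_num) (L := ((17 : ℕ) / (20 : ℕ) : ℝ)) (fun a ha =>
    (psi3_le (a := a) (x := 33) (y := (349 / 625 : ℝ)) (by norm_num) (by omega) (by norm_num) (by norm_num)
      (by norm_num)).trans (nlog_pow (p := 17) (q := 20) (by norm_num) (by norm_num) (by norm_num)))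
  have hS6 : SS3 64 ≤ (7249 / 100 : ℝ) := by
    have := h5.1
    norm_num at this hS5 ⊢
    linarith
  have hR6 : RR3 64 ≤ (1209653 / 100 : ℝ) := by
    have := h5.2
    norm_num at this hS5 hR5 ⊢
    linarith
  have h6 := dy_step 64 128 (by norm_num) (L := (693 / 1000 : ℝ)) (fun a ha =>
    (psi3_le (a := a) (x := 65) (y := (1247 / 2500 : ℝ)) (by norm_num) (by omega) (by norm_num) (by norm_num)
      (by norm_num)).trans ((nlog_series (by norm_num) (by norm_num) 9).trans (by norm_num [Finset.sum_range_succ])))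
  have hS7 : SS3 128 ≤ (58421 / 500 : ℝ) := by
    have := h6.1
    norm_num at this hS6 ⊢
    linarith
  have hR7 : RR3 128 ≤ (19405081 / 500 : ℝ) := by
    have := h6.2
    norm_num at this hS6 hR6 ⊢
    linarith
  have h7 := dy_step 128 256 (by norm_num) (L := (59 / 100 : ℝ)) (fun a ha =>
    (psi3_le (a := a) (x := 129) (y := (4449 / 10000 : ℝ)) (by norm_num) (by omega) (by norm_num) (by norm_num)
      (by norm_num)).trans ((nlog_series (by norm_num) (by norm_num) 8).trans (by norm_num [Finset.sum_range_succ])))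
  have hS8 : SS3 256 ≤ (96181 / 500 : ℝ) := by
    have := h7.1
    norm_num at this hS7 ⊢
    linarith
  have hR8 : RR3 256 ≤ (12721477 / 100 : ℝ) := by
    have := h7.2
    norm_num at this hS7 hR7 ⊢
    linarith
  have h8 := dy_step 256 512 (by norm_num) (L := (507 / 1000 : ℝ)) (fun a ha =>
    (psi3_le (a := a) (x := 257) (y := (1983 / 5000 : ℝ)) (by norm_num) (by omega) (by norm_num) (by norm_num)
      (by norm_num)).trans ((nlog_series (by norm_num) (by norm_num) 7).trans (by norm_num [Finset.sum_range_succ])))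
  have hS9 : SS3 512 ≤ (161077 / 500 : ℝ) := by
    have := h8.1
    norm_num at this hS8 ⊢
    linarith
  have hR9 : RR3 512 ≤ (212267033 / 500 : ℝ) := by
    have := h8.2
    norm_num at this hS8 hR8 ⊢
    linarith
  have h9 := dy_step 512 1024 (by norm_num) (L := (219 / 500 : ℝ)) (fun a ha =>
    (psi3_le (a := a) (x := 513) (y := (707 / 2000 : ℝ)) (by norm_num) (by omega) (by norm_num) (by norm_num)
      (by norm_num)).trans ((nlog_series (by norm_num) (by norm_num) 6).trans (by norm_num [Finset.sum_range_succ])))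
  have hS10 : SS3 1024 ≤ (54641 / 100 : ℝ) := by
    have := h9.1
    norm_num at this hS9 ⊢
    linarith
  have hR10 : RR3 1024 ≤ (718080281 / 500 : ℝ) := by
    have := h9.2
    norm_num at this hS9 hR9 ⊢
    linarith
  have h10 := dy_step 1024 2048 (by norm_num) (L := (379 / 1000 : ℝ)) (fun a ha =>
    (psi3_le (a := a) (x := 1025) (y := (63 / 200 : ℝ)) (by norm_num) (by omega) (by norm_num) (by norm_num)
      (by norm_num)).trans ((nlog_series (by norm_num) (by norm_num) 6).trans (by norm_num [Finset.sum_range_succ])))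
  have hS11 : SS3 2048 ≤ (467253 / 500 : ℝ) := by
    have := h10.1
    norm_num at this hS10 ⊢
    linarith
  have hR11 : RR3 2048 ≤ (2451636249 / 500 : ℝ) := by
    have := h10.2
    norm_num at this hS10 hR10 ⊢
    linarith
  have h11 := dy_step 2048 4096 (by norm_num) (L := (33 / 100 : ℝ)) (fun a ha =>
    (psi3_le (a := a) (x := 2049) (y := (1403 / 5000 : ℝ)) (by norm_num) (by omega) (by norm_num) (by norm_num)
      (by norm_num)).trans ((nlog_series (by norm_num) (by norm_num) 6).trans (by norm_num [Finset.sum_range_succ])))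
  have hS12 : SS3 4096 ≤ (805173 / 500 : ℝ) := by
    have := h11.1
    norm_num at this hS11 ⊢
    linarith
  have hR12 : RR3 4096 ≤ (8436878361 / 500 : ℝ) := by
    have := h11.2
    norm_num at this hS11 hR11 ⊢
    linarith
  have h12 := dy_step 4096 8192 (by norm_num) (L := (36 / 125 : ℝ)) (fun a ha =>
    (psi3_le (a := a) (x := 4097) (y := (1 / 4 : ℝ)) (by norm_num) (by omega) (by norm_num) (by norm_num)
      (by norm_num)).trans ((nlog_series (by norm_num) (by norm_num) 5).trans (by norm_num [Finset.sum_range_succ])))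
  have hS13 : SS3 8192 ≤ (1394997 / 500 : ℝ) := by
    have := h12.1
    norm_num at this hS12 ⊢
    linarith
  have hR13 : RR3 8192 ≤ (5840555013 / 100 : ℝ) := by
    have := h12.2
    norm_num at this hS12 hR12 ⊢
    linarith
  have h13 := dy_step 8192 16384 (by norm_num) (L := (253 / 1000 : ℝ)) (fun a ha =>
    (psi3_le (a := a) (x := 8193) (y := (557 / 2500 : ℝ)) (by norm_num) (by omega) (by norm_num) (by norm_num)
      (by norm_num)).trans ((nlog_series (by norm_num) (by norm_num) 5).trans (by norm_num [Finset.sum_range_succ])))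
  have hS14 : SS3 16384 ≤ (486257 / 100 : ℝ) := by
    have := h13.1
    norm_num at this hS13 ⊢
    linarith
  have hR14 : RR3 16384 ≤ (101688460313 / 500 : ℝ) := by
    have := h13.2
    norm_num at this hS13 hR13 ⊢
    linarith
  have h14 := dy_step 16384 32768 (by norm_num) (L := (111 / 500 : ℝ)) (fun a ha =>
    (psi3_le (a := a) (x := 16385) (y := (397 / 2000 : ℝ)) (by norm_num) (by omega) (by norm_num) (by norm_num)
      (by norm_num)).trans ((nlog_series (by norm_num) (by norm_num) 4).trans (by norm_num [Finset.sum_range_succ])))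
  have hS15 : SS3 32768 ≤ (4249909 / 500 : ℝ) := by
    have := h14.1
    norm_num at this hS14 ⊢
    linarith
  have hR15 : RR3 32768 ≤ (355275400217 / 500 : ℝ) := by
    have := h14.2
    norm_num at this hS14 hR14 ⊢
    linarith
  have h15 := dy_step 32768 65536 (by norm_num) (L := (39 / 200 : ℝ)) (fun a ha =>
    (psi3_le (a := a) (x := 32769) (y := (221 / 1250 : ℝ)) (by norm_num) (by omega) (by norm_num) (by norm_num)
      (by norm_num)).trans ((nlog_series (by norm_num) (by norm_num) 4).trans (by norm_num [Finset.sum_range_succ])))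
  have hS16 : SS3 65536 ≤ (7444789 / 500 : ℝ) := by
    have := h15.1
    norm_num at this hS15 ⊢
    linarith
  have hR16 : RR3 65536 ≤ (1244164277273 / 500 : ℝ) := by
    have := h15.2
    norm_num at this hS15 hR15 ⊢
    linarith
  exact ⟨⟨hS1, hR1⟩, ⟨hS4, hR4⟩, ⟨hS8, hR8⟩, ⟨hS16, hR16⟩⟩

lemma le_rpow56 {r x : ℝ} (hr : 0 ≤ r) (hx : 0 < x) (h : r ^ 6 ≤ x ^ 5) : r ≤ x ^ ((5 : ℝ) / 6) := by
  have e : x ^ ((5 : ℝ) / 6) = (x ^ 5) ^ ((1 : ℝ) / 6) := by
    rw [← Real.rpow_natCast, ← Real.rpow_mul hx.le]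
    norm_num
  rw [e]
  calc r = (r ^ 6) ^ ((1 : ℝ) / 6) := by
        rw [← Real.rpow_natCast, ← Real.rpow_mul hr]
        norm_num
    _ ≤ _ := Real.rpow_le_rpow (by positivity) h (by norm_num)

/-- from the induction to the bound of `log Xi3` -/
lemma log_Xi3_of {T₀ : ℕ} (hT₀ : 1 ≤ T₀) {K₁ K₂ y₀ r Λ : ℝ} (hy0 : 0 < y₀) (hy1 : y₀ < 1)
    (hy : (((T₀ : ℝ) + 1))⁻¹ ≤ y₀ ^ 6)
    (hK₁ : 1 + y₀ / 2 + y₀ ^ 2 / 3 + y₀ ^ 3 / (1 - y₀) ≤ (5 / 6) * K₁)
    (hK₂ : 3 * K₁ + (1 + y₀ / 2 + y₀ ^ 2 / 3 + y₀ ^ 3 / (1 - y₀)) * (2 + 3 / (T₀ : ℝ)) ≤ (11 / 6) * K₂)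
    (hr : 0 < r) (hr2 : r ^ 6 ≤ (T₀ : ℝ) ^ 5) (hΛ : K₂ + 14 / r ≤ Λ)
    {s₀ r₀ : ℝ} (hS0 : SS3 T₀ ≤ s₀) (hR0 : RR3 T₀ ≤ r₀) (hs : s₀ ≤ K₁ * r) (hrr : r₀ ≤ K₂ * ((T₀ : ℝ) * r))
    (T : ℕ) (hT : T₀ ≤ T) :
    Real.log (Xi3 T (1 / 1000) (1 / 1000)) ≤ Λ * (T : ℝ) ^ ((11 : ℝ) / 6) := by
  have hT₀R : (0 : ℝ) < T₀ := by exact_mod_cast hT₀
  have hrT₀ : r ≤ (T₀ : ℝ) ^ ((5 : ℝ) / 6) := le_rpow56 hr.le hT₀R hr2
  have hK₁0 : 0 < K₁ := by
    have hd : 0 < 1 - y₀ := by linarith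
    have : 0 < 1 + y₀ / 2 + y₀ ^ 2 / 3 + y₀ ^ 3 / (1 - y₀) := by positivity
    linarith
  have hK₂0 : 0 < K₂ := by
    have hd : 0 < 1 - y₀ := by linarith
    have h1 : 0 < 1 + y₀ / 2 + y₀ ^ 2 / 3 + y₀ ^ 3 / (1 - y₀) := by positivity
    have h3 : (0 : ℝ) ≤ 2 + 3 / (T₀ : ℝ) := by positivity
    have := mul_nonneg h1.le h3
    nlinarith
  have hB := SR_bound hT₀ hy0 hy1 hy hK₁ hK₂
    (hS0.trans (hs.trans (mul_le_mul_of_nonneg_left hrT₀ hK₁0.le)))
    (by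
      rw [rp116 hT₀R]
      refine hR0.trans (hrr.trans (mul_le_mul_of_nonneg_left ?_ hK₂0.le))
      exact mul_le_mul_of_nonneg_left hrT₀ hT₀R.le) T hT
  have hT0 : (0 : ℝ) < T := by
    have : 0 < T := lt_of_lt_of_le hT₀ hT
    exact_mod_cast this
  rw [log_Xi3_eq, rp116 hT0]
  have hTT : (T₀ : ℝ) ≤ T := by exact_mod_cast hT
  have hP : r ≤ (T : ℝ) ^ ((5 : ℝ) / 6) :=
    hrT₀.trans (Real.rpow_le_rpow hT₀R.le hTT (by norm_num))
  have hA := log_A_le
  have hR := hB.2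
  rw [rp116 hT0] at hR
  set P : ℝ := (T : ℝ) ^ ((5 : ℝ) / 6) with hPd
  have hP0 : 0 < P := by positivity
  have h1 : 2 * (T : ℝ) * Real.log ((1 - Real.exp (-(1 / 1000)))⁻¹) ≤ 2 * (T : ℝ) * 7 := by
    apply mul_le_mul_of_nonneg_left _ (by positivity)
    have : (173 / 25 : ℝ) ≤ 7 := by norm_num
    linarith
  have h2 : 14 * (T : ℝ) ≤ (14 / r) * ((T : ℝ) * P) := by
    have : 14 / r * ((T : ℝ) * P) = 14 * (T : ℝ) * (P / r) := by ring
    rw [this]
    have h3 : 1 ≤ P / r := by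
      rw [one_le_div hr]
      exact hP
    exact le_mul_of_one_le_right (by positivity) h3
  have h4 : (K₂ + 14 / r) * ((T : ℝ) * P) ≤ Λ * ((T : ℝ) * P) :=
    mul_le_mul_of_nonneg_right hΛ (by positivity)
  nlinarith

theorem log_Xi3_le_65536 (T : ℕ) (hT : 65536 ≤ T) :
    Real.log (Xi3 T (1 / 1000) (1 / 1000)) ≤ (369 / 100) * (T : ℝ) ^ ((11 : ℝ) / 6) :=
  log_Xi3_of (T₀ := 65536) (by norm_num) (K₁ := 1443 / 1000) (K₂ := 368 / 100) (y₀ := 1575 / 10000)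
    (r := 10321) (Λ := 369 / 100) (by norm_num) (by norm_num) (by norm_num) (by norm_num)
    (by norm_num) (by norm_num) (by norm_num) (by norm_num) base_chain.2.2.2.1 base_chain.2.2.2.2
    (by norm_num) (by norm_num) T hT

theorem log_Xi3_le_256 (T : ℕ) (hT : 256 ≤ T) :
    Real.log (Xi3 T (1 / 1000) (1 / 1000)) ≤ (504 / 100) * (T : ℝ) ^ ((11 : ℝ) / 6) :=
  log_Xi3_of (T₀ := 256) (by norm_num) (K₁ := 19 / 10) (K₂ := 49 / 10) (y₀ := 3966 / 10000)
    (r := 203 / 2) (Λ := 504 / 100) (by norm_num) (by norm_num) (by norm_num) (by norm_num)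
    (by norm_num) (by norm_num) (by norm_num) (by norm_num) base_chain.2.2.1.1 base_chain.2.2.1.2
    (by norm_num) (by norm_num) T hT

theorem log_Xi3_le_16 (T : ℕ) (hT : 16 ≤ T) :
    Real.log (Xi3 T (1 / 1000) (1 / 1000)) ≤ (918 / 100) * (T : ℝ) ^ ((11 : ℝ) / 6) :=
  log_Xi3_of (T₀ := 16) (by norm_num) (K₁ := 291 / 100) (K₂ := 778 / 100) (y₀ := 6237 / 10000)
    (r := 1007 / 100) (Λ := 918 / 100) (by norm_num) (by norm_num) (by norm_num) (by norm_num)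
    (by norm_num) (by norm_num) (by norm_num) (by norm_num) base_chain.2.1.1 base_chain.2.1.2
    (by norm_num) (by norm_num) T hT

theorem log_Xi3_le_two (T : ℕ) (hT : 2 ≤ T) :
    Real.log (Xi3 T (1 / 1000) (1 / 1000)) ≤ 28 * (T : ℝ) ^ ((11 : ℝ) / 6) :=
  log_Xi3_of (T₀ := 2) (by norm_num) (K₁ := 62 / 10) (K₂ := 20) (y₀ := 8327 / 10000)
    (r := 178 / 100) (Λ := 28) (by norm_num) (by norm_num) (by norm_num) (by norm_num)
    (by norm_num) (by norm_num) (by norm_num) (by norm_num) base_chain.1.1 base_chain.1.2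
    (by norm_num) (by norm_num) T hT

theorem log_Xi3_le_one (T : ℕ) (hT : 1 ≤ T) :
    Real.log (Xi3 T (1 / 1000) (1 / 1000)) ≤ 38 * (T : ℝ) ^ ((11 : ℝ) / 6) := by
  rcases Nat.lt_or_ge T 2 with h | h
  · obtain rfl : T = 1 := by omega
    rw [log_Xi3_eq]
    have h0 := psi3_zero_le
    have hA := log_A_le
    have hR : RR3 1 = 3 * psi3 0 := by
      unfold RR3
      simp
    rw [hR]
    norm_num
    norm_num at hA h0
    linarith
  · have h1 := log_Xi3_le_two T h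
    have hT0 : (0 : ℝ) ≤ (T : ℝ) ^ ((11 : ℝ) / 6) := by positivity
    linarith

/-- the form used by the coverage -/
theorem log_Xi3_le16 (T : ℕ) (hT : 2 ^ 16 ≤ T) :
    Real.log (Xi3 T (1 / 1000) (1 / 1000)) ≤ (41 / 10) * (T : ℝ) ^ ((11 : ℝ) / 6) := by
  have h1 := log_Xi3_le_65536 T (by simpa using hT)
  have hT0 : (0 : ℝ) ≤ (T : ℝ) ^ ((11 : ℝ) / 6) := by positivity
  linarith

/-- the form used by the coverage -/
theorem log_Xi3_le1 (T : ℕ) (hT : 1 ≤ T) :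
    Real.log (Xi3 T (1 / 1000) (1 / 1000)) ≤ 38 * (T : ℝ) ^ ((11 : ℝ) / 6) :=
  log_Xi3_le_one T hT

end Crest.Agent.S0222Lib.JCov
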