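import Crest.Agent.S0222Lib.WordRep

/-!
# S0222: cycle weight and decoupling under tree automorphisms (leaf [C] of the J-blueprint)

For a permutation group `Γ` of a finite set `X` let `pr Γ R Q` be the probability that a uniform
element of `Γ` carries the subset `R` to the subset `Q`.  `wt Γ R = pr Γ R R` is the inverse of the
orbit size of `R`, and `Aw Γ S = ∑_{R ⊆ S} wt Γ R`.

* `cross_sq_le`: Cauchy-Schwarz for the double average (the kernel `pr ⊗ pr` is a projection);
* `cross_self_le_fst`, `cross_self_le_snd`: for a partial matching of subsets, `cross M M` is at most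
  the sum of the weights of either side;
* `avg_pairW_le`: for two families of tokens placed injectively by `u₀, u₀'` and `u₁, u₁'`,
  the average over `g, h ∈ Γ` of `pairW u₀ u₀' (g ∘ u₁) (h ∘ u₁')` is at most
  `√(Aw (range u₀) Aw (range u₁))`, and the same for `u₀'`, `u₁'`.
  `pairW` is the number of pairs of subsets of tokens with the same images under both placements:
  this is `2 ^ c`, with `c` the number of closed orbits of the token graph.
* `Aw_root_le`: the recursion at the root of the tree for `Γ = autGroup D`: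
  `Aw S ≤ ½ Aw S₀ Aw S₁ + ½ min (Aw S₀) (Aw S₁)`, with `S₀, S₁` the slices of `S` at the lowest bit.
* `Aw_le_table`: any table `T` closed under the recursion bounds `Aw (autGroup d) S` by `T d #S`.
-/

set_option autoImplicit false
set_option linter.unusedSectionVars false

namespace Crest.Agent.S0222Lib.Decouple

open Finset
open Crest.Agent.S0222Lib Crest.Agent.S0222Lib.WordRep

section Generic

variable {X : Type*} [Fintype X] [DecidableEq X]

/-- The elements of a permutation group, as a finset. -/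
noncomputable def els (Γ : Subgroup (Equiv.Perm X)) : Finset (Equiv.Perm X) := by
  classical exact univ.filter (· ∈ Γ)

variable (Γ : Subgroup (Equiv.Perm X))

@[simp] lemma mem_els {g : Equiv.Perm X} : g ∈ els Γ ↔ g ∈ Γ := by
  classical simp [els]

lemma els_nonempty : (els Γ).Nonempty := ⟨1, (mem_els Γ).2 Γ.one_mem⟩

lemma els_card_pos : 0 < (els Γ).card := card_pos.2 (els_nonempty Γ)

/-- The number of elements of the group carrying `R` to `Q`. -/
noncomputable def tr (R Q : Finset X) : ℕ :=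
  ((els Γ).filter (fun g : Equiv.Perm X => R.image (g : X → X) = Q)).card

lemma tr_symm (R Q : Finset X) : tr Γ R Q = tr Γ Q R := by
  apply card_bij (fun g _ => g⁻¹)
  · intro g hg
    simp only [mem_filter, mem_els] at hg ⊢
    refine ⟨Γ.inv_mem hg.1, ?_⟩
    rw [← hg.2, image_image]
    simp
  · intro g _ h _ e
    exact inv_injective e
  · intro g hg
    simp only [mem_filter, mem_els] at hg
    refine ⟨g⁻¹, ?_, by simp⟩
    simp only [mem_filter, mem_els]
    refine ⟨Γ.inv_mem hg.1, ?_⟩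
    rw [← hg.2, image_image]
    simp

lemma sum_tr (R : Finset X) : ∑ Q, tr Γ R Q = (els Γ).card := by
  symm
  exact card_eq_sum_card_fiberwise (fun _ _ => mem_univ _)

lemma tr_le_self (R Q : Finset X) : tr Γ R Q ≤ tr Γ R R := by
  by_cases h : ∃ g₀ ∈ Γ, R.image g₀ = Q
  · obtain ⟨g₀, hg₀, rfl⟩ := h
    apply card_le_card_of_injOn (fun g => g₀⁻¹ * g)
    · intro g hg
      have hg' := (mem_filter.1 hg)
      have hg1 := (mem_els Γ).1 hg'.1
      simp only [coe_filter, Set.mem_ofPred_eq, mem_els]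
      refine ⟨Γ.mul_mem (Γ.inv_mem hg₀) hg1, ?_⟩
      have : R.image (⇑(g₀⁻¹ * g)) = (R.image (⇑g)).image (⇑(g₀⁻¹)) := by
        rw [image_image]; rfl
      rw [this, hg'.2, image_image]
      simp
    · intro g _ g' _ e
      exact mul_left_cancel e
  · have : (els Γ).filter (fun g : Equiv.Perm X => R.image (g : X → X) = Q) = ∅ := by
      apply filter_eq_empty_iff.2
      intro g hg hgR
      exact h ⟨g, (mem_els Γ).1 hg, hgR⟩
    unfold tr
    rw [this]
    simp

lemma tr_image_left {g : Equiv.Perm X} (hg : g ∈ Γ) (R Q : Finset X) :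
    tr Γ (R.image g) Q = tr Γ R Q := by
  apply card_bij (fun g' _ => g' * g)
  · intro g' hg'
    have h' := mem_filter.1 hg'
    simp only [mem_filter, mem_els]
    refine ⟨Γ.mul_mem ((mem_els Γ).1 h'.1) hg, ?_⟩
    rw [← h'.2, image_image]
    rfl
  · intro a _ b _ e
    exact mul_right_cancel e
  · intro g' hg'
    have h' := mem_filter.1 hg'
    refine ⟨g' * g⁻¹, ?_, by simp⟩
    simp only [mem_filter, mem_els]
    refine ⟨Γ.mul_mem ((mem_els Γ).1 h'.1) (Γ.inv_mem hg), ?_⟩
    rw [image_image, ← h'.2]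
    congr 1
    funext x
    simp

lemma sum_tr_mul_tr (R Q : Finset X) :
    ∑ Z, tr Γ R Z * tr Γ Z Q = (els Γ).card * tr Γ R Q := by
  have h1 : ∀ Z, tr Γ R Z * tr Γ Z Q = ∑ g ∈ els Γ, if R.image g = Z then tr Γ Z Q else 0 := by
    intro Z
    rw [← sum_filter, sum_const, smul_eq_mul]
    rfl
  simp_rw [h1]
  rw [sum_comm]
  have h2 : ∀ g ∈ els Γ, (∑ Z, if R.image g = Z then tr Γ Z Q else 0) = tr Γ R Q := by
    intro g hg
    rw [sum_ite_eq]
    simp only [mem_univ, if_true]
    exact tr_image_left Γ ((mem_els Γ).1 hg) R Q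
  rw [sum_congr rfl h2, sum_const, smul_eq_mul]

/-- The probability that a uniform element of the group carries `R` to `Q`. -/
noncomputable def pr (R Q : Finset X) : ℝ := (tr Γ R Q : ℝ) / (els Γ).card

lemma card_els_ne : ((els Γ).card : ℝ) ≠ 0 := by
  exact_mod_cast (els_card_pos Γ).ne'

lemma pr_nonneg (R Q : Finset X) : 0 ≤ pr Γ R Q := by
  unfold pr; positivity

lemma pr_symm (R Q : Finset X) : pr Γ R Q = pr Γ Q R := by
  unfold pr; rw [tr_symm]

lemma sum_pr (R : Finset X) : ∑ Q, pr Γ R Q = 1 := by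
  unfold pr
  rw [← sum_div, ← Nat.cast_sum, sum_tr, div_self (card_els_ne Γ)]

lemma pr_le_self (R Q : Finset X) : pr Γ R Q ≤ pr Γ R R := by
  unfold pr
  have h : ((els Γ).card : ℝ) > 0 := by exact_mod_cast els_card_pos Γ
  apply div_le_div_of_nonneg_right _ h.le
  exact_mod_cast tr_le_self Γ R Q

lemma sum_pr_mul_pr (R Q : Finset X) : ∑ Z, pr Γ R Z * pr Γ Z Q = pr Γ R Q := by
  unfold pr
  have hne := card_els_ne Γ
  have h := sum_tr_mul_tr Γ R Q
  have h' : (∑ Z, (tr Γ R Z : ℝ) * (tr Γ Z Q : ℝ)) = ((els Γ).card : ℝ) * (tr Γ R Q : ℝ) := by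
    exact_mod_cast h
  simp_rw [div_mul_div_comm]
  rw [← sum_div, h']
  field_simp

/-- `wt Γ R` is the inverse of the size of the orbit of `R` (the density of its stabiliser). -/
noncomputable def wt (R : Finset X) : ℝ := pr Γ R R

lemma wt_nonneg (R : Finset X) : 0 ≤ wt Γ R := pr_nonneg Γ R R

/-- The weight `A(S) = ∑_{R ⊆ S} 1 / |Γ R|`. -/
noncomputable def Aw (S : Finset X) : ℝ := ∑ R ∈ S.powerset, wt Γ R

lemma Aw_nonneg (S : Finset X) : 0 ≤ Aw Γ S := sum_nonneg fun R _ => wt_nonneg Γ R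

/-- The kernel `pr ⊗ pr` on two families of pairs of subsets. -/
noncomputable def cross (M₀ M₁ : Finset (Finset X × Finset X)) : ℝ :=
  ∑ a ∈ M₀, ∑ b ∈ M₁, pr Γ a.1 b.1 * pr Γ a.2 b.2

/-- The projection of (the indicator of) a family of pairs of subsets to the invariants. -/
noncomputable def proj (M : Finset (Finset X × Finset X)) (z : Finset X × Finset X) : ℝ :=
  ∑ a ∈ M, pr Γ a.1 z.1 * pr Γ a.2 z.2

lemma sum_proj_mul_proj (M₀ M₁ : Finset (Finset X × Finset X)) :
    ∑ z, proj Γ M₀ z * proj Γ M₁ z = cross Γ M₀ M₁ := by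
  unfold proj cross
  simp_rw [sum_mul_sum]
  rw [sum_comm]
  refine sum_congr rfl fun a _ => ?_
  rw [sum_comm]
  refine sum_congr rfl fun b _ => ?_
  rw [Fintype.sum_prod_type]
  have h1 : ∀ Z Z' : Finset X, pr Γ a.1 Z * pr Γ a.2 Z' * (pr Γ b.1 Z * pr Γ b.2 Z')
      = (pr Γ a.1 Z * pr Γ Z b.1) * (pr Γ a.2 Z' * pr Γ Z' b.2) := by
    intro Z Z'
    rw [pr_symm Γ Z b.1, pr_symm Γ Z' b.2]
    ring
  simp only [h1]
  simp_rw [← mul_sum, ← sum_mul]
  rw [sum_pr_mul_pr, sum_pr_mul_pr]

/-- **Cauchy-Schwarz**. -/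
theorem cross_sq_le (M₀ M₁ : Finset (Finset X × Finset X)) :
    cross Γ M₀ M₁ ^ 2 ≤ cross Γ M₀ M₀ * cross Γ M₁ M₁ := by
  rw [← sum_proj_mul_proj Γ M₀ M₁, ← sum_proj_mul_proj Γ M₀ M₀, ← sum_proj_mul_proj Γ M₁ M₁]
  simp_rw [← pow_two]
  exact sum_mul_sq_le_sq_mul_sq _ _ _

lemma cross_nonneg (M₀ M₁ : Finset (Finset X × Finset X)) : 0 ≤ cross Γ M₀ M₁ :=
  sum_nonneg fun _ _ => sum_nonneg fun _ _ => mul_nonneg (pr_nonneg _ _ _) (pr_nonneg _ _ _)

lemma sum_pr_le_one {M : Finset (Finset X × Finset X)} (f : Finset X × Finset X → Finset X)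
    (hf : Set.InjOn f M) (R : Finset X) : ∑ b ∈ M, pr Γ R (f b) ≤ 1 := by
  rw [← sum_image (f := fun Q => pr Γ R Q) hf, ← sum_pr Γ R]
  exact sum_le_sum_of_subset_of_nonneg (subset_univ _) fun _ _ _ => pr_nonneg _ _ _

/-- For a partial matching, the self-term is bounded by the weights of the first side. -/
theorem cross_self_le_fst {M : Finset (Finset X × Finset X)}
    (h₂ : Set.InjOn Prod.snd (M : Set (Finset X × Finset X))) :
    cross Γ M M ≤ ∑ a ∈ M, wt Γ a.1 := by
  refine sum_le_sum fun a _ => ?_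
  calc ∑ b ∈ M, pr Γ a.1 b.1 * pr Γ a.2 b.2
      ≤ ∑ b ∈ M, wt Γ a.1 * pr Γ a.2 b.2 :=
        sum_le_sum fun b _ => mul_le_mul_of_nonneg_right (pr_le_self _ _ _) (pr_nonneg _ _ _)
    _ = wt Γ a.1 * ∑ b ∈ M, pr Γ a.2 b.2 := by rw [mul_sum]
    _ ≤ wt Γ a.1 * 1 := mul_le_mul_of_nonneg_left (sum_pr_le_one Γ Prod.snd h₂ a.2) (wt_nonneg _ _)
    _ = wt Γ a.1 := mul_one _

/-- For a partial matching, the self-term is bounded by the weights of the second side. -/
theorem cross_self_le_snd {M : Finset (Finset X × Finset X)}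
    (h₁ : Set.InjOn Prod.fst (M : Set (Finset X × Finset X))) :
    cross Γ M M ≤ ∑ a ∈ M, wt Γ a.2 := by
  refine sum_le_sum fun a _ => ?_
  calc ∑ b ∈ M, pr Γ a.1 b.1 * pr Γ a.2 b.2
      ≤ ∑ b ∈ M, pr Γ a.1 b.1 * wt Γ a.2 :=
        sum_le_sum fun b _ => mul_le_mul_of_nonneg_left (pr_le_self _ _ _) (pr_nonneg _ _ _)
    _ = (∑ b ∈ M, pr Γ a.1 b.1) * wt Γ a.2 := by rw [sum_mul]
    _ ≤ 1 * wt Γ a.2 := mul_le_mul_of_nonneg_right (sum_pr_le_one Γ Prod.fst h₁ a.1) (wt_nonneg _ _)
    _ = wt Γ a.2 := one_mul _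

/-! ### Tokens -/

variable {T T₀ T₁ : Type*} [Fintype T] [DecidableEq T] [Fintype T₀] [DecidableEq T₀]
  [Fintype T₁] [DecidableEq T₁]

/-- The matching of subsets induced by tokens placed by `u` and `u'`. -/
def tokM (u u' : T → X) : Finset (Finset X × Finset X) :=
  (univ : Finset (Finset T)).image (fun A => (A.image u, A.image u'))

lemma tokM_sum {u u' : T → X} (hu : Function.Injective u) {β : Type*} [AddCommMonoid β]
    (f : Finset X × Finset X → β) :
    ∑ a ∈ tokM u u', f a = ∑ A : Finset T, f (A.image u, A.image u') := by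
  unfold tokM
  rw [sum_image]
  intro A _ A' _ e
  exact image_injective hu (Prod.ext_iff.1 e).1

lemma tokM_injOn_fst {u u' : T → X} (hu' : Function.Injective u') :
    Set.InjOn Prod.snd (tokM u u' : Set (Finset X × Finset X)) := by
  intro a ha b hb e
  simp only [tokM, coe_image, Set.mem_image, mem_coe, mem_univ, true_and] at ha hb
  obtain ⟨A, rfl⟩ := ha
  obtain ⟨A', rfl⟩ := hb
  have := image_injective hu' e
  rw [this]

lemma tokM_injOn_snd {u u' : T → X} (hu : Function.Injective u) :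
    Set.InjOn Prod.fst (tokM u u' : Set (Finset X × Finset X)) := by
  intro a ha b hb e
  simp only [tokM, coe_image, Set.mem_image, mem_coe, mem_univ, true_and] at ha hb
  obtain ⟨A, rfl⟩ := ha
  obtain ⟨A', rfl⟩ := hb
  have := image_injective hu e
  rw [this]

/-- `∑ A ⊆ tokens, w (u A)` is `A(range u)`. -/
lemma sum_wt_image {u : T → X} (hu : Function.Injective u) :
    ∑ A : Finset T, wt Γ (A.image u) = Aw Γ (univ.image u) := by
  unfold Aw
  have : (univ.image u).powerset = (univ : Finset (Finset T)).image (fun A => A.image u) := by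
    ext R
    simp only [mem_powerset, mem_image, mem_univ, true_and]
    constructor
    · intro h
      obtain ⟨s, _, hs⟩ := subset_image_iff.1 h
      exact ⟨s, hs⟩
    · rintro ⟨A, rfl⟩
      exact image_subset_image (subset_univ _)
  rw [this, sum_image]
  intro A _ A' _ e
  exact image_injective hu e

theorem cross_tokM_self_le_left {u u' : T → X} (hu : Function.Injective u)
    (hu' : Function.Injective u') : cross Γ (tokM u u') (tokM u u') ≤ Aw Γ (univ.image u) := by
  refine (cross_self_le_fst Γ (tokM_injOn_fst hu')).trans (le_of_eq ?_)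
  rw [tokM_sum hu, sum_wt_image Γ hu]

theorem cross_tokM_self_le_right {u u' : T → X} (hu : Function.Injective u)
    (hu' : Function.Injective u') : cross Γ (tokM u u') (tokM u u') ≤ Aw Γ (univ.image u') := by
  refine (cross_self_le_snd Γ (tokM_injOn_snd hu)).trans (le_of_eq ?_)
  rw [tokM_sum hu, sum_wt_image Γ hu']

/-- The number of pairs of subsets of tokens having the same images under both placements. -/
def pairW (u₀ u₀' : T₀ → X) (u₁ u₁' : T₁ → X) : ℕ :=
  ((univ : Finset (Finset T₀ × Finset T₁)).filter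
    (fun p => p.1.image u₀ = p.2.image u₁ ∧ p.1.image u₀' = p.2.image u₁')).card

lemma pairW_eq_sum (u₀ u₀' : T₀ → X) (u₁ u₁' : T₁ → X) :
    pairW u₀ u₀' u₁ u₁' = ∑ A₀ : Finset T₀, ∑ A₁ : Finset T₁,
      (if A₀.image u₀ = A₁.image u₁ then 1 else 0) *
        (if A₀.image u₀' = A₁.image u₁' then 1 else 0) := by
  unfold pairW
  rw [card_filter, Fintype.sum_prod_type]
  refine sum_congr rfl fun A₀ _ => sum_congr rfl fun A₁ _ => ?_
  by_cases h1 : A₀.image u₀ = A₁.image u₁ <;> by_cases h2 : A₀.image u₀' = A₁.image u₁' <;>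
    simp [h1, h2]

/-- The average over `g, h ∈ Γ` of the pair count is the kernel `cross`. -/
theorem avg_pairW (u₀ u₀' : T₀ → X) {u₁ u₁' : T₁ → X}
    (h₀ : Function.Injective u₀) (h₁ : Function.Injective u₁) :
    (∑ g ∈ els Γ, ∑ h ∈ els Γ, (pairW u₀ u₀' (g ∘ u₁) (h ∘ u₁') : ℝ)) / ((els Γ).card : ℝ) ^ 2 =
      cross Γ (tokM u₀ u₀') (tokM u₁ u₁') := by
  have hne := card_els_ne Γ
  rw [div_eq_iff (pow_ne_zero 2 hne)]
  unfold cross
  rw [tokM_sum h₀, sum_mul]
  have key : ∀ (A₀ : Finset T₀) (A₁ : Finset T₁),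
      (∑ g ∈ els Γ, ∑ h ∈ els Γ, (((if A₀.image u₀ = A₁.image (⇑g ∘ u₁) then 1 else 0) *
        (if A₀.image u₀' = A₁.image (⇑h ∘ u₁') then 1 else 0) : ℕ) : ℝ)) =
      pr Γ (A₀.image u₀) (A₁.image u₁) * pr Γ (A₀.image u₀') (A₁.image u₁') *
        ((els Γ).card : ℝ) ^ 2 := by
    intro A₀ A₁
    have e1 : ∀ (g : Equiv.Perm X) (v : T₁ → X), A₁.image (⇑g ∘ v) = (A₁.image v).image g := by
      intro g v
      rw [image_image]
    have h3 : ∀ (R Q : Finset X),
        (∑ g ∈ els Γ, ((if R = Q.image g then 1 else 0 : ℕ) : ℝ)) = pr Γ R Q * (els Γ).card := by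
      intro R Q
      unfold pr
      rw [div_mul_cancel₀ _ hne, tr_symm]
      unfold tr
      rw [card_filter]
      push_cast
      refine sum_congr rfl fun g _ => ?_
      by_cases h : Q.image g = R
      · simp [h]
      · have h' : ¬ R = Q.image g := fun e => h e.symm
        simp [h, h']
    simp only [e1]
    push_cast
    have : ∀ g h : Equiv.Perm X, ((if A₀.image u₀ = (A₁.image u₁).image g then (1 : ℝ) else 0) *
        (if A₀.image u₀' = (A₁.image u₁').image h then (1 : ℝ) else 0)) =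
        ((if A₀.image u₀ = (A₁.image u₁).image g then 1 else 0 : ℕ) : ℝ) *
        ((if A₀.image u₀' = (A₁.image u₁').image h then 1 else 0 : ℕ) : ℝ) := by
      intro g h
      push_cast
      rfl
    simp only [this]
    simp_rw [← mul_sum]
    rw [← sum_mul, h3, h3]
    ring
  have hcomm : ∀ (F : Equiv.Perm X → Equiv.Perm X → Finset T₀ → Finset T₁ → ℝ),
      ∑ g ∈ els Γ, ∑ h ∈ els Γ, ∑ A₀ : Finset T₀, ∑ A₁ : Finset T₁, F g h A₀ A₁ =
      ∑ A₀ : Finset T₀, ∑ A₁ : Finset T₁, ∑ g ∈ els Γ, ∑ h ∈ els Γ, F g h A₀ A₁ := by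
    intro F
    calc ∑ g ∈ els Γ, ∑ h ∈ els Γ, ∑ A₀ : Finset T₀, ∑ A₁ : Finset T₁, F g h A₀ A₁
        = ∑ g ∈ els Γ, ∑ A₀ : Finset T₀, ∑ h ∈ els Γ, ∑ A₁ : Finset T₁, F g h A₀ A₁ :=
          sum_congr rfl fun g _ => sum_comm
      _ = ∑ A₀ : Finset T₀, ∑ g ∈ els Γ, ∑ h ∈ els Γ, ∑ A₁ : Finset T₁, F g h A₀ A₁ := sum_comm
      _ = ∑ A₀ : Finset T₀, ∑ g ∈ els Γ, ∑ A₁ : Finset T₁, ∑ h ∈ els Γ, F g h A₀ A₁ :=
          sum_congr rfl fun A₀ _ => sum_congr rfl fun g _ => sum_comm
      _ = ∑ A₀ : Finset T₀, ∑ A₁ : Finset T₁, ∑ g ∈ els Γ, ∑ h ∈ els Γ, F g h A₀ A₁ :=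
          sum_congr rfl fun A₀ _ => sum_comm
  calc (∑ g ∈ els Γ, ∑ h ∈ els Γ, (pairW u₀ u₀' (⇑g ∘ u₁) (⇑h ∘ u₁') : ℝ))
      = ∑ g ∈ els Γ, ∑ h ∈ els Γ, ∑ A₀ : Finset T₀, ∑ A₁ : Finset T₁,
        (((if A₀.image u₀ = A₁.image (⇑g ∘ u₁) then 1 else 0) *
        (if A₀.image u₀' = A₁.image (⇑h ∘ u₁') then 1 else 0) : ℕ) : ℝ) := by
        refine sum_congr rfl fun g _ => sum_congr rfl fun h _ => ?_
        rw [pairW_eq_sum]
        push_cast
        rfl
    _ = ∑ A₀ : Finset T₀, ∑ A₁ : Finset T₁, ∑ g ∈ els Γ, ∑ h ∈ els Γ,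
        (((if A₀.image u₀ = A₁.image (⇑g ∘ u₁) then 1 else 0) *
        (if A₀.image u₀' = A₁.image (⇑h ∘ u₁') then 1 else 0) : ℕ) : ℝ) := hcomm _
    _ = _ := by
        refine sum_congr rfl fun A₀ _ => ?_
        rw [tokM_sum h₁, sum_mul]
        exact sum_congr rfl fun A₁ _ => key A₀ A₁

/-- **Decoupling**: the average of the pair count `2 ^ c` is at most the geometric mean of the
weights of the ranges (any side may be chosen for each of the two families). -/
theorem avg_pairW_le_of_self {a₀ a₁ : ℝ} (u₀ u₀' : T₀ → X) {u₁ u₁' : T₁ → X}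
    (h₀ : Function.Injective u₀) (h₁ : Function.Injective u₁)
    (ha₀ : cross Γ (tokM u₀ u₀') (tokM u₀ u₀') ≤ a₀)
    (ha₁ : cross Γ (tokM u₁ u₁') (tokM u₁ u₁') ≤ a₁) :
    (∑ g ∈ els Γ, ∑ h ∈ els Γ, (pairW u₀ u₀' (g ∘ u₁) (h ∘ u₁') : ℝ)) / ((els Γ).card : ℝ) ^ 2 ≤
      √(a₀ * a₁) := by
  rw [avg_pairW Γ u₀ u₀' h₀ h₁]
  apply Real.le_sqrt_of_sq_le
  refine (cross_sq_le Γ _ _).trans ?_
  exact mul_le_mul ha₀ ha₁ (cross_nonneg _ _ _) ((cross_nonneg _ _ _).trans ha₀)

theorem avg_pairW_le (u₀ u₀' : T₀ → X) (u₁ u₁' : T₁ → X)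
    (h₀ : Function.Injective u₀) (h₀' : Function.Injective u₀')
    (h₁ : Function.Injective u₁) (h₁' : Function.Injective u₁') :
    (∑ g ∈ els Γ, ∑ h ∈ els Γ, (pairW u₀ u₀' (g ∘ u₁) (h ∘ u₁') : ℝ)) / ((els Γ).card : ℝ) ^ 2 ≤
      √(Aw Γ (univ.image u₀) * Aw Γ (univ.image u₁)) :=
  avg_pairW_le_of_self Γ u₀ u₀' h₀ h₁ (cross_tokM_self_le_left Γ h₀ h₀')
    (cross_tokM_self_le_left Γ h₁ h₁')

end Generic

/-! ### The root decomposition of tree automorphisms -/

section Root

variable {D : ℕ}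

/-- The lowest bit. -/
def headB (x : B (D + 1)) : Bool := x 0
/-- All but the lowest bit. -/
def tailB (x : B (D + 1)) : B D := fun i => x i.succ

@[simp] lemma headB_consB (b : Bool) (t : B D) : headB (consB b t) = b := by
  simp [headB, consB]

@[simp] lemma tailB_consB (b : Bool) (t : B D) : tailB (consB b t) = t := by
  funext i
  simp [tailB, consB]

@[simp] lemma consB_headB_tailB (x : B (D + 1)) : consB (headB x) (tailB x) = x := by
  funext i
  refine Fin.cases ?_ (fun j => ?_) i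
  · simp [consB, headB]
  · simp [consB, tailB]

/-- The tree automorphism with root flip `c` and subtree automorphisms `g₀`, `g₁`. -/
def rootMk (c : Bool) (g₀ g₁ : Equiv.Perm (B D)) : Equiv.Perm (B (D + 1)) where
  toFun x := consB (xor (headB x) c) ((if headB x then g₁ else g₀) (tailB x))
  invFun x := consB (xor (headB x) c) ((if xor (headB x) c then g₁⁻¹ else g₀⁻¹) (tailB x))
  left_inv x := by
    obtain ⟨b, t, rfl⟩ : ∃ b t, x = consB b t := ⟨headB x, tailB x, (consB_headB_tailB x).symm⟩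
    cases b <;> cases c <;> simp
  right_inv x := by
    obtain ⟨b, t, rfl⟩ : ∃ b t, x = consB b t := ⟨headB x, tailB x, (consB_headB_tailB x).symm⟩
    cases b <;> cases c <;> simp

lemma rootMk_apply (c : Bool) (g₀ g₁ : Equiv.Perm (B D)) (x : B (D + 1)) :
    rootMk c g₀ g₁ x = consB (xor (headB x) c) ((if headB x then g₁ else g₀) (tailB x)) := rfl

@[simp] lemma rootMk_consB (c : Bool) (g₀ g₁ : Equiv.Perm (B D)) (b : Bool) (t : B D) :
    rootMk c g₀ g₁ (consB b t) = consB (xor b c) ((if b then g₁ else g₀) t) := by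
  rw [rootMk_apply]; simp

lemma isAut_rootMk (c : Bool) {g₀ g₁ : Equiv.Perm (B D)} (h₀ : IsAut g₀) (h₁ : IsAut g₁) :
    IsAut (rootMk c g₀ g₁) := by
  intro x y i hxy
  refine Fin.cases ?_ (fun j hj => ?_) i hxy
  · intro _
    have e : ∀ z : B (D + 1), (rootMk c g₀ g₁ z) 0 = xor (z 0) c := by
      intro z
      rw [rootMk_apply]
      simp [consB, headB]
    rw [e, e]
    cases x 0 <;> cases y 0 <;> cases c <;> rfl
  · have h0 : x 0 = y 0 := hj 0 (Fin.succ_pos j)
    have e : ∀ z : B (D + 1), (rootMk c g₀ g₁ z) j.succ = ((if z 0 then g₁ else g₀) (tailB z)) j := by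
      intro z
      rw [rootMk_apply]
      simp only [consB, Fin.cons_succ, headB]
      by_cases h : z 0 = true <;> simp [h]
    rw [e, e, ← h0]
    have hagree : ∀ k, k < j → tailB x k = tailB y k := by
      intro k hk
      exact hj k.succ (by simpa using hk)
    have key : ∀ {g : Equiv.Perm (B D)}, IsAut g →
        xor (g (tailB x) j) (tailB x j) = xor (g (tailB y) j) (tailB y j) :=
      fun hg => hg _ _ _ hagree
    change xor _ (tailB x j) = xor _ (tailB y j)
    cases hx : x 0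
    · simpa using key h₀
    · simpa using key h₁

/-- The action on the subtree below `b` of a tree automorphism. -/
noncomputable def rootPart {g : Equiv.Perm (B (D + 1))} (hg : IsAut g) (b : Bool) :
    Equiv.Perm (B D) :=
  Equiv.ofBijective (fun t => tailB (g (consB b t))) (Finite.injective_iff_bijective.mp (by
    intro t t' e
    have e0 := hg (consB b t) (consB b t') 0 (fun j hj => absurd hj (Fin.not_lt_zero j))
    have h0 : g (consB b t) 0 = g (consB b t') 0 := by
      simp only [consB, Fin.cons_zero] at e0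
      cases h1 : g (Fin.cons (α := fun _ => Bool) b t) 0 <;>
        cases h2 : g (Fin.cons (α := fun _ => Bool) b t') 0 <;> cases b <;> simp_all [consB]
    have : g (consB b t) = g (consB b t') := by
      rw [← consB_headB_tailB (g (consB b t)), ← consB_headB_tailB (g (consB b t'))]
      congr 1
    have h3 := g.injective this
    have := congrArg tailB h3
    simpa using this))

lemma rootPart_apply {g : Equiv.Perm (B (D + 1))} (hg : IsAut g) (b : Bool) (t : B D) :
    rootPart hg b t = tailB (g (consB b t)) := rfl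

lemma isAut_rootPart {g : Equiv.Perm (B (D + 1))} (hg : IsAut g) (b : Bool) :
    IsAut (rootPart hg b) := by
  intro t t' i h
  have := hg (consB b t) (consB b t') i.succ (by
    intro j
    refine Fin.cases (fun _ => by simp [consB]) (fun k hk => ?_) j
    simpa [consB] using h k (by simpa using hk))
  simpa [rootPart_apply, tailB, consB] using this

theorem IsAut.root_decompose {g : Equiv.Perm (B (D + 1))} (hg : IsAut g) :
    ∃ c g₀ g₁, IsAut g₀ ∧ IsAut g₁ ∧ g = rootMk c g₀ g₁ := by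
  refine ⟨headB (g (consB false (fun _ => false))), rootPart hg false, rootPart hg true,
    isAut_rootPart hg _, isAut_rootPart hg _, ?_⟩
  ext x : 1
  rw [rootMk_apply]
  have h0 : ∀ z : B (D + 1), headB (g z) = xor (headB z) (headB (g (consB false (fun _ => false)))) := by
    intro z
    have e0 := hg z (consB false (fun _ => false)) 0 (fun j hj => absurd hj (Fin.not_lt_zero j))
    change xor (headB (g z)) (headB z) = xor (headB (g (consB false (fun _ => false))))
      (headB (consB false (fun _ => false))) at e0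
    rw [headB_consB] at e0
    cases h1 : headB (g z) <;> cases h2 : headB z <;>
      cases h3 : headB (g (consB false (fun _ => false))) <;> simp_all
  rw [← h0 x]
  have : tailB (g x) = (if headB x then rootPart hg true else rootPart hg false) (tailB x) := by
    cases hx : headB x <;>
    · simp only [rootPart_apply, if_true, if_false, Bool.false_eq_true]
      rw [← hx, consB_headB_tailB]
  rw [← this, consB_headB_tailB]

lemma rootMk_injective {c c' : Bool} {g₀ g₁ g₀' g₁' : Equiv.Perm (B D)}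
    (h : rootMk c g₀ g₁ = rootMk c' g₀' g₁') : c = c' ∧ g₀ = g₀' ∧ g₁ = g₁' := by
  have key : ∀ (b : Bool) (t : B D), consB (xor b c) ((if b then g₁ else g₀) t) =
      consB (xor b c') ((if b then g₁' else g₀') t) := by
    intro b t
    rw [← rootMk_consB, ← rootMk_consB, h]
  have hc : c = c' := by
    have := congrArg headB (key false (fun _ => false))
    simpa using this
  refine ⟨hc, ?_, ?_⟩
  · ext t : 1
    have := congrArg tailB (key false t)
    simpa using this
  · ext t : 1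
    have := congrArg tailB (key true t)
    simpa using this

/-- The slice of a set of leaves at the lowest bit. -/
def sliceB (b : Bool) (S : Finset (B (D + 1))) : Finset (B D) :=
  univ.filter (fun t => consB b t ∈ S)

@[simp] lemma mem_sliceB {b : Bool} {S : Finset (B (D + 1))} {t : B D} :
    t ∈ sliceB b S ↔ consB b t ∈ S := by
  simp [sliceB]

lemma slice_ext {R Q : Finset (B (D + 1))}
    (h0 : sliceB false R = sliceB false Q) (h1 : sliceB true R = sliceB true Q) : R = Q := by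
  ext x
  rw [← consB_headB_tailB x]
  cases headB x
  · rw [← mem_sliceB, ← mem_sliceB, h0]
  · rw [← mem_sliceB, ← mem_sliceB, h1]

lemma slice_eq_iff {R Q : Finset (B (D + 1))} :
    R = Q ↔ sliceB false R = sliceB false Q ∧ sliceB true R = sliceB true Q :=
  ⟨fun h => by rw [h]; exact ⟨rfl, rfl⟩, fun h => slice_ext h.1 h.2⟩

lemma sliceB_image_rootMk (b c : Bool) (g₀ g₁ : Equiv.Perm (B D)) (R : Finset (B (D + 1))) :
    sliceB b (R.image (rootMk c g₀ g₁)) =
      (sliceB (xor b c) R).image (⇑(if xor b c then g₁ else g₀)) := by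
  ext t
  simp only [mem_sliceB, mem_image]
  constructor
  · rintro ⟨x, hx, e⟩
    have hb := congrArg headB e
    have ht := congrArg tailB e
    rw [rootMk_apply] at hb ht
    simp only [headB_consB, tailB_consB] at hb ht
    have hb' : xor b c = headB x := by
      rw [← hb]; cases headB x <;> cases c <;> rfl
    refine ⟨tailB x, ?_, ?_⟩
    · rw [hb', consB_headB_tailB]; exact hx
    · rw [hb']; exact ht
  · rintro ⟨t', ht', e⟩
    refine ⟨_, ht', ?_⟩
    rw [rootMk_consB, e]
    cases b <;> cases c <;> rfl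

lemma card_sliceB (S : Finset (B (D + 1))) :
    S.card = (sliceB false S).card + (sliceB true S).card := by
  have h : ∀ b : Bool, (sliceB b S).card = (S.filter (fun x => headB x = b)).card := by
    intro b
    apply card_bij (fun t _ => consB b t)
    · intro t ht
      simpa using mem_sliceB.1 ht
    · intro t _ t' _ e
      simpa using congrArg tailB e
    · intro x hx
      have hx' := mem_filter.1 hx
      refine ⟨tailB x, ?_, ?_⟩
      · rw [mem_sliceB, ← hx'.2, consB_headB_tailB]; exact hx'.1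
      · rw [← hx'.2, consB_headB_tailB]
  rw [h, h, ← card_union_of_disjoint]
  · congr 1
    ext x
    simp only [mem_union, mem_filter]
    cases headB x <;> simp
  · rw [disjoint_left]
    intro x hx hx'
    have h1 := (mem_filter.1 hx).2
    have h2 := (mem_filter.1 hx').2
    rw [h1] at h2
    cases h2

/-- The group of automorphisms at depth `D + 1`, from the root. -/
lemma els_autGroup_succ :
    els (autGroup (D + 1)) =
      ((univ : Finset Bool) ×ˢ (els (autGroup D) ×ˢ els (autGroup D))).image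
        (fun p => rootMk p.1 p.2.1 p.2.2) := by
  ext g
  simp only [mem_els, mem_image, mem_product, mem_univ, true_and, Prod.exists]
  constructor
  · intro hg
    obtain ⟨c, g₀, g₁, h₀, h₁, rfl⟩ := IsAut.root_decompose ((mem_autGroup).1 hg)
    exact ⟨c, g₀, g₁, ⟨h₀, h₁⟩, rfl⟩
  · rintro ⟨c, g₀, g₁, ⟨h₀, h₁⟩, rfl⟩
    exact isAut_rootMk c h₀ h₁

lemma rootMk_injOn :
    Set.InjOn (fun p : Bool × Equiv.Perm (B D) × Equiv.Perm (B D) => rootMk p.1 p.2.1 p.2.2)
      (((univ : Finset Bool) ×ˢ (els (autGroup D) ×ˢ els (autGroup D)) :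
        Finset (Bool × Equiv.Perm (B D) × Equiv.Perm (B D))) : Set _) := by
  rintro ⟨c, g₀, g₁⟩ _ ⟨c', g₀', g₁'⟩ _ e
  obtain ⟨h1, h2, h3⟩ := rootMk_injective e
  subst h1 h2 h3
  rfl

lemma card_els_succ :
    (els (autGroup (D + 1))).card = 2 * (els (autGroup D)).card ^ 2 := by
  rw [els_autGroup_succ, card_image_of_injOn rootMk_injOn, card_product, card_product]
  simp [pow_two]

/-- Count of transporters at depth `D + 1`. -/
theorem tr_succ (R Q : Finset (B (D + 1))) :
    tr (autGroup (D + 1)) R Q =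
      tr (autGroup D) (sliceB false R) (sliceB false Q) *
        tr (autGroup D) (sliceB true R) (sliceB true Q) +
      tr (autGroup D) (sliceB false R) (sliceB true Q) *
        tr (autGroup D) (sliceB true R) (sliceB false Q) := by
  classical
  unfold tr
  rw [els_autGroup_succ, filter_image, card_image_of_injOn (rootMk_injOn.mono (by
    intro x hx
    exact (mem_filter.1 hx).1))]
  have hsplit : ((univ : Finset Bool) ×ˢ (els (autGroup D) ×ˢ els (autGroup D))).filter
      (fun p => R.image (⇑(rootMk p.1 p.2.1 p.2.2)) = Q) =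
      ((els (autGroup D) ×ˢ els (autGroup D)).filter (fun p =>
          R.image (⇑(rootMk false p.1 p.2)) = Q)).image (fun p => (false, p)) ∪
      ((els (autGroup D) ×ˢ els (autGroup D)).filter (fun p =>
          R.image (⇑(rootMk true p.1 p.2)) = Q)).image (fun p => (true, p)) := by
    ext ⟨c, g₀, g₁⟩
    simp only [mem_filter, mem_product, mem_univ, true_and, mem_union, mem_image, Prod.mk.injEq,
      Prod.exists]
    cases c <;> simp
  rw [hsplit, card_union_of_disjoint]
  · rw [card_image_of_injective _ (fun a b e => (Prod.ext_iff.1 e).2),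
      card_image_of_injective _ (fun a b e => (Prod.ext_iff.1 e).2)]
    congr 1
    · have : (els (autGroup D) ×ˢ els (autGroup D)).filter (fun p =>
          R.image (⇑(rootMk false p.1 p.2)) = Q) =
          ((els (autGroup D)).filter (fun g : Equiv.Perm (B D) =>
            (sliceB false R).image (⇑g) = sliceB false Q)) ×ˢ
          ((els (autGroup D)).filter (fun g : Equiv.Perm (B D) =>
            (sliceB true R).image (⇑g) = sliceB true Q)) := by
        ext ⟨g₀, g₁⟩
        simp only [mem_filter, mem_product]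
        rw [slice_eq_iff, sliceB_image_rootMk, sliceB_image_rootMk]
        simp only [Bool.xor_false, Bool.false_eq_true, if_false, if_true]
        tauto
      rw [this, card_product]
    · have : (els (autGroup D) ×ˢ els (autGroup D)).filter (fun p =>
          R.image (⇑(rootMk true p.1 p.2)) = Q) =
          ((els (autGroup D)).filter (fun g : Equiv.Perm (B D) =>
            (sliceB false R).image (⇑g) = sliceB true Q)) ×ˢ
          ((els (autGroup D)).filter (fun g : Equiv.Perm (B D) =>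
            (sliceB true R).image (⇑g) = sliceB false Q)) := by
        ext ⟨g₀, g₁⟩
        simp only [mem_filter, mem_product]
        rw [slice_eq_iff, sliceB_image_rootMk, sliceB_image_rootMk]
        simp only [Bool.xor_true, Bool.not_false, Bool.not_true, Bool.false_eq_true, if_false,
          if_true]
        tauto
      rw [this, card_product]
  · rw [disjoint_left]
    intro x hx hx'
    obtain ⟨p, _, rfl⟩ := mem_image.1 hx
    obtain ⟨q, _, e⟩ := mem_image.1 hx'
    cases (Prod.ext_iff.1 e).1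

/-- The weight at depth `D + 1`. -/
theorem wt_succ (R : Finset (B (D + 1))) :
    wt (autGroup (D + 1)) R =
      (1 / 2) * (wt (autGroup D) (sliceB false R) * wt (autGroup D) (sliceB true R)) +
      (1 / 2) * (pr (autGroup D) (sliceB false R) (sliceB true R) *
        pr (autGroup D) (sliceB true R) (sliceB false R)) := by
  unfold wt pr
  rw [tr_succ, card_els_succ]
  have hne := card_els_ne (autGroup D)
  push_cast
  field_simp

/-- Subsets of `S` are the pairs of subsets of the two slices. -/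
lemma sum_powerset_slice {β : Type*} [AddCommMonoid β] (S : Finset (B (D + 1)))
    (f : Finset (B D) → Finset (B D) → β) :
    ∑ R ∈ S.powerset, f (sliceB false R) (sliceB true R) =
      ∑ R₀ ∈ (sliceB false S).powerset, ∑ R₁ ∈ (sliceB true S).powerset, f R₀ R₁ := by
  rw [← sum_product']
  apply sum_bij (fun R _ => (sliceB false R, sliceB true R))
  · intro R hR
    simp only [mem_powerset, mem_product] at hR ⊢
    constructor
    · intro t ht
      exact mem_sliceB.2 (hR (mem_sliceB.1 ht))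
    · intro t ht
      exact mem_sliceB.2 (hR (mem_sliceB.1 ht))
  · intro R _ Q _ e
    exact slice_ext (Prod.ext_iff.1 e).1 (Prod.ext_iff.1 e).2
  · rintro ⟨R₀, R₁⟩ h
    simp only [mem_powerset, mem_product] at h
    refine ⟨R₀.image (consB false) ∪ R₁.image (consB true), ?_, ?_⟩
    · rw [mem_powerset]
      intro x hx
      rcases mem_union.1 hx with hx | hx
      · obtain ⟨t, ht, rfl⟩ := mem_image.1 hx
        exact mem_sliceB.1 (h.1 ht)
      · obtain ⟨t, ht, rfl⟩ := mem_image.1 hx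
        exact mem_sliceB.1 (h.2 ht)
    · ext t
      · simp only [mem_sliceB, mem_union, mem_image]
        constructor
        · rintro (⟨t', ht', e⟩ | ⟨t', ht', e⟩)
          · have := congrArg tailB e
            simp only [tailB_consB] at this
            rwa [← this]
          · have := congrArg headB e
            simp at this
        · intro ht
          exact Or.inl ⟨t, ht, rfl⟩
      · simp only [mem_sliceB, mem_union, mem_image]
        constructor
        · rintro (⟨t', ht', e⟩ | ⟨t', ht', e⟩)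
          · have := congrArg headB e
            simp at this
          · have := congrArg tailB e
            simp only [tailB_consB] at this
            rwa [← this]
        · intro ht
          exact Or.inr ⟨t, ht, rfl⟩
  · intro R _
    rfl

/-- The root recursion, in exact form. -/
theorem Aw_succ (S : Finset (B (D + 1))) :
    Aw (autGroup (D + 1)) S =
      (1 / 2) * (Aw (autGroup D) (sliceB false S) * Aw (autGroup D) (sliceB true S)) +
      (1 / 2) * ∑ R₀ ∈ (sliceB false S).powerset, ∑ R₁ ∈ (sliceB true S).powerset,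
        (pr (autGroup D) R₀ R₁ * pr (autGroup D) R₁ R₀) := by
  unfold Aw
  simp_rw [wt_succ]
  rw [sum_add_distrib, ← mul_sum, ← mul_sum]
  rw [sum_powerset_slice S (fun a b => pr (autGroup D) a b * pr (autGroup D) b a)]
  rw [sum_powerset_slice S (fun a b => wt (autGroup D) a * wt (autGroup D) b)]
  rw [sum_mul_sum]

lemma sum_pr_powerset_le_one {X : Type*} [Fintype X] [DecidableEq X]
    (Γ : Subgroup (Equiv.Perm X)) (R S : Finset X) :
    ∑ Q ∈ S.powerset, pr Γ R Q ≤ 1 := by
  rw [← sum_pr Γ R]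
  exact sum_le_sum_of_subset_of_nonneg (subset_univ _) fun _ _ _ => pr_nonneg _ _ _

lemma sum_sum_pr_le_left {X : Type*} [Fintype X] [DecidableEq X]
    (Γ : Subgroup (Equiv.Perm X)) (S₀ S₁ : Finset X) :
    ∑ R₀ ∈ S₀.powerset, ∑ R₁ ∈ S₁.powerset, (pr Γ R₀ R₁ * pr Γ R₁ R₀) ≤ Aw Γ S₀ := by
  refine sum_le_sum fun R₀ _ => ?_
  calc ∑ R₁ ∈ S₁.powerset, (pr Γ R₀ R₁ * pr Γ R₁ R₀)
      ≤ ∑ R₁ ∈ S₁.powerset, (pr Γ R₀ R₁ * wt Γ R₀) := by
        refine sum_le_sum fun R₁ _ => mul_le_mul_of_nonneg_left ?_ (pr_nonneg _ _ _)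
        rw [pr_symm]
        exact pr_le_self _ _ _
    _ = (∑ R₁ ∈ S₁.powerset, pr Γ R₀ R₁) * wt Γ R₀ := by rw [sum_mul]
    _ ≤ 1 * wt Γ R₀ := mul_le_mul_of_nonneg_right (sum_pr_powerset_le_one _ _ _) (wt_nonneg _ _)
    _ = wt Γ R₀ := one_mul _

lemma sum_sum_pr_le_right {X : Type*} [Fintype X] [DecidableEq X]
    (Γ : Subgroup (Equiv.Perm X)) (S₀ S₁ : Finset X) :
    ∑ R₀ ∈ S₀.powerset, ∑ R₁ ∈ S₁.powerset, (pr Γ R₀ R₁ * pr Γ R₁ R₀) ≤ Aw Γ S₁ := by
  rw [sum_comm]
  refine (le_of_eq ?_).trans (sum_sum_pr_le_left Γ S₁ S₀)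
  refine sum_congr rfl fun R₁ _ => sum_congr rfl fun R₀ _ => mul_comm _ _

/-- **The recursion at the root**. -/
theorem Aw_root_le (S : Finset (B (D + 1))) :
    Aw (autGroup (D + 1)) S ≤
      (1 / 2) * (Aw (autGroup D) (sliceB false S) * Aw (autGroup D) (sliceB true S)) +
      (1 / 2) * min (Aw (autGroup D) (sliceB false S)) (Aw (autGroup D) (sliceB true S)) := by
  rw [Aw_succ]
  have := le_min (sum_sum_pr_le_left (autGroup D) (sliceB false S) (sliceB true S))
    (sum_sum_pr_le_right (autGroup D) (sliceB false S) (sliceB true S))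
  linarith

/-! ### Tables -/

/-- A table closed under the recursion bounds the weights. -/
theorem Aw_le_table (T : ℕ → ℕ → ℝ) (h00 : 1 ≤ T 0 0) (h01 : 2 ≤ T 0 1)
    (hT : ∀ d m₀ m₁, m₀ ≤ 2 ^ d → m₁ ≤ 2 ^ d →
      (1 / 2) * (T d m₀ * T d m₁) + (1 / 2) * min (T d m₀) (T d m₁) ≤ T (d + 1) (m₀ + m₁))
    (d : ℕ) (S : Finset (B d)) : Aw (autGroup d) S ≤ T d S.card := by
  induction d with
  | zero =>
    have hwt : ∀ R : Finset (B 0), wt (autGroup 0) R = 1 := by
      intro R
      have hone : ∀ g : Equiv.Perm (B 0), g = 1 := fun g => Subsingleton.elim _ _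
      have hels : els (autGroup 0) = {1} := by
        ext g
        simp only [mem_els, mem_singleton]
        constructor
        · intro _; exact hone g
        · rintro rfl; exact (autGroup 0).one_mem
      unfold wt pr tr
      rw [hels, filter_singleton]
      simp
    have hc : S = ∅ ∨ S = {fun _ => false} := by
      by_cases h : S = ∅
      · exact Or.inl h
      · right
        obtain ⟨x, hx⟩ := nonempty_iff_ne_empty.2 h
        ext y
        rw [mem_singleton]
        have e : y = fun _ => false := Subsingleton.elim _ _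
        constructor
        · intro _; exact e
        · intro _
          rw [e, Subsingleton.elim (fun _ => false) x]
          exact hx
    rcases hc with rfl | rfl
    · unfold Aw
      simp only [powerset_empty, sum_singleton, hwt, card_empty]
      exact h00
    · unfold Aw
      simp only [hwt, sum_const, card_powerset, card_singleton, nsmul_eq_mul, mul_one]
      norm_num
      exact h01
  | succ d ih =>
    have h0 := ih (sliceB false S)
    have h1 := ih (sliceB true S)
    have hc0 : (sliceB false S).card ≤ 2 ^ d := by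
      simpa using card_le_univ (sliceB false S)
    have hc1 : (sliceB true S).card ≤ 2 ^ d := by
      simpa using card_le_univ (sliceB true S)
    rw [card_sliceB S]
    refine (Aw_root_le S).trans (le_trans ?_ (hT d _ _ hc0 hc1))
    have n0 := Aw_nonneg (autGroup d) (sliceB false S)
    have n1 := Aw_nonneg (autGroup d) (sliceB true S)
    have hm := mul_le_mul h0 h1 n1 (n0.trans h0)
    have hmin := min_le_min h0 h1
    linarith

/-- The closed form, for any exponent with `e ^ c ≥ 3 / 2`. -/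
theorem Aw_le_exp {c : ℝ} (hc : 3 / 2 ≤ Real.exp c) (d : ℕ) (S : Finset (B d)) :
    Aw (autGroup d) S ≤ 2 * Real.exp (c * S.card) - 1 := by
  have hc0 : 0 ≤ c := by
    by_contra h
    have : Real.exp c < 1 := by
      rw [← Real.exp_zero]
      exact Real.exp_lt_exp.2 (not_le.1 h)
    linarith
  have := Aw_le_table (fun _ m => 2 * Real.exp (c * m) - 1) (by simp; norm_num)
    (by simp; linarith) (by
      intro _ m₀ m₁ _ _
      have ha : 1 ≤ Real.exp (c * m₀) := Real.one_le_exp (by positivity)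
      have hb : 1 ≤ Real.exp (c * m₁) := Real.one_le_exp (by positivity)
      have hab : Real.exp (c * ((m₀ + m₁ : ℕ) : ℝ)) = Real.exp (c * m₀) * Real.exp (c * m₁) := by
        rw [← Real.exp_add]; push_cast; ring_nf
      simp only [hab]
      set a := Real.exp (c * m₀)
      set b := Real.exp (c * m₁)
      have hmin : min (2 * a - 1) (2 * b - 1) ≤ ((2 * a - 1) + (2 * b - 1)) / 2 := by
        rcases le_total a b with h | h
        · rw [min_eq_left (by linarith)]; linarith
        · rw [min_eq_right (by linarith)]; linarith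
      nlinarith) d S
  exact this

/-! ### The table `Bd` -/

/-- The admissible splits of `m` at depth `d + 1`. -/
def splits (d m : ℕ) : Finset (ℕ × ℕ) :=
  (antidiagonal m).filter (fun p => p.1 ≤ 2 ^ d ∧ p.2 ≤ 2 ^ d)

lemma mem_splits {d m : ℕ} {p : ℕ × ℕ} :
    p ∈ splits d m ↔ p.1 + p.2 = m ∧ p.1 ≤ 2 ^ d ∧ p.2 ≤ 2 ^ d := by
  simp [splits]

lemma splits_nonempty {d m : ℕ} (h : m ≤ 2 ^ (d + 1)) : (splits d m).Nonempty := by
  refine ⟨(min m (2 ^ d), m - min m (2 ^ d)), mem_splits.2 ⟨?_, ?_, ?_⟩⟩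
  · simp
  · simp
  · rw [pow_succ] at h
    simp only
    omega

/-- The table of upper bounds for `Aw (autGroup d) S` with `#S = m`. -/
noncomputable def Bd : ℕ → ℕ → ℝ
  | 0, 0 => 1
  | 0, _ + 1 => 2
  | d + 1, m => if h : (splits d m).Nonempty then (splits d m).sup' h
      (fun p => (1 / 2) * (Bd d p.1 * Bd d p.2) + (1 / 2) * min (Bd d p.1) (Bd d p.2)) else 0

@[simp] lemma Bd_zero_zero : Bd 0 0 = 1 := by simp [Bd]
@[simp] lemma Bd_zero_succ (m : ℕ) : Bd 0 (m + 1) = 2 := by simp [Bd]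

lemma Bd_succ (d m : ℕ) (h : (splits d m).Nonempty) : Bd (d + 1) m = (splits d m).sup' h
      (fun p => (1 / 2) * (Bd d p.1 * Bd d p.2) + (1 / 2) * min (Bd d p.1) (Bd d p.2)) := by
  rw [Bd, dif_pos h]

lemma Bd_succ_ge (d m₀ m₁ : ℕ) (h₀ : m₀ ≤ 2 ^ d) (h₁ : m₁ ≤ 2 ^ d) :
    (1 / 2) * (Bd d m₀ * Bd d m₁) + (1 / 2) * min (Bd d m₀) (Bd d m₁) ≤ Bd (d + 1) (m₀ + m₁) := by
  have hm : (m₀, m₁) ∈ splits d (m₀ + m₁) := mem_splits.2 ⟨rfl, h₀, h₁⟩
  rw [Bd_succ d _ ⟨_, hm⟩]
  exact le_sup' (f := fun p : ℕ × ℕ =>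
    (1 / 2) * (Bd d p.1 * Bd d p.2) + (1 / 2) * min (Bd d p.1) (Bd d p.2)) hm

/-- Upper bounds for `Bd`: this is how a table is checked. -/
lemma Bd_succ_le {d m : ℕ} {q : ℝ} (hq : 0 ≤ q) (h : ∀ m₀ m₁, m₀ + m₁ = m → m₀ ≤ 2 ^ d → m₁ ≤ 2 ^ d →
    (1 / 2) * (Bd d m₀ * Bd d m₁) + (1 / 2) * min (Bd d m₀) (Bd d m₁) ≤ q) :
    Bd (d + 1) m ≤ q := by
  by_cases hn : (splits d m).Nonempty
  · rw [Bd_succ d m hn]
    apply sup'_le
    rintro ⟨m₀, m₁⟩ hp
    obtain ⟨h1, h2, h3⟩ := mem_splits.1 hp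
    exact h m₀ m₁ h1 h2 h3
  · rw [Bd, dif_neg hn]
    exact hq

/-- The maximising split (for `m ≤ 2 ^ (d + 1)`). -/
lemma Bd_succ_exists {d m : ℕ} (h : m ≤ 2 ^ (d + 1)) :
    ∃ m₀ m₁, m₀ + m₁ = m ∧ m₀ ≤ 2 ^ d ∧ m₁ ≤ 2 ^ d ∧
      Bd (d + 1) m = (1 / 2) * (Bd d m₀ * Bd d m₁) + (1 / 2) * min (Bd d m₀) (Bd d m₁) := by
  have hn := splits_nonempty h
  obtain ⟨p, hp, he⟩ := exists_mem_eq_sup' hn (fun p : ℕ × ℕ =>
    (1 / 2) * (Bd d p.1 * Bd d p.2) + (1 / 2) * min (Bd d p.1) (Bd d p.2))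
  obtain ⟨h1, h2, h3⟩ := mem_splits.1 hp
  exact ⟨p.1, p.2, h1, h2, h3, by rw [Bd_succ d m hn, he]⟩

/-- `A(S) ≤ B_d(#S)`. -/
theorem Aw_le_Bd {d : ℕ} (S : Finset (B d)) : Aw (autGroup d) S ≤ Bd d S.card :=
  Aw_le_table Bd (by simp) (by simp) (fun d m₀ m₁ h₀ h₁ => Bd_succ_ge d m₀ m₁ h₀ h₁) d S

lemma Bd_nonneg (d m : ℕ) : 0 ≤ Bd d m := by
  induction d generalizing m with
  | zero => cases m <;> simp
  | succ d ih =>
    by_cases hn : (splits d m).Nonempty
    · rw [Bd_succ d m hn]
      obtain ⟨p, hp⟩ := hn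
      refine le_trans ?_ (le_sup' (f := fun p : ℕ × ℕ =>
        (1 / 2) * (Bd d p.1 * Bd d p.2) + (1 / 2) * min (Bd d p.1) (Bd d p.2)) hp)
      have h0 := ih p.1
      have h1 := ih p.2
      have h3 := mul_nonneg h0 h1
      have h4 := le_min h0 h1
      linarith
    · rw [Bd, dif_neg hn]

variable {T₀ T₁ T : Type*} [Fintype T₀] [DecidableEq T₀] [Fintype T₁] [DecidableEq T₁]
  [Fintype T] [DecidableEq T]

lemma Aw_image_le_Bd {u : T → B D} (hu : Function.Injective u) :
    Aw (autGroup D) (univ.image u) ≤ Bd D (Fintype.card T) := by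
  have := Aw_le_Bd (univ.image u)
  rwa [card_image_of_injective _ hu, card_univ] at this

/-- **Decoupling** (for `(g, h)` uniform in `autGroup D`). -/
theorem avg_W_le {u₀ u₀' : T₀ → B D} {u₁ u₁' : T₁ → B D}
    (h₀ : Function.Injective u₀) (h₀' : Function.Injective u₀')
    (h₁ : Function.Injective u₁) (h₁' : Function.Injective u₁') :
    (∑ g ∈ els (autGroup D), ∑ h ∈ els (autGroup D), (pairW u₀ u₀' (g ∘ u₁) (h ∘ u₁') : ℝ)) /
        ((els (autGroup D)).card : ℝ) ^ 2 ≤
      √(Bd D (Fintype.card T₀) * Bd D (Fintype.card T₁)) := by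
  refine (avg_pairW_le (autGroup D) u₀ u₀' u₁ u₁' h₀ h₀' h₁ h₁').trans ?_
  apply Real.sqrt_le_sqrt
  exact mul_le_mul (Aw_image_le_Bd h₀) (Aw_image_le_Bd h₁) (Aw_nonneg _ _) (Bd_nonneg _ _)

omit [Fintype T₁] in
/-- No interaction if the first family of tokens is empty. -/
lemma pairW_of_isEmpty_left [Fintype T₁] [IsEmpty T₀] {X : Type*} [DecidableEq X]
    (u₀ u₀' : T₀ → X) (u₁ u₁' : T₁ → X) : pairW u₀ u₀' u₁ u₁' = 1 := by
  unfold pairW
  rw [card_eq_one]
  refine ⟨(∅, ∅), ?_⟩
  ext ⟨A, A'⟩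
  have hA : A = ∅ := Subsingleton.elim _ _
  subst hA
  simp only [mem_filter, mem_univ, true_and, image_empty, mem_singleton, Prod.mk.injEq]
  constructor
  · rintro ⟨h, _⟩
    exact image_eq_empty.1 h.symm
  · rintro rfl
    simp

/-- No interaction if the second family of tokens is empty. -/
lemma pairW_of_isEmpty_right [IsEmpty T₁] {X : Type*} [DecidableEq X]
    (u₀ u₀' : T₀ → X) (u₁ u₁' : T₁ → X) : pairW u₀ u₀' u₁ u₁' = 1 := by
  unfold pairW
  rw [card_eq_one]
  refine ⟨(∅, ∅), ?_⟩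
  ext ⟨A, A'⟩
  have hA : A' = ∅ := Subsingleton.elim _ _
  subst hA
  simp only [mem_filter, mem_univ, true_and, image_empty, mem_singleton, Prod.mk.injEq]
  constructor
  · rintro ⟨h, _⟩
    exact ⟨image_eq_empty.1 h, trivial⟩
  · rintro ⟨rfl, _⟩
    simp

/-! ### The form consumed by the recursion -/

/-- Pairs of injective placements of tokens. -/
abbrev Plc (T : Type*) (D : ℕ) := (T ↪ B D) × (T ↪ B D)

/-- The left-right action of `(g, k)` on pairs of placements. -/
def actP (g k : Equiv.Perm (B D)) (π : Plc T D) : Plc T D :=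
  (π.1.trans g.toEmbedding, π.2.trans k.toEmbedding)

/-- The cycle weight of two placements. -/
def Wp (π₀ : Plc T₀ D) (π₁ : Plc T₁ D) : ℕ := pairW π₀.1 π₀.2 π₁.1 π₁.2

/-- The action is a bijection. -/
def actPEquiv (g k : Equiv.Perm (B D)) : Plc T D ≃ Plc T D where
  toFun := actP g k
  invFun := actP g⁻¹ k⁻¹
  left_inv π := by
    ext <;> simp [actP]
  right_inv π := by
    ext <;> simp [actP]

/-- The average of `Wp` is bounded by `κ`, the sum is bounded by `κ` times the product of sums. -/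
theorem sum_Wp_le_of_avg {κ : ℝ}
    (havg : ∀ (π₀ : Plc T₀ D) (π₁ : Plc T₁ D),
      (∑ g ∈ els (autGroup D), ∑ k ∈ els (autGroup D), (Wp π₀ (actP g k π₁) : ℝ)) /
        ((els (autGroup D)).card : ℝ) ^ 2 ≤ κ)
    (f : Plc T₀ D → ℝ) (h : Plc T₁ D → ℝ) (hf : ∀ π, 0 ≤ f π) (hh : ∀ π, 0 ≤ h π)
    (hinv : ∀ g ∈ autGroup D, ∀ k ∈ autGroup D, ∀ π, h (actP g k π) = h π) :
    ∑ π₀, ∑ π₁, f π₀ * h π₁ * (Wp π₀ π₁ : ℝ) ≤ κ * (∑ π, f π) * (∑ π, h π) := by
  set G := els (autGroup D) with hG
  have hne : ((G.card : ℝ)) ≠ 0 := card_els_ne _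
  have hpos : (0 : ℝ) < (G.card : ℝ) ^ 2 := by positivity
  -- Averaging over the group.
  have key : ∀ π₀ : Plc T₀ D, ∑ π₁, h π₁ * (Wp π₀ π₁ : ℝ) =
      ∑ π₁, h π₁ * ((∑ g ∈ G, ∑ k ∈ G, (Wp π₀ (actP g k π₁) : ℝ)) / (G.card : ℝ) ^ 2) := by
    intro π₀
    have h1 : ∀ g ∈ G, ∀ k ∈ G, ∑ π₁, h π₁ * (Wp π₀ (actP g k π₁) : ℝ) =
        ∑ π₁, h π₁ * (Wp π₀ π₁ : ℝ) := by
      intro g hg k hk
      rw [← Equiv.sum_comp (actPEquiv g k) (fun π₁ => h π₁ * (Wp π₀ π₁ : ℝ))]
      refine sum_congr rfl fun π₁ _ => ?_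
      change h π₁ * _ = h (actP g k π₁) * _
      rw [hinv g ((mem_els _).1 hg) k ((mem_els _).1 hk)]
      rfl
    have h2 : ∑ g ∈ G, ∑ k ∈ G, ∑ π₁, h π₁ * (Wp π₀ (actP g k π₁) : ℝ) =
        (G.card : ℝ) ^ 2 * ∑ π₁, h π₁ * (Wp π₀ π₁ : ℝ) := by
      rw [sum_congr rfl fun g hg => sum_congr rfl fun k hk => h1 g hg k hk]
      simp only [sum_const, nsmul_eq_mul]
      ring
    have h3 : ∑ g ∈ G, ∑ k ∈ G, ∑ π₁, h π₁ * (Wp π₀ (actP g k π₁) : ℝ) =
        ∑ π₁, h π₁ * (∑ g ∈ G, ∑ k ∈ G, (Wp π₀ (actP g k π₁) : ℝ)) := by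
      simp_rw [mul_sum]
      rw [sum_congr rfl fun g _ => sum_comm, sum_comm]
    rw [h3] at h2
    simp_rw [mul_div_assoc', ← sum_div]
    rw [h2]
    field_simp
  calc ∑ π₀, ∑ π₁, f π₀ * h π₁ * (Wp π₀ π₁ : ℝ)
      = ∑ π₀, f π₀ * ∑ π₁, h π₁ * (Wp π₀ π₁ : ℝ) := by
        refine sum_congr rfl fun π₀ _ => ?_
        rw [mul_sum]
        exact sum_congr rfl fun _ _ => mul_assoc _ _ _
    _ ≤ ∑ π₀, f π₀ * (κ * ∑ π, h π) := by
        refine sum_le_sum fun π₀ _ => mul_le_mul_of_nonneg_left ?_ (hf π₀)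
        rw [key, mul_sum]
        refine sum_le_sum fun π₁ _ => ?_
        rw [mul_comm κ]
        exact mul_le_mul_of_nonneg_left (havg π₀ π₁) (hh π₁)
    _ = κ * (∑ π, f π) * (∑ π, h π) := by
        rw [← sum_mul, mul_comm, mul_assoc]
        ring

/-- **The form consumed by the recursion**. -/
theorem sum_Wp_le (f : Plc T₀ D → ℝ) (h : Plc T₁ D → ℝ) (hf : ∀ π, 0 ≤ f π) (hh : ∀ π, 0 ≤ h π)
    (hinv : ∀ g ∈ autGroup D, ∀ k ∈ autGroup D, ∀ π, h (actP g k π) = h π) :
    ∑ π₀, ∑ π₁, f π₀ * h π₁ * (Wp π₀ π₁ : ℝ) ≤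
      √(Bd D (Fintype.card T₀) * Bd D (Fintype.card T₁)) * (∑ π, f π) * (∑ π, h π) := by
  refine sum_Wp_le_of_avg (fun π₀ π₁ => ?_) f h hf hh hinv
  exact avg_W_le π₀.1.injective π₀.2.injective π₁.1.injective π₁.2.injective

/-- If one of the families of tokens is empty there is no loss. -/
theorem sum_Wp_of_isEmpty_left [IsEmpty T₀] (f : Plc T₀ D → ℝ) (h : Plc T₁ D → ℝ) :
    ∑ π₀, ∑ π₁, f π₀ * h π₁ * (Wp π₀ π₁ : ℝ) = (∑ π, f π) * (∑ π, h π) := by
  rw [sum_mul_sum]
  refine sum_congr rfl fun π₀ _ => sum_congr rfl fun π₁ _ => ?_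
  simp [Wp, pairW_of_isEmpty_left]

/-- If one of the families of tokens is empty there is no loss. -/
theorem sum_Wp_of_isEmpty_right [IsEmpty T₁] (f : Plc T₀ D → ℝ) (h : Plc T₁ D → ℝ) :
    ∑ π₀, ∑ π₁, f π₀ * h π₁ * (Wp π₀ π₁ : ℝ) = (∑ π, f π) * (∑ π, h π) := by
  rw [sum_mul_sum]
  refine sum_congr rfl fun π₀ _ => sum_congr rfl fun π₁ _ => ?_
  simp [Wp, pairW_of_isEmpty_right]

end Root

end Crest.Agent.S0222Lib.Decouple
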