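import Crest.Agent.S0222Lib.Decouple

/-!
# S0222: the number of compatible splits is bounded by the cycle weight

For two placements `u, u'` of tokens (positions on the low bits), a split `S : Tok → Bool` is compatible
if tokens sharing a position have different sides.  Then for every compatible split `S₀`
`#compat · 2 ^ j ≤ 2 ^ (#im u + #im u') · pairW (u|S₀ = 0, u'|S₀ = 0) (u|S₀ = 1, u'|S₀ = 1)`,
that is `#compat ≤ 2 ^ (j - dbl u - dbl u') · W`, with `dbl u = j - #im u` (`card_compat_le`).

The proof is by the handshake lemma in each component of the token graph; no path structure is used: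
`2 · #u(C) ≥ #C + #(singleton fibres)`, so `#u(C) + #u'(C) - #C` is at least `1` for a component with
a free end and at least `0` for any component.
-/

set_option autoImplicit false
set_option linter.unusedSectionVars false

namespace Crest.Agent.S0222Lib.Decouple

open Finset

section Bridge

variable {Tok X : Type*} [Fintype Tok] [DecidableEq Tok] [DecidableEq X]

/-- The compatible splits: tokens sharing a position have different sides. -/
def compat (u u' : Tok → X) : Finset (Tok → Bool) :=
  univ.filter (fun S => ∀ t t', t ≠ t' → (u t = u t' ∨ u' t = u' t') → S t ≠ S t')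

lemma mem_compat {u u' : Tok → X} {S : Tok → Bool} :
    S ∈ compat u u' ↔ ∀ t t', t ≠ t' → (u t = u t' ∨ u' t = u' t') → S t ≠ S t' := by
  simp [compat]

/-- The restriction of a placement to one side of a split. -/
def half (S : Tok → Bool) (b : Bool) (v : Tok → X) : {t // S t = b} → X := fun t => v t.1

lemma half_injective {S : Tok → Bool} {v : Tok → X}
    (hv : ∀ t t', t ≠ t' → v t = v t' → S t ≠ S t') (b : Bool) :
    Function.Injective (half S b v) := by
  intro t t' e
  by_contra hne
  have hne' : t.1 ≠ t'.1 := fun h => hne (Subtype.ext h)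
  exact hv t.1 t'.1 hne' e (t.2.trans t'.2.symm)

lemma fiber_le_two {S : Tok → Bool} {v : Tok → X}
    (hv : ∀ t t', t ≠ t' → v t = v t' → S t ≠ S t') (F : Finset Tok) (x : X) :
    (F.filter (fun t => v t = x)).card ≤ 2 := by
  by_contra h
  obtain ⟨a, ha, b, hb, c, hc, hab, hac, hbc⟩ := Finset.two_lt_card.1 (not_le.1 h)
  have ha' := (mem_filter.1 ha).2
  have hb' := (mem_filter.1 hb).2
  have hc' := (mem_filter.1 hc).2
  have h1 := hv a b hab (ha'.trans hb'.symm)
  have h2 := hv a c hac (ha'.trans hc'.symm)
  have h3 := hv b c hbc (hb'.trans hc'.symm)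
  revert h1 h2 h3
  generalize S a = p
  generalize S b = q
  generalize S c = r
  revert p q r
  decide

lemma card_le_two_mul_image {S : Tok → Bool} {v : Tok → X}
    (hv : ∀ t t', t ≠ t' → v t = v t' → S t ≠ S t') (F : Finset Tok) :
    F.card ≤ 2 * (F.image v).card :=
  card_le_mul_card_image F 2 (fun x _ => fiber_le_two hv F x)

lemma card_lt_two_mul_image {S : Tok → Bool} {v : Tok → X}
    (hv : ∀ t t', t ≠ t' → v t = v t' → S t ≠ S t') {F : Finset Tok} {t : Tok} (ht : t ∈ F)
    (hend : ∀ t', v t' = v t → t' = t) :
    F.card < 2 * (F.image v).card := by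
  rw [card_eq_sum_card_image v F]
  calc ∑ b ∈ F.image v, (F.filter (fun a => v a = b)).card
      < ∑ _b ∈ F.image v, 2 := by
        apply sum_lt_sum (fun x _ => fiber_le_two hv F x)
        refine ⟨v t, mem_image_of_mem v ht, ?_⟩
        have : F.filter (fun a => v a = v t) ⊆ {t} := by
          intro a ha
          exact mem_singleton.2 (hend a (mem_filter.1 ha).2)
        have := card_le_card this
        simp only [card_singleton] at this
        omega
    _ = 2 * (F.image v).card := by
        simp [mul_comm]

/-- `t` has no partner in one of the placements. -/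
def isEnd (u u' : Tok → X) (t : Tok) : Prop :=
  (∀ t', u t' = u t → t' = t) ∨ (∀ t', u' t' = u' t → t' = t)

section Classes

variable {C : Type*} [Fintype C] [DecidableEq C]

/-- The tokens of a class. -/
def fib (cls : Tok → C) (c : C) : Finset Tok := univ.filter (fun t => cls t = c)

lemma mem_fib {cls : Tok → C} {c : C} {t : Tok} : t ∈ fib cls c ↔ cls t = c := by
  simp [fib]

lemma sum_card_fib (cls : Tok → C) : ∑ c, (fib cls c).card = Fintype.card Tok := by
  rw [← card_univ]
  exact (card_eq_sum_card_fiberwise (fun _ _ => mem_univ _)).symm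

lemma sum_card_image_fib (cls : Tok → C) (v : Tok → X) (hv : ∀ t t', v t = v t' → cls t = cls t') :
    ∑ c, ((fib cls c).image v).card = (univ.image v).card := by
  have : univ.image v = univ.biUnion (fun c => (fib cls c).image v) := by
    ext x
    simp only [mem_image, mem_univ, true_and, mem_biUnion, mem_fib]
    constructor
    · rintro ⟨t, rfl⟩
      exact ⟨cls t, t, rfl, rfl⟩
    · rintro ⟨_, t, _, rfl⟩
      exact ⟨t, rfl⟩
  rw [this, card_biUnion]
  intro c _ c' _ hne
  rw [Function.onFun, disjoint_left]
  intro x hx hx'
  obtain ⟨t, ht, rfl⟩ := mem_image.1 hx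
  obtain ⟨t', ht', e⟩ := mem_image.1 hx'
  apply hne
  rw [← mem_fib.1 ht, ← mem_fib.1 ht', hv t' t e]

/-- The classes with a free end. -/
noncomputable def openC (cls : Tok → C) (u u' : Tok → X) : Finset C := by
  classical exact univ.filter (fun c => ∃ t, cls t = c ∧ isEnd u u' t)

lemma mem_openC {cls : Tok → C} {u u' : Tok → X} {c : C} :
    c ∈ openC cls u u' ↔ ∃ t, cls t = c ∧ isEnd u u' t := by
  classical simp [openC]

/-- The handshake count: the number of open classes is at most the Euler characteristic. -/
lemma card_openC_add_le {cls : Tok → C} {u u' : Tok → X} {S : Tok → Bool}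
    (hS : S ∈ compat u u')
    (hcls : ∀ t t', (u t = u t' ∨ u' t = u' t') → cls t = cls t') :
    (openC cls u u').card + Fintype.card Tok ≤ (univ.image u).card + (univ.image u').card := by
  have h1 : ∀ t t', t ≠ t' → u t = u t' → S t ≠ S t' :=
    fun t t' hne h => mem_compat.1 hS t t' hne (Or.inl h)
  have h2 : ∀ t t', t ≠ t' → u' t = u' t' → S t ≠ S t' :=
    fun t t' hne h => mem_compat.1 hS t t' hne (Or.inr h)
  have hc : ∀ c, (if c ∈ openC cls u u' then 1 else 0) + (fib cls c).card ≤
      ((fib cls c).image u).card + ((fib cls c).image u').card := by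
    intro c
    have a1 := card_le_two_mul_image h1 (fib cls c)
    have a2 := card_le_two_mul_image h2 (fib cls c)
    split_ifs with hoc
    · obtain ⟨t, ht, hend⟩ := mem_openC.1 hoc
      rcases hend with hend | hend
      · have := card_lt_two_mul_image h1 (mem_fib.2 ht) hend
        omega
      · have := card_lt_two_mul_image h2 (mem_fib.2 ht) hend
        omega
    · omega
  have hsum := sum_le_sum (s := univ) fun c _ => hc c
  rw [sum_add_distrib, sum_add_distrib, sum_card_fib,
    sum_card_image_fib cls u (fun t t' e => hcls t t' (Or.inl e)),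
    sum_card_image_fib cls u' (fun t t' e => hcls t t' (Or.inr e)), sum_boole] at hsum
  simpa [filter_mem_eq_inter] using hsum

/-- The part on side `b` of the union of the classes in `𝒜`. -/
def partB (cls : Tok → C) (S : Tok → Bool) (b : Bool) (𝒜 : Finset C) : Finset {t // S t = b} :=
  univ.filter (fun t => cls t.1 ∈ 𝒜)

lemma image_partB_subset {cls : Tok → C} {S : Tok → Bool} {v : Tok → X}
    (hv : ∀ t t', t ≠ t' → v t = v t' → S t ≠ S t')
    (hcls : ∀ t t', v t = v t' → cls t = cls t') {𝒜 : Finset C}
    (h𝒜 : ∀ t, cls t ∈ 𝒜 → ¬ ∀ t', v t' = v t → t' = t) (b : Bool) :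
    (partB cls S b 𝒜).image (half S b v) ⊆ (partB cls S (!b) 𝒜).image (half S (!b) v) := by
  intro x hx
  obtain ⟨t, ht, rfl⟩ := mem_image.1 hx
  have ht' : cls t.1 ∈ 𝒜 := (mem_filter.1 ht).2
  have := h𝒜 t.1 ht'
  push Not at this
  obtain ⟨t', he, hne⟩ := this
  have hS := hv t' t.1 hne he
  have hS' : S t' = !b := by
    have := t.2
    rw [this] at hS
    cases hb : S t' <;> cases b <;> simp_all
  refine mem_image.2 ⟨⟨t', hS'⟩, ?_, he⟩
  refine mem_filter.2 ⟨mem_univ _, ?_⟩
  rw [hcls t' t.1 he]
  exact ht'

lemma image_partB_eq {cls : Tok → C} {S : Tok → Bool} {v : Tok → X}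
    (hv : ∀ t t', t ≠ t' → v t = v t' → S t ≠ S t')
    (hcls : ∀ t t', v t = v t' → cls t = cls t') {𝒜 : Finset C}
    (h𝒜 : ∀ t, cls t ∈ 𝒜 → ¬ ∀ t', v t' = v t → t' = t) :
    (partB cls S false 𝒜).image (half S false v) = (partB cls S true 𝒜).image (half S true v) :=
  Subset.antisymm (image_partB_subset hv hcls h𝒜 false) (image_partB_subset hv hcls h𝒜 true)

/-- `W ≥ 2 ^ c`, with `c` the number of closed classes. -/
lemma pow_closed_le_pairW {cls : Tok → C} {u u' : Tok → X} {S : Tok → Bool}
    (hS : S ∈ compat u u')
    (hcls : ∀ t t', (u t = u t' ∨ u' t = u' t') → cls t = cls t')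
    (hsurj : Function.Surjective cls) :
    2 ^ ((openC cls u u')ᶜ).card ≤
      pairW (half S false u) (half S false u') (half S true u) (half S true u') := by
  have h1 : ∀ t t', t ≠ t' → u t = u t' → S t ≠ S t' :=
    fun t t' hne h => mem_compat.1 hS t t' hne (Or.inl h)
  have h2 : ∀ t t', t ≠ t' → u' t = u' t' → S t ≠ S t' :=
    fun t t' hne h => mem_compat.1 hS t t' hne (Or.inr h)
  rw [← card_powerset]
  unfold pairW
  apply card_le_card_of_injOn (fun 𝒜 => (partB cls S false 𝒜, partB cls S true 𝒜))
  · intro 𝒜 h𝒜
    have hclosed : ∀ t, cls t ∈ 𝒜 → ¬ isEnd u u' t := by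
      intro t ht he
      have := (mem_powerset.1 (mem_coe.1 h𝒜)) ht
      exact (mem_compl.1 this) (mem_openC.2 ⟨t, rfl, he⟩)
    refine mem_coe.2 (mem_filter.2 ⟨mem_univ _, ?_, ?_⟩)
    · exact image_partB_eq h1 (fun t t' e => hcls t t' (Or.inl e))
        (fun t ht h => hclosed t ht (Or.inl h))
    · exact image_partB_eq h2 (fun t t' e => hcls t t' (Or.inr e))
        (fun t ht h => hclosed t ht (Or.inr h))
  · intro 𝒜 _ ℬ _ e
    have e1 : partB cls S false 𝒜 = partB cls S false ℬ := (Prod.ext_iff.1 e).1
    have e2 : partB cls S true 𝒜 = partB cls S true ℬ := (Prod.ext_iff.1 e).2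
    have key : ∀ {𝒜 ℬ : Finset C}, partB cls S false 𝒜 = partB cls S false ℬ →
        partB cls S true 𝒜 = partB cls S true ℬ → 𝒜 ⊆ ℬ := by
      intro 𝒜 ℬ e1 e2 c hc
      obtain ⟨t, rfl⟩ := hsurj c
      cases hb : S t
      · have : (⟨t, hb⟩ : {t // S t = false}) ∈ partB cls S false 𝒜 :=
          mem_filter.2 ⟨mem_univ _, hc⟩
        rw [e1] at this
        exact (mem_filter.1 this).2
      · have : (⟨t, hb⟩ : {t // S t = true}) ∈ partB cls S true 𝒜 :=
          mem_filter.2 ⟨mem_univ _, hc⟩
        rw [e2] at this
        exact (mem_filter.1 this).2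
    exact Subset.antisymm (key e1 e2) (key e1.symm e2.symm)

/-- Compatible splits differ by functions on the classes. -/
lemma card_compat_le_pow {cls : Tok → C} {u u' : Tok → X} {S : Tok → Bool}
    (hS : S ∈ compat u u')
    (hfac : ∀ e : Tok → Bool, (∀ t t', (u t = u t' ∨ u' t = u' t') → e t = e t') →
      ∀ t t', cls t = cls t' → e t = e t')
    (hsurj : Function.Surjective cls) :
    (compat u u').card ≤ 2 ^ Fintype.card C := by
  have hcard : (univ : Finset (C → Bool)).card = 2 ^ Fintype.card C := by
    simp
  rw [← hcard]
  obtain ⟨sec, hsec⟩ := hsurj.hasRightInverse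
  apply card_le_card_of_injOn (fun S' c => xor (S' (sec c)) (S (sec c)))
  · intro _ _
    exact mem_coe.2 (mem_univ _)
  · intro S' hS' S'' hS'' e
    have hS'm := mem_compat.1 (mem_coe.1 hS')
    have hS''m := mem_compat.1 (mem_coe.1 hS'')
    have hSm := mem_compat.1 hS
    have hsat : ∀ S' ∈ compat u u', ∀ t, xor (S' t) (S t) = xor (S' (sec (cls t))) (S (sec (cls t))) := by
      intro S' hS' t
      apply hfac (fun t => xor (S' t) (S t))
      · intro a b hab
        by_cases hne : a = b
        · rw [hne]
        · have i1 := (mem_compat.1 hS') a b hne hab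
          have i2 := hSm a b hne hab
          change xor (S' a) (S a) = xor (S' b) (S b)
          revert i1 i2
          generalize S' a = p
          generalize S' b = q
          generalize S a = r
          generalize S b = v
          revert p q r v
          decide
      · rw [hsec (cls t)]
    funext t
    have e1 := hsat S' hS' t
    have e2 := hsat S'' hS'' t
    have e3 := congrFun e (cls t)
    simp only at e3
    rw [← e1, ← e2] at e3
    revert e3
    generalize S' t = p
    generalize S'' t = q
    generalize S t = r
    revert p q r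
    decide

end Classes

/-- The partner relation on tokens. -/
def partnerRel (u u' : Tok → X) (t t' : Tok) : Prop := u t = u t' ∨ u' t = u' t'

/-- **The bridge**, without subtraction: for a compatible split `S`,
`#compat · 2 ^ j ≤ 2 ^ (#im u + #im u') · W`. -/
theorem card_compat_mul_le {u u' : Tok → X} {S : Tok → Bool} (hS : S ∈ compat u u') :
    (compat u u').card * 2 ^ Fintype.card Tok ≤
      2 ^ ((univ.image u).card + (univ.image u').card) *
        pairW (half S false u) (half S false u') (half S true u) (half S true u') := by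
  classical
  let s : Setoid Tok := Relation.EqvGen.setoid (partnerRel u u')
  let C := Quotient s
  letI : Fintype C := Fintype.ofFinite C
  let cls : Tok → C := fun t => Quotient.mk s t
  have hcls : ∀ t t', (u t = u t' ∨ u' t = u' t') → cls t = cls t' := fun t t' h =>
    Quotient.sound (Relation.EqvGen.rel _ _ h)
  have hsurj : Function.Surjective cls := Quotient.mk_surjective
  have hfac : ∀ e : Tok → Bool, (∀ t t', (u t = u t' ∨ u' t = u' t') → e t = e t') →
      ∀ t t', cls t = cls t' → e t = e t' := by
    intro e he t t' h
    have h' : Relation.EqvGen (partnerRel u u') t t' := Quotient.exact h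
    induction h' with
    | rel a b hab => exact he a b hab
    | refl a => rfl
    | symm a b _ ih => exact (ih (Quotient.sound (by assumption))).symm
    | trans a b c _ _ ih1 ih2 =>
        exact (ih1 (Quotient.sound (by assumption))).trans (ih2 (Quotient.sound (by assumption)))
  have h1 := card_compat_le_pow (cls := cls) hS hfac hsurj
  have h2 := card_openC_add_le (cls := cls) hS hcls
  have h3 := pow_closed_le_pairW (cls := cls) hS hcls hsurj
  have h4 : Fintype.card C = (openC cls u u').card + ((openC cls u u')ᶜ).card :=
    (card_add_card_compl _).symm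
  set W := pairW (half S false u) (half S false u') (half S true u) (half S true u')
  set o := (openC cls u u').card
  set c := ((openC cls u u')ᶜ).card
  set j := Fintype.card Tok
  set k := (univ.image u).card + (univ.image u').card
  calc (compat u u').card * 2 ^ j
      ≤ 2 ^ (o + c) * 2 ^ j := Nat.mul_le_mul_right _ (h4 ▸ h1)
    _ = 2 ^ (o + j) * 2 ^ c := by rw [← pow_add, ← pow_add]; congr 1; omega
    _ ≤ 2 ^ k * W := Nat.mul_le_mul (Nat.pow_le_pow_right (by norm_num) h2) h3

/-- The sum of the two image sizes is at least the number of tokens if a compatible split exists. -/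
theorem card_le_add_of_compat {u u' : Tok → X} {S : Tok → Bool} (hS : S ∈ compat u u') :
    Fintype.card Tok ≤ (univ.image u).card + (univ.image u').card := by
  classical
  let C := Quotient (Relation.EqvGen.setoid (partnerRel u u'))
  letI : Fintype C := Fintype.ofFinite C
  have h2 := card_openC_add_le (cls := fun t => (Quotient.mk _ t : C)) hS
    (fun t t' h => Quotient.sound (Relation.EqvGen.rel _ _ h))
  omega

/-- The number of double sites of a placement. -/
def dbl (u : Tok → X) : ℕ := Fintype.card Tok - (univ.image u).card

/-- **The bridge**: `#compat ≤ 2 ^ (j - dbl u - dbl u') · W`. -/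
theorem card_compat_le {u u' : Tok → X} {S : Tok → Bool} (hS : S ∈ compat u u') :
    (compat u u').card ≤
      2 ^ (Fintype.card Tok - dbl u - dbl u') *
        pairW (half S false u) (half S false u') (half S true u) (half S true u') := by
  have h := card_compat_mul_le hS
  have hj := card_le_add_of_compat hS
  have hu : (univ.image u).card ≤ Fintype.card Tok := card_image_le.trans (by simp)
  have hu' : (univ.image u').card ≤ Fintype.card Tok := card_image_le.trans (by simp)
  have he : (univ.image u).card + (univ.image u').card =
      (Fintype.card Tok - dbl u - dbl u') + Fintype.card Tok := by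
    unfold dbl
    omega
  rw [he, pow_add] at h
  have hpos : 0 < 2 ^ Fintype.card Tok := by positivity
  have : (compat u u').card * 2 ^ Fintype.card Tok ≤
      (2 ^ (Fintype.card Tok - dbl u - dbl u') *
        pairW (half S false u) (half S false u') (half S true u) (half S true u')) *
        2 ^ Fintype.card Tok := by
    calc _ ≤ _ := h
      _ = _ := by ring
  exact Nat.le_of_mul_le_mul_right this hpos

end Bridge

end Crest.Agent.S0222Lib.Decouple
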