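import Crest.Agent.S0222Lib.JNumChecks

/-!
# S0222, J/Numeric: the token recursion has a bound with slope `(1/32) log(c^7 Q / 64)` at level `d`,
`c = 2^(d-1)`, `Q ≥ e^7`: that is `7/32 · d log 2 - 0.0628`

Input: `B` with the recursion of the cycle bound (`IsBd`, the numbers of `Decouple`).
Output: `exists_Mt`: a family `Mt d j` (`d` = depth, `N = 2^d`, `j` = number of tokens), super-solution of
`M_{d+1}(j) ≥ 2^{-j} ∑_{j0+j1=j} C(j,j0) κ_d(j0,j1) M_d(j0) M_d(j1)`, `κ = 1` if `j0 j1 = 0`, else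
`√(B_d(j0) B_d(j1))`, with `Mt d 0 = 1`, `Mt d j = 0` for `j > 2^d`, and the slope bound
`Mt d (j+i) ≤ Mt d j · exp (i τ_d)`, `τ_d = (1/32) log ((2^(d-1))^7 · Q / 64)`, i.e. `a = 7/32 < 1/4`.
-/

set_option autoImplicit false
set_option maxRecDepth 100000

namespace Crest.Agent.S0222Lib.JNum

open Finset

/-- The recursion satisfied by the cycle bound. -/
structure IsBd (B : ℕ → ℕ → ℝ) : Prop where
  nonneg : ∀ d m, 0 ≤ B d m
  base0 : B 0 0 ≤ 1
  base1 : B 0 1 ≤ 2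
  step : ∀ d m, m ≤ 2 ^ (d + 1) → ∃ mL mR, mL + mR = m ∧ mL ≤ 2 ^ d ∧ mR ≤ 2 ^ d ∧
    B (d + 1) m ≤ 1 / 2 * (B d mL * B d mR) + 1 / 2 * min (B d mL) (B d mR)

/-- The weight of a split. -/
noncomputable def kap (B : ℕ → ℕ → ℝ) (d i k : ℕ) : ℝ :=
  if i = 0 ∨ k = 0 then 1 else Real.sqrt (B d i * B d k)

/-- Table level of a depth. -/
def lev (d : ℕ) : ℕ := min d 12

theorem lev_le (d : ℕ) : lev d ≤ 12 := min_le_right _ _
theorem lev_le_self (d : ℕ) : lev d ≤ d := min_le_left _ _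

theorem levelOK_all (l : ℕ) (hl : l ≤ 12) : levelOK l (TM l) (TS l) = true := by
  interval_cases l
  · exact level_ok_0
  · exact level_ok_1
  · exact level_ok_2
  · exact level_ok_3
  · exact level_ok_4
  · exact level_ok_5
  · exact level_ok_6
  · exact level_ok_7
  · exact level_ok_8
  · exact level_ok_9
  · exact level_ok_10
  · exact level_ok_11
  · exact level_ok_12

/-- The `sl` list of a table level. -/
def SL (l : ℕ) : List ℕ := sMerged tC (TS l)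

theorem chkStep_all (l : ℕ) (hl : l ≤ 12) : checkStep (TM l) (TM (min (l + 1) 12)) (SL l) = true := by
  interval_cases l
  · exact chk_step_0
  · exact chk_step_1
  · exact chk_step_2
  · exact chk_step_3
  · exact chk_step_4
  · exact chk_step_5
  · exact chk_step_6
  · exact chk_step_7
  · exact chk_step_8
  · exact chk_step_9
  · exact chk_step_10
  · exact chk_step_11
  · exact chk_step_12

theorem chkB_all (l : ℕ) (hl : l ≤ 12) : checkB (TS l) (TS (min (l + 1) 12)) = true := by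
  interval_cases l
  · exact chk_B_0
  · exact chk_B_1
  · exact chk_B_2
  · exact chk_B_3
  · exact chk_B_4
  · exact chk_B_5
  · exact chk_B_6
  · exact chk_B_7
  · exact chk_B_8
  · exact chk_B_9
  · exact chk_B_10
  · exact chk_B_11
  · exact chk_B_12

theorem lev_succ (d : ℕ) : lev (d + 1) = min (lev d + 1) 12 := by
  unfold lev; omega

/-- Per-level facts. -/
theorem TM_len (l : ℕ) (hl : l ≤ 12) : (TM l).length = min (2 ^ l) JJ + 1 := by
  have h := levelOK_all l hl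
  simp only [levelOK, Bool.and_eq_true, beq_iff_eq] at h
  exact h.1.1.1.1

theorem TS_len (l : ℕ) (hl : l ≤ 12) : (TS l).length = min (2 ^ l) 64 + 1 := by
  have h := levelOK_all l hl
  simp only [levelOK, Bool.and_eq_true, beq_iff_eq] at h
  exact h.1.1.1.2

theorem TM_head (l : ℕ) (hl : l ≤ 12) : (TM l).getD 0 0 = 2 ^ SS := by
  have h := levelOK_all l hl
  simp only [levelOK, Bool.and_eq_true, beq_iff_eq] at h
  have h1 := h.1.1.2
  have hlen := TM_len l hl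
  rcases hM : TM l with _ | ⟨a, r⟩
  · rw [hM] at hlen; simp at hlen
  · rw [hM] at h1; simpa using h1

theorem TS_head (l : ℕ) (hl : l ≤ 12) : (TS l).getD 0 0 = 2 ^ SB := by
  have h := levelOK_all l hl
  simp only [levelOK, Bool.and_eq_true, beq_iff_eq] at h
  have h1 := h.1.2
  have hlen := TS_len l hl
  rcases hM : TS l with _ | ⟨a, r⟩
  · rw [hM] at hlen; simp at hlen
  · rw [hM] at h1; simpa using h1

theorem TM_slope (l : ℕ) (hl : l ≤ 12) (k : ℕ) (hk : k + 1 < (TM l).length) :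
    ((TM l).getD (k + 1) 0) ^ 32 * 64 * QD ≤ ((TM l).getD k 0) ^ 32 * (cd l) ^ 7 * QN := by
  have h := levelOK_all l hl
  simp only [levelOK, Bool.and_eq_true] at h
  exact slopeOK_spec _ _ h.2 k hk

theorem JJ_eq : JJ = 1150 := rfl

theorem checkB_spec {s s' : List ℕ} (h : checkB s s' = true) (m mL : ℕ) (hm : m < s'.length)
    (hL : mL ≤ m) :
    (s.getD mL 0) ^ 2 * (s.getD (m - mL) 0) ^ 2
        + min ((s.getD mL 0) ^ 2) ((s.getD (m - mL) 0) ^ 2) * 4 ^ SB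
      ≤ 2 * (s'.getD m 0) ^ 2 * 4 ^ SB := by
  unfold checkB at h
  rw [List.all_eq_true] at h
  have h1 := h m (List.mem_range.mpr hm)
  rw [List.all_eq_true] at h1
  have h2 := h1 mL (List.mem_range.mpr (Nat.lt_succ_of_le hL))
  simpa using h2

/-! ### The square-root table bounds `B` -/

section B

variable {B : ℕ → ℕ → ℝ} (hB : IsBd B)
include hB

/-- Step in real form. -/
theorem B_step_real (s s' : List ℕ) (hchk : checkB s s' = true) (d m mL mR : ℕ) (hsum : mL + mR = m)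
    (hm : m < s'.length)
    (hL : B d mL ≤ ((s.getD mL 0 : ℝ) / 2 ^ SB) ^ 2) (hR : B d mR ≤ ((s.getD mR 0 : ℝ) / 2 ^ SB) ^ 2) :
    1 / 2 * (B d mL * B d mR) + 1 / 2 * min (B d mL) (B d mR) ≤ ((s'.getD m 0 : ℝ) / 2 ^ SB) ^ 2 := by
  have h := checkB_spec hchk m mL hm (by omega)
  rw [show m - mL = mR by omega] at h
  set u : ℝ := ((s.getD mL 0 : ℝ) / 2 ^ SB) ^ 2 with hu
  set v : ℝ := ((s.getD mR 0 : ℝ) / 2 ^ SB) ^ 2 with hv
  set w : ℝ := ((s'.getD m 0 : ℝ) / 2 ^ SB) ^ 2 with hw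
  have hA : (0 : ℝ) < 4 ^ SB := by positivity
  have h4 : ((2 : ℝ) ^ SB) ^ 2 = 4 ^ SB := by
    rw [← pow_mul, mul_comm, pow_mul]; norm_num
  have eu : ((s.getD mL 0 : ℝ)) ^ 2 = u * 4 ^ SB := by
    rw [hu, div_pow, h4]; field_simp
  have ev : ((s.getD mR 0 : ℝ)) ^ 2 = v * 4 ^ SB := by
    rw [hv, div_pow, h4]; field_simp
  have ew : ((s'.getD m 0 : ℝ)) ^ 2 = w * 4 ^ SB := by
    rw [hw, div_pow, h4]; field_simp
  have hR' : ((s.getD mL 0 : ℝ) ^ 2 * (s.getD mR 0 : ℝ) ^ 2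
        + min ((s.getD mL 0 : ℝ) ^ 2) ((s.getD mR 0 : ℝ) ^ 2) * 4 ^ SB
      ≤ 2 * (s'.getD m 0 : ℝ) ^ 2 * 4 ^ SB) := by exact_mod_cast h
  rw [eu, ev, ew] at hR'
  have hmin : min (u * 4 ^ SB) (v * 4 ^ SB) = min u v * 4 ^ SB := by
    rcases le_total u v with huv | huv
    · rw [min_eq_left huv, min_eq_left (mul_le_mul_of_nonneg_right huv hA.le)]
    · rw [min_eq_right huv, min_eq_right (mul_le_mul_of_nonneg_right huv hA.le)]
  rw [hmin] at hR'
  have hkey : u * v + min u v ≤ 2 * w := by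
    have h5 : (u * v + min u v) * (4 ^ SB * 4 ^ SB) ≤ (2 * w) * (4 ^ SB * 4 ^ SB) := by
      calc _ = u * 4 ^ SB * (v * 4 ^ SB) + min u v * 4 ^ SB * 4 ^ SB := by ring
        _ ≤ 2 * (w * 4 ^ SB) * 4 ^ SB := hR'
        _ = _ := by ring
    exact le_of_mul_le_mul_right h5 (by positivity)
  have hb1 := hB.nonneg d mL
  have hb2 := hB.nonneg d mR
  have hprod : B d mL * B d mR ≤ u * v := mul_le_mul hL hR hb2 (hb1.trans hL)
  have hmm : min (B d mL) (B d mR) ≤ min u v := min_le_min hL hR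
  linarith

theorem B_le_table (d m : ℕ) (hm : m ≤ 2 ^ d) (hm' : m ≤ 64) :
    B d m ≤ (((TS (lev d)).getD m 0 : ℝ) / 2 ^ SB) ^ 2 := by
  induction d generalizing m with
  | zero =>
    have hle : lev 0 = 0 := rfl
    rw [hle]
    have hm1 : m ≤ 1 := by simpa using hm
    interval_cases m
    · rw [TS_head 0 (by norm_num)]
      have : (((2 ^ SB : ℕ) : ℝ) / 2 ^ SB) = 1 := by push_cast; field_simp
      rw [this]
      simpa using hB.base0
    · have h1 : 2 * 4 ^ SB ≤ (tS0.getD 1 0) ^ 2 := by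
        have := chk_S0_one
        simpa [Nat.ble_eq] using this
      have h2 : (2 : ℝ) * 4 ^ SB ≤ ((tS0.getD 1 0 : ℝ)) ^ 2 := by exact_mod_cast h1
      have h4 : ((2 : ℝ) ^ SB) ^ 2 = 4 ^ SB := by
        rw [← pow_mul, mul_comm, pow_mul]; norm_num
      refine hB.base1.trans ?_
      show (2 : ℝ) ≤ (((tS0.getD 1 0 : ℕ) : ℝ) / 2 ^ SB) ^ 2
      rw [div_pow, h4, le_div_iff₀ (by positivity)]
      exact h2
  | succ d ih =>
    obtain ⟨mL, mR, hsum, hL, hR, hle⟩ := hB.step d m hm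
    refine hle.trans ?_
    have hl := lev_le d
    have hlen : m < (TS (lev (d + 1))).length := by
      rw [TS_len _ (lev_le _)]
      have : min (2 ^ lev (d + 1)) 64 = 64 ∨ (lev (d + 1) = d + 1) := by
        by_cases hd : d + 1 ≤ 12
        · right; unfold lev; omega
        · left
          have : lev (d + 1) = 12 := by unfold lev; omega
          rw [this]; norm_num
      rcases this with h | h
      · omega
      · rw [h]; omega
    rw [lev_succ] at hlen ⊢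
    exact B_step_real hB _ _ (chkB_all _ hl) d m mL mR hsum hlen (ih mL hL (by omega)) (ih mR hR (by omega))

/-- The crude bound. -/
noncomputable def cr (m : ℕ) : ℝ := 2 * (2 : ℝ) ^ ((55 : ℝ) / 128 * m) - 1

omit hB in
theorem pw_ge_one (m : ℕ) : (1 : ℝ) ≤ (2 : ℝ) ^ ((55 : ℝ) / 128 * m) :=
  Real.one_le_rpow (by norm_num) (by positivity)

omit hB in
theorem pw_pow128 (m : ℕ) : ((2 : ℝ) ^ ((55 : ℝ) / 128 * m)) ^ 128 = 2 ^ (55 * m) := by
  rw [← Real.rpow_natCast, ← Real.rpow_mul (by norm_num), ← Real.rpow_natCast]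
  congr 1
  push_cast
  ring

theorem B_le_cr (d m : ℕ) (hd : 4 ≤ d) (hm : m ≤ 2 ^ d) : B d m ≤ cr m := by
  induction d, hd using Nat.le_induction generalizing m with
  | base =>
    have hm16 : m ≤ 16 := by simpa using hm
    have h1 := B_le_table hB 4 m hm (by omega)
    have hlev : lev 4 = 4 := rfl
    rw [hlev] at h1
    refine h1.trans ?_
    have hlen : m < tS4.length := by
      have := TS_len 4 (by norm_num)
      have e : (TS 4) = tS4 := rfl
      rw [e] at this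
      rw [this]; norm_num; omega
    have h2 := allI_spec _ _ _ chk_crude_base m hlen
    simp only [zero_add, Nat.ble_eq] at h2
    show ((tS4.getD m 0 : ℝ) / 2 ^ SB) ^ 2 ≤ cr m
    set s : ℝ := (tS4.getD m 0 : ℝ) with hs
    have h3 : (s ^ 2 + 4 ^ SB) ^ 128 ≤ 2 ^ (128 + 55 * m) * 4 ^ (SB * 128) := by
      rw [hs]; exact_mod_cast h2
    have h4 : ((2 : ℝ) ^ SB) ^ 2 = 4 ^ SB := by
      rw [← pow_mul, mul_comm, pow_mul]; norm_num
    have h5 : (s / 2 ^ SB) ^ 2 + 1 ≤ 2 * (2 : ℝ) ^ ((55 : ℝ) / 128 * m) := by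
      have h6 : ((s / 2 ^ SB) ^ 2 + 1) ^ 128 ≤ (2 * (2 : ℝ) ^ ((55 : ℝ) / 128 * m)) ^ 128 := by
        rw [mul_pow, pw_pow128]
        have e1 : (s / 2 ^ SB) ^ 2 + 1 = (s ^ 2 + 4 ^ SB) / 4 ^ SB := by
          rw [div_pow, h4]; field_simp
        rw [e1, div_pow, div_le_iff₀ (by positivity)]
        have e2 : ((4 : ℝ) ^ SB) ^ 128 = 4 ^ (SB * 128) := by rw [pow_mul]
        rw [e2, ← pow_add]
        exact h3
      exact le_of_pow_le_pow_left₀ (by norm_num) (by positivity) h6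
    unfold cr
    linarith
  | succ d hd ih =>
    obtain ⟨mL, mR, hsum, hL, hR, hle⟩ := hB.step d m hm
    refine hle.trans ?_
    have h1 := ih mL hL
    have h2 := ih mR hR
    have hb1 := hB.nonneg d mL
    have hb2 := hB.nonneg d mR
    set u : ℝ := (2 : ℝ) ^ ((55 : ℝ) / 128 * mL) with hu
    set v : ℝ := (2 : ℝ) ^ ((55 : ℝ) / 128 * mR) with hv
    have hu1 : 1 ≤ u := pw_ge_one mL
    have hv1 : 1 ≤ v := pw_ge_one mR
    have huv : (2 : ℝ) ^ ((55 : ℝ) / 128 * m) = u * v := by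
      rw [hu, hv, ← Real.rpow_add (by norm_num), ← hsum]
      congr 1
      push_cast
      ring
    unfold cr at h1 h2 ⊢
    rw [huv]
    rw [← hu] at h1
    rw [← hv] at h2
    have hprod : B d mL * B d mR ≤ (2 * u - 1) * (2 * v - 1) := mul_le_mul h1 h2 hb2 (hb1.trans h1)
    rcases le_total u v with hle' | hle'
    · have : min (B d mL) (B d mR) ≤ 2 * u - 1 := (min_le_left _ _).trans h1
      nlinarith
    · have : min (B d mL) (B d mR) ≤ 2 * v - 1 := (min_le_right _ _).trans h2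
      nlinarith

omit hB in
theorem SL_getD_small (l m : ℕ) (hl : l ≤ 12) (hm : m ≤ 64) : (SL l).getD m 0 = (TS l).getD m 0 := by
  unfold SL sMerged
  have hlen := TS_len l hl
  have h65 : (TS l).length ≤ 65 := by rw [hlen]; omega
  rw [List.take_of_length_le h65]
  by_cases hm2 : m < (TS l).length
  · simp only [List.getD]
    rw [List.getElem?_append_left hm2]
  · have h0 : (TS l).getD m 0 = 0 := by
      simp [List.getD, List.getElem?_eq_none (not_lt.mp hm2)]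
    by_cases h3 : (TS l).length < 65
    · simp [h3]
    · have h4 : (TS l).length = 65 := by omega
      omega

omit hB in
theorem SL_getD_large (l m : ℕ) (hl : l ≤ 12) (hl7 : 6 ≤ l) (hm : 64 < m) :
    (SL l).getD m 0 = tC.getD m 0 := by
  unfold SL sMerged
  have hlen := TS_len l hl
  have h2 : 64 ≤ 2 ^ l := by
    calc 64 = 2 ^ 6 := by norm_num
      _ ≤ 2 ^ l := Nat.pow_le_pow_right (by norm_num) hl7
  have h65 : (TS l).length = 65 := by rw [hlen]; omega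
  rw [List.take_of_length_le (by omega), if_neg (by omega)]
  simp only [List.getD]
  rw [List.getElem?_append_right (by omega), h65, List.getElem?_drop]
  congr 2
  omega

omit hB in
theorem SL_len (l : ℕ) (hl : l ≤ 12) : (TM l).length ≤ (SL l).length := by
  unfold SL sMerged
  have hlen := TS_len l hl
  have hlenM := TM_len l hl
  have hC := chk_tC_len
  have h65 : (TS l).length ≤ 65 := by rw [hlen]; omega
  rw [List.take_of_length_le h65, hlenM]
  by_cases h3 : (TS l).length < 65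
  · rw [if_pos h3]
    simp only [List.append_nil]
    rw [hlen]
    omega
  · rw [if_neg h3, List.length_append, List.length_drop, hC]
    have : (TS l).length = 65 := by omega
    rw [this]
    have : min (2 ^ l) JJ ≤ JJ := min_le_right _ _
    rw [JJ_eq] at *
    omega

/-- All `m ≤ JJ`: the table bound for `B`. -/
theorem B_le_SL (d m : ℕ) (hm : m ≤ 2 ^ d) (hJ : m ≤ JJ) :
    B d m ≤ (((SL (lev d)).getD m 0 : ℝ) / 2 ^ SB) ^ 2 := by
  by_cases h64 : m ≤ 64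
  · rw [SL_getD_small _ _ (lev_le d) h64]
    exact B_le_table hB d m hm h64
  · have hd : 7 ≤ d := by
      by_contra hcon
      have : 2 ^ d ≤ 2 ^ 6 := Nat.pow_le_pow_right (by norm_num) (by omega)
      norm_num at this
      omega
    have hl6 : 6 ≤ lev d := by unfold lev; omega
    rw [SL_getD_large _ _ (lev_le d) hl6 (by omega)]
    refine (B_le_cr hB d m (by omega) hm).trans ?_
    have hlen : m < tC.length := by rw [chk_tC_len]; omega
    have h2 := allI_spec _ _ _ chk_tC m hlen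
    simp only [zero_add, Nat.ble_eq] at h2
    set s : ℝ := (tC.getD m 0 : ℝ) with hs
    have h3 : (2 : ℝ) ^ (256 * SB + 128 + 55 * m) ≤ s ^ 256 := by
      rw [hs]; exact_mod_cast h2
    have h5 : 2 * (2 : ℝ) ^ ((55 : ℝ) / 128 * m) ≤ (s / 2 ^ SB) ^ 2 := by
      have h6 : (2 * (2 : ℝ) ^ ((55 : ℝ) / 128 * m)) ^ 128 ≤ ((s / 2 ^ SB) ^ 2) ^ 128 := by
        rw [mul_pow, pw_pow128, ← pow_mul, div_pow, le_div_iff₀ (by positivity)]
        calc _ = (2 : ℝ) ^ (256 * SB + 128 + 55 * m) := by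
              rw [← pow_mul, ← pow_add, ← pow_add]; congr 1; ring
          _ ≤ _ := h3
      exact le_of_pow_le_pow_left₀ (by norm_num) (by positivity) h6
    unfold cr
    linarith

end B

/-! ### The closed form -/

/-- `Q ≥ e^7`. -/
noncomputable def Qr : ℝ := (QN : ℝ) / QD

/-- `QL ≤ e^7`. -/
noncomputable def QLr : ℝ := (QLN : ℝ) / QD

theorem Qr_pos : 0 < Qr := by unfold Qr QN QD; norm_num
theorem QLr_pos : 0 < QLr := by unfold QLr QLN QD; norm_num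
theorem QLr_le_Qr : QLr ≤ Qr := by unfold Qr QLr QN QLN QD; norm_num

theorem exp7_le_Qr : Real.exp 7 ≤ Qr := by
  have h5 := Real.exp_one_lt_d9
  have h6 : (Real.exp 1) ^ 7 ≤ (2.7182818286 : ℝ) ^ 7 :=
    pow_le_pow_left₀ (Real.exp_pos 1).le h5.le 7
  have e : Real.exp 7 = (Real.exp 1) ^ 7 := by
    rw [← Real.exp_nat_mul]
    norm_num
  rw [e]
  refine h6.trans ?_
  unfold Qr QN QD
  norm_num

theorem QLr_le_exp7 : QLr ≤ Real.exp 7 := by
  have h5 := Real.exp_one_gt_d9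
  have h6 : (2.7182818283 : ℝ) ^ 7 ≤ (Real.exp 1) ^ 7 :=
    pow_le_pow_left₀ (by norm_num) h5.le 7
  have e : Real.exp 7 = (Real.exp 1) ^ 7 := by
    rw [← Real.exp_nat_mul]
    norm_num
  rw [e]
  refine le_trans ?_ h6
  unfold QLr QLN QD
  norm_num

/-- The seventh power form of the closed form, with cap `c`. -/
noncomputable def ph (c j : ℕ) : ℝ := if j ≤ c then (j : ℝ) ^ (7 * j) else (c : ℝ) ^ (7 * j) * Qr ^ (j - c)

theorem ph_nonneg (c j : ℕ) : 0 ≤ ph c j := by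
  unfold ph
  have := Qr_pos
  split_ifs <;> positivity

theorem ph_of_ge {c j : ℕ} (h : c ≤ j) : ph c j = (c : ℝ) ^ (7 * j) * Qr ^ (j - c) := by
  unfold ph
  split_ifs with h1
  · have : j = c := le_antisymm h1 h
    subst this
    simp
  · rfl

/-- The closed form. -/
noncomputable def Phi (d j : ℕ) : ℝ := (ph (cd d) j * 2 ^ 36 / 2 ^ (6 * j)) ^ ((1 : ℝ) / 32)

theorem Phi_nonneg (d j : ℕ) : 0 ≤ Phi d j := by
  unfold Phi
  have := ph_nonneg (cd d) j
  positivity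

theorem Phi_pow32 (d j : ℕ) : Phi d j ^ 32 = ph (cd d) j * 2 ^ 36 / 2 ^ (6 * j) := by
  unfold Phi
  have := ph_nonneg (cd d) j
  rw [← Real.rpow_natCast, ← Real.rpow_mul (by positivity)]
  norm_num

/-- The ratio of the two bounds for `e^7`. -/
noncomputable def Rr : ℝ := Qr / QLr

theorem one_le_Rr : 1 ≤ Rr := by
  unfold Rr
  rw [one_le_div QLr_pos]
  exact QLr_le_Qr

/-- The thirty-second root of the ratio. -/
noncomputable def Xr : ℝ := Rr ^ ((1 : ℝ) / 32)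

theorem Rr_pos : 0 < Rr := lt_of_lt_of_le one_pos one_le_Rr

theorem Xr_pow32 : Xr ^ 32 = Rr := by
  unfold Xr
  rw [← Real.rpow_natCast, ← Real.rpow_mul Rr_pos.le]
  norm_num

theorem one_le_Xr : 1 ≤ Xr := by
  unfold Xr
  exact Real.one_le_rpow one_le_Rr (by norm_num)

theorem Xr_pos : 0 < Xr := lt_of_lt_of_le one_pos one_le_Xr

/-- `C(j,i) i^i k^k ≤ j^j`. -/
theorem choose_mul_pow_le (i k : ℕ) :
    ((i + k).choose i) * (i ^ i * k ^ k) ≤ (i + k) ^ (i + k) := by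
  rw [add_pow]
  have := Finset.single_le_sum (f := fun m => i ^ m * k ^ (i + k - m) * ((i + k).choose m))
    (s := range (i + k + 1)) (fun _ _ => Nat.zero_le _) (mem_range.mpr (by omega : i < i + k + 1))
  simp only [Nat.add_sub_cancel_left] at this
  calc _ = i ^ i * k ^ k * ((i + k).choose i) := by ring
    _ ≤ _ := this

/-- `c^i e^(i-c) ≤ i^i` for `c ≤ i`. -/
theorem cap_gain {c i : ℕ} (hc : 1 ≤ c) (hi : c ≤ i) :
    (c : ℝ) ^ i * Real.exp ((i : ℝ) - c) ≤ (i : ℝ) ^ i := by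
  have hc0 : (0 : ℝ) < c := by exact_mod_cast hc
  have hi0 : (0 : ℝ) < i := by exact_mod_cast lt_of_lt_of_le hc hi
  have h1 : 1 - (((i : ℝ) / c))⁻¹ ≤ Real.log ((i : ℝ) / c) :=
    Real.one_sub_inv_le_log_of_pos (by positivity)
  have h2 : (i : ℝ) - c ≤ i * Real.log ((i : ℝ) / c) := by
    have e : (i : ℝ) * (1 - (((i : ℝ) / c))⁻¹) = (i : ℝ) - c := by
      field_simp
    rw [← e]
    exact mul_le_mul_of_nonneg_left h1 hi0.le
  have h3 : Real.exp ((i : ℝ) - c) ≤ ((i : ℝ) / c) ^ i := by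
    calc Real.exp ((i : ℝ) - c) ≤ Real.exp (i * Real.log ((i : ℝ) / c)) := Real.exp_le_exp.2 h2
      _ = ((i : ℝ) / c) ^ i := by
          rw [mul_comm, Real.exp_mul, Real.exp_log (by positivity), Real.rpow_natCast]
  calc (c : ℝ) ^ i * Real.exp ((i : ℝ) - c) ≤ (c : ℝ) ^ i * ((i : ℝ) / c) ^ i :=
        mul_le_mul_of_nonneg_left h3 (by positivity)
    _ = (i : ℝ) ^ i := by
        rw [← mul_pow]
        congr 1
        field_simp

/-- The seventh power form of `cap_gain`. -/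
theorem cap_gain7 {c i : ℕ} (hc : 1 ≤ c) (hi : c ≤ i) :
    (c : ℝ) ^ (7 * i) * QLr ^ (i - c) ≤ (i : ℝ) ^ (7 * i) := by
  have h := cap_gain hc hi
  have h7 := pow_le_pow_left₀ (by positivity) h 7
  have e : ((c : ℝ) ^ i * Real.exp ((i : ℝ) - c)) ^ 7
      = (c : ℝ) ^ (7 * i) * (Real.exp 7) ^ (i - c) := by
    rw [mul_pow, ← pow_mul, mul_comm i 7, ← Real.exp_nat_mul, ← Real.exp_nat_mul]
    congr 2
    push_cast [Nat.cast_sub hi]
    ring
  rw [e, ← pow_mul, mul_comm i 7] at h7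
  refine le_trans ?_ h7
  refine mul_le_mul_of_nonneg_left ?_ (by positivity)
  exact pow_le_pow_left₀ QLr_pos.le QLr_le_exp7 _

/-- The inequality of the case `c < i ≤ 2c`, `k ≤ c`, `i + k > 2c`. -/
theorem cap_mid {c i k : ℕ} (hc : 1 ≤ c) (hi : c ≤ i) (hk : k ≤ c) (hj : 2 * c ≤ i + k) :
    ((i + k : ℕ) : ℝ) ^ (i + k) * (c : ℝ) ^ i * Real.exp ((c : ℝ) - k) ≤
      ((2 * c : ℕ) : ℝ) ^ (i + k) * (i : ℝ) ^ i := by
  have hc0 : (0 : ℝ) < c := by exact_mod_cast hc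
  have hi0 : (0 : ℝ) < i := by exact_mod_cast lt_of_lt_of_le hc hi
  have hkc : (k : ℝ) ≤ c := by exact_mod_cast hk
  have hj' : (2 : ℝ) * c ≤ (i : ℝ) + k := by exact_mod_cast hj
  set J : ℝ := (i : ℝ) + k with hJ
  have hJ0 : 0 < J := by nlinarith
  have hcast : ((i + k : ℕ) : ℝ) = J := by push_cast; rfl
  have hcast2 : ((2 * c : ℕ) : ℝ) = 2 * c := by push_cast; ring
  rw [hcast, hcast2]
  have hl : Real.log (J ^ (i + k) * (c : ℝ) ^ i * Real.exp ((c : ℝ) - k)) ≤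
      Real.log ((2 * (c : ℝ)) ^ (i + k) * (i : ℝ) ^ i) := by
    rw [Real.log_mul (by positivity) (Real.exp_pos _).ne', Real.log_mul (by positivity) (by positivity),
      Real.log_exp, Real.log_mul (by positivity) (by positivity), Real.log_pow, Real.log_pow,
      Real.log_pow, Real.log_pow]
    set r0 : ℝ := J / (2 * c) with hr0
    have hr1 : 1 ≤ r0 := by
      rw [hr0, one_le_div (by positivity)]
      exact hj'
    set t : ℝ := 2 * i / J with ht
    have ht0 : 0 < t := by positivity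
    have l1 : Real.log r0 = Real.log J - Real.log 2 - Real.log c := by
      rw [hr0, Real.log_div hJ0.ne' (by positivity), Real.log_mul (by norm_num) hc0.ne']
      ring
    have l2 : Real.log t = Real.log 2 + Real.log i - Real.log J := by
      rw [ht, Real.log_div (by positivity) hJ0.ne', Real.log_mul (by norm_num) hi0.ne']
    have l3 : Real.log (2 * (c : ℝ)) = Real.log 2 + Real.log c := Real.log_mul (by norm_num) hc0.ne'
    have h1 : Real.log r0 ≤ r0 - 1 := Real.log_le_sub_one_of_pos (by linarith)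
    have h2 : 1 - t⁻¹ ≤ Real.log t := Real.one_sub_inv_le_log_of_pos ht0
    have h3 : 0 ≤ Real.log r0 := Real.log_nonneg hr1
    -- `k log r0 ≤ c log r0 ≤ c (r0 - 1) = J/2 - c`
    have h4 : (k : ℝ) * Real.log r0 ≤ J / 2 - c := by
      have e : (c : ℝ) * (r0 - 1) = J / 2 - c := by
        rw [hr0]; field_simp
      calc (k : ℝ) * Real.log r0 ≤ c * Real.log r0 := mul_le_mul_of_nonneg_right hkc h3
        _ ≤ c * (r0 - 1) := mul_le_mul_of_nonneg_left h1 hc0.le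
        _ = _ := e
    -- `i log t ≥ i - J/2`
    have h5 : (i : ℝ) - J / 2 ≤ i * Real.log t := by
      have e : (i : ℝ) * (1 - t⁻¹) = (i : ℝ) - J / 2 := by
        rw [ht]
        field_simp
      rw [← e]
      exact mul_le_mul_of_nonneg_left h2 hi0.le
    push_cast
    rw [l3]
    have h6 : (k : ℝ) * (Real.log J - Real.log 2 - Real.log c) ≤ J / 2 - c := by rw [← l1]; exact h4
    have h7 : (i : ℝ) - J / 2 ≤ i * (Real.log 2 + Real.log i - Real.log J) := by rw [← l2]; exact h5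
    have hJk : J = (i : ℝ) + k := hJ
    nlinarith
  exact (Real.log_le_log_iff (by positivity) (by positivity)).1 hl

/-- The closure inequality of the closed forms, case `c ≤ i`, `k ≤ c`. -/
theorem ph_closure_aux {c i k : ℕ} (hc : 1 ≤ c) (hi : c < i) (hi2 : i ≤ 2 * c) (hk : k ≤ c) :
    ((i + k).choose i : ℝ) ^ 7 * (ph c i * ph c k) ≤ ph (2 * c) (i + k) * Rr ^ (i + k) := by
  have hc0 : (0 : ℝ) < c := by exact_mod_cast hc
  have hi0 : (0 : ℝ) < i := by exact_mod_cast (lt_of_le_of_lt (Nat.zero_le _) hi)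
  have hQ := Qr_pos
  have hQL := QLr_pos
  have hR := Rr_pos
  have hR1 := one_le_Rr
  have e1 : ph c i = (c : ℝ) ^ (7 * i) * Qr ^ (i - c) := ph_of_ge hi.le
  have e2 : ph c k = (k : ℝ) ^ (7 * k) := by unfold ph; rw [if_pos hk]
  set C : ℝ := ((i + k).choose i : ℝ) with hC
  have hC0 : 0 ≤ C := by positivity
  have hnat := choose_mul_pow_le i k
  have hreal : C * ((i : ℝ) ^ i * (k : ℝ) ^ k) ≤ ((i : ℝ) + k) ^ (i + k) := by
    rw [hC]; exact_mod_cast hnat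
  have hQsplit : ∀ m : ℕ, Qr ^ m = Rr ^ m * QLr ^ m := by
    intro m
    rw [← mul_pow]
    congr 1
    unfold Rr
    field_simp
  rw [e1, e2]
  by_cases hj : i + k ≤ 2 * c
  · -- both small at the next level
    have e3 : ph (2 * c) (i + k) = ((i : ℝ) + k) ^ (7 * (i + k)) := by
      unfold ph; rw [if_pos hj]; push_cast; rfl
    rw [e3]
    have h1 := cap_gain7 hc hi.le
    have h7 : (C * ((i : ℝ) ^ i * (k : ℝ) ^ k)) ^ 7 ≤ (((i : ℝ) + k) ^ (i + k)) ^ 7 :=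
      pow_le_pow_left₀ (by positivity) hreal 7
    have e4 : (C * ((i : ℝ) ^ i * (k : ℝ) ^ k)) ^ 7 = C ^ 7 * ((i : ℝ) ^ (7 * i) * (k : ℝ) ^ (7 * k)) := by
      rw [mul_pow, mul_pow, ← pow_mul, ← pow_mul, mul_comm i 7, mul_comm k 7]
    have e5 : (((i : ℝ) + k) ^ (i + k)) ^ 7 = ((i : ℝ) + k) ^ (7 * (i + k)) := by
      rw [← pow_mul, mul_comm]
    rw [e4, e5] at h7
    have h8 : Rr ^ (i - c) ≤ Rr ^ (i + k) := pow_le_pow_right₀ hR1 (by omega)
    calc C ^ 7 * ((c : ℝ) ^ (7 * i) * Qr ^ (i - c) * (k : ℝ) ^ (7 * k))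
        = Rr ^ (i - c) * (C ^ 7 * (((c : ℝ) ^ (7 * i) * QLr ^ (i - c)) * (k : ℝ) ^ (7 * k))) := by
          rw [hQsplit]; ring
      _ ≤ Rr ^ (i - c) * (C ^ 7 * ((i : ℝ) ^ (7 * i) * (k : ℝ) ^ (7 * k))) := by
          gcongr
      _ ≤ Rr ^ (i - c) * ((i : ℝ) + k) ^ (7 * (i + k)) :=
          mul_le_mul_of_nonneg_left h7 (by positivity)
      _ ≤ Rr ^ (i + k) * ((i : ℝ) + k) ^ (7 * (i + k)) :=
          mul_le_mul_of_nonneg_right h8 (by positivity)
      _ = _ := by ring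
  · -- the large case
    have hj' : 2 * c ≤ i + k := by omega
    have e3 : ph (2 * c) (i + k) = ((2 * c : ℕ) : ℝ) ^ (7 * (i + k)) * Qr ^ (i + k - 2 * c) :=
      ph_of_ge hj'
    rw [e3]
    have hm := cap_mid hc hi.le hk hj'
    have hi1 : (0 : ℝ) < (i : ℝ) ^ i := by positivity
    -- `C c^i k^k e^(c-k) ≤ (2c)^j`
    have hmain : C * ((c : ℝ) ^ i * (k : ℝ) ^ k) * Real.exp ((c : ℝ) - k) ≤ ((2 * c : ℕ) : ℝ) ^ (i + k) := by
      have h1 : C * (k : ℝ) ^ k * (i : ℝ) ^ i ≤ ((i + k : ℕ) : ℝ) ^ (i + k) := by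
        push_cast
        calc C * (k : ℝ) ^ k * (i : ℝ) ^ i = C * ((i : ℝ) ^ i * (k : ℝ) ^ k) := by ring
          _ ≤ _ := hreal
      have h2 : (C * ((c : ℝ) ^ i * (k : ℝ) ^ k) * Real.exp ((c : ℝ) - k)) * (i : ℝ) ^ i ≤
          ((2 * c : ℕ) : ℝ) ^ (i + k) * (i : ℝ) ^ i := by
        calc (C * ((c : ℝ) ^ i * (k : ℝ) ^ k) * Real.exp ((c : ℝ) - k)) * (i : ℝ) ^ i
            = (C * (k : ℝ) ^ k * (i : ℝ) ^ i) * ((c : ℝ) ^ i * Real.exp ((c : ℝ) - k)) := by ring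
          _ ≤ ((i + k : ℕ) : ℝ) ^ (i + k) * ((c : ℝ) ^ i * Real.exp ((c : ℝ) - k)) :=
              mul_le_mul_of_nonneg_right h1 (by positivity)
          _ = ((i + k : ℕ) : ℝ) ^ (i + k) * (c : ℝ) ^ i * Real.exp ((c : ℝ) - k) := by ring
          _ ≤ _ := hm
      exact le_of_mul_le_mul_right h2 hi1
    have h7 := pow_le_pow_left₀ (by positivity) hmain 7
    have e6 : (C * ((c : ℝ) ^ i * (k : ℝ) ^ k) * Real.exp ((c : ℝ) - k)) ^ 7 =
        C ^ 7 * ((c : ℝ) ^ (7 * i) * (k : ℝ) ^ (7 * k)) * (Real.exp 7) ^ (c - k) := by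
      have hexp : (Real.exp ((c : ℝ) - k)) ^ 7 = (Real.exp 7) ^ (c - k) := by
        rw [← Real.exp_nat_mul, ← Real.exp_nat_mul]
        congr 1
        push_cast [Nat.cast_sub hk]
        ring
      rw [mul_pow, mul_pow, mul_pow, ← pow_mul, ← pow_mul, mul_comm i 7, mul_comm k 7, hexp]
    rw [e6, ← pow_mul, mul_comm (i + k) 7] at h7
    have h8 : QLr ^ (c - k) ≤ (Real.exp 7) ^ (c - k) :=
      pow_le_pow_left₀ QLr_pos.le QLr_le_exp7 _
    have e7 : i - c = (i + k - 2 * c) + (c - k) := by omega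
    have h9 : Rr ^ (c - k) ≤ Rr ^ (i + k) := pow_le_pow_right₀ hR1 (by omega)
    calc C ^ 7 * ((c : ℝ) ^ (7 * i) * Qr ^ (i - c) * (k : ℝ) ^ (7 * k))
        = Qr ^ (i + k - 2 * c) * (C ^ 7 * ((c : ℝ) ^ (7 * i) * (k : ℝ) ^ (7 * k)) *
            (Rr ^ (c - k) * QLr ^ (c - k))) := by
          rw [e7, pow_add, hQsplit (c - k)]; ring
      _ ≤ Qr ^ (i + k - 2 * c) * (C ^ 7 * ((c : ℝ) ^ (7 * i) * (k : ℝ) ^ (7 * k)) *
            (Rr ^ (c - k) * (Real.exp 7) ^ (c - k))) := by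
          gcongr
      _ = Qr ^ (i + k - 2 * c) * (Rr ^ (c - k) * (C ^ 7 * ((c : ℝ) ^ (7 * i) * (k : ℝ) ^ (7 * k)) *
            (Real.exp 7) ^ (c - k))) := by ring
      _ ≤ Qr ^ (i + k - 2 * c) * (Rr ^ (i + k) * ((2 * c : ℕ) : ℝ) ^ (7 * (i + k))) := by
          refine mul_le_mul_of_nonneg_left ?_ (by positivity)
          exact mul_le_mul h9 h7 (by positivity) (by positivity)
      _ = _ := by ring

/-- **The closure inequality of the closed forms.** -/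
theorem ph_closure {c i k : ℕ} (hc : 1 ≤ c) (hi : i ≤ 2 * c) (hk : k ≤ 2 * c) :
    ((i + k).choose i : ℝ) ^ 7 * (ph c i * ph c k) ≤ ph (2 * c) (i + k) * Rr ^ (i + k) := by
  have hR1 := one_le_Rr
  have hR := Rr_pos
  have hQ := Qr_pos
  have hc0 : (0 : ℝ) < c := by exact_mod_cast hc
  by_cases h1 : i ≤ c
  · by_cases h2 : k ≤ c
    · -- both small
      have e1 : ph c i = (i : ℝ) ^ (7 * i) := by unfold ph; rw [if_pos h1]
      have e2 : ph c k = (k : ℝ) ^ (7 * k) := by unfold ph; rw [if_pos h2]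
      have e3 : ph (2 * c) (i + k) = ((i : ℝ) + k) ^ (7 * (i + k)) := by
        unfold ph; rw [if_pos (by omega)]; push_cast; rfl
      rw [e1, e2, e3]
      set C : ℝ := ((i + k).choose i : ℝ) with hC
      have hC0 : 0 ≤ C := by positivity
      have hnat := choose_mul_pow_le i k
      have hreal : C * ((i : ℝ) ^ i * (k : ℝ) ^ k) ≤ ((i : ℝ) + k) ^ (i + k) := by
        rw [hC]; exact_mod_cast hnat
      have h7 : (C * ((i : ℝ) ^ i * (k : ℝ) ^ k)) ^ 7 ≤ (((i : ℝ) + k) ^ (i + k)) ^ 7 :=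
        pow_le_pow_left₀ (by positivity) hreal 7
      have e4 : (C * ((i : ℝ) ^ i * (k : ℝ) ^ k)) ^ 7 = C ^ 7 * ((i : ℝ) ^ (7 * i) * (k : ℝ) ^ (7 * k)) := by
        rw [mul_pow, mul_pow, ← pow_mul, ← pow_mul, mul_comm i 7, mul_comm k 7]
      have e5 : (((i : ℝ) + k) ^ (i + k)) ^ 7 = ((i : ℝ) + k) ^ (7 * (i + k)) := by
        rw [← pow_mul, mul_comm]
      rw [e4, e5] at h7
      calc _ ≤ ((i : ℝ) + k) ^ (7 * (i + k)) * 1 := by rw [mul_one]; exact h7
        _ ≤ _ := mul_le_mul_of_nonneg_left (one_le_pow₀ hR1) (by positivity)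
    · -- swap
      have h := ph_closure_aux hc (not_le.1 h2) hk h1
      rw [add_comm k i] at h
      rw [Nat.choose_symm_add, mul_comm (ph c i)]
      exact h
  · by_cases h2 : k ≤ c
    · exact ph_closure_aux hc (not_le.1 h1) hi h2
    · -- both large
      have h1' : c ≤ i := by omega
      have h2' : c ≤ k := by omega
      have e1 := ph_of_ge h1'
      have e2 := ph_of_ge h2'
      have e3 : ph (2 * c) (i + k) = ((2 * c : ℕ) : ℝ) ^ (7 * (i + k)) * Qr ^ (i + k - 2 * c) :=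
        ph_of_ge (by omega)
      rw [e1, e2, e3]
      set C : ℝ := ((i + k).choose i : ℝ) with hC
      have hC2 : C ≤ 2 ^ (i + k) := by
        rw [hC]
        exact_mod_cast Nat.choose_le_two_pow _ _
      have hC0 : 0 ≤ C := by positivity
      have h7 : C ^ 7 ≤ (2 ^ (i + k)) ^ 7 := pow_le_pow_left₀ hC0 hC2 7
      have e4 : i + k - 2 * c = (i - c) + (k - c) := by omega
      calc C ^ 7 * ((c : ℝ) ^ (7 * i) * Qr ^ (i - c) * ((c : ℝ) ^ (7 * k) * Qr ^ (k - c)))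
          = C ^ 7 * ((c : ℝ) ^ (7 * (i + k)) * Qr ^ (i + k - 2 * c)) := by
            rw [e4, pow_add Qr, mul_add, pow_add (c : ℝ)]; ring
        _ ≤ (2 ^ (i + k)) ^ 7 * ((c : ℝ) ^ (7 * (i + k)) * Qr ^ (i + k - 2 * c)) :=
            mul_le_mul_of_nonneg_right h7 (by positivity)
        _ = ((2 * c : ℕ) : ℝ) ^ (7 * (i + k)) * Qr ^ (i + k - 2 * c) := by
            push_cast
            rw [mul_pow 2 (c : ℝ), ← pow_mul, mul_comm (i + k) 7]
            ring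
        _ ≤ _ := by
            refine le_mul_of_one_le_right (by positivity) (one_le_pow₀ hR1)

theorem cd_pos (d : ℕ) : 1 ≤ cd d := Nat.one_le_two_pow

theorem cd_succ {d : ℕ} (hd : 1 ≤ d) : cd (d + 1) = 2 * cd d := by
  unfold cd
  obtain ⟨e, rfl⟩ : ∃ e, d = e + 1 := ⟨d - 1, by omega⟩
  simp [pow_succ, mul_comm]

theorem two_cd {d : ℕ} (hd : 1 ≤ d) : 2 ^ d = 2 * cd d := by
  unfold cd
  obtain ⟨e, rfl⟩ : ∃ e, d = e + 1 := ⟨d - 1, by omega⟩
  simp [pow_succ, mul_comm]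

/-- The gain of a split. -/
theorem choose_Phi {d i k : ℕ} (hd : 1 ≤ d) (hi : i ≤ 2 ^ d) (hk : k ≤ 2 ^ d) :
    ((i + k).choose i : ℝ) * (Phi d i * Phi d k)
      ≤ ((i + k).choose i : ℝ) ^ ((25 : ℝ) / 32) * (2 : ℝ) ^ ((9 : ℝ) / 8) *
          (Phi (d + 1) (i + k) * Xr ^ (i + k)) := by
  set C : ℝ := ((i + k).choose i : ℝ) with hC
  have hC0 : 0 ≤ C := by positivity
  have hX := Xr_pos
  refine le_of_pow_le_pow_left₀ (n := 32) (by norm_num)
    (mul_nonneg (by positivity) (mul_nonneg (Phi_nonneg _ _) (by positivity))) ?_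
  rw [mul_pow, mul_pow, mul_pow, mul_pow, mul_pow, Phi_pow32, Phi_pow32, Phi_pow32, ← pow_mul,
    mul_comm (i + k) 32, pow_mul Xr, Xr_pow32]
  have e1 : (C ^ ((25 : ℝ) / 32)) ^ 32 = C ^ 25 := by
    rw [← Real.rpow_natCast, ← Real.rpow_mul hC0]
    norm_num
  have e2 : ((2 : ℝ) ^ ((9 : ℝ) / 8)) ^ 32 = 2 ^ 36 := by
    rw [← Real.rpow_natCast, ← Real.rpow_mul (by norm_num)]
    norm_num
  rw [e1, e2, cd_succ hd]
  have hmain := ph_closure (cd_pos d) (hi.trans_eq (two_cd hd)) (hk.trans_eq (two_cd hd))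
  rw [← hC] at hmain
  have e5 : (2 : ℝ) ^ (6 * (i + k)) = 2 ^ (6 * i) * 2 ^ (6 * k) := by
    rw [← pow_add]; congr 1; ring
  rw [e5]
  have hp : (0 : ℝ) < 2 ^ (6 * i) * 2 ^ (6 * k) := by positivity
  have l1 : C ^ 32 * (ph (cd d) i * 2 ^ 36 / 2 ^ (6 * i) * (ph (cd d) k * 2 ^ 36 / 2 ^ (6 * k)))
      = (C ^ 25 * (C ^ 7 * (ph (cd d) i * ph (cd d) k))) * (2 ^ 36 * 2 ^ 36) /
          (2 ^ (6 * i) * 2 ^ (6 * k)) := by
    field_simp
  have l2 : C ^ 25 * 2 ^ 36 * (ph (2 * cd d) (i + k) * 2 ^ 36 / (2 ^ (6 * i) * 2 ^ (6 * k)) * Rr ^ (i + k))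
      = (C ^ 25 * (ph (2 * cd d) (i + k) * Rr ^ (i + k))) * (2 ^ 36 * 2 ^ 36) /
          (2 ^ (6 * i) * 2 ^ (6 * k)) := by
    field_simp
  rw [l1, l2]
  gcongr

/-- The boundary term. -/
theorem Phi_le_succ {d j : ℕ} (hd : 1 ≤ d) (hj : j ≤ 2 ^ d) :
    Phi d j ≤ Phi (d + 1) j * Xr ^ j := by
  have h := choose_Phi hd hj (Nat.zero_le _)
  simp only [add_zero, Nat.choose_self, Nat.cast_one, Real.one_rpow, one_mul, mul_one] at h
  -- the closure at `k = 0` has an extra constant: prove directly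
  have hX := Xr_pos
  refine le_of_pow_le_pow_left₀ (n := 32) (by norm_num)
    (mul_nonneg (Phi_nonneg _ _) (by positivity)) ?_
  rw [mul_pow, Phi_pow32, Phi_pow32, ← pow_mul, mul_comm j 32, pow_mul Xr, Xr_pow32, cd_succ hd]
  have hmain := ph_closure (cd_pos d) (hj.trans_eq (two_cd hd)) (Nat.zero_le _)
  simp only [add_zero, Nat.choose_self, Nat.cast_one, one_pow, one_mul] at hmain
  have e0 : ph (cd d) 0 = 1 := by unfold ph; simp
  rw [e0, mul_one] at hmain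
  have hp : (0 : ℝ) < 2 ^ (6 * j) := by positivity
  rw [div_mul_eq_mul_div]
  apply div_le_div_of_nonneg_right _ hp.le
  calc ph (cd d) j * 2 ^ 36 ≤ (ph (2 * cd d) j * Rr ^ j) * 2 ^ 36 :=
        mul_le_mul_of_nonneg_right hmain (by positivity)
    _ = _ := by ring

/-- Hölder for the binomial coefficients. -/
theorem sum_choose_rpow_le (j : ℕ) :
    ∑ x ∈ antidiagonal j, ((j.choose x.1 : ℝ)) ^ ((25 : ℝ) / 32)
      ≤ ((j : ℝ) + 1) ^ ((7 : ℝ) / 32) * (2 : ℝ) ^ ((25 : ℝ) / 32 * j) := by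
  rw [Finset.Nat.sum_antidiagonal_eq_sum_range_succ_mk]
  simp only
  set H : ℝ := ∑ i ∈ range (j + 1), ((j.choose i : ℝ)) ^ ((25 : ℝ) / 32) with hH
  have hH0 : 0 ≤ H := Finset.sum_nonneg fun i _ => by positivity
  have h1 := Real.rpow_sum_le_const_mul_sum_rpow (range (j + 1))
    (fun i => ((j.choose i : ℝ)) ^ ((25 : ℝ) / 32)) (p := (32 : ℝ) / 25) (by norm_num)
  have e1 : ∀ i, |((j.choose i : ℝ)) ^ ((25 : ℝ) / 32)| = ((j.choose i : ℝ)) ^ ((25 : ℝ) / 32) :=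
    fun i => abs_of_nonneg (by positivity)
  simp only [e1] at h1
  have e2 : ∀ i, (((j.choose i : ℝ)) ^ ((25 : ℝ) / 32)) ^ ((32 : ℝ) / 25) = (j.choose i : ℝ) := by
    intro i
    rw [← Real.rpow_mul (by positivity)]
    norm_num
  simp only [e2] at h1
  have e3 : ∑ i ∈ range (j + 1), (j.choose i : ℝ) = 2 ^ j := by
    have := Nat.sum_range_choose j
    exact_mod_cast this
  rw [e3, card_range] at h1
  rw [← hH] at h1
  have h2 : H ^ (32 : ℕ) ≤ (((j : ℝ) + 1) ^ ((7 : ℝ) / 32) * (2 : ℝ) ^ ((25 : ℝ) / 32 * j)) ^ (32 : ℕ) := by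
    have h3 := Real.rpow_le_rpow (by positivity) h1 (by norm_num : (0 : ℝ) ≤ 25)
    have e4 : (H ^ ((32 : ℝ) / 25)) ^ (25 : ℝ) = H ^ (32 : ℕ) := by
      rw [← Real.rpow_mul hH0, ← Real.rpow_natCast]
      norm_num
    rw [e4] at h3
    refine h3.trans (le_of_eq ?_)
    rw [Real.mul_rpow (by positivity) (by positivity), mul_pow]
    congr 1
    · push_cast
      rw [← Real.rpow_mul (by positivity), ← Real.rpow_natCast, ← Real.rpow_mul (by positivity)]
      norm_num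
    · rw [← Real.rpow_natCast, ← Real.rpow_natCast, ← Real.rpow_mul (by norm_num),
        ← Real.rpow_mul (by norm_num)]
      congr 1
      push_cast
      ring
  exact le_of_pow_le_pow_left₀ (by norm_num) (by positivity) h2

/-- The numerical inequality at the end of the closure. -/
theorem closure_num_nat (j : ℕ) (hj : 1151 ≤ j) :
    (j + 1) ^ 56 * 2 ^ 552 * QN ^ (16 * j) ≤ 2 ^ j * QLN ^ (16 * j) := by
  induction j, hj using Nat.le_induction with
  | base => exact Nat.le_of_ble_eq_true (by decide +kernel)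
  | succ j hj ih =>
    have h1 : (j + 2) ^ 56 * QN ^ 16 ≤ 2 * (j + 1) ^ 56 * QLN ^ 16 := by
      have h2 : ((j : ℝ) + 2) ≤ (1153 / 1152) * ((j : ℝ) + 1) := by
        have : (1151 : ℝ) ≤ j := by exact_mod_cast hj
        linarith
      have h3 : ((j : ℝ) + 2) ^ 56 ≤ ((1153 / 1152) * ((j : ℝ) + 1)) ^ 56 :=
        pow_le_pow_left₀ (by positivity) h2 56
      rw [mul_pow] at h3
      have h4 : ((1153 : ℝ) / 1152) ^ 56 * (QN : ℝ) ^ 16 ≤ 2 * (QLN : ℝ) ^ 16 := by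
        unfold QN QLN
        norm_num
      have h5 : ((j : ℝ) + 2) ^ 56 * (QN : ℝ) ^ 16 ≤ 2 * ((j : ℝ) + 1) ^ 56 * (QLN : ℝ) ^ 16 := by
        calc ((j : ℝ) + 2) ^ 56 * (QN : ℝ) ^ 16
            ≤ ((1153 / 1152 : ℝ) ^ 56 * ((j : ℝ) + 1) ^ 56) * (QN : ℝ) ^ 16 :=
              mul_le_mul_of_nonneg_right h3 (by positivity)
          _ = ((1153 : ℝ) / 1152) ^ 56 * (QN : ℝ) ^ 16 * ((j : ℝ) + 1) ^ 56 := by ring
          _ ≤ (2 * (QLN : ℝ) ^ 16) * ((j : ℝ) + 1) ^ 56 :=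
              mul_le_mul_of_nonneg_right h4 (by positivity)
          _ = _ := by ring
      exact_mod_cast h5
    have e1 : QN ^ (16 * (j + 1)) = QN ^ (16 * j) * QN ^ 16 := by rw [← pow_add]; congr 1
    have e2 : QLN ^ (16 * (j + 1)) = QLN ^ (16 * j) * QLN ^ 16 := by rw [← pow_add]; congr 1
    rw [e1, e2]
    calc (j + 1 + 1) ^ 56 * 2 ^ 552 * (QN ^ (16 * j) * QN ^ 16)
        = ((j + 2) ^ 56 * QN ^ 16) * (2 ^ 552 * QN ^ (16 * j)) := by ring
      _ ≤ (2 * (j + 1) ^ 56 * QLN ^ 16) * (2 ^ 552 * QN ^ (16 * j)) := Nat.mul_le_mul_right _ h1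
      _ = 2 * QLN ^ 16 * ((j + 1) ^ 56 * 2 ^ 552 * QN ^ (16 * j)) := by ring
      _ ≤ 2 * QLN ^ 16 * (2 ^ j * QLN ^ (16 * j)) := Nat.mul_le_mul_left _ ih
      _ = _ := by ring

theorem closure_num (j : ℕ) (hj : 1151 ≤ j) :
    (((1 : ℝ) / 2) ^ j * 2 + (2 : ℝ) ^ ((17 : ℝ) / 8) * ((j : ℝ) + 1) ^ ((7 : ℝ) / 32) *
      (2 : ℝ) ^ (-(1 : ℝ) / 256 * j)) * Xr ^ (2 * j) ≤ 1 := by
  have hRpow : Rr ^ (16 * j) = ((QN : ℝ) / QLN) ^ (16 * j) := by
    congr 1
    have hQD : (QD : ℝ) ≠ 0 := by unfold QD; norm_num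
    have hQL : (QLN : ℝ) ≠ 0 := by unfold QLN; norm_num
    unfold Rr Qr QLr
    field_simp
  have h1 : ((j + 1 : ℝ) ^ 56 * 2 ^ 552) * Rr ^ (16 * j) ≤ 2 ^ j := by
    have h0 := closure_num_nat j hj
    have h0' : ((j : ℝ) + 1) ^ 56 * 2 ^ 552 * (QN : ℝ) ^ (16 * j) ≤ 2 ^ j * (QLN : ℝ) ^ (16 * j) := by
      exact_mod_cast h0
    have hq : (0 : ℝ) < (QLN : ℝ) ^ (16 * j) := by unfold QLN; positivity
    rw [hRpow, div_pow, ← mul_div_assoc, div_le_iff₀ hq]
    exact h0'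
  set Y : ℝ := Xr ^ (2 * j) with hY
  have hY0 : 0 < Y := by have := Xr_pos; positivity
  have hY256 : Y ^ 256 = Rr ^ (16 * j) := by
    rw [hY, ← pow_mul, show 2 * j * 256 = 32 * (16 * j) by ring, pow_mul Xr, Xr_pow32]
  have hR16 : 1 ≤ Rr ^ (16 * j) := one_le_pow₀ one_le_Rr
  set ρ : ℝ := (2 : ℝ) ^ ((17 : ℝ) / 8) * ((j : ℝ) + 1) ^ ((7 : ℝ) / 32) *
      (2 : ℝ) ^ (-(1 : ℝ) / 256 * j) with hρ
  have hρ0 : 0 ≤ ρ := by positivity
  have h2 : (ρ * Y) ^ 256 ≤ ((98 : ℝ) / 100) ^ 256 := by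
    have e : ρ ^ 256 = 2 ^ 544 * ((j : ℝ) + 1) ^ 56 / 2 ^ j := by
      rw [hρ, mul_pow, mul_pow]
      have a1 : ((2 : ℝ) ^ ((17 : ℝ) / 8)) ^ 256 = 2 ^ 544 := by
        rw [← Real.rpow_natCast, ← Real.rpow_mul (by norm_num)]
        norm_num
      have a2 : (((j : ℝ) + 1) ^ ((7 : ℝ) / 32)) ^ 256 = ((j : ℝ) + 1) ^ 56 := by
        rw [← Real.rpow_natCast, ← Real.rpow_mul (by positivity)]
        norm_num
      have a3 : ((2 : ℝ) ^ (-(1 : ℝ) / 256 * j)) ^ 256 = 1 / 2 ^ j := by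
        rw [← Real.rpow_natCast, ← Real.rpow_mul (by norm_num)]
        have : -(1 : ℝ) / 256 * j * ((256 : ℕ) : ℝ) = -(j : ℝ) := by push_cast; ring
        rw [this, Real.rpow_neg (by norm_num), Real.rpow_natCast, one_div]
      rw [a1, a2, a3]
      ring
    rw [mul_pow, e, hY256, div_mul_eq_mul_div, div_le_iff₀ (by positivity)]
    have h3 : (1 : ℝ) / 2 ^ 8 ≤ ((98 : ℝ) / 100) ^ 256 := by norm_num
    have e552 : (2 : ℝ) ^ 552 = 2 ^ 544 * 2 ^ 8 := by rw [← pow_add]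
    calc (2 : ℝ) ^ 544 * ((j : ℝ) + 1) ^ 56 * Rr ^ (16 * j)
        = (1 / 2 ^ 8) * (((j : ℝ) + 1) ^ 56 * 2 ^ 552 * Rr ^ (16 * j)) := by
          rw [e552]
          generalize ((j : ℝ) + 1) ^ 56 = X
          generalize (2 : ℝ) ^ 544 = Z
          generalize Rr ^ (16 * j) = W
          field_simp
      _ ≤ ((98 : ℝ) / 100) ^ 256 * 2 ^ j := by
          apply mul_le_mul h3 h1 (by positivity) (by positivity)
  have h3 : ρ * Y ≤ 98 / 100 := le_of_pow_le_pow_left₀ (by norm_num) (by norm_num) h2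
  -- the first term
  have h4 : ((((1 : ℝ) / 2) ^ j * 2) * Y) ^ 256 ≤ ((2 : ℝ) / 100) ^ 256 := by
    have hR2 : Rr ^ (16 * j) ≤ 2 ^ j := by
      have hp : (1 : ℝ) ≤ ((j : ℝ) + 1) ^ 56 * 2 ^ 552 :=
        one_le_mul_of_one_le_of_one_le (one_le_pow₀ (by linarith [(Nat.cast_nonneg j : (0 : ℝ) ≤ j)]))
          (one_le_pow₀ (by norm_num))
      calc Rr ^ (16 * j) ≤ (((j : ℝ) + 1) ^ 56 * 2 ^ 552) * Rr ^ (16 * j) :=
            le_mul_of_one_le_left (by positivity) hp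
        _ ≤ _ := h1
    rw [mul_pow, mul_pow, hY256, ← pow_mul, one_div, inv_pow]
    have h5 : (2 : ℝ) ^ (j * 256) = 2 ^ j * 2 ^ (j * 255) := by
      rw [← pow_add]; congr 1; ring
    rw [h5]
    have h6 : (100 : ℝ) ^ 256 ≤ 2 ^ (j * 255) * 1 := by
      rw [mul_one]
      calc (100 : ℝ) ^ 256 ≤ (2 ^ 8) ^ 256 := pow_le_pow_left₀ (by norm_num) (by norm_num) _
        _ = 2 ^ (8 * 256) := by rw [pow_mul]
        _ ≤ 2 ^ (j * 255) := pow_le_pow_right₀ (by norm_num) (by omega)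
    have h7 : ((2 : ℝ) ^ j * 2 ^ (j * 255))⁻¹ * 2 ^ 256 * Rr ^ (16 * j) ≤ ((2 : ℝ) / 100) ^ 256 := by
      have hP : (0 : ℝ) < (2 : ℝ) ^ j * 2 ^ (j * 255) := by positivity
      have this : Rr ^ (16 * j) * (100 : ℝ) ^ 256 ≤ 2 ^ j * 2 ^ (j * 255) :=
        mul_le_mul hR2 (by simpa using h6) (by positivity) (by positivity)
      have e9 : ((2 : ℝ) ^ j * 2 ^ (j * 255))⁻¹ * 2 ^ 256 * Rr ^ (16 * j)
          = (2 ^ 256 * Rr ^ (16 * j)) / ((2 : ℝ) ^ j * 2 ^ (j * 255)) := by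
        rw [div_eq_mul_inv]; ring
      rw [e9, div_pow, div_le_div_iff₀ hP (by positivity)]
      calc (2 : ℝ) ^ 256 * (Rr ^ (16 * j)) * 100 ^ 256 = 2 ^ 256 * (Rr ^ (16 * j) * 100 ^ 256) := by ring
        _ ≤ 2 ^ 256 * (2 ^ j * 2 ^ (j * 255)) := mul_le_mul_of_nonneg_left this (by positivity)
    exact h7
  have h5 : (((1 : ℝ) / 2) ^ j * 2) * Y ≤ 2 / 100 :=
    le_of_pow_le_pow_left₀ (by norm_num) (by norm_num) h4
  calc (((1 : ℝ) / 2) ^ j * 2 + ρ) * Y = (((1 : ℝ) / 2) ^ j * 2) * Y + ρ * Y := by ring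
    _ ≤ 1 := by linarith

/-! ### The family `Mt` -/

/-- The bound of the token recursion. -/
noncomputable def Mt (d j : ℕ) : ℝ :=
  if j ≤ JJ then ((TM (lev d)).getD j 0 : ℝ) / 2 ^ SS else if j ≤ 2 ^ d then Phi d j else 0

theorem Mt_nonneg (d j : ℕ) : 0 ≤ Mt d j := by
  unfold Mt
  split_ifs
  · positivity
  · exact Phi_nonneg _ _
  · exact le_rfl

theorem Mt_zero_idx (d : ℕ) : Mt d 0 = 1 := by
  unfold Mt
  rw [if_pos (Nat.zero_le _), TM_head _ (lev_le d)]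
  push_cast
  field_simp

theorem TM_len_gt_iff (d j : ℕ) (hj : j ≤ JJ) (hj2 : j ≤ 2 ^ d) : j < (TM (lev d)).length := by
  rw [TM_len _ (lev_le d)]
  by_cases hd : d ≤ 12
  · have : lev d = d := by unfold lev; omega
    rw [this]; omega
  · have : lev d = 12 := by unfold lev; omega
    rw [this, JJ_eq] at *
    norm_num
    omega

theorem Mt_eq_zero (d j : ℕ) (hj : 2 ^ d < j) : Mt d j = 0 := by
  unfold Mt
  by_cases hJ : j ≤ JJ
  · rw [if_pos hJ]
    have hlen : (TM (lev d)).length ≤ j := by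
      rw [TM_len _ (lev_le d)]
      have h2 : 2 ^ lev d ≤ 2 ^ d := Nat.pow_le_pow_right (by norm_num) (lev_le_self d)
      omega
    simp [List.getD, List.getElem?_eq_none hlen]
  · rw [if_neg hJ, if_neg (not_le.mpr hj)]

/-- The table test in real form. -/
theorem le_Phi_of_test {l j x : ℕ} (hj : j ≠ 0) (h : phiTest (cd l) j x = true) :
    (x : ℝ) / 2 ^ SS ≤ Phi l j * Xr ^ j := by
  have hX := Xr_pos
  have hR := Rr_pos
  have hQ := Qr_pos
  refine le_of_pow_le_pow_left₀ (n := 32) (by norm_num)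
    (mul_nonneg (Phi_nonneg _ _) (by positivity)) ?_
  rw [mul_pow, Phi_pow32, ← pow_mul, mul_comm j 32, pow_mul Xr, Xr_pow32, div_pow]
  have e : ((2 : ℝ) ^ SS) ^ 32 = 2 ^ (32 * SS) := by rw [← pow_mul, mul_comm]
  rw [e, div_mul_eq_mul_div, div_le_div_iff₀ (by positivity) (by positivity)]
  have hQLN : (0 : ℝ) < (QLN : ℝ) := by unfold QLN; norm_num
  have hQDp : (0 : ℝ) < (QD : ℝ) := by unfold QD; norm_num
  have hRj : Rr ^ j = (QN : ℝ) ^ j / (QLN : ℝ) ^ j := by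
    rw [← div_pow]
    congr 1
    unfold Rr Qr QLr
    field_simp
  unfold phiTest at h
  unfold ph
  split_ifs at h ⊢ with hc
  · have h1 : x ^ 32 * 2 ^ (6 * j) * QLN ^ j ≤ j ^ (7 * j) * 2 ^ 36 * 2 ^ (32 * SS) * QN ^ j := by
      simpa [Nat.ble_eq] using h
    have h2 : (x : ℝ) ^ 32 * 2 ^ (6 * j) * (QLN : ℝ) ^ j ≤
        (j : ℝ) ^ (7 * j) * 2 ^ 36 * 2 ^ (32 * SS) * (QN : ℝ) ^ j := by
      exact_mod_cast h1
    rw [hRj]
    have hp : (0 : ℝ) < (QLN : ℝ) ^ j := by positivity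
    calc (x : ℝ) ^ 32 * 2 ^ (6 * j)
        = ((x : ℝ) ^ 32 * 2 ^ (6 * j) * (QLN : ℝ) ^ j) / (QLN : ℝ) ^ j := by field_simp
      _ ≤ ((j : ℝ) ^ (7 * j) * 2 ^ 36 * 2 ^ (32 * SS) * (QN : ℝ) ^ j) / (QLN : ℝ) ^ j :=
          div_le_div_of_nonneg_right h2 hp.le
      _ = _ := by ring
  · set c := cd l with hcc
    have h1 : x ^ 32 * 2 ^ (6 * j) * QLN ^ j * QD ^ (j - c) ≤
        c ^ (7 * j) * QN ^ (j - c) * 2 ^ 36 * 2 ^ (32 * SS) * QN ^ j := by
      simpa [Nat.ble_eq] using h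
    have h2 : (x : ℝ) ^ 32 * 2 ^ (6 * j) * (QLN : ℝ) ^ j * (QD : ℝ) ^ (j - c) ≤
        (c : ℝ) ^ (7 * j) * (QN : ℝ) ^ (j - c) * 2 ^ 36 * 2 ^ (32 * SS) * (QN : ℝ) ^ j := by
      exact_mod_cast h1
    rw [hRj]
    have hQj : Qr ^ (j - c) = (QN : ℝ) ^ (j - c) / (QD : ℝ) ^ (j - c) := by
      unfold Qr
      rw [div_pow]
    rw [hQj]
    have hp : (0 : ℝ) < (QLN : ℝ) ^ j * (QD : ℝ) ^ (j - c) := by positivity
    calc (x : ℝ) ^ 32 * 2 ^ (6 * j)
        = ((x : ℝ) ^ 32 * 2 ^ (6 * j) * (QLN : ℝ) ^ j * (QD : ℝ) ^ (j - c)) /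
            ((QLN : ℝ) ^ j * (QD : ℝ) ^ (j - c)) := by field_simp
      _ ≤ ((c : ℝ) ^ (7 * j) * (QN : ℝ) ^ (j - c) * 2 ^ 36 * 2 ^ (32 * SS) * (QN : ℝ) ^ j) /
            ((QLN : ℝ) ^ j * (QD : ℝ) ^ (j - c)) :=
          div_le_div_of_nonneg_right h2 hp.le
      _ = _ := by field_simp

/-- The closed form does not depend on the level as long as the cap is not reached. -/
theorem Phi_eq_of_le {d d' j : ℕ} (h1 : j ≤ cd d) (h2 : j ≤ cd d') : Phi d j = Phi d' j := by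
  unfold Phi ph
  rw [if_pos h1, if_pos h2]

theorem cd_12 : cd 12 = 2048 := by norm_num [cd]

theorem cd_mono {d d' : ℕ} (h : d ≤ d') : cd d ≤ cd d' := by
  unfold cd
  exact Nat.pow_le_pow_right (by norm_num) (by omega)

/-- The table of the levels `≥ 10` is dominated by the closed form. -/
theorem Mt_le_Phi (d j : ℕ) (hd : 10 ≤ d) (hj : j ≠ 0) : Mt d j ≤ Phi d j * Xr ^ j := by
  have hX := Xr_pos
  unfold Mt
  split_ifs with h1 h2
  · by_cases hlen : j < (TM (lev d)).length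
    · have hl : ∃ h : lev d = 10 ∨ lev d = 11 ∨ lev d = 12, True := by
        refine ⟨?_, trivial⟩
        unfold lev
        omega
      obtain ⟨hl, -⟩ := hl
      have htest : phiTest (cd (lev d)) j ((TM (lev d)).getD j 0) = true := by
        rcases hl with hl | hl | hl
        · rw [hl]
          have := allI_spec _ _ _ phi_ok_10 j (by rw [hl] at hlen; exact hlen)
          show phiTest (cd 10) j (tM10.getD j 0) = true
          simpa [hj] using this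
        · rw [hl]
          have := allI_spec _ _ _ phi_ok_11 j (by rw [hl] at hlen; exact hlen)
          show phiTest (cd 11) j (tM11.getD j 0) = true
          simpa [hj] using this
        · rw [hl]
          have := allI_spec _ _ _ phi_ok_12 j (by rw [hl] at hlen; exact hlen)
          show phiTest (cd 12) j (tM12.getD j 0) = true
          simpa [hj] using this
      have h3 := le_Phi_of_test hj htest
      by_cases hd12 : d ≤ 12
      · have : lev d = d := by unfold lev; omega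
        rw [this] at h3 ⊢
        exact h3
      · have hl12 : lev d = 12 := by unfold lev; omega
        rw [hl12] at h3
        rw [hl12]
        have hc12 : j ≤ cd 12 := by rw [cd_12]; rw [JJ_eq] at h1; omega
        rwa [Phi_eq_of_le (d' := d) hc12 (hc12.trans (cd_mono (by omega)))] at h3
    · simp only [List.getD, List.getElem?_eq_none (not_lt.mp hlen)]
      have := Phi_nonneg d j
      simpa using (by positivity : 0 ≤ Phi d j * Xr ^ j)
  · exact le_mul_of_one_le_right (Phi_nonneg _ _) (one_le_pow₀ one_le_Xr)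
  · have := Phi_nonneg d j
    positivity

section Main

variable {B : ℕ → ℕ → ℝ} (hB : IsBd B)
include hB

/-- The weight on the interior, table range. -/
theorem kap_le_SL (d i k : ℕ) (hi : i ≠ 0) (hk : k ≠ 0) (hi' : i < (TM (lev d)).length)
    (hk' : k < (TM (lev d)).length) :
    Real.sqrt (B d i * B d k)
      ≤ (((SL (lev d)).getD i 0 : ℝ) / 2 ^ SB) * (((SL (lev d)).getD k 0 : ℝ) / 2 ^ SB) := by
  have hlen := TM_len _ (lev_le d)
  have h2 : 2 ^ lev d ≤ 2 ^ d := Nat.pow_le_pow_right (by norm_num) (lev_le_self d)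
  have h1 := B_le_SL hB d i (by omega) (by omega)
  have h3 := B_le_SL hB d k (by omega) (by omega)
  rw [Real.sqrt_le_left (by positivity)]
  rw [mul_pow]
  exact mul_le_mul h1 h3 (hB.nonneg _ _) (by positivity)

/-- The step, table range. -/
theorem step_table (d j : ℕ) (hj0 : j ≠ 0) (hJ : j ≤ JJ) (hj : j ≤ 2 ^ (d + 1)) :
    ((1 : ℝ) / 2) ^ j * ∑ x ∈ antidiagonal j, (j.choose x.1 : ℝ) * kap B d x.1 x.2 *
        Mt d x.1 * Mt d x.2 ≤ Mt (d + 1) j := by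
  have hchk := chkStep_all (lev d) (lev_le d)
  rw [← lev_succ] at hchk
  have := step_real hchk (SL_len _ (lev_le d)) (fun i k => Real.sqrt (B d i * B d k))
    (fun i k hi hk hi' hk' => kap_le_SL hB d i k hi hk hi' hk')
    (TM_head _ (lev_le d)) j hj0 (TM_len_gt_iff (d + 1) j hJ hj)
  have hMt : Mt (d + 1) j = ((TM (lev (d + 1))).getD j 0 : ℝ) / 2 ^ SS := by
    unfold Mt; rw [if_pos hJ]
  rw [hMt]
  refine le_trans (le_of_eq ?_) this
  congr 1
  refine Finset.sum_congr rfl fun x hx => ?_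
  have hsum : x.1 + x.2 = j := Finset.HasAntidiagonal.mem_antidiagonal.mp hx
  have h1 : Mt d x.1 = ((TM (lev d)).getD x.1 0 : ℝ) / 2 ^ SS := by
    unfold Mt; rw [if_pos (by omega)]
  have h2 : Mt d x.2 = ((TM (lev d)).getD x.2 0 : ℝ) / 2 ^ SS := by
    unfold Mt; rw [if_pos (by omega)]
  rw [h1, h2]
  rfl

/-- A term of the sum, in the closed-form range. -/
theorem term_closed (d j : ℕ) (hJ : JJ < j) (hj : j ≤ 2 ^ (d + 1)) (x : ℕ × ℕ) (hsum : x.1 + x.2 = j)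
    (h1 : x.1 ≠ 0) (h2 : x.2 ≠ 0) :
    (j.choose x.1 : ℝ) * kap B d x.1 x.2 * Mt d x.1 * Mt d x.2
      ≤ 2 * (2 : ℝ) ^ ((55 : ℝ) / 256 * j) * (2 : ℝ) ^ ((9 : ℝ) / 8) *
          ((j.choose x.1 : ℝ) ^ ((25 : ℝ) / 32) * (Phi (d + 1) j * Xr ^ (2 * j))) := by
  have hd : 10 ≤ d := by
    by_contra hcon
    have : 2 ^ (d + 1) ≤ 2 ^ 10 := Nat.pow_le_pow_right (by norm_num) (by omega)
    rw [JJ_eq] at hJ
    norm_num at this
    omega
  have hX := Xr_pos
  have hPh0 : 0 ≤ Phi (d + 1) j := Phi_nonneg _ _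
  by_cases hx1 : x.1 ≤ 2 ^ d
  · by_cases hx2 : x.2 ≤ 2 ^ d
    · have hk : kap B d x.1 x.2 ≤ 2 * (2 : ℝ) ^ ((55 : ℝ) / 256 * j) := by
        unfold kap
        rw [if_neg (by tauto)]
        have b1 := B_le_cr hB d x.1 (by omega) hx1
        have b2 := B_le_cr hB d x.2 (by omega) hx2
        rw [Real.sqrt_le_left (by positivity)]
        unfold cr at b1 b2
        have p1 := pw_ge_one x.1
        have p2 := pw_ge_one x.2
        have e : ((2 : ℝ) ^ ((55 : ℝ) / 256 * j)) ^ 2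
            = (2 : ℝ) ^ ((55 : ℝ) / 128 * x.1) * (2 : ℝ) ^ ((55 : ℝ) / 128 * x.2) := by
          rw [← Real.rpow_natCast, ← Real.rpow_mul (by norm_num), ← Real.rpow_add (by norm_num), ← hsum]
          congr 1
          push_cast
          ring
        rw [mul_pow, e]
        calc B d x.1 * B d x.2
            ≤ (2 * (2 : ℝ) ^ ((55 : ℝ) / 128 * x.1)) * (2 * (2 : ℝ) ^ ((55 : ℝ) / 128 * x.2)) := by
              apply mul_le_mul (by linarith) (by linarith) (hB.nonneg _ _) (by positivity)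
          _ = _ := by ring
      have hk0 : 0 ≤ kap B d x.1 x.2 := by
        unfold kap; rw [if_neg (by tauto)]; positivity
      have hm1 := Mt_le_Phi d x.1 hd h1
      have hm2 := Mt_le_Phi d x.2 hd h2
      have hcp := choose_Phi (d := d) (by omega) hx1 hx2
      rw [hsum] at hcp
      have hPP : 0 ≤ Phi d x.1 * Phi d x.2 := mul_nonneg (Phi_nonneg _ _) (Phi_nonneg _ _)
      calc (j.choose x.1 : ℝ) * kap B d x.1 x.2 * Mt d x.1 * Mt d x.2
          = kap B d x.1 x.2 * ((j.choose x.1 : ℝ) * (Mt d x.1 * Mt d x.2)) := by ring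
        _ ≤ (2 * (2 : ℝ) ^ ((55 : ℝ) / 256 * j)) *
              ((j.choose x.1 : ℝ) * ((Phi d x.1 * Xr ^ x.1) * (Phi d x.2 * Xr ^ x.2))) := by
            apply mul_le_mul hk _ (by have := Mt_nonneg d x.1; have := Mt_nonneg d x.2; positivity)
              (by positivity)
            apply mul_le_mul_of_nonneg_left _ (by positivity)
            exact mul_le_mul hm1 hm2 (Mt_nonneg _ _)
              (mul_nonneg (Phi_nonneg _ _) (by positivity))
        _ = (2 * (2 : ℝ) ^ ((55 : ℝ) / 256 * j)) * (((j.choose x.1 : ℝ) * (Phi d x.1 * Phi d x.2)) *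
              Xr ^ j) := by
            rw [← hsum, pow_add]; ring
        _ ≤ (2 * (2 : ℝ) ^ ((55 : ℝ) / 256 * j)) * (((j.choose x.1 : ℝ) ^ ((25 : ℝ) / 32) *
              (2 : ℝ) ^ ((9 : ℝ) / 8) * (Phi (d + 1) j * Xr ^ j)) * Xr ^ j) := by
            apply mul_le_mul_of_nonneg_left _ (by positivity)
            exact mul_le_mul_of_nonneg_right hcp (by positivity)
        _ = _ := by
            rw [two_mul j, pow_add]; ring
    · rw [Mt_eq_zero d x.2 (by omega), mul_zero]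
      positivity
  · rw [Mt_eq_zero d x.1 (by omega), mul_zero, zero_mul]
    positivity

omit hB in
/-- The boundary terms in the closed form range. -/
theorem Mt_le_boundary (d j : ℕ) (hJ : JJ < j) (hj : j ≤ 2 ^ (d + 1)) :
    Mt d j ≤ Phi (d + 1) j * Xr ^ (2 * j) := by
  have hd : 10 ≤ d := by
    by_contra hcon
    have : 2 ^ (d + 1) ≤ 2 ^ 10 := Nat.pow_le_pow_right (by norm_num) (by omega)
    rw [JJ_eq] at hJ
    norm_num at this
    omega
  have hX := Xr_pos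
  by_cases hx : j ≤ 2 ^ d
  · have h1 := Mt_le_Phi d j hd (by omega)
    have h2 := Phi_le_succ (d := d) (by omega) hx
    calc Mt d j ≤ Phi d j * Xr ^ j := h1
      _ ≤ (Phi (d + 1) j * Xr ^ j) * Xr ^ j := mul_le_mul_of_nonneg_right h2 (by positivity)
      _ = _ := by rw [two_mul, pow_add]; ring
  · rw [Mt_eq_zero d j (by omega)]
    exact mul_nonneg (Phi_nonneg _ _) (by positivity)

/-- The step, closed form range. -/
theorem step_closed (d j : ℕ) (hJ : JJ < j) (hj : j ≤ 2 ^ (d + 1)) :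
    ((1 : ℝ) / 2) ^ j * ∑ x ∈ antidiagonal j, (j.choose x.1 : ℝ) * kap B d x.1 x.2 *
        Mt d x.1 * Mt d x.2 ≤ Mt (d + 1) j := by
  have hMt : Mt (d + 1) j = Phi (d + 1) j := by
    unfold Mt; rw [if_neg (by omega), if_pos hj]
  rw [hMt]
  have hj0 : j ≠ 0 := by omega
  have hX := Xr_pos
  set P : ℝ := Phi (d + 1) j * Xr ^ (2 * j) with hP
  have hP0 : 0 ≤ P := mul_nonneg (Phi_nonneg _ _) (by positivity)
  set G : ℝ := 2 * (2 : ℝ) ^ ((55 : ℝ) / 256 * j) * (2 : ℝ) ^ ((9 : ℝ) / 8) with hG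
  have hterm : ∀ x ∈ antidiagonal j, (j.choose x.1 : ℝ) * kap B d x.1 x.2 * Mt d x.1 * Mt d x.2
      ≤ (if x.1 = 0 then P else 0) + (if x.2 = 0 then P else 0)
        + G * ((j.choose x.1 : ℝ) ^ ((25 : ℝ) / 32) * P) := by
    intro x hx
    have hsum : x.1 + x.2 = j := Finset.HasAntidiagonal.mem_antidiagonal.mp hx
    have hG0 : 0 ≤ G := by positivity
    have hGt : 0 ≤ G * ((j.choose x.1 : ℝ) ^ ((25 : ℝ) / 32) * P) := by positivity
    have hb := Mt_le_boundary d j hJ hj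
    by_cases h1 : x.1 = 0
    · have h2 : x.2 = j := by omega
      have h3 : x.2 ≠ 0 := by omega
      have hk : kap B d x.1 x.2 = 1 := by unfold kap; rw [if_pos (Or.inl h1)]
      rw [hk, h1, h2, if_pos rfl, if_neg hj0, Mt_zero_idx]
      simp only [Nat.choose_zero_right, Nat.cast_one, one_mul, add_zero] at hGt ⊢
      have h9 : 0 ≤ G * ((1 : ℝ) ^ ((25 : ℝ) / 32) * P) := by positivity
      linarith
    by_cases h2 : x.2 = 0
    · have h3 : x.1 = j := by omega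
      have hk : kap B d x.1 x.2 = 1 := by unfold kap; rw [if_pos (Or.inr h2)]
      rw [hk, h2, h3, if_pos rfl, if_neg hj0, Mt_zero_idx]
      simp only [Nat.choose_self, Nat.cast_one, one_mul, mul_one, zero_add] at hGt ⊢
      have h9 : 0 ≤ G * ((1 : ℝ) ^ ((25 : ℝ) / 32) * P) := by positivity
      linarith
    rw [if_neg h1, if_neg h2, zero_add, zero_add]
    exact term_closed hB d j hJ hj x hsum h1 h2
  have hsum1 := Finset.sum_le_sum hterm
  rw [Finset.sum_add_distrib, Finset.sum_add_distrib] at hsum1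
  have a1 : ∑ x ∈ antidiagonal j, (if x.1 = 0 then P else 0) = P := by
    rw [Finset.sum_ite, Finset.sum_const_zero, add_zero, Finset.sum_const]
    have : (antidiagonal j).filter (fun x => x.1 = 0) = {(0, j)} := by
      ext ⟨a, b⟩
      simp only [mem_filter, Finset.HasAntidiagonal.mem_antidiagonal, mem_singleton, Prod.mk.injEq]
      constructor
      · rintro ⟨h1, h2⟩; subst h2; omega
      · rintro ⟨rfl, rfl⟩; simp
    rw [this]; simp
  have a2 : ∑ x ∈ antidiagonal j, (if x.2 = 0 then P else 0) = P := by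
    rw [Finset.sum_ite, Finset.sum_const_zero, add_zero, Finset.sum_const]
    have : (antidiagonal j).filter (fun x => x.2 = 0) = {(j, 0)} := by
      ext ⟨a, b⟩
      simp only [mem_filter, Finset.HasAntidiagonal.mem_antidiagonal, mem_singleton, Prod.mk.injEq]
      constructor
      · rintro ⟨h1, h2⟩; subst h2; omega
      · rintro ⟨rfl, rfl⟩; simp
    rw [this]; simp
  rw [a1, a2] at hsum1
  have a3 : ∑ x ∈ antidiagonal j, G * ((j.choose x.1 : ℝ) ^ ((25 : ℝ) / 32) * P)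
      = G * P * ∑ x ∈ antidiagonal j, (j.choose x.1 : ℝ) ^ ((25 : ℝ) / 32) := by
    rw [Finset.mul_sum]
    refine Finset.sum_congr rfl fun x _ => ?_
    ring
  rw [a3] at hsum1
  have hH := sum_choose_rpow_le j
  have hG0 : 0 ≤ G := by positivity
  have hnum := closure_num j (by rw [JJ_eq] at hJ; omega)
  -- combine
  have h5 : G * ((j : ℝ) + 1) ^ ((7 : ℝ) / 32) * (2 : ℝ) ^ ((25 : ℝ) / 32 * j) * ((1 : ℝ) / 2) ^ j
      = (2 : ℝ) ^ ((17 : ℝ) / 8) * ((j : ℝ) + 1) ^ ((7 : ℝ) / 32) * (2 : ℝ) ^ (-(1 : ℝ) / 256 * j) := by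
    have e1 : ((1 : ℝ) / 2) ^ j = (2 : ℝ) ^ (-(j : ℝ)) := by
      rw [Real.rpow_neg (by norm_num), Real.rpow_natCast, one_div, inv_pow]
    have e2 : (2 : ℝ) ^ ((17 : ℝ) / 8) = 2 * (2 : ℝ) ^ ((9 : ℝ) / 8) := by
      have : ((17 : ℝ) / 8) = 1 + 9 / 8 := by norm_num
      rw [this, Real.rpow_add (by norm_num), Real.rpow_one]
    have e3 : (2 : ℝ) ^ (-(1 : ℝ) / 256 * j)
        = (2 : ℝ) ^ ((55 : ℝ) / 256 * j) * (2 : ℝ) ^ ((25 : ℝ) / 32 * j) * (2 : ℝ) ^ (-(j : ℝ)) := by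
      rw [← Real.rpow_add (by norm_num), ← Real.rpow_add (by norm_num)]
      congr 1
      ring
    rw [e1, e2, e3, hG]
    ring
  calc ((1 : ℝ) / 2) ^ j * ∑ x ∈ antidiagonal j, (j.choose x.1 : ℝ) * kap B d x.1 x.2 *
        Mt d x.1 * Mt d x.2
      ≤ ((1 : ℝ) / 2) ^ j * (P + P + G * P * (((j : ℝ) + 1) ^ ((7 : ℝ) / 32) *
          (2 : ℝ) ^ ((25 : ℝ) / 32 * j))) := by
        apply mul_le_mul_of_nonneg_left _ (by positivity)
        refine hsum1.trans ?_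
        have : G * P * ∑ x ∈ antidiagonal j, (j.choose x.1 : ℝ) ^ ((25 : ℝ) / 32)
            ≤ G * P * (((j : ℝ) + 1) ^ ((7 : ℝ) / 32) * (2 : ℝ) ^ ((25 : ℝ) / 32 * j)) :=
          mul_le_mul_of_nonneg_left hH (by positivity)
        linarith
    _ = P * (((1 : ℝ) / 2) ^ j * 2 + G * ((j : ℝ) + 1) ^ ((7 : ℝ) / 32) *
          (2 : ℝ) ^ ((25 : ℝ) / 32 * j) * ((1 : ℝ) / 2) ^ j) := by ring
    _ = Phi (d + 1) j * ((((1 : ℝ) / 2) ^ j * 2 + (2 : ℝ) ^ ((17 : ℝ) / 8) *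
          ((j : ℝ) + 1) ^ ((7 : ℝ) / 32) * (2 : ℝ) ^ (-(1 : ℝ) / 256 * j)) * Xr ^ (2 * j)) := by
        rw [h5, hP]; ring
    _ ≤ Phi (d + 1) j * 1 := mul_le_mul_of_nonneg_left hnum (Phi_nonneg _ _)
    _ = Phi (d + 1) j := mul_one _

/-- The recursion, all cases. -/
theorem Mt_step (d j : ℕ) :
    ((1 : ℝ) / 2) ^ j * ∑ x ∈ antidiagonal j, (j.choose x.1 : ℝ) * kap B d x.1 x.2 *
        Mt d x.1 * Mt d x.2 ≤ Mt (d + 1) j := by
  by_cases hj0 : j = 0
  · subst hj0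
    simp [kap, Mt_zero_idx]
  by_cases hj : j ≤ 2 ^ (d + 1)
  · by_cases hJ : j ≤ JJ
    · exact step_table hB d j hj0 hJ hj
    · exact step_closed hB d j (by omega) hj
  · have : ∑ x ∈ antidiagonal j, (j.choose x.1 : ℝ) * kap B d x.1 x.2 * Mt d x.1 * Mt d x.2 = 0 := by
      refine Finset.sum_eq_zero fun x hx => ?_
      have hsum : x.1 + x.2 = j := Finset.HasAntidiagonal.mem_antidiagonal.mp hx
      have h2 : 2 ^ (d + 1) = 2 * 2 ^ d := by ring
      by_cases hx1 : x.1 ≤ 2 ^ d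
      · rw [Mt_eq_zero d x.2 (by omega), mul_zero]
      · rw [Mt_eq_zero d x.1 (by omega)]; simp
    rw [this, mul_zero]
    exact Mt_nonneg _ _

end Main

/-- The unit of slope. -/
noncomputable def Eu (d : ℕ) : ℝ := ((cd d : ℝ) ^ 7 * Qr / 64) ^ ((1 : ℝ) / 32)

theorem Eu_base_pos (d : ℕ) : 0 < (cd d : ℝ) ^ 7 * Qr / 64 := by
  have h1 : (0 : ℝ) < cd d := by exact_mod_cast cd_pos d
  have := Qr_pos
  positivity

theorem Eu_pow32 (d : ℕ) : Eu d ^ 32 = (cd d : ℝ) ^ 7 * Qr / 64 := by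
  unfold Eu
  rw [← Real.rpow_natCast, ← Real.rpow_mul (Eu_base_pos d).le]
  norm_num

theorem Eu_pos (d : ℕ) : 0 < Eu d := by
  unfold Eu
  exact Real.rpow_pos_of_pos (Eu_base_pos d) _

theorem Eu_mono {d d' : ℕ} (h : d ≤ d') : Eu d ≤ Eu d' := by
  unfold Eu
  apply Real.rpow_le_rpow (Eu_base_pos d).le _ (by norm_num)
  have h1 : (cd d : ℝ) ≤ cd d' := by exact_mod_cast cd_mono h
  have h0 : (0 : ℝ) ≤ cd d := by positivity
  have := Qr_pos
  have h7 : (cd d : ℝ) ^ 7 ≤ (cd d' : ℝ) ^ 7 := pow_le_pow_left₀ h0 h1 7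
  gcongr

/-- Table slope. -/
theorem slope_table (d j : ℕ) (h : j + 1 ≤ JJ) (hd : j + 1 ≤ 2 ^ d) :
    Mt d (j + 1) ≤ Mt d j * Eu d := by
  have hlen := TM_len_gt_iff d (j + 1) h hd
  have h1 := TM_slope _ (lev_le d) j hlen
  have e1 : Mt d (j + 1) = ((TM (lev d)).getD (j + 1) 0 : ℝ) / 2 ^ SS := by
    unfold Mt; rw [if_pos h]
  have e2 : Mt d j = ((TM (lev d)).getD j 0 : ℝ) / 2 ^ SS := by
    unfold Mt; rw [if_pos (by omega)]
  rw [e1, e2]
  have h2 : ((TM (lev d)).getD (j + 1) 0 : ℝ) ≤ ((TM (lev d)).getD j 0 : ℝ) * Eu (lev d) := by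
    refine le_of_pow_le_pow_left₀ (n := 32) (by norm_num)
      (mul_nonneg (by positivity) (Eu_pos _).le) ?_
    rw [mul_pow, Eu_pow32]
    have h3 : (((TM (lev d)).getD (j + 1) 0 : ℝ)) ^ 32 * 64 * QD ≤
        ((TM (lev d)).getD j 0 : ℝ) ^ 32 * (cd (lev d) : ℝ) ^ 7 * QN := by
      exact_mod_cast h1
    have hQD : (0 : ℝ) < QD := by unfold QD; norm_num
    unfold Qr
    rw [show ((TM (lev d)).getD j 0 : ℝ) ^ 32 * ((cd (lev d) : ℝ) ^ 7 * ((QN : ℝ) / QD) / 64) =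
      (((TM (lev d)).getD j 0 : ℝ) ^ 32 * (cd (lev d) : ℝ) ^ 7 * QN) / (64 * QD) by field_simp]
    rw [le_div_iff₀ (by positivity)]
    calc _ = (((TM (lev d)).getD (j + 1) 0 : ℝ)) ^ 32 * 64 * QD := by ring
      _ ≤ _ := h3
  have h3 : ((TM (lev d)).getD j 0 : ℝ) * Eu (lev d) ≤ ((TM (lev d)).getD j 0 : ℝ) * Eu d :=
    mul_le_mul_of_nonneg_left (Eu_mono (lev_le_self d)) (by positivity)
  calc _ ≤ (((TM (lev d)).getD j 0 : ℝ) * Eu d) / 2 ^ SS := by
        apply div_le_div_of_nonneg_right (h2.trans h3) (by positivity)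
    _ = _ := by ring

/-- Closed-form slope. -/
theorem slope_closed (d j : ℕ) (hj0 : j ≠ 0) : Phi d (j + 1) ≤ Phi d j * Eu d := by
  refine le_of_pow_le_pow_left₀ (n := 32) (by norm_num)
    (mul_nonneg (Phi_nonneg _ _) (Eu_pos _).le) ?_
  rw [mul_pow, Phi_pow32, Phi_pow32, Eu_pow32]
  have hj : (1 : ℝ) ≤ j := by exact_mod_cast Nat.one_le_iff_ne_zero.mpr hj0
  have hj1 : (0 : ℝ) < j := by linarith
  have hQ := Qr_pos
  have hc : (0 : ℝ) < cd d := by exact_mod_cast cd_pos d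
  set c := cd d with hcd
  have e6 : (2 : ℝ) ^ (6 * (j + 1)) = 2 ^ (6 * j) * 64 := by
    rw [show 6 * (j + 1) = 6 * j + 6 by ring, pow_add]; norm_num
  rw [e6]
  by_cases h : j + 1 ≤ c
  · have e1 : ph c (j + 1) = ((j : ℝ) + 1) ^ (7 * (j + 1)) := by
      unfold ph; rw [if_pos h]; push_cast; rfl
    have e2 : ph c j = (j : ℝ) ^ (7 * j) := by unfold ph; rw [if_pos (by omega)]
    rw [e1, e2]
    -- `(j+1)^(7j) ≤ j^(7j) e^7`
    have h1 : (((j : ℝ) + 1)) ^ (7 * j) ≤ (j : ℝ) ^ (7 * j) * Qr := by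
      have h2 : (1 + 1 / (j : ℝ)) ^ j ≤ Real.exp 1 := by
        have h3 : 1 + 1 / (j : ℝ) ≤ Real.exp (1 / (j : ℝ)) := by
          have := Real.add_one_le_exp (1 / (j : ℝ))
          linarith
        calc (1 + 1 / (j : ℝ)) ^ j ≤ (Real.exp (1 / (j : ℝ))) ^ j :=
              pow_le_pow_left₀ (by positivity) h3 j
          _ = Real.exp 1 := by
              rw [← Real.exp_nat_mul]
              congr 1
              field_simp
      have h4 : (Real.exp 1) ^ 7 ≤ Qr := by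
        have e : Real.exp 7 = (Real.exp 1) ^ 7 := by
          rw [← Real.exp_nat_mul]
          norm_num
        rw [← e]
        exact exp7_le_Qr
      have h7 : ((j : ℝ) + 1) ^ j = (j : ℝ) ^ j * (1 + 1 / (j : ℝ)) ^ j := by
        rw [← mul_pow]
        congr 1
        field_simp
      calc ((j : ℝ) + 1) ^ (7 * j) = (((j : ℝ) + 1) ^ j) ^ 7 := by rw [← pow_mul, mul_comm]
        _ = ((j : ℝ) ^ j) ^ 7 * ((1 + 1 / (j : ℝ)) ^ j) ^ 7 := by rw [h7, mul_pow]
        _ ≤ ((j : ℝ) ^ j) ^ 7 * (Real.exp 1) ^ 7 := by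
            apply mul_le_mul_of_nonneg_left _ (by positivity)
            exact pow_le_pow_left₀ (by positivity) h2 7
        _ ≤ ((j : ℝ) ^ j) ^ 7 * Qr := mul_le_mul_of_nonneg_left h4 (by positivity)
        _ = _ := by rw [← pow_mul, mul_comm j 7]
    have h8 : ((j : ℝ) + 1) ^ 7 ≤ (c : ℝ) ^ 7 := by
      have : ((j : ℝ) + 1) ≤ c := by exact_mod_cast h
      exact pow_le_pow_left₀ (by positivity) this 7
    have e5 : ((j : ℝ) + 1) ^ (7 * (j + 1)) = ((j : ℝ) + 1) ^ (7 * j) * ((j : ℝ) + 1) ^ 7 := by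
      rw [← pow_add]
      congr 1
    rw [e5, div_mul_eq_mul_div, div_le_div_iff₀ (by positivity) (by positivity)]
    have h9 : ((j : ℝ) + 1) ^ (7 * j) * ((j : ℝ) + 1) ^ 7 ≤ ((j : ℝ) ^ (7 * j) * Qr) * (c : ℝ) ^ 7 :=
      mul_le_mul h1 h8 (by positivity) (by positivity)
    calc ((j : ℝ) + 1) ^ (7 * j) * ((j : ℝ) + 1) ^ 7 * 2 ^ 36 * 2 ^ (6 * j)
        ≤ (((j : ℝ) ^ (7 * j) * Qr) * (c : ℝ) ^ 7) * 2 ^ 36 * 2 ^ (6 * j) := by gcongr
      _ = _ := by
          field_simp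
  · have hcj : c ≤ j := by omega
    have e1 : ph c (j + 1) = (c : ℝ) ^ (7 * (j + 1)) * Qr ^ (j + 1 - c) := ph_of_ge (by omega)
    have e2 : ph c j = (c : ℝ) ^ (7 * j) * Qr ^ (j - c) := ph_of_ge hcj
    have e3 : j + 1 - c = (j - c) + 1 := by omega
    rw [e1, e2, e3, show 7 * (j + 1) = 7 * j + 7 by ring, pow_add, pow_add]
    apply le_of_eq
    field_simp

/-- Junction of table and closed form. -/
theorem slope_junction (d : ℕ) (hd : JJ + 1 ≤ 2 ^ d) : Phi d (JJ + 1) ≤ Mt d JJ * Eu d := by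
  have hd11 : 11 ≤ d := by
    by_contra hcon
    have : 2 ^ d ≤ 2 ^ 10 := Nat.pow_le_pow_right (by norm_num) (by omega)
    rw [JJ_eq] at hd
    norm_num at this
    omega
  have hQDp : (0 : ℝ) < (QD : ℝ) := by unfold QD; norm_num
  have hQNp : (0 : ℝ) < (QN : ℝ) := by unfold QN; norm_num
  by_cases h12 : d = 11
  · subst h12
    have hlev : lev 11 = 11 := rfl
    have e1 : Mt 11 JJ = (tM11.getD JJ 0 : ℝ) / 2 ^ SS := by
      unfold Mt; rw [if_pos le_rfl, hlev]; rfl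
    rw [e1]
    have hc : ¬ (JJ + 1 ≤ cd 11) := by
      rw [JJ_eq]; norm_num [cd]
    have h1 := Nat.le_of_ble_eq_true chk_junction_11
    refine le_of_pow_le_pow_left₀ (n := 32) (by norm_num)
      (mul_nonneg (by positivity) (Eu_pos _).le) ?_
    rw [Phi_pow32, mul_pow, div_pow, Eu_pow32]
    have e : ((2 : ℝ) ^ SS) ^ 32 = 2 ^ (32 * SS) := by rw [← pow_mul, mul_comm]
    rw [e]
    have ep : ph (cd 11) (JJ + 1) = ((cd 11 : ℕ) : ℝ) ^ (7 * (JJ + 1)) * Qr ^ (JJ + 1 - cd 11) := by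
      unfold ph; rw [if_neg hc]
    rw [ep]
    have h2 : ((cd 11 : ℝ)) ^ (7 * (JJ + 1)) * (QN : ℝ) ^ (JJ + 1 - cd 11) * 2 ^ 36 * 2 ^ (32 * SS) *
        (64 * (QD : ℝ)) ≤ (tM11.getD JJ 0 : ℝ) ^ 32 * 2 ^ (6 * (JJ + 1)) * (QD : ℝ) ^ (JJ + 1 - cd 11) *
        ((cd 11 : ℝ) ^ 7 * (QN : ℝ)) := by
      exact_mod_cast h1
    unfold Qr
    rw [div_pow]
    have hP : (0 : ℝ) < (QD : ℝ) ^ (JJ + 1 - cd 11) := by positivity
    rw [show (cd 11 : ℝ) ^ (7 * (JJ + 1)) * ((QN : ℝ) ^ (JJ + 1 - cd 11) / (QD : ℝ) ^ (JJ + 1 - cd 11)) * 2 ^ 36 /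
        2 ^ (6 * (JJ + 1)) = ((cd 11 : ℝ) ^ (7 * (JJ + 1)) * (QN : ℝ) ^ (JJ + 1 - cd 11) * 2 ^ 36) /
        ((QD : ℝ) ^ (JJ + 1 - cd 11) * 2 ^ (6 * (JJ + 1))) by field_simp]
    rw [show (tM11.getD JJ 0 : ℝ) ^ 32 / 2 ^ (32 * SS) * ((cd 11 : ℝ) ^ 7 * ((QN : ℝ) / QD) / 64) =
        ((tM11.getD JJ 0 : ℝ) ^ 32 * ((cd 11 : ℝ) ^ 7 * (QN : ℝ))) / (2 ^ (32 * SS) * (64 * (QD : ℝ))) by
      field_simp]
    rw [div_le_div_iff₀ (by positivity) (by positivity)]
    calc _ = ((cd 11 : ℝ)) ^ (7 * (JJ + 1)) * (QN : ℝ) ^ (JJ + 1 - cd 11) * 2 ^ 36 * 2 ^ (32 * SS) *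
        (64 * (QD : ℝ)) := by ring
      _ ≤ _ := h2
      _ = _ := by ring
  · have hd12 : 12 ≤ d := by omega
    have hlev : lev d = 12 := by unfold lev; omega
    have e1 : Mt d JJ = (tM12.getD JJ 0 : ℝ) / 2 ^ SS := by
      unfold Mt; rw [if_pos le_rfl, hlev]; rfl
    rw [e1]
    have hc12 : JJ + 1 ≤ cd 12 := by rw [cd_12, JJ_eq]; norm_num
    rw [Phi_eq_of_le (hc12.trans (cd_mono hd12)) hc12]
    have h3 : Phi 12 (JJ + 1) ≤ (tM12.getD JJ 0 : ℝ) / 2 ^ SS * Eu 12 := by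
      have h1 := Nat.le_of_ble_eq_true chk_junction_12
      refine le_of_pow_le_pow_left₀ (n := 32) (by norm_num)
        (mul_nonneg (by positivity) (Eu_pos _).le) ?_
      rw [Phi_pow32, mul_pow, div_pow, Eu_pow32]
      have e : ((2 : ℝ) ^ SS) ^ 32 = 2 ^ (32 * SS) := by rw [← pow_mul, mul_comm]
      rw [e]
      have ep : ph (cd 12) (JJ + 1) = ((JJ + 1 : ℕ) : ℝ) ^ (7 * (JJ + 1)) := by
        unfold ph; rw [if_pos hc12]
      rw [ep]
      have h2 : (((JJ + 1 : ℕ) : ℝ)) ^ (7 * (JJ + 1)) * 2 ^ 36 * 2 ^ (32 * SS) * (64 * (QD : ℝ)) ≤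
          (tM12.getD JJ 0 : ℝ) ^ 32 * 2 ^ (6 * (JJ + 1)) * ((cd 12 : ℝ) ^ 7 * (QN : ℝ)) := by
        exact_mod_cast h1
      unfold Qr
      rw [show (tM12.getD JJ 0 : ℝ) ^ 32 / 2 ^ (32 * SS) * ((cd 12 : ℝ) ^ 7 * ((QN : ℝ) / QD) / 64) =
          ((tM12.getD JJ 0 : ℝ) ^ 32 * ((cd 12 : ℝ) ^ 7 * (QN : ℝ))) / (2 ^ (32 * SS) * (64 * (QD : ℝ))) by
        field_simp]
      rw [div_le_div_iff₀ (by positivity) (by positivity)]
      calc _ = (((JJ + 1 : ℕ) : ℝ)) ^ (7 * (JJ + 1)) * 2 ^ 36 * 2 ^ (32 * SS) * (64 * (QD : ℝ)) := by ring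
        _ ≤ _ := h2
        _ = _ := by ring
    exact h3.trans (mul_le_mul_of_nonneg_left (Eu_mono hd12) (by positivity))

/-- The unit slope. -/
theorem Mt_slope_one (d j : ℕ) (hd : j + 1 ≤ 2 ^ d) : Mt d (j + 1) ≤ Mt d j * Eu d := by
  by_cases h : j + 1 ≤ JJ
  · exact slope_table d j h hd
  · by_cases hj : j = JJ
    · subst hj
      have e : Mt d (JJ + 1) = Phi d (JJ + 1) := by
        unfold Mt; rw [if_neg (by omega), if_pos hd]
      rw [e]
      exact slope_junction d hd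
    · have hj0 : j ≠ 0 := by rw [JJ_eq] at *; omega
      have e1 : Mt d (j + 1) = Phi d (j + 1) := by
        unfold Mt; rw [if_neg h, if_pos hd]
      have e2 : Mt d j = Phi d j := by
        unfold Mt; rw [if_neg (by omega), if_pos (by omega)]
      rw [e1, e2]
      exact slope_closed d j hj0

/-- The slope of level `d`: `τ_d = (1/32) log (c^7 Q / 64)`, `c = 2^(d-1)`. -/
noncomputable def tauD (d : ℕ) : ℝ := (1 / 32) * Real.log ((cd d : ℝ) ^ 7 * Qr / 64)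

theorem Eu_eq_exp (d : ℕ) : Eu d = Real.exp (tauD d) := by
  unfold Eu tauD
  rw [Real.rpow_def_of_pos (Eu_base_pos d)]
  congr 1
  ring

theorem Mt_slope (d j i : ℕ) (h : j + i ≤ 2 ^ d) :
    Mt d (j + i) ≤ Mt d j * Real.exp (i * tauD d) := by
  induction i with
  | zero => simp
  | succ i ih =>
    have h1 := ih (by omega)
    have h2 := Mt_slope_one d (j + i) (by omega)
    rw [show j + (i + 1) = j + i + 1 by omega]
    have e : Real.exp (((i + 1 : ℕ) : ℝ) * tauD d) = Real.exp (i * tauD d) * Eu d := by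
      rw [Eu_eq_exp, ← Real.exp_add]
      congr 1
      push_cast
      ring
    rw [e, ← mul_assoc]
    exact h2.trans (mul_le_mul_of_nonneg_right h1 (Eu_pos _).le)

/-- **Main numeric theorem.** -/
theorem exists_Mt {B : ℕ → ℕ → ℝ} (hB : IsBd B) : ∃ M : ℕ → ℕ → ℝ,
    (∀ d j, 0 ≤ M d j) ∧ (∀ d, M d 0 = 1) ∧ (∀ d j, 2 ^ d < j → M d j = 0) ∧ (M 0 1 = 1) ∧
    (∀ d j, ((1 : ℝ) / 2) ^ j * ∑ x ∈ antidiagonal j, (j.choose x.1 : ℝ) * kap B d x.1 x.2 *
        M d x.1 * M d x.2 ≤ M (d + 1) j) ∧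
    (∀ d j i, j + i ≤ 2 ^ d → M d (j + i) ≤ M d j * Real.exp (i * tauD d)) := by
  refine ⟨Mt, Mt_nonneg, Mt_zero_idx, Mt_eq_zero, ?_, Mt_step hB, Mt_slope⟩
  unfold Mt
  rw [if_pos (by rw [JJ_eq]; norm_num)]
  have : (TM (lev 0)).getD 1 0 = 2 ^ SS := by decide +kernel
  rw [this]
  push_cast
  field_simp

end Crest.Agent.S0222Lib.JNum
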