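import Crest.Agent.S0222Lib.DecoupleBridge
import Crest.Agent.S0222Lib.JNumeric

/-!
# S0222: the table of the decoupling is admissible for the numerics
-/

set_option autoImplicit false

namespace Crest.Agent.S0222Lib.Decouple

/-- `Bd` is admissible for `JNum.exists_Mt`. -/
theorem isBd_Bd : Crest.Agent.S0222Lib.JNum.IsBd Bd where
  nonneg := Bd_nonneg
  base0 := by simp
  base1 := by
    have := Bd_zero_succ 0
    rw [zero_add] at this
    exact this.le
  step := fun d m h => by
    obtain ⟨m₀, m₁, h1, h2, h3, h4⟩ := Bd_succ_exists h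
    exact ⟨m₀, m₁, h1, h2, h3, h4.le⟩

end Crest.Agent.S0222Lib.Decouple
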