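import Crest.Agent.S0222Lib.FRSk

/-!
# S0222, FR: the law of the token split under the flip group.

`ξ` is a function on placements `τ ↪ S × Bool`, invariant under swapping the two positions of any site.
Averaging over the flip group shows that, under `ξ²`, the number `tL c` of tokens on left positions is exactly a mixture
of binomials: double sites always contribute one left token, single sites are independent fair coins.

* `sum_sq_mul_tL`: the exact law.
* `sum_sq_exp_le`: the mgf bound `∑ ξ² exp (λ x) ≤ cosh (λ/2) ^ b ∑ ξ²`, `x = tL c - b/2`.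
* `sum_sq_exp_sq_le`: `∑ ξ² exp (μ x²) ≤ (1 - μ b/2)^(-1/2) ∑ ξ²` for `0 ≤ μ`, `μ b < 2`.
* `sum_sq_tL_zero_le`, `sum_sq_tL_top_le`: `∑_{tL c = 0} ξ² ≤ 2^(-b) ∑ ξ²`, and the same for `tL c = b`.
* `two_mul_dbl_le`: `2 dbl c ≤ b`.
-/

set_option autoImplicit false
set_option linter.unusedSectionVars false

noncomputable section

namespace Crest.Agent.S0222Lib.FR

open Finset

variable {τ S : Type} [Fintype τ] [DecidableEq τ] [Fintype S] [DecidableEq S]

/-- The number of tokens on left positions. -/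
def tL (c : Cfg τ S) : ℕ := (univ.filter (fun i => (c i).2 = false)).card

/-- The sites at which the position `v` is occupied. -/
def occ (v : Bool) (c : Cfg τ S) : Finset S := univ.filter (fun a => ∃ i, c i = (a, v))

/-- The number of sites whose two positions are both occupied. -/
def dbl (c : Cfg τ S) : ℕ :=
  (univ.filter (fun a : S => (∃ i, c i = (a, false)) ∧ ∃ i, c i = (a, true))).card

theorem mem_occ {v : Bool} {c : Cfg τ S} {a : S} : a ∈ occ v c ↔ ∃ i, c i = (a, v) := by
  simp [occ]

/-- Tokens at position `v` correspond to the sites at which `v` is occupied. -/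
theorem card_filter_snd_eq (v : Bool) (c : Cfg τ S) :
    (univ.filter (fun i => (c i).2 = v)).card = (occ v c).card := by
  refine Finset.card_bij (fun i _ => (c i).1) ?_ ?_ ?_
  · intro i hi
    rw [Finset.mem_filter] at hi
    rw [mem_occ]
    exact ⟨i, Prod.ext rfl hi.2⟩
  · intro i hi j hj h
    rw [Finset.mem_filter] at hi hj
    exact c.injective (Prod.ext h (hi.2.trans hj.2.symm))
  · intro a ha
    rw [mem_occ] at ha
    obtain ⟨i, hi⟩ := ha
    exact ⟨i, by simp [hi], by simp [hi]⟩

theorem tL_eq_card_occ (c : Cfg τ S) : tL c = (occ false c).card := card_filter_snd_eq false c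

theorem dbl_eq_card_inter (c : Cfg τ S) : dbl c = (occ false c ∩ occ true c).card := by
  unfold dbl
  congr 1
  ext a
  simp [mem_occ]

theorem card_occ_add_card_occ (c : Cfg τ S) :
    (occ false c).card + (occ true c).card = Fintype.card τ := by
  rw [← card_filter_snd_eq, ← card_filter_snd_eq, ← Finset.card_union_of_disjoint]
  · rw [← Finset.card_univ]
    congr 1
    ext i
    simp only [Finset.mem_union, Finset.mem_filter, Finset.mem_univ, true_and, iff_true]
    cases (c i).2 <;> simp
  · rw [Finset.disjoint_left]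
    intro i hi hj
    rw [Finset.mem_filter] at hi hj
    rw [hi.2] at hj
    simp at hj

/-- The sites carrying exactly one token. -/
def sing (c : Cfg τ S) : Finset S := symmDiff (occ false c) (occ true c)

theorem card_sing (c : Cfg τ S) : (sing c).card + 2 * dbl c = Fintype.card τ := by
  rw [← card_occ_add_card_occ c, dbl_eq_card_inter]
  have h1 : (occ false c).card = (occ false c \ occ true c).card + (occ false c ∩ occ true c).card := by
    rw [Finset.card_sdiff_add_card_inter]
  have h2 : (occ true c).card = (occ true c \ occ false c).card + (occ false c ∩ occ true c).card := by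
    rw [Finset.inter_comm, Finset.card_sdiff_add_card_inter]
  have h3 : (sing c).card = (occ false c \ occ true c).card + (occ true c \ occ false c).card := by
    unfold sing symmDiff
    rw [Finset.sup_eq_union, Finset.card_union_of_disjoint]
    rw [Finset.disjoint_left]
    intro a ha hb
    rw [Finset.mem_sdiff] at ha hb
    exact ha.2 hb.1
  omega

theorem card_sing_eq (c : Cfg τ S) : (sing c).card = Fintype.card τ - 2 * dbl c := by
  have := card_sing c
  omega

/-- `2 dbl c ≤ b`. -/
theorem two_mul_dbl_le (c : Cfg τ S) : 2 * dbl c ≤ Fintype.card τ := by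
  have := card_sing c
  omega

/-- Flip the sites in `T`. -/
def flipSet (T : Finset S) : Equiv.Perm (S × Bool) :=
  Function.Involutive.toPerm (fun x => if x.1 ∈ T then (x.1, !x.2) else x) (by
    intro x
    by_cases h : x.1 ∈ T <;> simp [h])

theorem flipSet_apply (T : Finset S) (x : S × Bool) :
    flipSet T x = if x.1 ∈ T then (x.1, !x.2) else x := rfl

/-- Act on a placement by flipping the sites in `T`. -/
def actT (T : Finset S) (c : Cfg τ S) : Cfg τ S := c.trans (flipSet T).toEmbedding

@[simp] theorem actT_apply (T : Finset S) (c : Cfg τ S) (i : τ) : actT T c i = flipSet T (c i) := rfl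

theorem flipSet_flipSet (T : Finset S) (x : S × Bool) : flipSet T (flipSet T x) = x := by
  rw [flipSet_apply, flipSet_apply]
  by_cases h : x.1 ∈ T <;> simp [h]

@[simp] theorem actT_actT (T : Finset S) (c : Cfg τ S) : actT T (actT T c) = c := by
  apply DFunLike.coe_injective
  funext i
  simp [flipSet_flipSet]

theorem actT_empty (c : Cfg τ S) : actT (∅ : Finset S) c = c := by
  apply DFunLike.coe_injective
  funext i
  simp [flipSet_apply]

theorem actT_insert (a : S) (T : Finset S) (ha : a ∉ T) (c : Cfg τ S) :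
    actT (insert a T) c = flipAll a (actT T c) := by
  apply DFunLike.coe_injective
  funext i
  simp only [actT_apply, flipAll_apply, flipSet_apply, Finset.mem_insert]
  by_cases h : (c i).1 = a
  · have h' : (c i).1 ∉ T := by rw [h]; exact ha
    rw [if_pos (Or.inl h), if_neg h']
    generalize c i = x at h h' ⊢
    obtain ⟨s, v⟩ := x
    have h : s = a := h
    subst h
    unfold flipPos
    cases v <;> simp
  · by_cases hT : (c i).1 ∈ T
    · rw [if_pos (Or.inr hT), if_pos hT, flipPos_of_ne]
      exact h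
    · rw [if_neg (by tauto), if_neg hT, flipPos_of_ne]
      exact h

/-- Flip invariance extends to flipping a set of sites. -/
theorem xi_actT {ξ : Cfg τ S → ℝ} (hξ : ∀ a c, ξ (flipAll a c) = ξ c) (T : Finset S) (c : Cfg τ S) :
    ξ (actT T c) = ξ c := by
  induction T using Finset.induction_on with
  | empty => rw [actT_empty]
  | insert a T ha ih => rw [actT_insert a T ha, hξ, ih]

theorem occ_actT (T : Finset S) (v : Bool) (c : Cfg τ S) (a : S) :
    a ∈ occ v (actT T c) ↔ (if a ∈ T then a ∈ occ (!v) c else a ∈ occ v c) := by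
  simp only [mem_occ, actT_apply]
  by_cases h : a ∈ T
  · rw [if_pos h]
    constructor
    · rintro ⟨i, hi⟩
      refine ⟨i, ?_⟩
      have := congrArg (flipSet T) hi
      rw [flipSet_flipSet, flipSet_apply] at this
      simpa [h] using this
    · rintro ⟨i, hi⟩
      refine ⟨i, ?_⟩
      rw [hi, flipSet_apply]
      simp [h]
  · rw [if_neg h]
    constructor
    · rintro ⟨i, hi⟩
      refine ⟨i, ?_⟩
      have := congrArg (flipSet T) hi
      rw [flipSet_flipSet, flipSet_apply] at this
      simpa [h] using this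
    · rintro ⟨i, hi⟩
      refine ⟨i, ?_⟩
      rw [hi, flipSet_apply]
      simp [h]

/-- The split after flipping `T`. -/
theorem tL_actT (T : Finset S) (c : Cfg τ S) :
    tL (actT T c) = dbl c + (sing c ∩ symmDiff T (occ false c \ occ true c)).card := by
  rw [tL_eq_card_occ, dbl_eq_card_inter]
  rw [← Finset.card_union_of_disjoint]
  · congr 1
    ext a
    rw [occ_actT]
    simp only [Finset.mem_union, Finset.mem_inter, sing, Finset.mem_symmDiff, Finset.mem_sdiff,
      Bool.not_false]
    by_cases h : a ∈ T <;> by_cases h1 : a ∈ occ false c <;> by_cases h2 : a ∈ occ true c <;>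
      simp [h, h1, h2]
  · rw [Finset.disjoint_left]
    intro a ha hb
    simp only [Finset.mem_inter, sing, Finset.mem_symmDiff, Finset.mem_sdiff] at ha hb
    tauto

/-- Summing a function of the size of the trace on `P`, over all subsets of `P ∪ R`. -/
theorem sum_powerset_trace {β : Type} [DecidableEq β] (ψ : ℕ → ℝ) (P R : Finset β) (h : Disjoint P R) :
    ∑ U ∈ (P ∪ R).powerset, ψ (P ∩ U).card = 2 ^ R.card * ∑ U ∈ P.powerset, ψ U.card := by
  induction R using Finset.induction_on with
  | empty =>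
    simp only [Finset.union_empty, Finset.card_empty, pow_zero, one_mul]
    refine Finset.sum_congr rfl (fun U hU => ?_)
    rw [Finset.mem_powerset] at hU
    rw [Finset.inter_eq_right.mpr hU]
  | insert a R ha ih =>
    have hdisj : Disjoint P R := (Finset.disjoint_insert_right.mp h).2
    have haP : a ∉ P := (Finset.disjoint_insert_right.mp h).1
    have haU : a ∉ P ∪ R := by simp [haP, ha]
    rw [Finset.union_insert, Finset.sum_powerset_insert haU]
    have : ∀ U ∈ (P ∪ R).powerset, ψ (P ∩ insert a U).card = ψ (P ∩ U).card := by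
      intro U _
      rw [Finset.inter_insert_of_notMem haP]
    rw [Finset.sum_congr rfl this, ih hdisj, Finset.card_insert_of_notMem ha]
    ring

/-- Summing a function of the size of the trace on `P`, over all subsets of a finite type. -/
theorem sum_univ_trace {β : Type} [Fintype β] [DecidableEq β] (ψ : ℕ → ℝ) (P : Finset β) :
    ∑ U : Finset β, ψ (P ∩ U).card =
      2 ^ (Fintype.card β - P.card) * ∑ k ∈ range (P.card + 1), (P.card.choose k : ℝ) * ψ k := by
  have h := sum_powerset_trace ψ P Pᶜ disjoint_compl_right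
  rw [Finset.union_compl, Finset.powerset_univ, Finset.card_compl] at h
  rw [h, Finset.sum_powerset_apply_card]
  simp [nsmul_eq_mul]

/-- The sum over all flips of a function of the split after the flip. -/
theorem sum_flip_tL (φ : ℕ → ℝ) (c : Cfg τ S) :
    ∑ T : Finset S, φ (tL (actT T c)) =
      2 ^ (Fintype.card S - (sing c).card) *
        ∑ k ∈ range ((sing c).card + 1), ((sing c).card.choose k : ℝ) * φ (dbl c + k) := by
  rw [← sum_univ_trace (fun k => φ (dbl c + k)) (sing c)]
  simp only [tL_actT]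
  exact Fintype.sum_equiv
    ((Function.Involutive.toPerm (fun T : Finset S => symmDiff T (occ false c \ occ true c))
      (fun T => symmDiff_symmDiff_cancel_right _ _)))
    _ _ (fun T => rfl)

/-- The exact law of the token split: a mixture of binomials. -/
theorem sum_sq_mul_tL {ξ : Cfg τ S → ℝ} (hξ : ∀ a c, ξ (flipAll a c) = ξ c) (φ : ℕ → ℝ) :
    ∑ c : Cfg τ S, ξ c ^ 2 * φ (tL c) =
      ∑ c : Cfg τ S, ξ c ^ 2 *
        ∑ s ∈ range (Fintype.card τ - 2 * dbl c + 1),
          ((Fintype.card τ - 2 * dbl c).choose s : ℝ) / 2 ^ (Fintype.card τ - 2 * dbl c) * φ (dbl c + s) := by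
  have hreindex : ∀ T : Finset S, ∑ c : Cfg τ S, ξ c ^ 2 * φ (tL c) =
      ∑ c : Cfg τ S, ξ c ^ 2 * φ (tL (actT T c)) := by
    intro T
    refine Fintype.sum_equiv
      (Function.Involutive.toPerm (actT T) (fun c => actT_actT T c)) _ _ (fun c => ?_)
    show ξ c ^ 2 * φ (tL c) = ξ (actT T c) ^ 2 * φ (tL (actT T (actT T c)))
    rw [xi_actT hξ, actT_actT]
  have h2 : (2 : ℝ) ^ Fintype.card S * ∑ c : Cfg τ S, ξ c ^ 2 * φ (tL c) =
      ∑ c : Cfg τ S, ξ c ^ 2 * ∑ T : Finset S, φ (tL (actT T c)) := by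
    have : ∑ _T : Finset S, ∑ c : Cfg τ S, ξ c ^ 2 * φ (tL c) =
        ∑ T : Finset S, ∑ c : Cfg τ S, ξ c ^ 2 * φ (tL (actT T c)) :=
      Finset.sum_congr rfl (fun T _ => hreindex T)
    rw [Finset.sum_const, Finset.card_univ, Fintype.card_finset, nsmul_eq_mul] at this
    push_cast at this
    rw [this, Finset.sum_comm]
    refine Finset.sum_congr rfl (fun c _ => ?_)
    rw [Finset.mul_sum]
  have h2pos : (2 : ℝ) ^ Fintype.card S ≠ 0 := by positivity
  apply mul_left_cancel₀ h2pos
  rw [h2, Finset.mul_sum]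
  refine Finset.sum_congr rfl (fun c _ => ?_)
  rw [sum_flip_tL φ c, ← card_sing_eq]
  have hle : (sing c).card ≤ Fintype.card S := Finset.card_le_univ _
  have hsplit : (2 : ℝ) ^ Fintype.card S = 2 ^ (Fintype.card S - (sing c).card) * 2 ^ (sing c).card := by
    rw [← pow_add, Nat.sub_add_cancel hle]
  have h2s : (2 : ℝ) ^ (sing c).card ≠ 0 := by positivity
  have hinner : ∑ s ∈ range ((sing c).card + 1),
      ((sing c).card.choose s : ℝ) / 2 ^ (sing c).card * φ (dbl c + s) =
      (∑ s ∈ range ((sing c).card + 1), ((sing c).card.choose s : ℝ) * φ (dbl c + s)) / 2 ^ (sing c).card := by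
    rw [Finset.sum_div]
    refine Finset.sum_congr rfl (fun k _ => ?_)
    ring
  rw [hinner, hsplit]
  field_simp

/-- The moment generating function of a centred binomial. -/
theorem binom_mgf (m : ℕ) (l : ℝ) :
    ∑ s ∈ range (m + 1), (m.choose s : ℝ) / 2 ^ m * Real.exp (l * ((s : ℝ) - m / 2)) =
      Real.cosh (l / 2) ^ m := by
  have h2 : (2 : ℝ) ^ m ≠ 0 := by positivity
  have hc : Real.cosh (l / 2) ^ m = (Real.exp (l / 2) + Real.exp (-(l / 2))) ^ m / 2 ^ m := by
    rw [Real.cosh_eq, div_pow]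
  rw [hc, add_pow, Finset.sum_div]
  refine Finset.sum_congr rfl (fun s hs => ?_)
  have hs' : s ≤ m := Nat.lt_succ_iff.mp (Finset.mem_range.mp hs)
  have : Real.exp (l * ((s : ℝ) - m / 2)) =
      Real.exp (l / 2) ^ s * Real.exp (-(l / 2)) ^ (m - s) := by
    rw [← Real.exp_nat_mul, ← Real.exp_nat_mul, ← Real.exp_add]
    congr 1
    rw [Nat.cast_sub hs']
    ring
  rw [this]
  ring

/-- The mgf bound. -/
theorem sum_sq_exp_le {ξ : Cfg τ S → ℝ} (hξ : ∀ a c, ξ (flipAll a c) = ξ c) (l : ℝ) :
    ∑ c : Cfg τ S, ξ c ^ 2 * Real.exp (l * ((tL c : ℝ) - Fintype.card τ / 2)) ≤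
      Real.cosh (l / 2) ^ Fintype.card τ * ∑ c : Cfg τ S, ξ c ^ 2 := by
  have h := sum_sq_mul_tL hξ (fun n => Real.exp (l * ((n : ℝ) - Fintype.card τ / 2)))
  rw [h, Finset.mul_sum]
  refine Finset.sum_le_sum (fun c _ => ?_)
  rw [mul_comm (Real.cosh _ ^ _)]
  refine mul_le_mul_of_nonneg_left ?_ (sq_nonneg _)
  have hm := card_sing c
  rw [← card_sing_eq]
  set m := (sing c).card with hmdef
  set d := dbl c with hd
  have hb : (Fintype.card τ : ℝ) = m + 2 * d := by
    rw [← hm]; push_cast; ring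
  have hin : ∑ s ∈ range (m + 1), (m.choose s : ℝ) / 2 ^ m *
        Real.exp (l * (((d + s : ℕ) : ℝ) - Fintype.card τ / 2)) =
      ∑ s ∈ range (m + 1), (m.choose s : ℝ) / 2 ^ m * Real.exp (l * ((s : ℝ) - m / 2)) := by
    refine Finset.sum_congr rfl (fun s _ => ?_)
    congr 3
    rw [hb]
    push_cast
    ring
  rw [hin, binom_mgf]
  exact pow_le_pow_right₀ (Real.one_le_cosh _) (by omega)

/-- The law of `tL` at `0`. -/
theorem sum_sq_tL_zero_le {ξ : Cfg τ S → ℝ} (hξ : ∀ a c, ξ (flipAll a c) = ξ c) :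
    ∑ c ∈ univ.filter (fun c : Cfg τ S => tL c = 0), ξ c ^ 2 ≤
      (1 / 2 : ℝ) ^ Fintype.card τ * ∑ c : Cfg τ S, ξ c ^ 2 := by
  have h := sum_sq_mul_tL hξ (fun n => if n = 0 then (1 : ℝ) else 0)
  have hl : ∑ c ∈ univ.filter (fun c : Cfg τ S => tL c = 0), ξ c ^ 2 =
      ∑ c : Cfg τ S, ξ c ^ 2 * (if tL c = 0 then (1 : ℝ) else 0) := by
    rw [Finset.sum_filter]
    refine Finset.sum_congr rfl (fun c _ => ?_)
    split_ifs <;> simp
  rw [hl, h, Finset.mul_sum]
  refine Finset.sum_le_sum (fun c _ => ?_)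
  rw [mul_comm ((1 / 2 : ℝ) ^ _)]
  refine mul_le_mul_of_nonneg_left ?_ (sq_nonneg _)
  by_cases hd : dbl c = 0
  · rw [hd]
    simp only [mul_zero, Nat.sub_zero, zero_add]
    rw [Finset.sum_eq_single 0]
    · simp
    · intro s _ hs
      simp [hs]
    · simp
  · refine le_trans (le_of_eq (Finset.sum_eq_zero (fun s _ => ?_))) (by positivity)
    have : dbl c + s ≠ 0 := by omega
    rw [if_neg this, mul_zero]

/-- The law of `tL` at the top. -/
theorem sum_sq_tL_top_le {ξ : Cfg τ S → ℝ} (hξ : ∀ a c, ξ (flipAll a c) = ξ c) :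
    ∑ c ∈ univ.filter (fun c : Cfg τ S => tL c = Fintype.card τ), ξ c ^ 2 ≤
      (1 / 2 : ℝ) ^ Fintype.card τ * ∑ c : Cfg τ S, ξ c ^ 2 := by
  have h := sum_sq_mul_tL hξ (fun n => if n = Fintype.card τ then (1 : ℝ) else 0)
  have hl : ∑ c ∈ univ.filter (fun c : Cfg τ S => tL c = Fintype.card τ), ξ c ^ 2 =
      ∑ c : Cfg τ S, ξ c ^ 2 * (if tL c = Fintype.card τ then (1 : ℝ) else 0) := by
    rw [Finset.sum_filter]
    refine Finset.sum_congr rfl (fun c _ => ?_)
    split_ifs <;> simp
  rw [hl, h, Finset.mul_sum]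
  refine Finset.sum_le_sum (fun c _ => ?_)
  rw [mul_comm ((1 / 2 : ℝ) ^ _)]
  refine mul_le_mul_of_nonneg_left ?_ (sq_nonneg _)
  have hm := card_sing c
  by_cases hd : dbl c = 0
  · rw [hd]
    simp only [mul_zero, Nat.sub_zero, zero_add]
    rw [Finset.sum_eq_single (Fintype.card τ)]
    · simp
    · intro s _ hs
      simp [hs]
    · simp
  · refine le_trans (le_of_eq (Finset.sum_eq_zero (fun s hs => ?_))) (by positivity)
    have hs' := Finset.mem_range.mp hs
    have : dbl c + s ≠ Fintype.card τ := by omega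
    rw [if_neg this, mul_zero]

section Gaussian

open MeasureTheory ProbabilityTheory

/-- The standard Gaussian. -/
abbrev gam : Measure ℝ := gaussianReal 0 1

theorem gam_integral_exp (t : ℝ) : ∫ g, Real.exp (t * g) ∂gam = Real.exp (t ^ 2 / 2) := by
  have h := mgf_gaussianReal (p := gam) (X := id) (μ := 0) (v := 1) (by simp) t
  simp only [mgf, id] at h
  rw [h]
  simp

theorem gam_integrable_exp (t : ℝ) : Integrable (fun g => Real.exp (t * g)) gam :=
  integrable_exp_mul_gaussianReal t

theorem gam_pdf (g : ℝ) :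
    gaussianPDFReal 0 1 g = (√(2 * Real.pi))⁻¹ * Real.exp (-(1 / 2) * g ^ 2) := by
  simp only [gaussianPDFReal]
  congr 2
  · simp
  · simp
    ring

theorem gam_integrable_exp_sq {a : ℝ} (ha : a < 1 / 2) : Integrable (fun g => Real.exp (a * g ^ 2)) gam := by
  unfold gam
  rw [gaussianReal_of_var_ne_zero _ one_ne_zero,
    integrable_withDensity_iff_integrable_smul' (measurable_gaussianPDF 0 1)
      (Filter.Eventually.of_forall (fun x => by simp [gaussianPDF]))]
  have hb : 0 < 1 / 2 - a := by linarith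
  have h := (integrable_exp_neg_mul_sq hb).const_mul (√(2 * Real.pi))⁻¹
  refine h.congr (Filter.Eventually.of_forall (fun g => ?_))
  simp only [toReal_gaussianPDF, smul_eq_mul, gam_pdf]
  rw [mul_assoc, ← Real.exp_add]
  congr 2
  ring

theorem gam_integral_exp_sq {a : ℝ} (ha : a < 1 / 2) :
    ∫ g, Real.exp (a * g ^ 2) ∂gam = (√(1 - 2 * a))⁻¹ := by
  rw [integral_gaussianReal_eq_integral_smul one_ne_zero]
  have hb : 0 < 1 / 2 - a := by linarith
  have : ∀ g : ℝ, gaussianPDFReal 0 1 g • Real.exp (a * g ^ 2) =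
      (√(2 * Real.pi))⁻¹ * Real.exp (-(1 / 2 - a) * g ^ 2) := by
    intro g
    rw [smul_eq_mul, gam_pdf, mul_assoc, ← Real.exp_add]
    congr 2
    ring
  simp only [this]
  rw [MeasureTheory.integral_const_mul, integral_gaussian]
  have h2 : (0 : ℝ) < 2 * Real.pi := by positivity
  have h3 : Real.pi / (1 / 2 - a) = (2 * Real.pi) / (1 - 2 * a) := by
    have : (1 - 2 * a) = 2 * (1 / 2 - a) := by ring
    rw [this]
    field_simp
  have h4 : (0 : ℝ) < 1 - 2 * a := by linarith
  rw [h3, Real.sqrt_div h2.le]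
  have : √(2 * Real.pi) ≠ 0 := (Real.sqrt_pos.mpr h2).ne'
  field_simp

/-- The sub-Gaussian bound on the split. -/
theorem sum_sq_exp_sq_le' {ξ : Cfg τ S → ℝ} (hξ : ∀ a c, ξ (flipAll a c) = ξ c) {μ : ℝ} (hμ : 0 ≤ μ)
    (hb : μ * Fintype.card τ < 2) :
    ∑ c : Cfg τ S, ξ c ^ 2 * Real.exp (μ * ((tL c : ℝ) - Fintype.card τ / 2) ^ 2) ≤
      (√(1 - μ * Fintype.card τ / 2))⁻¹ * ∑ c : Cfg τ S, ξ c ^ 2 := by
  set b : ℝ := (Fintype.card τ : ℝ) with hbdef
  set t : ℝ := √(2 * μ) with ht
  have ht2 : t ^ 2 = 2 * μ := Real.sq_sqrt (by positivity)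
  set x : Cfg τ S → ℝ := fun c => (tL c : ℝ) - b / 2 with hx
  have hpt : ∀ g : ℝ, ∑ c : Cfg τ S, ξ c ^ 2 * Real.exp (t * x c * g) ≤
      Real.exp ((μ * b / 4) * g ^ 2) * ∑ c : Cfg τ S, ξ c ^ 2 := by
    intro g
    have h1 := sum_sq_exp_le hξ (t * g)
    have h2 : ∀ c : Cfg τ S, Real.exp (t * g * ((tL c : ℝ) - Fintype.card τ / 2)) = Real.exp (t * x c * g) := by
      intro c
      congr 1
      simp only [hx]
      ring
    simp only [h2] at h1
    refine h1.trans (mul_le_mul_of_nonneg_right ?_ (Finset.sum_nonneg (fun c _ => sq_nonneg _)))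
    have h3 : Real.cosh (t * g / 2) ≤ Real.exp ((t * g / 2) ^ 2 / 2) := Real.cosh_le_exp_half_sq _
    have h4 := pow_le_pow_left₀ (Real.cosh_pos _).le h3 (Fintype.card τ)
    refine h4.trans (le_of_eq ?_)
    rw [← Real.exp_nat_mul]
    congr 1
    have : ((t * g / 2) ^ 2 / 2) = (t ^ 2) * g ^ 2 / 8 := by ring
    rw [this, ht2]
    simp only [hbdef]
    ring
  have hL : ∑ c : Cfg τ S, ξ c ^ 2 * Real.exp (μ * x c ^ 2) =
      ∫ g, ∑ c : Cfg τ S, ξ c ^ 2 * Real.exp (t * x c * g) ∂gam := by
    rw [MeasureTheory.integral_finsetSum]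
    · refine Finset.sum_congr rfl (fun c _ => ?_)
      rw [MeasureTheory.integral_const_mul, gam_integral_exp]
      congr 2
      rw [mul_pow, ht2]
      ring
    · intro c _
      exact (gam_integrable_exp _).const_mul _
  have hint1 : Integrable (fun g => ∑ c : Cfg τ S, ξ c ^ 2 * Real.exp (t * x c * g)) gam :=
    MeasureTheory.integrable_finsetSum _ (fun c _ => (gam_integrable_exp _).const_mul _)
  have ha : μ * b / 4 < 1 / 2 := by linarith
  have hint2 : Integrable (fun g => Real.exp ((μ * b / 4) * g ^ 2) * ∑ c : Cfg τ S, ξ c ^ 2) gam :=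
    (gam_integrable_exp_sq ha).mul_const _
  have hmono := MeasureTheory.integral_mono hint1 hint2 hpt
  rw [← hL, MeasureTheory.integral_mul_const, gam_integral_exp_sq ha] at hmono
  have e : 1 - 2 * (μ * b / 4) = 1 - μ * b / 2 := by ring
  rw [e] at hmono
  exact hmono

/-- The sub-Gaussian bound on the split, with a real power. -/
theorem sum_sq_exp_sq_le {ξ : Cfg τ S → ℝ} (hξ : ∀ a c, ξ (flipAll a c) = ξ c) {μ : ℝ} (hμ : 0 ≤ μ)
    (hb : μ * Fintype.card τ < 2) :
    ∑ c : Cfg τ S, ξ c ^ 2 * Real.exp (μ * ((tL c : ℝ) - Fintype.card τ / 2) ^ 2) ≤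
      (1 - μ * Fintype.card τ / 2) ^ (-(1 / 2 : ℝ)) * ∑ c : Cfg τ S, ξ c ^ 2 := by
  have h := sum_sq_exp_sq_le' hξ hμ hb
  have hpos : (0 : ℝ) ≤ 1 - μ * Fintype.card τ / 2 := by linarith
  rwa [Real.rpow_neg hpos, ← Real.sqrt_eq_rpow]

end Gaussian

end Crest.Agent.S0222Lib.FR
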