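import Crest.Agent.S0222Lib.FRStep
import Crest.Agent.S0222Lib.FRCoin

/-!
# S0222, first-row bound: from token words to placements

A `T`-word on sites `X` is the same as an injection `↥T ↪ X` (`wordOf`, `exists_wordOf`,
`wordOf_injective`).  Under this bijection

* `hat H f = H (wordOf f)`, with `∑ hat² = ⟨H, H⟩` (`sum_hat_sq`);
* a flip of the sites goes to `FR.flipAll` (`hat_flip`);
* `SqE D H = FR.Sq D' (hat H)`, `D' = D.subtype (· ∈ T)` (`SqE_eq`);
* `|leftTok T (wordOf f)| = FR.tL f` (`card_leftTok_wordOf`).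

So the theorems of `FRSk`, `FRCoin` hold on words: `sum_SqE_le`, `sum_leftTok`, `sum_leftTok_exp_sq_le`.
-/

set_option autoImplicit false
set_option linter.unusedSectionVars false
set_option linter.unusedVariables false

namespace Crest.Agent.S0222Lib.FRCore

open Finset Function

variable {Tok : Type} [Fintype Tok] [DecidableEq Tok]

section Place

variable {X : Type} [Fintype X] [DecidableEq X] {T : Finset Tok}

/-- The word of a placement of the tokens of `T`. -/
noncomputable def wordOf (f : ↥T ↪ X) : X → Option Tok :=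
  Function.extend f (fun i => some i.1) (fun _ => none)

lemma wordOf_apply (f : ↥T ↪ X) (i : ↥T) : wordOf f (f i) = some i.1 :=
  f.injective.extend_apply _ _ _

lemma wordOf_none (f : ↥T ↪ X) {x : X} (h : ∀ i, f i ≠ x) : wordOf f x = none :=
  Function.extend_apply' _ _ _ (by rintro ⟨i, hi⟩; exact h i hi)

lemma wordOf_eq_some (f : ↥T ↪ X) {x : X} {i : Tok} :
    wordOf f x = some i ↔ ∃ hi : i ∈ T, f ⟨i, hi⟩ = x := by
  constructor
  · intro h
    by_cases hx : ∃ j, f j = x
    · obtain ⟨j, rfl⟩ := hx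
      rw [wordOf_apply] at h
      cases h
      exact ⟨j.2, rfl⟩
    · push_neg at hx
      rw [wordOf_none f hx] at h
      cases h
  · rintro ⟨hi, rfl⟩
    exact wordOf_apply f ⟨i, hi⟩

lemma IsT_wordOf (f : ↥T ↪ X) : IsT T (wordOf f) := by
  intro i
  unfold cnt
  by_cases hi : i ∈ T
  · rw [if_pos hi, Finset.card_eq_one]
    refine ⟨f ⟨i, hi⟩, ?_⟩
    ext x
    simp only [mem_filter, mem_univ, true_and, mem_singleton, wordOf_eq_some]
    constructor
    · rintro ⟨_, rfl⟩; rfl
    · rintro rfl; exact ⟨hi, rfl⟩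
  · rw [if_neg hi, card_eq_zero, filter_eq_empty_iff]
    intro x _ h
    obtain ⟨hi', _⟩ := (wordOf_eq_some f).1 h
    exact hi hi'

lemma wordOf_injective : Injective (wordOf (T := T) (X := X)) := by
  intro f g h
  ext i
  have h1 := wordOf_apply f i
  rw [h] at h1
  obtain ⟨_, h2⟩ := (wordOf_eq_some g).1 h1
  exact h2.symm

/-- Every `T`-word is the word of a placement. -/
lemma exists_wordOf {c : X → Option Tok} (hc : IsT T c) : ∃ f : ↥T ↪ X, wordOf f = c := by
  have h1 : ∀ i : ↥T, ∃ x, c x = some i.1 := by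
    intro i
    have h2 := hc i.1
    rw [if_pos i.2] at h2
    unfold cnt at h2
    obtain ⟨x, hx⟩ := Finset.card_pos.1 (by omega : 0 < (univ.filter fun x => c x = some i.1).card)
    exact ⟨x, (mem_filter.1 hx).2⟩
  choose p hp using h1
  have hinj : Injective p := by
    intro i j hij
    have h2 := hp i
    rw [hij, hp j] at h2
    exact Subtype.ext (Option.some.inj h2).symm
  refine ⟨⟨p, hinj⟩, ?_⟩
  funext x
  cases hx : c x with
  | none =>
    apply wordOf_none
    intro i hi
    have hi' : p i = x := hi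
    rw [← hi', hp] at hx
    cases hx
  | some j =>
    have hj : j ∈ T := by
      by_contra hj
      have h3 := hc j
      rw [if_neg hj] at h3
      unfold cnt at h3
      rw [card_eq_zero, filter_eq_empty_iff] at h3
      exact h3 (mem_univ x) hx
    rw [wordOf_eq_some]
    refine ⟨hj, ?_⟩
    have h3 := hc j
    rw [if_pos hj] at h3
    unfold cnt at h3
    exact Finset.card_le_one.1 h3.le _ (by simp [hp ⟨j, hj⟩]) _ (by simp [hx])

/-- Sums over `T`-words are sums over placements. -/
lemma sum_word {F : (X → Option Tok) → ℝ} (hF : ∀ c, ¬ IsT T c → F c = 0) :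
    ∑ f : ↥T ↪ X, F (wordOf f) = ∑ c, F c := by
  refine Finset.sum_of_injOn wordOf wordOf_injective.injOn (fun _ _ => mem_univ _) ?_
    (fun _ _ => rfl)
  intro c _ hc
  apply hF
  intro h
  obtain ⟨f, rfl⟩ := exists_wordOf h
  exact hc ⟨f, by simp, rfl⟩

/-- `wordOf` under a permutation. -/
lemma wordOf_trans (f : ↥T ↪ X) (g : Equiv.Perm X) :
    wordOf (f.trans g.toEmbedding) = wordOf f ∘ g.symm := by
  funext x
  by_cases hx : ∃ i, g (f i) = x
  · obtain ⟨i, rfl⟩ := hx
    have h1 : wordOf (f.trans g.toEmbedding) (g (f i)) = some i.1 :=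
      wordOf_apply (f.trans g.toEmbedding) i
    rw [h1]
    simp [wordOf_apply]
  · push_neg at hx
    rw [wordOf_none _ (fun i => hx i)]
    have h2 : ∀ i, f i ≠ g.symm x := by
      intro i hi
      exact hx i (by rw [hi]; simp)
    simp [wordOf_none f h2]

end Place

section Parent

variable {S : Type} [Fintype S] [DecidableEq S] {T : Finset Tok}

/-- The function on placements of a function on words. -/
noncomputable def hat (T : Finset Tok) (H : Vs (S × Bool) Tok) : FR.Cfg ↥T S → ℝ :=
  fun f => H (wordOf f)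

lemma hat_flip {H : Vs (S × Bool) Tok} (hflip : ∀ a c, H (c ∘ FR.flipPos a) = H c) (a : S)
    (f : FR.Cfg ↥T S) : hat T H (FR.flipAll a f) = hat T H f := by
  unfold hat FR.flipAll
  rw [wordOf_trans]
  have h : (FR.flipPos a).symm = FR.flipPos a := Equiv.symm_swap _ _
  rw [h]
  exact hflip a _

lemma sum_hat_sq {H : Vs (S × Bool) Tok} (hH : H ∈ (VT T : Submodule ℝ (Vs (S × Bool) Tok))) :
    ∑ f : FR.Cfg ↥T S, hat T H f ^ 2 = ip H H := by
  unfold ip
  rw [← sum_word (T := T) (F := fun c => H c * H c)]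
  · exact Finset.sum_congr rfl fun f _ => by simp [hat, pow_two]
  · intro c hc
    simp [hH c hc]

lemma ers_eq_some {D : Finset Tok} {X : Type} {w : X → Option Tok} {x : X} {j : Tok} :
    ers D w x = some j ↔ w x = some j ∧ j ∉ D := by
  unfold ers
  cases hw : w x with
  | none => simp
  | some i =>
    by_cases hi : i ∈ D
    · simp only [Option.bind_some, hi, if_true, reduceCtorEq, false_iff, not_and, not_not,
        Option.some.injEq]
      rintro rfl; exact hi
    · simp only [Option.bind_some, hi, if_false, Option.some.injEq]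
      constructor
      · rintro rfl; exact ⟨rfl, hi⟩
      · rintro ⟨rfl, _⟩; rfl

/-- Agreeing off `D`, in terms of words. -/
lemma ers_eq_iff_agree {D : Finset Tok} (f g : FR.Cfg ↥T S) :
    ers D (wordOf f) = ers D (wordOf g) ↔ FR.Agree (D.subtype (· ∈ T)) f g := by
  have hmem : ∀ i : ↥T, i ∉ D.subtype (· ∈ T) ↔ i.1 ∉ D := by
    intro i; simp [Finset.mem_subtype]
  have key : ∀ (f g : FR.Cfg ↥T S), FR.Agree (D.subtype (· ∈ T)) f g → ∀ x j,
      ers D (wordOf f) x = some j → ers D (wordOf g) x = some j := by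
    intro f g h x j hx
    obtain ⟨h1, h2⟩ := ers_eq_some.1 hx
    obtain ⟨hj, rfl⟩ := (wordOf_eq_some f).1 h1
    refine ers_eq_some.2 ⟨?_, h2⟩
    rw [h ⟨j, hj⟩ ((hmem _).2 h2)]
    exact wordOf_apply g ⟨j, hj⟩
  constructor
  · intro h i hi
    have h1 : ers D (wordOf f) (f i) = some i.1 :=
      ers_eq_some.2 ⟨wordOf_apply f i, (hmem i).1 hi⟩
    rw [h] at h1
    obtain ⟨h2, _⟩ := ers_eq_some.1 h1
    obtain ⟨_, h3⟩ := (wordOf_eq_some g).1 h2
    exact h3.symm
  · intro h
    have h' : FR.Agree (D.subtype (· ∈ T)) g f := fun i hi => (h i hi).symm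
    funext x
    cases hx : ers D (wordOf f) x with
    | none =>
      cases hy : ers D (wordOf g) x with
      | none => rfl
      | some j =>
        have := key g f h' x j hy
        rw [hx] at this
        cases this
    | some j =>
      exact (key f g h x j hx).symm

/-- The side of a token. -/
lemma cnt_right_wordOf (f : FR.Cfg ↥T S) (i : ↥T) :
    cnt (rightW (wordOf f)) (some i.1) = 0 ↔ (f i).2 = false := by
  unfold cnt
  rw [card_eq_zero, filter_eq_empty_iff]
  constructor
  · intro h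
    by_contra h2
    have h3 : (f i).2 = true := by simpa using h2
    apply h (mem_univ (f i).1)
    show wordOf f ((f i).1, true) = some i.1
    rw [← h3]
    exact wordOf_apply f i
  · intro h a _ h2
    have h4 : wordOf f (a, true) = some i.1 := h2
    obtain ⟨_, h5⟩ := (wordOf_eq_some f).1 h4
    have h6 : f i = (a, true) := h5
    rw [h6] at h
    cases h

lemma sgnT_wordOf (f : FR.Cfg ↥T S) (i : ↥T) : sgnT i.1 (wordOf f) = FR.sgnPos (f i) := by
  unfold sgnT FR.sgnPos
  by_cases h : (f i).2 = false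
  · rw [if_pos ((cnt_right_wordOf f i).2 h)]
    simp [h]
  · rw [if_neg (fun h2 => h ((cnt_right_wordOf f i).1 h2))]
    have : (f i).2 = true := by simpa using h
    simp [this]

lemma epsT_wordOf {D : Finset Tok} (hD : D ⊆ T) (f : FR.Cfg ↥T S) :
    epsT D (wordOf f) = FR.eps (D.subtype (· ∈ T)) f := by
  unfold epsT FR.eps
  conv_lhs => rw [← Finset.subtype_map_of_mem (fun x hx => hD hx)]
  rw [Finset.prod_map]
  exact Finset.prod_congr rfl fun i _ => sgnT_wordOf f i

/-- `‖W^D H‖²` on placements. -/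
theorem SqE_eq {D : Finset Tok} (hD : D ⊆ T) {H : Vs (S × Bool) Tok}
    (hH : H ∈ (VT T : Submodule ℝ (Vs (S × Bool) Tok))) :
    SqE D H = FR.Sq (D.subtype (· ∈ T)) (hat T H) := by
  unfold SqE FR.Sq
  rw [sum_Ph_sq]
  rw [← sum_word (T := T)
    (F := fun c => ∑ c₂, if ers D c = ers D c₂ then epsT D c * epsT D c₂ * (H c * H c₂) else 0)]
  · refine Finset.sum_congr rfl fun f _ => ?_
    rw [← sum_word (T := T)
      (F := fun c₂ => if ers D (wordOf f) = ers D c₂ then
        epsT D (wordOf f) * epsT D c₂ * (H (wordOf f) * H c₂) else 0)]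
    · refine Finset.sum_congr rfl fun g _ => ?_
      simp only [ers_eq_iff_agree, epsT_wordOf hD, hat]
      split_ifs <;> ring
    · intro c hc
      simp [hH c hc]
  · intro c hc
    refine Finset.sum_eq_zero fun c₂ _ => ?_
    simp [hH c hc]

/-- The `S_k` sum on placements. -/
theorem sum_SqE_eq (k : ℕ) {H : Vs (S × Bool) Tok}
    (hH : H ∈ (VT T : Submodule ℝ (Vs (S × Bool) Tok))) :
    ∑ D ∈ powersetCard k T, SqE D H =
      ∑ C ∈ powersetCard k (univ : Finset ↥T), FR.Sq C (hat T H) := by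
  refine Finset.sum_nbij' (fun D => D.subtype (· ∈ T))
    (fun C => C.map (Function.Embedding.subtype (· ∈ T))) ?_ ?_ ?_ ?_ ?_
  · intro D hD
    obtain ⟨h1, h2⟩ := mem_powersetCard.1 hD
    refine mem_powersetCard.2 ⟨subset_univ _, ?_⟩
    rw [Finset.card_subtype, Finset.filter_true_of_mem (fun x hx => h1 hx), h2]
  · intro C hC
    obtain ⟨h1, h2⟩ := mem_powersetCard.1 hC
    refine mem_powersetCard.2 ⟨?_, by rw [Finset.card_map, h2]⟩
    intro x hx
    obtain ⟨i, _, rfl⟩ := mem_map.1 hx
    exact i.2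
  · intro D hD
    exact Finset.subtype_map_of_mem fun x hx => (mem_powersetCard.1 hD).1 hx
  · intro C hC
    ext i
    simp [Finset.mem_subtype]
  · intro D hD
    exact SqE_eq (mem_powersetCard.1 hD).1 hH

/-- **The `S_k` bound on words**. -/
theorem sum_SqE_le {H : Vs (S × Bool) Tok} (hH : H ∈ (VT T : Submodule ℝ (Vs (S × Bool) Tok)))
    (hflip : ∀ a c, H (c ∘ FR.flipPos a) = H c) (k : ℕ) :
    ∑ D ∈ powersetCard k T, SqE D H ≤
      ((k.factorial * ∑ p ∈ Finset.range (k / 2 + 1), (Fintype.card S).choose p *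
        ((T.card / 2).choose p * (2 * (T.card / 2)).choose (k - 2 * p)) : ℕ) : ℝ) * ip H H := by
  rw [sum_SqE_eq k hH, ← sum_hat_sq hH]
  have h := FR.sum_Sq_le (τ := ↥T) (S := S) (hat T H) (hat_flip hflip) k
  rwa [Fintype.card_coe] at h

/-- The number of tokens on the left. -/
lemma card_leftTok_wordOf (f : FR.Cfg ↥T S) : (leftTok T (wordOf f)).card = FR.tL f := by
  unfold FR.tL leftTok
  have h : (univ.filter fun i : ↥T => (f i).2 = false).map (Function.Embedding.subtype (· ∈ T))
      = T.filter fun i => cnt (rightW (wordOf f)) (some i) = 0 := by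
    ext x
    simp only [mem_map, mem_filter, mem_univ, true_and, Function.Embedding.subtype_apply]
    constructor
    · rintro ⟨i, hi, rfl⟩
      exact ⟨i.2, (cnt_right_wordOf f i).2 hi⟩
    · rintro ⟨hx, h2⟩
      exact ⟨⟨x, hx⟩, (cnt_right_wordOf f ⟨x, hx⟩).1 h2, rfl⟩
  rw [← h, card_map]

/-- The coin sums on placements. -/
theorem sum_leftTok {H : Vs (S × Bool) Tok} (hH : H ∈ (VT T : Submodule ℝ (Vs (S × Bool) Tok)))
    (φ : ℕ → ℝ) :
    ∑ c, H c ^ 2 * φ (leftTok T c).card = ∑ f : FR.Cfg ↥T S, hat T H f ^ 2 * φ (FR.tL f) := by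
  rw [← sum_word (T := T) (F := fun c => H c ^ 2 * φ (leftTok T c).card)]
  · exact Finset.sum_congr rfl fun f _ => by rw [card_leftTok_wordOf]; rfl
  · intro c hc
    simp [hH c hc]

/-- **The token split is sub-Gaussian**. -/
theorem sum_leftTok_exp_sq_le {H : Vs (S × Bool) Tok}
    (hH : H ∈ (VT T : Submodule ℝ (Vs (S × Bool) Tok)))
    (hflip : ∀ a c, H (c ∘ FR.flipPos a) = H c) {μ : ℝ} (hμ : 0 ≤ μ) (hb : μ * T.card < 2) :
    ∑ c, H c ^ 2 * Real.exp (μ * (((leftTok T c).card : ℝ) - T.card / 2) ^ 2) ≤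
      (1 - μ * T.card / 2) ^ (-(1 / 2 : ℝ)) * ip H H := by
  rw [sum_leftTok hH (fun n => Real.exp (μ * ((n : ℝ) - T.card / 2) ^ 2)), ← sum_hat_sq hH]
  have h := FR.sum_sq_exp_sq_le (τ := ↥T) (S := S) (ξ := hat T H) (hat_flip hflip) hμ
    (by rwa [Fintype.card_coe])
  rwa [Fintype.card_coe] at h

/-- The law of the token split as a mixture of binomials. -/
theorem sum_leftTok_law {H : Vs (S × Bool) Tok}
    (hH : H ∈ (VT T : Submodule ℝ (Vs (S × Bool) Tok)))
    (hflip : ∀ a c, H (c ∘ FR.flipPos a) = H c) (φ : ℕ → ℝ) :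
    ∑ c, H c ^ 2 * φ (leftTok T c).card =
      ∑ f : FR.Cfg ↥T S, hat T H f ^ 2 *
        ∑ s ∈ range (T.card - 2 * FR.dbl f + 1),
          ((T.card - 2 * FR.dbl f).choose s : ℝ) / 2 ^ (T.card - 2 * FR.dbl f) * φ (FR.dbl f + s) := by
  rw [sum_leftTok hH]
  have h := FR.sum_sq_mul_tL (τ := ↥T) (S := S) (ξ := hat T H) (hat_flip hflip) φ
  rwa [Fintype.card_coe] at h

end Parent

end Crest.Agent.S0222Lib.FRCore
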