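import Crest.Agent.S0222Lib.FRSmallB

/-!
# S0222, first-row bound: the assembly of the table and the potential

`θfin θT D` is the table `θT D` for `D < 7` and the potential `thN (2 ^ D)` for `D ≥ 7`.
`θfin_close`: the recursion of `θfin` holds at all scales, from the closure `PotClose` of the potential
for `b ≥ 4`, `N ≥ 128`, and the data of the table.
-/

set_option autoImplicit false

namespace Crest.Agent.S0222Lib.FRCore.Pot

open Crest.Agent.S0222Lib.FRCore

/-- The closure of the potential for `N ≥ 128`, `4 ≤ b ≤ 2N`. -/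
def PotClose : Prop :=
  ∀ (N : ℕ), 128 ≤ N → ∀ (b : ℕ), 4 ≤ b → b ≤ 2 * N → ∀ ρ : ℕ → ℕ → ℕ → ℝ, Weights N b ρ →
    triSum b (fun t r r' => thN N (t - r) * thN N (b - t - r') * ρ t r r') ≤
      thN (2 * N) b * triSum b ρ

/-- For `b > 2N` the floors kill all the weights. -/
theorem close_large {N b : ℕ} (hb : 2 * N < b) {ρ : ℕ → ℕ → ℕ → ℝ} (hW : Weights N b ρ)
    (θ θ' : ℕ → ℝ) (Θ : ℝ) :
    triSum b (fun t r r' => θ (t - r) * θ' (b - t - r') * ρ t r r') ≤ Θ * triSum b ρ := by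
  have h0 : ∀ t r r', t ≤ b → ρ t r r' = 0 := by
    intro t r r' ht
    rcases Nat.lt_or_ge N t with h | h
    · exact hW.floor_right t r r' ht (by omega)
    · exact hW.floor_left t r r' ht (by omega)
  have h1 : ∀ F : ℕ → ℕ → ℕ → ℝ, (∀ t r r', t ≤ b → F t r r' = 0) → triSum b F = 0 := by
    intro F hF
    unfold triSum
    refine Finset.sum_eq_zero fun t ht => Finset.sum_eq_zero fun r _ => Finset.sum_eq_zero fun r' _ => ?_
    exact hF t r r' (Nat.lt_succ_iff.1 (Finset.mem_range.1 ht))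
  rw [h1 _ (fun t r r' ht => by simp only [h0 t r r' ht, mul_zero]), h1 ρ h0, mul_zero]

/-- The closure of the potential for `N ≥ 128`, all `b`. -/
theorem potClose_all (hP : PotClose) (N : ℕ) (hN : 128 ≤ N) (b : ℕ) (ρ : ℕ → ℕ → ℕ → ℝ)
    (hW : Weights N b ρ) :
    triSum b (fun t r r' => thN N (t - r) * thN N (b - t - r') * ρ t r r') ≤
      thN (2 * N) b * triSum b ρ := by
  rcases Nat.lt_or_ge b 4 with h | h
  · have h' : b = 0 ∨ b = 1 ∨ b = 2 ∨ b = 3 := by omega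
    rcases h' with rfl | rfl | rfl | rfl
    · exact close_zero hW
    · exact close_one (by omega) hW
    · exact close_two hN hW
    · exact close_three hN hW
  · rcases Nat.lt_or_ge (2 * N) b with h2 | h2
    · exact close_large h2 hW _ _ _
    · exact hP N hN b h h2 ρ hW

/-- What the table provides. -/
structure TableData (θT : ℕ → ℕ → ℝ) : Prop where
  nonneg : ∀ D j, 0 ≤ θT D j
  base : 1 ≤ θT 0 0
  close : ∀ D, D < 7 → ∀ (b : ℕ) (ρ : ℕ → ℕ → ℕ → ℝ), Weights (2 ^ D) b ρ →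
    triSum b (fun t r r' => θT D (t - r) * θT D (b - t - r') * ρ t r r') ≤
      θT (D + 1) b * triSum b ρ
  junction : ∀ j, θT 7 j ≤ thN 128 j

/-- The final bound: the table up to `D = 6`, the potential from `D = 7` on. -/
noncomputable def θfin (θT : ℕ → ℕ → ℝ) (D j : ℕ) : ℝ :=
  if D < 7 then θT D j else thN ((2 : ℝ) ^ D) j

lemma θfin_of_lt (θT : ℕ → ℕ → ℝ) {D : ℕ} (hD : D < 7) (j : ℕ) : θfin θT D j = θT D j := by
  unfold θfin
  rw [if_pos hD]

lemma θfin_of_ge (θT : ℕ → ℕ → ℝ) {D : ℕ} (hD : 7 ≤ D) (j : ℕ) :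
    θfin θT D j = thN ((2 : ℝ) ^ D) j := by
  unfold θfin
  rw [if_neg (by omega)]

theorem θfin_nonneg {θT : ℕ → ℕ → ℝ} (hT : TableData θT) (D j : ℕ) : 0 ≤ θfin θT D j := by
  unfold θfin
  split_ifs
  · exact hT.nonneg _ _
  · exact thN_nonneg _ _

theorem θfin_base {θT : ℕ → ℕ → ℝ} (hT : TableData θT) : 1 ≤ θfin θT 0 0 := by
  rw [θfin_of_lt _ (by norm_num)]
  exact hT.base

theorem θfin_close {θT : ℕ → ℕ → ℝ} (hT : TableData θT) (hP : PotClose) (D b : ℕ)
    (ρ : ℕ → ℕ → ℕ → ℝ) (hW : Weights (2 ^ D) b ρ) :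
    triSum b (fun t r r' => θfin θT D (t - r) * θfin θT D (b - t - r') * ρ t r r') ≤
      θfin θT (D + 1) b * triSum b ρ := by
  rcases Nat.lt_or_ge D 7 with hD | hD
  · simp only [θfin_of_lt θT hD]
    refine (hT.close D hD b ρ hW).trans ?_
    rcases Nat.lt_or_ge (D + 1) 7 with hD' | hD'
    · rw [θfin_of_lt θT hD']
    · have hD7 : D + 1 = 7 := by omega
      rw [hD7, θfin_of_ge θT le_rfl]
      have h1 : ((2 : ℝ) ^ 7) = 128 := by norm_num
      rw [h1]
      have hM : 0 ≤ triSum b ρ := mass_nonneg hW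
      exact mul_le_mul_of_nonneg_right (hT.junction b) hM
  · simp only [θfin_of_ge θT hD, θfin_of_ge θT (show 7 ≤ D + 1 by omega)]
    have hN : 128 ≤ 2 ^ D := by
      calc 128 = 2 ^ 7 := by norm_num
        _ ≤ 2 ^ D := Nat.pow_le_pow_right (by norm_num) hD
    have h := potClose_all hP (2 ^ D) hN b ρ hW
    have h1 : (((2 ^ D : ℕ) : ℝ)) = (2 : ℝ) ^ D := by push_cast; ring
    rw [h1] at h
    have h2 : (2 : ℝ) ^ (D + 1) = 2 * (2 : ℝ) ^ D := by ring
    rw [h2]
    exact h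

end Crest.Agent.S0222Lib.FRCore.Pot
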