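import Crest.Agent.S0222Lib.FRFacts

/-!
# S0222, first-row bound: further dual reductions of the closure (complements `FRDual`)

Everything here is about abstract weights `ρ` with `Weights N b ρ`; namespace `FRCore.DX`.
`W_dual_general`: any `F ≤ a·Gam·Gam + φ(t)` on the feasible sectors, with the exact coin hull on `φ`.

* `Gam x r G = ∑_k x^k/k! coL k r G`; `one_le_Gam`, `pow_le_Gam`: `(1 + x G)^r ≤ Gam x r G` for `G ≥ 0`;
* `GhatS N b y = ∑_{m ≤ 2b} y^m Sk N b m`, `GhatS_le`: `≤ (1-A)/((1-A)²-C)`, `A = 2My`, `C = 4y²NM`, `M = b/2`;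
* `E_Gam_left`, `E_Gam_right`: `𝔼[Gam x r G_L] ≤ GhatS N b (x/4)`;
* `E_Gam_both`: `𝔼[Gam x r G_L · Gam x r' G_R] ≤ GhatS N b (x/2)`;
* `E_coin_hull`: the exact coin; `E_coin_reflect`;
* `dual_reduction`: the reduction by the arithmetic-geometric inequality into one child at a time;
* `young_reduction`: the reduction by `√(UV) ≤ (U+V)/2`.
-/

set_option autoImplicit false
set_option linter.unusedSectionVars false
set_option linter.unusedVariables false

namespace Crest.Agent.S0222Lib.FRCore.DX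

open Finset
open Crest.Agent.S0222Lib.FRCore

/-! ### `triSum` -/

section TriSum

variable {b : ℕ}

lemma triSum_add (F F' : ℕ → ℕ → ℕ → ℝ) :
    triSum b (fun t r r' => F t r r' + F' t r r') = triSum b F + triSum b F' := by
  simp only [triSum, Finset.sum_add_distrib]

lemma triSum_smul (c : ℝ) (F : ℕ → ℕ → ℕ → ℝ) :
    triSum b (fun t r r' => c * F t r r') = c * triSum b F := by
  simp only [triSum, Finset.mul_sum]

lemma triSum_sum {α : Type*} (s : Finset α) (F : α → ℕ → ℕ → ℕ → ℝ) :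
    triSum b (fun t r r' => ∑ i ∈ s, F i t r r') = ∑ i ∈ s, triSum b (F i) := by
  simp only [triSum]
  rw [Finset.sum_comm (s := s)]
  refine Finset.sum_congr rfl fun t _ => ?_
  rw [Finset.sum_comm (s := s)]
  refine Finset.sum_congr rfl fun r _ => ?_
  rw [Finset.sum_comm (s := s)]

lemma triSum_mono {F F' : ℕ → ℕ → ℕ → ℝ}
    (h : ∀ t r r', t ≤ b → r ≤ t → r' ≤ b - t → F t r r' ≤ F' t r r') :
    triSum b F ≤ triSum b F' := by
  unfold triSum
  refine Finset.sum_le_sum fun t ht => Finset.sum_le_sum fun r hr =>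
    Finset.sum_le_sum fun r' hr' => h t r r' ?_ ?_ ?_
  · exact Nat.lt_succ_iff.1 (Finset.mem_range.1 ht)
  · exact Nat.lt_succ_iff.1 (Finset.mem_range.1 hr)
  · exact Nat.lt_succ_iff.1 (Finset.mem_range.1 hr')

end TriSum

/-! ### The generating function of the moments on a level -/

section Gam

/-- The generating function of the moments on a level. -/
noncomputable def Gam (x : ℝ) (r : ℕ) (G : ℝ) : ℝ :=
  ∑ k ∈ Finset.range (r + 1), x ^ k / (k.factorial : ℝ) * coL k r G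

lemma coP_eq_zero_of_lt : ∀ {r k : ℕ} (G : ℝ), r < k → coP r G k = 0 := by
  intro r
  induction r with
  | zero =>
    intro k G h
    cases k with
    | zero => omega
    | succ k => rfl
  | succ r ih =>
    intro k G h
    cases k with
    | zero => omega
    | succ k =>
      show ((r : ℝ) + 1) * G * coP r (G + 1) k = 0
      rw [ih (G + 1) (by omega), mul_zero]

lemma coL_eq_zero_of_lt {r k : ℕ} (G : ℝ) (h : r < k) : coL k r G = 0 := by
  unfold coL
  split_ifs with h1 h2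
  · exact coP_eq_zero_of_lt G h
  · omega
  · rfl

@[simp] lemma coL_zero (r : ℕ) (G : ℝ) : coL 0 r G = 1 := by
  unfold coL
  split_ifs with h1 h2
  · exact coP_zero r G
  · rfl
  · exact absurd rfl h2

lemma Gam_eq_sum {x : ℝ} {r b : ℕ} (G : ℝ) (h : r ≤ b) :
    Gam x r G = ∑ k ∈ Finset.range (b + 1), x ^ k / (k.factorial : ℝ) * coL k r G := by
  unfold Gam
  refine Finset.sum_subset (Finset.range_subset_range.2 (by omega)) fun k _ hk => ?_
  rw [coL_eq_zero_of_lt G (by simpa using hk), mul_zero]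

lemma one_le_Gam {x : ℝ} (hx : 0 ≤ x) (r : ℕ) (G : ℝ) : 1 ≤ Gam x r G := by
  unfold Gam
  rw [Finset.sum_range_succ']
  have h1 : 0 ≤ ∑ k ∈ Finset.range r, x ^ (k + 1) / ((k + 1).factorial : ℝ) * coL (k + 1) r G :=
    Finset.sum_nonneg fun k _ => mul_nonneg (by positivity) (coL_nonneg _ _ _)
  simp only [pow_zero, Nat.factorial_zero, Nat.cast_one, div_one, coL_zero, mul_one]
  linarith

lemma Gam_nonneg {x : ℝ} (hx : 0 ≤ x) (r : ℕ) (G : ℝ) : 0 ≤ Gam x r G :=
  zero_le_one.trans (one_le_Gam hx r G)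

lemma Gam_of_neg {x : ℝ} (r : ℕ) {G : ℝ} (hG : G < 0) : Gam x r G = 1 := by
  unfold Gam
  rw [Finset.sum_range_succ']
  have h1 : ∑ k ∈ Finset.range r, x ^ (k + 1) / ((k + 1).factorial : ℝ) * coL (k + 1) r G = 0 := by
    refine Finset.sum_eq_zero fun k _ => ?_
    have : coL (k + 1) r G = 0 := by
      unfold coL
      rw [if_neg (not_le.2 hG), if_neg (Nat.succ_ne_zero k)]
    rw [this, mul_zero]
  rw [h1]
  simp

/-- The moment is at least the product. -/
lemma descFactorial_mul_pow_le_coP : ∀ (r k : ℕ) {G : ℝ}, 0 ≤ G →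
    (r.descFactorial k : ℝ) * G ^ k ≤ coP r G k := by
  intro r
  induction r with
  | zero =>
    intro k G hG
    cases k with
    | zero => simp [coP_zero]
    | succ k => simp [coP]
  | succ r ih =>
    intro k G hG
    cases k with
    | zero => simp [coP_zero]
    | succ k =>
      show _ ≤ ((r : ℝ) + 1) * G * coP r (G + 1) k
      have h1 := ih k (G := G + 1) (by linarith)
      have h2 : (r.descFactorial k : ℝ) * G ^ k ≤ (r.descFactorial k : ℝ) * (G + 1) ^ k :=
        mul_le_mul_of_nonneg_left (pow_le_pow_left₀ hG (by linarith) k) (by positivity)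
      have h3 : (((r + 1).descFactorial (k + 1) : ℕ) : ℝ) = ((r : ℝ) + 1) * r.descFactorial k := by
        rw [Nat.succ_descFactorial_succ]
        push_cast
        ring
      rw [h3]
      calc ((r : ℝ) + 1) * (r.descFactorial k : ℝ) * G ^ (k + 1)
          = ((r : ℝ) + 1) * G * ((r.descFactorial k : ℝ) * G ^ k) := by ring
        _ ≤ ((r : ℝ) + 1) * G * coP r (G + 1) k :=
          mul_le_mul_of_nonneg_left (h2.trans h1) (by positivity)

/-- **`(1 + x G)^r ≤ Gam x r G`**. -/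
theorem pow_le_Gam {x : ℝ} (hx : 0 ≤ x) (r : ℕ) {G : ℝ} (hG : 0 ≤ G) :
    (1 + x * G) ^ r ≤ Gam x r G := by
  rw [add_comm, add_pow]
  unfold Gam
  refine Finset.sum_le_sum fun k hk => ?_
  have hkr : k ≤ r := Nat.lt_succ_iff.1 (Finset.mem_range.1 hk)
  have h1 := descFactorial_mul_pow_le_coP r k hG
  have h2 : coL k r G = coP r G k := by unfold coL; rw [if_pos hG]
  rw [h2, one_pow, mul_one]
  have h3 : ((r.descFactorial k : ℕ) : ℝ) = (k.factorial : ℝ) * (r.choose k : ℝ) := by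
    rw [Nat.descFactorial_eq_factorial_mul_choose]
    push_cast
    ring
  have hk0 : (0 : ℝ) < k.factorial := by exact_mod_cast Nat.factorial_pos k
  calc (x * G) ^ k * (r.choose k : ℝ)
      = x ^ k / (k.factorial : ℝ) * ((r.descFactorial k : ℝ) * G ^ k) := by
        rw [h3, mul_pow]
        field_simp
    _ ≤ x ^ k / (k.factorial : ℝ) * coP r G k :=
        mul_le_mul_of_nonneg_left h1 (by positivity)

end Gam

/-! ### The moments generating function -/

section Ghat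

/-- The generating function of the bound of the moments. -/
noncomputable def GhatS (N b : ℕ) (y : ℝ) : ℝ :=
  ∑ m ∈ Finset.range (2 * b + 1), y ^ m * Sk N b m

lemma Sk_nonneg (N b m : ℕ) : 0 ≤ Sk N b m := by
  unfold Sk
  exact_mod_cast Nat.zero_le _

lemma GhatS_nonneg (N b : ℕ) {y : ℝ} (hy : 0 ≤ y) : 0 ≤ GhatS N b y :=
  Finset.sum_nonneg fun m _ => mul_nonneg (pow_nonneg hy m) (Sk_nonneg _ _ _)

/-- One term of the moments. -/
lemma Sk_term_le (N M p k₁ : ℕ) :
    ((2 * p + k₁).factorial * (N.choose p * (M.choose p * (2 * M).choose k₁)) : ℕ) ≤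
      (2 * p + k₁).choose k₁ * 4 ^ p * (N ^ p * M ^ p * (2 * M) ^ k₁) := by
  have h1 : (2 * p + k₁).factorial = (2 * p + k₁).choose k₁ * k₁.factorial * (2 * p).factorial := by
    have := Nat.add_choose_mul_factorial_mul_factorial (2 * p) k₁
    rw [← this]
    have h0 : (2 * p + k₁).choose k₁ = (2 * p + k₁).choose (2 * p) := (Nat.choose_symm_add).symm
    rw [h0]
    ring
  have h2 : (2 * p).factorial = (2 * p).choose p * p.factorial * p.factorial := by
    have h3 := Nat.add_choose_mul_factorial_mul_factorial p p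
    rw [← two_mul] at h3
    rw [h3]
  have h4 : (2 * p).choose p ≤ 4 ^ p := by
    have := Nat.choose_le_two_pow (2 * p) p
    rwa [pow_mul, show (2 : ℕ) ^ 2 = 4 by norm_num] at this
  have h5 : p.factorial * N.choose p ≤ N ^ p := by
    rw [← Nat.descFactorial_eq_factorial_mul_choose]
    exact Nat.descFactorial_le_pow _ _
  have h6 : p.factorial * M.choose p ≤ M ^ p := by
    rw [← Nat.descFactorial_eq_factorial_mul_choose]
    exact Nat.descFactorial_le_pow _ _
  have h7 : k₁.factorial * (2 * M).choose k₁ ≤ (2 * M) ^ k₁ := by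
    rw [← Nat.descFactorial_eq_factorial_mul_choose]
    exact Nat.descFactorial_le_pow _ _
  calc (2 * p + k₁).factorial * (N.choose p * (M.choose p * (2 * M).choose k₁))
      = (2 * p + k₁).choose k₁ * (2 * p).choose p *
          ((p.factorial * N.choose p) * (p.factorial * M.choose p) * (k₁.factorial * (2 * M).choose k₁)) := by
        rw [h1, h2]; ring
    _ ≤ (2 * p + k₁).choose k₁ * 4 ^ p * (N ^ p * M ^ p * (2 * M) ^ k₁) := by
        exact Nat.mul_le_mul (Nat.mul_le_mul_left _ h4)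
          (Nat.mul_le_mul (Nat.mul_le_mul h5 h6) h7)

/-- The negative binomial bound. -/
lemma sum_choose_geom_le {A : ℝ} (hA0 : 0 ≤ A) (hA1 : A < 1) (q n : ℕ) :
    ∑ k ∈ Finset.range n, ((q + k).choose k : ℝ) * A ^ k ≤ 1 / (1 - A) ^ (q + 1) := by
  have h := hasSum_choose_mul_geometric_of_norm_lt_one (𝕜 := ℝ) q (r := A)
    (by rwa [Real.norm_of_nonneg hA0])
  refine (Finset.sum_le_sum fun k _ => ?_).trans (sum_le_hasSum (Finset.range n) (fun k _ => ?_) h)
  · rw [add_comm k q, ← Nat.choose_symm_add]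
  · positivity

/-- **The bound of the generating function of the moments**. -/
theorem GhatS_le (N b : ℕ) {y : ℝ} (hy : 0 ≤ y) {A C : ℝ} (hA : A = 2 * ((b / 2 : ℕ) : ℝ) * y)
    (hC : C = 4 * y ^ 2 * N * ((b / 2 : ℕ) : ℝ)) (hA1 : A < 1) (hC1 : C < (1 - A) ^ 2) :
    GhatS N b y ≤ (1 - A) / ((1 - A) ^ 2 - C) := by
  set M := b / 2 with hM
  set n := 2 * b + 1 with hn
  have hA0 : 0 ≤ A := by rw [hA]; positivity
  have hC0 : 0 ≤ C := by rw [hC]; positivity
  have h1A : 0 < 1 - A := by linarith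
  -- termwise
  set F : ℕ → ℕ → ℝ := fun p k => ((2 * p + k).choose k : ℝ) * C ^ p * A ^ k with hF
  have hF0 : ∀ p k, 0 ≤ F p k := fun p k => by
    simp only [hF]; positivity
  have hterm : ∀ m, y ^ m * Sk N b m ≤ ∑ p ∈ Finset.range (m / 2 + 1), F p (m - 2 * p) := by
    intro m
    unfold Sk
    push_cast
    rw [Finset.mul_sum, Finset.mul_sum]
    refine Finset.sum_le_sum fun p hp => ?_
    have hp' : 2 * p ≤ m := by
      have := Nat.lt_succ_iff.1 (Finset.mem_range.1 hp)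
      omega
    have h2 := Sk_term_le N M p (m - 2 * p)
    rw [show 2 * p + (m - 2 * p) = m by omega] at h2
    have h3 : ((m.factorial : ℝ) * ((N.choose p : ℝ) * ((M.choose p : ℝ) * ((2 * M).choose (m - 2 * p) : ℝ))))
        ≤ (m.choose (m - 2 * p) : ℝ) * 4 ^ p * ((N : ℝ) ^ p * (M : ℝ) ^ p * (2 * (M : ℝ)) ^ (m - 2 * p)) := by
      exact_mod_cast h2
    have hym : y ^ m = y ^ (2 * p) * y ^ (m - 2 * p) := by
      rw [← pow_add]; congr 1; omega
    have hFe : F p (m - 2 * p) = (m.choose (m - 2 * p) : ℝ) * 4 ^ p *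
        ((N : ℝ) ^ p * (M : ℝ) ^ p * (2 * (M : ℝ)) ^ (m - 2 * p)) * y ^ m := by
      simp only [hF]
      rw [show 2 * p + (m - 2 * p) = m by omega, hA, hC, hym, pow_mul, mul_pow, mul_pow, mul_pow,
        mul_pow]
      ring
    rw [hFe, mul_comm (y ^ m)]
    exact mul_le_mul_of_nonneg_right h3 (pow_nonneg hy m)
  -- reorganise the sum
  have hsum : GhatS N b y ≤ ∑ p ∈ Finset.range n, ∑ k ∈ Finset.range n, F p k := by
    unfold GhatS
    refine (Finset.sum_le_sum fun m _ => hterm m).trans ?_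
    rw [Finset.sum_sigma', ← Finset.sum_product' (s := Finset.range n) (t := Finset.range n)
      (f := fun p k => F p k)]
    have h5 : ∑ x ∈ (Finset.range (2 * b + 1)).sigma (fun m => Finset.range (m / 2 + 1)),
          F x.2 (x.1 - 2 * x.2)
        = ∑ x ∈ (Finset.range n ×ˢ Finset.range n).filter (fun x => 2 * x.1 + x.2 ≤ 2 * b),
          F x.1 x.2 := by
      refine Finset.sum_nbij' (fun x => (x.2, x.1 - 2 * x.2)) (fun x => ⟨2 * x.1 + x.2, x.1⟩)
        ?_ ?_ ?_ ?_ ?_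
      · rintro ⟨m, p⟩ hx
        simp only [Finset.mem_sigma, Finset.mem_range, Finset.mem_filter, Finset.mem_product] at hx ⊢
        omega
      · rintro ⟨p, k⟩ hx
        simp only [Finset.mem_sigma, Finset.mem_range, Finset.mem_filter, Finset.mem_product] at hx ⊢
        omega
      · rintro ⟨m, p⟩ hx
        simp only [Finset.mem_sigma, Finset.mem_range] at hx
        have : 2 * p + (m - 2 * p) = m := by omega
        simp only [this]
      · rintro ⟨p, k⟩ hx
        simp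
      · intro x _
        rfl
    rw [h5]
    exact Finset.sum_le_sum_of_subset_of_nonneg (Finset.filter_subset _ _)
      fun x _ _ => hF0 x.1 x.2
  refine hsum.trans ?_
  have h1A2 : 0 < (1 - A) ^ 2 := by positivity
  set ρ := C / (1 - A) ^ 2 with hρ
  have hρ0 : 0 ≤ ρ := by positivity
  have hρ1 : ρ < 1 := by
    rw [hρ, div_lt_one h1A2]
    exact hC1
  have hinner : ∀ p, ∑ k ∈ Finset.range n, F p k ≤ (1 / (1 - A)) * ρ ^ p := by
    intro p
    have h6 := sum_choose_geom_le hA0 hA1 (2 * p) n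
    have h7 : ∑ k ∈ Finset.range n, F p k
        = C ^ p * ∑ k ∈ Finset.range n, ((2 * p + k).choose k : ℝ) * A ^ k := by
      rw [Finset.mul_sum]
      refine Finset.sum_congr rfl fun k _ => ?_
      simp only [hF]
      ring
    rw [h7]
    calc C ^ p * ∑ k ∈ Finset.range n, ((2 * p + k).choose k : ℝ) * A ^ k
        ≤ C ^ p * (1 / (1 - A) ^ (2 * p + 1)) := mul_le_mul_of_nonneg_left h6 (by positivity)
      _ = (1 / (1 - A)) * ρ ^ p := by
        rw [hρ, div_pow, ← pow_mul, pow_succ]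
        have : (1 - A) ≠ 0 := h1A.ne'
        field_simp
  refine (Finset.sum_le_sum fun p _ => hinner p).trans ?_
  rw [← Finset.mul_sum]
  have hgeo : ∑ p ∈ Finset.range n, ρ ^ p ≤ (1 - ρ)⁻¹ :=
    sum_le_hasSum _ (fun p _ => by positivity) (hasSum_geometric_of_lt_one hρ0 hρ1)
  have h8 : 0 < (1 - A) ^ 2 - C := by linarith
  calc 1 / (1 - A) * ∑ p ∈ Finset.range n, ρ ^ p
      ≤ 1 / (1 - A) * (1 - ρ)⁻¹ := mul_le_mul_of_nonneg_left hgeo (by positivity)
    _ = (1 - A) / ((1 - A) ^ 2 - C) := by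
      have h9 : 1 - ρ = ((1 - A) ^ 2 - C) / (1 - A) ^ 2 := by
        rw [hρ]; field_simp
      rw [h9, inv_div]
      field_simp

end Ghat

/-! ### Expectations under the weights -/

section E

variable {N b : ℕ} {ρ : ℕ → ℕ → ℕ → ℝ}

lemma pow_max_le_Gam {x : ℝ} (hx : 0 ≤ x) (r : ℕ) (G : ℝ) :
    (1 + x * max G 0) ^ r ≤ Gam x r G := by
  rcases le_or_gt 0 G with hG | hG
  · rw [max_eq_left hG]
    exact pow_le_Gam hx r hG
  · rw [max_eq_right hG.le, Gam_of_neg r hG]
    simp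

lemma W_mass_nonneg (hW : Weights N b ρ) : 0 ≤ triSum b ρ :=
  Finset.sum_nonneg fun _ _ => Finset.sum_nonneg fun _ _ => Finset.sum_nonneg fun _ _ =>
    hW.nonneg _ _ _

/-- Pointwise comparison on the feasible sectors. -/
theorem W_triSum_le (hW : Weights N b ρ) {F F' : ℕ → ℕ → ℕ → ℝ}
    (h : ∀ t r r', t ≤ b → r ≤ t → r' ≤ b - t → r + (b - t) ≤ N → r' + t ≤ N → F t r r' ≤ F' t r r') :
    triSum b (fun t r r' => F t r r' * ρ t r r') ≤ triSum b (fun t r r' => F' t r r' * ρ t r r') := by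
  refine triSum_mono fun t r r' ht hr hr' => ?_
  by_cases h1 : r + (b - t) ≤ N
  · by_cases h2 : r' + t ≤ N
    · exact mul_le_mul_of_nonneg_right (h t r r' ht hr hr' h1 h2) (hW.nonneg _ _ _)
    · rw [hW.floor_right t r r' ht (not_le.1 h2)]
      simp
  · rw [hW.floor_left t r r' ht (not_le.1 h1)]
    simp

/-- **The exact coin**: an expectation of a function of `t` is bounded by the worst mixture component. -/
theorem W_E_coin_hull (hW : Weights N b ρ) {φ : ℕ → ℝ} {E : ℝ}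
    (h : ∀ d, 2 * d ≤ b →
      ∑ s ∈ Finset.range (b - 2 * d + 1), ((b - 2 * d).choose s : ℝ) / 2 ^ (b - 2 * d) * φ (d + s) ≤ E) :
    triSum b (fun t r r' => φ t * ρ t r r') ≤ E * triSum b ρ := by
  obtain ⟨w, hw0, hw1, hw2⟩ := hW.coin
  rw [hw2 φ, ← hw1, Finset.mul_sum]
  refine Finset.sum_le_sum fun d hd => ?_
  have hd' : 2 * d ≤ b := by
    have := Nat.lt_succ_iff.1 (Finset.mem_range.1 hd)
    omega
  rw [mul_comm E]
  exact mul_le_mul_of_nonneg_left (h d hd') (hw0 d)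

/-- The mixture component of the reflected function. -/
lemma coin_reflect (b d : ℕ) (hd : 2 * d ≤ b) (φ : ℕ → ℝ) :
    ∑ s ∈ Finset.range (b - 2 * d + 1), ((b - 2 * d).choose s : ℝ) / 2 ^ (b - 2 * d) * φ (b - (d + s)) =
      ∑ s ∈ Finset.range (b - 2 * d + 1), ((b - 2 * d).choose s : ℝ) / 2 ^ (b - 2 * d) * φ (d + s) := by
  rw [← Finset.sum_range_reflect]
  refine Finset.sum_congr rfl fun s hs => ?_
  have hs' : s ≤ b - 2 * d := Nat.lt_succ_iff.1 (Finset.mem_range.1 hs)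
  have h1 : b - 2 * d + 1 - 1 - s = b - 2 * d - s := by omega
  rw [h1, Nat.choose_symm hs']
  congr 2
  omega

/-- The coin bound for the reflected function. -/
theorem W_E_coin_reflect (hW : Weights N b ρ) {φ : ℕ → ℝ} {E : ℝ}
    (h : ∀ d, 2 * d ≤ b →
      ∑ s ∈ Finset.range (b - 2 * d + 1), ((b - 2 * d).choose s : ℝ) / 2 ^ (b - 2 * d) * φ (d + s) ≤ E) :
    triSum b (fun t r r' => φ (b - t) * ρ t r r') ≤ E * triSum b ρ := by
  refine W_E_coin_hull hW (φ := fun t => φ (b - t)) fun d hd => ?_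
  rw [coin_reflect b d hd φ]
  exact h d hd

/-- The exact coin, in the form with the `m`th moment at the worst `d`. -/
lemma sum_choose_div (m : ℕ) :
    ∑ s ∈ Finset.range (m + 1), (m.choose s : ℝ) / 2 ^ m = 1 := by
  rw [← Finset.sum_div]
  have h : (∑ s ∈ Finset.range (m + 1), (m.choose s : ℝ)) = 2 ^ m := by
    exact_mod_cast Nat.sum_range_choose m
  rw [h]
  exact div_self (by positivity)

/-- The product of two moment generating functions, expanded. -/
lemma Gam_mul_Gam_eq {x : ℝ} {r r' : ℕ} (G G' : ℝ) (h : r ≤ b) (h' : r' ≤ b) :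
    Gam x r G * Gam x r' G' = ∑ k ∈ Finset.range (b + 1), ∑ k' ∈ Finset.range (b + 1),
      (x ^ k / (k.factorial : ℝ)) * (x ^ k' / (k'.factorial : ℝ)) * (coL k r G * coL k' r' G') := by
  rw [Gam_eq_sum G h, Gam_eq_sum G' h', Finset.sum_mul_sum]
  refine Finset.sum_congr rfl fun k _ => Finset.sum_congr rfl fun k' _ => ?_
  ring

/-- The binomial reorganisation of the double sum of the moment bounds. -/
lemma sum_sum_choose_le (b : ℕ) {y : ℝ} (hy : 0 ≤ y) (g : ℕ → ℝ) (hg : ∀ m, 0 ≤ g m) :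
    ∑ k ∈ Finset.range (b + 1), ∑ k' ∈ Finset.range (b + 1),
        ((k + k').choose k : ℝ) * y ^ (k + k') * g (k + k') ≤
      ∑ m ∈ Finset.range (2 * b + 1), (2 * y) ^ m * g m := by
  rw [← Finset.sum_product' (s := Finset.range (b + 1)) (t := Finset.range (b + 1))
    (f := fun k k' => ((k + k').choose k : ℝ) * y ^ (k + k') * g (k + k'))]
  rw [← Finset.sum_fiberwise_of_maps_to (t := Finset.range (2 * b + 1))
    (g := fun x : ℕ × ℕ => x.1 + x.2)]
  · refine Finset.sum_le_sum fun m _ => ?_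
    have h1 : ∑ x ∈ (Finset.range (b + 1) ×ˢ Finset.range (b + 1)).filter (fun x => x.1 + x.2 = m),
          ((x.1 + x.2).choose x.1 : ℝ) * y ^ (x.1 + x.2) * g (x.1 + x.2)
        = ∑ x ∈ (Finset.range (b + 1) ×ˢ Finset.range (b + 1)).filter (fun x => x.1 + x.2 = m),
          (m.choose x.1 : ℝ) * (y ^ m * g m) := by
      refine Finset.sum_congr rfl fun x hx => ?_
      rw [(Finset.mem_filter.1 hx).2]
      ring
    have h3 : (2 * y) ^ m * g m = 2 ^ m * (y ^ m * g m) := by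
      rw [mul_pow]; ring
    rw [h1, ← Finset.sum_mul, h3]
    refine mul_le_mul_of_nonneg_right ?_ (mul_nonneg (pow_nonneg hy m) (hg m))
    have h2 : ∑ x ∈ Finset.HasAntidiagonal.antidiagonal m, (m.choose x.1 : ℝ) = 2 ^ m := by
      rw [Finset.Nat.sum_antidiagonal_eq_sum_range_succ_mk]
      exact_mod_cast Nat.sum_range_choose m
    rw [← h2]
    refine Finset.sum_le_sum_of_subset_of_nonneg ?_ fun _ _ _ => by positivity
    intro x hx
    rw [Finset.HasAntidiagonal.mem_antidiagonal]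
    exact (Finset.mem_filter.1 hx).2
  · intro x hx
    simp only [Finset.mem_product, Finset.mem_range] at hx
    simp only [Finset.mem_range]
    omega

/-- **The joint moment bound**: `𝔼[Gam x r G_L · Gam x r' G_R] ≤ GhatS N b (x/2)`. -/
theorem W_E_Gam_both (hW : Weights N b ρ) {x : ℝ} (hx : 0 ≤ x) :
    triSum b (fun t r r' => Gam x r (Gv (N : ℝ) r t) * Gam x r' (Gv (N : ℝ) r' (b - t)) * ρ t r r') ≤
      GhatS N b (x / 2) * triSum b ρ := by
  have hm := W_mass_nonneg hW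
  have h1 : triSum b (fun t r r' =>
        Gam x r (Gv (N : ℝ) r t) * Gam x r' (Gv (N : ℝ) r' (b - t)) * ρ t r r') =
      ∑ k ∈ Finset.range (b + 1), ∑ k' ∈ Finset.range (b + 1),
        (x ^ k / (k.factorial : ℝ)) * (x ^ k' / (k'.factorial : ℝ)) *
          triSum b (fun t r r' =>
            coL k r (Gv (N : ℝ) r t) * coL k' r' (Gv (N : ℝ) r' (b - t)) * ρ t r r') := by
    have hR : ∑ k ∈ Finset.range (b + 1), ∑ k' ∈ Finset.range (b + 1),
        (x ^ k / (k.factorial : ℝ)) * (x ^ k' / (k'.factorial : ℝ)) *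
          triSum b (fun t r r' =>
            coL k r (Gv (N : ℝ) r t) * coL k' r' (Gv (N : ℝ) r' (b - t)) * ρ t r r') =
        triSum b (fun t r r' => ∑ k ∈ Finset.range (b + 1), ∑ k' ∈ Finset.range (b + 1),
          (x ^ k / (k.factorial : ℝ)) * (x ^ k' / (k'.factorial : ℝ)) *
            (coL k r (Gv (N : ℝ) r t) * coL k' r' (Gv (N : ℝ) r' (b - t)) * ρ t r r')) := by
      rw [triSum_sum]
      refine Finset.sum_congr rfl fun k _ => ?_
      rw [triSum_sum]
      refine Finset.sum_congr rfl fun k' _ => ?_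
      rw [triSum_smul]
    rw [hR]
    unfold triSum
    refine Finset.sum_congr rfl fun t ht => Finset.sum_congr rfl fun r hr =>
      Finset.sum_congr rfl fun r' hr' => ?_
    have ht' := Nat.lt_succ_iff.1 (Finset.mem_range.1 ht)
    have hr1 := Nat.lt_succ_iff.1 (Finset.mem_range.1 hr)
    have hr2 := Nat.lt_succ_iff.1 (Finset.mem_range.1 hr')
    beta_reduce
    rw [Gam_mul_Gam_eq (b := b) _ _ (by omega) (by omega), Finset.sum_mul]
    refine Finset.sum_congr rfl fun k _ => ?_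
    rw [Finset.sum_mul]
    refine Finset.sum_congr rfl fun k' _ => ?_
    ring
  rw [h1]
  have h2 : ∀ k k', (x ^ k / (k.factorial : ℝ)) * (x ^ k' / (k'.factorial : ℝ)) *
        triSum b (fun t r r' =>
          coL k r (Gv (N : ℝ) r t) * coL k' r' (Gv (N : ℝ) r' (b - t)) * ρ t r r') ≤
      ((k + k').choose k : ℝ) * (x / 4) ^ (k + k') * (Sk N b (k + k') * triSum b ρ) := by
    intro k k'
    have h3 := mul_le_mul_of_nonneg_left (hW.moment k k')
      (by positivity : 0 ≤ (x ^ k / (k.factorial : ℝ)) * (x ^ k' / (k'.factorial : ℝ)))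
    refine h3.trans (le_of_eq ?_)
    have h4 : (k.factorial : ℝ) ≠ 0 := by exact_mod_cast Nat.factorial_ne_zero k
    have h5 : (k'.factorial : ℝ) ≠ 0 := by exact_mod_cast Nat.factorial_ne_zero k'
    rw [show (x / 4) ^ (k + k') = x ^ k * x ^ k' / 4 ^ (k + k') by rw [div_pow, pow_add],
      show (1 / 4 : ℝ) ^ (k + k') = 1 / 4 ^ (k + k') by rw [div_pow, one_pow]]
    field_simp
  refine (Finset.sum_le_sum fun k _ => Finset.sum_le_sum fun k' _ => h2 k k').trans ?_
  refine (sum_sum_choose_le b (y := x / 4) (by positivity) (fun m => Sk N b m * triSum b ρ)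
    (fun m => mul_nonneg (Sk_nonneg _ _ _) hm)).trans (le_of_eq ?_)
  unfold GhatS
  rw [Finset.sum_mul]
  refine Finset.sum_congr rfl fun m _ => ?_
  rw [show 2 * (x / 4) = x / 2 by ring]
  ring

/-- The moment bound on the left child. -/
theorem W_E_Gam_left (hW : Weights N b ρ) {x : ℝ} (hx : 0 ≤ x) :
    triSum b (fun t r r' => Gam x r (Gv (N : ℝ) r t) * ρ t r r') ≤
      GhatS N b (x / 4) * triSum b ρ := by
  have hm := W_mass_nonneg hW
  have h1 : triSum b (fun t r r' => Gam x r (Gv (N : ℝ) r t) * ρ t r r') =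
      ∑ k ∈ Finset.range (b + 1), (x ^ k / (k.factorial : ℝ)) *
          triSum b (fun t r r' =>
            coL k r (Gv (N : ℝ) r t) * coL 0 r' (Gv (N : ℝ) r' (b - t)) * ρ t r r') := by
    simp only [← triSum_smul]
    rw [← triSum_sum]
    unfold triSum
    refine Finset.sum_congr rfl fun t ht => Finset.sum_congr rfl fun r hr =>
      Finset.sum_congr rfl fun r' _ => ?_
    have ht' := Nat.lt_succ_iff.1 (Finset.mem_range.1 ht)
    have hr1 := Nat.lt_succ_iff.1 (Finset.mem_range.1 hr)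
    beta_reduce
    rw [Gam_eq_sum (b := b) _ (by omega), Finset.sum_mul]
    refine Finset.sum_congr rfl fun k _ => ?_
    rw [coL_zero]
    ring
  rw [h1]
  have h2 : ∀ k, (x ^ k / (k.factorial : ℝ)) *
        triSum b (fun t r r' =>
          coL k r (Gv (N : ℝ) r t) * coL 0 r' (Gv (N : ℝ) r' (b - t)) * ρ t r r') ≤
      (x / 4) ^ k * (Sk N b k * triSum b ρ) := by
    intro k
    have h3 := mul_le_mul_of_nonneg_left (hW.moment k 0)
      (by positivity : 0 ≤ (x ^ k / (k.factorial : ℝ)))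
    refine h3.trans (le_of_eq ?_)
    have h4 : (k.factorial : ℝ) ≠ 0 := by exact_mod_cast Nat.factorial_ne_zero k
    simp only [add_zero, Nat.choose_self, Nat.factorial_zero, Nat.cast_one, mul_one]
    rw [show (x / 4) ^ k = x ^ k / 4 ^ k by rw [div_pow],
      show (1 / 4 : ℝ) ^ k = 1 / 4 ^ k by rw [div_pow, one_pow]]
    field_simp
  refine (Finset.sum_le_sum fun k _ => h2 k).trans ?_
  unfold GhatS
  rw [Finset.sum_mul]
  refine (Finset.sum_le_sum_of_subset_of_nonneg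
    (Finset.range_subset_range.2 (by omega : b + 1 ≤ 2 * b + 1)) fun m _ _ => ?_).trans (le_of_eq ?_)
  · exact mul_nonneg (pow_nonneg (by positivity) m) (mul_nonneg (Sk_nonneg _ _ _) hm)
  · refine Finset.sum_congr rfl fun m _ => ?_
    ring

/-- The moment bound on the right child. -/
theorem W_E_Gam_right (hW : Weights N b ρ) {x : ℝ} (hx : 0 ≤ x) :
    triSum b (fun t r r' => Gam x r' (Gv (N : ℝ) r' (b - t)) * ρ t r r') ≤
      GhatS N b (x / 4) * triSum b ρ := by
  have hm := W_mass_nonneg hW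
  have h1 : triSum b (fun t r r' => Gam x r' (Gv (N : ℝ) r' (b - t)) * ρ t r r') =
      ∑ k ∈ Finset.range (b + 1), (x ^ k / (k.factorial : ℝ)) *
          triSum b (fun t r r' =>
            coL 0 r (Gv (N : ℝ) r t) * coL k r' (Gv (N : ℝ) r' (b - t)) * ρ t r r') := by
    simp only [← triSum_smul]
    rw [← triSum_sum]
    unfold triSum
    refine Finset.sum_congr rfl fun t ht => Finset.sum_congr rfl fun r hr =>
      Finset.sum_congr rfl fun r' hr' => ?_
    have ht' := Nat.lt_succ_iff.1 (Finset.mem_range.1 ht)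
    have hr2 := Nat.lt_succ_iff.1 (Finset.mem_range.1 hr')
    beta_reduce
    rw [Gam_eq_sum (b := b) _ (by omega), Finset.sum_mul]
    refine Finset.sum_congr rfl fun k _ => ?_
    rw [coL_zero]
    ring
  rw [h1]
  have h2 : ∀ k, (x ^ k / (k.factorial : ℝ)) *
        triSum b (fun t r r' =>
          coL 0 r (Gv (N : ℝ) r t) * coL k r' (Gv (N : ℝ) r' (b - t)) * ρ t r r') ≤
      (x / 4) ^ k * (Sk N b k * triSum b ρ) := by
    intro k
    have h3 := mul_le_mul_of_nonneg_left (hW.moment 0 k)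
      (by positivity : 0 ≤ (x ^ k / (k.factorial : ℝ)))
    refine h3.trans (le_of_eq ?_)
    have h4 : (k.factorial : ℝ) ≠ 0 := by exact_mod_cast Nat.factorial_ne_zero k
    simp only [zero_add, Nat.choose_zero_right, Nat.factorial_zero, Nat.cast_one, one_mul, mul_one]
    rw [show (x / 4) ^ k = x ^ k / 4 ^ k by rw [div_pow],
      show (1 / 4 : ℝ) ^ k = 1 / 4 ^ k by rw [div_pow, one_pow]]
    field_simp
  refine (Finset.sum_le_sum fun k _ => h2 k).trans ?_
  unfold GhatS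
  rw [Finset.sum_mul]
  refine (Finset.sum_le_sum_of_subset_of_nonneg
    (Finset.range_subset_range.2 (by omega : b + 1 ≤ 2 * b + 1)) fun m _ _ => ?_).trans (le_of_eq ?_)
  · exact mul_nonneg (pow_nonneg (by positivity) m) (mul_nonneg (Sk_nonneg _ _ _) hm)
  · refine Finset.sum_congr rfl fun m _ => ?_
    ring

end E

/-! ### The reductions -/

section Reduction

variable {N b : ℕ} {ρ : ℕ → ℕ → ℕ → ℝ}

lemma one_le_GhatS (N b : ℕ) {y : ℝ} (hy : 0 ≤ y) : 1 ≤ GhatS N b y := by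
  unfold GhatS
  rw [Finset.sum_range_succ']
  have h1 : 0 ≤ ∑ m ∈ Finset.range (2 * b), y ^ (m + 1) * Sk N b (m + 1) :=
    Finset.sum_nonneg fun m _ => mul_nonneg (pow_nonneg hy _) (Sk_nonneg _ _ _)
  have h2 : Sk N b 0 = 1 := by
    simp [Sk]
  simp only [pow_zero, one_mul, h2]
  linarith

/-- **The general dual**: the product moments and any function of `t` under the coin. -/
theorem W_dual_general (hW : Weights N b ρ) {F : ℕ → ℕ → ℕ → ℝ} {z a E : ℝ} {φ : ℕ → ℝ}
    (hz : 0 ≤ z) (ha : 0 ≤ a)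
    (hφ : ∀ d, 2 * d ≤ b →
      ∑ s ∈ Finset.range (b - 2 * d + 1), ((b - 2 * d).choose s : ℝ) / 2 ^ (b - 2 * d) * φ (d + s) ≤ E)
    (hpt : ∀ t r r', t ≤ b → r ≤ t → r' ≤ b - t → r + (b - t) ≤ N → r' + t ≤ N →
      F t r r' ≤ a * (Gam z r (Gv (N : ℝ) r t) * Gam z r' (Gv (N : ℝ) r' (b - t))) + φ t) :
    triSum b (fun t r r' => F t r r' * ρ t r r') ≤ (a * GhatS N b (z / 2) + E) * triSum b ρ := by
  refine (W_triSum_le hW hpt).trans ?_
  have h1 : (fun t r r' => (a * (Gam z r (Gv (N : ℝ) r t) * Gam z r' (Gv (N : ℝ) r' (b - t))) + φ t) * ρ t r r')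
      = fun t r r' => a * (Gam z r (Gv (N : ℝ) r t) * Gam z r' (Gv (N : ℝ) r' (b - t)) * ρ t r r')
        + φ t * ρ t r r' := by
    funext t r r'
    ring
  rw [h1, triSum_add, triSum_smul, add_mul, mul_assoc]
  exact add_le_add (mul_le_mul_of_nonneg_left (W_E_Gam_both hW hz) ha) (W_E_coin_hull hW hφ)

/-- **Young's reduction**, with the subgaussian bound of the coin. -/
theorem W_young_reduction (hW : Weights N b ρ) {θ θ' : ℕ → ℝ} {Θ z μ Ψ Ψc : ℝ}
    (hΘ : 0 ≤ Θ) (hz : 0 ≤ z) (hμ : 0 ≤ μ) (hμb : μ * b < 2)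
    (hΨ : GhatS N b (z / 2) ≤ Ψ) (hΨc : (1 - μ * b / 2) ^ (-(1 / 2 : ℝ)) ≤ Ψc)
    (hpt : ∀ t r r', t ≤ b → r ≤ t → r' ≤ b - t → r + (b - t) ≤ N → r' + t ≤ N →
      θ (t - r) * θ' (b - t - r') ≤ Θ * (1 / 2 *
        ((1 + z * max (Gv (N : ℝ) r t) 0) ^ r * (1 + z * max (Gv (N : ℝ) r' (b - t)) 0) ^ r') / Ψ +
        1 / 2 * Real.exp (μ * ((t : ℝ) - b / 2) ^ 2) / Ψc)) :
    triSum b (fun t r r' => θ (t - r) * θ' (b - t - r') * ρ t r r') ≤ Θ * triSum b ρ := by
  have hm := W_mass_nonneg hW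
  have hΨ1 : 1 ≤ Ψ := (one_le_GhatS N b (by positivity)).trans hΨ
  have hΨ0 : 0 < Ψ := by linarith
  have hΨc0 : 0 < Ψc := by
    refine lt_of_lt_of_le (Real.rpow_pos_of_pos ?_ _) hΨc
    linarith
  -- pointwise
  have h1 : ∀ t r r', t ≤ b → r ≤ t → r' ≤ b - t → r + (b - t) ≤ N → r' + t ≤ N →
      θ (t - r) * θ' (b - t - r') ≤
        Θ * (1 / 2 * (Gam z r (Gv (N : ℝ) r t) * Gam z r' (Gv (N : ℝ) r' (b - t))) / Ψ) +
        Θ * (1 / 2 * Real.exp (μ * ((t : ℝ) - b / 2) ^ 2) / Ψc) := by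
    intro t r r' ht hr hr' h3 h4
    refine (hpt t r r' ht hr hr' h3 h4).trans ?_
    rw [mul_add]
    refine add_le_add (mul_le_mul_of_nonneg_left ?_ hΘ) le_rfl
    refine div_le_div_of_nonneg_right (mul_le_mul_of_nonneg_left ?_ (by norm_num)) hΨ0.le
    refine mul_le_mul (pow_max_le_Gam hz _ _) (pow_max_le_Gam hz _ _) ?_ (Gam_nonneg hz _ _)
    exact pow_nonneg (by positivity) _
  refine (W_triSum_le hW h1).trans ?_
  have h2 : (fun t r r' => (Θ * (1 / 2 * (Gam z r (Gv (N : ℝ) r t) * Gam z r' (Gv (N : ℝ) r' (b - t))) / Ψ) +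
        Θ * (1 / 2 * Real.exp (μ * ((t : ℝ) - b / 2) ^ 2) / Ψc)) * ρ t r r')
      = fun t r r' => (Θ * (1 / 2) / Ψ) * (Gam z r (Gv (N : ℝ) r t) * Gam z r' (Gv (N : ℝ) r' (b - t)) * ρ t r r')
        + (Θ * (1 / 2) / Ψc) * (Real.exp (μ * ((t : ℝ) - b / 2) ^ 2) * ρ t r r') := by
    funext t r r'
    field_simp
  rw [h2, triSum_add, triSum_smul, triSum_smul]
  have h3 := W_E_Gam_both hW hz
  have h4 := hW.coin_exp μ hμ hμb
  have h5 : GhatS N b (z / 2) * triSum b ρ ≤ Ψ * triSum b ρ :=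
    mul_le_mul_of_nonneg_right hΨ hm
  have h6 : (1 - μ * b / 2) ^ (-(1 / 2 : ℝ)) * triSum b ρ ≤ Ψc * triSum b ρ :=
    mul_le_mul_of_nonneg_right hΨc hm
  have h7 : 0 ≤ Θ * (1 / 2) / Ψ := by positivity
  have h8 : 0 ≤ Θ * (1 / 2) / Ψc := by positivity
  calc _ ≤ (Θ * (1 / 2) / Ψ) * (Ψ * triSum b ρ) + (Θ * (1 / 2) / Ψc) * (Ψc * triSum b ρ) :=
        add_le_add (mul_le_mul_of_nonneg_left (h3.trans h5) h7)
          (mul_le_mul_of_nonneg_left (h4.trans h6) h8)
    _ = Θ * triSum b ρ := by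
        field_simp
        ring

/-- The AM-GM reduction into one child at a time. `K t j` is the `a.e.` majorant of the `j`-level factor. -/
theorem W_dual_reduction (hW : Weights N b ρ) {θ θ' : ℕ → ℝ} {K K' : ℕ → ℕ → ℝ} {Θ x l A₀ : ℝ}
    {a a' : ℕ → ℝ} (hΘ : 0 ≤ Θ) (hx : 0 ≤ x) (hl : 0 ≤ l)
    (hamgm : ∀ t r r', t ≤ b → r ≤ t → r' ≤ b - t → r + (b - t) ≤ N → r' + t ≤ N →
      θ (t - r) * θ' (b - t - r') ≤ Θ / 2 * (K t (t - r) + K' (b - t) (b - t - r')))
    (hK : ∀ t r r', t ≤ b → r ≤ t → r' ≤ b - t → r + (b - t) ≤ N → r' + t ≤ N →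
      K t (t - r) ≤ a t + l * (Gam x r (Gv (N : ℝ) r t) - 1))
    (hK' : ∀ t r r', t ≤ b → r ≤ t → r' ≤ b - t → r + (b - t) ≤ N → r' + t ≤ N →
      K' (b - t) (b - t - r') ≤ a' (b - t) + l * (Gam x r' (Gv (N : ℝ) r' (b - t)) - 1))
    (hA : ∀ d, 2 * d ≤ b →
      ∑ s ∈ Finset.range (b - 2 * d + 1), ((b - 2 * d).choose s : ℝ) / 2 ^ (b - 2 * d) * a (d + s) ≤ A₀)
    (hA' : ∀ d, 2 * d ≤ b →
      ∑ s ∈ Finset.range (b - 2 * d + 1), ((b - 2 * d).choose s : ℝ) / 2 ^ (b - 2 * d) * a' (d + s) ≤ A₀)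
    (hclose : A₀ + l * (GhatS N b (x / 4) - 1) ≤ 1) :
    triSum b (fun t r r' => θ (t - r) * θ' (b - t - r') * ρ t r r') ≤ Θ * triSum b ρ := by
  have hm := W_mass_nonneg hW
  have h1 : ∀ t r r', t ≤ b → r ≤ t → r' ≤ b - t → r + (b - t) ≤ N → r' + t ≤ N →
      θ (t - r) * θ' (b - t - r') ≤ Θ / 2 * (a t + a' (b - t) + l * Gam x r (Gv (N : ℝ) r t)
        + l * Gam x r' (Gv (N : ℝ) r' (b - t)) - 2 * l) := by
    intro t r r' ht hr hr' h3 h4
    refine (hamgm t r r' ht hr hr' h3 h4).trans (mul_le_mul_of_nonneg_left ?_ (by positivity))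
    have h5 := hK t r r' ht hr hr' h3 h4
    have h6 := hK' t r r' ht hr hr' h3 h4
    linarith
  refine (W_triSum_le hW h1).trans ?_
  have h2 : (fun t r r' => Θ / 2 * (a t + a' (b - t) + l * Gam x r (Gv (N : ℝ) r t)
        + l * Gam x r' (Gv (N : ℝ) r' (b - t)) - 2 * l) * ρ t r r')
      = fun t r r' => (Θ / 2) * (a t * ρ t r r') + (Θ / 2) * (a' (b - t) * ρ t r r')
        + (Θ / 2 * l) * (Gam x r (Gv (N : ℝ) r t) * ρ t r r')
        + (Θ / 2 * l) * (Gam x r' (Gv (N : ℝ) r' (b - t)) * ρ t r r')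
        + (-(Θ * l)) * ρ t r r' := by
    funext t r r'
    ring
  rw [h2]
  simp only [triSum_add, triSum_smul]
  have h3 := W_E_coin_hull hW hA
  have h4 := W_E_coin_reflect hW hA'
  have h5 := W_E_Gam_left hW hx
  have h6 := W_E_Gam_right hW hx
  have h7 : 0 ≤ Θ / 2 * l := by positivity
  have h8 : (Θ / 2) * (A₀ * triSum b ρ) + (Θ / 2) * (A₀ * triSum b ρ)
      + (Θ / 2 * l) * (GhatS N b (x / 4) * triSum b ρ)
      + (Θ / 2 * l) * (GhatS N b (x / 4) * triSum b ρ) + (-(Θ * l)) * triSum b ρ ≤ Θ * triSum b ρ := by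
    have h9 : (A₀ + l * (GhatS N b (x / 4) - 1)) * (Θ * triSum b ρ) ≤ 1 * (Θ * triSum b ρ) :=
      mul_le_mul_of_nonneg_right hclose (by positivity)
    nlinarith
  refine le_trans ?_ h8
  have h9 := mul_le_mul_of_nonneg_left h3 (by positivity : 0 ≤ Θ / 2)
  have h10 := mul_le_mul_of_nonneg_left h4 (by positivity : 0 ≤ Θ / 2)
  have h11 := mul_le_mul_of_nonneg_left h5 h7
  have h12 := mul_le_mul_of_nonneg_left h6 h7
  linarith

/-- The bound of `GhatS` at the point used by the Young reduction: `A = z M`, `C = z² N M`. -/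
theorem GhatS_half_le (N b : ℕ) {z : ℝ} (hz : 0 ≤ z) (hA1 : z * ((b / 2 : ℕ) : ℝ) < 1)
    (hC1 : z ^ 2 * N * ((b / 2 : ℕ) : ℝ) < (1 - z * ((b / 2 : ℕ) : ℝ)) ^ 2) :
    GhatS N b (z / 2) ≤ (1 - z * ((b / 2 : ℕ) : ℝ)) /
      ((1 - z * ((b / 2 : ℕ) : ℝ)) ^ 2 - z ^ 2 * N * ((b / 2 : ℕ) : ℝ)) := by
  refine GhatS_le N b (by positivity) (A := z * ((b / 2 : ℕ) : ℝ)) (C := z ^ 2 * N * ((b / 2 : ℕ) : ℝ))
    (by ring) (by ring) hA1 hC1

end Reduction

end Crest.Agent.S0222Lib.FRCore.DX
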