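import Crest.Agent.S0222Lib.FRCore

/-!
# S0222, first-row bound: moments, level decomposition, tensor form

* `Km k T`: the ordered moment operator `∑_{(e₁..e_k) distinct in T} U_{e₁}..U_{e_k} D_{e_k}..D_{e₁}`;
* `Km_lev`: on `Lev r T`, `Km k T ≥ coP r G k`, `G = N - 2t + r + 1`,
  `coP r G k = (r)_k G (G+1) ... (G+k-1)`;
* `Z_lev_le`: an operator commuting with the `U`,`D` and bounded by `θ` on pure levels is bounded
  by `θ (t - r)` on `Lev r T`;
* `Pj r T`: orthogonal projection on `Lev r T`, `sum_Pj`: they sum to the identity on `VT T`;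
* `tensor` statements: for a matrix `Ξ` with columns in `VT T` and rows in `VT T'`, with
  `π r r' = ‖P_r Ξ P_r'‖²`, three facts: total mass, upper bound for `Z ⊗ Z`, lower bound for moments.
-/

set_option autoImplicit false
set_option linter.unusedSectionVars false
set_option linter.unusedVariables false

namespace Crest.Agent.S0222Lib.FRCore

open Finset Function Matrix

variable {X Tok : Type*} [Fintype X] [DecidableEq X] [Fintype Tok] [DecidableEq Tok]

/-! ### Moments -/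

/-- The ordered moment operator. -/
def Km : ℕ → Finset Tok → Vs X Tok →ₗ[ℝ] Vs X Tok
  | 0, _ => LinearMap.id
  | k + 1, T => ∑ e ∈ T, (Uop e) ∘ₗ (Km k (T.erase e)) ∘ₗ (Dop e)

lemma Km_zero (T : Finset Tok) (f : Vs X Tok) : Km 0 T f = f := rfl

lemma Km_succ_apply (k : ℕ) (T : Finset Tok) (f : Vs X Tok) :
    Km (k + 1) T f = ∑ e ∈ T, Uop e (Km k (T.erase e) (Dop e f)) := by
  simp [Km, LinearMap.sum_apply]

lemma ip_Km_succ (k : ℕ) (T : Finset Tok) (f g : Vs X Tok) :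
    ip f (Km (k + 1) T g) = ∑ e ∈ T, ip (Dop e f) (Km k (T.erase e) (Dop e g)) := by
  rw [Km_succ_apply, ip_sum_right]
  exact Finset.sum_congr rfl fun e _ => (ip_Dop _ _ _).symm

lemma Km_symm (k : ℕ) (T : Finset Tok) (f g : Vs X Tok) :
    ip (Km k T f) g = ip f (Km k T g) := by
  induction k generalizing T f g with
  | zero => rfl
  | succ k ih =>
    rw [ip_comm, ip_Km_succ, ip_Km_succ]
    refine Finset.sum_congr rfl fun e _ => ?_
    rw [ip_comm, ih]

lemma Km_nonneg (k : ℕ) (T : Finset Tok) (f : Vs X Tok) : 0 ≤ ip f (Km k T f) := by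
  induction k generalizing T f with
  | zero => exact ip_self_nonneg f
  | succ k ih =>
    rw [ip_Km_succ]
    exact Finset.sum_nonneg fun e _ => ih _ _

/-- `(r)_k G(G+1)...(G+k-1)`. -/
noncomputable def coP : ℕ → ℝ → ℕ → ℝ
  | _, _, 0 => 1
  | 0, _, _ + 1 => 0
  | r + 1, G, k + 1 => ((r : ℝ) + 1) * G * coP r (G + 1) k

/-- The equation lemmas of `coP` are generated here, once. -/
theorem coP_eqns_here : True := by
  have _ := @coP.eq_def
  have _ := @coP.eq_1
  have _ := @coP.eq_2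
  have _ := @coP.eq_3
  trivial

lemma coP_zero (r : ℕ) (G : ℝ) : coP r G 0 = 1 := by cases r <;> rfl

lemma coP_nonneg (r : ℕ) {G : ℝ} (hG : 0 ≤ G) (k : ℕ) : 0 ≤ coP r G k := by
  induction k generalizing r G with
  | zero => rw [coP_zero]; exact zero_le_one
  | succ k ih =>
    cases r with
    | zero => exact le_rfl
    | succ r =>
      show 0 ≤ ((r : ℝ) + 1) * G * coP r (G + 1) k
      have h1 := ih r (G := G + 1) (by linarith)
      positivity

/-- The parameter `G = N - t - j + 1` with `j = t - r`. -/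
noncomputable def Gv (N : ℝ) (r t : ℕ) : ℝ := N - 2 * t + r + 1

lemma Gv_erase (N : ℝ) (r : ℕ) {T : Finset Tok} {e : Tok} (he : e ∈ T) :
    Gv N r (T.erase e).card = Gv N (r + 1) T.card + 1 := by
  unfold Gv
  rw [Finset.card_erase_of_mem he]
  have : 1 ≤ T.card := Finset.card_pos.2 ⟨e, he⟩
  rw [Nat.cast_sub this]
  push_cast
  ring

lemma sum_self_eq_L1 {T : Finset Tok} {z : Vs X Tok} (hz : z ∈ VT T) :
    ∑ e ∈ T, ip (Dop e z) (Dop e z) = ip z (L1 z) := by
  rw [ip_L1]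
  exact Finset.sum_subset (Finset.subset_univ T) fun e _ he => by
    rw [Dop_kill hz he]; exact ip_zero_left _

/-- **The iterated moment bound on a level.** -/
theorem Km_lev (k : ℕ) : ∀ (r : ℕ) (T : Finset Tok) (z : Vs X Tok), z ∈ Lev r T →
    0 ≤ Gv (Fintype.card X : ℝ) r T.card →
    coP r (Gv (Fintype.card X : ℝ) r T.card) k * ip z z ≤ ip z (Km k T z) := by
  induction k with
  | zero =>
    intro r T z _ _
    rw [coP_zero, one_mul]
    exact le_of_eq rfl
  | succ k ih =>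
    intro r T z hz hG
    cases r with
    | zero =>
      have : coP 0 (Gv (Fintype.card X : ℝ) 0 T.card) (k + 1) = 0 := rfl
      rw [this, zero_mul]
      exact Km_nonneg _ _ _
    | succ r =>
      set N : ℝ := (Fintype.card X : ℝ) with hN
      set G : ℝ := Gv N (r + 1) T.card with hGdef
      have hzV : z ∈ VT T := Lev_le_VT _ _ hz
      rw [ip_Km_succ]
      have h1 : ∀ e ∈ T, coP r (G + 1) k * ip (Dop e z) (Dop e z)
          ≤ ip (Dop e z) (Km k (T.erase e) (Dop e z)) := by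
        intro e he
        have := ih r (T.erase e) (Dop e z) (Dop_Lev he hz)
          (by rw [Gv_erase _ _ he]; linarith)
        rwa [Gv_erase _ _ he] at this
      refine le_trans ?_ (Finset.sum_le_sum h1)
      rw [← Finset.mul_sum, sum_self_eq_L1 hzV]
      have h2 := L1_spec (r + 1) T z hz
      have h3 : aval N (r + 1) T.card = ((r : ℝ) + 1) * G := by
        simp only [aval, hGdef, Gv]
        push_cast
        ring
      rw [h3] at h2
      have h4 : 0 ≤ coP r (G + 1) k := coP_nonneg r (by linarith) k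
      have h5 : coP (r + 1) G (k + 1) = ((r : ℝ) + 1) * G * coP r (G + 1) k := rfl
      rw [h5]
      calc ((r : ℝ) + 1) * G * coP r (G + 1) k * ip z z
          = coP r (G + 1) k * (((r : ℝ) + 1) * G * ip z z) := by ring
        _ ≤ _ := mul_le_mul_of_nonneg_left h2 h4

/-- Moment operators do not mix levels. -/
theorem Km_cross (k : ℕ) : ∀ (r r' : ℕ) (T : Finset Tok) (z z' : Vs X Tok), r ≠ r' →
    z ∈ Lev r T → z' ∈ Lev r' T → ip z (Km k T z') = 0 := by
  induction k with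
  | zero =>
    intro r r' T z z' hne hz hz'
    rw [Km_zero]
    rcases lt_or_gt_of_ne hne with h | h
    · exact Lev_orth h hz hz'
    · rw [ip_comm]; exact Lev_orth h hz' hz
  | succ k ih =>
    intro r r' T z z' hne hz hz'
    rw [ip_Km_succ]
    refine Finset.sum_eq_zero fun e he => ?_
    cases r with
    | zero => rw [Dop_Lev_zero hz e]; exact ip_zero_left _
    | succ a =>
      cases r' with
      | zero => rw [Dop_Lev_zero hz' e, map_zero]; exact ip_zero_right _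
      | succ b =>
        exact ih a b _ _ _ (fun h => hne (by omega)) (Dop_Lev he hz) (Dop_Lev he hz')

/-! ### Operators commuting with `U`, `D` on levels -/

section ZBound

variable (Z : Vs X Tok →ₗ[ℝ] Vs X Tok)
  (hsym : ∀ f g, ip (Z f) g = ip f (Z g))
  (hU : ∀ i f, Z (Uop i f) = Uop i (Z f))
  (hD : ∀ i f, Z (Dop i f) = Dop i (Z f))
  (hT : ∀ (T : Finset Tok) f, f ∈ VT T → Z f ∈ VT T)

include hsym hU hT in
theorem Z_Lev {r : ℕ} {T : Finset Tok} {z : Vs X Tok} (hz : z ∈ Lev r T) : Z z ∈ Lev r T := by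
  refine ⟨Fr_map_of_comm Z hU hT r T z hz.1, fun y hy => ?_⟩
  rw [hsym]
  exact hz.2 _ (Fr_map_of_comm Z hU hT _ T y hy)

include hsym hU hD hT in
/-- An operator bounded by `θ` on the pure levels is bounded by `θ (t - r)` on `Lev r T`. -/
theorem Z_lev_le (θ : ℕ → ℝ)
    (hθ : ∀ (T : Finset Tok) (f : Vs X Tok), f ∈ VT T → (∀ e, Dop e f = 0) →
      ip f (Z f) ≤ θ T.card * ip f f)
    (r : ℕ) : ∀ (T : Finset Tok) (z : Vs X Tok), z ∈ Lev r T →
      ip z (Z z) ≤ θ (T.card - r) * ip z z := by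
  induction r with
  | zero =>
    intro T z hz
    exact hθ T z (Lev_le_VT _ _ hz) (Dop_Lev_zero hz)
  | succ r ih =>
    intro T
    refine le_of_eigen (Lev (r + 1) T) Z hsym (fun z hz => Z_Lev Z hsym hU hT hz) _ ?_
    intro z hz hz0 μ hμ
    have hex : ∃ e ∈ T, Dop e z ≠ 0 := by
      by_contra hc
      push Not at hc
      exact hz0 (Lev_eq_zero hz hc)
    obtain ⟨e, he, hy⟩ := hex
    have hyL := Dop_Lev he hz
    have hZy : Z (Dop e z) = μ • Dop e z := by rw [hD, hμ, map_smul]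
    have h1 := ih (T.erase e) (Dop e z) hyL
    rw [hZy, ip_smul_right, Finset.card_erase_of_mem he] at h1
    have hpos : 0 < ip (Dop e z) (Dop e z) :=
      lt_of_le_of_ne (ip_self_nonneg _) fun h => hy (ip_self_eq_zero.1 h.symm)
    have h2 : μ ≤ θ (T.card - 1 - r) := le_of_mul_le_mul_right h1 hpos
    have h3 : T.card - 1 - r = T.card - (r + 1) := by omega
    rwa [h3] at h2

end ZBound

/-! ### Orthogonal projections -/

section Proj

variable {ι : Type*} [Fintype ι]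

theorem exists_proj (S : Submodule ℝ (ι → ℝ)) :
    ∃ P : (ι → ℝ) →ₗ[ℝ] (ι → ℝ), (∀ f, P f ∈ S) ∧ (∀ f ∈ S, P f = f) ∧
      (∀ f g, ip (P f) g = ip f (P g)) := by
  classical
  let E := EuclideanSpace ℝ ι
  let φ : E ≃ₗ[ℝ] (ι → ℝ) := WithLp.linearEquiv 2 ℝ (ι → ℝ)
  have hip : ∀ x y : E, inner ℝ x y = ip (φ x) (φ y) := by
    intro x y
    rw [PiLp.inner_apply]
    unfold ip
    refine Finset.sum_congr rfl fun i _ => ?_
    simp only [RCLike.inner_apply, conj_trivial]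
    exact mul_comm _ _
  let S' : Submodule ℝ E := S.comap φ.toLinearMap
  let Q : E →L[ℝ] E := S'.starProjection
  let P : (ι → ℝ) →ₗ[ℝ] (ι → ℝ) := φ.toLinearMap ∘ₗ Q.toLinearMap ∘ₗ φ.symm.toLinearMap
  have hPφ : ∀ f, φ.symm (P f) = Q (φ.symm f) := fun f => by simp [P]
  refine ⟨P, fun f => ?_, fun f hf => ?_, fun f g => ?_⟩
  · have : Q (φ.symm f) ∈ S' := Submodule.starProjection_apply_mem _ _
    simpa [S', P] using this
  · have h1 : φ.symm f ∈ S' := by
      show φ (φ.symm f) ∈ S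
      simpa using hf
    have h2 : Q (φ.symm f) = φ.symm f := Submodule.starProjection_eq_self_iff.2 h1
    show φ (Q (φ.symm f)) = f
    rw [h2]; simp
  · have h1 : ∀ f g, ip f g = inner ℝ (φ.symm f) (φ.symm g) := fun f g => by
      rw [hip]; simp
    rw [h1, h1, hPφ, hPφ]
    exact Submodule.inner_starProjection_left_eq_right _ _ _

/-- The orthogonal projection on a subspace of functions. -/
noncomputable def proj (S : Submodule ℝ (ι → ℝ)) : (ι → ℝ) →ₗ[ℝ] (ι → ℝ) :=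
  Classical.choose (exists_proj S)

lemma proj_mem (S : Submodule ℝ (ι → ℝ)) (f : ι → ℝ) : proj S f ∈ S :=
  (Classical.choose_spec (exists_proj S)).1 f

lemma proj_fix {S : Submodule ℝ (ι → ℝ)} {f : ι → ℝ} (hf : f ∈ S) : proj S f = f :=
  (Classical.choose_spec (exists_proj S)).2.1 f hf

lemma proj_symm (S : Submodule ℝ (ι → ℝ)) (f g : ι → ℝ) : ip (proj S f) g = ip f (proj S g) :=
  (Classical.choose_spec (exists_proj S)).2.2 f g

lemma proj_idem (S : Submodule ℝ (ι → ℝ)) (f : ι → ℝ) : proj S (proj S f) = proj S f :=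
  proj_fix (proj_mem S f)

lemma ip_proj (S : Submodule ℝ (ι → ℝ)) (f : ι → ℝ) :
    ip (proj S f) (proj S f) = ip f (proj S f) := by
  rw [proj_symm, proj_idem]

/-- `proj S g = 0` when `g` is orthogonal to `S`. -/
lemma proj_eq_zero {S : Submodule ℝ (ι → ℝ)} {g : ι → ℝ} (h : ∀ y ∈ S, ip y g = 0) : proj S g = 0 := by
  have h1 := ip_proj S g
  rw [ip_comm g, h _ (proj_mem S g)] at h1
  exact ip_self_eq_zero.1 h1

end Proj

/-- The projection on the level `Lev r T`. -/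
noncomputable def Pj (r : ℕ) (T : Finset Tok) : Vs X Tok →ₗ[ℝ] Vs X Tok := proj (Lev r T)

lemma Pj_mem (r : ℕ) (T : Finset Tok) (f : Vs X Tok) : Pj r T f ∈ Lev r T := proj_mem _ _
lemma Pj_symm (r : ℕ) (T : Finset Tok) (f g : Vs X Tok) : ip (Pj r T f) g = ip f (Pj r T g) :=
  proj_symm _ _ _
lemma Pj_idem (r : ℕ) (T : Finset Tok) (f : Vs X Tok) : Pj r T (Pj r T f) = Pj r T f :=
  proj_idem _ _

lemma Pj_Fr {r : ℕ} {T : Finset Tok} {g : Vs X Tok}
    (hg : g ∈ (Fr (r + 1) T : Submodule ℝ (Vs X Tok))) : Pj r T g = 0 :=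
  proj_eq_zero fun y hy => hy.2 g hg

lemma Pj_Lev_ne {r r' : ℕ} (h : r ≠ r') {T : Finset Tok} {z : Vs X Tok} (hz : z ∈ Lev r' T) :
    Pj r T z = 0 := by
  refine proj_eq_zero fun y hy => ?_
  rcases lt_or_gt_of_ne h with h1 | h1
  · exact Lev_orth h1 hy hz
  · rw [ip_comm]; exact Lev_orth h1 hz hy

/-- The levels exhaust `Fr R T`. -/
theorem sum_Pj_aux (T : Finset Tok) (d : ℕ) : ∀ (R : ℕ), R + d = T.card + 1 →
    ∀ f ∈ (Fr R T : Submodule ℝ (Vs X Tok)), ∑ r ∈ Finset.Ico R (T.card + 1), Pj r T f = f := by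
  induction d with
  | zero =>
    intro R hR f hf
    have hR' : R = T.card + 1 := by omega
    subst hR'
    rw [Fr_bot T.card T le_rfl] at hf
    have : f = 0 := (Submodule.mem_bot ℝ).1 hf
    simp [this]
  | succ d ih =>
    intro R hR f hf
    have hRle : R < T.card + 1 := by omega
    set z := Pj R T f with hz
    have hzL : z ∈ Lev R T := Pj_mem _ _ _
    set y := f - z with hy
    have hyF : y ∈ (Fr R T : Submodule ℝ (Vs X Tok)) := Submodule.sub_mem _ hf hzL.1
    -- `y` lies in the next step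
    have hy1 : y ∈ (Fr (R + 1) T : Submodule ℝ (Vs X Tok)) := by
      set q := proj (Fr (R + 1) T : Submodule ℝ (Vs X Tok)) y with hq
      have hqF : q ∈ (Fr (R + 1) T : Submodule ℝ (Vs X Tok)) := proj_mem _ _
      have hd : y - q ∈ Lev R T := by
        refine ⟨Submodule.sub_mem _ hyF (Fr_succ_le _ _ hqF), fun g hg => ?_⟩
        have : proj (Fr (R + 1) T : Submodule ℝ (Vs X Tok)) g = g := proj_fix hg
        rw [ip_sub_left, hq, proj_symm, this, sub_self]
      have h1 : Pj R T (y - q) = y - q := proj_fix hd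
      have h2 : Pj R T y = 0 := by
        rw [hy, map_sub, hz, Pj_idem, sub_self]
      have h3 : Pj R T q = 0 := Pj_Fr hqF
      rw [map_sub, h2, h3, sub_zero] at h1
      have h4 : y = q := sub_eq_zero.1 h1.symm
      rw [h4]
      exact hqF
    have hsplit : Finset.Ico R (T.card + 1) = insert R (Finset.Ico (R + 1) (T.card + 1)) := by
      ext a
      simp only [Finset.mem_Ico, Finset.mem_insert]
      omega
    rw [hsplit, Finset.sum_insert (by simp)]
    have h5 : ∑ r ∈ Finset.Ico (R + 1) (T.card + 1), Pj r T f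
        = ∑ r ∈ Finset.Ico (R + 1) (T.card + 1), Pj r T y := by
      refine Finset.sum_congr rfl fun r hr => ?_
      have hr1 : R < r := (Finset.mem_Ico.1 hr).1
      have : f = y + z := by rw [hy]; abel
      rw [this, map_add, Pj_Lev_ne hr1.ne' hzL, add_zero]
    rw [h5, ih (R + 1) (by omega) y hy1, hy, ← hz]
    abel

/-- **The levels exhaust `VT T`.** -/
theorem sum_Pj {T : Finset Tok} {f : Vs X Tok} (hf : f ∈ VT T) :
    ∑ r ∈ Finset.range (T.card + 1), Pj r T f = f := by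
  rw [Finset.range_eq_Ico]
  exact sum_Pj_aux T (T.card + 1) 0 (by omega) f (show f ∈ (Fr 0 T : Submodule ℝ (Vs X Tok)) from hf)

/-- Pythagoras on levels. -/
theorem ip_eq_sum_Pj {T : Finset Tok} {f : Vs X Tok} (hf : f ∈ VT T) :
    ip f f = ∑ r ∈ Finset.range (T.card + 1), ip (Pj r T f) (Pj r T f) := by
  have h1 : ip f f = ip (∑ r ∈ Finset.range (T.card + 1), Pj r T f) f := by rw [sum_Pj hf]
  rw [h1, ip_sum_left]
  refine Finset.sum_congr rfl fun r _ => ?_
  rw [Pj_symm r T f (Pj r T f), Pj_idem]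
  exact ip_comm _ _

/-- A quadratic form preserving levels only sees the diagonal. -/
theorem ip_sum_levels {T : Finset Tok} (A : Vs X Tok →ₗ[ℝ] Vs X Tok)
    (hA : ∀ r r' (z z' : Vs X Tok), r ≠ r' → z ∈ Lev r T → z' ∈ Lev r' T → ip z (A z') = 0)
    {f : Vs X Tok} (hf : f ∈ VT T) :
    ip f (A f) = ∑ r ∈ Finset.range (T.card + 1), ip (Pj r T f) (A (Pj r T f)) := by
  have h1 : ip f (A f) = ip (∑ r ∈ Finset.range (T.card + 1), Pj r T f)
      (A (∑ r ∈ Finset.range (T.card + 1), Pj r T f)) := by rw [sum_Pj hf]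
  rw [h1, map_sum, ip_sum_left]
  refine Finset.sum_congr rfl fun r hr => ?_
  rw [ip_sum_right]
  rw [Finset.sum_eq_single r]
  · intro r' _ hne
    exact hA r r' _ _ hne.symm (Pj_mem _ _ _) (Pj_mem _ _ _)
  · intro h; exact absurd hr h

/-! ### Decomposition of the quadratic forms -/

/-- The coefficient of the moment bound on a level, with the convention that for `G < 0` only the
zeroth moment counts. -/
noncomputable def coL (k r : ℕ) (G : ℝ) : ℝ :=
  if 0 ≤ G then coP r G k else if k = 0 then 1 else 0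

/-- The equation lemma of `coL` is generated here, once. -/
theorem coL_eqns_here : True := by
  have _ := @coL.eq_1
  trivial

lemma coL_nonneg (k r : ℕ) (G : ℝ) : 0 ≤ coL k r G := by
  unfold coL
  split_ifs with h1 h2
  · exact coP_nonneg r h1 k
  · exact zero_le_one
  · exact le_rfl

/-- Moments against levels, for a general function on `T`-words. -/
theorem Km_decomp (k : ℕ) {T : Finset Tok} {f : Vs X Tok} (hf : f ∈ VT T) :
    ∑ r ∈ Finset.range (T.card + 1),
        coL k r (Gv (Fintype.card X : ℝ) r T.card) * ip (Pj r T f) (Pj r T f)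
      ≤ ip f (Km k T f) := by
  rw [ip_sum_levels (Km k T) (fun r r' z z' hne hz hz' => Km_cross k r r' T z z' hne hz hz') hf]
  refine Finset.sum_le_sum fun r _ => ?_
  unfold coL
  split_ifs with h1 h2
  · exact Km_lev k r T _ (Pj_mem _ _ _) h1
  · subst h2
    rw [one_mul]
    exact le_of_eq rfl
  · rw [zero_mul]
    exact Km_nonneg _ _ _

/-- Upper bound of `Z` against levels. -/
theorem Z_decomp (Z : Vs X Tok →ₗ[ℝ] Vs X Tok)
    (hsym : ∀ f g, ip (Z f) g = ip f (Z g))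
    (hU : ∀ i f, Z (Uop i f) = Uop i (Z f))
    (hD : ∀ i f, Z (Dop i f) = Dop i (Z f))
    (hT : ∀ (T : Finset Tok) f, f ∈ VT T → Z f ∈ VT T)
    (θ : ℕ → ℝ)
    (hθ : ∀ (T : Finset Tok) (f : Vs X Tok), f ∈ VT T → (∀ e, Dop e f = 0) →
      ip f (Z f) ≤ θ T.card * ip f f)
    {T : Finset Tok} {f : Vs X Tok} (hf : f ∈ VT T) :
    ip f (Z f) ≤ ∑ r ∈ Finset.range (T.card + 1),
      θ (T.card - r) * ip (Pj r T f) (Pj r T f) := by
  rw [ip_sum_levels Z (fun r r' z z' hne hz hz' => by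
    have hz2 := Z_Lev Z hsym hU hT hz'
    rcases lt_or_gt_of_ne hne with h | h
    · exact Lev_orth h hz hz2
    · rw [ip_comm]; exact Lev_orth h hz2 hz) hf]
  exact Finset.sum_le_sum fun r _ => Z_lev_le Z hsym hU hD hT θ hθ r T _ (Pj_mem _ _ _)

/-! ### The tensor form -/

section Tensor

variable {ι κ : Type*} [Fintype ι] [Fintype κ] [DecidableEq ι] [DecidableEq κ]

/-- Frobenius inner product. -/
def fro (M N : Matrix ι κ ℝ) : ℝ := Matrix.trace (Mᵀ * N)

lemma fro_apply (M N : Matrix ι κ ℝ) : fro M N = ∑ b, ∑ a, M a b * N a b := by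
  simp [fro, Matrix.trace, Matrix.mul_apply]

lemma fro_comm (M N : Matrix ι κ ℝ) : fro M N = fro N M := by
  simp only [fro_apply, mul_comm]

lemma fro_self_nonneg (M : Matrix ι κ ℝ) : 0 ≤ fro M M := by
  rw [fro_apply]
  exact Finset.sum_nonneg fun _ _ => Finset.sum_nonneg fun _ _ => mul_self_nonneg _

lemma fro_mul_left (A : Matrix ι ι ℝ) (M N : Matrix ι κ ℝ) : fro (A * M) N = fro M (Aᵀ * N) := by
  simp only [fro, Matrix.transpose_mul, Matrix.mul_assoc]

lemma fro_mul_right (B : Matrix κ κ ℝ) (M N : Matrix ι κ ℝ) : fro (M * B) N = fro M (N * Bᵀ) := by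
  simp only [fro, Matrix.transpose_mul, Matrix.mul_assoc]
  rw [Matrix.trace_mul_comm, Matrix.mul_assoc]

lemma fro_add_right (M N N' : Matrix ι κ ℝ) : fro M (N + N') = fro M N + fro M N' := by
  simp [fro, Matrix.mul_add, Matrix.trace_add]

lemma fro_smul_right (c : ℝ) (M N : Matrix ι κ ℝ) : fro M (c • N) = c * fro M N := by
  simp [fro, Matrix.mul_smul, Matrix.trace_smul]

lemma fro_sum_right {α : Type*} (s : Finset α) (M : Matrix ι κ ℝ) (N : α → Matrix ι κ ℝ) :
    fro M (∑ i ∈ s, N i) = ∑ i ∈ s, fro M (N i) := by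
  simp [fro, Matrix.mul_sum, Matrix.trace_sum]

/-- The matrix of a linear map. -/
noncomputable abbrev mat (A : (ι → ℝ) →ₗ[ℝ] (ι → ℝ)) : Matrix ι ι ℝ := LinearMap.toMatrix' A

lemma mat_mul_apply (A : (ι → ℝ) →ₗ[ℝ] (ι → ℝ)) (M : Matrix ι κ ℝ) (a : ι) (b : κ) :
    (mat A * M) a b = A (fun c => M c b) a := by
  have h := congrFun (LinearMap.toMatrix'_mulVec A (fun c => M c b)) a
  rw [← h]
  simp [Matrix.mul_apply, Matrix.mulVec, dotProduct]

lemma transpose_mat_of_symm {A : (ι → ℝ) →ₗ[ℝ] (ι → ℝ)} (hA : ∀ f g, ip (A f) g = ip f (A g)) :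
    (mat A)ᵀ = mat A := by
  ext a c
  simp only [Matrix.transpose_apply, LinearMap.toMatrix'_apply]
  have h := hA (Pi.single a 1) (Pi.single c 1)
  simp only [ip, Pi.single_apply, mul_ite, mul_one, mul_zero, ite_mul, one_mul, zero_mul,
    Finset.sum_ite_eq', Finset.mem_univ, if_true] at h
  convert h using 2

lemma mul_mat_transpose_apply (B : (κ → ℝ) →ₗ[ℝ] (κ → ℝ)) (M : Matrix ι κ ℝ) (a : ι) (b : κ) :
    (M * (mat B)ᵀ) a b = B (M a) b := by
  have h := congrFun (LinearMap.toMatrix'_mulVec B (M a)) b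
  rw [← h]
  simp [Matrix.mul_apply, Matrix.mulVec, dotProduct, mul_comm]

/-- The quadratic form of `A` on the columns. -/
lemma fro_mat_col (A : (ι → ℝ) →ₗ[ℝ] (ι → ℝ)) (M : Matrix ι κ ℝ) :
    fro M (mat A * M) = ∑ b, ip (fun a => M a b) (A (fun a => M a b)) := by
  rw [fro_apply]
  refine Finset.sum_congr rfl fun b _ => ?_
  unfold ip
  exact Finset.sum_congr rfl fun a _ => by rw [mat_mul_apply]

/-- The quadratic form of `B` on the rows. -/
lemma fro_mat_row (B : (κ → ℝ) →ₗ[ℝ] (κ → ℝ)) (M : Matrix ι κ ℝ) :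
    fro M (M * (mat B)ᵀ) = ∑ a, ip (M a) (B (M a)) := by
  rw [fro_apply, Finset.sum_comm]
  refine Finset.sum_congr rfl fun a _ => ?_
  unfold ip
  exact Finset.sum_congr rfl fun b _ => by rw [mul_mat_transpose_apply]

open scoped MatrixOrder in
/-- A symmetric nonnegative operator is a square. -/
lemma mat_eq_square {A : (ι → ℝ) →ₗ[ℝ] (ι → ℝ)} (hsym : ∀ f g, ip (A f) g = ip f (A g))
    (hpos : ∀ f, 0 ≤ ip f (A f)) : ∃ R : Matrix ι ι ℝ, mat A = Rᵀ * R := by
  have hP : (mat A).PosSemidef := by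
    refine Matrix.PosSemidef.of_dotProduct_mulVec_nonneg ?_ ?_
    · have := transpose_mat_of_symm hsym
      ext a c
      have h2 := congrFun (congrFun this a) c
      simpa using h2
    · intro x
      have := hpos x
      rw [LinearMap.toMatrix'_mulVec]
      have h3 : star x ⬝ᵥ A x = ip x (A x) := by
        simp [dotProduct, ip]
      rw [h3]
      exact this
  have hc : (CFC.sqrt (mat A)).PosSemidef := (CFC.sqrt_nonneg (mat A)).posSemidef
  refine ⟨CFC.sqrt (mat A), ?_⟩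
  have h1 : (CFC.sqrt (mat A))ᵀ = CFC.sqrt (mat A) := by
    have := hc.isHermitian.eq
    ext a c
    have h2 := congrFun (congrFun this a) c
    simpa using h2
  rw [h1]
  exact (CFC.sqrt_mul_sqrt_self (mat A) hP.nonneg).symm

variable {Sl : Submodule ℝ (ι → ℝ)} {Sr : Submodule ℝ (κ → ℝ)}

/-- Multiplying on the right keeps the columns in a subspace. -/
lemma col_mul_mem (Ξ : Matrix ι κ ℝ) (hcol : ∀ b, (fun a => Ξ a b) ∈ Sl) (R : Matrix κ κ ℝ) (b : κ) :
    (fun a => (Ξ * R) a b) ∈ Sl := by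
  have : (fun a => (Ξ * R) a b) = ∑ c, R c b • (fun a => Ξ a c) := by
    funext a
    simp [Matrix.mul_apply, Finset.sum_apply, mul_comm]
  rw [this]
  exact Submodule.sum_mem _ fun c _ => Submodule.smul_mem _ _ (hcol c)

/-- Multiplying on the left keeps the rows in a subspace. -/
lemma row_mul_mem (Ξ : Matrix ι κ ℝ) (hrow : ∀ a, Ξ a ∈ Sr) (S : Matrix ι ι ℝ) (a : ι) :
    (S * Ξ) a ∈ Sr := by
  have : (S * Ξ) a = ∑ c, S a c • Ξ c := by
    funext b
    simp [Matrix.mul_apply, Finset.sum_apply]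
  rw [this]
  exact Submodule.sum_mem _ fun c _ => Submodule.smul_mem _ _ (hrow c)

/-- The monotonicity of `fro Ξ (A Ξ Bᵀ)` in `A`, `B` on the subspaces containing the columns and
the rows of `Ξ`. -/
theorem fro_mono (A A₂ : (ι → ℝ) →ₗ[ℝ] (ι → ℝ)) (B B₂ : (κ → ℝ) →ₗ[ℝ] (κ → ℝ))
    (hA₂s : ∀ f g, ip (A₂ f) g = ip f (A₂ g)) (hA₂p : ∀ f, 0 ≤ ip f (A₂ f))
    (hBs : ∀ f g, ip (B f) g = ip f (B g)) (hBp : ∀ f, 0 ≤ ip f (B f))
    (hAA : ∀ f ∈ Sl, ip f (A f) ≤ ip f (A₂ f)) (hBB : ∀ f ∈ Sr, ip f (B f) ≤ ip f (B₂ f))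
    (Ξ : Matrix ι κ ℝ) (hcol : ∀ b, (fun a => Ξ a b) ∈ Sl) (hrow : ∀ a, Ξ a ∈ Sr) :
    fro Ξ (mat A * Ξ * (mat B)ᵀ) ≤ fro Ξ (mat A₂ * Ξ * (mat B₂)ᵀ) := by
  obtain ⟨R, hR⟩ := mat_eq_square hBs hBp
  obtain ⟨S, hS⟩ := mat_eq_square hA₂s hA₂p
  have hBT : (mat B)ᵀ = Rᵀ * R := by rw [transpose_mat_of_symm hBs, hR]
  have step1 : fro Ξ (mat A * Ξ * (mat B)ᵀ) ≤ fro Ξ (mat A₂ * Ξ * (mat B)ᵀ) := by
    have h : ∀ C : (ι → ℝ) →ₗ[ℝ] (ι → ℝ),
        fro Ξ (mat C * Ξ * (mat B)ᵀ) = fro (Ξ * Rᵀ) (mat C * (Ξ * Rᵀ)) := by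
      intro C
      rw [fro_mul_right, Matrix.transpose_transpose, hBT]
      simp only [Matrix.mul_assoc]
    rw [h A, h A₂, fro_mat_col, fro_mat_col]
    exact Finset.sum_le_sum fun b _ => hAA _ (col_mul_mem Ξ hcol _ b)
  refine step1.trans ?_
  have h : ∀ C : (κ → ℝ) →ₗ[ℝ] (κ → ℝ),
      fro Ξ (mat A₂ * Ξ * (mat C)ᵀ) = fro (S * Ξ) (S * Ξ * (mat C)ᵀ) := by
    intro C
    rw [fro_mul_left, hS]
    simp only [Matrix.mul_assoc]
  rw [h B, h B₂, fro_mat_row, fro_mat_row]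
  exact Finset.sum_le_sum fun a _ => hBB _ (row_mul_mem Ξ hrow _ a)

end Tensor

section TensorLevels

variable {Y : Type*} [Fintype Y] [DecidableEq Y]

/-- The matrix of the projection on a level. -/
noncomputable abbrev PL (r : ℕ) (T : Finset Tok) : Matrix (X → Option Tok) (X → Option Tok) ℝ :=
  mat (Pj (X := X) r T)

/-- The mass of `Ξ` on a pair of levels. -/
noncomputable def piM (T T' : Finset Tok) (Ξ : Matrix (X → Option Tok) (Y → Option Tok) ℝ) (r r' : ℕ) : ℝ :=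
  fro (PL (X := X) r T * Ξ * (PL (X := Y) r' T')ᵀ) (PL (X := X) r T * Ξ * (PL (X := Y) r' T')ᵀ)

lemma piM_nonneg (T T' : Finset Tok) (Ξ : Matrix (X → Option Tok) (Y → Option Tok) ℝ) (r r' : ℕ) :
    0 ≤ piM T T' Ξ r r' := fro_self_nonneg _

lemma PL_symm (r : ℕ) (T : Finset Tok) : (PL (X := X) r T)ᵀ = PL r T :=
  transpose_mat_of_symm (Pj_symm r T)

lemma PL_idem (r : ℕ) (T : Finset Tok) : PL (X := X) r T * PL r T = PL r T := by
  unfold PL mat
  rw [← LinearMap.toMatrix'_comp]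
  congr 1
  exact LinearMap.ext fun f => Pj_idem r T f

lemma piM_eq (T T' : Finset Tok) (Ξ : Matrix (X → Option Tok) (Y → Option Tok) ℝ) (r r' : ℕ) :
    piM T T' Ξ r r' = fro Ξ (PL (X := X) r T * Ξ * (PL (X := Y) r' T')ᵀ) := by
  unfold piM
  rw [fro_mul_right, fro_mul_left]
  simp only [PL_symm]
  have h1 : PL (X := X) r T * (PL (X := X) r T * Ξ * PL (X := Y) r' T' * PL (X := Y) r' T')
      = (PL (X := X) r T * PL (X := X) r T) * Ξ * (PL (X := Y) r' T' * PL (X := Y) r' T') := by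
    simp only [Matrix.mul_assoc]
  rw [h1, PL_idem, PL_idem]

/-- The combination `∑ α_r P_r`. -/
noncomputable def combo (α : ℕ → ℝ) (T : Finset Tok) : Vs X Tok →ₗ[ℝ] Vs X Tok :=
  ∑ r ∈ Finset.range (T.card + 1), α r • Pj r T

lemma combo_apply (α : ℕ → ℝ) (T : Finset Tok) (f : Vs X Tok) :
    combo α T f = ∑ r ∈ Finset.range (T.card + 1), α r • Pj r T f := by
  simp [combo, LinearMap.sum_apply]

lemma combo_symm (α : ℕ → ℝ) (T : Finset Tok) (f g : Vs X Tok) :
    ip (combo α T f) g = ip f (combo α T g) := by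
  rw [combo_apply, combo_apply, ip_sum_left, ip_sum_right]
  refine Finset.sum_congr rfl fun r _ => ?_
  rw [ip_smul_left, ip_smul_right, Pj_symm]

lemma ip_combo (α : ℕ → ℝ) (T : Finset Tok) (f : Vs X Tok) :
    ip f (combo α T f) = ∑ r ∈ Finset.range (T.card + 1), α r * ip (Pj r T f) (Pj r T f) := by
  rw [combo_apply, ip_sum_right]
  refine Finset.sum_congr rfl fun r _ => ?_
  rw [ip_smul_right, Pj_symm r T f (Pj r T f), Pj_idem]

lemma combo_nonneg {α : ℕ → ℝ} (hα : ∀ r, 0 ≤ α r) (T : Finset Tok) (f : Vs X Tok) :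
    0 ≤ ip f (combo α T f) := by
  rw [ip_combo]
  exact Finset.sum_nonneg fun r _ => mul_nonneg (hα r) (ip_self_nonneg _)

lemma mat_combo (α : ℕ → ℝ) (T : Finset Tok) :
    mat (combo (X := X) α T) = ∑ r ∈ Finset.range (T.card + 1), α r • PL (X := X) r T := by
  unfold combo PL mat
  simp only [map_sum, map_smul]

/-- Expansion of the combination in the `π`. -/
theorem fro_combo (α β : ℕ → ℝ) (T T' : Finset Tok) (Ξ : Matrix (X → Option Tok) (Y → Option Tok) ℝ) :
    fro Ξ (mat (combo (X := X) α T) * Ξ * (mat (combo (X := Y) β T'))ᵀ)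
      = ∑ r ∈ Finset.range (T.card + 1), ∑ r' ∈ Finset.range (T'.card + 1),
          α r * β r' * piM T T' Ξ r r' := by
  rw [mat_combo, mat_combo, Matrix.transpose_sum]
  have h : (∑ r ∈ Finset.range (T.card + 1), α r • PL (X := X) r T) * Ξ
        * (∑ r' ∈ Finset.range (T'.card + 1), (β r' • PL (X := Y) r' T')ᵀ)
      = ∑ r ∈ Finset.range (T.card + 1), ∑ r' ∈ Finset.range (T'.card + 1),
          (α r * β r') • (PL (X := X) r T * Ξ * (PL (X := Y) r' T')ᵀ) := by
    rw [Matrix.sum_mul, Matrix.sum_mul]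
    refine Finset.sum_congr rfl fun r _ => ?_
    rw [Matrix.mul_sum]
    refine Finset.sum_congr rfl fun r' _ => ?_
    rw [Matrix.transpose_smul, Matrix.smul_mul, Matrix.smul_mul, Matrix.mul_smul, smul_smul]
  rw [h, fro_sum_right]
  refine Finset.sum_congr rfl fun r _ => ?_
  rw [fro_sum_right]
  refine Finset.sum_congr rfl fun r' _ => ?_
  rw [fro_smul_right, piM_eq]

/-- Columns in `VT T`: the levels act as the identity on the left. -/
lemma mat_combo_one_mul {T : Finset Tok} {κ : Type*} [Fintype κ] [DecidableEq κ] (M : Matrix (X → Option Tok) κ ℝ)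
    (hcol : ∀ b, (fun a => M a b) ∈ (VT T : Submodule ℝ (Vs X Tok))) :
    mat (combo (X := X) (fun _ => 1) T) * M = M := by
  ext a b
  rw [mat_mul_apply, combo_apply]
  have := sum_Pj (hcol b)
  simp only [one_smul]
  rw [this]

/-- Rows in `VT T'`: the levels act as the identity on the right. -/
lemma mul_mat_combo_one {T' : Finset Tok} {κ : Type*} [Fintype κ] [DecidableEq κ] (M : Matrix κ (Y → Option Tok) ℝ)
    (hrow : ∀ a, M a ∈ (VT T' : Submodule ℝ (Vs Y Tok))) :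
    M * (mat (combo (X := Y) (fun _ => 1) T'))ᵀ = M := by
  ext a b
  rw [mul_mat_transpose_apply, combo_apply]
  have := sum_Pj (hrow a)
  simp only [one_smul]
  rw [this]

/-- **Total mass.** -/
theorem tensor_mass {T T' : Finset Tok} {Ξ : Matrix (X → Option Tok) (Y → Option Tok) ℝ}
    (hcol : ∀ b, (fun a => Ξ a b) ∈ (VT T : Submodule ℝ (Vs X Tok)))
    (hrow : ∀ a, Ξ a ∈ (VT T' : Submodule ℝ (Vs Y Tok))) :
    fro Ξ Ξ = ∑ r ∈ Finset.range (T.card + 1), ∑ r' ∈ Finset.range (T'.card + 1),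
      piM T T' Ξ r r' := by
  have h := fro_combo (X := X) (Y := Y) (fun _ => 1) (fun _ => 1) T T' Ξ
  rw [mat_combo_one_mul _ hcol, mul_mat_combo_one _ hrow] at h
  simpa using h

/-- **The moments bound the `π` from above.** -/
theorem tensor_moment (k k' : ℕ) {T T' : Finset Tok} {Ξ : Matrix (X → Option Tok) (Y → Option Tok) ℝ}
    (hcol : ∀ b, (fun a => Ξ a b) ∈ (VT T : Submodule ℝ (Vs X Tok)))
    (hrow : ∀ a, Ξ a ∈ (VT T' : Submodule ℝ (Vs Y Tok))) :
    ∑ r ∈ Finset.range (T.card + 1), ∑ r' ∈ Finset.range (T'.card + 1),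
        coL k r (Gv (Fintype.card X : ℝ) r T.card) * coL k' r' (Gv (Fintype.card Y : ℝ) r' T'.card)
          * piM T T' Ξ r r'
      ≤ fro Ξ (mat (Km (X := X) k T) * Ξ * (mat (Km (X := Y) k' T'))ᵀ) := by
  rw [← fro_combo]
  refine fro_mono (Sl := VT T) (Sr := VT T') _ _ _ _ (Km_symm k T) (Km_nonneg k T)
    (combo_symm _ T') (combo_nonneg (fun r => coL_nonneg _ _ _) T') ?_ ?_ Ξ hcol hrow
  · intro f hf
    rw [ip_combo]
    exact Km_decomp k hf
  · intro f hf
    rw [ip_combo]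
    exact Km_decomp k' hf

/-- **The upper bound for `Z ⊗ Z'`.** -/
theorem tensor_upper (Z : Vs X Tok →ₗ[ℝ] Vs X Tok) (Z' : Vs Y Tok →ₗ[ℝ] Vs Y Tok)
    (hsym : ∀ f g, ip (Z f) g = ip f (Z g))
    (hpos : ∀ f, 0 ≤ ip f (Z f))
    (hU : ∀ i f, Z (Uop i f) = Uop i (Z f))
    (hD : ∀ i f, Z (Dop i f) = Dop i (Z f))
    (hT : ∀ (T : Finset Tok) f, f ∈ VT T → Z f ∈ VT T)
    (hsym' : ∀ f g, ip (Z' f) g = ip f (Z' g))
    (hpos' : ∀ f, 0 ≤ ip f (Z' f))
    (hU' : ∀ i f, Z' (Uop i f) = Uop i (Z' f))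
    (hD' : ∀ i f, Z' (Dop i f) = Dop i (Z' f))
    (hT' : ∀ (T : Finset Tok) f, f ∈ VT T → Z' f ∈ VT T)
    (θ : ℕ → ℝ) (hθ0 : ∀ j, 0 ≤ θ j)
    (hθ : ∀ (T : Finset Tok) (f : Vs X Tok), f ∈ VT T → (∀ e, Dop e f = 0) →
      ip f (Z f) ≤ θ T.card * ip f f)
    (θ' : ℕ → ℝ) (hθ0' : ∀ j, 0 ≤ θ' j)
    (hθ' : ∀ (T : Finset Tok) (f : Vs Y Tok), f ∈ VT T → (∀ e, Dop e f = 0) →
      ip f (Z' f) ≤ θ' T.card * ip f f)
    {T T' : Finset Tok} {Ξ : Matrix (X → Option Tok) (Y → Option Tok) ℝ}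
    (hcol : ∀ b, (fun a => Ξ a b) ∈ (VT T : Submodule ℝ (Vs X Tok)))
    (hrow : ∀ a, Ξ a ∈ (VT T' : Submodule ℝ (Vs Y Tok))) :
    fro Ξ (mat Z * Ξ * (mat Z')ᵀ) ≤
      ∑ r ∈ Finset.range (T.card + 1), ∑ r' ∈ Finset.range (T'.card + 1),
        θ (T.card - r) * θ' (T'.card - r') * piM T T' Ξ r r' := by
  rw [← fro_combo (X := X) (Y := Y) (fun r => θ (T.card - r)) (fun r => θ' (T'.card - r)) T T' Ξ]
  refine fro_mono (Sl := VT T) (Sr := VT T') _ _ _ _ (combo_symm _ T)
    (combo_nonneg (fun r => hθ0 _) T) hsym' hpos' ?_ ?_ Ξ hcol hrow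
  · intro f hf
    rw [ip_combo]
    exact Z_decomp Z hsym hU hD hT θ hθ hf
  · intro f hf
    rw [ip_combo]
    exact Z_decomp Z' hsym' hU' hD' hT' θ' hθ' hf

end TensorLevels

end Crest.Agent.S0222Lib.FRCore
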