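import Crest.Agent.S0222Lib.FRLevel

/-!
# S0222, first-row bound: the pair form of the moments and the blocks of a function on the parent

* `ers C w`: blank out the tokens of `C`;
* `Km_entry`: on `T`-words, the matrix entries of `Km k T` count the `k`-subsets `C ⊆ T` such that the
  two words agree off `C`.
* `joinW u v`, `leftW c`, `rightW c`: words on `S × Bool`;
* `Xi ξ T A`: the block of `ξ` with the tokens of `A` on the left;
-/

set_option autoImplicit false
set_option linter.unusedSectionVars false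
set_option linter.unusedVariables false

namespace Crest.Agent.S0222Lib.FRCore

open Finset Function Matrix

variable {X Tok : Type*} [Fintype X] [DecidableEq X] [Fintype Tok] [DecidableEq Tok]

/-- Blank out the tokens of `C`. -/
def ers (C : Finset Tok) (w : X → Option Tok) : X → Option Tok :=
  fun x => (w x).bind fun i => if i ∈ C then none else some i

@[simp] lemma ers_empty (w : X → Option Tok) : ers ∅ w = w := by
  funext x
  unfold ers
  cases w x <;> simp

lemma ers_apply_of_mem {C : Finset Tok} {w : X → Option Tok} {x : X} {i : Tok} (h : w x = some i)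
    (hi : i ∈ C) : ers C w x = none := by
  simp [ers, h, hi]

lemma ers_apply_of_notMem {C : Finset Tok} {w : X → Option Tok} {x : X} {i : Tok} (h : w x = some i)
    (hi : i ∉ C) : ers C w x = some i := by
  simp [ers, h, hi]

lemma ers_apply_none {C : Finset Tok} {w : X → Option Tok} {x : X} (h : w x = none) :
    ers C w x = none := by
  simp [ers, h]

lemma ers_ers (C C' : Finset Tok) (w : X → Option Tok) : ers C (ers C' w) = ers (C ∪ C') w := by
  funext x
  unfold ers
  cases h : w x with
  | none => simp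
  | some i =>
    by_cases h1 : i ∈ C' <;> by_cases h2 : i ∈ C <;> simp [h1, h2]

lemma ers_insert (e : Tok) (C : Finset Tok) (w : X → Option Tok) :
    ers (insert e C) w = ers C (ers {e} w) := by
  rw [ers_ers]
  congr 1
  ext a
  simp [or_comm]

/-- Counts after blanking. -/
lemma cnt_ers_of_notMem {C : Finset Tok} {i : Tok} (hi : i ∉ C) (w : X → Option Tok) :
    cnt (ers C w) (some i) = cnt w (some i) := by
  unfold cnt
  congr 1
  ext x
  simp only [Finset.mem_filter, Finset.mem_univ, true_and]
  cases h : w x with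
  | none => simp [ers_apply_none h]
  | some j =>
    by_cases hj : j ∈ C
    · rw [ers_apply_of_mem h hj]
      have : j ≠ i := fun h' => hi (h' ▸ hj)
      simp [this]
    · rw [ers_apply_of_notMem h hj]

lemma cnt_ers_of_mem {C : Finset Tok} {i : Tok} (hi : i ∈ C) (w : X → Option Tok) :
    cnt (ers C w) (some i) = 0 := by
  unfold cnt
  rw [Finset.card_eq_zero, Finset.filter_eq_empty_iff]
  intro x _
  cases h : w x with
  | none => simp [ers_apply_none h]
  | some j =>
    by_cases hj : j ∈ C
    · rw [ers_apply_of_mem h hj]; simp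
    · rw [ers_apply_of_notMem h hj]
      intro h'
      have : j = i := by simpa using h'
      exact hj (this ▸ hi)

lemma IsT_ers {T C : Finset Tok} {w : X → Option Tok} (h : IsT T w) : IsT (T \ C) (ers C w) := by
  intro i
  by_cases hi : i ∈ C
  · rw [cnt_ers_of_mem hi]
    simp [hi]
  · rw [cnt_ers_of_notMem hi, h i]
    simp [hi]

lemma IsT_ers_erase {T : Finset Tok} {e : Tok} {w : X → Option Tok} (h : IsT T w) :
    IsT (T.erase e) (ers {e} w) := by
  have := IsT_ers (C := {e}) h
  rwa [Finset.sdiff_singleton_eq_erase] at this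

/-- The delta function. -/
def dlt (w : X → Option Tok) : Vs X Tok := Pi.single w 1

lemma dlt_mem {T : Finset Tok} {w : X → Option Tok} (h : IsT T w) : dlt w ∈ (VT T : Submodule ℝ (Vs X Tok)) := by
  intro w' hw'
  have : w' ≠ w := fun h' => hw' (h' ▸ h)
  simp [dlt, Pi.single_apply, this]

lemma ip_dlt (w : X → Option Tok) (f : Vs X Tok) : ip (dlt w) f = f w := by
  unfold ip dlt
  rw [Finset.sum_eq_single w]
  · simp
  · intro b _ hb; simp [Pi.single_apply, hb]
  · intro h; exact absurd (Finset.mem_univ w) h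

/-- A word with `e` exactly once: position. -/
lemma exists_pos {w : X → Option Tok} {e : Tok} (h : cnt w (some e) = 1) :
    ∃ x₀, w x₀ = some e ∧ ∀ y, w y = some e → y = x₀ := by
  obtain ⟨x₀, hx₀⟩ := Finset.card_eq_one.1 h
  have h1 : ∀ y, y ∈ univ.filter (fun x => w x = some e) ↔ y = x₀ := fun y => by rw [hx₀]; simp
  refine ⟨x₀, ?_, fun y hy => (h1 y).1 (by simp [hy])⟩
  have := (h1 x₀).2 rfl
  simpa using this

/-- The word with `e` blanked, for `e` at `x₀` only. -/
lemma ers_singleton_eq_update {w : X → Option Tok} {e : Tok} {x₀ : X} (hx₀ : w x₀ = some e)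
    (hu : ∀ y, w y = some e → y = x₀) : ers {e} w = update w x₀ none := by
  funext y
  by_cases hy : y = x₀
  · subst hy
    rw [update_self, ers_apply_of_mem hx₀ (by simp)]
  · rw [update_of_ne hy]
    cases h : w y with
    | none => exact ers_apply_none h
    | some j =>
      have : j ≠ e := fun hje => hy (hu y (by rw [h, hje]))
      exact ers_apply_of_notMem h (by simpa using this)

/-- `D_e` on a delta function. -/
lemma Dop_dlt {w : X → Option Tok} {e : Tok} (h : cnt w (some e) = 1) :
    Dop e (dlt w) = dlt (ers {e} w) := by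
  obtain ⟨x₀, hx₀, hu⟩ := exists_pos h
  funext v
  rw [Eop_apply, ers_singleton_eq_update hx₀ hu]
  by_cases hv : v = update w x₀ none
  · subst hv
    rw [Finset.sum_eq_single x₀]
    · have : update (update w x₀ none) x₀ (some e) = w := by
        rw [update_idem, ← hx₀, update_eq_self]
      simp [this, dlt]
    · intro y _ hy
      rw [update_of_ne hy]
      split_ifs with h1
      · have : update (update w x₀ none) y (some e) ≠ w := by
          intro h2
          have h3 : update (update w x₀ none) y (some e) x₀ = w x₀ := by rw [h2]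
          rw [update_of_ne (Ne.symm hy), update_self, hx₀] at h3
          exact absurd h3 (by simp)
        simp [dlt, Pi.single_apply, this]
      · rfl
    · intro h; exact absurd (Finset.mem_univ x₀) h
  · have h0 : dlt (update w x₀ none) v = 0 := by simp [dlt, Pi.single_apply, hv]
    rw [h0]
    refine Finset.sum_eq_zero fun y _ => ?_
    split_ifs with h1
    · have : update v y (some e) ≠ w := by
        intro h2
        have hy : w y = some e := by rw [← h2]; simp
        have hyx : y = x₀ := hu y hy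
        subst hyx
        apply hv
        rw [← h2, update_idem]
        rw [← h1, update_eq_self]
      simp [dlt, Pi.single_apply, this]
    · rfl

/-- Double counting for `insert e C`. -/
lemma sum_insert_powersetCard (T : Finset Tok) (k : ℕ) (φ : Finset Tok → ℝ) :
    ∑ e ∈ T, ∑ C ∈ powersetCard k (T.erase e), φ (insert e C)
      = ((k : ℝ) + 1) * ∑ C' ∈ powersetCard (k + 1) T, φ C' := by
  have h1 : ((k : ℝ) + 1) * ∑ C' ∈ powersetCard (k + 1) T, φ C'
      = ∑ C' ∈ powersetCard (k + 1) T, ∑ e ∈ C', φ C' := by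
    rw [Finset.mul_sum]
    refine Finset.sum_congr rfl fun C' hC' => ?_
    rw [Finset.sum_const, (Finset.mem_powersetCard.1 hC').2]
    simp
  rw [h1, Finset.sum_sigma', Finset.sum_sigma']
  refine Finset.sum_nbij' (fun p => ⟨insert p.1 p.2, p.1⟩) (fun p => ⟨p.2, p.1.erase p.2⟩) ?_ ?_ ?_ ?_ ?_
  · rintro ⟨e, C⟩ h
    simp only [Finset.mem_sigma, Finset.mem_powersetCard, Finset.subset_erase] at h ⊢
    obtain ⟨he, ⟨hC1, hC2⟩, hC3⟩ := h
    refine ⟨⟨Finset.insert_subset he hC1, ?_⟩, Finset.mem_insert_self _ _⟩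
    rw [Finset.card_insert_of_notMem hC2, hC3]
  · rintro ⟨C', e⟩ h
    simp only [Finset.mem_sigma, Finset.mem_powersetCard] at h ⊢
    obtain ⟨⟨hC1, hC2⟩, he⟩ := h
    refine ⟨hC1 he, ⟨Finset.erase_subset_erase _ hC1, ?_⟩⟩
    rw [Finset.card_erase_of_mem he, hC2]
    rfl
  · rintro ⟨e, C⟩ h
    simp only [Finset.mem_sigma, Finset.mem_powersetCard, Finset.subset_erase] at h
    have hC2 := h.2.1.2
    simp [Finset.erase_insert hC2]
  · rintro ⟨C', e⟩ h
    simp only [Finset.mem_sigma] at h
    simp [Finset.insert_erase h.2]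
  · rintro ⟨e, C⟩ h
    rfl

/-- The number of `k`-subsets of `T` off which the two words agree. -/
noncomputable def agN (k : ℕ) (T : Finset Tok) (w w' : X → Option Tok) : ℝ :=
  ∑ C ∈ powersetCard k T, if ers C w = ers C w' then 1 else 0

/-- **Entries of the moment operator.** -/
theorem Km_entry (k : ℕ) : ∀ (T : Finset Tok) (w w' : X → Option Tok), IsT T w → IsT T w' →
    Km k T (dlt w') w = (k.factorial : ℝ) * agN k T w w' := by
  induction k with
  | zero =>
    intro T w w' _ _
    simp only [Km_zero, agN, Nat.factorial_zero, Nat.cast_one, one_mul, powersetCard_zero,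
      Finset.sum_singleton, ers_empty]
    simp [dlt, Pi.single_apply, eq_comm]
  | succ k ih =>
    intro T w w' hw hw'
    have h1 : Km (k + 1) T (dlt w') w = ip (dlt w) (Km (k + 1) T (dlt w')) := (ip_dlt _ _).symm
    rw [h1, ip_Km_succ]
    have h2 : ∀ e ∈ T, ip (Dop e (dlt w)) (Km k (T.erase e) (Dop e (dlt w')))
        = (k.factorial : ℝ) * ∑ C ∈ powersetCard k (T.erase e),
          (if ers (insert e C) w = ers (insert e C) w' then 1 else 0) := by
      intro e he
      have hc : cnt w (some e) = 1 := by rw [hw e, if_pos he]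
      have hc' : cnt w' (some e) = 1 := by rw [hw' e, if_pos he]
      rw [Dop_dlt hc, Dop_dlt hc', ip_dlt, ih _ _ _ (IsT_ers_erase hw) (IsT_ers_erase hw')]
      unfold agN
      simp only [ers_insert]
    rw [Finset.sum_congr rfl h2, ← Finset.mul_sum, sum_insert_powersetCard T k
      (fun C => if ers C w = ers C w' then 1 else 0)]
    unfold agN
    rw [Nat.factorial_succ]
    push_cast
    ring

/-! ### Words on the parent -/

section Parent

variable {S : Type*} [Fintype S] [DecidableEq S]

/-- Join a left word and a right word. -/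
def joinW (u v : S → Option Tok) : S × Bool → Option Tok := fun p => if p.2 then v p.1 else u p.1
/-- The left half. -/
def leftW (c : S × Bool → Option Tok) : S → Option Tok := fun a => c (a, false)
/-- The right half. -/
def rightW (c : S × Bool → Option Tok) : S → Option Tok := fun a => c (a, true)

@[simp] lemma leftW_joinW (u v : S → Option Tok) : leftW (joinW u v) = u := by
  funext a; simp [leftW, joinW]
@[simp] lemma rightW_joinW (u v : S → Option Tok) : rightW (joinW u v) = v := by
  funext a; simp [rightW, joinW]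
@[simp] lemma joinW_left_right (c : S × Bool → Option Tok) : joinW (leftW c) (rightW c) = c := by
  funext ⟨a, b⟩; cases b <;> simp [leftW, rightW, joinW]

/-- Parent words are pairs of words. -/
def splitE : (S × Bool → Option Tok) ≃ (S → Option Tok) × (S → Option Tok) where
  toFun c := (leftW c, rightW c)
  invFun p := joinW p.1 p.2
  left_inv c := joinW_left_right c
  right_inv p := by simp

lemma sum_parent (F : (S × Bool → Option Tok) → ℝ) :
    ∑ c, F c = ∑ u, ∑ v, F (joinW u v) := by
  rw [← Fintype.sum_prod_type']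
  exact (Equiv.sum_comp splitE.symm F).symm

lemma cnt_joinW (u v : S → Option Tok) (a : Option Tok) :
    cnt (joinW u v) a = cnt u a + cnt v a := by
  unfold cnt
  simp only [Finset.card_filter]
  rw [Fintype.sum_prod_type]
  simp only [Fintype.sum_bool, joinW]
  simp only [if_true, Bool.false_eq_true, if_false]
  rw [Finset.sum_add_distrib, add_comm]

lemma ers_joinW (C : Finset Tok) (u v : S → Option Tok) :
    ers C (joinW u v) = joinW (ers C u) (ers C v) := by
  funext ⟨a, b⟩
  cases b <;> simp [ers, joinW]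

lemma ers_left (C : Finset Tok) (c : S × Bool → Option Tok) : leftW (ers C c) = ers C (leftW c) := rfl
lemma ers_right (C : Finset Tok) (c : S × Bool → Option Tok) : rightW (ers C c) = ers C (rightW c) := rfl

/-- The sign of the token `i`: `+1` if it is not on the right. -/
def sgnT (i : Tok) (c : S × Bool → Option Tok) : ℝ := if cnt (rightW c) (some i) = 0 then 1 else -1

/-- The tokens of `T` on the left. -/
def leftTok (T : Finset Tok) (c : S × Bool → Option Tok) : Finset Tok :=
  T.filter fun i => cnt (rightW c) (some i) = 0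

lemma sgnT_eq_one_iff {i : Tok} {c : S × Bool → Option Tok} : sgnT i c = 1 ↔ cnt (rightW c) (some i) = 0 := by
  unfold sgnT
  split_ifs with h
  · simp [h]
  · simp only [h, iff_false]; norm_num

lemma sgnT_ne_one {i : Tok} {c : S × Bool → Option Tok} (h : cnt (rightW c) (some i) ≠ 0) : sgnT i c = -1 := by
  unfold sgnT; rw [if_neg h]

lemma sgnT_sq (i : Tok) (c : S × Bool → Option Tok) : sgnT i c * sgnT i c = 1 := by
  unfold sgnT; split_ifs <;> norm_num

lemma IsT_joinW_iff {T : Finset Tok} {u v : S → Option Tok} :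
    IsT T (joinW u v) ↔ ∀ i, cnt u (some i) + cnt v (some i) = if i ∈ T then 1 else 0 := by
  unfold IsT
  simp only [cnt_joinW]

/-- The left and right parts of a `T`-word. -/
lemma IsT.blk {T : Finset Tok} {c : S × Bool → Option Tok} (h : IsT T c) :
    IsT (leftTok T c) (leftW c) ∧ IsT (T \ leftTok T c) (rightW c) := by
  have h0 : ∀ i, cnt (leftW c) (some i) + cnt (rightW c) (some i) = if i ∈ T then 1 else 0 := by
    have := (IsT_joinW_iff (T := T) (u := leftW c) (v := rightW c))
    rw [joinW_left_right] at this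
    exact this.1 h
  refine ⟨fun i => ?_, fun i => ?_⟩
  · have := h0 i
    by_cases hi : i ∈ T
    · rw [if_pos hi] at this
      by_cases h2 : cnt (rightW c) (some i) = 0
      · simp only [leftTok, Finset.mem_filter, hi, h2, and_self, if_true]; omega
      · simp only [leftTok, Finset.mem_filter, hi, h2, and_false, if_false]; omega
    · rw [if_neg hi] at this
      simp only [leftTok, Finset.mem_filter, hi, false_and, if_false]; omega
  · have := h0 i
    by_cases hi : i ∈ T
    · rw [if_pos hi] at this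
      by_cases h2 : cnt (rightW c) (some i) = 0
      · simp only [Finset.mem_sdiff, leftTok, Finset.mem_filter, hi, h2, and_self, not_true_eq_false,
          and_false, if_false]
      · simp only [Finset.mem_sdiff, leftTok, Finset.mem_filter, hi, h2, and_false, not_false_eq_true,
          and_self, if_true, true_and]; omega
    · rw [if_neg hi] at this
      simp only [Finset.mem_sdiff, hi, false_and, if_false]; omega

lemma IsT_joinW_of_blk {T A : Finset Tok} (hA : A ⊆ T) {u v : S → Option Tok} (hu : IsT A u)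
    (hv : IsT (T \ A) v) : IsT T (joinW u v) := by
  rw [IsT_joinW_iff]
  intro i
  rw [hu i, hv i]
  by_cases h1 : i ∈ A
  · have := hA h1
    simp [h1, this]
  · by_cases h2 : i ∈ T <;> simp [h1, h2]

lemma leftTok_of_blk {T A : Finset Tok} (hA : A ⊆ T) {u v : S → Option Tok} (hv : IsT (T \ A) v) :
    leftTok T (joinW u v) = A := by
  ext i
  simp only [leftTok, Finset.mem_filter, rightW_joinW, hv i, Finset.mem_sdiff]
  by_cases h1 : i ∈ A
  · have := hA h1
    simp [h1, this]
  · by_cases h2 : i ∈ T <;> simp [h1, h2]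

/-- The block of `ξ` with the tokens `A` on the left. -/
noncomputable def Xi (ξ : Vs (S × Bool) Tok) (T A : Finset Tok) :
    Matrix (S → Option Tok) (S → Option Tok) ℝ :=
  fun u v => if IsT A u ∧ IsT (T \ A) v then ξ (joinW u v) else 0

/-- The full matrix of `ξ`. -/
def XiF (ξ : Vs (S × Bool) Tok) : Matrix (S → Option Tok) (S → Option Tok) ℝ :=
  fun u v => ξ (joinW u v)

lemma Xi_col (ξ : Vs (S × Bool) Tok) (T A : Finset Tok) (v : S → Option Tok) :
    (fun u => Xi ξ T A u v) ∈ (VT A : Submodule ℝ (Vs S Tok)) := by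
  intro u hu
  simp [Xi, hu]

lemma Xi_row (ξ : Vs (S × Bool) Tok) (T A : Finset Tok) (u : S → Option Tok) :
    Xi ξ T A u ∈ (VT (T \ A) : Submodule ℝ (Vs S Tok)) := by
  intro v hv
  simp [Xi, hv]

/-- `ξ` is the sum of its blocks. -/
lemma sum_Xi {T : Finset Tok} {ξ : Vs (S × Bool) Tok} (hξ : ξ ∈ (VT T : Submodule ℝ (Vs (S × Bool) Tok))) :
    XiF ξ = ∑ A ∈ T.powerset, Xi ξ T A := by
  ext u v
  rw [Matrix.sum_apply]
  simp only [Xi, XiF]
  by_cases h : IsT T (joinW u v)
  · have hb := h.blk
    simp only [leftW_joinW, rightW_joinW] at hb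
    rw [Finset.sum_eq_single (leftTok T (joinW u v))]
    · rw [if_pos hb]
    · intro A hA hne
      rw [if_neg]
      rintro ⟨h1, h2⟩
      exact hne (leftTok_of_blk (Finset.mem_powerset.1 hA) h2).symm
    · intro hn
      exact absurd (Finset.mem_powerset.2 (Finset.filter_subset _ _)) hn
  · rw [hξ _ h]
    symm
    refine Finset.sum_eq_zero fun A hA => ?_
    rw [if_neg]
    rintro ⟨h1, h2⟩
    exact h (IsT_joinW_of_blk (Finset.mem_powerset.1 hA) h1 h2)

section OrthBlocks

variable {κ : Type*} [Fintype κ] [DecidableEq κ]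

/-- Matrices with columns in different `VT` are orthogonal. -/
lemma fro_orth {A B : Finset Tok} (h : A ≠ B) {M M' : Matrix (S → Option Tok) κ ℝ}
    (hM : ∀ b, (fun a => M a b) ∈ (VT A : Submodule ℝ (Vs S Tok)))
    (hM' : ∀ b, (fun a => M' a b) ∈ (VT B : Submodule ℝ (Vs S Tok))) : fro M M' = 0 := by
  rw [fro_apply]
  exact Finset.sum_eq_zero fun b _ => VT_orth h (hM b) (hM' b)

end OrthBlocks

/-- Columns of `Z M Bᵀ` stay in `VT A`. -/
lemma col_Z_mem {A : Finset Tok} (Z : Vs S Tok →ₗ[ℝ] Vs S Tok)
    (hT : ∀ (T : Finset Tok) f, f ∈ VT T → Z f ∈ VT T) {M : Matrix (S → Option Tok) (S → Option Tok) ℝ}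
    (hM : ∀ b, (fun a => M a b) ∈ (VT A : Submodule ℝ (Vs S Tok))) (R : Matrix (S → Option Tok) (S → Option Tok) ℝ) (b) :
    (fun a => (mat Z * M * R) a b) ∈ (VT A : Submodule ℝ (Vs S Tok)) := by
  refine col_mul_mem (Sl := VT A) (mat Z * M) (fun b' => ?_) R b
  have : (fun a => (mat Z * M) a b') = Z (fun a => M a b') := by
    funext a; rw [mat_mul_apply]
  rw [this]
  exact hT _ _ (hM b')

/-- Mass is the sum of the masses of the blocks. -/
theorem fro_XiF_self {T : Finset Tok} {ξ : Vs (S × Bool) Tok}
    (hξ : ξ ∈ (VT T : Submodule ℝ (Vs (S × Bool) Tok))) :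
    fro (XiF ξ) (XiF ξ) = ∑ A ∈ T.powerset, fro (Xi ξ T A) (Xi ξ T A) := by
  have key : ∀ A ∈ T.powerset, fro (XiF ξ) (Xi ξ T A) = fro (Xi ξ T A) (Xi ξ T A) := by
    intro A hA
    rw [sum_Xi hξ, fro_comm, ]
    have h1 : fro (Xi ξ T A) (∑ B ∈ T.powerset, Xi ξ T B) = ∑ B ∈ T.powerset, fro (Xi ξ T A) (Xi ξ T B) :=
      fro_sum_right _ _ _
    rw [h1, Finset.sum_eq_single A]
    · intro B _ hB
      exact fro_orth hB.symm (Xi_col ξ T A) (Xi_col ξ T B)
    · intro hn; exact absurd hA hn
  conv_lhs => rw [sum_Xi hξ]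
  have h2 : fro (∑ A ∈ T.powerset, Xi ξ T A) (∑ A ∈ T.powerset, Xi ξ T A)
      = ∑ A ∈ T.powerset, fro (∑ B ∈ T.powerset, Xi ξ T B) (Xi ξ T A) := fro_sum_right _ _ _
  rw [h2]
  refine Finset.sum_congr rfl fun A hA => ?_
  rw [← sum_Xi hξ]
  exact key A hA

/-- The form of `Z ⊗ Z'` is the sum over the blocks. -/
theorem fro_XiF_Z {T : Finset Tok} {ξ : Vs (S × Bool) Tok}
    (hξ : ξ ∈ (VT T : Submodule ℝ (Vs (S × Bool) Tok)))
    (Z Z' : Vs S Tok →ₗ[ℝ] Vs S Tok)
    (hT : ∀ (T : Finset Tok) f, f ∈ VT T → Z f ∈ VT T) :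
    fro (XiF ξ) (mat Z * XiF ξ * (mat Z')ᵀ)
      = ∑ A ∈ T.powerset, fro (Xi ξ T A) (mat Z * Xi ξ T A * (mat Z')ᵀ) := by
  have h1 : mat Z * XiF ξ * (mat Z')ᵀ = ∑ A ∈ T.powerset, mat Z * Xi ξ T A * (mat Z')ᵀ := by
    rw [sum_Xi hξ, Matrix.mul_sum, Matrix.sum_mul]
  rw [h1, fro_sum_right]
  refine Finset.sum_congr rfl fun A hA => ?_
  rw [sum_Xi hξ, fro_comm]
  have h2 : fro (mat Z * Xi ξ T A * (mat Z')ᵀ) (∑ B ∈ T.powerset, Xi ξ T B)
      = ∑ B ∈ T.powerset, fro (mat Z * Xi ξ T A * (mat Z')ᵀ) (Xi ξ T B) := fro_sum_right _ _ _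
  rw [h2, Finset.sum_eq_single A]
  · exact fro_comm _ _
  · intro B _ hB
    exact fro_orth hB.symm (col_Z_mem Z hT (Xi_col ξ T A) _) (Xi_col ξ T B)
  · intro hn; exact absurd hA hn

/-! ### The moments of the blocks in pair form -/

lemma mat_entry (A : Vs S Tok →ₗ[ℝ] Vs S Tok) (u u' : S → Option Tok) :
    (mat A) u u' = A (dlt u') u := by
  rw [mat, LinearMap.toMatrix'_apply]
  congr 2

/-- Entries of `Km k A * M`. -/
lemma mat_Km_mul_apply {κ : Type*} [Fintype κ] [DecidableEq κ] (k : ℕ) (A : Finset Tok)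
    {M : Matrix (S → Option Tok) κ ℝ}
    (hM : ∀ b, (fun a => M a b) ∈ (VT A : Submodule ℝ (Vs S Tok)))
    {u : S → Option Tok} (hu : IsT A u) (v : κ) :
    (mat (Km (X := S) k A) * M) u v = (k.factorial : ℝ) * ∑ u₂, agN k A u u₂ * M u₂ v := by
  rw [Matrix.mul_apply, Finset.mul_sum]
  refine Finset.sum_congr rfl fun u₂ _ => ?_
  by_cases h2 : IsT A u₂
  · rw [mat_entry, Km_entry k A u u₂ hu h2]
    ring
  · have : M u₂ v = 0 := hM v u₂ h2
    simp [this]

/-- The weight of a pair of blocks. -/
theorem fro_Km_pair (k k' : ℕ) (A B : Finset Tok) (X : Matrix (S → Option Tok) (S → Option Tok) ℝ)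
    (hcol : ∀ b, (fun a => X a b) ∈ (VT A : Submodule ℝ (Vs S Tok)))
    (hrow : ∀ a, X a ∈ (VT B : Submodule ℝ (Vs S Tok))) :
    fro X (mat (Km (X := S) k A) * X * (mat (Km (X := S) k' B))ᵀ)
      = (k.factorial : ℝ) * (k'.factorial : ℝ) * ∑ u, ∑ v, ∑ u₂, ∑ v₂,
          X u v * X u₂ v₂ * (agN k A u u₂ * agN k' B v v₂) := by
  rw [fro_apply, Finset.sum_comm, Finset.mul_sum]
  refine Finset.sum_congr rfl fun u _ => ?_
  rw [Finset.mul_sum]
  refine Finset.sum_congr rfl fun v _ => ?_
  by_cases huv : IsT A u ∧ IsT B v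
  · obtain ⟨hu, hv⟩ := huv
    have h1 : (mat (Km (X := S) k A) * X * (mat (Km (X := S) k' B))ᵀ) u v
        = ∑ v₂, (mat (Km (X := S) k A) * X) u v₂ * (mat (Km (X := S) k' B)) v v₂ := by
      rw [Matrix.mul_apply]
      simp only [Matrix.transpose_apply]
    have h2 : ∀ v₂, (mat (Km (X := S) k A) * X) u v₂ * (mat (Km (X := S) k' B)) v v₂
        = (k.factorial : ℝ) * (k'.factorial : ℝ) * ∑ u₂, X u₂ v₂ * (agN k A u u₂ * agN k' B v v₂) := by
      intro v₂
      by_cases h2 : IsT B v₂
      · rw [mat_Km_mul_apply k A hcol hu, mat_entry, Km_entry k' B v v₂ hv h2, Finset.mul_sum,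
          Finset.sum_mul, Finset.mul_sum]
        refine Finset.sum_congr rfl fun u₂ _ => ?_
        ring
      · have h3 : ∀ u₂, X u₂ v₂ = 0 := fun u₂ => hrow u₂ v₂ h2
        have h4 : (mat (Km (X := S) k A) * X) u v₂ = 0 := by
          rw [Matrix.mul_apply]
          simp [h3]
        simp [h3, h4]
    rw [h1, Finset.sum_congr rfl fun v₂ _ => h2 v₂, ← Finset.mul_sum, Finset.sum_comm]
    rw [mul_left_comm]
    congr 1
    rw [Finset.mul_sum]
    refine Finset.sum_congr rfl fun u₂ _ => ?_
    rw [Finset.mul_sum]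
    refine Finset.sum_congr rfl fun v₂ _ => ?_
    ring
  · have h0 : X u v = 0 := by
      by_contra hne
      apply huv
      constructor
      · by_contra h1
        exact hne (hcol v u h1)
      · by_contra h1
        exact hne (hrow u v h1)
    simp [h0]

/-- The signs of a set of tokens. -/
def epsT (D : Finset Tok) (c : S × Bool → Option Tok) : ℝ := ∏ i ∈ D, sgnT i c

/-- The sum of `G ξ` over a class mod `D`. -/
noncomputable def Ph (D : Finset Tok) (G : (S × Bool → Option Tok) → ℝ) (ξ : Vs (S × Bool) Tok)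
    (w : S × Bool → Option Tok) : ℝ :=
  ∑ c, if ers D c = w then G c * ξ c else 0

/-- `‖W^D ξ‖²`. -/
noncomputable def SqE (D : Finset Tok) (ξ : Vs (S × Bool) Tok) : ℝ :=
  ∑ w, Ph D (epsT D) ξ w ^ 2

/-- Classes to pairs. -/
lemma sum_Ph_sq (D : Finset Tok) (G : (S × Bool → Option Tok) → ℝ) (ξ : Vs (S × Bool) Tok) :
    ∑ w, Ph D G ξ w ^ 2 = ∑ c, ∑ c₂, if ers D c = ers D c₂ then G c * G c₂ * (ξ c * ξ c₂) else 0 := by
  have h : ∀ w, Ph D G ξ w ^ 2 = ∑ c, ∑ c₂,
      if ers D c = w ∧ ers D c₂ = w then G c * G c₂ * (ξ c * ξ c₂) else 0 := by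
    intro w
    unfold Ph
    rw [pow_two, Finset.sum_mul]
    refine Finset.sum_congr rfl fun c _ => ?_
    rw [Finset.mul_sum]
    refine Finset.sum_congr rfl fun c₂ _ => ?_
    by_cases h1 : ers D c = w <;> by_cases h2 : ers D c₂ = w <;> simp [h1, h2]
    ring
  simp only [h]
  rw [Finset.sum_comm]
  refine Finset.sum_congr rfl fun c _ => ?_
  rw [Finset.sum_comm]
  refine Finset.sum_congr rfl fun c₂ _ => ?_
  by_cases h1 : ers D c = ers D c₂
  · rw [if_pos h1, Finset.sum_eq_single (ers D c)]
    · simp [← h1]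
    · intro w _ hw
      rw [if_neg]
      rintro ⟨h2, _⟩
      exact hw h2.symm
    · intro hn; exact absurd (Finset.mem_univ _) hn
  · rw [if_neg h1]
    refine Finset.sum_eq_zero fun w _ => ?_
    rw [if_neg]
    rintro ⟨h2, h3⟩
    exact h1 (h2.trans h3.symm)

/-- The value of `Uop i H` on a word containing `i` once. -/
lemma Uop_apply_of_cnt {i : Tok} {c : S × Bool → Option Tok} (h : cnt c (some i) = 1)
    (H : Vs (S × Bool) Tok) : Uop i H c = H (ers {i} c) := by
  obtain ⟨x₀, hx₀, hu⟩ := exists_pos h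
  rw [Eop_apply, ers_singleton_eq_update hx₀ hu, Finset.sum_eq_single x₀]
  · simp [hx₀]
  · intro y _ hy
    rw [if_neg]
    exact fun h2 => hy (hu y h2)
  · intro hn; exact absurd (Finset.mem_univ _) hn

lemma sgnT_ers_of_ne {i j : Tok} (h : j ≠ i) (c : S × Bool → Option Tok) :
    sgnT j (ers {i} c) = sgnT j c := by
  unfold sgnT
  rw [ers_right, cnt_ers_of_notMem (by simpa using h)]

/-- **Marginal vanishing**: if a token of `D` does not enter the weight, the class sum vanishes. -/
theorem Ph_vanish {T D E : Finset Tok} {ξ : Vs (S × Bool) Tok}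
    (hξ : ξ ∈ (VT T : Submodule ℝ (Vs (S × Bool) Tok))) (hD : ∀ e, Dop e ξ = 0)
    (hDT : D ⊆ T) (hED : E ⊆ D) (hne : E ≠ D) (w : S × Bool → Option Tok) :
    Ph D (epsT E) ξ w = 0 := by
  obtain ⟨i, hiD, hiE⟩ : ∃ i ∈ D, i ∉ E := by
    by_contra hc
    push Not at hc
    exact hne (Finset.Subset.antisymm hED hc)
  let H : Vs (S × Bool) Tok := fun v => if ers (D.erase i) v = w then epsT E v else 0
  have h1 : ip (Uop i H) ξ = 0 := by
    rw [ip_Uop, hD, ip_zero_right]
  have h2 : Ph D (epsT E) ξ w = ip (Uop i H) ξ := by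
    unfold Ph ip
    refine Finset.sum_congr rfl fun c _ => ?_
    by_cases hc : IsT T c
    · have hcnt : cnt c (some i) = 1 := by rw [hc i, if_pos (hDT hiD)]
      rw [Uop_apply_of_cnt hcnt]
      have h3 : ers (D.erase i) (ers {i} c) = ers D c := by
        rw [ers_ers]
        congr 1
        ext a
        simp only [Finset.mem_union, Finset.mem_erase, Finset.mem_singleton]
        constructor
        · rintro (⟨_, h⟩ | h)
          · exact h
          · exact h ▸ hiD
        · intro h
          by_cases ha : a = i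
          · exact Or.inr ha
          · exact Or.inl ⟨ha, h⟩
      have h4 : epsT E (ers {i} c) = epsT E c := by
        unfold epsT
        refine Finset.prod_congr rfl fun j hj => ?_
        exact sgnT_ers_of_ne (fun h : j = i => hiE (by rw [← h]; exact hj)) c
      simp only [H, h3, h4]
      split_ifs <;> simp
    · rw [hξ c hc]; simp
  rw [h2, h1]

/-- The signature `s_i`. -/
def sC (C : Finset Tok) (i : Tok) : ℝ := if i ∈ C then 1 else -1

/-- The indicator of "`C` on the left and `C'` on the right", for disjoint `C`, `C'`. -/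
noncomputable def fP (C C' : Finset Tok) (c : S × Bool → Option Tok) : ℝ :=
  ∏ i ∈ C ∪ C', (2⁻¹ + (sC C i * 2⁻¹) * sgnT i c)

/-- One-sided identity: on a class, `fP` can be replaced by the sign. -/
theorem Ph_fP {T C C' : Finset Tok} {ξ : Vs (S × Bool) Tok}
    (hξ : ξ ∈ (VT T : Submodule ℝ (Vs (S × Bool) Tok))) (hD : ∀ e, Dop e ξ = 0)
    (hDT : C ∪ C' ⊆ T) (w : S × Bool → Option Tok) :
    Ph (C ∪ C') (fP C C') ξ w
      = (∏ i ∈ C ∪ C', (sC C i * 2⁻¹)) * Ph (C ∪ C') (epsT (C ∪ C')) ξ w := by
  set D := C ∪ C' with hDdef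
  have h1 : ∀ c : S × Bool → Option Tok, fP C C' c = ∑ E ∈ D.powerset,
      (∏ i ∈ E, (sC C i * 2⁻¹)) * (2⁻¹ : ℝ) ^ (D \ E).card * epsT E c := by
    intro c
    unfold fP
    rw [← hDdef, Finset.prod_congr rfl (fun i _ => add_comm (2⁻¹ : ℝ) (sC C i * 2⁻¹ * sgnT i c)),
      Finset.prod_add]
    refine Finset.sum_congr rfl fun E _ => ?_
    rw [Finset.prod_mul_distrib, Finset.prod_const]
    unfold epsT
    ring
  have h2 : Ph D (fP C C') ξ w = ∑ E ∈ D.powerset,
      (∏ i ∈ E, (sC C i * 2⁻¹)) * (2⁻¹ : ℝ) ^ (D \ E).card * Ph D (epsT E) ξ w := by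
    unfold Ph
    simp only [Finset.mul_sum]
    rw [Finset.sum_comm]
    refine Finset.sum_congr rfl fun c _ => ?_
    by_cases h : ers D c = w
    · simp only [h, if_true]
      rw [h1, Finset.sum_mul]
      refine Finset.sum_congr rfl fun E _ => ?_
      ring
    · simp [h]
  rw [h2, Finset.sum_eq_single D]
  · simp
  · intro E hE hne
    rw [Ph_vanish hξ hD hDT (Finset.mem_powerset.1 hE) hne]
    ring
  · intro hn; exact absurd (Finset.mem_powerset.2 (Finset.Subset.refl D)) hn

lemma prod_sC_sq {C C' : Finset Tok} (D : Finset Tok) :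
    (∏ i ∈ D, (sC C i * 2⁻¹)) ^ 2 = (1 / 4 : ℝ) ^ D.card := by
  rw [← Finset.prod_pow]
  have : ∀ i ∈ D, (sC C i * 2⁻¹ : ℝ) ^ 2 = 1 / 4 := by
    intro i _
    unfold sC
    split_ifs <;> norm_num
  rw [Finset.prod_congr rfl this, Finset.prod_const]

/-- **`QQ = 4^{-|D|} SqE`.** -/
theorem sum_Ph_fP {T C C' : Finset Tok} {ξ : Vs (S × Bool) Tok}
    (hξ : ξ ∈ (VT T : Submodule ℝ (Vs (S × Bool) Tok))) (hD : ∀ e, Dop e ξ = 0)
    (hDT : C ∪ C' ⊆ T) :
    ∑ w, Ph (C ∪ C') (fP C C') ξ w ^ 2 = (1 / 4 : ℝ) ^ (C ∪ C').card * SqE (C ∪ C') ξ := by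
  unfold SqE
  rw [Finset.mul_sum]
  refine Finset.sum_congr rfl fun w _ => ?_
  rw [Ph_fP hξ hD hDT, mul_pow, prod_sC_sq (C' := C')]

/-! ### The sum over the blocks of the moments -/

lemma mem_leftTok {T : Finset Tok} {c : S × Bool → Option Tok} {i : Tok} :
    i ∈ leftTok T c ↔ i ∈ T ∧ sgnT i c = 1 := by
  simp [leftTok, sgnT_eq_one_iff]

/-- The indicator property of `fP`. -/
lemma fP_eq (T : Finset Tok) {C C' : Finset Tok} (hC : C ⊆ T) (hC' : C' ⊆ T) (hd : Disjoint C C')
    (c : S × Bool → Option Tok) :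
    fP C C' c = if C ⊆ leftTok T c ∧ Disjoint C' (leftTok T c) then 1 else 0 := by
  have hval : ∀ i, sgnT i c = 1 ∨ sgnT i c = -1 := fun i => by unfold sgnT; split_ifs <;> simp
  split_ifs with h
  · refine Finset.prod_eq_one fun i hi => ?_
    rcases Finset.mem_union.1 hi with h1 | h1
    · have h2 : sgnT i c = 1 := (mem_leftTok.1 (h.1 h1)).2
      rw [h2]
      simp only [sC, h1, if_true]
      norm_num
    · have h3 : i ∉ C := Finset.disjoint_right.1 hd h1
      have h4 : i ∉ leftTok T c := Finset.disjoint_left.1 h.2 h1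
      have h5 : sgnT i c = -1 := by
        rcases hval i with h6 | h6
        · exact absurd (mem_leftTok.2 ⟨hC' h1, h6⟩) h4
        · exact h6
      rw [h5]
      simp only [sC, h3, if_false]
      norm_num
  · rw [not_and_or] at h
    rcases h with h | h
    · obtain ⟨i, hi, hi2⟩ := Finset.not_subset.1 h
      refine Finset.prod_eq_zero (Finset.mem_union_left _ hi) ?_
      have h5 : sgnT i c = -1 := by
        rcases hval i with h6 | h6
        · exact absurd (mem_leftTok.2 ⟨hC hi, h6⟩) hi2
        · exact h6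
      rw [h5]
      simp only [sC, hi, if_true]
      norm_num
    · obtain ⟨i, hi, hi2⟩ := Finset.not_disjoint_iff.1 h
      refine Finset.prod_eq_zero (Finset.mem_union_right _ hi) ?_
      have h3 : i ∉ C := Finset.disjoint_right.1 hd hi
      have h5 : sgnT i c = 1 := (mem_leftTok.1 hi2).2
      rw [h5]
      simp only [sC, h3, if_false]
      norm_num

lemma ers_union_absent {C₁ C₂ : Finset Tok} {w : S → Option Tok}
    (h : ∀ i ∈ C₂, cnt w (some i) = 0) : ers (C₁ ∪ C₂) w = ers C₁ w := by
  funext x
  cases hx : w x with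
  | none => rw [ers_apply_none hx, ers_apply_none hx]
  | some j =>
    have hj : j ∉ C₂ := fun hj => by
      have := h j hj
      have h2 := cnt_pos_of_eq hx
      omega
    by_cases hj1 : j ∈ C₁
    · rw [ers_apply_of_mem hx hj1, ers_apply_of_mem hx (Finset.mem_union_left _ hj1)]
    · rw [ers_apply_of_notMem hx hj1,
        ers_apply_of_notMem hx (by simp [hj1, hj])]

lemma IsT.cnt_add {T : Finset Tok} {c : S × Bool → Option Tok} (h : IsT T c) (i : Tok) :
    cnt (leftW c) (some i) + cnt (rightW c) (some i) = if i ∈ T then 1 else 0 := by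
  have := (IsT_joinW_iff (T := T) (u := leftW c) (v := rightW c))
  rw [joinW_left_right] at this
  exact this.1 h i

/-- In a block, blanking `C ∪ C'` is blanking `C` on the left and `C'` on the right. -/
lemma ers_block {T C C' : Finset Tok} {c : S × Bool → Option Tok} (hc : IsT T c)
    (h1 : C ⊆ leftTok T c) (h2 : Disjoint C' (leftTok T c)) (hC' : C' ⊆ T) :
    ers (C ∪ C') c = joinW (ers C (leftW c)) (ers C' (rightW c)) := by
  have h3 : ∀ i ∈ C', cnt (leftW c) (some i) = 0 := by
    intro i hi
    have h4 := hc.cnt_add i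
    rw [if_pos (hC' hi)] at h4
    have h5 : cnt (rightW c) (some i) ≠ 0 := by
      intro h6
      have : i ∈ leftTok T c := by simp [leftTok, hC' hi, h6]
      exact Finset.disjoint_left.1 h2 hi this
    omega
  have h4 : ∀ i ∈ C, cnt (rightW c) (some i) = 0 := by
    intro i hi
    have := h1 hi
    simp only [leftTok, Finset.mem_filter] at this
    exact this.2
  conv_lhs => rw [← joinW_left_right c]
  rw [ers_joinW, ers_union_absent h3, Finset.union_comm, ers_union_absent h4]

/-- Two words with the same class and both with `C` on the left, `C'` on the right are in the same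
block. -/
lemma leftTok_eq_of_ers {T C C' : Finset Tok} {c c₂ : S × Bool → Option Tok}
    (h1 : C ⊆ leftTok T c) (h2 : Disjoint C' (leftTok T c))
    (h1' : C ⊆ leftTok T c₂) (h2' : Disjoint C' (leftTok T c₂))
    (he : ers (C ∪ C') c = ers (C ∪ C') c₂) : leftTok T c = leftTok T c₂ := by
  ext i
  by_cases hi : i ∈ C
  · exact ⟨fun _ => h1' hi, fun _ => h1 hi⟩
  · by_cases hi' : i ∈ C'
    · exact ⟨fun h => absurd h (Finset.disjoint_left.1 h2 hi'),
        fun h => absurd h (Finset.disjoint_left.1 h2' hi')⟩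
    · have hn : i ∉ C ∪ C' := by simp [hi, hi']
      have h3 := congrArg rightW he
      rw [ers_right, ers_right] at h3
      have h4 : cnt (rightW c) (some i) = cnt (rightW c₂) (some i) := by
        rw [← cnt_ers_of_notMem hn, h3, cnt_ers_of_notMem hn]
      simp only [leftTok, Finset.mem_filter, h4]

/-- Pointwise identity between the block weight and the class weight. -/
theorem block_weight {T : Finset Tok} {c c₂ : S × Bool → Option Tok} (hc : IsT T c) (hc₂ : IsT T c₂)
    (k k' : ℕ) :
    (∑ A ∈ T.powerset, if (IsT A (leftW c) ∧ IsT (T \ A) (rightW c)) ∧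
        (IsT A (leftW c₂) ∧ IsT (T \ A) (rightW c₂))
      then agN k A (leftW c) (leftW c₂) * agN k' (T \ A) (rightW c) (rightW c₂) else 0)
    = ∑ C ∈ powersetCard k T, ∑ C' ∈ powersetCard k' (T \ C),
        if ers (C ∪ C') c = ers (C ∪ C') c₂ then fP C C' c * fP C C' c₂ else 0 := by
  have hblk : ∀ (d : S × Bool → Option Tok) (A : Finset Tok), A ⊆ T →
      (IsT A (leftW d) ∧ IsT (T \ A) (rightW d)) → A = leftTok T d := by
    intro d A hA ⟨_, hv⟩
    have := leftTok_of_blk (u := leftW d) hA hv
    rw [joinW_left_right] at this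
    exact this.symm
  have hL : leftTok T c ∈ T.powerset := Finset.mem_powerset.2 (Finset.filter_subset _ _)
  rw [Finset.sum_eq_single (leftTok T c)]
  · by_cases hAA : leftTok T c₂ = leftTok T c
    · have hb2 : IsT (leftTok T c) (leftW c₂) ∧ IsT (T \ leftTok T c) (rightW c₂) := by
        rw [← hAA]; exact hc₂.blk
      rw [if_pos ⟨hc.blk, hb2⟩]
      set A := leftTok T c with hA
      have hAT : A ⊆ T := Finset.filter_subset _ _
      unfold agN
      rw [Finset.sum_mul_sum]
      -- restrict the right hand side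
      have h1 : ∀ C ∈ powersetCard k T, ∑ C' ∈ powersetCard k' (T \ C),
          (if ers (C ∪ C') c = ers (C ∪ C') c₂ then fP C C' c * fP C C' c₂ else 0)
          = if C ⊆ A then ∑ C' ∈ powersetCard k' (T \ A),
              (if ers C (leftW c) = ers C (leftW c₂) then (1 : ℝ) else 0) *
              (if ers C' (rightW c) = ers C' (rightW c₂) then (1 : ℝ) else 0) else 0 := by
        intro C hC
        have hCT : C ⊆ T := (Finset.mem_powersetCard.1 hC).1
        by_cases hCA : C ⊆ A
        · rw [if_pos hCA]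
          have hsub : powersetCard k' (T \ A) ⊆ powersetCard k' (T \ C) := by
            intro C' hC'
            rw [Finset.mem_powersetCard] at hC' ⊢
            exact ⟨hC'.1.trans (Finset.sdiff_subset_sdiff le_rfl hCA), hC'.2⟩
          rw [← Finset.sum_subset hsub]
          · refine Finset.sum_congr rfl fun C' hC' => ?_
            have hC'1 : C' ⊆ T \ A := (Finset.mem_powersetCard.1 hC').1
            have hC'T : C' ⊆ T := hC'1.trans Finset.sdiff_subset
            have hdC' : Disjoint C' A := Finset.disjoint_of_subset_left hC'1 Finset.sdiff_disjoint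
            have hd : Disjoint C C' := Finset.disjoint_of_subset_left hCA hdC'.symm
            have hf1 : fP C C' c = 1 := by
              rw [fP_eq T hCT hC'T hd, if_pos ⟨hCA, hdC'⟩]
            have hf2 : fP C C' c₂ = 1 := by
              rw [fP_eq T hCT hC'T hd, if_pos ⟨by rw [hAA]; exact hCA, by rw [hAA]; exact hdC'⟩]
            rw [hf1, hf2, ers_block hc hCA hdC' hC'T,
              ers_block hc₂ (by rw [hAA]; exact hCA) (by rw [hAA]; exact hdC') hC'T]
            by_cases h3 : ers C (leftW c) = ers C (leftW c₂)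
            · by_cases h4 : ers C' (rightW c) = ers C' (rightW c₂)
              · simp [h3, h4]
              · have : joinW (ers C (leftW c)) (ers C' (rightW c))
                    ≠ joinW (ers C (leftW c₂)) (ers C' (rightW c₂)) := by
                  intro h5
                  apply h4
                  have := congrArg rightW h5
                  simpa using this
                simp [this, h4]
            · have : joinW (ers C (leftW c)) (ers C' (rightW c))
                  ≠ joinW (ers C (leftW c₂)) (ers C' (rightW c₂)) := by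
                intro h5
                apply h3
                have := congrArg leftW h5
                simpa using this
              simp [this, h3]
          · intro C' hC' hn
            have hC'1 : C' ⊆ T \ C := (Finset.mem_powersetCard.1 hC').1
            have hC'T : C' ⊆ T := hC'1.trans Finset.sdiff_subset
            have hd : Disjoint C C' := (Finset.disjoint_of_subset_left hC'1 Finset.sdiff_disjoint).symm
            have hnd : ¬ Disjoint C' A := by
              intro hdd
              apply hn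
              rw [Finset.mem_powersetCard]
              refine ⟨fun i hi => Finset.mem_sdiff.2 ⟨hC'T hi, Finset.disjoint_left.1 hdd hi⟩,
                (Finset.mem_powersetCard.1 hC').2⟩
            have hf1 : fP C C' c = 0 := by
              rw [fP_eq T hCT hC'T hd, if_neg (fun h => hnd h.2)]
            simp [hf1]
        · rw [if_neg hCA]
          refine Finset.sum_eq_zero fun C' hC' => ?_
          have hC'1 : C' ⊆ T \ C := (Finset.mem_powersetCard.1 hC').1
          have hC'T : C' ⊆ T := hC'1.trans Finset.sdiff_subset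
          have hd : Disjoint C C' := (Finset.disjoint_of_subset_left hC'1 Finset.sdiff_disjoint).symm
          have hf1 : fP C C' c = 0 := by
            rw [fP_eq T hCT hC'T hd, if_neg (fun h => hCA h.1)]
          simp [hf1]
      rw [Finset.sum_congr rfl h1]
      have h2 : powersetCard k A ⊆ powersetCard k T := Finset.powersetCard_mono hAT
      rw [← Finset.sum_subset h2]
      · refine Finset.sum_congr rfl fun C hC => ?_
        rw [if_pos (Finset.mem_powersetCard.1 hC).1]
      · intro C _ hn
        rw [if_neg]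
        intro hCA
        apply hn
        rw [Finset.mem_powersetCard]
        exact ⟨hCA, by
          have h3 : C ∈ powersetCard k T := by assumption
          exact (Finset.mem_powersetCard.1 h3).2⟩
    · rw [if_neg]
      · symm
        refine Finset.sum_eq_zero fun C hC => Finset.sum_eq_zero fun C' hC' => ?_
        have hCT : C ⊆ T := (Finset.mem_powersetCard.1 hC).1
        have hC'1 : C' ⊆ T \ C := (Finset.mem_powersetCard.1 hC').1
        have hC'T : C' ⊆ T := hC'1.trans Finset.sdiff_subset
        have hd : Disjoint C C' := (Finset.disjoint_of_subset_left hC'1 Finset.sdiff_disjoint).symm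
        split_ifs with he
        · rw [fP_eq T hCT hC'T hd, fP_eq T hCT hC'T hd]
          split_ifs with h3 h4
          · exact absurd (leftTok_eq_of_ers h3.1 h3.2 h4.1 h4.2 he).symm hAA
          · simp
          · simp
          · simp
        · rfl
      · rintro ⟨_, h2⟩
        exact hAA (hblk c₂ _ (Finset.filter_subset _ _) h2).symm
  · intro A hA hne
    rw [if_neg]
    rintro ⟨h1, _⟩
    exact hne (hblk c A (Finset.mem_powerset.1 hA) h1)
  · intro hn; exact absurd hL hn

/-- Double counting for `C ∪ C'`. -/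
lemma sum_union_powersetCard (T : Finset Tok) (k k' : ℕ) (φ : Finset Tok → ℝ) :
    ∑ C ∈ powersetCard k T, ∑ C' ∈ powersetCard k' (T \ C), φ (C ∪ C')
      = ((k + k').choose k : ℝ) * ∑ D ∈ powersetCard (k + k') T, φ D := by
  have h1 : ((k + k').choose k : ℝ) * ∑ D ∈ powersetCard (k + k') T, φ D
      = ∑ D ∈ powersetCard (k + k') T, ∑ C ∈ powersetCard k D, φ D := by
    rw [Finset.mul_sum]
    refine Finset.sum_congr rfl fun D hD => ?_
    rw [Finset.sum_const, Finset.card_powersetCard, (Finset.mem_powersetCard.1 hD).2]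
    simp
  rw [h1, Finset.sum_sigma', Finset.sum_sigma']
  refine Finset.sum_nbij' (fun p => ⟨p.1 ∪ p.2, p.1⟩) (fun p => ⟨p.2, p.1 \ p.2⟩) ?_ ?_ ?_ ?_ ?_
  · rintro ⟨C, C'⟩ h
    simp only [Finset.mem_sigma, Finset.mem_powersetCard] at h ⊢
    obtain ⟨⟨h1, h2⟩, h3, h4⟩ := h
    have hd : Disjoint C C' := (Finset.disjoint_of_subset_left h3 Finset.sdiff_disjoint).symm
    refine ⟨⟨Finset.union_subset h1 (h3.trans Finset.sdiff_subset), ?_⟩, Finset.subset_union_left, h2⟩
    rw [Finset.card_union_of_disjoint hd, h2, h4]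
  · rintro ⟨D, C⟩ h
    simp only [Finset.mem_sigma, Finset.mem_powersetCard] at h ⊢
    obtain ⟨⟨h1, h2⟩, h3, h4⟩ := h
    refine ⟨⟨h3.trans h1, h4⟩, Finset.sdiff_subset_sdiff h1 le_rfl, ?_⟩
    rw [Finset.card_sdiff_of_subset h3, h2, h4]
    omega
  · rintro ⟨C, C'⟩ h
    simp only [Finset.mem_sigma, Finset.mem_powersetCard] at h
    obtain ⟨⟨h1, h2⟩, h3, h4⟩ := h
    have hd : Disjoint C C' := (Finset.disjoint_of_subset_left h3 Finset.sdiff_disjoint).symm
    simp only [Finset.union_sdiff_cancel_left hd]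
  · rintro ⟨D, C⟩ h
    simp only [Finset.mem_sigma, Finset.mem_powersetCard] at h
    obtain ⟨⟨h1, h2⟩, h3, h4⟩ := h
    simp only [Finset.union_sdiff_of_subset h3]
  · rintro ⟨C, C'⟩ h
    rfl

/-- **The moment identity**: the block moments are computed by the signed class sums. -/
theorem moment_identity {T : Finset Tok} {ξ : Vs (S × Bool) Tok}
    (hξ : ξ ∈ (VT T : Submodule ℝ (Vs (S × Bool) Tok))) (hD : ∀ e, Dop e ξ = 0) (k k' : ℕ) :
    ∑ A ∈ T.powerset, fro (Xi ξ T A)
        (mat (Km (X := S) k A) * Xi ξ T A * (mat (Km (X := S) k' (T \ A)))ᵀ)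
      = (k.factorial : ℝ) * (k'.factorial : ℝ) * ((k + k').choose k : ℝ) * (1 / 4 : ℝ) ^ (k + k') *
          ∑ D ∈ powersetCard (k + k') T, SqE D ξ := by
  have h1 : ∀ A ∈ T.powerset, fro (Xi ξ T A)
        (mat (Km (X := S) k A) * Xi ξ T A * (mat (Km (X := S) k' (T \ A)))ᵀ)
      = (k.factorial : ℝ) * (k'.factorial : ℝ) * ∑ c, ∑ c₂, ξ c * ξ c₂ *
          (if (IsT A (leftW c) ∧ IsT (T \ A) (rightW c)) ∧ (IsT A (leftW c₂) ∧ IsT (T \ A) (rightW c₂))
            then agN k A (leftW c) (leftW c₂) * agN k' (T \ A) (rightW c) (rightW c₂) else 0) := by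
    intro A _
    rw [fro_Km_pair k k' A (T \ A) _ (Xi_col ξ T A) (Xi_row ξ T A)]
    congr 1
    rw [sum_parent]
    refine Finset.sum_congr rfl fun u _ => Finset.sum_congr rfl fun v _ => ?_
    rw [sum_parent]
    refine Finset.sum_congr rfl fun u₂ _ => Finset.sum_congr rfl fun v₂ _ => ?_
    simp only [leftW_joinW, rightW_joinW, Xi]
    by_cases h2 : IsT A u ∧ IsT (T \ A) v <;> by_cases h3 : IsT A u₂ ∧ IsT (T \ A) v₂ <;>
      simp [h2, h3]
  rw [Finset.sum_congr rfl h1, ← Finset.mul_sum]
  -- exchange the sums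
  have h2 : ∑ A ∈ T.powerset, ∑ c, ∑ c₂, ξ c * ξ c₂ *
          (if (IsT A (leftW c) ∧ IsT (T \ A) (rightW c)) ∧ (IsT A (leftW c₂) ∧ IsT (T \ A) (rightW c₂))
            then agN k A (leftW c) (leftW c₂) * agN k' (T \ A) (rightW c) (rightW c₂) else 0)
      = ∑ c, ∑ c₂, ξ c * ξ c₂ * ∑ C ∈ powersetCard k T, ∑ C' ∈ powersetCard k' (T \ C),
          if ers (C ∪ C') c = ers (C ∪ C') c₂ then fP C C' c * fP C C' c₂ else 0 := by
    rw [Finset.sum_comm]
    refine Finset.sum_congr rfl fun c _ => ?_
    rw [Finset.sum_comm]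
    refine Finset.sum_congr rfl fun c₂ _ => ?_
    by_cases hc : IsT T c
    · by_cases hc₂ : IsT T c₂
      · rw [← block_weight hc hc₂, Finset.mul_sum]
      · simp [hξ c₂ hc₂]
    · simp [hξ c hc]
  rw [h2]
  have h3 : ∑ c, ∑ c₂, ξ c * ξ c₂ * ∑ C ∈ powersetCard k T, ∑ C' ∈ powersetCard k' (T \ C),
          (if ers (C ∪ C') c = ers (C ∪ C') c₂ then fP C C' c * fP C C' c₂ else 0)
      = ∑ C ∈ powersetCard k T, ∑ C' ∈ powersetCard k' (T \ C),
          ∑ w, Ph (C ∪ C') (fP C C') ξ w ^ 2 := by
    simp only [sum_Ph_sq, Finset.mul_sum]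
    have hx : ∀ c : S × Bool → Option Tok, (∑ c₂, ∑ C ∈ powersetCard k T, ∑ C' ∈ powersetCard k' (T \ C),
          ξ c * ξ c₂ * (if ers (C ∪ C') c = ers (C ∪ C') c₂ then fP C C' c * fP C C' c₂ else 0))
        = ∑ C ∈ powersetCard k T, ∑ c₂, ∑ C' ∈ powersetCard k' (T \ C),
          ξ c * ξ c₂ * (if ers (C ∪ C') c = ers (C ∪ C') c₂ then fP C C' c * fP C C' c₂ else 0) :=
      fun c => Finset.sum_comm
    simp only [hx]
    rw [Finset.sum_comm]
    refine Finset.sum_congr rfl fun C _ => ?_
    have hy : ∀ c : S × Bool → Option Tok, (∑ c₂, ∑ C' ∈ powersetCard k' (T \ C),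
          ξ c * ξ c₂ * (if ers (C ∪ C') c = ers (C ∪ C') c₂ then fP C C' c * fP C C' c₂ else 0))
        = ∑ C' ∈ powersetCard k' (T \ C), ∑ c₂,
          ξ c * ξ c₂ * (if ers (C ∪ C') c = ers (C ∪ C') c₂ then fP C C' c * fP C C' c₂ else 0) :=
      fun c => Finset.sum_comm
    simp only [hy]
    rw [Finset.sum_comm]
    refine Finset.sum_congr rfl fun C' _ => Finset.sum_congr rfl fun c _ => Finset.sum_congr rfl fun c₂ _ => ?_
    split_ifs
    · ring
    · simp
  rw [h3]
  have h4 : ∀ C ∈ powersetCard k T, ∀ C' ∈ powersetCard k' (T \ C),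
      ∑ w, Ph (C ∪ C') (fP C C') ξ w ^ 2 = (1 / 4 : ℝ) ^ (k + k') * SqE (C ∪ C') ξ := by
    intro C hC C' hC'
    obtain ⟨h5, h6⟩ := Finset.mem_powersetCard.1 hC
    obtain ⟨h7, h8⟩ := Finset.mem_powersetCard.1 hC'
    have hd : Disjoint C C' := (Finset.disjoint_of_subset_left h7 Finset.sdiff_disjoint).symm
    rw [sum_Ph_fP hξ hD (Finset.union_subset h5 (h7.trans Finset.sdiff_subset)),
      Finset.card_union_of_disjoint hd, h6, h8]
  rw [Finset.sum_congr rfl fun C hC => Finset.sum_congr rfl fun C' hC' => h4 C hC C' hC']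
  simp only [← Finset.mul_sum]
  rw [sum_union_powersetCard T k k' (fun D => SqE D ξ)]
  ring

/-- **The moment inequality for the `π`**. -/
theorem fr_moment {T : Finset Tok} {ξ : Vs (S × Bool) Tok}
    (hξ : ξ ∈ (VT T : Submodule ℝ (Vs (S × Bool) Tok))) (hD : ∀ e, Dop e ξ = 0) (k k' : ℕ) :
    ∑ A ∈ T.powerset, ∑ r ∈ Finset.range (A.card + 1), ∑ r' ∈ Finset.range ((T \ A).card + 1),
        coL k r (Gv (Fintype.card S : ℝ) r A.card) *
          coL k' r' (Gv (Fintype.card S : ℝ) r' (T \ A).card) * piM A (T \ A) (Xi ξ T A) r r'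
      ≤ (k.factorial : ℝ) * (k'.factorial : ℝ) * ((k + k').choose k : ℝ) * (1 / 4 : ℝ) ^ (k + k') *
          ∑ D ∈ powersetCard (k + k') T, SqE D ξ := by
  rw [← moment_identity hξ hD k k']
  exact Finset.sum_le_sum fun A _ => tensor_moment k k' (Xi_col ξ T A) (Xi_row ξ T A)

/-- **The mass of the `π`**. -/
theorem fr_mass {T : Finset Tok} {ξ : Vs (S × Bool) Tok}
    (hξ : ξ ∈ (VT T : Submodule ℝ (Vs (S × Bool) Tok))) :
    fro (XiF ξ) (XiF ξ) = ∑ A ∈ T.powerset, ∑ r ∈ Finset.range (A.card + 1),
      ∑ r' ∈ Finset.range ((T \ A).card + 1), piM A (T \ A) (Xi ξ T A) r r' := by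
  rw [fro_XiF_self hξ]
  exact Finset.sum_congr rfl fun A _ => tensor_mass (Xi_col ξ T A) (Xi_row ξ T A)

/-- `ip ξ ξ` is the mass of the matrix of `ξ`. -/
lemma fro_XiF_eq_ip (ξ : Vs (S × Bool) Tok) : fro (XiF ξ) (XiF ξ) = ip ξ ξ := by
  rw [fro_apply, Finset.sum_comm]
  unfold ip
  rw [sum_parent]
  rfl

/-- **The upper bound for `Z ⊗ Z`**. -/
theorem fr_upper {T : Finset Tok} {ξ : Vs (S × Bool) Tok}
    (hξ : ξ ∈ (VT T : Submodule ℝ (Vs (S × Bool) Tok)))
    (Z : Vs S Tok →ₗ[ℝ] Vs S Tok)
    (hsym : ∀ f g, ip (Z f) g = ip f (Z g))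
    (hpos : ∀ f, 0 ≤ ip f (Z f))
    (hU : ∀ i f, Z (Uop i f) = Uop i (Z f))
    (hD : ∀ i f, Z (Dop i f) = Dop i (Z f))
    (hT : ∀ (T : Finset Tok) f, f ∈ VT T → Z f ∈ VT T)
    (θ : ℕ → ℝ) (hθ0 : ∀ j, 0 ≤ θ j)
    (hθ : ∀ (T : Finset Tok) (f : Vs S Tok), f ∈ VT T → (∀ e, Dop e f = 0) →
      ip f (Z f) ≤ θ T.card * ip f f) :
    fro (XiF ξ) (mat Z * XiF ξ * (mat Z)ᵀ) ≤ ∑ A ∈ T.powerset, ∑ r ∈ Finset.range (A.card + 1),
      ∑ r' ∈ Finset.range ((T \ A).card + 1),
        θ (A.card - r) * θ ((T \ A).card - r') * piM A (T \ A) (Xi ξ T A) r r' := by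
  rw [fro_XiF_Z hξ Z Z hT]
  exact Finset.sum_le_sum fun A _ => tensor_upper Z Z hsym hpos hU hD hT hsym hpos hU hD hT
    θ hθ0 hθ θ hθ0 hθ (Xi_col ξ T A) (Xi_row ξ T A)

/-! ### The floor -/

/-- `Dop` on a joined word. -/
lemma Dop_joinW (e : Tok) (ξ : Vs (S × Bool) Tok) (u v : S → Option Tok) :
    Dop e ξ (joinW u v) = (∑ a, if u a = none then ξ (joinW (update u a (some e)) v) else 0)
      + ∑ a, if v a = none then ξ (joinW u (update v a (some e))) else 0 := by
  rw [Eop_apply, Fintype.sum_prod_type, ← Finset.sum_add_distrib]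
  refine Finset.sum_congr rfl fun a _ => ?_
  rw [Fintype.sum_bool, add_comm]
  have h1 : update (joinW u v) (a, false) (some e) = joinW (update u a (some e)) v := by
    funext ⟨x, b⟩
    cases b with
    | false =>
      by_cases hx : x = a
      · subst hx; simp [joinW]
      · have : (x, false) ≠ (a, false) := by simp [hx]
        rw [update_of_ne this]
        simp [joinW, update_of_ne hx]
    | true =>
      have : (x, true) ≠ (a, false) := by simp
      rw [update_of_ne this]
      simp [joinW]
  have h2 : update (joinW u v) (a, true) (some e) = joinW u (update v a (some e)) := by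
    funext ⟨x, b⟩
    cases b with
    | true =>
      by_cases hx : x = a
      · subst hx; simp [joinW]
      · have : (x, true) ≠ (a, true) := by simp [hx]
        rw [update_of_ne this]
        simp [joinW, update_of_ne hx]
    | false =>
      have : (x, false) ≠ (a, true) := by simp
      rw [update_of_ne this]
      simp [joinW]
  rw [h1, h2]
  simp [joinW]

/-- A `T`-word has at most `|X|` tokens. -/
lemma IsT.card_le {T : Finset Tok} {w : S → Option Tok} (h : IsT T w) :
    T.card ≤ Fintype.card S := by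
  have h1 := h.cnt_none
  have h2 : (0 : ℝ) ≤ cnt w none := Nat.cast_nonneg _
  have : (T.card : ℝ) ≤ Fintype.card S := by linarith
  exact_mod_cast this

/-- **The floor**, left version: no level below `|T| - N` on the left. -/
theorem floor_left {T : Finset Tok} {ξ : Vs (S × Bool) Tok} (hD : ∀ e, Dop e ξ = 0) (r : ℕ) :
    ∀ (A : Finset Tok), A ⊆ T → ∀ (y : Vs S Tok), y ∈ (Fr r A : Submodule ℝ (Vs S Tok)) →
    ∀ (v : S → Option Tok), IsT (T \ A) v → Fintype.card S < r + (T \ A).card →
      ∑ u, y u * ξ (joinW u v) = 0 := by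
  induction r with
  | zero =>
    intro A _ y _ v hv hlt
    have := hv.card_le
    omega
  | succ r ih =>
    intro A hAT y hy v hv hlt
    have hker : (Fr (r + 1) A : Submodule ℝ (Vs S Tok)) ≤
        LinearMap.ker (ipL (fun u => ξ (joinW u v))) := by
      conv_lhs => rw [Fr_succ]
      refine iSup₂_le fun i hi => ?_
      rintro _ ⟨g, hg, rfl⟩
      show ip (fun u => ξ (joinW u v)) (Uop i g) = 0
      rw [← ip_Dop]
      -- the left sum is minus the right sum
      have h1 : ∀ u, Dop i (fun u => ξ (joinW u v)) u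
          = - ∑ a, if v a = none then ξ (joinW u (update v a (some i))) else 0 := by
        intro u
        have h2 := Dop_joinW i ξ u v
        rw [hD] at h2
        have h3 : (0 : (S × Bool → Option Tok) → ℝ) (joinW u v) = 0 := rfl
        rw [h3] at h2
        have h4 : Dop i (fun u => ξ (joinW u v)) u
            = ∑ a, if u a = none then ξ (joinW (update u a (some i)) v) else 0 := rfl
        rw [h4]
        linarith
      unfold ip
      simp only [h1]
      have h5 : ∀ u, -(∑ a, if v a = none then ξ (joinW u (update v a (some i))) else 0) * g u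
          = - ∑ a, if v a = none then g u * ξ (joinW u (update v a (some i))) else 0 := by
        intro u
        rw [neg_mul, Finset.sum_mul]
        congr 1
        refine Finset.sum_congr rfl fun a _ => ?_
        split_ifs
        · ring
        · simp
      simp only [h5]
      rw [Finset.sum_neg_distrib, neg_eq_zero, Finset.sum_comm]
      refine Finset.sum_eq_zero fun a _ => ?_
      by_cases ha : v a = none
      · simp only [ha, if_true]
        have hi' : i ∉ T \ A := fun h => (Finset.mem_sdiff.1 h).2 hi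
        have hT' : T \ (A.erase i) = insert i (T \ A) := by
          ext x
          simp only [Finset.mem_sdiff, Finset.mem_erase, Finset.mem_insert]
          by_cases hx : x = i
          · subst hx; simp [hAT hi]
          · simp [hx]
        refine ih (A.erase i) ((Finset.erase_subset _ _).trans hAT) g hg (update v a (some i)) ?_ ?_
        · rw [hT']
          refine (IsT_update_none ha).2 ⟨Finset.mem_insert_self _ _, ?_⟩
          rw [Finset.erase_insert hi']
          exact hv
        · rw [hT', Finset.card_insert_of_notMem hi']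
          omega
      · simp [ha]
    have h6 := hker hy
    have h7 : ip (fun u => ξ (joinW u v)) y = 0 := h6
    rw [ip_comm] at h7
    exact h7

/-- **The floor**, right version. -/
theorem floor_right {T : Finset Tok} {ξ : Vs (S × Bool) Tok} (hD : ∀ e, Dop e ξ = 0) (r : ℕ) :
    ∀ (A : Finset Tok), A ⊆ T → ∀ (y : Vs S Tok), y ∈ (Fr r A : Submodule ℝ (Vs S Tok)) →
    ∀ (u : S → Option Tok), IsT (T \ A) u → Fintype.card S < r + (T \ A).card →
      ∑ v, y v * ξ (joinW u v) = 0 := by
  induction r with
  | zero =>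
    intro A _ y _ v hv hlt
    have := hv.card_le
    omega
  | succ r ih =>
    intro A hAT y hy u hu hlt
    have hker : (Fr (r + 1) A : Submodule ℝ (Vs S Tok)) ≤
        LinearMap.ker (ipL (fun v => ξ (joinW u v))) := by
      conv_lhs => rw [Fr_succ]
      refine iSup₂_le fun i hi => ?_
      rintro _ ⟨g, hg, rfl⟩
      show ip (fun v => ξ (joinW u v)) (Uop i g) = 0
      rw [← ip_Dop]
      have h1 : ∀ v, Dop i (fun v => ξ (joinW u v)) v
          = - ∑ a, if u a = none then ξ (joinW (update u a (some i)) v) else 0 := by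
        intro v
        have h2 := Dop_joinW i ξ u v
        rw [hD] at h2
        have h3 : (0 : (S × Bool → Option Tok) → ℝ) (joinW u v) = 0 := rfl
        rw [h3] at h2
        have h4 : Dop i (fun v => ξ (joinW u v)) v
            = ∑ a, if v a = none then ξ (joinW u (update v a (some i))) else 0 := rfl
        rw [h4]
        linarith
      unfold ip
      simp only [h1]
      have h5 : ∀ v, -(∑ a, if u a = none then ξ (joinW (update u a (some i)) v) else 0) * g v
          = - ∑ a, if u a = none then g v * ξ (joinW (update u a (some i)) v) else 0 := by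
        intro v
        rw [neg_mul, Finset.sum_mul]
        congr 1
        refine Finset.sum_congr rfl fun a _ => ?_
        split_ifs
        · ring
        · simp
      simp only [h5]
      rw [Finset.sum_neg_distrib, neg_eq_zero, Finset.sum_comm]
      refine Finset.sum_eq_zero fun a _ => ?_
      by_cases ha : u a = none
      · simp only [ha, if_true]
        have hi' : i ∉ T \ A := fun h => (Finset.mem_sdiff.1 h).2 hi
        have hT' : T \ (A.erase i) = insert i (T \ A) := by
          ext x
          simp only [Finset.mem_sdiff, Finset.mem_erase, Finset.mem_insert]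
          by_cases hx : x = i
          · subst hx; simp [hAT hi]
          · simp [hx]
        refine ih (A.erase i) ((Finset.erase_subset _ _).trans hAT) g hg (update u a (some i)) ?_ ?_
        · rw [hT']
          refine (IsT_update_none ha).2 ⟨Finset.mem_insert_self _ _, ?_⟩
          rw [Finset.erase_insert hi']
          exact hu
        · rw [hT', Finset.card_insert_of_notMem hi']
          omega
      · simp [ha]
    have h6 := hker hy
    have h7 : ip (fun v => ξ (joinW u v)) y = 0 := h6
    rw [ip_comm] at h7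
    exact h7

/-- `π` vanishes below the floor, left level. -/
theorem piM_floor_left {T A : Finset Tok} (hAT : A ⊆ T) {ξ : Vs (S × Bool) Tok}
    (hD : ∀ e, Dop e ξ = 0) {r r' : ℕ} (hlt : Fintype.card S < r + (T \ A).card) :
    piM A (T \ A) (Xi ξ T A) r r' = 0 := by
  have h1 : PL (X := S) r A * Xi ξ T A = 0 := by
    ext u v
    rw [mat_mul_apply]
    have h2 : Pj r A (fun u => Xi ξ T A u v) = 0 := by
      refine proj_eq_zero fun y hy => ?_
      by_cases hv : IsT (T \ A) v
      · have hyV : y ∈ (VT A : Submodule ℝ (Vs S Tok)) := Lev_le_VT _ _ hy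
        rw [← floor_left hD r A hAT y hy.1 v hv hlt]
        unfold ip
        refine Finset.sum_congr rfl fun u _ => ?_
        by_cases hu : IsT A u
        · simp [Xi, hu, hv]
        · simp [hyV u hu]
      · have : (fun u => Xi ξ T A u v) = 0 := by
          funext u; simp [Xi, hv]
        rw [this, ip_zero_right]
    rw [h2]
    rfl
  unfold piM
  rw [h1]
  simp [fro]

/-- `π` vanishes below the floor, right level. -/
theorem piM_floor_right {T A : Finset Tok} (hAT : A ⊆ T) {ξ : Vs (S × Bool) Tok}
    (hD : ∀ e, Dop e ξ = 0) {r r' : ℕ} (hlt : Fintype.card S < r' + A.card) :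
    piM A (T \ A) (Xi ξ T A) r r' = 0 := by
  have hsub : T \ (T \ A) = A := Finset.sdiff_sdiff_eq_self hAT
  have h1 : Xi ξ T A * (PL (X := S) r' (T \ A))ᵀ = 0 := by
    ext u v
    rw [mul_mat_transpose_apply]
    have h2 : Pj r' (T \ A) (Xi ξ T A u) = 0 := by
      refine proj_eq_zero fun y hy => ?_
      by_cases hu : IsT A u
      · have hyV : y ∈ (VT (T \ A) : Submodule ℝ (Vs S Tok)) := Lev_le_VT _ _ hy
        have h3 := floor_right hD r' (T \ A) Finset.sdiff_subset y hy.1 u
          (by rw [hsub]; exact hu) (by rw [hsub]; exact hlt)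
        rw [← h3]
        unfold ip
        refine Finset.sum_congr rfl fun v _ => ?_
        by_cases hv : IsT (T \ A) v
        · simp [Xi, hu, hv]
        · simp [hyV v hv]
      · have : Xi ξ T A u = 0 := by
          funext v; simp [Xi, hu]
        rw [this, ip_zero_right]
    rw [h2]
    rfl
  unfold piM
  rw [Matrix.mul_assoc, h1]
  simp [fro]

end Parent

end Crest.Agent.S0222Lib.FRCore
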