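import Crest.Agent.S0222Lib.FRPotMain

/-!
# S0222, first-row bound: the checker of `BoxFacts`, in exact rational arithmetic

`chk test n y₁ y₂ t₁ t₂` splits the box `[y₁, y₂] × [t₁, t₂]` at most `n` times until `test` accepts
each piece. The tests compare a rational lower bound of the scaled expression on a box with what
is needed; it comes from monotonicity of `Φ`, the bounds of `Real.log` by its series
(`Real.abs_log_sub_add_sum_range_le`) and `Real.log_two_gt_d9`, `Real.log_two_lt_d9`.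
-/

set_option autoImplicit false
set_option linter.unusedSectionVars false
set_option linter.unusedVariables false

namespace Crest.Agent.S0222Lib.FRCore.Pot.BoxQ

/-! ### Basic operations on rationals -/

/-- The maximum. -/
def mx (a b : ℚ) : ℚ := if a ≤ b then b else a
/-- The minimum. -/
def mn (a b : ℚ) : ℚ := if a ≤ b then a else b
/-- The absolute value. -/
def ab (a : ℚ) : ℚ := if 0 ≤ a then a else -a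

lemma mx_cast (a b : ℚ) : ((mx a b : ℚ) : ℝ) = max (a : ℝ) b := by
  unfold mx
  split_ifs with h
  · rw [max_eq_right (by exact_mod_cast h)]
  · rw [max_eq_left (by exact_mod_cast (not_le.1 h).le)]

lemma mn_cast (a b : ℚ) : ((mn a b : ℚ) : ℝ) = min (a : ℝ) b := by
  unfold mn
  split_ifs with h
  · rw [min_eq_left (by exact_mod_cast h)]
  · rw [min_eq_right (by exact_mod_cast (not_le.1 h).le)]

lemma ab_cast (a : ℚ) : ((ab a : ℚ) : ℝ) = |(a : ℝ)| := by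
  unfold ab
  split_ifs with h
  · rw [abs_of_nonneg (by exact_mod_cast h)]
  · rw [abs_of_neg (by exact_mod_cast (not_le.1 h))]
    push_cast
    rfl

/-- Rounding down. -/
def rdn (q : ℚ) : ℚ := (⌊q * 1073741824⌋ : ℚ) / 1073741824
/-- Rounding up. -/
def rup (q : ℚ) : ℚ := (⌈q * 1073741824⌉ : ℚ) / 1073741824

lemma rdn_le (q : ℚ) : rdn q ≤ q := by
  unfold rdn
  rw [div_le_iff₀ (by norm_num)]
  exact Int.floor_le _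

lemma le_rup (q : ℚ) : q ≤ rup q := by
  unfold rup
  rw [le_div_iff₀ (by norm_num)]
  exact Int.le_ceil _

/-! ### Bounds of the logarithm -/

/-- The series of `-log (1 - x)`, ten terms. -/
def ser (x : ℚ) : ℚ :=
  x * (1 + x * (1 / 2 + x * (1 / 3 + x * (1 / 4 + x * (1 / 5 + x * (1 / 6 + x * (1 / 7 +
    x * (1 / 8 + x * (1 / 9 + x * (1 / 10))))))))))

/-- The error of the series. -/
def err (x : ℚ) : ℚ := (ab x) ^ 11 / (1 - ab x)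

/-- The lower bound near `1`. -/
def baseLo (q : ℚ) : ℚ := -ser (1 - q) - err (1 - q)
/-- The upper bound near `1`. -/
def baseHi (q : ℚ) : ℚ := -ser (1 - q) + err (1 - q)

lemma base_bounds {q : ℚ} (h0 : 0 < q) (h2 : q < 2) :
    ((baseLo q : ℚ) : ℝ) ≤ Real.log q ∧ Real.log q ≤ ((baseHi q : ℚ) : ℝ) := by
  have hq0 : (0 : ℝ) < q := by exact_mod_cast h0
  have hq2 : (q : ℝ) < 2 := by exact_mod_cast h2
  have hx : |1 - (q : ℝ)| < 1 := by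
    rw [abs_lt]
    constructor <;> linarith
  have h := Real.abs_log_sub_add_sum_range_le hx 10
  have e1 : (1 : ℝ) - (1 - (q : ℝ)) = q := by ring
  rw [e1] at h
  have e2 : ∑ i ∈ Finset.range 10, (1 - (q : ℝ)) ^ (i + 1) / ((i : ℝ) + 1) =
      ((ser (1 - q) : ℚ) : ℝ) := by
    unfold ser
    push_cast
    simp only [Finset.sum_range_succ, Finset.sum_range_zero]
    norm_num
    ring
  have e3 : |1 - (q : ℝ)| ^ (10 + 1) / (1 - |1 - (q : ℝ)|) = ((err (1 - q) : ℚ) : ℝ) := by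
    unfold err
    push_cast [ab_cast]
    rfl
  rw [e2, e3, abs_le] at h
  unfold baseLo baseHi
  push_cast
  constructor <;> linarith [h.1, h.2]

/-- Lower bound of `log 2`. -/
def L2lo : ℚ := 6931471803 / 10000000000
/-- Upper bound of `log 2`. -/
def L2hi : ℚ := 6931471808 / 10000000000

lemma L2lo_le : ((L2lo : ℚ) : ℝ) ≤ Real.log 2 := by
  have := Real.log_two_gt_d9
  unfold L2lo
  push_cast
  norm_num at this ⊢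
  linarith

lemma le_L2hi : Real.log 2 ≤ ((L2hi : ℚ) : ℝ) := by
  have := Real.log_two_lt_d9
  unfold L2hi
  push_cast
  norm_num at this ⊢
  linarith

/-- The lower bound, with reduction by powers of two. -/
def logLoR : ℕ → ℚ → ℚ
  | 0, q => 1 - 1 / q
  | n + 1, q => if q ≤ 4 / 3 then baseLo q else L2lo + logLoR n (q / 2)

/-- The upper bound, with reduction by powers of two. -/
def logHiR : ℕ → ℚ → ℚ
  | 0, q => q - 1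
  | n + 1, q => if q ≤ 4 / 3 then baseHi q else L2hi + logHiR n (q / 2)

lemma log_half {q : ℚ} (h0 : 0 < q) :
    Real.log q = Real.log 2 + Real.log ((q / 2 : ℚ) : ℝ) := by
  have hq0 : (0 : ℝ) < q := by exact_mod_cast h0
  push_cast
  rw [Real.log_div hq0.ne' (by norm_num)]
  ring

lemma logLoR_le (n : ℕ) {q : ℚ} (h0 : 0 < q) : ((logLoR n q : ℚ) : ℝ) ≤ Real.log q := by
  induction n generalizing q with
  | zero =>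
    have hq0 : (0 : ℝ) < q := by exact_mod_cast h0
    unfold logLoR
    have := Real.one_sub_inv_le_log_of_pos hq0
    push_cast
    simpa [one_div] using this
  | succ n ih =>
    unfold logLoR
    split_ifs with h
    · exact (base_bounds h0 (by linarith)).1
    · have h1 := ih (q := q / 2) (by positivity)
      have h2 := L2lo_le
      rw [log_half h0]
      push_cast at h1 ⊢
      linarith

lemma le_logHiR (n : ℕ) {q : ℚ} (h0 : 0 < q) : Real.log q ≤ ((logHiR n q : ℚ) : ℝ) := by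
  induction n generalizing q with
  | zero =>
    have hq0 : (0 : ℝ) < q := by exact_mod_cast h0
    unfold logHiR
    have := Real.log_le_sub_one_of_pos hq0
    push_cast
    exact this
  | succ n ih =>
    unfold logHiR
    split_ifs with h
    · exact (base_bounds h0 (by linarith)).2
    · have h1 := ih (q := q / 2) (by positivity)
      have h2 := le_L2hi
      rw [log_half h0]
      push_cast at h1 ⊢
      linarith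

/-- The lower bound used. -/
def logLo (q : ℚ) : ℚ :=
  if 0 < rdn q then rdn (logLoR 20 (rdn q)) else 0

/-- The upper bound used. -/
def logHi (q : ℚ) : ℚ := rup (logHiR 20 (rup q))

lemma logLo_le {q : ℚ} (h1 : 1 ≤ q) : ((logLo q : ℚ) : ℝ) ≤ Real.log q := by
  have hq1 : (1 : ℝ) ≤ q := by exact_mod_cast h1
  unfold logLo
  split_ifs with h
  · have hr : (0 : ℝ) < rdn q := by exact_mod_cast h
    have h2 := logLoR_le 20 h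
    have h3 : ((rdn (logLoR 20 (rdn q)) : ℚ) : ℝ) ≤ ((logLoR 20 (rdn q) : ℚ) : ℝ) := by
      exact_mod_cast rdn_le _
    have h4 : Real.log (rdn q) ≤ Real.log q := Real.log_le_log hr (by exact_mod_cast rdn_le q)
    linarith
  · push_cast
    exact Real.log_nonneg hq1

lemma le_logHi {q : ℚ} (h0 : 0 < q) : Real.log q ≤ ((logHi q : ℚ) : ℝ) := by
  have hq0 : (0 : ℝ) < q := by exact_mod_cast h0
  unfold logHi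
  have hr : 0 < rup q := lt_of_lt_of_le h0 (le_rup q)
  have h2 := le_logHiR 20 hr
  have h3 : ((logHiR 20 (rup q) : ℚ) : ℝ) ≤ ((rup (logHiR 20 (rup q)) : ℚ) : ℝ) := by
    exact_mod_cast le_rup _
  have h4 : Real.log q ≤ Real.log (rup q) := Real.log_le_log hq0 (by exact_mod_cast le_rup q)
  linarith

/-! ### Bounds of the potential -/

/-- `c1` in `ℚ`. -/
def c1q : ℚ := 1 / 100
/-- `x0` in `ℚ`. -/
def x0q : ℚ := 19 / 64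

lemma c1q_cast : ((c1q : ℚ) : ℝ) = c1 := by
  unfold c1q c1
  push_cast
  rfl

lemma x0q_cast : ((x0q : ℚ) : ℝ) = x0 := by
  unfold x0q x0
  push_cast
  rfl

/-- The plateau in `ℚ`. -/
def PlQ : ℚ := x0q * (c1q + x0q / 2)

lemma PlQ_cast : ((PlQ : ℚ) : ℝ) = Pl := by
  unfold PlQ Pl
  push_cast
  rw [c1q_cast, x0q_cast]

/-- Lower bound of `Φ`. -/
def PhiLo (a : ℚ) : ℚ :=
  if a ≤ 0 then 0 else if x0q ≤ a then PlQ else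
    c1q * a * (1 + logLo (x0q / a)) + x0q * a - a ^ 2 / 2

/-- Upper bound of `Φ`. -/
def PhiHi (a : ℚ) : ℚ :=
  if a ≤ 0 then 0 else if x0q ≤ a then PlQ else
    c1q * a * (1 + logHi (x0q / a)) + x0q * a - a ^ 2 / 2

lemma Phi_of_x0_le {a : ℝ} (h : x0 ≤ a) : Phi a = Pl := by
  rcases h.eq_or_lt with h6 | h6
  · rw [← h6, Phi_eq_PhiF' x0_pos.le le_rfl, PhiF_x0]
  · exact Phi_eq_Pl h6

lemma PhiLo_le (a : ℚ) : ((PhiLo a : ℚ) : ℝ) ≤ Phi a := by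
  unfold PhiLo
  split_ifs with h1 h2
  · have : (a : ℝ) ≤ 0 := by exact_mod_cast h1
    unfold Phi
    rw [if_pos this]
    simp
  · have : x0 ≤ (a : ℝ) := by
      rw [← x0q_cast]
      exact_mod_cast h2
    rw [Phi_of_x0_le this, PlQ_cast]
  · have h0 : (0 : ℝ) < a := by exact_mod_cast not_le.1 h1
    have h3 : (a : ℝ) < x0 := by
      rw [← x0q_cast]
      exact_mod_cast not_le.1 h2
    rw [Phi_of_mem h0 h3.le]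
    have h4 : 1 ≤ x0q / (a : ℚ) := by
      rw [one_le_div (not_le.1 h1)]
      exact (not_le.1 h2).le
    have h5 := logLo_le h4
    have e : ((x0q / a : ℚ) : ℝ) = x0 / a := by
      push_cast
      rw [x0q_cast]
    rw [e] at h5
    push_cast
    rw [c1q_cast, x0q_cast]
    have h6 := mul_le_mul_of_nonneg_left h5 (mul_pos c1_pos h0).le
    nlinarith

lemma le_PhiHi (a : ℚ) : Phi a ≤ ((PhiHi a : ℚ) : ℝ) := by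
  unfold PhiHi
  split_ifs with h1 h2
  · have : (a : ℝ) ≤ 0 := by exact_mod_cast h1
    unfold Phi
    rw [if_pos this]
    simp
  · have : x0 ≤ (a : ℝ) := by
      rw [← x0q_cast]
      exact_mod_cast h2
    rw [Phi_of_x0_le this, PlQ_cast]
  · have h0 : (0 : ℝ) < a := by exact_mod_cast not_le.1 h1
    have h3 : (a : ℝ) < x0 := by
      rw [← x0q_cast]
      exact_mod_cast not_le.1 h2
    rw [Phi_of_mem h0 h3.le]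
    have h4 : 0 < x0q / (a : ℚ) := div_pos (by unfold x0q; norm_num) (not_le.1 h1)
    have h5 := le_logHi h4
    have e : ((x0q / a : ℚ) : ℝ) = x0 / a := by
      push_cast
      rw [x0q_cast]
    rw [e] at h5
    push_cast
    rw [c1q_cast, x0q_cast]
    have h6 := mul_le_mul_of_nonneg_left h5 (mul_pos c1_pos h0).le
    nlinarith

/-! ### The lower bounds on a box -/

/-- `zNf` in `ℚ`. -/
def zQ (y : ℚ) : ℚ := (3 / 5) / (y ^ 2 + y)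
/-- `eF` in `ℚ`. -/
def eQ (y : ℚ) : ℚ := mx (2 * y ^ 2 - 1) 0

/-- Lower bound of `Tf`. -/
def TLo (y₁ y₂ t₁ t₂ : ℚ) : ℚ :=
  PhiLo (eQ y₁) + (1 / 2) * mx (t₁ - eQ y₂) 0 * logLo (1 + zQ y₂ * mx (1 - t₂ - eQ y₂) 0)

/-- Lower bound of `Uf`. -/
def ULo (y₁ t₁ t₂ : ℚ) : ℚ := PhiLo (mx (eQ y₁) (mn t₁ (1 - t₂)))

/-- Lower bound of `Qf`. -/
def QLo (y₁ y₂ t₁ t₂ : ℚ) : ℚ :=
  (7 / 10) * (mx (mx (2 * t₁ - 2 * y₂ ^ 2) (2 * y₁ ^ 2 - 2 * t₂)) 0) ^ 2 / (4 * (2 * y₂ ^ 2))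

section Box

variable {y₁ y₂ t₁ t₂ : ℚ} {y τ : ℝ}

lemma sq_box (h0 : 0 ≤ y₁) (h1 : (y₁ : ℝ) ≤ y) (h2 : y ≤ y₂) :
    ((y₁ : ℝ)) ^ 2 ≤ y ^ 2 ∧ y ^ 2 ≤ (y₂ : ℝ) ^ 2 := by
  have h0' : (0 : ℝ) ≤ y₁ := by exact_mod_cast h0
  exact ⟨pow_le_pow_left₀ h0' h1 2, pow_le_pow_left₀ (h0'.trans h1) h2 2⟩

lemma eQ_le (h0 : 0 ≤ y₁) (h1 : (y₁ : ℝ) ≤ y) : ((eQ y₁ : ℚ) : ℝ) ≤ eF y := by
  have h0' : (0 : ℝ) ≤ y₁ := by exact_mod_cast h0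
  have h3 : (y₁ : ℝ) ^ 2 ≤ y ^ 2 := pow_le_pow_left₀ h0' h1 2
  unfold eQ eF
  rw [mx_cast]
  push_cast
  exact max_le_max (by linarith) le_rfl

lemma le_eQ (h0 : 0 ≤ y) (h2 : y ≤ y₂) : eF y ≤ ((eQ y₂ : ℚ) : ℝ) := by
  have h3 : y ^ 2 ≤ (y₂ : ℝ) ^ 2 := pow_le_pow_left₀ h0 h2 2
  unfold eQ eF
  rw [mx_cast]
  push_cast
  exact max_le_max (by linarith) le_rfl

lemma TLo_le (h0 : 0 ≤ y₁) (hy : 0 < y) (h1 : (y₁ : ℝ) ≤ y) (h2 : y ≤ y₂)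
    (h3 : (t₁ : ℝ) ≤ τ) (h4 : τ ≤ t₂) :
    ((TLo y₁ y₂ t₁ t₂ : ℚ) : ℝ) ≤ Tf y τ := by
  have he1 := eQ_le h0 h1
  have he2 := le_eQ hy.le h2
  have hy2 : (0 : ℝ) < y₂ := hy.trans_le h2
  have hy2q : 0 < y₂ := by exact_mod_cast hy2
  have hz : ((zQ y₂ : ℚ) : ℝ) ≤ zNf y := by
    unfold zQ zNf
    push_cast
    have h5 : y ^ 2 ≤ (y₂ : ℝ) ^ 2 := pow_le_pow_left₀ hy.le h2 2
    apply div_le_div_of_nonneg_left (by norm_num) (by positivity) (by linarith)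
  have hz0 : (0 : ℝ) ≤ ((zQ y₂ : ℚ) : ℝ) := by
    unfold zQ
    push_cast
    positivity
  have hm0 : (0 : ℝ) ≤ max (1 - (t₂ : ℝ) - ((eQ y₂ : ℚ) : ℝ)) 0 := le_max_right _ _
  have hm : max (1 - (t₂ : ℝ) - ((eQ y₂ : ℚ) : ℝ)) 0 ≤ max (1 - τ - eF y) 0 :=
    max_le_max (by linarith) le_rfl
  have hl0 : (0 : ℝ) ≤ max ((t₁ : ℝ) - ((eQ y₂ : ℚ) : ℝ)) 0 := le_max_right _ _
  have hl : max ((t₁ : ℝ) - ((eQ y₂ : ℚ) : ℝ)) 0 ≤ max (τ - eF y) 0 :=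
    max_le_max (by linarith) le_rfl
  have hq1 : 1 ≤ 1 + zQ y₂ * mx (1 - t₂ - eQ y₂) 0 := by
    have h5 : 0 ≤ zQ y₂ := by
      unfold zQ
      positivity
    have h6 : 0 ≤ mx (1 - t₂ - eQ y₂) 0 := by
      unfold mx
      split_ifs with h7
      · exact le_rfl
      · linarith [not_le.1 h7]
    have := mul_nonneg h5 h6
    linarith
  have hlog := logLo_le hq1
  have hcast : ((1 + zQ y₂ * mx (1 - t₂ - eQ y₂) 0 : ℚ) : ℝ) =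
      1 + ((zQ y₂ : ℚ) : ℝ) * max (1 - (t₂ : ℝ) - ((eQ y₂ : ℚ) : ℝ)) 0 := by
    push_cast [mx_cast]
    rfl
  rw [hcast] at hlog
  have hzm : ((zQ y₂ : ℚ) : ℝ) * max (1 - (t₂ : ℝ) - ((eQ y₂ : ℚ) : ℝ)) 0 ≤
      zNf y * max (1 - τ - eF y) 0 :=
    mul_le_mul hz hm hm0 (hz0.trans hz)
  have hzm0 := mul_nonneg hz0 hm0
  have hlog2 : Real.log (1 + ((zQ y₂ : ℚ) : ℝ) * max (1 - (t₂ : ℝ) - ((eQ y₂ : ℚ) : ℝ)) 0) ≤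
      Real.log (1 + zNf y * max (1 - τ - eF y) 0) :=
    Real.log_le_log (by linarith) (by linarith)
  have hl3 : 0 ≤ Real.log (1 + zNf y * max (1 - τ - eF y) 0) :=
    Real.log_nonneg (by linarith)
  have hΦ : ((PhiLo (eQ y₁) : ℚ) : ℝ) ≤ Phi (eF y) := (PhiLo_le _).trans (Phi_mono he1)
  unfold TLo Tf
  push_cast [mx_cast]
  have hprod : max ((t₁ : ℝ) - ((eQ y₂ : ℚ) : ℝ)) 0 * ((logLo (1 + zQ y₂ * mx (1 - t₂ - eQ y₂) 0) : ℚ) : ℝ) ≤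
      max (τ - eF y) 0 * Real.log (1 + zNf y * max (1 - τ - eF y) 0) := by
    calc _ ≤ max ((t₁ : ℝ) - ((eQ y₂ : ℚ) : ℝ)) 0 * Real.log (1 + zNf y * max (1 - τ - eF y) 0) :=
          mul_le_mul_of_nonneg_left (hlog.trans hlog2) hl0
      _ ≤ _ := mul_le_mul_of_nonneg_right hl hl3
  linarith

lemma ULo_le (h0 : 0 ≤ y₁) (h1 : (y₁ : ℝ) ≤ y) (h3 : (t₁ : ℝ) ≤ τ) (h4 : τ ≤ t₂) :
    ((ULo y₁ t₁ t₂ : ℚ) : ℝ) ≤ Uf y τ := by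
  unfold ULo Uf
  refine (PhiLo_le _).trans (Phi_mono ?_)
  rw [mx_cast, mn_cast]
  push_cast
  exact max_le_max (eQ_le h0 h1) (min_le_min h3 (by linarith))

lemma QLo_le (h0 : 0 ≤ y₁) (hy : 0 < y) (h1 : (y₁ : ℝ) ≤ y) (h2 : y ≤ y₂)
    (h3 : (t₁ : ℝ) ≤ τ) (h4 : τ ≤ t₂) :
    ((QLo y₁ y₂ t₁ t₂ : ℚ) : ℝ) ≤ Qf y τ := by
  obtain ⟨s1, s2⟩ := sq_box h0 h1 h2
  unfold QLo Qf
  push_cast [mx_cast]
  set d : ℝ := max (max (2 * (t₁ : ℝ) - 2 * (y₂ : ℝ) ^ 2) (2 * (y₁ : ℝ) ^ 2 - 2 * t₂)) 0 with hd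
  have hd0 : 0 ≤ d := le_max_right _ _
  have hd1 : d ≤ |2 * τ - 2 * y ^ 2| := by
    apply max_le
    · apply max_le
      · exact le_trans (by linarith) (le_abs_self _)
      · exact le_trans (by linarith) (neg_le_abs _)
    · exact abs_nonneg _
  have hd2 : d ^ 2 ≤ (2 * τ - 2 * y ^ 2) ^ 2 := by
    rw [← sq_abs (2 * τ - 2 * y ^ 2)]
    exact pow_le_pow_left₀ hd0 hd1 2
  have hy2 : (0 : ℝ) < y ^ 2 := by positivity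
  apply div_le_div₀ (by positivity) (by linarith) (by positivity) (by linarith)

end Box

/-! ### The checker -/

/-- The checker of a box. -/
def chk (test : ℚ → ℚ → ℚ → ℚ → Bool) : ℕ → ℚ → ℚ → ℚ → ℚ → Bool
  | 0, _, _, _, _ => false
  | n + 1, y₁, y₂, t₁, t₂ =>
    test y₁ y₂ t₁ t₂ ||
      (if t₂ - t₁ < (y₂ - y₁) * 2 then
        chk test n y₁ ((y₁ + y₂) / 2) t₁ t₂ && chk test n ((y₁ + y₂) / 2) y₂ t₁ t₂
      else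
        chk test n y₁ y₂ t₁ ((t₁ + t₂) / 2) && chk test n y₁ y₂ ((t₁ + t₂) / 2) t₂)

theorem chk_sound {test : ℚ → ℚ → ℚ → ℚ → Bool} {C : ℝ → ℝ → Prop}
    (hT : ∀ y₁ y₂ t₁ t₂ : ℚ, test y₁ y₂ t₁ t₂ = true → ∀ y τ : ℝ, (y₁ : ℝ) ≤ y → y ≤ y₂ →
      (t₁ : ℝ) ≤ τ → τ ≤ t₂ → C y τ) :
    ∀ (n : ℕ) (y₁ y₂ t₁ t₂ : ℚ), chk test n y₁ y₂ t₁ t₂ = true → ∀ y τ : ℝ, (y₁ : ℝ) ≤ y → y ≤ y₂ →
      (t₁ : ℝ) ≤ τ → τ ≤ t₂ → C y τ := by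
  intro n
  induction n with
  | zero =>
    intro y₁ y₂ t₁ t₂ h
    simp [chk] at h
  | succ n ih =>
    intro y₁ y₂ t₁ t₂ h y τ h1 h2 h3 h4
    unfold chk at h
    rw [Bool.or_eq_true] at h
    rcases h with h | h
    · exact hT _ _ _ _ h y τ h1 h2 h3 h4
    · split_ifs at h with hs
      · rw [Bool.and_eq_true] at h
        rcases le_total y (((y₁ + y₂) / 2 : ℚ) : ℝ) with h5 | h5
        · exact ih _ _ _ _ h.1 y τ h1 h5 h3 h4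
        · exact ih _ _ _ _ h.2 y τ h5 h2 h3 h4
      · rw [Bool.and_eq_true] at h
        rcases le_total τ (((t₁ + t₂) / 2 : ℚ) : ℝ) with h5 | h5
        · exact ih _ _ _ _ h.1 y τ h1 h2 h3 h5
        · exact ih _ _ _ _ h.2 y τ h1 h2 h5 h4

/-! ### The tests -/

/-- The lower bound for `T`, `U`. -/
def lbTU (y₁ y₂ t₁ t₂ : ℚ) : ℚ :=
  TLo y₁ y₂ t₁ t₂ + ULo y₁ (2 * y₁ ^ 2 - t₂) (2 * y₂ ^ 2 - t₁) + QLo y₁ y₂ t₁ t₂ - 2 * PhiHi (y₂ ^ 2)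

/-- The lower bound for `T`, `T`. -/
def lbTT (y₁ y₂ t₁ t₂ : ℚ) : ℚ :=
  TLo y₁ y₂ t₁ t₂ + TLo y₁ y₂ (2 * y₁ ^ 2 - t₂) (2 * y₂ ^ 2 - t₁) + QLo y₁ y₂ t₁ t₂ -
    2 * PhiHi (y₂ ^ 2)

/-- The lower bound for `U`, `U`. -/
def lbUU (y₁ y₂ t₁ t₂ : ℚ) : ℚ :=
  ULo y₁ t₁ t₂ + ULo y₁ (2 * y₁ ^ 2 - t₂) (2 * y₂ ^ 2 - t₁) + QLo y₁ y₂ t₁ t₂ - 2 * PhiHi (y₂ ^ 2)

/-- The box may meet the domain, `2 y² ≤ 1`. -/
def dom0 (y₁ y₂ t₁ t₂ : ℚ) : Bool :=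
  decide (t₁ ≤ 2 * y₂ ^ 2) && decide (t₁ ≤ 1) && decide (2 * y₁ ^ 2 - t₂ ≤ 1) &&
    decide (2 * y₁ ^ 2 ≤ 1) && decide (0 ≤ t₂)

/-- The box may meet the domain, `2 y² ≤ 1`, `45/64 ≤ τ`. -/
def dom3 (y₁ y₂ t₁ t₂ : ℚ) : Bool :=
  decide (t₁ ≤ 2 * y₂ ^ 2) && decide (t₁ ≤ 1) && decide (2 * y₁ ^ 2 - t₂ ≤ 1) &&
    decide (2 * y₁ ^ 2 ≤ 1) && decide (45 / 64 ≤ t₂) && decide (45 / 64 ≤ 2 * y₂ ^ 2)

/-- The box may meet the domain, `1 ≤ 2 y²`. -/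
def dom1 (y₁ y₂ t₁ t₂ : ℚ) : Bool :=
  decide (t₁ ≤ 1) && decide (2 * y₁ ^ 2 - 1 ≤ t₂) && decide (2 * y₁ ^ 2 - t₂ ≤ 1) &&
    decide (t₁ ≤ 2 * y₂ ^ 2) && decide (1 ≤ 2 * y₂ ^ 2)

/-- The test of a box. -/
def test (dom : ℚ → ℚ → ℚ → ℚ → Bool) (lb : ℚ → ℚ → ℚ → ℚ → ℚ) (need : ℚ) (y₁ y₂ t₁ t₂ : ℚ) : Bool :=
  decide (0 ≤ y₁) && (!dom y₁ y₂ t₁ t₂ || decide (need ≤ lb y₁ y₂ t₁ t₂))

theorem test_sound {dom : ℚ → ℚ → ℚ → ℚ → Bool} {lb : ℚ → ℚ → ℚ → ℚ → ℚ} {need : ℚ}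
    {H : ℝ → ℝ → Prop} {E : ℝ → ℝ → ℝ}
    (hdom : ∀ (y₁ y₂ t₁ t₂ : ℚ) (y τ : ℝ), 0 ≤ y₁ → (y₁ : ℝ) ≤ y → y ≤ y₂ → (t₁ : ℝ) ≤ τ → τ ≤ t₂ →
      H y τ → dom y₁ y₂ t₁ t₂ = true)
    (hlb : ∀ (y₁ y₂ t₁ t₂ : ℚ) (y τ : ℝ), 0 ≤ y₁ → (y₁ : ℝ) ≤ y → y ≤ y₂ → (t₁ : ℝ) ≤ τ → τ ≤ t₂ →
      H y τ → ((lb y₁ y₂ t₁ t₂ : ℚ) : ℝ) ≤ E y τ) :
    ∀ y₁ y₂ t₁ t₂ : ℚ, test dom lb need y₁ y₂ t₁ t₂ = true → ∀ y τ : ℝ, (y₁ : ℝ) ≤ y → y ≤ y₂ →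
      (t₁ : ℝ) ≤ τ → τ ≤ t₂ → (H y τ → (need : ℝ) ≤ E y τ) := by
  intro y₁ y₂ t₁ t₂ h y τ h1 h2 h3 h4 hH
  unfold test at h
  rw [Bool.and_eq_true, Bool.or_eq_true, decide_eq_true_eq, decide_eq_true_eq] at h
  obtain ⟨h0, h5⟩ := h
  have hd := hdom y₁ y₂ t₁ t₂ y τ h0 h1 h2 h3 h4 hH
  rcases h5 with h5 | h5
  · rw [hd] at h5
    simp at h5
  · have h6 := hlb y₁ y₂ t₁ t₂ y τ h0 h1 h2 h3 h4 hH
    have h7 : (need : ℝ) ≤ ((lb y₁ y₂ t₁ t₂ : ℚ) : ℝ) := by exact_mod_cast h5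
    linarith

section Lb

variable {y₁ y₂ t₁ t₂ : ℚ} {y τ : ℝ}

lemma other_box (h0 : 0 ≤ y₁) (h1 : (y₁ : ℝ) ≤ y) (h2 : y ≤ y₂) (h3 : (t₁ : ℝ) ≤ τ) (h4 : τ ≤ t₂) :
    ((2 * y₁ ^ 2 - t₂ : ℚ) : ℝ) ≤ 2 * y ^ 2 - τ ∧ 2 * y ^ 2 - τ ≤ ((2 * y₂ ^ 2 - t₁ : ℚ) : ℝ) := by
  obtain ⟨s1, s2⟩ := sq_box h0 h1 h2
  push_cast
  constructor <;> linarith

lemma PhiHi_ge (h0 : 0 ≤ y) (h2 : y ≤ y₂) : Phi (y ^ 2) ≤ ((PhiHi (y₂ ^ 2) : ℚ) : ℝ) := by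
  refine (Phi_mono (pow_le_pow_left₀ h0 h2 2)).trans ?_
  have := le_PhiHi (y₂ ^ 2)
  push_cast at this
  exact this

lemma lbTU_le (h0 : 0 ≤ y₁) (hy : 0 < y) (h1 : (y₁ : ℝ) ≤ y) (h2 : y ≤ y₂) (h3 : (t₁ : ℝ) ≤ τ)
    (h4 : τ ≤ t₂) : ((lbTU y₁ y₂ t₁ t₂ : ℚ) : ℝ) ≤
      Tf y τ + Uf y (2 * y ^ 2 - τ) + Qf y τ - 2 * Phi (y ^ 2) := by
  obtain ⟨o1, o2⟩ := other_box h0 h1 h2 h3 h4
  have a1 := TLo_le h0 hy h1 h2 h3 h4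
  have a2 := ULo_le h0 h1 o1 o2
  have a3 := QLo_le h0 hy h1 h2 h3 h4
  have a4 := PhiHi_ge hy.le h2
  unfold lbTU
  rw [Rat.cast_sub, Rat.cast_add, Rat.cast_add, Rat.cast_mul]
  push_cast
  linarith

lemma lbTT_le (h0 : 0 ≤ y₁) (hy : 0 < y) (h1 : (y₁ : ℝ) ≤ y) (h2 : y ≤ y₂) (h3 : (t₁ : ℝ) ≤ τ)
    (h4 : τ ≤ t₂) : ((lbTT y₁ y₂ t₁ t₂ : ℚ) : ℝ) ≤
      Tf y τ + Tf y (2 * y ^ 2 - τ) + Qf y τ - 2 * Phi (y ^ 2) := by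
  obtain ⟨o1, o2⟩ := other_box h0 h1 h2 h3 h4
  have a1 := TLo_le h0 hy h1 h2 h3 h4
  have a2 := TLo_le h0 hy h1 h2 o1 o2
  have a3 := QLo_le h0 hy h1 h2 h3 h4
  have a4 := PhiHi_ge hy.le h2
  unfold lbTT
  rw [Rat.cast_sub, Rat.cast_add, Rat.cast_add, Rat.cast_mul]
  push_cast
  linarith

lemma lbUU_le (h0 : 0 ≤ y₁) (hy : 0 < y) (h1 : (y₁ : ℝ) ≤ y) (h2 : y ≤ y₂) (h3 : (t₁ : ℝ) ≤ τ)
    (h4 : τ ≤ t₂) : ((lbUU y₁ y₂ t₁ t₂ : ℚ) : ℝ) ≤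
      Uf y τ + Uf y (2 * y ^ 2 - τ) + Qf y τ - 2 * Phi (y ^ 2) := by
  obtain ⟨o1, o2⟩ := other_box h0 h1 h2 h3 h4
  have a1 := ULo_le h0 h1 h3 h4
  have a2 := ULo_le h0 h1 o1 o2
  have a3 := QLo_le h0 hy h1 h2 h3 h4
  have a4 := PhiHi_ge hy.le h2
  unfold lbUU
  rw [Rat.cast_sub, Rat.cast_add, Rat.cast_add, Rat.cast_mul]
  push_cast
  linarith

/-- Cast of a comparison on the box. -/
lemma cast_le_of {a b : ℚ} (h : (a : ℝ) ≤ b) : a ≤ b := by exact_mod_cast h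

end Lb

/-- The hypotheses of the first two facts. -/
def H0 (y τ : ℝ) : Prop := 7 / 32 ≤ y ∧ 2 * y ^ 2 ≤ 1 ∧ 0 ≤ τ ∧ τ ≤ 2 * y ^ 2

/-- The hypotheses of the third fact. -/
def H3 (y τ : ℝ) : Prop := 7 / 32 ≤ y ∧ 2 * y ^ 2 ≤ 1 ∧ 45 / 64 ≤ τ ∧ τ ≤ 2 * y ^ 2

/-- The hypotheses of the other facts. -/
def H1 (y τ : ℝ) : Prop :=
  0 ≤ y ∧ 1 ≤ 2 * y ^ 2 ∧ y ≤ 13 / 16 ∧ eF y ≤ τ ∧ τ ≤ 1 ∧ eF y ≤ 2 * y ^ 2 - τ ∧ 2 * y ^ 2 - τ ≤ 1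

lemma H0_pos {y τ : ℝ} (h : H0 y τ) : 0 < y := by
  have := h.1
  linarith

lemma H3_pos {y τ : ℝ} (h : H3 y τ) : 0 < y := by
  have := h.1
  linarith

lemma H1_pos {y τ : ℝ} (h : H1 y τ) : 0 < y := by
  obtain ⟨h0, h1, _⟩ := h
  rcases h0.eq_or_lt with h2 | h2
  · rw [← h2] at h1
    norm_num at h1
  · exact h2

lemma dom0_of {y₁ y₂ t₁ t₂ : ℚ} {y τ : ℝ} (h0 : 0 ≤ y₁) (h1 : (y₁ : ℝ) ≤ y) (h2 : y ≤ y₂)
    (h3 : (t₁ : ℝ) ≤ τ) (h4 : τ ≤ t₂) (hH : H0 y τ) : dom0 y₁ y₂ t₁ t₂ = true := by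
  obtain ⟨s1, s2⟩ := sq_box h0 h1 h2
  obtain ⟨a1, a2, a3, a4⟩ := hH
  unfold dom0
  simp only [Bool.and_eq_true, decide_eq_true_eq]
  refine ⟨⟨⟨⟨?_, ?_⟩, ?_⟩, ?_⟩, ?_⟩ <;> apply cast_le_of <;> push_cast <;> linarith

lemma dom3_of {y₁ y₂ t₁ t₂ : ℚ} {y τ : ℝ} (h0 : 0 ≤ y₁) (h1 : (y₁ : ℝ) ≤ y) (h2 : y ≤ y₂)
    (h3 : (t₁ : ℝ) ≤ τ) (h4 : τ ≤ t₂) (hH : H3 y τ) : dom3 y₁ y₂ t₁ t₂ = true := by
  obtain ⟨s1, s2⟩ := sq_box h0 h1 h2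
  obtain ⟨a1, a2, a3, a4⟩ := hH
  unfold dom3
  simp only [Bool.and_eq_true, decide_eq_true_eq]
  refine ⟨⟨⟨⟨⟨?_, ?_⟩, ?_⟩, ?_⟩, ?_⟩, ?_⟩ <;> apply cast_le_of <;> push_cast <;> linarith

lemma dom1_of {y₁ y₂ t₁ t₂ : ℚ} {y τ : ℝ} (h0 : 0 ≤ y₁) (h1 : (y₁ : ℝ) ≤ y) (h2 : y ≤ y₂)
    (h3 : (t₁ : ℝ) ≤ τ) (h4 : τ ≤ t₂) (hH : H1 y τ) : dom1 y₁ y₂ t₁ t₂ = true := by
  obtain ⟨s1, s2⟩ := sq_box h0 h1 h2
  obtain ⟨a0, a1, a2, a3, a4, a5, a6⟩ := hH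
  have e1 : 2 * y ^ 2 - 1 ≤ eF y := le_max_left _ _
  have e2 : 0 ≤ eF y := le_max_right _ _
  unfold dom1
  simp only [Bool.and_eq_true, decide_eq_true_eq]
  refine ⟨⟨⟨⟨?_, ?_⟩, ?_⟩, ?_⟩, ?_⟩ <;> apply cast_le_of <;> push_cast <;> linarith

/-- Reading the answer of the checker on `2 y² ≤ 1`. -/
theorem of_chk0 {lb : ℚ → ℚ → ℚ → ℚ → ℚ} {need : ℚ} {E : ℝ → ℝ → ℝ}
    (hlb : ∀ (y₁ y₂ t₁ t₂ : ℚ) (y τ : ℝ), 0 ≤ y₁ → 0 < y → (y₁ : ℝ) ≤ y → y ≤ y₂ → (t₁ : ℝ) ≤ τ → τ ≤ t₂ →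
      ((lb y₁ y₂ t₁ t₂ : ℚ) : ℝ) ≤ E y τ)
    (hrun : chk (test dom0 lb need) 30 (7 / 32) (91 / 128) 0 1 = true) {y τ : ℝ} (hH : H0 y τ) :
    (need : ℝ) ≤ E y τ := by
  have hs := chk_sound (C := fun y τ => H0 y τ → (need : ℝ) ≤ E y τ)
    (test_sound (H := H0) (E := E) (fun y₁ y₂ t₁ t₂ y τ h0 h1 h2 h3 h4 hH => dom0_of h0 h1 h2 h3 h4 hH)
      (fun y₁ y₂ t₁ t₂ y τ h0 h1 h2 h3 h4 hH => hlb y₁ y₂ t₁ t₂ y τ h0 (H0_pos hH) h1 h2 h3 h4))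
    30 _ _ _ _ hrun y τ
  obtain ⟨a1, a2, a3, a4⟩ := id hH
  refine hs ?_ ?_ ?_ ?_ hH
  · push_cast
    linarith
  · push_cast
    nlinarith
  · push_cast
    linarith
  · push_cast
    linarith

/-- Reading the answer of the checker on `2 y² ≤ 1`, `45/64 ≤ τ`. -/
theorem of_chk3 {lb : ℚ → ℚ → ℚ → ℚ → ℚ} {need : ℚ} {E : ℝ → ℝ → ℝ}
    (hlb : ∀ (y₁ y₂ t₁ t₂ : ℚ) (y τ : ℝ), 0 ≤ y₁ → 0 < y → (y₁ : ℝ) ≤ y → y ≤ y₂ → (t₁ : ℝ) ≤ τ → τ ≤ t₂ →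
      ((lb y₁ y₂ t₁ t₂ : ℚ) : ℝ) ≤ E y τ)
    (hrun : chk (test dom3 lb need) 30 (7 / 32) (91 / 128) 0 1 = true) {y τ : ℝ} (hH : H3 y τ) :
    (need : ℝ) ≤ E y τ := by
  have hs := chk_sound (C := fun y τ => H3 y τ → (need : ℝ) ≤ E y τ)
    (test_sound (H := H3) (E := E) (fun y₁ y₂ t₁ t₂ y τ h0 h1 h2 h3 h4 hH => dom3_of h0 h1 h2 h3 h4 hH)
      (fun y₁ y₂ t₁ t₂ y τ h0 h1 h2 h3 h4 hH => hlb y₁ y₂ t₁ t₂ y τ h0 (H3_pos hH) h1 h2 h3 h4))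
    30 _ _ _ _ hrun y τ
  obtain ⟨a1, a2, a3, a4⟩ := id hH
  refine hs ?_ ?_ ?_ ?_ hH
  · push_cast
    linarith
  · push_cast
    nlinarith
  · push_cast
    linarith
  · push_cast
    linarith

/-- Reading the answer of the checker on `1 ≤ 2 y²`. -/
theorem of_chk1 {lb : ℚ → ℚ → ℚ → ℚ → ℚ} {need : ℚ} {E : ℝ → ℝ → ℝ}
    (hlb : ∀ (y₁ y₂ t₁ t₂ : ℚ) (y τ : ℝ), 0 ≤ y₁ → 0 < y → (y₁ : ℝ) ≤ y → y ≤ y₂ → (t₁ : ℝ) ≤ τ → τ ≤ t₂ →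
      ((lb y₁ y₂ t₁ t₂ : ℚ) : ℝ) ≤ E y τ)
    (hrun : chk (test dom1 lb need) 30 (181 / 256) (13 / 16) 0 1 = true) {y τ : ℝ} (hH : H1 y τ) :
    (need : ℝ) ≤ E y τ := by
  have hs := chk_sound (C := fun y τ => H1 y τ → (need : ℝ) ≤ E y τ)
    (test_sound (H := H1) (E := E) (fun y₁ y₂ t₁ t₂ y τ h0 h1 h2 h3 h4 hH => dom1_of h0 h1 h2 h3 h4 hH)
      (fun y₁ y₂ t₁ t₂ y τ h0 h1 h2 h3 h4 hH => hlb y₁ y₂ t₁ t₂ y τ h0 (H1_pos hH) h1 h2 h3 h4))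
    30 _ _ _ _ hrun y τ
  obtain ⟨a0, a1, a2, a3, a4, a5, a6⟩ := id hH
  have e1 : 2 * y ^ 2 - 1 ≤ eF y := le_max_left _ _
  have e2 : 0 ≤ eF y := le_max_right _ _
  refine hs ?_ ?_ ?_ ?_ hH
  · push_cast
    nlinarith
  · push_cast
    linarith
  · push_cast
    linarith
  · push_cast
    linarith

end Crest.Agent.S0222Lib.FRCore.Pot.BoxQ
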