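import Crest.Agent.S0222Lib.FRPotUU

/-!
# S0222, first-row bound: the lower bound of one side

`chord`: on an interval below the plateau the function `H(j) = f(j) + (t-j) ψ(j)` is above its chord.
The scaled functions `Tf`, `Uf`, `Qf` in the variables `y = √(b/2N)`, `τ = t/N`.
-/

set_option autoImplicit false

namespace Crest.Agent.S0222Lib.FRCore.Pot

lemma PhiF_zero : PhiF 0 = 0 := by
  unfold PhiF
  simp

lemma Phi_zero : Phi 0 = 0 := by
  unfold Phi
  simp

lemma Phi_eq_PhiF' {τ : ℝ} (h0 : 0 ≤ τ) (h1 : τ ≤ x0) : Phi τ = PhiF τ := by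
  rcases h0.eq_or_lt with h | h
  · rw [← h, Phi_zero, PhiF_zero]
  · exact Phi_eq_PhiF h h1

/-- The expression of the formula by the entropy function. -/
lemma PhiF_eq {τ : ℝ} (h0 : 0 ≤ τ) :
    PhiF τ = c1 * τ * (1 + Real.log x0) + c1 * Real.negMulLog τ + x0 * τ - τ ^ 2 / 2 := by
  unfold PhiF Real.negMulLog
  rcases h0.eq_or_lt with h | h
  · rw [← h]
    simp
  · rw [Real.log_div x0_pos.ne' h.ne']
    ring

/-- The strong concavity of the formula. -/
lemma PhiF_chord {a c q : ℝ} (ha : 0 ≤ a) (hc : 0 ≤ c) (hq0 : 0 ≤ q) (hq1 : q ≤ 1) :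
    (1 - q) * PhiF a + q * PhiF c + q * (1 - q) * (c - a) ^ 2 / 2 ≤
      PhiF ((1 - q) * a + q * c) := by
  have hb : 0 ≤ (1 - q) * a + q * c := by
    have : 0 ≤ 1 - q := by linarith
    positivity
  rw [PhiF_eq ha, PhiF_eq hc, PhiF_eq hb]
  have h := Real.concaveOn_negMulLog.2 (Set.mem_Ici.2 ha) (Set.mem_Ici.2 hc)
    (show 0 ≤ 1 - q by linarith) hq0 (by ring)
  simp only [smul_eq_mul] at h
  have hc1 := c1_pos
  have h2 := mul_le_mul_of_nonneg_left h hc1.le
  nlinarith

/-- The scaled potential is nondecreasing. -/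
lemma Phi_mono {a c : ℝ} (h : a ≤ c) : Phi a ≤ Phi c := by
  have hx := x0_pos
  have hc1 := c1_pos
  have hP : 0 ≤ Pl := by
    unfold Pl
    positivity
  by_cases ha0 : a ≤ 0
  · have e : Phi a = 0 := by
      unfold Phi
      rw [if_pos ha0]
    rw [e]
    by_cases hc0 : c ≤ 0
    · have e2 : Phi c = 0 := by
        unfold Phi
        rw [if_pos hc0]
      rw [e2]
    · have hc' : 0 < c := not_le.mp hc0
      by_cases hc2 : c ≤ x0
      · rw [Phi_eq_PhiF hc' hc2]
        unfold PhiF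
        have h1 : 0 ≤ Real.log (x0 / c) := Real.log_nonneg (by rw [le_div_iff₀ hc']; linarith)
        have h2 : 0 ≤ c1 * c * (1 + Real.log (x0 / c)) := by positivity
        nlinarith
      · rw [Phi_eq_Pl (not_le.mp hc2)]
        exact hP
  have ha' : 0 < a := not_le.mp ha0
  have hc' : 0 < c := lt_of_lt_of_le ha' h
  by_cases ha2 : a ≤ x0
  · rw [Phi_eq_PhiF ha' ha2]
    -- the value at `min c x0`
    have key : ∀ d, a ≤ d → d ≤ x0 → PhiF a ≤ PhiF d := by
      intro d hd hd2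
      have hd0 : 0 < d := lt_of_lt_of_le ha' hd
      unfold PhiF
      have h1 : Real.log (x0 / d) ≥ 0 := Real.log_nonneg (by rw [le_div_iff₀ hd0]; linarith)
      have e : Real.log (x0 / a) = Real.log (x0 / d) + Real.log (d / a) := by
        rw [Real.log_div hx.ne' ha'.ne', Real.log_div hx.ne' hd0.ne',
          Real.log_div hd0.ne' ha'.ne']
        ring
      have h2 : Real.log (d / a) ≤ d / a - 1 := Real.log_le_sub_one_of_pos (by positivity)
      have h3 : a * Real.log (d / a) ≤ d - a := by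
        have := mul_le_mul_of_nonneg_left h2 ha'.le
        have e2 : a * (d / a - 1) = d - a := by field_simp
        rwa [e2] at this
      rw [e]
      have h4 : c1 * a * (1 + (Real.log (x0 / d) + Real.log (d / a))) ≤
          c1 * d * (1 + Real.log (x0 / d)) := by
        have e3 : c1 * a * (1 + (Real.log (x0 / d) + Real.log (d / a))) =
            c1 * (a * (1 + Real.log (x0 / d)) + a * Real.log (d / a)) := by ring
        have e4 : c1 * d * (1 + Real.log (x0 / d)) = c1 * (d * (1 + Real.log (x0 / d))) := by ring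
        rw [e3, e4]
        apply mul_le_mul_of_nonneg_left _ hc1.le
        have h5 : (d - a) * (1 + Real.log (x0 / d)) ≥ d - a := by
          have : 0 ≤ d - a := by linarith
          nlinarith
        nlinarith
      nlinarith
    by_cases hc2 : c ≤ x0
    · rw [Phi_eq_PhiF hc' hc2]
      exact key c h hc2
    · rw [Phi_eq_Pl (not_le.mp hc2), ← PhiF_x0]
      exact key x0 ha2 le_rfl
  · have ha3 : x0 < a := not_le.mp ha2
    rw [Phi_eq_Pl ha3, Phi_eq_Pl (lt_of_lt_of_le ha3 h)]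

/-- The logarithmic part of a side. -/
noncomputable def psiS (N z t j : ℝ) : ℝ := (1 / 2) * Real.log (1 + z * max (N - t - j + 1) 0)

/-- The bound of a side, without the constant. -/
noncomputable def HS (N z t j : ℝ) : ℝ := N * Phi (j / N) + (t - j) * psiS N z t j

lemma psiS_nonneg {N z t j : ℝ} (hz : 0 ≤ z) : 0 ≤ psiS N z t j := by
  unfold psiS
  have h1 : 0 ≤ z * max (N - t - j + 1) 0 := mul_nonneg hz (le_max_right _ _)
  have h2 : 0 ≤ Real.log (1 + z * max (N - t - j + 1) 0) := Real.log_nonneg (by linarith)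
  positivity

/-- **The chord.** -/
theorem chord {N z t j₀ j j₁ : ℝ} (hN : 0 < N) (hz : 0 < z) (h0 : 0 ≤ j₀) (h01 : j₀ ≤ j)
    (h12 : j ≤ j₁) (h1t : j₁ ≤ t) (h1x : j₁ ≤ x0 * N) (h1G : j₁ ≤ N - t + 1)
    (hcond : z * (t + j₁ - 1) ≤ 1) :
    min (HS N z t j₀) (HS N z t j₁) ≤ HS N z t j := by
  by_cases hd : j₀ = j₁
  · have : j = j₀ := le_antisymm (by rw [hd]; exact h12) h01
    rw [this]
    exact min_le_left _ _
  have hd0 : 0 < j₁ - j₀ := by
    have : j₀ ≤ j₁ := h01.trans h12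
    have : j₀ < j₁ := lt_of_le_of_ne this hd
    linarith
  set d := j₁ - j₀ with hdd
  set q := (j - j₀) / d with hq
  have hq0 : 0 ≤ q := div_nonneg (by linarith) hd0.le
  have hq1 : q ≤ 1 := by
    rw [hq, div_le_one hd0]
    linarith
  have hj : j = (1 - q) * j₀ + q * j₁ := by
    rw [hq]
    field_simp
    rw [hdd]
    ring
  have hq' : 0 ≤ 1 - q := by linarith
  -- the potential
  have hfrac : ∀ u, 0 ≤ u → u ≤ j₁ → 0 ≤ u / N ∧ u / N ≤ x0 := by
    intro u hu hu2
    refine ⟨div_nonneg hu hN.le, ?_⟩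
    rw [div_le_iff₀ hN]
    linarith
  have hj0 : 0 ≤ j := h0.trans h01
  have hj1 : 0 ≤ j₁ := hj0.trans h12
  have ePhi0 : Phi (j₀ / N) = PhiF (j₀ / N) :=
    Phi_eq_PhiF' (hfrac j₀ h0 (h01.trans h12)).1 (hfrac j₀ h0 (h01.trans h12)).2
  have ePhi1 : Phi (j₁ / N) = PhiF (j₁ / N) :=
    Phi_eq_PhiF' (hfrac j₁ hj1 le_rfl).1 (hfrac j₁ hj1 le_rfl).2
  have ePhi : Phi (j / N) = PhiF (j / N) :=
    Phi_eq_PhiF' (hfrac j hj0 h12).1 (hfrac j hj0 h12).2
  have hchord := PhiF_chord (hfrac j₀ h0 (h01.trans h12)).1 (hfrac j₁ hj1 le_rfl).1 hq0 hq1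
  have ejN : (1 - q) * (j₀ / N) + q * (j₁ / N) = j / N := by
    rw [hj]
    ring
  rw [ejN, ← ePhi0, ← ePhi1, ← ePhi] at hchord
  have hf : (1 - q) * (N * Phi (j₀ / N)) + q * (N * Phi (j₁ / N)) +
      q * (1 - q) * d ^ 2 / (2 * N) ≤ N * Phi (j / N) := by
    have h2 := mul_le_mul_of_nonneg_left hchord hN.le
    have e : N * ((1 - q) * Phi (j₀ / N) + q * Phi (j₁ / N) + q * (1 - q) * (j₁ / N - j₀ / N) ^ 2 / 2) =
        (1 - q) * (N * Phi (j₀ / N)) + q * (N * Phi (j₁ / N)) + q * (1 - q) * d ^ 2 / (2 * N) := by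
      rw [hdd]
      field_simp
    rw [e] at h2
    exact h2
  -- the logarithm
  set G₀ := N - t - j₀ + 1 with hG₀
  set G₁ := N - t - j₁ + 1 with hG₁
  set G := N - t - j + 1 with hG
  have hG₁0 : 0 ≤ G₁ := by rw [hG₁]; linarith
  have hG0 : 0 ≤ G := by rw [hG]; linarith
  have hG₀0 : 0 ≤ G₀ := by rw [hG₀]; linarith
  have hGG : G = (1 - q) * G₀ + q * G₁ := by
    rw [hG, hG₀, hG₁, hj]
    ring
  have ep0 : psiS N z t j₀ = (1 / 2) * Real.log (1 + z * G₀) := by
    unfold psiS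
    rw [max_eq_left hG₀0]
  have ep1 : psiS N z t j₁ = (1 / 2) * Real.log (1 + z * G₁) := by
    unfold psiS
    rw [max_eq_left hG₁0]
  have ep : psiS N z t j = (1 / 2) * Real.log (1 + z * G) := by
    unfold psiS
    rw [max_eq_left hG0]
  have hlog : (1 - q) * Real.log (1 + z * G₀) + q * Real.log (1 + z * G₁) ≤
      Real.log (1 + z * G) := by
    have h := (strictConcaveOn_log_Ioi.concaveOn).2
      (show (1 + z * G₀) ∈ Set.Ioi (0 : ℝ) by
        simp only [Set.mem_Ioi]
        positivity)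
      (show (1 + z * G₁) ∈ Set.Ioi (0 : ℝ) by
        simp only [Set.mem_Ioi]
        positivity) hq' hq0 (by ring)
    simp only [smul_eq_mul] at h
    have e : (1 - q) * (1 + z * G₀) + q * (1 + z * G₁) = 1 + z * G := by
      rw [hGG]
      ring
    rwa [e] at h
  -- the difference of the two logarithms
  set p₀ := psiS N z t j₀ with hp₀
  set p₁ := psiS N z t j₁ with hp₁
  set p := psiS N z t j with hp
  have hpp : (1 - q) * p₀ + q * p₁ ≤ p := by
    rw [ep0, ep1, ep]
    linarith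
  have hp₀0 : 0 ≤ p₀ := psiS_nonneg hz.le
  have hp₁0 : 0 ≤ p₁ := psiS_nonneg hz.le
  have hdiff : p₀ - p₁ ≤ d / (2 * N) := by
    rw [ep0, ep1]
    have h1pos : 0 < 1 + z * G₁ := by positivity
    have h2 : Real.log (1 + z * G₀) - Real.log (1 + z * G₁) ≤
        (1 + z * G₀) / (1 + z * G₁) - 1 := by
      rw [← Real.log_div (by positivity) h1pos.ne']
      exact Real.log_le_sub_one_of_pos (by positivity)
    have e : (1 + z * G₀) / (1 + z * G₁) - 1 = z * d / (1 + z * G₁) := by
      have : G₀ - G₁ = d := by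
        rw [hG₀, hG₁, hdd]
        ring
      field_simp
      rw [← this]
      ring
    rw [e] at h2
    have h3 : z * d / (1 + z * G₁) ≤ d / N := by
      rw [div_le_div_iff₀ h1pos hN]
      have h4 : z * N ≤ 1 + z * G₁ := by
        have e5 : z * N = z * G₁ + z * (t + j₁ - 1) := by
          rw [hG₁]
          ring
        rw [e5]
        linarith
      have h6 := mul_le_mul_of_nonneg_left h4 hd0.le
      have e6 : z * d * N = d * (z * N) := by ring
      rw [e6]
      exact h6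
    have e2 : d / (2 * N) = (1 / 2) * (d / N) := by
      field_simp
    rw [e2]
    linarith
  -- assemble
  have ht0 : 0 ≤ t - j₁ := by linarith
  have ht1 : 0 ≤ t - j₀ := by linarith
  have hcomb : t - j = (1 - q) * (t - j₀) + q * (t - j₁) := by
    rw [hj]
    ring
  have htj : 0 ≤ t - j := by linarith
  have hprod : (t - j) * ((1 - q) * p₀ + q * p₁) ≤ (t - j) * p :=
    mul_le_mul_of_nonneg_left hpp htj
  have hmain : (1 - q) * HS N z t j₀ + q * HS N z t j₁ ≤ HS N z t j := by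
    unfold HS
    rw [← hp₀, ← hp₁, ← hp]
    have e3 : (t - j) * ((1 - q) * p₀ + q * p₁) =
        (1 - q) * ((t - j₀) * p₀) + q * ((t - j₁) * p₁) - q * (1 - q) * d * (p₀ - p₁) := by
      rw [hcomb, hdd]
      ring
    rw [e3] at hprod
    have h5 : q * (1 - q) * d * (p₀ - p₁) ≤ q * (1 - q) * d ^ 2 / (2 * N) := by
      have h6 := mul_le_mul_of_nonneg_left hdiff
        (show 0 ≤ q * (1 - q) * d by positivity)
      have e4 : q * (1 - q) * d * (d / (2 * N)) = q * (1 - q) * d ^ 2 / (2 * N) := by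
        field_simp
      rwa [e4] at h6
    linarith
  have hmin : min (HS N z t j₀) (HS N z t j₁) ≤ (1 - q) * HS N z t j₀ + q * HS N z t j₁ := by
    have h1 := mul_le_mul_of_nonneg_left (min_le_left (HS N z t j₀) (HS N z t j₁)) hq'
    have h2 := mul_le_mul_of_nonneg_left (min_le_right (HS N z t j₀) (HS N z t j₁)) hq0
    linarith
  exact hmin.trans hmain

/-! ### The scaled functions, in the variables `y = √(b/2N)`, `τ = t/N` -/

/-- `z N` for `z = (3/5) / (b/2 + √(N b/2))`. -/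
noncomputable def zNf (y : ℝ) : ℝ := (3 / 5) / (y ^ 2 + y)

/-- The floor `(b - N)⁺ / N`. -/
noncomputable def eF (y : ℝ) : ℝ := max (2 * y ^ 2 - 1) 0

/-- The value at the lower end: the tail. -/
noncomputable def Tf (y τ : ℝ) : ℝ :=
  Phi (eF y) + (1 / 2) * max (τ - eF y) 0 * Real.log (1 + zNf y * max (1 - τ - eF y) 0)

/-- The value at the upper end. -/
noncomputable def Uf (y τ : ℝ) : ℝ := Phi (max (eF y) (min τ (1 - τ)))

/-- The quadratic term `(7/10) (τ - τ')² / (4 x)`, `x = 2 y²`, `τ' = x - τ`. -/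
noncomputable def Qf (y τ : ℝ) : ℝ := (7 / 10) * (2 * τ - 2 * y ^ 2) ^ 2 / (4 * (2 * y ^ 2))

end Crest.Agent.S0222Lib.FRCore.Pot
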