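import Crest.Agent.S0222Lib.FRPotDef

/-!
# S0222, first-row bound: the top/top branch of the potential

`Phi_UU`: `2 Φ(x/2) - Φ(x/2+u) - Φ(x/2-u) ≤ (7/10) u²/x` for all `x > 0`, `0 ≤ u < x/2`.
`fN_UU`: the same for `f_N`: `f_{2N}(t+t') ≤ f_N(t) + f_N(t') + (7/10)/(t+t') * ((t-t')/2)²`.
-/

set_option autoImplicit false

namespace Crest.Agent.S0222Lib.FRCore.Pot

/-- The formula of the potential, continued past the plateau. -/
noncomputable def PhiF (τ : ℝ) : ℝ := c1 * τ * (1 + Real.log (x0 / τ)) + x0 * τ - τ ^ 2 / 2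

/-- The value of the plateau. -/
noncomputable def Pl : ℝ := x0 * (c1 + x0 / 2)

lemma Phi_eq_PhiF {τ : ℝ} (h0 : 0 < τ) (h1 : τ ≤ x0) : Phi τ = PhiF τ := Phi_of_mem h0 h1

lemma Phi_eq_Pl {τ : ℝ} (h1 : x0 < τ) : Phi τ = Pl := Phi_of_ge h1

lemma PhiF_x0 : PhiF x0 = Pl := by
  unfold PhiF Pl
  have h := x0_pos
  rw [div_self h.ne', Real.log_one]
  ring

/-- The formula is below the plateau past the plateau. -/
lemma PhiF_le_Pl {τ : ℝ} (h1 : x0 < τ) : PhiF τ ≤ Pl := by
  have hx := x0_pos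
  have hc := c1_pos
  have h0 : 0 < τ := hx.trans h1
  unfold PhiF Pl
  have h2 : Real.log (τ / x0) ≥ 1 - x0 / τ := by
    have := Real.log_le_sub_one_of_pos (show 0 < x0 / τ by positivity)
    rw [Real.log_div hx.ne' h0.ne'] at this
    rw [Real.log_div h0.ne' hx.ne']
    linarith
  have e : Real.log (x0 / τ) = -Real.log (τ / x0) := by
    rw [← Real.log_inv, inv_div]
  rw [e]
  have h3 : τ * Real.log (τ / x0) ≥ τ - x0 := by
    have := mul_le_mul_of_nonneg_left h2 h0.le
    have e2 : τ * (1 - x0 / τ) = τ - x0 := by field_simp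
    linarith
  have h4 : c1 * τ * (1 + -Real.log (τ / x0)) ≤ c1 * x0 := by
    have : c1 * τ * (1 + -Real.log (τ / x0)) = c1 * (τ - τ * Real.log (τ / x0)) := by ring
    rw [this]
    apply mul_le_mul_of_nonneg_left _ hc.le
    linarith
  nlinarith [sq_nonneg (τ - x0)]

/-- The exact second difference of the formula. -/
lemma PhiF_diff {x u : ℝ} (hx : 0 < x) (hu : 0 ≤ u) (hux : u < x / 2) :
    2 * PhiF (x / 2) - PhiF (x / 2 + u) - PhiF (x / 2 - u) ≤ u ^ 2 + 4 * c1 * u ^ 2 / x := by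
  have hx0 := x0_pos
  have hc := c1_pos
  set w : ℝ := 2 * u / x with hw
  have hw0 : 0 ≤ w := by positivity
  have hw1 : w < 1 := by
    rw [hw, div_lt_one hx]
    linarith
  have eτ : x / 2 + u = (x / 2) * (1 + w) := by
    rw [hw]
    field_simp
  have eτ' : x / 2 - u = (x / 2) * (1 - w) := by
    rw [hw]
    field_simp
  have hx2 : 0 < x / 2 := by positivity
  have h1w : 0 < 1 + w := by linarith
  have h1w' : 0 < 1 - w := by linarith
  have l1 : Real.log (x0 / (x / 2 + u)) = Real.log (x0 / (x / 2)) - Real.log (1 + w) := by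
    rw [eτ, ← div_div, Real.log_div (by positivity) h1w.ne']
  have l2 : Real.log (x0 / (x / 2 - u)) = Real.log (x0 / (x / 2)) - Real.log (1 - w) := by
    rw [eτ', ← div_div, Real.log_div (by positivity) h1w'.ne']
  unfold PhiF
  rw [l1, l2]
  set A := Real.log (x0 / (x / 2))
  have h2 : Real.log (1 + w) ≤ w := by
    have := Real.log_le_sub_one_of_pos h1w
    linarith
  have h3 : Real.log (1 - w) ≤ -w := by
    have := Real.log_le_sub_one_of_pos h1w'
    linarith
  -- the entropy part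
  have hH : (1 + w) * Real.log (1 + w) + (1 - w) * Real.log (1 - w) ≤ 2 * w ^ 2 := by
    have h4 := mul_le_mul_of_nonneg_left h2 h1w.le
    have h5 := mul_le_mul_of_nonneg_left h3 h1w'.le
    nlinarith
  have e1 : 2 * (c1 * (x / 2) * (1 + A) + x0 * (x / 2) - (x / 2) ^ 2 / 2) -
      (c1 * (x / 2 + u) * (1 + (A - Real.log (1 + w))) + x0 * (x / 2 + u) - (x / 2 + u) ^ 2 / 2) -
      (c1 * (x / 2 - u) * (1 + (A - Real.log (1 - w))) + x0 * (x / 2 - u) - (x / 2 - u) ^ 2 / 2) =
      u ^ 2 + c1 * (x / 2) * ((1 + w) * Real.log (1 + w) + (1 - w) * Real.log (1 - w)) := by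
    rw [eτ, eτ']
    have hu2 : u = (x / 2) * w := by
      rw [hw]
      field_simp
    rw [hu2]
    ring
  rw [e1]
  have e2 : 4 * c1 * u ^ 2 / x = c1 * (x / 2) * (2 * w ^ 2) := by
    rw [hw]
    field_simp
    ring
  rw [e2]
  have := mul_le_mul_of_nonneg_left hH (show 0 ≤ c1 * (x / 2) by positivity)
  linarith

lemma nu_ok {x u : ℝ} (hx : 0 < x) (hx2 : x ≤ 2 * x0) :
    u ^ 2 + 4 * c1 * u ^ 2 / x ≤ (7 / 10) * u ^ 2 / x := by
  have h : u ^ 2 + 4 * c1 * u ^ 2 / x = (x + 4 * c1) * u ^ 2 / x := by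
    field_simp
  rw [h]
  apply div_le_div_of_nonneg_right _ hx.le
  apply mul_le_mul_of_nonneg_right _ (sq_nonneg u)
  unfold x0 at hx2
  unfold c1
  norm_num at hx2 ⊢
  linarith

/-- The distance to the plateau. -/
lemma Pl_sub_PhiF {τ : ℝ} (h0 : 0 < τ) (h1 : τ ≤ x0) :
    Pl - PhiF τ ≤ (0.54 : ℝ) * (x0 - τ) ^ 2 := by
  have hx := x0_pos
  have hc := c1_pos
  unfold PhiF Pl
  have h2 : Real.log (x0 / τ) ≥ 1 - τ / x0 := by
    have := Real.log_le_sub_one_of_pos (show 0 < τ / x0 by positivity)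
    rw [Real.log_div h0.ne' hx.ne'] at this
    rw [Real.log_div hx.ne' h0.ne']
    linarith
  have h3 : τ * Real.log (x0 / τ) ≥ τ * (1 - τ / x0) := mul_le_mul_of_nonneg_left h2 h0.le
  have h4 : c1 * (x0 - τ - τ * Real.log (x0 / τ)) ≤ c1 * ((x0 - τ) ^ 2 / x0) := by
    apply mul_le_mul_of_nonneg_left _ hc.le
    have e : (x0 - τ) ^ 2 / x0 = x0 - τ - τ * (1 - τ / x0) := by
      field_simp
    rw [e]
    linarith
  have h5 : c1 * ((x0 - τ) ^ 2 / x0) ≤ 0.04 * (x0 - τ) ^ 2 := by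
    have e : c1 * ((x0 - τ) ^ 2 / x0) = (c1 / x0) * (x0 - τ) ^ 2 := by ring
    rw [e]
    apply mul_le_mul_of_nonneg_right _ (sq_nonneg _)
    unfold c1 x0
    norm_num
  have e : x0 * (c1 + x0 / 2) - (c1 * τ * (1 + Real.log (x0 / τ)) + x0 * τ - τ ^ 2 / 2) =
      (x0 - τ) ^ 2 / 2 + c1 * (x0 - τ - τ * Real.log (x0 / τ)) := by ring
  rw [e]
  nlinarith [sq_nonneg (x0 - τ)]

/-- **The top/top inequality of the potential.** -/
theorem Phi_UU {x u : ℝ} (hx : 0 < x) (hu : 0 ≤ u) (hux : u < x / 2) :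
    2 * Phi (x / 2) - Phi (x / 2 + u) - Phi (x / 2 - u) ≤ (7 / 10) * u ^ 2 / x := by
  have hx0 := x0_pos
  have hτ' : 0 < x / 2 - u := by linarith
  have hτ : 0 < x / 2 + u := by linarith
  have hR : 0 ≤ (7 / 10) * u ^ 2 / x := by positivity
  by_cases h1 : x / 2 ≤ x0
  · -- the middle below the plateau
    have hx2 : x ≤ 2 * x0 := by linarith
    have e1 : Phi (x / 2) = PhiF (x / 2) := Phi_eq_PhiF (by positivity) h1
    have e2 : Phi (x / 2 - u) = PhiF (x / 2 - u) := Phi_eq_PhiF hτ' (by linarith)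
    have h3 : PhiF (x / 2 + u) ≤ Phi (x / 2 + u) := by
      by_cases h4 : x / 2 + u ≤ x0
      · exact (Phi_eq_PhiF hτ h4).ge
      · rw [Phi_eq_Pl (not_le.mp h4)]
        exact PhiF_le_Pl (not_le.mp h4)
    rw [e1, e2]
    have h5 := PhiF_diff hx hu hux
    have h6 := nu_ok (u := u) hx hx2
    linarith
  · -- the middle on the plateau
    have h1' : x0 < x / 2 := not_le.mp h1
    have e1 : Phi (x / 2) = Pl := Phi_eq_Pl h1'
    have e2 : Phi (x / 2 + u) = Pl := Phi_eq_Pl (by linarith)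
    rw [e1, e2]
    by_cases h3 : x / 2 - u ≤ x0
    · rw [Phi_eq_PhiF hτ' h3]
      have h4 := Pl_sub_PhiF hτ' h3
      set e := x0 - (x / 2 - u) with he
      have he0 : 0 ≤ e := by linarith
      have heu : e ≤ u := by rw [he]; linarith
      -- `u²/x` is at least `e²/(2 x0)`
      have h5 : (0.54 : ℝ) * e ^ 2 ≤ (7 / 10) * u ^ 2 / x := by
        rw [le_div_iff₀ hx]
        -- `x = 2 (x0 + u - e)`
        have e3 : x = 2 * (x0 + u - e) := by
          rw [he]
          ring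
        have hpos : 0 < x0 - e := by
          rw [he]
          linarith
        rw [e3]
        have hx0' : x0 ≤ 19 / 64 := by
          unfold x0
          norm_num
        -- `0.54 e² · 2 (x0 + u - e) ≤ 0.7 u²`
        have h6 : e ^ 2 * (x0 + u - e) ≤ u ^ 2 * x0 := by
          have h7 : e ^ 2 ≤ (u + e) * x0 := by
            have h71 : e * e ≤ e * x0 := mul_le_mul_of_nonneg_left (by linarith) he0
            have h72 : 0 ≤ u * x0 := by positivity
            nlinarith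
          have h8 := mul_nonneg (show 0 ≤ u - e by linarith) (sub_nonneg.mpr h7)
          nlinarith
        have h9 : u ^ 2 * x0 ≤ u ^ 2 * (19 / 64) := mul_le_mul_of_nonneg_left hx0' (sq_nonneg u)
        nlinarith [sq_nonneg u]
      linarith
    · rw [Phi_eq_Pl (not_le.mp h3)]
      have : 2 * Pl - Pl - Pl = 0 := by ring
      rw [this]
      exact hR

/-- **The top/top inequality of `f_N`.** -/
theorem fN_UU {N : ℝ} (hN : 0 < N) {t t' : ℕ} (ht : 0 < t) (ht' : 0 < t') :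
    fN (2 * N) (t + t') ≤ fN N t + fN N t' +
      (7 / 10) / ((t : ℝ) + t') * (((t : ℝ) - t') / 2) ^ 2 := by
  have htr : (0 : ℝ) < t := by exact_mod_cast ht
  have htr' : (0 : ℝ) < t' := by exact_mod_cast ht'
  -- symmetric in `t, t'`: write `u = |t - t'| / (2 N)`
  wlog hle : (t' : ℝ) ≤ t generalizing t t'
  · have := this ht' ht htr' htr (by linarith)
    rw [add_comm t t']
    have e : ((t' : ℝ) - t) ^ 2 = ((t : ℝ) - t') ^ 2 := by ring
    have e2 : (((t' : ℝ) - t) / 2) ^ 2 = (((t : ℝ) - t') / 2) ^ 2 := by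
      rw [div_pow, div_pow, e]
    rw [e2, add_comm (t' : ℝ) (t : ℝ)] at this
    linarith
  set x : ℝ := ((t : ℝ) + t') / N with hx
  set u : ℝ := ((t : ℝ) - t') / 2 / N with hu
  have hx0 : 0 < x := by positivity
  have hu0 : 0 ≤ u := by
    rw [hu]
    apply div_nonneg _ hN.le
    linarith
  have hux : u < x / 2 := by
    have e : x / 2 - u = (t' : ℝ) / N := by
      rw [hx, hu]
      field_simp
      ring
    have h : 0 < (t' : ℝ) / N := by positivity
    linarith
  have h := Phi_UU hx0 hu0 hux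
  have e1 : (t : ℝ) / N = x / 2 + u := by
    rw [hx, hu]
    field_simp
    ring
  have e2 : (t' : ℝ) / N = x / 2 - u := by
    rw [hx, hu]
    field_simp
    ring
  have e3 : (((t + t' : ℕ) : ℝ)) / (2 * N) = x / 2 := by
    rw [hx]
    push_cast
    field_simp
  unfold fN
  rw [e1, e2, e3]
  have h2 := mul_le_mul_of_nonneg_left h hN.le
  have e4 : N * ((7 / 10) * u ^ 2 / x) =
      (7 / 10) / ((t : ℝ) + t') * (((t : ℝ) - t') / 2) ^ 2 := by
    rw [hx, hu]
    field_simp
  rw [e4] at h2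
  have e5 : N * (2 * Phi (x / 2) - Phi (x / 2 + u) - Phi (x / 2 - u)) =
      2 * N * Phi (x / 2) - N * Phi (x / 2 + u) - N * Phi (x / 2 - u) := by ring
  rw [e5] at h2
  linarith

end Crest.Agent.S0222Lib.FRCore.Pot
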