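import Mathlib

/-!
# S0222, FR: the `S_k` bound.

Tokens `τ`, sites `S`, positions `S × Bool`.  `ξ` is a function on placements `τ ↪ S × Bool`, invariant under
swapping the two positions of any site.  For a set of tokens `C` we look at the quadratic form
`Sq C ξ = ∑_{c, c' agreeing off C} ε_C(c) ε_C(c') ξ(c) ξ(c')` (this is `‖W^C ξ‖²` where `W^C` sums out the tokens
of `C` with the sign `+` on the left position and `-` on the right position).

Main theorem `sum_Sq_le`: `∑_{|C| = k} Sq C ξ ≤ (k! ∑_{p} C(N,p) C(M,p) C(2M,k-2p)) ‖ξ‖²`, `M = ⌊b/2⌋`.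
-/

set_option autoImplicit false
set_option linter.unusedSectionVars false

noncomputable section

namespace Crest.Agent.S0222Lib.FR

open Finset

variable {τ S : Type} [Fintype τ] [DecidableEq τ] [Fintype S] [DecidableEq S]

/-- Placements of all tokens. -/
abbrev Cfg (τ S : Type) := τ ↪ S × Bool

/-- Swap the two positions of a site. -/
def flipPos (a : S) : Equiv.Perm (S × Bool) :=
  Equiv.swap (a, false) (a, true)

@[simp] theorem flipPos_fst (a : S) (x : S × Bool) : (flipPos a x).1 = x.1 := by
  obtain ⟨s, v⟩ := x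
  unfold flipPos
  by_cases h : s = a
  · subst h; cases v <;> simp
  · rw [Equiv.swap_apply_of_ne_of_ne] <;> simp [h]

theorem flipPos_snd_of_eq (a : S) (x : S × Bool) (h : x.1 = a) : (flipPos a x).2 = !x.2 := by
  obtain ⟨s, v⟩ := x
  simp only at h
  subst h
  unfold flipPos
  cases v <;> simp

theorem flipPos_of_ne (a : S) (x : S × Bool) (h : x.1 ≠ a) : flipPos a x = x := by
  obtain ⟨s, v⟩ := x
  simp only at h
  unfold flipPos
  rw [Equiv.swap_apply_of_ne_of_ne] <;> simp [h]

@[simp] theorem flipPos_flipPos (a : S) (x : S × Bool) : flipPos a (flipPos a x) = x := by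
  unfold flipPos; simp

/-- Act on a placement by flipping a site. -/
def flipAll (a : S) (c : Cfg τ S) : Cfg τ S := c.trans (flipPos a).toEmbedding

@[simp] theorem flipAll_apply (a : S) (c : Cfg τ S) (i : τ) : flipAll a c i = flipPos a (c i) := rfl

@[simp] theorem flipAll_flipAll (a : S) (c : Cfg τ S) : flipAll a (flipAll a c) = c := by
  ext i <;> simp

/-- The sign of a position. -/
def sgnPos (x : S × Bool) : ℝ := if x.2 then -1 else 1

/-- `ε_C(c)`. -/
def eps (C : Finset τ) (c : Cfg τ S) : ℝ := ∏ i ∈ C, sgnPos (c i)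

theorem eps_abs (C : Finset τ) (c : Cfg τ S) : |eps C c| = 1 := by
  unfold eps
  rw [Finset.abs_prod]
  refine Finset.prod_eq_one (fun i _ => ?_)
  unfold sgnPos; split_ifs <;> simp

/-- Two placements agree off `C`. -/
def Agree {α X : Type} (C : Finset α) (c c' : α ↪ X) : Prop := ∀ i, i ∉ C → c i = c' i

instance {α X : Type} [Fintype α] [DecidableEq α] [DecidableEq X] (C : Finset α) (c c' : α ↪ X) :
    Decidable (Agree C c c') := by
  unfold Agree; infer_instance

/-- The unsigned quadratic form `‖D^C z‖²`: sum over pairs of placements agreeing off `C`. -/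
def SqU {α X : Type} [Fintype α] [DecidableEq α] [Fintype X] [DecidableEq X] (C : Finset α)
    (z : (α ↪ X) → ℝ) : ℝ :=
  ∑ c : α ↪ X, ∑ c' : α ↪ X, if Agree C c c' then z c * z c' else 0

/-- The quadratic form. -/
def Sq (C : Finset τ) (ξ : Cfg τ S → ℝ) : ℝ :=
  ∑ c : Cfg τ S, ∑ c' : Cfg τ S, if Agree C c c' then eps C c * eps C c' * ξ c * ξ c' else 0

/-- Number of tokens of `C` at the site `a`. -/
def nC (C : Finset τ) (c : Cfg τ S) (a : S) : ℕ := (C.filter (fun i => (c i).1 = a)).card

/-- Number of tokens outside `C` at the site `a`. -/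
def mC (C : Finset τ) (c : Cfg τ S) (a : S) : ℕ := (Cᶜ.filter (fun i => (c i).1 = a)).card

@[simp] theorem nC_flipAll (C : Finset τ) (b a : S) (c : Cfg τ S) : nC C (flipAll b c) a = nC C c a := by
  simp [nC]

@[simp] theorem mC_flipAll (C : Finset τ) (b a : S) (c : Cfg τ S) : mC C (flipAll b c) a = mC C c a := by
  simp [mC]

theorem sgnPos_flip_of_eq (a : S) (x : S × Bool) (h : x.1 = a) : sgnPos (flipPos a x) = - sgnPos x := by
  unfold sgnPos
  rw [flipPos_snd_of_eq a x h]
  cases x.2 <;> simp

/-- `ε` under a flip. -/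
theorem eps_flipAll (C : Finset τ) (a : S) (c : Cfg τ S) :
    eps C (flipAll a c) = (-1) ^ nC C c a * eps C c := by
  classical
  unfold eps nC
  have h1 : ∀ i ∈ C, sgnPos (flipAll a c i) = (if (c i).1 = a then (-1 : ℝ) else 1) * sgnPos (c i) := by
    intro i _
    rw [flipAll_apply]
    by_cases h : (c i).1 = a
    · rw [sgnPos_flip_of_eq a _ h]; simp [h]
    · rw [flipPos_of_ne a _ h]; simp [h]
  rw [Finset.prod_congr rfl h1, Finset.prod_mul_distrib, Finset.prod_ite]
  simp

/-- Pairs agreeing off `C`, as a sum. -/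
theorem Sq_eq_sum (C : Finset τ) (ξ : Cfg τ S → ℝ) :
    Sq C ξ = ∑ p ∈ (univ : Finset (Cfg τ S × Cfg τ S)).filter (fun p => Agree C p.1 p.2),
      eps C p.1 * eps C p.2 * ξ p.1 * ξ p.2 := by
  unfold Sq
  rw [Finset.sum_filter, ← Finset.univ_product_univ, Finset.sum_product]

/-- Restricting a sum along a sign-reversing involution. -/
theorem sum_restrict {P : Type} [DecidableEq P] (s : Finset P) (h : P → ℝ) (Bad : P → Prop) [DecidablePred Bad]
    (ι : P → P) (hmem : ∀ p ∈ s, Bad p → ι p ∈ s) (hbad : ∀ p ∈ s, Bad p → Bad (ι p))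
    (hinv : ∀ p ∈ s, Bad p → ι (ι p) = p) (hneg : ∀ p ∈ s, Bad p → h (ι p) = - h p) :
    ∑ p ∈ s, h p = ∑ p ∈ s.filter (fun p => ¬ Bad p), h p := by
  classical
  rw [← Finset.sum_filter_add_sum_filter_not s Bad h]
  have : ∑ p ∈ s.filter Bad, h p = 0 := by
    refine Finset.sum_involution (fun p _ => ι p) ?_ ?_ ?_ ?_
    · intro p hp
      rw [Finset.mem_filter] at hp
      rw [hneg p hp.1 hp.2]; ring
    · intro p hp hne heq
      rw [Finset.mem_filter] at hp
      apply hne
      have := hneg p hp.1 hp.2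
      rw [heq] at this
      linarith
    · intro p hp
      rw [Finset.mem_filter] at hp ⊢
      exact ⟨hmem p hp.1 hp.2, hbad p hp.1 hp.2⟩
    · intro p hp
      rw [Finset.mem_filter] at hp
      exact hinv p hp.1 hp.2
  rw [this, zero_add]

/-- Bad at a site: the parities of the numbers of `C`-tokens differ. -/
def BadD (C : Finset τ) (a : S) (p : Cfg τ S × Cfg τ S) : Prop := Odd (nC C p.1 a + nC C p.2 a)

/-- Bad at a site: an isolated `C`-token of the first placement. -/
def BadL (C : Finset τ) (a : S) (p : Cfg τ S × Cfg τ S) : Prop := mC C p.1 a = 0 ∧ Odd (nC C p.1 a)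

instance (C : Finset τ) (a : S) : DecidablePred (BadD (τ := τ) C a) := fun p => by unfold BadD; infer_instance
instance (C : Finset τ) (a : S) : DecidablePred (BadL (τ := τ) C a) := fun p => by unfold BadL; infer_instance

/-- Admissible pairs. -/
def Adm (C : Finset τ) (p : Cfg τ S × Cfg τ S) : Prop :=
  Agree C p.1 p.2 ∧ (∀ a, ¬ BadD C a p) ∧ (∀ a, ¬ BadL C a p)

instance (C : Finset τ) : DecidablePred (Adm (τ := τ) (S := S) C) := fun p => by
  unfold Adm; infer_instance

/-- The summand. -/
def hS (C : Finset τ) (ξ : Cfg τ S → ℝ) (p : Cfg τ S × Cfg τ S) : ℝ :=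
  eps C p.1 * eps C p.2 * ξ p.1 * ξ p.2

/-- First reduction: diagonal flips kill pairs of different parity. -/
theorem sum_restrict_D (C : Finset τ) (ξ : Cfg τ S → ℝ) (hξ : ∀ a c, ξ (flipAll a c) = ξ c)
    (T : Finset S) :
    ∑ p ∈ (univ : Finset (Cfg τ S × Cfg τ S)).filter (fun p => Agree C p.1 p.2), hS C ξ p =
    ∑ p ∈ (univ : Finset (Cfg τ S × Cfg τ S)).filter (fun p => Agree C p.1 p.2 ∧ ∀ a ∈ T, ¬ BadD C a p),
      hS C ξ p := by
  classical
  induction T using Finset.induction_on with
  | empty => simp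
  | insert a T _ ih =>
    rw [ih]
    rw [sum_restrict _ (hS C ξ) (BadD C a) (fun p => (flipAll a p.1, flipAll a p.2))]
    · refine Finset.sum_congr ?_ (fun _ _ => rfl)
      ext p
      simp only [Finset.mem_filter, Finset.mem_univ, true_and, Finset.mem_insert, forall_eq_or_imp]
      tauto
    · intro p hp _
      simp only [Finset.mem_filter, Finset.mem_univ, true_and] at hp ⊢
      refine ⟨fun i hi => ?_, fun b hb => ?_⟩
      · simp [hp.1 i hi]
      · have := hp.2 b hb
        simpa [BadD] using this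
    · intro p _ hb
      simpa [BadD] using hb
    · intro p _ _
      simp
    · intro p _ hb
      simp only [BadD] at hb
      simp only [hS, eps_flipAll, hξ]
      have : (-1 : ℝ) ^ nC C p.1 a * (-1) ^ nC C p.2 a = -1 := by
        rw [← pow_add]; exact Odd.neg_one_pow hb
      calc _ = ((-1 : ℝ) ^ nC C p.1 a * (-1) ^ nC C p.2 a) * (eps C p.1 * eps C p.2 * ξ p.1 * ξ p.2) := by ring
        _ = _ := by rw [this]; ring

/-- Second reduction: left flips at sites with an isolated `C`-token. -/
theorem sum_restrict_L (C : Finset τ) (ξ : Cfg τ S → ℝ) (hξ : ∀ a c, ξ (flipAll a c) = ξ c)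
    (Q : Cfg τ S × Cfg τ S → Prop) [DecidablePred Q]
    (hQ : ∀ a p, Q p → mC C p.1 a = 0 → Q (flipAll a p.1, p.2))
    (T : Finset S) :
    ∑ p ∈ (univ : Finset (Cfg τ S × Cfg τ S)).filter (fun p => Agree C p.1 p.2 ∧ Q p), hS C ξ p =
    ∑ p ∈ (univ : Finset (Cfg τ S × Cfg τ S)).filter (fun p => (Agree C p.1 p.2 ∧ Q p) ∧ ∀ a ∈ T, ¬ BadL C a p),
      hS C ξ p := by
  classical
  induction T using Finset.induction_on with
  | empty => simp
  | insert a T _ ih =>
    rw [ih]
    rw [sum_restrict _ (hS C ξ) (BadL C a) (fun p => (flipAll a p.1, p.2))]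
    · refine Finset.sum_congr ?_ (fun _ _ => rfl)
      ext p
      simp only [Finset.mem_filter, Finset.mem_univ, true_and, Finset.mem_insert, forall_eq_or_imp]
      tauto
    · intro p hp hb
      simp only [Finset.mem_filter, Finset.mem_univ, true_and] at hp ⊢
      refine ⟨⟨fun i hi => ?_, hQ a p hp.1.2 hb.1⟩, fun b hb' => ?_⟩
      · have h0 : (p.1 i).1 ≠ a := by
          intro h
          have h1 : i ∈ Cᶜ.filter (fun i => (p.1 i).1 = a) := by
            simp [hi, h]
          have h2 := hb.1
          unfold mC at h2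
          rw [Finset.card_eq_zero] at h2
          rw [h2] at h1
          simp at h1
        rw [flipAll_apply, flipPos_of_ne a _ h0]
        exact hp.1.1 i hi
      · have := hp.2 b hb'
        simpa [BadL] using this
    · intro p _ hb
      simpa [BadL] using hb
    · intro p _ _
      simp
    · intro p _ hb
      simp only [hS, eps_flipAll, hξ]
      have : (-1 : ℝ) ^ nC C p.1 a = -1 := Odd.neg_one_pow hb.2
      rw [this]; ring


/-- Only admissible pairs contribute. -/
theorem Sq_eq_adm (C : Finset τ) (ξ : Cfg τ S → ℝ) (hξ : ∀ a c, ξ (flipAll a c) = ξ c) :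
    Sq C ξ = ∑ p ∈ (univ : Finset (Cfg τ S × Cfg τ S)).filter (Adm C), hS C ξ p := by
  classical
  have h0 : Sq C ξ = ∑ p ∈ (univ : Finset (Cfg τ S × Cfg τ S)).filter (fun p => Agree C p.1 p.2), hS C ξ p :=
    Sq_eq_sum C ξ
  rw [h0, sum_restrict_D C ξ hξ univ]
  have hQ : ∀ (a : S) (p : Cfg τ S × Cfg τ S), (∀ a ∈ (univ : Finset S), ¬ BadD C a p) →
      mC C p.1 a = 0 → (∀ b ∈ (univ : Finset S), ¬ BadD C b (flipAll a p.1, p.2)) := by
    intro a p h _ b hb
    have := h b hb
    simpa [BadD] using this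
  rw [sum_restrict_L C ξ hξ (fun p => ∀ a ∈ (univ : Finset S), ¬ BadD C a p) hQ univ]
  refine Finset.sum_congr ?_ (fun _ _ => rfl)
  ext p
  simp only [Finset.mem_filter, Finset.mem_univ, true_and, Adm, forall_true_left]
  tauto

theorem mC_eq_of_agree (C : Finset τ) {c c' : Cfg τ S} (h : Agree C c c') (a : S) : mC C c a = mC C c' a := by
  unfold mC
  congr 1
  ext i
  simp only [Finset.mem_filter, Finset.mem_compl]
  constructor
  · rintro ⟨hi, h2⟩; exact ⟨hi, by rw [← h i hi]; exact h2⟩
  · rintro ⟨hi, h2⟩; exact ⟨hi, by rw [h i hi]; exact h2⟩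

theorem Adm_symm (C : Finset τ) {c c' : Cfg τ S} (h : Adm C (c, c')) : Adm C (c', c) := by
  obtain ⟨h1, h2, h3⟩ := h
  refine ⟨fun i hi => (h1 i hi).symm, fun a ha => h2 a ?_, fun a ha => h3 a ?_⟩
  · simpa [BadD, add_comm] using ha
  · obtain ⟨ha1, ha2⟩ := ha
    refine ⟨by simpa [mC_eq_of_agree C h1 a] using ha1, ?_⟩
    have h4 : ¬ Odd (nC C c a + nC C c' a) := h2 a
    simp only at ha2 ⊢
    by_contra hn
    rw [Nat.not_odd_iff_even] at hn
    exact h4 (hn.add_odd ha2)

/-- Cauchy-Schwarz on the admissible pairs. -/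
theorem Sq_le_card (C : Finset τ) (ξ : Cfg τ S → ℝ) (hξ : ∀ a c, ξ (flipAll a c) = ξ c) :
    Sq C ξ ≤ ∑ c : Cfg τ S, ξ c ^ 2 * ((univ.filter (fun c' : Cfg τ S => Adm C (c, c'))).card : ℝ) := by
  classical
  rw [Sq_eq_adm C ξ hξ]
  set A := (univ : Finset (Cfg τ S × Cfg τ S)).filter (Adm C) with hA
  have h1 : ∑ p ∈ A, hS C ξ p ≤ ∑ p ∈ A, (ξ p.1 ^ 2 + ξ p.2 ^ 2) / 2 := by
    refine Finset.sum_le_sum (fun p _ => ?_)
    have h2 : |eps C p.1 * eps C p.2| = 1 := by rw [abs_mul, eps_abs, eps_abs]; norm_num
    have h3 : hS C ξ p ≤ |ξ p.1 * ξ p.2| := by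
      unfold hS
      calc eps C p.1 * eps C p.2 * ξ p.1 * ξ p.2 = (eps C p.1 * eps C p.2) * (ξ p.1 * ξ p.2) := by ring
        _ ≤ |(eps C p.1 * eps C p.2) * (ξ p.1 * ξ p.2)| := le_abs_self _
        _ = _ := by rw [abs_mul, h2, one_mul]
    have h4 : |ξ p.1 * ξ p.2| ≤ (ξ p.1 ^ 2 + ξ p.2 ^ 2) / 2 := by
      rw [abs_mul]
      nlinarith [sq_nonneg (|ξ p.1| - |ξ p.2|), sq_abs (ξ p.1), sq_abs (ξ p.2)]
    linarith
  have h5 : ∑ p ∈ A, ξ p.2 ^ 2 = ∑ p ∈ A, ξ p.1 ^ 2 := by
    refine Finset.sum_bij' (fun p _ => (p.2, p.1)) (fun p _ => (p.2, p.1)) ?_ ?_ ?_ ?_ ?_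
    · intro p hp
      simp only [hA, Finset.mem_filter, Finset.mem_univ, true_and] at hp ⊢
      exact Adm_symm C (c := p.1) (c' := p.2) hp
    · intro p hp
      simp only [hA, Finset.mem_filter, Finset.mem_univ, true_and] at hp ⊢
      exact Adm_symm C (c := p.1) (c' := p.2) hp
    · intro p _; rfl
    · intro p _; rfl
    · intro p _; rfl
  have h6 : ∑ p ∈ A, ξ p.1 ^ 2 =
      ∑ c : Cfg τ S, ξ c ^ 2 * ((univ.filter (fun c' : Cfg τ S => Adm C (c, c'))).card : ℝ) := by
    rw [hA, Finset.sum_filter, ← Finset.univ_product_univ, Finset.sum_product]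
    refine Finset.sum_congr rfl (fun c _ => ?_)
    rw [Finset.card_filter]
    push_cast
    rw [Finset.mul_sum]
    refine Finset.sum_congr rfl (fun c' _ => ?_)
    split_ifs <;> simp
  have h7 : ∑ p ∈ A, (ξ p.1 ^ 2 + ξ p.2 ^ 2) / 2 = ∑ p ∈ A, ξ p.1 ^ 2 := by
    rw [← Finset.sum_div, Finset.sum_add_distrib, h5]; ring
  linarith

/-! ### Counting -/

/-- Tokens at a site. -/
def tokAt (c : Cfg τ S) (a : S) : Finset τ := univ.filter (fun i => (c i).1 = a)

theorem card_tokAt_le (c : Cfg τ S) (a : S) : (tokAt c a).card ≤ 2 := by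
  have : (tokAt c a).card ≤ (univ : Finset Bool).card := by
    refine Finset.card_le_card_of_injOn (fun i => (c i).2) (fun _ _ => Finset.mem_univ _) ?_
    intro i hi j hj hij
    simp only [tokAt, Finset.coe_filter, Finset.mem_univ, true_and, Set.mem_setOf_eq] at hi hj
    apply c.injective
    exact Prod.ext (hi.trans hj.symm) hij
  simpa using this

theorem nC_add_mC (C : Finset τ) (c : Cfg τ S) (a : S) : nC C c a + mC C c a = (tokAt c a).card := by
  unfold nC mC tokAt
  rw [← Finset.card_union_of_disjoint]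
  · congr 1
    ext i
    simp only [Finset.mem_union, Finset.mem_filter, Finset.mem_compl, Finset.mem_univ, true_and]
    by_cases h : i ∈ C <;> simp [h]
  · rw [Finset.disjoint_left]
    intro i hi hi'
    simp only [Finset.mem_filter, Finset.mem_compl] at hi hi'
    exact hi'.1 hi.1

theorem nC_le_two (C : Finset τ) (c : Cfg τ S) (a : S) : nC C c a ≤ 2 := by
  have := nC_add_mC C c a
  have := card_tokAt_le c a
  omega

/-- Sites with an odd number of `C`-tokens. -/
def oddS (C : Finset τ) (c : Cfg τ S) : Finset S := univ.filter (fun a => Odd (nC C c a))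

/-- Sites with two `C`-tokens. -/
def fullS (C : Finset τ) (c : Cfg τ S) : Finset S := univ.filter (fun a => nC C c a = 2)

theorem card_eq_odd_add_full (C : Finset τ) (c : Cfg τ S) :
    C.card = (oddS C c).card + 2 * (fullS C c).card := by
  classical
  have h1 : C.card = ∑ a : S, nC C c a :=
    Finset.card_eq_sum_card_fiberwise (f := fun i => (c i).1) (s := C) (t := univ)
      (fun _ _ => Finset.mem_coe.2 (Finset.mem_univ _))
  have h2 : ∀ a : S, nC C c a = (if Odd (nC C c a) then 1 else 0) + 2 * (if nC C c a = 2 then 1 else 0) := by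
    intro a
    have := nC_le_two C c a
    interval_cases h : nC C c a <;> simp
  rw [h1, Finset.sum_congr rfl (fun a _ => h2 a), Finset.sum_add_distrib, ← Finset.mul_sum]
  unfold oddS fullS
  rw [Finset.card_filter, Finset.card_filter]

/-- The set of positions available to `C`-tokens given the set of doubly filled sites. -/
def availS (C : Finset τ) (c : Cfg τ S) (E : Finset S) : Finset (S × Bool) :=
  (univ.filter (fun x => x.1 ∈ E)) ∪ (univ.filter (fun x => x.1 ∈ oddS C c ∧ ∀ j, j ∉ C → c j ≠ x))

theorem card_availS_le (C : Finset τ) (c : Cfg τ S) (E : Finset S)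
    (hv : ∀ a, ¬ (mC C c a = 0 ∧ Odd (nC C c a))) :
    (availS C c E).card ≤ 2 * E.card + (oddS C c).card := by
  classical
  refine (Finset.card_union_le _ _).trans (Nat.add_le_add ?_ ?_)
  · have : (univ : Finset (S × Bool)).filter (fun x => x.1 ∈ E) = E ×ˢ (univ : Finset Bool) := by
      ext x; simp
    rw [this, Finset.card_product]
    simp [mul_comm]
  · refine Finset.card_le_card_of_injOn (fun x => x.1) ?_ ?_
    · intro x hx
      simp only [Finset.coe_filter, Finset.mem_univ, true_and, Set.mem_setOf_eq] at hx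
      exact hx.1
    · intro x hx y hy hxy
      simp only [Finset.coe_filter, Finset.mem_univ, true_and, Set.mem_setOf_eq] at hx hy
      simp only at hxy
      have h1 : mC C c x.1 ≠ 0 := by
        intro h0
        refine hv x.1 ⟨h0, ?_⟩
        simpa [oddS] using hx.1
      unfold mC at h1
      rw [Finset.card_ne_zero] at h1
      obtain ⟨j, hj⟩ := h1
      rw [Finset.mem_filter, Finset.mem_compl] at hj
      have h2 := hx.2 j hj.1
      have h3 := hy.2 j hj.1
      obtain ⟨xs, xv⟩ := x
      obtain ⟨ys, yv⟩ := y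
      simp only at hxy hj h2 h3
      subst hxy
      rcases hcj : c j with ⟨js, jv⟩
      rw [hcj] at hj h2 h3
      obtain ⟨_, hj2⟩ := hj
      simp only at hj2
      subst hj2
      have h4 : xv ≠ jv := by
        intro h; exact h2 (by rw [h])
      have h5 : yv ≠ jv := by
        intro h; exact h3 (by rw [h])
      have h6 : xv = yv := by
        cases xv <;> cases yv <;> cases jv <;> simp_all
      rw [h6]


theorem nC_pos_of_mem (C : Finset τ) (c : Cfg τ S) {i : τ} (hi : i ∈ C) : 0 < nC C c (c i).1 := by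
  unfold nC
  exact Finset.card_pos.2 ⟨i, by simp [hi]⟩

/-- A fibre of the count. -/
theorem card_fiber_le (C : Finset τ) (c : Cfg τ S) (E : Finset S)
    (hv : ∀ a, ¬ (mC C c a = 0 ∧ Odd (nC C c a))) (hE : E.card = (fullS C c).card) :
    (univ.filter (fun c' : Cfg τ S => Adm C (c, c') ∧ fullS C c' = E)).card ≤ C.card.factorial := by
  classical
  set F := univ.filter (fun c' : Cfg τ S => Adm C (c, c') ∧ fullS C c' = E) with hF
  set I := availS C c E with hI
  have hIcard : I.card ≤ C.card := by
    have h1 : I.card ≤ 2 * E.card + (oddS C c).card := card_availS_le C c E hv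
    have h2 := card_eq_odd_add_full C c
    rw [hE] at h1
    omega
  have hmem : ∀ c' ∈ F, ∀ i ∈ C, c' i ∈ I := by
    intro c' hc' i hi
    simp only [hF, Finset.mem_filter, Finset.mem_univ, true_and] at hc'
    obtain ⟨⟨hag, hD, hL⟩, hE'⟩ := hc'
    simp only [hI, availS, Finset.mem_union, Finset.mem_filter, Finset.mem_univ, true_and]
    by_cases hE2 : (c' i).1 ∈ E
    · exact Or.inl hE2
    · right
      have h1 : nC C c' (c' i).1 ≠ 2 := by
        intro h
        apply hE2
        rw [← hE']
        simp [fullS, h]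
      have h2 := nC_pos_of_mem C c' hi
      have h3 := nC_le_two C c' (c' i).1
      have h4 : nC C c' (c' i).1 = 1 := by omega
      constructor
      · have h5 : ¬ Odd (nC C c (c' i).1 + nC C c' (c' i).1) := hD _
        simp only [oddS, Finset.mem_filter, Finset.mem_univ, true_and]
        rw [h4] at h5
        by_contra hn
        rw [Nat.not_odd_iff_even] at hn
        exact h5 (hn.add_odd (by decide))
      · intro j hj hcj
        have h6 : c' j = c' i := by rw [← hag j hj]; exact hcj
        have h7 : j = i := c'.injective h6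
        exact hj (h7 ▸ hi)
  have hcardI : Fintype.card (↥C ↪ ↥I) ≤ C.card.factorial := by
    rw [Fintype.card_embedding_eq]
    simp only [Fintype.card_coe]
    rcases Nat.lt_or_ge I.card C.card with h | h
    · rw [Nat.descFactorial_eq_zero_iff_lt.2 h]; exact Nat.zero_le _
    · have : I.card = C.card := le_antisymm hIcard h
      rw [this, Nat.descFactorial_self]
  have hinj : Function.Injective (fun x : {c' // c' ∈ F} =>
      (⟨fun i : ↥C => ⟨x.1 i.1, hmem x.1 x.2 i.1 i.2⟩, fun i j hij => by
        apply Subtype.ext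
        exact x.1.injective (congrArg Subtype.val hij)⟩ : ↥C ↪ ↥I)) := by
    rintro ⟨c₁, h₁⟩ ⟨c₂, h₂⟩ h
    apply Subtype.ext
    simp only at h
    have hag1 : Agree C c c₁ := by
      simp only [hF, Finset.mem_filter, Finset.mem_univ, true_and] at h₁
      exact h₁.1.1
    have hag2 : Agree C c c₂ := by
      simp only [hF, Finset.mem_filter, Finset.mem_univ, true_and] at h₂
      exact h₂.1.1
    apply DFunLike.ext
    intro i
    by_cases hi : i ∈ C
    · have := congrArg (fun e : ↥C ↪ ↥I => (e ⟨i, hi⟩).1) h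
      exact this
    · rw [← hag1 i hi, ← hag2 i hi]
  have := Fintype.card_le_of_injective _ hinj
  rw [Fintype.card_coe] at this
  exact this.trans hcardI

/-- Count of the second placements. -/
theorem card_adm_le (C : Finset τ) (c : Cfg τ S) :
    (univ.filter (fun c' : Cfg τ S => Adm C (c, c'))).card ≤
      (if ∀ a, ¬ (mC C c a = 0 ∧ Odd (nC C c a)) then
        C.card.factorial * (Fintype.card S).choose (fullS C c).card else 0) := by
  classical
  split_ifs with hv
  · have hmaps : ∀ c' ∈ univ.filter (fun c' : Cfg τ S => Adm C (c, c')),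
        fullS C c' ∈ (Finset.powersetCard (fullS C c).card (univ : Finset S)) := by
      intro c' hc'
      simp only [Finset.mem_filter, Finset.mem_univ, true_and] at hc'
      rw [Finset.mem_powersetCard]
      refine ⟨Finset.subset_univ _, ?_⟩
      have h1 := card_eq_odd_add_full C c
      have h2 := card_eq_odd_add_full C c'
      have h3 : oddS C c' = oddS C c := by
        ext a
        simp only [oddS, Finset.mem_filter, Finset.mem_univ, true_and]
        have h5 : ¬ Odd (nC C c a + nC C c' a) := hc'.2.1 a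
        rcases Nat.even_or_odd (nC C c a) with h6 | h6 <;> rcases Nat.even_or_odd (nC C c' a) with h7 | h7
        · simp [Nat.not_odd_iff_even.2 h6, Nat.not_odd_iff_even.2 h7]
        · exact absurd (h6.add_odd h7) h5
        · exact absurd (h6.add_even h7) h5
        · simp [h6, h7]
      rw [h3] at h2
      omega
    rw [Finset.card_eq_sum_card_fiberwise hmaps]
    calc _ ≤ ∑ _E ∈ Finset.powersetCard (fullS C c).card (univ : Finset S), C.card.factorial := by
          refine Finset.sum_le_sum (fun E hE => ?_)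
          rw [Finset.mem_powersetCard] at hE
          rw [Finset.filter_filter]
          exact card_fiber_le C c E hv hE.2
      _ = _ := by
          rw [Finset.sum_const, Finset.card_powersetCard, smul_eq_mul, mul_comm]
          simp
  · simp only [not_forall, not_not] at hv
    obtain ⟨a, ha⟩ := hv
    have : univ.filter (fun c' : Cfg τ S => Adm C (c, c')) = ∅ := by
      rw [Finset.filter_eq_empty_iff]
      intro c' _ hadm
      exact hadm.2.2 a ha
    rw [this]; simp


/-- Doubly occupied sites. -/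
def dblSites (c : Cfg τ S) : Finset S := univ.filter (fun a => (tokAt c a).card = 2)

/-- Tokens at the sites of `F`. -/
def tokS (c : Cfg τ S) (F : Finset S) : Finset τ := univ.filter (fun i => (c i).1 ∈ F)

theorem card_tokS (c : Cfg τ S) (F : Finset S) (h : ∀ a ∈ F, (tokAt c a).card = 2) :
    (tokS c F).card = 2 * F.card := by
  classical
  have hm : ∀ i ∈ tokS c F, (c i).1 ∈ F := by
    intro i hi
    simpa [tokS] using hi
  rw [Finset.card_eq_sum_card_fiberwise hm]
  have : ∀ a ∈ F, ((tokS c F).filter (fun i => (c i).1 = a)).card = 2 := by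
    intro a ha
    rw [← h a ha]
    congr 1
    ext i
    simp only [tokS, tokAt, Finset.mem_filter, Finset.mem_univ, true_and]
    constructor
    · rintro ⟨_, h2⟩; exact h2
    · intro h2; exact ⟨h2 ▸ ha, h2⟩
  rw [Finset.sum_congr rfl this]
  simp [mul_comm]

theorem card_dblSites_le (c : Cfg τ S) : 2 * (dblSites c).card ≤ Fintype.card τ := by
  have h := card_tokS c (dblSites c) (fun a ha => by simpa [dblSites] using ha)
  rw [← h]
  exact Finset.card_le_univ _

section valid

variable (C : Finset τ) (c : Cfg τ S)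

theorem subset_dbl_of_valid (hv : ∀ a, ¬ (mC C c a = 0 ∧ Odd (nC C c a))) :
    C ⊆ tokS c (dblSites c) := by
  intro i hi
  simp only [tokS, dblSites, Finset.mem_filter, Finset.mem_univ, true_and]
  have h1 := nC_add_mC C c (c i).1
  have h2 := card_tokAt_le c (c i).1
  have h3 := nC_pos_of_mem C c hi
  by_contra h4
  have h5 : nC C c (c i).1 = 1 := by omega
  have h6 : mC C c (c i).1 = 0 := by omega
  exact hv (c i).1 ⟨h6, by rw [h5]; decide⟩

theorem fullS_subset : fullS C c ⊆ dblSites c := by
  intro a ha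
  simp only [fullS, Finset.mem_filter, Finset.mem_univ, true_and] at ha
  simp only [dblSites, Finset.mem_filter, Finset.mem_univ, true_and]
  have h1 := nC_add_mC C c a
  have h2 := card_tokAt_le c a
  omega

theorem tokS_full_subset : tokS c (fullS C c) ⊆ C := by
  intro i hi
  simp only [tokS, fullS, Finset.mem_filter, Finset.mem_univ, true_and] at hi
  have h1 := nC_add_mC C c (c i).1
  have h2 := card_tokAt_le c (c i).1
  have h3 : mC C c (c i).1 = 0 := by omega
  unfold mC at h3
  rw [Finset.card_eq_zero] at h3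
  by_contra hni
  have : i ∈ Cᶜ.filter (fun j => (c j).1 = (c i).1) := by simp [hni]
  rw [h3] at this
  simp at this

theorem card_tokS_full : (tokS c (fullS C c)).card = 2 * (fullS C c).card := by
  refine card_tokS c _ (fun a ha => ?_)
  have := fullS_subset C c ha
  simpa [dblSites] using this

end valid

/-- The count of the sets `C` with a given number of doubly filled sites. -/
theorem card_valid_le (c : Cfg τ S) (k p : ℕ) :
    ((powersetCard k (univ : Finset τ)).filter (fun C =>
      (∀ a, ¬ (mC C c a = 0 ∧ Odd (nC C c a))) ∧ (fullS C c).card = p)).card ≤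
    (dblSites c).card.choose p * (tokS c (dblSites c)).card.choose (k - 2 * p) := by
  classical
  have hmaps : ∀ C ∈ ((powersetCard k (univ : Finset τ)).filter (fun C =>
      (∀ a, ¬ (mC C c a = 0 ∧ Odd (nC C c a))) ∧ (fullS C c).card = p)),
      (fullS C c, C \ tokS c (fullS C c)) ∈
        (powersetCard p (dblSites c)) ×ˢ (powersetCard (k - 2 * p) (tokS c (dblSites c))) := by
    intro C hC
    simp only [Finset.mem_filter, Finset.mem_powersetCard, Finset.subset_univ, true_and] at hC
    obtain ⟨hk, hv, hp⟩ := hC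
    simp only [Finset.mem_product, Finset.mem_powersetCard]
    refine ⟨⟨fullS_subset C c, hp⟩, ?_, ?_⟩
    · exact (Finset.sdiff_subset).trans (subset_dbl_of_valid C c hv)
    · rw [Finset.card_sdiff_of_subset (tokS_full_subset C c), card_tokS_full, hk, hp]
  have hinj : Set.InjOn (fun C : Finset τ => (fullS C c, C \ tokS c (fullS C c)))
      ((powersetCard k (univ : Finset τ)).filter (fun C =>
      (∀ a, ¬ (mC C c a = 0 ∧ Odd (nC C c a))) ∧ (fullS C c).card = p)) := by
    intro C _ C' _ h
    simp only [Prod.mk.injEq] at h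
    obtain ⟨h1, h2⟩ := h
    rw [← Finset.sdiff_union_of_subset (tokS_full_subset C c),
      ← Finset.sdiff_union_of_subset (tokS_full_subset C' c), h2, h1]
  have := Finset.card_le_card_of_injOn _ hmaps hinj
  rwa [Finset.card_product, Finset.card_powersetCard, Finset.card_powersetCard] at this

/-- **The `S_k` bound.** -/
theorem sum_Sq_le (ξ : Cfg τ S → ℝ) (hξ : ∀ a c, ξ (flipAll a c) = ξ c) (k : ℕ) :
    ∑ C ∈ powersetCard k (univ : Finset τ), Sq C ξ ≤
      ((k.factorial * ∑ p ∈ Finset.range (k / 2 + 1), (Fintype.card S).choose p *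
        ((Fintype.card τ / 2).choose p * (2 * (Fintype.card τ / 2)).choose (k - 2 * p)) : ℕ) : ℝ) *
      ∑ c : Cfg τ S, ξ c ^ 2 := by
  classical
  set N := Fintype.card S with hN
  set M := Fintype.card τ / 2 with hM
  have h1 : ∑ C ∈ powersetCard k (univ : Finset τ), Sq C ξ ≤
      ∑ C ∈ powersetCard k (univ : Finset τ), ∑ c : Cfg τ S, ξ c ^ 2 *
        ((if ∀ a, ¬ (mC C c a = 0 ∧ Odd (nC C c a)) then
        C.card.factorial * N.choose (fullS C c).card else 0 : ℕ) : ℝ) := by
    refine Finset.sum_le_sum (fun C _ => (Sq_le_card C ξ hξ).trans (Finset.sum_le_sum (fun c _ => ?_)))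
    refine mul_le_mul_of_nonneg_left ?_ (sq_nonneg _)
    exact_mod_cast card_adm_le C c
  refine h1.trans ?_
  rw [Finset.sum_comm, Finset.mul_sum]
  refine Finset.sum_le_sum (fun c _ => ?_)
  rw [← Finset.mul_sum, mul_comm]
  refine mul_le_mul_of_nonneg_right ?_ (sq_nonneg _)
  norm_cast
  set V := (powersetCard k (univ : Finset τ)).filter (fun C => ∀ a, ¬ (mC C c a = 0 ∧ Odd (nC C c a))) with hV
  have h2 : ∑ C ∈ powersetCard k (univ : Finset τ), (if ∀ a, ¬ (mC C c a = 0 ∧ Odd (nC C c a)) then
        C.card.factorial * N.choose (fullS C c).card else 0) =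
      ∑ C ∈ V, k.factorial * N.choose (fullS C c).card := by
    rw [hV, Finset.sum_filter]
    refine Finset.sum_congr rfl (fun C hC => ?_)
    rw [Finset.mem_powersetCard] at hC
    rw [hC.2]
  rw [h2, ← Finset.mul_sum]
  refine Nat.mul_le_mul_left _ ?_
  have hmaps : ∀ C ∈ V, (fullS C c).card ∈ Finset.range (k / 2 + 1) := by
    intro C hC
    rw [hV, Finset.mem_filter, Finset.mem_powersetCard] at hC
    have := card_eq_odd_add_full C c
    rw [Finset.mem_range]
    omega
  rw [← Finset.sum_fiberwise_of_maps_to hmaps]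
  refine Finset.sum_le_sum (fun p _ => ?_)
  have h3 : ∑ C ∈ V.filter (fun C => (fullS C c).card = p), N.choose (fullS C c).card =
      (V.filter (fun C => (fullS C c).card = p)).card * N.choose p := by
    rw [Finset.card_eq_sum_ones, Finset.sum_mul]
    refine Finset.sum_congr rfl (fun C hC => ?_)
    rw [Finset.mem_filter] at hC
    rw [hC.2, one_mul]
  rw [h3, mul_comm]
  refine Nat.mul_le_mul_left _ ?_
  have h4 : (V.filter (fun C => (fullS C c).card = p)) =
      ((powersetCard k (univ : Finset τ)).filter (fun C =>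
      (∀ a, ¬ (mC C c a = 0 ∧ Odd (nC C c a))) ∧ (fullS C c).card = p)) := by
    rw [hV, Finset.filter_filter]
  rw [h4]
  refine (card_valid_le c k p).trans ?_
  have h5 : (dblSites c).card ≤ M := by
    have := card_dblSites_le c
    omega
  have h6 : (tokS c (dblSites c)).card ≤ 2 * M := by
    rw [card_tokS c _ (fun a ha => by simpa [dblSites] using ha)]
    omega
  exact Nat.mul_le_mul (Nat.choose_le_choose _ h5) (Nat.choose_le_choose _ h6)

end Crest.Agent.S0222Lib.FR
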