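import Crest.Agent.S0222Lib.FRDualX
import Crest.Agent.S0222Lib.FRPotDef

/-!
# S0222, first-row bound: the closure of the potential for `b ≤ 3`, directly from the moments

For `N ≥ 128`: `triSum b (θ_N(j_L) θ_N(j_R) ρ) ≤ θ_{2N}(b) triSum b ρ` for `b = 0, 1, 2, 3`.
-/

set_option autoImplicit false
set_option linter.unusedSectionVars false
set_option linter.unusedVariables false

namespace Crest.Agent.S0222Lib.FRCore.Pot

open Finset
open Crest.Agent.S0222Lib.FRCore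

/-! ### Single sectors -/

lemma triSum_single {b : ℕ} {F : ℕ → ℕ → ℕ → ℝ} (hF : ∀ t r r', 0 ≤ F t r r')
    {t r r' : ℕ} (ht : t ≤ b) (hr : r ≤ t) (hr' : r' ≤ b - t) : F t r r' ≤ triSum b F := by
  unfold triSum
  have h1 : F t r r' ≤ ∑ r' ∈ Finset.range (b - t + 1), F t r r' :=
    Finset.single_le_sum (f := fun r' => F t r r') (fun i _ => hF t r i)
      (Finset.mem_range.2 (by omega))
  have h2 : (∑ r' ∈ Finset.range (b - t + 1), F t r r') ≤
      ∑ r ∈ Finset.range (t + 1), ∑ r' ∈ Finset.range (b - t + 1), F t r r' :=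
    Finset.single_le_sum (f := fun r => ∑ r' ∈ Finset.range (b - t + 1), F t r r')
      (fun i _ => Finset.sum_nonneg fun j _ => hF t i j) (Finset.mem_range.2 (by omega))
  have h3 : (∑ r ∈ Finset.range (t + 1), ∑ r' ∈ Finset.range (b - t + 1), F t r r') ≤
      ∑ t ∈ Finset.range (b + 1), ∑ r ∈ Finset.range (t + 1), ∑ r' ∈ Finset.range (b - t + 1), F t r r' :=
    Finset.single_le_sum (f := fun t => ∑ r ∈ Finset.range (t + 1), ∑ r' ∈ Finset.range (b - t + 1), F t r r')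
      (fun i _ => Finset.sum_nonneg fun j _ => Finset.sum_nonneg fun k _ => hF i j k)
      (Finset.mem_range.2 (by omega))
  exact h1.trans (h2.trans h3)

lemma coP_one (G : ℝ) : coP 1 G 1 = G := by
  have h : coP 1 G 1 = (((0 : ℕ) : ℝ) + 1) * G * coP 0 (G + 1) 0 := rfl
  rw [h, coP_zero]
  push_cast
  ring

lemma coL_one_one {G : ℝ} (hG : 0 ≤ G) : coL 1 1 G = G := by
  unfold coL
  rw [if_pos hG, coP_one]

lemma coP_two (G : ℝ) : coP 2 G 2 = 2 * G * (G + 1) := by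
  have h : coP 2 G 2 = (((1 : ℕ) : ℝ) + 1) * G * coP 1 (G + 1) 1 := rfl
  rw [h, coP_one]
  push_cast
  ring

lemma coL_two_two {G : ℝ} (hG : 0 ≤ G) : coL 2 2 G = 2 * G * (G + 1) := by
  unfold coL
  rw [if_pos hG, coP_two]

lemma coP_three (G : ℝ) : coP 3 G 3 = 6 * G * (G + 1) * (G + 2) := by
  have h : coP 3 G 3 = (((2 : ℕ) : ℝ) + 1) * G * coP 2 (G + 1) 2 := rfl
  rw [h, coP_two]
  push_cast
  ring

lemma coL_three_three {G : ℝ} (hG : 0 ≤ G) : coL 3 3 G = 6 * G * (G + 1) * (G + 2) := by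
  unfold coL
  rw [if_pos hG, coP_three]

lemma coL_zero (r : ℕ) (G : ℝ) : coL 0 r G = 1 := by
  unfold coL
  split_ifs with h h'
  · exact coP_zero r G
  · rfl
  · exact absurd rfl h'

/-- The moment inequality for the sum of finitely many sectors. -/
lemma moment_left {N b : ℕ} {ρ : ℕ → ℕ → ℕ → ℝ} (hW : Weights N b ρ) (k : ℕ) :
    triSum b (fun t r r' => coL k r (Gv (N : ℝ) r t) * ρ t r r') ≤
      (k.factorial : ℝ) * (1 / 4 : ℝ) ^ k * Sk N b k * triSum b ρ := by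
  have h := hW.moment k 0
  simp only [coL_zero, mul_one, add_zero, Nat.factorial_zero, Nat.cast_one, Nat.choose_self] at h
  exact h

lemma moment_right {N b : ℕ} {ρ : ℕ → ℕ → ℕ → ℝ} (hW : Weights N b ρ) (k : ℕ) :
    triSum b (fun t r r' => coL k r' (Gv (N : ℝ) r' (b - t)) * ρ t r r') ≤
      (k.factorial : ℝ) * (1 / 4 : ℝ) ^ k * Sk N b k * triSum b ρ := by
  have h := hW.moment 0 k
  simp only [coL_zero, one_mul, zero_add, Nat.factorial_zero, Nat.cast_one, Nat.choose_zero_right] at h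
  simpa [mul_one] using h

lemma mass_nonneg {N b : ℕ} {ρ : ℕ → ℕ → ℕ → ℝ} (hW : Weights N b ρ) : 0 ≤ triSum b ρ := by
  unfold triSum
  exact Finset.sum_nonneg fun _ _ => Finset.sum_nonneg fun _ _ => Finset.sum_nonneg fun _ _ => hW.nonneg _ _ _

/-! ### The expansions of `triSum` for small `b` -/

lemma triSum_zero (F : ℕ → ℕ → ℕ → ℝ) : triSum 0 F = F 0 0 0 := by
  simp [triSum]

lemma triSum_one (F : ℕ → ℕ → ℕ → ℝ) :
    triSum 1 F = F 0 0 0 + F 0 0 1 + (F 1 0 0 + F 1 1 0) := by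
  simp [triSum, Finset.sum_range_succ]

lemma triSum_two (F : ℕ → ℕ → ℕ → ℝ) :
    triSum 2 F = (F 0 0 0 + F 0 0 1 + F 0 0 2) + ((F 1 0 0 + F 1 0 1) + (F 1 1 0 + F 1 1 1)) +
      (F 2 0 0 + F 2 1 0 + F 2 2 0) := by
  simp [triSum, Finset.sum_range_succ]

lemma triSum_three (F : ℕ → ℕ → ℕ → ℝ) :
    triSum 3 F = (F 0 0 0 + F 0 0 1 + F 0 0 2 + F 0 0 3) +
      ((F 1 0 0 + F 1 0 1 + F 1 0 2) + (F 1 1 0 + F 1 1 1 + F 1 1 2)) +
      ((F 2 0 0 + F 2 0 1) + (F 2 1 0 + F 2 1 1) + (F 2 2 0 + F 2 2 1)) +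
      (F 3 0 0 + F 3 1 0 + F 3 2 0 + F 3 3 0) := by
  simp [triSum, Finset.sum_range_succ]

/-! ### `b = 0, 1` -/

theorem close_zero {N : ℕ} {ρ : ℕ → ℕ → ℕ → ℝ} (hW : Weights N 0 ρ) :
    triSum 0 (fun t r r' => thN N (t - r) * thN N (0 - t - r') * ρ t r r') ≤
      thN (2 * N) 0 * triSum 0 ρ := by
  rw [triSum_zero, triSum_zero]
  simp

theorem Sk_one_one (N : ℕ) : Sk N 1 1 = 0 := by
  simp [Sk]

theorem close_one {N : ℕ} (hN : 1 ≤ N) {ρ : ℕ → ℕ → ℕ → ℝ} (hW : Weights N 1 ρ) :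
    triSum 1 (fun t r r' => thN N (t - r) * thN N (1 - t - r') * ρ t r r') ≤
      thN (2 * N) 1 * triSum 1 ρ := by
  have hN' : (1 : ℝ) ≤ N := by exact_mod_cast hN
  have hG : Gv (N : ℝ) 1 1 = N := by unfold Gv; push_cast; ring
  have h1 : ρ 1 1 0 = 0 := by
    have h := moment_left hW 1
    rw [Sk_one_one] at h
    simp only [mul_zero, zero_mul] at h
    have hF : ∀ t r r', 0 ≤ coL 1 r (Gv (N : ℝ) r t) * ρ t r r' := fun t r r' =>
      mul_nonneg (coL_nonneg _ _ _) (hW.nonneg _ _ _)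
    have h2 := triSum_single (b := 1) hF (t := 1) (r := 1) (r' := 0) le_rfl le_rfl (by omega)
    rw [hG, coL_one_one (by linarith)] at h2
    have h3 := hW.nonneg 1 1 0
    nlinarith
  have h2 : ρ 0 0 1 = 0 := by
    have h := moment_right hW 1
    rw [Sk_one_one] at h
    simp only [mul_zero, zero_mul] at h
    have hF : ∀ t r r', 0 ≤ coL 1 r' (Gv (N : ℝ) r' (1 - t)) * ρ t r r' := fun t r r' =>
      mul_nonneg (coL_nonneg _ _ _) (hW.nonneg _ _ _)
    have h2 := triSum_single (b := 1) hF (t := 0) (r := 0) (r' := 1) (by omega) le_rfl (by omega)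
    simp only [Nat.sub_zero] at h2
    rw [hG, coL_one_one (by linarith)] at h2
    have h3 := hW.nonneg 0 0 1
    nlinarith
  rw [triSum_one]
  simp [h1, h2]

/-! ### Comparison of the potential at the scales `N`, `2N` -/

section Scale

variable {N : ℝ}

lemma fN_two_mul_sub {j : ℕ} (hN : 0 < N) (hj : 0 < j) (hjN : (j : ℝ) ≤ x0 * N) :
    fN (2 * N) j - fN N j = c1 * j * Real.log 2 + (j : ℝ) ^ 2 / (4 * N) := by
  have hj' : (0 : ℝ) < j := by exact_mod_cast hj
  rw [fN_of_le (by positivity) hj (by nlinarith [x0_pos]), fN_of_le hN hj hjN]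
  have h1 : x0 * (2 * N) / j = 2 * (x0 * N / j) := by ring
  rw [h1, Real.log_mul (by norm_num) (by have := x0_pos; positivity)]
  field_simp
  ring

lemma thN_le_scale {j : ℕ} (hN : 128 ≤ N) (hj2 : 2 ≤ j) (hj3 : j ≤ 3) {q : ℝ}
    (hq : c1 * j * Real.log 2 + (j : ℝ) ^ 2 / (4 * N) ≤ q) (hq1 : q < 1) :
    thN N j ≤ thN (2 * N) j * (1 / (1 - q)) := by
  have hN0 : 0 < N := by linarith
  have hjN : (j : ℝ) ≤ x0 * N := by
    have h1 : (j : ℝ) ≤ 3 := by exact_mod_cast hj3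
    unfold x0
    linarith
  rw [thN_of_two_le _ hj2, thN_of_two_le _ hj2]
  have h1 := fN_two_mul_sub hN0 (by omega : 0 < j) hjN
  have h2 : -(fN N j) - g0 = (-(fN (2 * N) j) - g0) + (c1 * j * Real.log 2 + (j : ℝ) ^ 2 / (4 * N)) := by
    linarith
  rw [h2, Real.exp_add]
  refine mul_le_mul_of_nonneg_left ?_ (Real.exp_pos _).le
  have h3 : Real.exp (c1 * j * Real.log 2 + (j : ℝ) ^ 2 / (4 * N)) ≤ Real.exp q := Real.exp_le_exp.2 hq
  refine h3.trans ?_
  have h4 : 1 - q ≤ Real.exp (-q) := by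
    have := Real.add_one_le_exp (-q)
    linarith
  have h5 : 0 < 1 - q := by linarith
  rw [le_div_iff₀ h5]
  calc Real.exp q * (1 - q) ≤ Real.exp q * Real.exp (-q) :=
        mul_le_mul_of_nonneg_left h4 (Real.exp_pos _).le
    _ = 1 := by rw [← Real.exp_add]; simp

/-- `log 128 ≥ 4`. -/
lemma log_ge_four (hN : 128 ≤ N) : 4 ≤ Real.log N := by
  have h1 : Real.log 128 ≤ Real.log N := Real.log_le_log (by norm_num) hN
  have h2 : Real.log 128 = 7 * Real.log 2 := by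
    have : (128 : ℝ) = 2 ^ 7 := by norm_num
    rw [this, Real.log_pow]
    norm_num
  have h3 := Real.log_two_gt_d9
  linarith

/-- The lower bound on the potential at the scale `2N`. -/
lemma two_div_le_thN {j : ℕ} (hN : 128 ≤ N) (hj2 : 2 ≤ j) (hj3 : j ≤ 3) :
    2 / N ≤ thN (2 * N) j := by
  have hN0 : 0 < N := by linarith
  have hj0 : (0 : ℝ) < j := by exact_mod_cast (by omega : 0 < j)
  have hj3' : (j : ℝ) ≤ 3 := by exact_mod_cast hj3
  have hj2' : (2 : ℝ) ≤ j := by exact_mod_cast hj2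
  have hjN : (j : ℝ) ≤ x0 * (2 * N) := by
    unfold x0
    linarith
  rw [thN_of_two_le _ hj2, fN_of_le (by positivity) (by omega : 0 < j) hjN]
  have hL := log_ge_four hN
  have h1 : Real.log (x0 * (2 * N) / j) ≤ Real.log N := by
    refine Real.log_le_log (by have := x0_pos; positivity) ?_
    rw [div_le_iff₀ hj0]
    unfold x0
    nlinarith
  have h2 : Real.log (N / 2) = Real.log N - Real.log 2 := Real.log_div (by positivity) (by norm_num)
  have h3 : 2 / N = Real.exp (-(Real.log (N / 2))) := by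
    rw [Real.exp_neg, Real.exp_log (by positivity)]
    field_simp
  rw [h3]
  apply Real.exp_le_exp.2
  rw [h2]
  have h4 := Real.log_two_lt_d9
  have h5 : 0 ≤ (j : ℝ) ^ 2 / (2 * (2 * N)) := by positivity
  have h6 : c1 * j * (1 + Real.log (x0 * (2 * N) / j)) ≤ c1 * j * (1 + Real.log N) := by
    refine mul_le_mul_of_nonneg_left (by linarith) (by have := c1_pos; positivity)
  have h7 : c1 * j * (1 + Real.log N) ≤ (3 / 100) * (1 + Real.log N) := by
    refine mul_le_mul_of_nonneg_right ?_ (by linarith)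
    unfold c1
    linarith
  have h8 : x0 * j ≤ x0 * 3 := mul_le_mul_of_nonneg_left hj3' x0_pos.le
  have h9 : x0 * j - (j : ℝ) ^ 2 / (2 * (2 * N)) ≤ 57 / 64 := by
    have : x0 * 3 = 57 / 64 := by unfold x0; norm_num
    linarith
  have h10 : g0 = 7 / 10 := rfl
  rw [h10]
  linarith

end Scale

/-! ### `b = 2` -/

theorem close_two {N : ℕ} (hN : 128 ≤ N) {ρ : ℕ → ℕ → ℕ → ℝ} (hW : Weights N 2 ρ) :
    triSum 2 (fun t r r' => thN N (t - r) * thN N (2 - t - r') * ρ t r r') ≤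
      thN (2 * N) 2 * triSum 2 ρ := by
  have hN' : (128 : ℝ) ≤ N := by exact_mod_cast hN
  have hN0 : (0 : ℝ) < N := by linarith
  set M := triSum 2 ρ with hM
  have hM0 : 0 ≤ M := mass_nonneg hW
  have hnn := hW.nonneg
  have hS : Sk N 2 2 = 2 * (1 + N) := by
    simp [Sk, Finset.sum_range_succ]
  -- mass at `t = 1`, both sides on level 0
  have h1 : (N : ℝ) ^ 2 * ρ 1 1 1 ≤ (1 + N) / 4 * M := by
    have h := hW.moment 1 1
    have hF : ∀ t r r', 0 ≤ coL 1 r (Gv (N : ℝ) r t) * coL 1 r' (Gv (N : ℝ) r' (2 - t)) * ρ t r r' :=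
      fun t r r' => mul_nonneg (mul_nonneg (coL_nonneg _ _ _) (coL_nonneg _ _ _)) (hnn _ _ _)
    have h2 := triSum_single (b := 2) hF (t := 1) (r := 1) (r' := 1) (by omega) le_rfl (by omega)
    have hG : Gv (N : ℝ) 1 1 = N := by unfold Gv; push_cast; ring
    rw [hG, coL_one_one hN0.le] at h2
    have h3 := h2.trans h
    simp only [Nat.factorial, Nat.reduceAdd, Nat.choose_succ_self_right] at h3
    rw [hS] at h3
    norm_num at h3
    nlinarith
  -- mass at `t = 2`, `j_L = 0`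
  have h2 : 2 * ((N : ℝ) - 1) * N * ρ 2 2 0 ≤ (1 + N) / 4 * M := by
    have h := moment_left hW 2
    have hF : ∀ t r r', 0 ≤ coL 2 r (Gv (N : ℝ) r t) * ρ t r r' :=
      fun t r r' => mul_nonneg (coL_nonneg _ _ _) (hnn _ _ _)
    have h2 := triSum_single (b := 2) hF (t := 2) (r := 2) (r' := 0) le_rfl le_rfl (by omega)
    have hG : Gv (N : ℝ) 2 2 = N - 1 := by unfold Gv; push_cast; ring
    rw [hG, coL_two_two (by linarith)] at h2
    have h3 := h2.trans h
    rw [hS] at h3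
    norm_num [Nat.factorial] at h3
    nlinarith
  have h3 : 2 * ((N : ℝ) - 1) * N * ρ 0 0 2 ≤ (1 + N) / 4 * M := by
    have h := moment_right hW 2
    have hF : ∀ t r r', 0 ≤ coL 2 r' (Gv (N : ℝ) r' (2 - t)) * ρ t r r' :=
      fun t r r' => mul_nonneg (coL_nonneg _ _ _) (hnn _ _ _)
    have h2 := triSum_single (b := 2) hF (t := 0) (r := 0) (r' := 2) (by omega) le_rfl (by omega)
    simp only [Nat.sub_zero] at h2
    have hG : Gv (N : ℝ) 2 2 = N - 1 := by unfold Gv; push_cast; ring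
    rw [hG, coL_two_two (by linarith)] at h2
    have h3 := h2.trans h
    rw [hS] at h3
    norm_num [Nat.factorial] at h3
    nlinarith
  -- the coin
  have h4 : ρ 0 0 0 + ρ 2 0 0 ≤ (1 / 2) * triSum 2 ρ := by
    have h := DX.W_E_coin_hull hW (φ := fun t => if t = 1 then 0 else 1) (E := 1 / 2) ?_
    · rw [triSum_two] at h
      norm_num at h
      have := hnn 0 0 1
      have := hnn 0 0 2
      have := hnn 2 1 0
      have := hnn 2 2 0
      linarith
    · intro d hd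
      have hd' : d = 0 ∨ d = 1 := by omega
      rcases hd' with rfl | rfl
      · simp [Finset.sum_range_succ]
        norm_num
      · simp
  -- the values of the potential
  have hθ2 : thN N 2 ≤ thN (2 * N) 2 * (1 / (1 - 3 / 100)) := by
    refine thN_le_scale hN' le_rfl (by norm_num) ?_ (by norm_num)
    have h5 := Real.log_two_lt_d9
    have h6 : ((2 : ℕ) : ℝ) ^ 2 / (4 * (N : ℝ)) ≤ 1 / 128 := by
      rw [div_le_div_iff₀ (by positivity) (by norm_num)]
      push_cast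
      nlinarith
    unfold c1
    push_cast at h6 ⊢
    nlinarith
  have hlow := two_div_le_thN (j := 2) hN' le_rfl (by norm_num)
  rw [triSum_two]
  simp only [Nat.sub_zero, Nat.sub_self, thN_zero, one_mul, mul_one, Nat.reduceSub, thN_one, zero_mul,
    mul_zero, zero_add, add_zero, Nat.sub_self]
  set Θ := thN (2 * (N : ℝ)) 2 with hΘ
  have hθ2nn := thN_nonneg (N : ℝ) 2
  -- collect
  have h5 : ρ 1 1 1 ≤ (1 + N) / (4 * (N : ℝ) ^ 2) * M := by
    rw [div_mul_eq_mul_div, le_div_iff₀ (by positivity)]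
    nlinarith
  have h6 : ρ 2 2 0 ≤ (1 + N) / (8 * ((N : ℝ) - 1) * N) * M := by
    have hN1 : 0 < (N : ℝ) - 1 := by linarith
    rw [div_mul_eq_mul_div, le_div_iff₀ (by positivity)]
    nlinarith
  have h7 : ρ 0 0 2 ≤ (1 + N) / (8 * ((N : ℝ) - 1) * N) * M := by
    have hN1 : 0 < (N : ℝ) - 1 := by linarith
    rw [div_mul_eq_mul_div, le_div_iff₀ (by positivity)]
    nlinarith
  have h8 : (1 + (N : ℝ)) / (4 * (N : ℝ) ^ 2) ≤ (13 / 50) / N := by
    rw [div_le_div_iff₀ (by positivity) hN0]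
    nlinarith
  have h9 : (1 + (N : ℝ)) / (8 * ((N : ℝ) - 1) * N) ≤ (13 / 100) / N := by
    have hN1 : 0 < (N : ℝ) - 1 := by linarith
    rw [div_le_div_iff₀ (by positivity) hN0]
    nlinarith
  have h10 : (1 / N : ℝ) ≤ Θ / 2 := by
    have : (2 / N : ℝ) = 2 * (1 / N) := by ring
    linarith
  have h11 : (13 / 50) / (N : ℝ) = (13 / 50) * (1 / N) := by ring
  have h12 : (13 / 100) / (N : ℝ) = (13 / 100) * (1 / N) := by ring
  rw [h11] at h8
  rw [h12] at h9
  have h13 : ρ 1 1 1 ≤ (13 / 100) * Θ * M := by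
    refine h5.trans (mul_le_mul_of_nonneg_right ?_ hM0)
    linarith
  have h14 : ρ 2 2 0 ≤ (13 / 200) * Θ * M := by
    refine h6.trans (mul_le_mul_of_nonneg_right ?_ hM0)
    linarith
  have h15 : ρ 0 0 2 ≤ (13 / 200) * Θ * M := by
    refine h7.trans (mul_le_mul_of_nonneg_right ?_ hM0)
    linarith
  have hΘ0 : 0 ≤ Θ := thN_nonneg _ _
  have h16 : thN (N : ℝ) 2 * (ρ 0 0 0 + ρ 2 0 0) ≤ (Θ * (1 / (1 - 3 / 100))) * ((1 / 2) * M) := by
    refine mul_le_mul hθ2 h4 (add_nonneg (hnn _ _ _) (hnn _ _ _)) (by positivity)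
  have h17 : (Θ * (1 / (1 - 3 / 100))) * ((1 / 2) * M) ≤ (53 / 100) * (Θ * M) := by
    have : 0 ≤ Θ * M := mul_nonneg hΘ0 hM0
    norm_num
    nlinarith
  nlinarith

/-! ### `b = 3` -/

lemma fN_two_nonneg {N : ℝ} (hN : 128 ≤ N) : 0 ≤ fN N 2 := by
  have hN0 : 0 < N := by linarith
  have hj : ((2 : ℕ) : ℝ) ≤ x0 * N := by
    unfold x0
    push_cast
    linarith
  rw [fN_of_le hN0 (by norm_num) hj]
  have hlog : 0 ≤ Real.log (x0 * N / (2 : ℕ)) := by
    refine Real.log_nonneg ?_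
    rw [le_div_iff₀ (by norm_num)]
    linarith
  have h1 : ((2 : ℕ) : ℝ) ^ 2 / (2 * N) ≤ 1 / 64 := by
    rw [div_le_div_iff₀ (by positivity) (by norm_num)]
    push_cast
    linarith
  have h2 : 0 ≤ c1 * ((2 : ℕ) : ℝ) * (1 + Real.log (x0 * N / (2 : ℕ))) := by
    have := c1_pos
    positivity
  have h3 : x0 * ((2 : ℕ) : ℝ) = 19 / 32 := by
    unfold x0
    norm_num
  linarith

lemma thN_two_le_one {N : ℝ} (hN : 128 ≤ N) : thN N 2 ≤ 1 := by
  rw [thN_of_two_le _ le_rfl]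
  have h1 := fN_two_nonneg hN
  have h2 := g0_pos
  exact Real.exp_le_one_iff.2 (by linarith)

set_option maxHeartbeats 4000000 in
theorem close_three {N : ℕ} (hN : 128 ≤ N) {ρ : ℕ → ℕ → ℕ → ℝ} (hW : Weights N 3 ρ) :
    triSum 3 (fun t r r' => thN N (t - r) * thN N (3 - t - r') * ρ t r r') ≤
      thN (2 * N) 3 * triSum 3 ρ := by
  have hN' : (128 : ℝ) ≤ N := by exact_mod_cast hN
  have hN0 : (0 : ℝ) < N := by linarith
  set M := triSum 3 ρ with hM
  have hM0 : 0 ≤ M := mass_nonneg hW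
  have hnn := hW.nonneg
  have hS1 : Sk N 3 1 = 2 := by
    simp [Sk]
  have hS3 : Sk N 3 3 = 12 * N := by
    simp [Sk, Finset.sum_range_succ]
    ring
  have hG0 : Gv (N : ℝ) 1 1 = N := by unfold Gv; push_cast; ring
  have hG1 : Gv (N : ℝ) 1 3 = N - 4 := by unfold Gv; push_cast; ring
  have hG3 : Gv (N : ℝ) 3 3 = N - 2 := by unfold Gv; push_cast; ring
  have hN4 : (0 : ℝ) ≤ N - 4 := by linarith
  -- the levels `j = 2` and the mass on `j = (0, ≠ 0)`
  have hL : ((N : ℝ) - 4) * (ρ 1 1 0 + ρ 1 1 2 + ρ 3 1 0) ≤ 1 / 2 * M := by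
    have h := moment_left hW 1
    have hF : ∀ t r r', 0 ≤ coL 1 r (Gv (N : ℝ) r t) * ρ t r r' :=
      fun t r r' => mul_nonneg (coL_nonneg _ _ _) (hnn _ _ _)
    rw [triSum_three] at h
    have a1 := hF 0 0 0
    have a2 := hF 0 0 1
    have a3 := hF 0 0 2
    have a4 := hF 0 0 3
    have a5 := hF 1 0 0
    have a6 := hF 1 0 1
    have a7 := hF 1 0 2
    have a8 := hF 1 1 1
    have a9 := hF 2 0 0
    have a10 := hF 2 0 1
    have a11 := hF 2 1 0
    have a12 := hF 2 1 1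
    have a13 := hF 2 2 0
    have a14 := hF 2 2 1
    have a15 := hF 3 0 0
    have a16 := hF 3 2 0
    have a17 := hF 3 3 0
    rw [hG0, hG1, coL_one_one hN0.le, coL_one_one hN4, hS1] at h
    have a8' := mul_nonneg hN0.le (hnn 1 1 1)
    have b1 := hnn 1 1 0
    have b2 := hnn 1 1 2
    have b3 := hnn 3 1 0
    norm_num at h
    nlinarith
  have hR : ((N : ℝ) - 4) * (ρ 0 0 1 + ρ 2 0 1 + ρ 2 2 1) ≤ 1 / 2 * M := by
    have h := moment_right hW 1
    have hF : ∀ t r r', 0 ≤ coL 1 r' (Gv (N : ℝ) r' (3 - t)) * ρ t r r' :=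
      fun t r r' => mul_nonneg (coL_nonneg _ _ _) (hnn _ _ _)
    rw [triSum_three] at h
    have a1 := hF 0 0 0
    have a3 := hF 0 0 2
    have a4 := hF 0 0 3
    have a5 := hF 1 0 0
    have a6 := hF 1 0 1
    have a7 := hF 1 0 2
    have a8 := hF 1 1 0
    have a9 := hF 1 1 1
    have a10 := hF 1 1 2
    have a11 := hF 2 0 0
    have a12 := hF 2 1 0
    have a13 := hF 2 1 1
    have a14 := hF 2 2 0
    have a15 := hF 3 0 0
    have a16 := hF 3 1 0
    have a17 := hF 3 2 0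
    have a18 := hF 3 3 0
    simp only [Nat.reduceSub, Nat.sub_zero] at h a1 a3 a4 a5 a6 a7 a8 a9 a10 a11 a12 a13 a14 a15 a16 a17 a18
    rw [hG0, hG1, coL_one_one hN0.le, coL_one_one hN4, hS1] at h
    have a13' := mul_nonneg hN0.le (hnn 2 1 1)
    have b1 := hnn 0 0 1
    have b2 := hnn 2 0 1
    have b3 := hnn 2 2 1
    norm_num at h
    nlinarith
  -- the two extreme sectors
  have h3L : 6 * ((N : ℝ) - 2) * (N - 1) * N * ρ 3 3 0 ≤ (9 / 8) * N * M := by
    have h := moment_left hW 3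
    have hF : ∀ t r r', 0 ≤ coL 3 r (Gv (N : ℝ) r t) * ρ t r r' :=
      fun t r r' => mul_nonneg (coL_nonneg _ _ _) (hnn _ _ _)
    have h2 := triSum_single (b := 3) hF (t := 3) (r := 3) (r' := 0) le_rfl le_rfl (by omega)
    rw [hG3, coL_three_three (by linarith)] at h2
    have h3 := h2.trans h
    rw [hS3] at h3
    norm_num [Nat.factorial] at h3
    nlinarith
  have h3R : 6 * ((N : ℝ) - 2) * (N - 1) * N * ρ 0 0 3 ≤ (9 / 8) * N * M := by
    have h := moment_right hW 3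
    have hF : ∀ t r r', 0 ≤ coL 3 r' (Gv (N : ℝ) r' (3 - t)) * ρ t r r' :=
      fun t r r' => mul_nonneg (coL_nonneg _ _ _) (hnn _ _ _)
    have h2 := triSum_single (b := 3) hF (t := 0) (r := 0) (r' := 3) (by omega) le_rfl (by omega)
    simp only [Nat.sub_zero] at h2
    rw [hG3, coL_three_three (by linarith)] at h2
    have h3 := h2.trans h
    rw [hS3] at h3
    norm_num [Nat.factorial] at h3
    nlinarith
  -- the coin
  have hc : ρ 0 0 0 + ρ 3 0 0 ≤ (1 / 4) * triSum 3 ρ := by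
    have h := DX.W_E_coin_hull hW (φ := fun t => if t = 0 ∨ t = 3 then 1 else 0) (E := 1 / 4) ?_
    · rw [triSum_three] at h
      norm_num at h
      have := hnn 0 0 1
      have := hnn 0 0 2
      have := hnn 0 0 3
      have := hnn 3 1 0
      have := hnn 3 2 0
      have := hnn 3 3 0
      linarith
    · intro d hd
      have hd' : d = 0 ∨ d = 1 := by omega
      rcases hd' with rfl | rfl
      · simp [Finset.sum_range_succ, Nat.choose]
        norm_num
      · simp [Finset.sum_range_succ]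
  -- the values of the potential
  have hθ3 : thN N 3 ≤ thN (2 * N) 3 * (1 / (1 - 1 / 25)) := by
    refine thN_le_scale hN' (by norm_num) le_rfl ?_ (by norm_num)
    have h5 := Real.log_two_lt_d9
    have h6 : ((3 : ℕ) : ℝ) ^ 2 / (4 * (N : ℝ)) ≤ 9 / 512 := by
      rw [div_le_div_iff₀ (by positivity) (by norm_num)]
      push_cast
      nlinarith
    unfold c1
    push_cast at h6 ⊢
    nlinarith
  have hlow := two_div_le_thN (j := 3) hN' (by norm_num) le_rfl
  have hθ21 := thN_two_le_one hN'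
  have hθ20 := thN_nonneg (N : ℝ) 2
  rw [triSum_three]
  simp only [Nat.sub_zero, Nat.sub_self, thN_zero, one_mul, mul_one, Nat.reduceSub, thN_one, zero_mul,
    mul_zero, zero_add, add_zero, Nat.sub_self]
  set Θ := thN (2 * (N : ℝ)) 3 with hΘ
  have hΘ0 : 0 ≤ Θ := thN_nonneg _ _
  have h1N : (1 / N : ℝ) ≤ Θ / 2 := by
    have : (2 / N : ℝ) = 2 * (1 / N) := by ring
    linarith
  -- bounds by `1 / N`
  have hN1pos : (0 : ℝ) < N - 4 := by linarith
  have e1 : (1 : ℝ) / (N - 4) ≤ (26 / 25) * (1 / N) := by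
    rw [div_le_iff₀ hN1pos]
    have : (26 / 25 : ℝ) * (1 / N) * (N - 4) = 26 / 25 - 104 / 25 * (1 / N) := by
      field_simp
      ring
    rw [this]
    have : (1 / N : ℝ) ≤ 1 / 128 := by
      exact one_div_le_one_div_of_le (by norm_num) hN'
    linarith
  have hLb : ρ 1 1 0 + ρ 1 1 2 + ρ 3 1 0 ≤ (1 / 2) * ((26 / 25) * (1 / N) * M) := by
    have h0 : ρ 1 1 0 + ρ 1 1 2 + ρ 3 1 0 ≤ (1 / ((N : ℝ) - 4)) * (1 / 2 * M) := by
      rw [one_div, ← div_eq_inv_mul, le_div_iff₀ hN1pos]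
      linarith
    refine h0.trans ?_
    have := mul_le_mul_of_nonneg_right e1 (by positivity : 0 ≤ 1 / 2 * M)
    linarith
  have hRb : ρ 0 0 1 + ρ 2 0 1 + ρ 2 2 1 ≤ (1 / 2) * ((26 / 25) * (1 / N) * M) := by
    have h0 : ρ 0 0 1 + ρ 2 0 1 + ρ 2 2 1 ≤ (1 / ((N : ℝ) - 4)) * (1 / 2 * M) := by
      rw [one_div, ← div_eq_inv_mul, le_div_iff₀ hN1pos]
      linarith
    refine h0.trans ?_
    have := mul_le_mul_of_nonneg_right e1 (by positivity : 0 ≤ 1 / 2 * M)
    linarith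
  have hPpos : (0 : ℝ) ≤ (1 / N) * M := by positivity
  have hext : ∀ x : ℝ, 0 ≤ x → 6 * ((N : ℝ) - 2) * (N - 1) * N * x ≤ (9 / 8) * N * M →
      x ≤ (1 / 200) * ((1 / N) * M) := by
    intro x hx0 hx
    have h0 : 6 * ((N : ℝ) - 2) * (N - 1) * x ≤ (9 / 8) * M := by
      have h1 : N * (6 * ((N : ℝ) - 2) * (N - 1) * x) ≤ N * ((9 / 8) * M) := by linarith
      exact le_of_mul_le_mul_left h1 hN0
    have h2 : 64 * (N : ℝ) ≤ ((N : ℝ) - 2) * (N - 1) := by nlinarith
    have h3 : 384 * (N : ℝ) * x ≤ (9 / 8) * M := by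
      have := mul_le_mul_of_nonneg_right h2 hx0
      nlinarith
    have h4 : x ≤ (1 / N : ℝ) * ((3 / 1024) * M) := by
      rw [one_div, ← div_eq_inv_mul, le_div_iff₀ hN0]
      linarith
    have h5 : (1 / N : ℝ) * ((3 / 1024) * M) = (3 / 1024) * ((1 / N) * M) := by ring
    rw [h5] at h4
    linarith
  have h3Lb := hext _ (hnn _ _ _) h3L
  have h3Rb := hext _ (hnn _ _ _) h3R
  have h16 : thN (N : ℝ) 3 * (ρ 0 0 0 + ρ 3 0 0) ≤ (Θ * (1 / (1 - 1 / 25))) * ((1 / 4) * M) := by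
    refine mul_le_mul hθ3 hc (add_nonneg (hnn _ _ _) (hnn _ _ _)) (by positivity)
  have h17 : (Θ * (1 / (1 - 1 / 25))) * ((1 / 4) * M) ≤ (27 / 100) * (Θ * M) := by
    have : 0 ≤ Θ * M := mul_nonneg hΘ0 hM0
    norm_num
    nlinarith
  have h18 : (1 / N : ℝ) * M ≤ (Θ / 2) * M := mul_le_mul_of_nonneg_right h1N hM0
  have h19 := mul_le_of_le_one_left (hnn 0 0 1) hθ21
  have h20 := mul_le_of_le_one_left (hnn 1 1 0) hθ21
  have h21 := mul_le_of_le_one_left (hnn 2 0 1) hθ21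
  have h22 := mul_le_of_le_one_left (hnn 3 1 0) hθ21
  have h23 : (Θ / 2) * M = (1 / 2) * (Θ * M) := by ring
  rw [h23] at h18
  have h24 : (1 / 2) * ((26 / 25) * (1 / (N : ℝ)) * M) = (13 / 25) * ((1 / N) * M) := by ring
  rw [h24] at hLb hRb
  nlinarith

end Crest.Agent.S0222Lib.FRCore.Pot
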