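import Crest.Agent.S0222Lib.FRParent
import Crest.Agent.S0222Lib.WordRep

/-!
# S0222, first-row bound: the real operator `Z` on token words and the recursion step

* `ZR D`, `Zop D`: the real form of `Zw (Option Tok) D` on functions on words;
* `Zop_symm`, `Zop_nonneg`, `Zop_Eop` (commutes with all site sums), `Zop_VT`;
* `avgF ξ`: the average of `ξ` over the top flips, the action of `P`;
* `ip_Zop_succ`: `⟨ξ, Z_{2N} ξ⟩ = ⟨η, (Z_N ⊗ Z_N) η⟩` for `η = avgF ξ`;
* `parent η`: the same function on words on `B D × Bool`.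
-/

set_option autoImplicit false
set_option linter.unusedSectionVars false
set_option linter.unusedVariables false

namespace Crest.Agent.S0222Lib.FRCore

open Finset Function Matrix MonoidAlgebra
open Crest.Agent.S0222Lib Crest.Agent.S0222Lib.WordRep Crest.Agent.S0222Lib.Site
open scoped ComplexOrder

variable {Tok : Type*} [Fintype Tok] [DecidableEq Tok]

/-! ### Real matrices -/

section Act

variable {X : Type*} [Fintype X] [DecidableEq X]

/-- The action of a permutation of the sites. -/
def actG (g : Equiv.Perm X) : Vs X Tok →ₗ[ℝ] Vs X Tok where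
  toFun f w := f (w ∘ g)
  map_add' _ _ := rfl
  map_smul' _ _ := rfl

@[simp] lemma actG_apply (g : Equiv.Perm X) (f : Vs X Tok) (w : X → Option Tok) :
    actG g f w = f (w ∘ g) := rfl

lemma update_comp_perm (g : Equiv.Perm X) (w : X → Option Tok) (y : X) (b : Option Tok) :
    update w (g y) b ∘ g = update (w ∘ g) y b := by
  funext z
  by_cases hz : z = y
  · subst hz; simp
  · have : g z ≠ g y := fun h => hz (g.injective h)
    simp [update_of_ne this, update_of_ne hz]

/-- Site sums commute with the site permutations. -/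
theorem Eop_actG (a b : Option Tok) (g : Equiv.Perm X) (f : Vs X Tok) :
    Eop a b (actG g f) = actG g (Eop a b f) := by
  funext w
  simp only [actG_apply, Eop_apply, Function.comp_apply]
  rw [← Equiv.sum_comp g]
  refine Finset.sum_congr rfl fun y _ => ?_
  rw [update_comp_perm]

/-- The real operator of a complex matrix. -/
noncomputable def Mop (M : Matrix (X → Option Tok) (X → Option Tok) ℂ) : Vs X Tok →ₗ[ℝ] Vs X Tok where
  toFun f w := ∑ w', (M w w').re * f w'
  map_add' f g := by
    funext w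
    simp only [Pi.add_apply, mul_add, Finset.sum_add_distrib]
  map_smul' c f := by
    funext w
    simp only [Pi.smul_apply, smul_eq_mul, RingHom.id_apply, Finset.mul_sum]
    exact Finset.sum_congr rfl fun w' _ => by ring

lemma Mop_apply (M : Matrix (X → Option Tok) (X → Option Tok) ℂ) (f : Vs X Tok) (w : X → Option Tok) :
    Mop M f w = ∑ w', (M w w').re * f w' := rfl

lemma Mop_add (M M' : Matrix (X → Option Tok) (X → Option Tok) ℂ) (f : Vs X Tok) :
    Mop (M + M') f = Mop M f + Mop M' f := by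
  funext w
  simp [Mop_apply, add_mul, Finset.sum_add_distrib]

lemma Mop_smul (r : ℝ) (M : Matrix (X → Option Tok) (X → Option Tok) ℂ) (f : Vs X Tok) :
    Mop (r • M) f = r • Mop M f := by
  funext w
  simp only [Mop_apply, Pi.smul_apply, smul_eq_mul, Finset.mul_sum, Matrix.smul_apply, Complex.real_smul,
    Complex.re_ofReal_mul]
  exact Finset.sum_congr rfl fun w' _ => by ring

lemma Mop_rhoG (g : Equiv.Perm X) (f : Vs X Tok) : Mop (rhoG (Option Tok) g) f = actG g f := by
  funext w
  rw [Mop_apply, actG_apply, Finset.sum_eq_single (w ∘ g)]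
  · simp
  · intro w' _ hw'
    simp [rhoG_apply, hw']
  · intro hn; exact absurd (Finset.mem_univ _) hn

lemma Mop_mul {M M' : Matrix (X → Option Tok) (X → Option Tok) ℂ}
    (hM : ∀ w w', (M w w').im = 0) (f : Vs X Tok) :
    Mop (M * M') f = Mop M (Mop M' f) := by
  funext w
  simp only [Mop_apply, Matrix.mul_apply, Complex.re_sum, Complex.mul_re, hM, zero_mul, sub_zero,
    Finset.sum_mul, Finset.mul_sum]
  rw [Finset.sum_comm]
  exact Finset.sum_congr rfl fun w' _ => Finset.sum_congr rfl fun w'' _ => by ring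

lemma Mop_one (f : Vs X Tok) : Mop (1 : Matrix (X → Option Tok) (X → Option Tok) ℂ) f = f := by
  funext w
  rw [Mop_apply, Finset.sum_eq_single w]
  · simp
  · intro w' _ hw'
    simp [Matrix.one_apply, hw'.symm]
  · intro hn; exact absurd (Finset.mem_univ _) hn

lemma rho_im (x : MonoidAlgebra ℝ (Equiv.Perm X)) (w w' : X → Option Tok) :
    (rho (Option Tok) x w w').im = 0 := by
  have h := rho_star_apply (L := Option Tok) x w w'
  have h2 := congrArg Complex.im h
  simp only [Complex.star_def, Complex.conj_im] at h2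
  linarith

/-- `Mop (rho x)` commutes with the site sums. -/
theorem Mop_rho_Eop (x : MonoidAlgebra ℝ (Equiv.Perm X)) (a b : Option Tok) (f : Vs X Tok) :
    Mop (rho (Option Tok) x) (Eop a b f) = Eop a b (Mop (rho (Option Tok) x) f) := by
  classical
  induction x using MonoidAlgebra.induction_linear with
  | zero => simp [Mop_apply]; funext w; simp [Eop_apply, Mop_apply]
  | add x₁ x₂ h₁ h₂ =>
    rw [map_add, Mop_add, Mop_add, h₁, h₂, map_add]
  | single g r =>
    rw [rho_single, Mop_smul, Mop_smul, map_smul, Mop_rhoG, Mop_rhoG, Eop_actG]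

/-- The adjoint too. -/
theorem Mop_rho_star_Eop (x : MonoidAlgebra ℝ (Equiv.Perm X)) (a b : Option Tok) (f : Vs X Tok) :
    Mop (rho (Option Tok) x)ᴴ (Eop a b f) = Eop a b (Mop (rho (Option Tok) x)ᴴ f) := by
  classical
  induction x using MonoidAlgebra.induction_linear with
  | zero => simp [Mop_apply]; funext w; simp [Eop_apply, Mop_apply]
  | add x₁ x₂ h₁ h₂ =>
    rw [map_add, Matrix.conjTranspose_add, Mop_add, Mop_add, h₁, h₂, map_add]
  | single g r =>
    rw [rho_single, Matrix.conjTranspose_smul]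
    simp only [star_trivial]
    rw [Mop_smul, Mop_smul, map_smul, rhoG_conjTranspose, Mop_rhoG, Mop_rhoG, Eop_actG]

end Act

/-! ### The operator `Z` -/

section Zop

variable (Tok)

/-- `Z` as a real operator. -/
noncomputable def Zop (D : ℕ) : Vs (B D) Tok →ₗ[ℝ] Vs (B D) Tok := Mop (Zw (Option Tok) D)

variable {Tok}

lemma Zw_im {D : ℕ} (w w' : B D → Option Tok) : (Zw (Option Tok) D w w').im = 0 := by
  have h := Zw_star_apply (L := Option Tok) w w'
  have h2 := congrArg Complex.im h
  simp only [Complex.star_def, Complex.conj_im] at h2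
  linarith

lemma Zw_ofReal {D : ℕ} (w w' : B D → Option Tok) :
    (((Zw (Option Tok) D w w').re : ℝ) : ℂ) = Zw (Option Tok) D w w' :=
  Complex.ext (by simp) (by simp [Zw_im])

theorem Zop_symm (D : ℕ) (f g : Vs (B D) Tok) : ip (Zop Tok D f) g = ip f (Zop Tok D g) := by
  unfold ip Zop
  simp only [Mop_apply, Finset.sum_mul, Finset.mul_sum]
  rw [Finset.sum_comm]
  refine Finset.sum_congr rfl fun w _ => Finset.sum_congr rfl fun w' _ => ?_
  rw [Zw_symm (L := Option Tok) w' w]
  ring

theorem Zop_nonneg (D : ℕ) (f : Vs (B D) Tok) : 0 ≤ ip f (Zop Tok D f) := by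
  have h := (Zw_posSemidef (Option Tok) D).dotProduct_mulVec_nonneg (fun w => ((f w : ℝ) : ℂ))
  have h2 : star (fun w => ((f w : ℝ) : ℂ)) ⬝ᵥ (Zw (Option Tok) D) *ᵥ (fun w => ((f w : ℝ) : ℂ))
      = ((ip f (Zop Tok D f) : ℝ) : ℂ) := by
    simp only [dotProduct, Matrix.mulVec, ip, Zop, Mop_apply]
    push_cast
    refine Finset.sum_congr rfl fun w _ => ?_
    simp only [Pi.star_apply, Complex.star_def, Complex.conj_ofReal]
    congr 1
    refine Finset.sum_congr rfl fun w' _ => ?_
    rw [Zw_ofReal]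
  rw [h2] at h
  exact_mod_cast h

theorem Zop_Eop (D : ℕ) (a b : Option Tok) (f : Vs (B D) Tok) :
    Zop Tok D (Eop a b f) = Eop a b (Zop Tok D f) := by
  cases D with
  | zero =>
    unfold Zop
    rw [Zw_zero, Mop_one, Mop_one]
  | succ d =>
    unfold Zop
    rw [Zw_succ_eq_rho]
    have hstar : ∀ w w', (((rho (Option Tok) (passA d))ᴴ) w w').im = 0 := by
      intro w w'
      rw [Matrix.conjTranspose_apply]
      simp [rho_im]
    rw [Mop_mul hstar, Mop_mul hstar, Mop_rho_Eop, Mop_rho_star_Eop]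

lemma IsT_comp_perm {X : Type*} [Fintype X] [DecidableEq X] {T : Finset Tok} {w : X → Option Tok} (g : Equiv.Perm X) :
    IsT T (w ∘ g) ↔ IsT T w := by
  have h : ∀ i : Tok, cnt (w ∘ g) (some i) = cnt w (some i) := fun i => card_fiber_comp w g (some i)
  unfold IsT
  simp only [h]

theorem Zop_VT (D : ℕ) (T : Finset Tok) (f : Vs (B D) Tok)
    (hf : f ∈ (VT T : Submodule ℝ (Vs (B D) Tok))) : Zop Tok D f ∈ (VT T : Submodule ℝ (Vs (B D) Tok)) := by
  intro w hw
  unfold Zop
  rw [Mop_apply]
  refine Finset.sum_eq_zero fun w' _ => ?_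
  by_cases h : Zw (Option Tok) D w w' = 0
  · simp [h]
  · obtain ⟨g, rfl⟩ := Zw_ne_zero h
    have : ¬ IsT T (w ∘ g) := fun h2 => hw ((IsT_comp_perm g).1 h2)
    rw [hf _ this, mul_zero]

end Zop

/-! ### The top flips -/

section Flips

variable {D : ℕ}

lemma flipT_mul_self (c : Coin D) : flipT c * flipT c = 1 := by
  ext x : 1
  simp [Equiv.Perm.mul_apply]

lemma flipT_mul (c c' : Coin D) : flipT c * flipT c' = flipT (fun u => xor (c u) (c' u)) := by
  ext x : 1
  simp only [Equiv.Perm.mul_apply, flipT_apply, ini_snocB, topB_snocB]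
  congr 1
  cases topB x <;> cases c (ini x) <;> cases c' (ini x) <;> rfl

/-- Words, under a permutation of the sites. -/
def compE {X : Type*} (g : Equiv.Perm X) : (X → Option Tok) ≃ (X → Option Tok) where
  toFun w := w ∘ g
  invFun w := fun x => w (g⁻¹ x)
  left_inv w := by funext x; simp
  right_inv w := by funext x; simp

lemma sum_comp_perm {X : Type*} [Fintype X] [DecidableEq X] (g : Equiv.Perm X)
    (F : (X → Option Tok) → ℝ) : ∑ w, F (w ∘ g) = ∑ w, F w :=
  Equiv.sum_comp (compE g) F

/-- The average over the top flips: the action of `P`. -/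
noncomputable def avgF (ξ : Vs (B (D + 1)) Tok) : Vs (B (D + 1)) Tok :=
  fun w => (Fintype.card (Coin D) : ℝ)⁻¹ * ∑ c : Coin D, ξ (w ∘ flipT c)

lemma card_coin_pos : (0 : ℝ) < (Fintype.card (Coin D) : ℝ) := by
  exact_mod_cast Fintype.card_pos

lemma avgF_eq (ξ : Vs (B (D + 1)) Tok) :
    avgF ξ = (Fintype.card (Coin D) : ℝ)⁻¹ • ∑ c : Coin D, actG (flipT c) ξ := by
  funext w
  simp [avgF, Finset.sum_apply]

lemma avgF_Eop (a b : Option Tok) (ξ : Vs (B (D + 1)) Tok) :
    avgF (Eop a b ξ) = Eop a b (avgF ξ) := by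
  rw [avgF_eq, avgF_eq, map_smul, map_sum]
  simp only [Eop_actG]

lemma avgF_VT {T : Finset Tok} {ξ : Vs (B (D + 1)) Tok}
    (hξ : ξ ∈ (VT T : Submodule ℝ (Vs (B (D + 1)) Tok))) :
    avgF ξ ∈ (VT T : Submodule ℝ (Vs (B (D + 1)) Tok)) := by
  intro w hw
  unfold avgF
  rw [Finset.sum_eq_zero, mul_zero]
  intro c _
  exact hξ _ fun h => hw ((IsT_comp_perm _).1 h)

lemma avgF_comp (ξ : Vs (B (D + 1)) Tok) (c₁ : Coin D) (w : B (D + 1) → Option Tok) :
    avgF ξ (w ∘ flipT c₁) = avgF ξ w := by
  unfold avgF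
  congr 1
  let e' : Coin D ≃ Coin D :=
    { toFun := fun c u => xor (c₁ u) (c u)
      invFun := fun c u => xor (c₁ u) (c u)
      left_inv := fun c => by funext u; simp
      right_inv := fun c => by funext u; simp }
  rw [← Equiv.sum_comp e' (fun c => ξ (w ∘ flipT c))]
  refine Finset.sum_congr rfl fun c _ => ?_
  have : (w ∘ flipT c₁) ∘ flipT c = w ∘ flipT (e' c) := by
    show (w ∘ flipT c₁) ∘ flipT c = w ∘ flipT (fun u => xor (c₁ u) (c u))
    rw [← flipT_mul]
    rfl
  rw [this]

/-- `P` is symmetric. -/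
lemma ip_avgF (ξ y : Vs (B (D + 1)) Tok) : ip ξ (avgF y) = ip (avgF ξ) y := by
  have h1 : ∀ c : Coin D, ∑ w, ξ w * y (w ∘ flipT c) = ∑ w, ξ (w ∘ flipT c) * y w := by
    intro c
    rw [← sum_comp_perm (flipT c) (fun w => ξ (w ∘ flipT c) * y w)]
    refine Finset.sum_congr rfl fun w _ => ?_
    have h2 : (w ∘ flipT c) ∘ flipT c = w := by
      funext x; simp
    simp only [h2]
  unfold ip avgF
  have h3 : ∑ w, ξ w * ((Fintype.card (Coin D) : ℝ)⁻¹ * ∑ c : Coin D, y (w ∘ flipT c))
      = (Fintype.card (Coin D) : ℝ)⁻¹ * ∑ c : Coin D, ∑ w, ξ w * y (w ∘ flipT c) := by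
    simp only [Finset.mul_sum]
    rw [Finset.sum_comm]
    refine Finset.sum_congr rfl fun w _ => Finset.sum_congr rfl fun c _ => by ring
  have h4 : ∑ w, ((Fintype.card (Coin D) : ℝ)⁻¹ * ∑ c : Coin D, ξ (w ∘ flipT c)) * y w
      = (Fintype.card (Coin D) : ℝ)⁻¹ * ∑ c : Coin D, ∑ w, ξ (w ∘ flipT c) * y w := by
    simp only [Finset.mul_sum, Finset.sum_mul]
    rw [Finset.sum_comm]
    refine Finset.sum_congr rfl fun w _ => Finset.sum_congr rfl fun c _ => by ring
  rw [h3, h4]
  simp only [h1]

/-- `P` decreases the norm. -/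
lemma ip_avgF_self_le (ξ : Vs (B (D + 1)) Tok) : ip (avgF ξ) (avgF ξ) ≤ ip ξ ξ := by
  have hn := card_coin_pos (D := D)
  set n : ℝ := (Fintype.card (Coin D) : ℝ) with hnd
  have h1 : ∀ w, avgF ξ w * avgF ξ w ≤ n⁻¹ * ∑ c : Coin D, ξ (w ∘ flipT c) ^ 2 := by
    intro w
    have h2 := sq_sum_le_card_mul_sum_sq (s := (Finset.univ : Finset (Coin D)))
      (f := fun c => ξ (w ∘ flipT c))
    rw [Finset.card_univ] at h2
    have h3 : avgF ξ w * avgF ξ w = n⁻¹ * (n⁻¹ * (∑ c : Coin D, ξ (w ∘ flipT c)) ^ 2) := by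
      simp only [avgF]; rw [← hnd]; ring
    rw [h3]
    refine mul_le_mul_of_nonneg_left ?_ (inv_nonneg.2 hn.le)
    rw [inv_mul_le_iff₀ hn]
    exact_mod_cast h2
  unfold ip
  refine (Finset.sum_le_sum fun w _ => h1 w).trans ?_
  rw [← Finset.mul_sum, Finset.sum_comm]
  have h5 : ∀ c : Coin D, ∑ w, ξ (w ∘ flipT c) ^ 2 = ∑ w, ξ w * ξ w := by
    intro c
    rw [sum_comp_perm (flipT c) (fun w => ξ w ^ 2)]
    exact Finset.sum_congr rfl fun w _ => by ring
  simp only [h5, Finset.sum_const, Finset.card_univ, nsmul_eq_mul]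
  rw [← hnd, ← mul_assoc, inv_mul_cancel₀ hn.ne', one_mul]

end Flips

/-! ### The recursion of `Z` on real functions -/

section Rec

variable {D : ℕ}

variable (Tok) (D) in
/-- The matrix of `P` on words. -/
noncomputable def PBM : Matrix (B (D + 1) → Option Tok) (B (D + 1) → Option Tok) ℂ :=
  ((Fintype.card (Coin D) : ℝ)⁻¹) • ∑ c : Coin D, rhoG (Option Tok) (flipT c)

variable (Tok) (D) in
/-- The matrix of `Z ⊗ Z` on words. -/
noncomputable def DMat : Matrix (B (D + 1) → Option Tok) (B (D + 1) → Option Tok) ℂ :=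
  Matrix.of fun w w' => dbl (Zw (Option Tok) D) (Zw (Option Tok) D)
    (pairE (Option Tok) D w) (pairE (Option Tok) D w')

lemma reindex_PBM : Matrix.reindex (pairE (Option Tok) D) (pairE (Option Tok) D) (PBM Tok D)
    = PP (Option Tok) D := by
  unfold PP
  rw [← sum_tp_flips]
  ext p q
  simp only [PBM]
  simp only [Matrix.reindex_apply, Matrix.submatrix_apply, Matrix.smul_apply, Matrix.sum_apply]
  congr 1
  refine Finset.sum_congr rfl (fun c _ => ?_)
  have := congrFun (congrFun (reindex_rhoG_flipT (L := Option Tok) c) p) q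
  simpa [Matrix.reindex_apply] using this

lemma reindex_DMat : Matrix.reindex (pairE (Option Tok) D) (pairE (Option Tok) D) (DMat Tok D)
    = dbl (Zw (Option Tok) D) (Zw (Option Tok) D) := by
  ext p q
  simp only [DMat, Matrix.reindex_apply, Matrix.submatrix_apply, Matrix.of_apply,
    Equiv.apply_symm_apply]

lemma Zw_succ_eq : Zw (Option Tok) (D + 1) = PBM Tok D * (DMat Tok D * PBM Tok D) := by
  apply (Matrix.reindex (pairE (Option Tok) D) (pairE (Option Tok) D)).injective
  rw [reindex_Zw_succ, reindex_mul', reindex_mul', reindex_PBM, reindex_DMat, Matrix.mul_assoc]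

lemma PBM_im (w w' : B (D + 1) → Option Tok) : (PBM Tok D w w').im = 0 := by
  simp only [PBM, Matrix.smul_apply, Matrix.sum_apply, Complex.real_smul, Complex.im_ofReal_mul,
    Complex.im_sum, rhoG_apply]
  rw [Finset.sum_eq_zero, mul_zero]
  intro c _
  split_ifs <;> simp

lemma DMat_im (w w' : B (D + 1) → Option Tok) : (DMat Tok D w w').im = 0 := by
  simp only [DMat, Matrix.of_apply, dbl_apply, Complex.mul_im, Zw_im, mul_zero, zero_mul, add_zero]

lemma DMat_re (w w' : B (D + 1) → Option Tok) :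
    (DMat Tok D w w').re =
      (Zw (Option Tok) D (fun u => w (snocB u false)) (fun u => w' (snocB u false))).re *
      (Zw (Option Tok) D (fun u => w (snocB u true)) (fun u => w' (snocB u true))).re := by
  simp only [DMat, Matrix.of_apply, dbl_apply, Complex.mul_re, Zw_im, mul_zero, sub_zero, pairE_apply]

lemma Mop_PBM (f : Vs (B (D + 1)) Tok) : Mop (PBM Tok D) f = avgF f := by
  funext w
  rw [avgF, Mop_apply]
  have h : ∀ w', (PBM Tok D w w').re = (Fintype.card (Coin D) : ℝ)⁻¹ *
      ∑ c : Coin D, if w' = w ∘ flipT c then (1 : ℝ) else 0 := by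
    intro w'
    simp only [PBM, Matrix.smul_apply, Matrix.sum_apply, Complex.real_smul, Complex.re_ofReal_mul,
      Complex.re_sum, rhoG_apply]
    congr 1
    refine Finset.sum_congr rfl fun c _ => ?_
    split_ifs <;> simp
  simp only [h, mul_assoc]
  rw [← Finset.mul_sum]
  congr 1
  simp only [Finset.sum_mul]
  rw [Finset.sum_comm]
  refine Finset.sum_congr rfl fun c _ => ?_
  rw [Finset.sum_eq_single (w ∘ flipT c)]
  · simp
  · intro w' _ hw'
    simp [hw']
  · intro hn; exact absurd (Finset.mem_univ _) hn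

/-- **The recursion of the quadratic form**. -/
theorem ip_Zop_succ (ξ : Vs (B (D + 1)) Tok) :
    ip ξ (Zop Tok (D + 1) ξ) = ip (avgF ξ) (Mop (DMat Tok D) (avgF ξ)) := by
  unfold Zop
  rw [Zw_succ_eq, Mop_mul PBM_im, Mop_PBM, ip_avgF, Mop_mul DMat_im, Mop_PBM]

end Rec

/-! ### Transport along a bijection of the sites -/

section Transp

variable {X X' : Type*} [Fintype X] [DecidableEq X] [Fintype X'] [DecidableEq X']

/-- Words under a bijection of the sites. -/
def wordE (e : X' ≃ X) : (X' → Option Tok) ≃ (X → Option Tok) where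
  toFun c := c ∘ e.symm
  invFun w := w ∘ e
  left_inv c := by funext x; simp
  right_inv w := by funext x; simp

/-- Functions on words under a bijection of the sites. -/
def transp (e : X' ≃ X) (η : Vs X Tok) : Vs X' Tok := fun c => η (c ∘ e.symm)

lemma transp_apply (e : X' ≃ X) (η : Vs X Tok) (c : X' → Option Tok) :
    transp e η c = η (c ∘ e.symm) := rfl

lemma ip_transp (e : X' ≃ X) (f g : Vs X Tok) : ip (transp e f) (transp e g) = ip f g := by
  unfold ip
  exact Equiv.sum_comp (wordE e) (fun w => f w * g w)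

lemma update_comp_symm (e : X' ≃ X) (c : X' → Option Tok) (y : X') (b : Option Tok) :
    update (c ∘ e.symm) (e y) b = update c y b ∘ e.symm := by
  funext x
  by_cases hx : x = e y
  · subst hx; simp
  · have : e.symm x ≠ y := fun h => hx (by rw [← h]; simp)
    simp [update_of_ne hx, update_of_ne this]

lemma transp_Eop (e : X' ≃ X) (a b : Option Tok) (η : Vs X Tok) :
    Eop a b (transp e η) = transp e (Eop a b η) := by
  funext c
  simp only [transp_apply, Eop_apply]
  rw [← Equiv.sum_comp e]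
  refine Finset.sum_congr rfl fun y _ => ?_
  simp only [Function.comp_apply, Equiv.symm_apply_apply, update_comp_symm]

lemma cnt_comp_symm (e : X' ≃ X) (c : X' → Option Tok) (a : Option Tok) :
    cnt (c ∘ e.symm) a = cnt c a := by
  unfold cnt
  apply Finset.card_bij (fun x _ => e.symm x)
  · intro x hx; simpa using hx
  · intro x _ y _ h; exact e.symm.injective h
  · intro y hy
    refine ⟨e y, ?_, by simp⟩
    simpa using hy

lemma IsT_comp_symm (e : X' ≃ X) {T : Finset Tok} {c : X' → Option Tok} :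
    IsT T (c ∘ e.symm) ↔ IsT T c := by
  unfold IsT
  simp only [cnt_comp_symm]

lemma transp_VT (e : X' ≃ X) {T : Finset Tok} {η : Vs X Tok}
    (hη : η ∈ (VT T : Submodule ℝ (Vs X Tok))) :
    transp e η ∈ (VT T : Submodule ℝ (Vs X' Tok)) := by
  intro c hc
  exact hη _ fun h => hc ((IsT_comp_symm e).1 h)

lemma transp_zero (e : X' ≃ X) : transp (Tok := Tok) e 0 = 0 := rfl

end Transp

/-! ### The parent word -/

section Parent

variable {D : ℕ}

/-- The sites of the parent. -/
def siteE (D : ℕ) : B D × Bool ≃ B (D + 1) where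
  toFun p := snocB p.1 p.2
  invFun x := (ini x, topB x)
  left_inv p := by simp
  right_inv x := by simp

@[simp] lemma siteE_symm_snocB (u : B D) (b : Bool) : (siteE D).symm (snocB u b) = (u, b) := by
  simp [siteE]

@[simp] lemma siteE_symm_apply (x : B (D + 1)) : (siteE D).symm x = (ini x, topB x) := rfl

lemma sum_word_parent (F : (B (D + 1) → Option Tok) → ℝ) :
    ∑ w, F w = ∑ u : B D → Option Tok, ∑ v : B D → Option Tok, F (joinW u v ∘ (siteE D).symm) := by
  rw [← sum_parent (S := B D) (fun c => F (c ∘ (siteE D).symm))]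
  exact (Equiv.sum_comp (wordE (siteE D)) F).symm

lemma mat_Zop_apply (u u' : B D → Option Tok) :
    mat (Zop Tok D) u u' = (Zw (Option Tok) D u u').re := by
  simp only [LinearMap.toMatrix'_apply, Zop, Mop_apply]
  rw [Finset.sum_eq_single u']
  · simp
  · intro w _ hw; simp [hw]
  · intro hn; exact absurd (Finset.mem_univ _) hn

lemma DMat_join_re (u v u' v' : B D → Option Tok) :
    (DMat Tok D (joinW u v ∘ (siteE D).symm) (joinW u' v' ∘ (siteE D).symm)).re =
      (Zw (Option Tok) D u u').re * (Zw (Option Tok) D v v').re := by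
  rw [DMat_re]
  have h : ∀ (u v : B D → Option Tok) (b : Bool),
      (fun a => (joinW u v ∘ (siteE D).symm) (snocB a b)) = if b then v else u := by
    intro u v b
    funext a
    cases b <;> simp [joinW]
  simp only [h]
  simp

/-- **The form of `Z ⊗ Z` in the parent**. -/
theorem quad_parent (η : Vs (B (D + 1)) Tok) :
    ip η (Mop (DMat Tok D) η) =
      fro (XiF (transp (siteE D) η))
        (mat (Zop Tok D) * XiF (transp (siteE D) η) * (mat (Zop Tok D))ᵀ) := by
  rw [fro_apply, Finset.sum_comm]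
  unfold ip
  rw [sum_word_parent]
  refine Finset.sum_congr rfl fun u _ => Finset.sum_congr rfl fun v _ => ?_
  have h1 : XiF (transp (siteE D) η) u v = η (joinW u v ∘ (siteE D).symm) := rfl
  rw [h1]
  congr 1
  rw [Mop_apply, sum_word_parent]
  simp only [DMat_join_re, Matrix.mul_apply, Matrix.transpose_apply, mat_Zop_apply, Finset.sum_mul, Finset.mul_sum]
  rw [Finset.sum_comm]
  refine Finset.sum_congr rfl fun v' _ => Finset.sum_congr rfl fun u' _ => ?_
  have h2 : XiF (transp (siteE D) η) u' v' = η (joinW u' v' ∘ (siteE D).symm) := rfl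
  rw [h2]
  ring

/-- Swap the two positions of a site. -/
def flipS (a : B D) : Equiv.Perm (B D × Bool) := Equiv.swap (a, false) (a, true)

/-- The coin of one site. -/
def coinAt (a : B D) : Coin D := fun u => decide (u = a)

lemma comp_flipS (a : B D) (c : B D × Bool → Option Tok) :
    (c ∘ flipS a) ∘ (siteE D).symm = (c ∘ (siteE D).symm) ∘ flipT (coinAt a) := by
  funext x
  simp only [Function.comp_apply, siteE_symm_apply, flipT_apply, ini_snocB, topB_snocB, flipS, coinAt]
  by_cases hx : ini x = a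
  · subst hx
    cases h : topB x <;> simp
  · have h1 : (ini x, topB x) ≠ (a, false) := fun h => hx (congrArg Prod.fst h)
    have h2 : (ini x, topB x) ≠ (a, true) := fun h => hx (congrArg Prod.fst h)
    rw [Equiv.swap_apply_of_ne_of_ne h1 h2]
    simp [hx]

/-- **The recursion step**: the quadratic form of `Z_{2N}` on `ξ` is the form of `Z_N ⊗ Z_N` on a
flip invariant parent of norm at most that of `ξ`. -/
theorem fr_step {T : Finset Tok} {ξ : Vs (B (D + 1)) Tok}
    (hξ : ξ ∈ (VT T : Submodule ℝ (Vs (B (D + 1)) Tok))) (hD : ∀ e, Dop e ξ = 0) :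
    ∃ H : Vs (B D × Bool) Tok, H ∈ (VT T : Submodule ℝ (Vs (B D × Bool) Tok)) ∧
      (∀ e, Dop e H = 0) ∧ (∀ a c, H (c ∘ flipS a) = H c) ∧ ip H H ≤ ip ξ ξ ∧
      ip ξ (Zop Tok (D + 1) ξ) = fro (XiF H) (mat (Zop Tok D) * XiF H * (mat (Zop Tok D))ᵀ) := by
  refine ⟨transp (siteE D) (avgF ξ), transp_VT _ (avgF_VT hξ), ?_, ?_, ?_, ?_⟩
  · intro e
    show Eop _ _ _ = 0
    rw [transp_Eop, ← avgF_Eop, hD e]
    funext w
    simp [transp_apply, avgF]
  · intro a c
    simp only [transp_apply]
    rw [comp_flipS, avgF_comp]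
  · rw [ip_transp]
    exact ip_avgF_self_le ξ
  · rw [ip_Zop_succ, quad_parent]

/-- `Z_1` of the base. -/
lemma Zop_zero (f : Vs (B 0) Tok) : Zop Tok 0 f = f := by
  unfold Zop
  rw [Zw_zero, Mop_one]

/-- On one site, nothing with a token is killed by all the `Dop`. -/
lemma base_vanish {T : Finset Tok} (hT : T.Nonempty) {ξ : Vs (B 0) Tok}
    (hξ : ξ ∈ (VT T : Submodule ℝ (Vs (B 0) Tok))) (hD : ∀ e, Dop e ξ = 0) : ξ = 0 := by
  funext w
  by_cases hw : IsT T w
  · obtain ⟨e, he⟩ := hT
    have h1 : cnt w (some e) = 1 := by rw [hw e]; simp [he]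
    have h2 : ∃ x, w x = some e := by
      unfold cnt at h1
      have : (Finset.univ.filter fun x => w x = some e).Nonempty := by
        rw [← Finset.card_pos]; omega
      obtain ⟨x, hx⟩ := this
      exact ⟨x, (Finset.mem_filter.1 hx).2⟩
    obtain ⟨x, hx⟩ := h2
    have h3 := congrFun (hD e) (update w x none)
    rw [Eop_apply, Finset.sum_eq_single x] at h3
    · have h4 : update (update w x none) x (some e) = w := by
        funext y
        have : y = x := Subsingleton.elim _ _
        subst this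
        simp [hx]
      simpa [h4] using h3
    · intro y _ hy
      exact absurd (Subsingleton.elim y x) hy
    · intro hn; exact absurd (Finset.mem_univ _) hn
  · exact hξ w hw

/-- **The induction of the `FR` bound**. -/
theorem fr_induction (θ : ℕ → ℕ → ℝ) (hθ0 : ∀ D j, 0 ≤ θ D j) (hbase : 1 ≤ θ 0 0)
    (hstep : ∀ (D : ℕ) (T : Finset Tok) (H : Vs (B D × Bool) Tok),
      H ∈ (VT T : Submodule ℝ (Vs (B D × Bool) Tok)) → (∀ e, Dop e H = 0) →
      (∀ a c, H (c ∘ flipS a) = H c) →
      ∑ A ∈ T.powerset, ∑ r ∈ Finset.range (A.card + 1), ∑ r' ∈ Finset.range ((T \ A).card + 1),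
        θ D (A.card - r) * θ D ((T \ A).card - r') * piM A (T \ A) (Xi H T A) r r'
          ≤ θ (D + 1) T.card * ip H H) :
    ∀ (D : ℕ) (T : Finset Tok) (ξ : Vs (B D) Tok), ξ ∈ (VT T : Submodule ℝ (Vs (B D) Tok)) →
      (∀ e, Dop e ξ = 0) → ip ξ (Zop Tok D ξ) ≤ θ D T.card * ip ξ ξ := by
  intro D
  induction D with
  | zero =>
    intro T ξ hξ hD
    rw [Zop_zero]
    rcases T.eq_empty_or_nonempty with rfl | hT
    · have h := ip_self_nonneg ξ
      simp only [Finset.card_empty]
      nlinarith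
    · rw [base_vanish hT hξ hD]
      simp [ip]
  | succ d ih =>
    intro T ξ hξ hD
    obtain ⟨H, hH, hHD, hflip, hle, hq⟩ := fr_step hξ hD
    rw [hq]
    have h1 := fr_upper hH (Zop Tok d) (Zop_symm d) (Zop_nonneg d)
      (fun i f => Zop_Eop d _ _ f) (fun i f => Zop_Eop d _ _ f) (fun T f hf => Zop_VT d T f hf)
      (θ d) (hθ0 d) (fun T f hf hfD => ih T f hf hfD)
    refine h1.trans ((hstep d T H hH hHD hflip).trans ?_)
    exact mul_le_mul_of_nonneg_left hle (hθ0 _ _)

end Parent

/-! ### The level of the coin -/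

section Coin

variable {S : Type*} [Fintype S] [DecidableEq S]

/-- **The link with the coins**: the weight of `π` on the left token sets. -/
theorem coin_link {T : Finset Tok} {H : Vs (S × Bool) Tok}
    (hH : H ∈ (VT T : Submodule ℝ (Vs (S × Bool) Tok))) (φ : ℕ → ℝ) :
    ∑ A ∈ T.powerset, ∑ r ∈ Finset.range (A.card + 1), ∑ r' ∈ Finset.range ((T \ A).card + 1),
        φ A.card * piM A (T \ A) (Xi H T A) r r'
      = ∑ c, H c ^ 2 * φ (leftTok T c).card := by
  have h1 : ∀ A ∈ T.powerset,
      ∑ r ∈ Finset.range (A.card + 1), ∑ r' ∈ Finset.range ((T \ A).card + 1),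
        φ A.card * piM A (T \ A) (Xi H T A) r r'
      = ∑ u, ∑ v, if IsT A u ∧ IsT (T \ A) v then φ A.card * H (joinW u v) ^ 2 else 0 := by
    intro A _
    simp only [← Finset.mul_sum]
    rw [← tensor_mass (Xi_col H T A) (Xi_row H T A), fro_apply, Finset.sum_comm, Finset.mul_sum]
    refine Finset.sum_congr rfl fun u _ => ?_
    rw [Finset.mul_sum]
    refine Finset.sum_congr rfl fun v _ => ?_
    by_cases h : IsT A u ∧ IsT (T \ A) v
    · simp only [Xi, h, and_self, if_true]; ring
    · simp only [Xi, h, if_false]; ring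
  rw [Finset.sum_congr rfl h1, sum_parent]
  rw [Finset.sum_comm]
  refine Finset.sum_congr rfl fun u _ => ?_
  rw [Finset.sum_comm]
  refine Finset.sum_congr rfl fun v _ => ?_
  by_cases hc : IsT T (joinW u v)
  · have hb := IsT.blk hc
    simp only [leftW_joinW, rightW_joinW] at hb
    rw [Finset.sum_eq_single (leftTok T (joinW u v))]
    · rw [if_pos hb]; ring
    · intro A hA hne
      rw [if_neg]
      rintro ⟨h1, h2⟩
      exact hne (leftTok_of_blk (Finset.mem_powerset.1 hA) h2).symm
    · intro hn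
      exact absurd (Finset.mem_powerset.2 (Finset.filter_subset _ _)) hn
  · have h0 : H (joinW u v) = 0 := hH _ hc
    rw [h0]
    simp

end Coin



end Crest.Agent.S0222Lib.FRCore
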