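import Crest.Agent.S0222Lib.FRTableCore

/-!
# S0222, first-row bound: kernel checks of the certificates

Certificates on natural numbers, and their soundness: `pair_sound`, `hold_sound`.
-/

set_option autoImplicit false
set_option linter.unusedSectionVars false
set_option linter.unusedVariables false

namespace Crest.Agent.S0222Lib.FRTable

open Finset
open Crest.Agent.S0222Lib.FRCore Crest.Agent.S0222Lib.FRCore.DX

/-! ### Sums on lists -/

/-- Sum on a range, by recursion. -/
def sumR (f : ℕ → ℕ) : ℕ → ℕ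
  | 0 => 0
  | n + 1 => sumR f n + f n

lemma sumR_eq (f : ℕ → ℕ) (n : ℕ) : sumR f n = ∑ i ∈ range n, f i := by
  induction n with
  | zero => rfl
  | succ n ih => rw [Finset.sum_range_succ, ← ih]; rfl

/-- The dot product of two lists. -/
def dotL : List ℕ → List ℕ → ℕ
  | a :: l, c :: m => a * c + dotL l m
  | _, _ => 0

lemma dotL_eq (l m : List ℕ) : dotL l m = ∑ i ∈ range l.length, l.getD i 0 * m.getD i 0 := by
  induction l generalizing m with
  | nil => simp [dotL]
  | cons a l ih =>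
    cases m with
    | nil =>
      simp [dotL]
    | cons c m =>
      simp only [dotL, List.length_cons]
      rw [Finset.sum_range_succ', ih m]
      simp [add_comm]

lemma getD_drop (l : List ℕ) (d i : ℕ) : (l.drop d).getD i 0 = l.getD (d + i) 0 := by
  simp [List.getD_eq_getElem?_getD]

/-! ### Pascal's triangle -/

/-- The next row of Pascal's triangle. -/
def nextRow (l : List ℕ) : List ℕ := List.zipWith (· + ·) (0 :: l) (l ++ [0])

/-- The rows of Pascal's triangle. -/
def rows : ℕ → List ℕ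
  | 0 => [1]
  | n + 1 => nextRow (rows n)

lemma rows_length (n : ℕ) : (rows n).length = n + 1 := by
  induction n with
  | zero => rfl
  | succ n ih =>
    simp [rows, nextRow, ih]

lemma rows_spec (n k : ℕ) : (rows n).getD k 0 = n.choose k := by
  induction n generalizing k with
  | zero =>
    cases k with
    | zero => rfl
    | succ k => simp [rows]
  | succ n ih =>
    have hl := rows_length n
    by_cases hk : k < n + 2
    · have h1 : k < (rows (n + 1)).length := by rw [rows_length]; exact hk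
      show (nextRow (rows n)).getD k 0 = _
      have h2 : (0 :: rows n).getD k 0 + (rows n ++ [0]).getD k 0 = (n + 1).choose k := by
        have h3 : (rows n ++ [0]).getD k 0 = n.choose k := by
          rw [← ih k]
          simp only [List.getD_eq_getElem?_getD, List.getElem?_append]
          split_ifs with h
          · rfl
          · have h5 : k - (rows n).length = k - (rows n).length := rfl
            rw [List.getElem?_eq_none_iff.2 (not_lt.1 h)]
            simp only [Option.getD_none]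
            by_cases h6 : k - (rows n).length = 0
            · simp [h6]
            · rw [List.getElem?_eq_none_iff.2 (by simp; omega)]
              rfl
        cases k with
        | zero => simp [Nat.choose_zero_right] at h3 ⊢; simpa [Nat.choose_zero_right] using h3
        | succ k =>
          have h4 : (0 :: rows n).getD (k + 1) 0 = n.choose k := by
            have h7 := ih k
            simpa [List.getD_eq_getElem?_getD] using h7
          rw [h4, h3, Nat.choose_succ_succ]
      rw [← h2]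
      unfold nextRow
      simp only [List.getD_eq_getElem?_getD, List.getElem?_zipWith]
      have h5 : k < (0 :: rows n).length := by simp [hl]; omega
      have h6 : k < (rows n ++ [0]).length := by simp [hl]; omega
      rw [List.getElem?_eq_getElem h5, List.getElem?_eq_getElem h6]
      simp
    · have h1 : (rows (n + 1)).length ≤ k := by rw [rows_length]; omega
      simp only [List.getD_eq_getElem?_getD]
      rw [List.getElem?_eq_none_iff.2 h1]
      simp only [Option.getD_none]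
      exact (Nat.choose_eq_zero_of_lt (by omega)).symm

/-! ### The checks -/

/-- The comparison on a sector of the product dual. -/
def pairOK (N b P Q aN : ℕ) (U C : List ℕ) : Bool :=
  (List.range (b + 1)).all fun t =>
    let ct := C.getD t 0
    (List.range (t + 1)).all fun r =>
      if Nat.ble (r + (b - t)) N then
        let ut := U.getD (t - r) 0
        let gl := (Q + P * Gn N t r) ^ r
        (List.range (b - t + 1)).all fun r' =>
          if Nat.ble (r' + t) N then
            let qq := Q ^ (r + r')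
            Nat.ble (ut * U.getD (b - t - r') 0 * qq)
              (aN * (gl * (Q + P * Gn N (b - t) r') ^ r') + ct * qq)
          else true
      else true

/-- The comparison on one side of the Hölder certificate. -/
def holdOK (N b P Q : ℕ) (U A : List ℕ) : Bool :=
  (List.range (b + 1)).all fun t =>
    let at' := A.getD t 0
    (List.range (t + 1)).all fun r =>
      if Nat.ble (r + (b - t)) N then
        Nat.ble ((U.getD (t - r) 0) ^ 2 * Q ^ r) (at' * (Q + P * Gn N t r) ^ r)
      else true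

/-- The coin. -/
def coinOK (tab : List (List ℕ)) (b Ebar : ℕ) (L : List ℕ) : Bool :=
  (List.range (b / 2 + 1)).all fun d =>
    Nat.ble (dotL (tab.getD (b - 2 * d) []) (L.drop d)) (Ebar * 2 ^ (b - 2 * d))

/-- The function of the coin of the Hölder certificate. -/
def phiL (b : ℕ) (A : List ℕ) : List ℕ :=
  (List.range (b + 1)).map fun t => A.getD t 0 * A.getD (b - t) 0

/-- The list of factorials and powers of the moments. -/
def factL (b P R : ℕ) : List ℕ :=
  (List.range (2 * b + 1)).map fun m => m.factorial * P ^ m * R ^ (2 * b - m)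

/-- The bound of the series of the moments. -/
def psiOK (tab : List (List ℕ)) (N b P Q Psi ψ : ℕ) : Bool :=
  if Nat.beq P 0 then Nat.ble (2 ^ ψ) Psi
  else
    let M := b / 2
    let rN := tab.getD N []
    let rM := tab.getD M []
    let r2 := tab.getD (2 * M) []
    let Fl := factL b P (2 * Q)
    Nat.ble (sumR (fun p => rN.getD p 0 * rM.getD p 0 * dotL r2 (Fl.drop (2 * p))) (M + 1) * 2 ^ ψ)
      (Psi * (2 * Q) ^ (2 * b))

/-! ### Soundness -/

/-- A correct table of Pascal's triangle up to `128`. -/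
def TabOK (tab : List (List ℕ)) : Prop := ∀ n, n ≤ 128 → tab.getD n [] = rows n

lemma coinOK_sound {tab : List (List ℕ)} (htab : TabOK tab) {b Ebar : ℕ} {L : List ℕ} (hb : b ≤ 128)
    (h : coinOK tab b Ebar L = true) (d : ℕ) (hd : 2 * d ≤ b) :
    ∑ s ∈ range (b - 2 * d + 1), ((b - 2 * d).choose s : ℝ) / 2 ^ (b - 2 * d) * (L.getD (d + s) 0 : ℝ) ≤
      (Ebar : ℝ) := by
  have h1 := List.all_eq_true.1 h d (List.mem_range.2 (by omega))
  have h2 := Nat.le_of_ble_eq_true h1
  rw [htab _ (by omega), dotL_eq, rows_length] at h2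
  have h3 : ∑ i ∈ range (b - 2 * d + 1), (rows (b - 2 * d)).getD i 0 * (L.drop d).getD i 0 =
      ∑ i ∈ range (b - 2 * d + 1), (b - 2 * d).choose i * L.getD (d + i) 0 := by
    refine Finset.sum_congr rfl fun i _ => ?_
    rw [rows_spec, getD_drop]
  rw [h3] at h2
  have h4 : (∑ i ∈ range (b - 2 * d + 1), ((b - 2 * d).choose i : ℝ) * (L.getD (d + i) 0 : ℝ)) ≤
      (Ebar : ℝ) * 2 ^ (b - 2 * d) := by
    exact_mod_cast h2
  have h5 : ∑ s ∈ range (b - 2 * d + 1), ((b - 2 * d).choose s : ℝ) / 2 ^ (b - 2 * d) * (L.getD (d + s) 0 : ℝ) =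
      (∑ i ∈ range (b - 2 * d + 1), ((b - 2 * d).choose i : ℝ) * (L.getD (d + i) 0 : ℝ)) / 2 ^ (b - 2 * d) := by
    rw [Finset.sum_div]
    refine Finset.sum_congr rfl fun s _ => ?_
    ring
  rw [h5, div_le_iff₀ (by positivity)]
  exact h4

/-- The series of the moments, reorganised. -/
lemma sum_Sk_reorg (N b : ℕ) (g : ℕ → ℕ) :
    ∑ m ∈ range (2 * b + 1), g m * ∑ p ∈ range (m / 2 + 1), N.choose p * ((b / 2).choose p * (2 * (b / 2)).choose (m - 2 * p)) =
      ∑ p ∈ range (b / 2 + 1), N.choose p * (b / 2).choose p *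
        ∑ q ∈ range (2 * (b / 2) + 1), (2 * (b / 2)).choose q * g (2 * p + q) := by
  set M := b / 2 with hM
  have hMb : 2 * M ≤ b := by rw [hM]; omega
  simp only [Finset.mul_sum]
  rw [Finset.sum_comm' (t' := range (b + 1)) (s' := fun p => Ico (2 * p) (2 * b + 1))
    (t := fun m => range (m / 2 + 1)) (s := range (2 * b + 1))]
  · have h1 : ∀ p ∈ range (b + 1), ∑ m ∈ Ico (2 * p) (2 * b + 1),
        g m * (N.choose p * (M.choose p * (2 * M).choose (m - 2 * p))) =
        ∑ q ∈ range (2 * M + 1), N.choose p * M.choose p * ((2 * M).choose q * g (2 * p + q)) := by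
      intro p hp
      have hp' := Nat.lt_succ_iff.1 (mem_range.1 hp)
      rw [Finset.sum_Ico_eq_sum_range]
      by_cases hpM : p ≤ M
      · have hsub : range (2 * M + 1) ⊆ range (2 * b + 1 - 2 * p) := by
          apply Finset.range_subset_range.2
          omega
        symm
        rw [← Finset.sum_subset hsub]
        · refine Finset.sum_congr rfl fun q _ => ?_
          rw [Nat.add_sub_cancel_left]
          ring
        · intro q _ hq
          have hq' : 2 * M + 1 ≤ q := by simpa using hq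
          rw [Nat.add_sub_cancel_left, Nat.choose_eq_zero_of_lt (by omega : 2 * M < q)]
          simp
      · have hz : M.choose p = 0 := Nat.choose_eq_zero_of_lt (by omega)
        simp [hz]
    rw [Finset.sum_congr rfl h1]
    have hsub : range (M + 1) ⊆ range (b + 1) := Finset.range_subset_range.2 (by omega)
    symm
    rw [Finset.sum_subset hsub]
    intro p _ hp
    have hp' : M + 1 ≤ p := by simpa using hp
    have hz : M.choose p = 0 := Nat.choose_eq_zero_of_lt (by omega)
    simp [hz]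
  · intro m p
    simp only [mem_range, mem_Ico]
    omega

lemma GhatS_zero (N b : ℕ) : GhatS N b 0 = 1 := by
  unfold GhatS
  rw [Finset.sum_range_succ']
  have h : ∑ k ∈ range (2 * b), (0 : ℝ) ^ (k + 1) * Sk N b (k + 1) = 0 := by
    refine Finset.sum_eq_zero fun k _ => ?_
    simp
  rw [h]
  simp [Sk]

lemma factL_getD (b P R m : ℕ) (hm : m ≤ 2 * b) :
    (factL b P R).getD m 0 = m.factorial * P ^ m * R ^ (2 * b - m) := by
  unfold factL
  simp only [List.getD_eq_getElem?_getD, List.getElem?_map]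
  rw [List.getElem?_range (by omega)]
  rfl

lemma psiOK_sound {tab : List (List ℕ)} (htab : TabOK tab) {N b P Q Psi ψ : ℕ} (hN : N ≤ 128)
    (hb : b ≤ 128) (hQ : 0 < Q) (h : psiOK tab N b P Q Psi ψ = true) :
    GhatS N b (((P : ℝ) / Q) / 2) ≤ (Psi : ℝ) / 2 ^ ψ := by
  unfold psiOK at h
  by_cases hP : P = 0
  · subst hP
    have h1 : Nat.ble (2 ^ ψ) Psi = true := by simpa using h
    have h2 := Nat.le_of_ble_eq_true h1
    have h3 : ((2 : ℝ) ^ ψ) ≤ Psi := by exact_mod_cast h2
    simp only [Nat.cast_zero, zero_div]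
    rw [GhatS_zero, le_div_iff₀ (by positivity)]
    linarith
  · have hbeq : Nat.beq P 0 = false := by
      cases P with
      | zero => exact absurd rfl hP
      | succ n => rfl
    rw [if_neg (by rw [hbeq]; simp)] at h
    simp only at h
    have h2 := Nat.le_of_ble_eq_true h
    set M := b / 2 with hM
    have hMb : 2 * M ≤ b := by rw [hM]; omega
    rw [htab N hN, htab M (by omega), htab (2 * M) (by omega), sumR_eq] at h2
    -- the sum in terms of the binomials
    set R := 2 * Q with hR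
    set F : ℕ → ℕ := fun m => m.factorial * P ^ m * R ^ (2 * b - m) with hF
    have h3 : ∑ p ∈ range (M + 1), (rows N).getD p 0 * (rows M).getD p 0 *
        dotL (rows (2 * M)) ((factL b P R).drop (2 * p)) =
        ∑ p ∈ range (M + 1), N.choose p * M.choose p *
          ∑ q ∈ range (2 * M + 1), (2 * M).choose q * F (2 * p + q) := by
      refine Finset.sum_congr rfl fun p hp => ?_
      have hp' := Nat.lt_succ_iff.1 (mem_range.1 hp)
      rw [rows_spec, rows_spec, dotL_eq, rows_length]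
      congr 1
      refine Finset.sum_congr rfl fun q hq => ?_
      have hq' := Nat.lt_succ_iff.1 (mem_range.1 hq)
      rw [rows_spec, getD_drop, factL_getD _ _ _ _ (by omega)]
    rw [h3, ← sum_Sk_reorg N b F] at h2
    simp only [← hM] at h2
    -- the real form
    have hQ0 : (0 : ℝ) < Q := by exact_mod_cast hQ
    have hR0 : (0 : ℝ) < (R : ℝ) := by
      rw [hR]
      push_cast
      positivity
    have hy : ((P : ℝ) / Q) / 2 = (P : ℝ) / R := by
      rw [hR]
      push_cast
      field_simp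
    rw [hy]
    have h4 : GhatS N b ((P : ℝ) / R) * (R : ℝ) ^ (2 * b) =
        ((∑ m ∈ range (2 * b + 1), F m * ∑ p ∈ range (m / 2 + 1),
          N.choose p * (M.choose p * (2 * M).choose (m - 2 * p)) : ℕ) : ℝ) := by
      unfold GhatS
      rw [Finset.sum_mul]
      push_cast
      refine Finset.sum_congr rfl fun m hm => ?_
      have hm' := Nat.lt_succ_iff.1 (mem_range.1 hm)
      unfold Sk
      simp only [hF, ← hM]
      push_cast
      have e : (R : ℝ) ^ (2 * b) = (R : ℝ) ^ m * (R : ℝ) ^ (2 * b - m) := by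
        rw [← pow_add]
        congr 1
        omega
      rw [e, div_pow]
      field_simp
    have h5 : ((∑ m ∈ range (2 * b + 1), F m * ∑ p ∈ range (m / 2 + 1),
          N.choose p * (M.choose p * (2 * M).choose (m - 2 * p)) : ℕ) : ℝ) * 2 ^ ψ ≤
        (Psi : ℝ) * (R : ℝ) ^ (2 * b) := by
      exact_mod_cast h2
    rw [← h4] at h5
    rw [le_div_iff₀ (by positivity)]
    have hpos : (0 : ℝ) < (R : ℝ) ^ (2 * b) := by positivity
    have h6 : GhatS N b ((P : ℝ) / R) * 2 ^ ψ * (R : ℝ) ^ (2 * b) ≤ (Psi : ℝ) * (R : ℝ) ^ (2 * b) := by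
      calc _ = GhatS N b ((P : ℝ) / R) * (R : ℝ) ^ (2 * b) * 2 ^ ψ := by ring
        _ ≤ _ := h5
    exact le_of_mul_le_mul_right h6 hpos

/-- The value of a table. -/
noncomputable def thU (S : ℕ) (U : List ℕ) (j : ℕ) : ℝ := (U.getD j 0 : ℝ) / 2 ^ S

lemma thU_nonneg (S : ℕ) (U : List ℕ) (j : ℕ) : 0 ≤ thU S U j := by
  unfold thU
  positivity

/-- **Soundness of the product dual.** -/
theorem pair_sound {tab : List (List ℕ)} (htab : TabOK tab) {N b P Q aN Psi ψ Ebar Θ S : ℕ}
    {U C : List ℕ} {ρ : ℕ → ℕ → ℕ → ℝ} (hW : Weights N b ρ) (hN : N ≤ 128) (hb : b ≤ 128) (hQ : 0 < Q)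
    (h1 : pairOK N b P Q aN U C = true) (h2 : coinOK tab b Ebar C = true)
    (h3 : psiOK tab N b P Q Psi ψ = true)
    (h4 : Nat.ble (aN * Psi + Ebar * 2 ^ ψ) (Θ * 2 ^ S * 2 ^ ψ) = true) :
    triSum b (fun t r r' => thU S U (t - r) * thU S U (b - t - r') * ρ t r r') ≤
      ((Θ : ℝ) / 2 ^ S) * triSum b ρ := by
  have hX : (0 : ℝ) < 2 ^ S := by positivity
  have hQ0 : (0 : ℝ) < Q := by exact_mod_cast hQ
  refine pair_close hW (x := (P : ℝ) / Q) (a := (aN : ℝ) / (2 ^ S) ^ 2)
    (E := (Ebar : ℝ) / (2 ^ S) ^ 2) (Ψ := (Psi : ℝ) / 2 ^ ψ)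
    (φ := fun t => (C.getD t 0 : ℝ) / (2 ^ S) ^ 2) (by positivity) (by positivity) ?_ ?_
    (psiOK_sound htab hN hb hQ h3) ?_
  · intro t r r' ht hr hr' hf1 hf2
    have hc1 := List.all_eq_true.1 h1 t (List.mem_range.2 (by omega))
    try simp only at hc1
    have hc2 := List.all_eq_true.1 hc1 r (List.mem_range.2 (by omega))
    have hb1 : Nat.ble (r + (b - t)) N = true := Nat.ble_eq_true_of_le hf1
    rw [if_pos hb1] at hc2
    try simp only at hc2
    have hc3 := List.all_eq_true.1 hc2 r' (List.mem_range.2 (by omega))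
    have hb2 : Nat.ble (r' + t) N = true := Nat.ble_eq_true_of_le hf2
    rw [if_pos hb2] at hc3
    have hc4 := Nat.le_of_ble_eq_true hc3
    set u := U.getD (t - r) 0
    set u' := U.getD (b - t - r') 0
    set g := Q + P * Gn N t r with hg
    set g' := Q + P * Gn N (b - t) r' with hg'
    have hc5 : (u : ℝ) * u' * (Q : ℝ) ^ (r + r') ≤ (aN : ℝ) * ((g : ℝ) ^ r * (g' : ℝ) ^ r') +
        (C.getD t 0 : ℝ) * (Q : ℝ) ^ (r + r') := by
      exact_mod_cast hc4
    have e1 : (1 + (P : ℝ) / Q * (Gn N t r : ℝ)) ^ r = (g : ℝ) ^ r / (Q : ℝ) ^ r := by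
      rw [← div_pow]
      congr 1
      rw [hg]
      push_cast
      field_simp
    have e2 : (1 + (P : ℝ) / Q * (Gn N (b - t) r' : ℝ)) ^ r' = (g' : ℝ) ^ r' / (Q : ℝ) ^ r' := by
      rw [← div_pow]
      congr 1
      rw [hg']
      push_cast
      field_simp
    rw [e1, e2]
    unfold thU
    have hqq : (0 : ℝ) < (Q : ℝ) ^ (r + r') := by positivity
    have e3 : (aN : ℝ) / (2 ^ S) ^ 2 * ((g : ℝ) ^ r / (Q : ℝ) ^ r * ((g' : ℝ) ^ r' / (Q : ℝ) ^ r')) +
        (C.getD t 0 : ℝ) / (2 ^ S) ^ 2 =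
        ((aN : ℝ) * ((g : ℝ) ^ r * (g' : ℝ) ^ r') + (C.getD t 0 : ℝ) * (Q : ℝ) ^ (r + r')) /
          ((2 ^ S) ^ 2 * (Q : ℝ) ^ (r + r')) := by
      rw [pow_add]
      field_simp
    rw [e3, le_div_iff₀ (by positivity)]
    calc (u : ℝ) / 2 ^ S * ((u' : ℝ) / 2 ^ S) * ((2 ^ S) ^ 2 * (Q : ℝ) ^ (r + r')) =
        (u : ℝ) * u' * (Q : ℝ) ^ (r + r') := by
          field_simp
      _ ≤ _ := hc5
  · intro d hd
    have h5 := coinOK_sound htab hb h2 d hd
    have h6 : ∑ s ∈ range (b - 2 * d + 1), ((b - 2 * d).choose s : ℝ) / 2 ^ (b - 2 * d) *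
        ((C.getD (d + s) 0 : ℝ) / (2 ^ S) ^ 2) =
        (∑ s ∈ range (b - 2 * d + 1), ((b - 2 * d).choose s : ℝ) / 2 ^ (b - 2 * d) *
        (C.getD (d + s) 0 : ℝ)) / (2 ^ S) ^ 2 := by
      rw [Finset.sum_div]
      refine Finset.sum_congr rfl fun s _ => ?_
      ring
    rw [h6]
    exact div_le_div_of_nonneg_right h5 (by positivity)
  · have h5 := Nat.le_of_ble_eq_true h4
    have h6 : (aN : ℝ) * Psi + Ebar * 2 ^ ψ ≤ Θ * 2 ^ S * 2 ^ ψ := by exact_mod_cast h5
    have e : (aN : ℝ) / (2 ^ S) ^ 2 * ((Psi : ℝ) / 2 ^ ψ) + (Ebar : ℝ) / (2 ^ S) ^ 2 =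
        ((aN : ℝ) * Psi + Ebar * 2 ^ ψ) / ((2 ^ S) ^ 2 * 2 ^ ψ) := by
      field_simp
    rw [e, div_le_div_iff₀ (by positivity) hX]
    calc ((aN : ℝ) * Psi + Ebar * 2 ^ ψ) * 2 ^ S ≤ (Θ * 2 ^ S * 2 ^ ψ) * 2 ^ S :=
          mul_le_mul_of_nonneg_right h6 hX.le
      _ = _ := by ring

lemma phiL_getD (b : ℕ) (A : List ℕ) (t : ℕ) (ht : t ≤ b) :
    (phiL b A).getD t 0 = A.getD t 0 * A.getD (b - t) 0 := by
  unfold phiL
  simp only [List.getD_eq_getElem?_getD, List.getElem?_map]
  rw [List.getElem?_range (by omega)]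
  rfl

/-- **Soundness of the Hölder certificate.** -/
theorem hold_sound {tab : List (List ℕ)} (htab : TabOK tab) {N b P Q Psi ψ Ebar Θ S : ℕ}
    {U A : List ℕ} {ρ : ℕ → ℕ → ℕ → ℝ} (hW : Weights N b ρ) (hN : N ≤ 128) (hb : b ≤ 128) (hQ : 0 < Q)
    (h1 : holdOK N b P Q U A = true) (h2 : coinOK tab b Ebar (phiL b A) = true)
    (h3 : psiOK tab N b P Q Psi ψ = true) (h0 : Nat.ble 1 Psi = true) (h0' : Nat.ble 1 Θ = true)
    (h4 : Nat.ble (Psi * Ebar) (Θ ^ 2 * (2 ^ S) ^ 2 * 2 ^ ψ) = true) :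
    triSum b (fun t r r' => thU S U (t - r) * thU S U (b - t - r') * ρ t r r') ≤
      ((Θ : ℝ) / 2 ^ S) * triSum b ρ := by
  have hX : (0 : ℝ) < 2 ^ S := by positivity
  have hQ0 : (0 : ℝ) < Q := by exact_mod_cast hQ
  have hPsi : (1 : ℝ) ≤ Psi := by exact_mod_cast Nat.le_of_ble_eq_true h0
  have hΘ : (1 : ℝ) ≤ Θ := by exact_mod_cast Nat.le_of_ble_eq_true h0'
  refine hold_close hW (x := (P : ℝ) / Q) (E := (Ebar : ℝ) / ((2 ^ S) ^ 2) ^ 2)
    (Ψ := (Psi : ℝ) / 2 ^ ψ) (A := fun t => (A.getD t 0 : ℝ) / (2 ^ S) ^ 2) (thU_nonneg S U)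
    (by positivity) (fun t => by positivity) ?_ ?_ (psiOK_sound htab hN hb hQ h3) (by positivity)
    (by positivity) ?_
  · intro t r ht hr hf
    have hc1 := List.all_eq_true.1 h1 t (List.mem_range.2 (by omega))
    try simp only at hc1
    have hc2 := List.all_eq_true.1 hc1 r (List.mem_range.2 (by omega))
    have hb1 : Nat.ble (r + (b - t)) N = true := Nat.ble_eq_true_of_le hf
    rw [if_pos hb1] at hc2
    have hc3 := Nat.le_of_ble_eq_true hc2
    set u := U.getD (t - r) 0
    set g := Q + P * Gn N t r with hg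
    have hc4 : (u : ℝ) ^ 2 * (Q : ℝ) ^ r ≤ (A.getD t 0 : ℝ) * (g : ℝ) ^ r := by
      exact_mod_cast hc3
    have e1 : (1 + (P : ℝ) / Q * (Gn N t r : ℝ)) ^ r = (g : ℝ) ^ r / (Q : ℝ) ^ r := by
      rw [← div_pow]
      congr 1
      rw [hg]
      push_cast
      field_simp
    rw [e1]
    unfold thU
    have hqq : (0 : ℝ) < (Q : ℝ) ^ r := by positivity
    have e2 : (A.getD t 0 : ℝ) / (2 ^ S) ^ 2 * ((g : ℝ) ^ r / (Q : ℝ) ^ r) =
        ((A.getD t 0 : ℝ) * (g : ℝ) ^ r) / ((2 ^ S) ^ 2 * (Q : ℝ) ^ r) := by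
      field_simp
    rw [e2, le_div_iff₀ (by positivity)]
    calc ((u : ℝ) / 2 ^ S) ^ 2 * ((2 ^ S) ^ 2 * (Q : ℝ) ^ r) = (u : ℝ) ^ 2 * (Q : ℝ) ^ r := by
          field_simp
      _ ≤ _ := hc4
  · intro d hd
    have h5 := coinOK_sound htab hb h2 d hd
    have h6 : ∑ s ∈ range (b - 2 * d + 1), ((b - 2 * d).choose s : ℝ) / 2 ^ (b - 2 * d) *
        ((A.getD (d + s) 0 : ℝ) / (2 ^ S) ^ 2 * ((A.getD (b - (d + s)) 0 : ℝ) / (2 ^ S) ^ 2)) =
        (∑ s ∈ range (b - 2 * d + 1), ((b - 2 * d).choose s : ℝ) / 2 ^ (b - 2 * d) *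
        ((phiL b A).getD (d + s) 0 : ℝ)) / ((2 ^ S) ^ 2) ^ 2 := by
      rw [Finset.sum_div]
      refine Finset.sum_congr rfl fun s hs => ?_
      have hs' := Nat.lt_succ_iff.1 (mem_range.1 hs)
      rw [phiL_getD _ _ _ (by omega)]
      push_cast
      ring
    rw [h6]
    exact div_le_div_of_nonneg_right h5 (by positivity)
  · have h5 := Nat.le_of_ble_eq_true h4
    have h6 : (Psi : ℝ) * Ebar ≤ (Θ : ℝ) ^ 2 * (2 ^ S) ^ 2 * 2 ^ ψ := by exact_mod_cast h5
    have e : (Psi : ℝ) / 2 ^ ψ * ((Ebar : ℝ) / ((2 ^ S) ^ 2) ^ 2) =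
        ((Psi : ℝ) * Ebar) / (2 ^ ψ * ((2 ^ S) ^ 2) ^ 2) := by
      field_simp
    have e2 : ((Θ : ℝ) / 2 ^ S) ^ 2 = (Θ : ℝ) ^ 2 / (2 ^ S) ^ 2 := by
      rw [div_pow]
    rw [e, e2, div_le_div_iff₀ (by positivity) (by positivity)]
    calc (Psi : ℝ) * Ebar * (2 ^ S) ^ 2 ≤ ((Θ : ℝ) ^ 2 * (2 ^ S) ^ 2 * 2 ^ ψ) * (2 ^ S) ^ 2 :=
          mul_le_mul_of_nonneg_right h6 (by positivity)
      _ = _ := by ring

end Crest.Agent.S0222Lib.FRTable
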