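import Crest.Agent.S0222Lib.FRDualX

/-!
# S0222, first-row bound: certificates of the closure for small sizes

Real forms of the certificates used by the table of `FRTable`:

* `close_big`, `close_zero`, `close_one`: the cases `b > 2N`, `b = 0`, `b = 1`;
* `W_dual_moment`: a linear dual with explicit moments, and the coin;
* `pair_close`: the product dual, the coin, with `(1 + x G⁺)^r` in place of the moment series;
* `hold_close`: its separated form (Hölder).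
-/

set_option autoImplicit false
set_option linter.unusedSectionVars false
set_option linter.unusedVariables false

namespace Crest.Agent.S0222Lib.FRTable

open Finset
open Crest.Agent.S0222Lib.FRCore Crest.Agent.S0222Lib.FRCore.DX

variable {N b : ℕ} {ρ : ℕ → ℕ → ℕ → ℝ}

/-- The positive part of the growth parameter. -/
def Gn (N t r : ℕ) : ℕ := N + r + 1 - 2 * t

lemma max_Gv (N t r : ℕ) : max (Gv (N : ℝ) r t) 0 = (Gn N t r : ℝ) := by
  unfold Gv Gn
  rcases le_total (2 * t) (N + r + 1) with h | h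
  · rw [Nat.cast_sub h, max_eq_left]
    · push_cast
      ring
    · have : ((2 * t : ℕ) : ℝ) ≤ ((N + r + 1 : ℕ) : ℝ) := by exact_mod_cast h
      push_cast at this
      linarith
  · rw [Nat.sub_eq_zero_of_le h, max_eq_right]
    · simp
    · have : ((N + r + 1 : ℕ) : ℝ) ≤ ((2 * t : ℕ) : ℝ) := by exact_mod_cast h
      push_cast at this
      linarith

/-- If `b > 2N` all the weights vanish. -/
theorem close_big (hW : Weights N b ρ) (hb : 2 * N < b) (F : ℕ → ℕ → ℕ → ℝ) (Θ : ℝ) :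
    triSum b (fun t r r' => F t r r' * ρ t r r') ≤ Θ * triSum b ρ := by
  have h0 : ∀ t r r', t ≤ b → ρ t r r' = 0 := by
    intro t r r' ht
    by_cases h : N < r + (b - t)
    · exact hW.floor_left t r r' ht h
    · exact hW.floor_right t r r' ht (by omega)
  have h1 : triSum b ρ = 0 := by
    unfold triSum
    refine Finset.sum_eq_zero fun t ht => Finset.sum_eq_zero fun r _ => Finset.sum_eq_zero fun r' _ => ?_
    exact h0 t r r' (Nat.lt_succ_iff.1 (Finset.mem_range.1 ht))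
  have h2 : triSum b (fun t r r' => F t r r' * ρ t r r') = 0 := by
    unfold triSum
    refine Finset.sum_eq_zero fun t ht => Finset.sum_eq_zero fun r _ => Finset.sum_eq_zero fun r' _ => ?_
    show F t r r' * ρ t r r' = 0
    rw [h0 t r r' (Nat.lt_succ_iff.1 (Finset.mem_range.1 ht)), mul_zero]
  rw [h1, h2, mul_zero]

/-- The case `b = 0`. -/
theorem close_zero (θ : ℕ → ℝ) :
    triSum 0 (fun t r r' => θ (t - r) * θ (0 - t - r') * ρ t r r') = θ 0 * θ 0 * triSum 0 ρ := by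
  simp [triSum]

/-- The case `b = 1`: the weights on the level `0` vanish. -/
theorem W_one (hW : Weights N 1 ρ) (hN : 1 ≤ N) : ρ 0 0 1 = 0 ∧ ρ 1 1 0 = 0 := by
  have hSk : Sk N 1 1 = 0 := by
    simp [Sk]
  have hN' : (0 : ℝ) < N := by exact_mod_cast hN
  have hcoL : coL 1 1 (Gv (N : ℝ) 1 1) = N := by
    have hG : Gv (N : ℝ) 1 1 = N := by
      unfold Gv
      push_cast
      ring
    rw [hG]
    unfold coL
    rw [if_pos hN'.le]
    simp [coP]
  have hm1 := hW.moment 0 1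
  have hm2 := hW.moment 1 0
  simp only [hSk, zero_add, add_zero, mul_zero, zero_mul] at hm1 hm2
  constructor
  · have h : triSum 1 (fun t r r' =>
        coL 0 r (Gv (N : ℝ) r t) * coL 1 r' (Gv (N : ℝ) r' (1 - t)) * ρ t r r') =
        (N : ℝ) * ρ 0 0 1 + (coL 1 0 (Gv (N : ℝ) 0 1) * ρ 0 0 0 +
          (coL 1 0 (Gv (N : ℝ) 0 0) * ρ 1 0 0 + coL 1 0 (Gv (N : ℝ) 0 0) * ρ 1 1 0)) := by
      simp [triSum, Finset.sum_range_succ, hcoL]
      ring
    rw [h] at hm1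
    have h1 := hW.nonneg 0 0 1
    have h2 := mul_nonneg (coL_nonneg 1 0 (Gv (N : ℝ) 0 1)) (hW.nonneg 0 0 0)
    have h3 := mul_nonneg (coL_nonneg 1 0 (Gv (N : ℝ) 0 0)) (hW.nonneg 1 0 0)
    have h4 := mul_nonneg (coL_nonneg 1 0 (Gv (N : ℝ) 0 0)) (hW.nonneg 1 1 0)
    have h5 : (N : ℝ) * ρ 0 0 1 ≤ 0 := by linarith
    have h6 : ρ 0 0 1 ≤ 0 := by
      by_contra hc
      have : 0 < (N : ℝ) * ρ 0 0 1 := mul_pos hN' (not_le.1 hc)
      linarith
    linarith
  · have h : triSum 1 (fun t r r' =>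
        coL 1 r (Gv (N : ℝ) r t) * coL 0 r' (Gv (N : ℝ) r' (1 - t)) * ρ t r r') =
        (N : ℝ) * ρ 1 1 0 + (coL 1 0 (Gv (N : ℝ) 0 0) * ρ 0 0 0 +
          (coL 1 0 (Gv (N : ℝ) 0 0) * ρ 0 0 1 + coL 1 0 (Gv (N : ℝ) 0 1) * ρ 1 0 0)) := by
      simp [triSum, Finset.sum_range_succ, hcoL]
      ring
    rw [h] at hm2
    have h1 := hW.nonneg 1 1 0
    have h2 := mul_nonneg (coL_nonneg 1 0 (Gv (N : ℝ) 0 0)) (hW.nonneg 0 0 0)
    have h3 := mul_nonneg (coL_nonneg 1 0 (Gv (N : ℝ) 0 0)) (hW.nonneg 0 0 1)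
    have h4 := mul_nonneg (coL_nonneg 1 0 (Gv (N : ℝ) 0 1)) (hW.nonneg 1 0 0)
    have h5 : (N : ℝ) * ρ 1 1 0 ≤ 0 := by linarith
    have h6 : ρ 1 1 0 ≤ 0 := by
      by_contra hc
      have : 0 < (N : ℝ) * ρ 1 1 0 := mul_pos hN' (not_le.1 hc)
      linarith
    linarith

/-- The case `b = 1` of the closure: no contraction is lost. -/
theorem close_one (hW : Weights N 1 ρ) (hN : 1 ≤ N) (θ : ℕ → ℝ) (h1 : θ 1 = 0) (Θ : ℝ) (hΘ : 0 ≤ Θ) :
    triSum 1 (fun t r r' => θ (t - r) * θ (1 - t - r') * ρ t r r') ≤ Θ * triSum 1 ρ := by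
  obtain ⟨h01, h10⟩ := W_one hW hN
  have h : triSum 1 (fun t r r' => θ (t - r) * θ (1 - t - r') * ρ t r r') = 0 := by
    simp [triSum, Finset.sum_range_succ, h01, h10, h1]
  rw [h]
  exact mul_nonneg hΘ (W_mass_nonneg hW)

/-- The moment functional on a finite family of pairs. -/
theorem W_dual_moment (hW : Weights N b ρ) {F : ℕ → ℕ → ℕ → ℝ} {E : ℝ} {φ : ℕ → ℝ}
    (Y : Finset (ℕ × ℕ)) (y : ℕ × ℕ → ℝ) (hy : ∀ p ∈ Y, 0 ≤ y p)
    (hφ : ∀ d, 2 * d ≤ b →
      ∑ s ∈ Finset.range (b - 2 * d + 1), ((b - 2 * d).choose s : ℝ) / 2 ^ (b - 2 * d) * φ (d + s) ≤ E)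
    (hpt : ∀ t r r', t ≤ b → r ≤ t → r' ≤ b - t → r + (b - t) ≤ N → r' + t ≤ N →
      F t r r' ≤ ∑ p ∈ Y, y p * (coL p.1 r (Gv (N : ℝ) r t) * coL p.2 r' (Gv (N : ℝ) r' (b - t))) + φ t) :
    triSum b (fun t r r' => F t r r' * ρ t r r') ≤
      (∑ p ∈ Y, y p * ((p.1.factorial : ℝ) * (p.2.factorial : ℝ) * ((p.1 + p.2).choose p.1 : ℝ) *
        (1 / 4 : ℝ) ^ (p.1 + p.2) * Sk N b (p.1 + p.2)) + E) * triSum b ρ := by
  refine (W_triSum_le hW hpt).trans ?_
  have h1 : (fun t r r' => (∑ p ∈ Y, y p * (coL p.1 r (Gv (N : ℝ) r t) *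
        coL p.2 r' (Gv (N : ℝ) r' (b - t))) + φ t) * ρ t r r') =
      fun t r r' => ∑ p ∈ Y, (y p * (coL p.1 r (Gv (N : ℝ) r t) *
        coL p.2 r' (Gv (N : ℝ) r' (b - t)) * ρ t r r')) + φ t * ρ t r r' := by
    funext t r r'
    rw [add_mul, Finset.sum_mul]
    congr 1
    refine Finset.sum_congr rfl fun p _ => ?_
    ring
  rw [h1, triSum_add, triSum_sum, add_mul, Finset.sum_mul]
  refine add_le_add (Finset.sum_le_sum fun p hp => ?_) (W_E_coin_hull hW hφ)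
  rw [triSum_smul, mul_assoc]
  exact mul_le_mul_of_nonneg_left (hW.moment p.1 p.2) (hy p hp)

/-- **The product dual**, with the coin. -/
theorem pair_close (hW : Weights N b ρ) {F : ℕ → ℕ → ℕ → ℝ} {x a E Ψ Θ : ℝ} {φ : ℕ → ℝ}
    (hx : 0 ≤ x) (ha : 0 ≤ a)
    (hpt : ∀ t r r', t ≤ b → r ≤ t → r' ≤ b - t → r + (b - t) ≤ N → r' + t ≤ N →
      F t r r' ≤ a * ((1 + x * (Gn N t r : ℝ)) ^ r * (1 + x * (Gn N (b - t) r' : ℝ)) ^ r') + φ t)
    (hφ : ∀ d, 2 * d ≤ b →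
      ∑ s ∈ Finset.range (b - 2 * d + 1), ((b - 2 * d).choose s : ℝ) / 2 ^ (b - 2 * d) * φ (d + s) ≤ E)
    (hΨ : GhatS N b (x / 2) ≤ Ψ) (hΘ : a * Ψ + E ≤ Θ) :
    triSum b (fun t r r' => F t r r' * ρ t r r') ≤ Θ * triSum b ρ := by
  have h1 := W_dual_general hW (F := F) (z := x) (a := a) (E := E) (φ := φ) hx ha hφ ?_
  · refine h1.trans (mul_le_mul_of_nonneg_right ?_ (W_mass_nonneg hW))
    exact (add_le_add_left (mul_le_mul_of_nonneg_left hΨ ha) E).trans hΘ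
  · intro t r r' ht hr hr' h2 h3
    refine (hpt t r r' ht hr hr' h2 h3).trans ?_
    refine add_le_add_left (mul_le_mul_of_nonneg_left ?_ ha) _
    have h4 := pow_max_le_Gam hx r (Gv (N : ℝ) r t)
    have h5 := pow_max_le_Gam hx r' (Gv (N : ℝ) r' (b - t))
    rw [max_Gv] at h4 h5
    exact mul_le_mul h4 h5 (pow_nonneg (add_nonneg zero_le_one (mul_nonneg hx (Nat.cast_nonneg _))) _)
      (Gam_nonneg hx _ _)

/-- **The separated form** (Hölder). -/
theorem hold_close (hW : Weights N b ρ) {θ : ℕ → ℝ} {x E Ψ Θ : ℝ} {A : ℕ → ℝ}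
    (hθ : ∀ j, 0 ≤ θ j) (hx : 0 ≤ x) (hA : ∀ t, 0 ≤ A t)
    (hL : ∀ t r, t ≤ b → r ≤ t → r + (b - t) ≤ N →
      θ (t - r) ^ 2 ≤ A t * (1 + x * (Gn N t r : ℝ)) ^ r)
    (hφ : ∀ d, 2 * d ≤ b →
      ∑ s ∈ Finset.range (b - 2 * d + 1), ((b - 2 * d).choose s : ℝ) / 2 ^ (b - 2 * d) *
        (A (d + s) * A (b - (d + s))) ≤ E)
    (hΨ : GhatS N b (x / 2) ≤ Ψ) (hΨ0 : 0 < Ψ) (hΘ0 : 0 < Θ) (hΘ : Ψ * E ≤ Θ ^ 2) :
    triSum b (fun t r r' => θ (t - r) * θ (b - t - r') * ρ t r r') ≤ Θ * triSum b ρ := by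
  set a : ℝ := Θ / (2 * Ψ) with ha
  have ha0 : 0 < a := by positivity
  refine pair_close hW (x := x) (a := a) (E := E / (4 * a)) (Ψ := Ψ) (Θ := Θ)
    (φ := fun t => A t * A (b - t) / (4 * a)) hx ha0.le ?_ ?_ hΨ ?_
  · intro t r r' ht hr hr' h2 h3
    set U := (1 + x * (Gn N t r : ℝ)) ^ r with hU
    set U' := (1 + x * (Gn N (b - t) r' : ℝ)) ^ r' with hU'
    have hU0 : 0 ≤ U := pow_nonneg (add_nonneg zero_le_one (mul_nonneg hx (Nat.cast_nonneg _))) _
    have hU0' : 0 ≤ U' := pow_nonneg (add_nonneg zero_le_one (mul_nonneg hx (Nat.cast_nonneg _))) _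
    have h4 := hL t r ht hr h2
    have h5 := hL (b - t) r' (by omega) hr' (by omega)
    have e : b - t - r' = b - t - r' := rfl
    have h6 : (θ (t - r) * θ (b - t - r')) ^ 2 ≤ (A t * U) * (A (b - t) * U') := by
      rw [mul_pow]
      exact mul_le_mul h4 h5 (sq_nonneg _) (mul_nonneg (hA _) hU0)
    have h7 : (A t * U) * (A (b - t) * U') ≤ (a * (U * U') + A t * A (b - t) / (4 * a)) ^ 2 := by
      have h8 : (a * (U * U') + A t * A (b - t) / (4 * a)) ^ 2 - (A t * U) * (A (b - t) * U') =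
          (a * (U * U') - A t * A (b - t) / (4 * a)) ^ 2 := by
        field_simp
        ring
      have h9 := sq_nonneg (a * (U * U') - A t * A (b - t) / (4 * a))
      linarith
    have h10 : 0 ≤ a * (U * U') + A t * A (b - t) / (4 * a) :=
      add_nonneg (mul_nonneg ha0.le (mul_nonneg hU0 hU0'))
        (div_nonneg (mul_nonneg (hA _) (hA _)) (by positivity))
    exact le_of_sq_le_sq (h6.trans h7) h10
  · intro d hd
    have h1 := hφ d hd
    have h2 : ∑ s ∈ Finset.range (b - 2 * d + 1), ((b - 2 * d).choose s : ℝ) / 2 ^ (b - 2 * d) *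
        (A (d + s) * A (b - (d + s)) / (4 * a)) =
        (∑ s ∈ Finset.range (b - 2 * d + 1), ((b - 2 * d).choose s : ℝ) / 2 ^ (b - 2 * d) *
        (A (d + s) * A (b - (d + s)))) / (4 * a) := by
      rw [Finset.sum_div]
      refine Finset.sum_congr rfl fun s _ => ?_
      ring
    rw [h2]
    exact div_le_div_of_nonneg_right h1 (by positivity)
  · have h1 : a * Ψ = Θ / 2 := by
      rw [ha]
      field_simp
    have h2 : E / (4 * a) ≤ Θ / 2 := by
      have h3 : E / (4 * a) = Ψ * E / (2 * Θ) := by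
        rw [ha]
        field_simp
        ring
      rw [h3, div_le_div_iff₀ (by positivity) (by norm_num)]
      nlinarith
    linarith

end Crest.Agent.S0222Lib.FRTable
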