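import Crest.Agent.S0222Lib.FRTableData

/-!
# S0222, first-row bound: the check of a level of the table
-/

set_option autoImplicit false
set_option linter.unusedSectionVars false
set_option linter.unusedVariables false

namespace Crest.Agent.S0222Lib.FRTable

open Finset
open Crest.Agent.S0222Lib.FRCore Crest.Agent.S0222Lib.FRCore.DX

/-- A certificate of the closure for one size and one number of tokens. -/
structure Cert where
  /-- `0`: product dual, `1`: Hölder -/
  kind : ℕ
  /-- `x = P / 4096` -/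
  P : ℕ
  /-- the coefficient of the product dual -/
  aN : ℕ
  /-- the function of `t` -/
  L : List ℕ
  /-- the bound of the coin -/
  E : ℕ
  /-- the bound of the moments -/
  Psi : ℕ
deriving Inhabited

/-- The check of a certificate. -/
def certOK (N b : ℕ) (U V : List ℕ) (c : Cert) : Bool :=
  let Θ := V.getD b 0
  psiOK tab N b c.P 4096 c.Psi 20 &&
  if Nat.beq c.kind 0 then
    pairOK N b c.P 4096 c.aN U c.L && coinOK tab b c.E c.L &&
      Nat.ble (c.aN * c.Psi + c.E * 2 ^ 20) (Θ * 2 ^ 40 * 2 ^ 20)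
  else
    holdOK N b c.P 4096 U c.L && coinOK tab b c.E (phiL b c.L) && Nat.ble 1 c.Psi && Nat.ble 1 Θ &&
      Nat.ble (c.Psi * c.E) (Θ ^ 2 * (2 ^ 40) ^ 2 * 2 ^ 20)

/-- The check of a level. -/
def levelOK (N : ℕ) (U V : List ℕ) (certs : List Cert) : Bool :=
  (List.range (2 * N - 1)).all fun i => certOK N (i + 2) U V (certs.getD i default)

/-- **The soundness of a certificate.** -/
theorem certOK_sound {N b : ℕ} {U V : List ℕ} {c : Cert} {ρ : ℕ → ℕ → ℕ → ℝ} (hW : Weights N b ρ)
    (hN : N ≤ 128) (hb : b ≤ 128) (h : certOK N b U V c = true) :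
    triSum b (fun t r r' => thU 40 U (t - r) * thU 40 U (b - t - r') * ρ t r r') ≤
      thU 40 V b * triSum b ρ := by
  unfold certOK at h
  simp only [Bool.and_eq_true] at h
  obtain ⟨h1, h2⟩ := h
  have hmain : triSum b (fun t r r' => thU 40 U (t - r) * thU 40 U (b - t - r') * ρ t r r') ≤
      ((V.getD b 0 : ℝ) / 2 ^ 40) * triSum b ρ := by
    by_cases hk : Nat.beq c.kind 0 = true
    · rw [if_pos hk] at h2
      simp only [Bool.and_eq_true] at h2
      obtain ⟨⟨h3, h4⟩, h5⟩ := h2
      exact pair_sound tab_ok hW hN hb (by norm_num) h3 h4 h1 h5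
    · rw [if_neg hk] at h2
      simp only [Bool.and_eq_true] at h2
      obtain ⟨⟨⟨⟨h3, h4⟩, h5⟩, h6⟩, h7⟩ := h2
      exact hold_sound tab_ok hW hN hb (by norm_num) h3 h4 h1 h5 h6 h7
  exact hmain

/-- **The soundness of a level.** -/
theorem levelOK_sound {N b : ℕ} {U V : List ℕ} {certs : List Cert} {ρ : ℕ → ℕ → ℕ → ℝ}
    (hW : Weights N b ρ) (hN : N ≤ 64) (h2 : 2 ≤ b) (hb : b ≤ 2 * N) (h : levelOK N U V certs = true) :
    triSum b (fun t r r' => thU 40 U (t - r) * thU 40 U (b - t - r') * ρ t r r') ≤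
      thU 40 V b * triSum b ρ := by
  have h1 := List.all_eq_true.1 h (b - 2) (List.mem_range.2 (by omega))
  rw [show b - 2 + 2 = b by omega] at h1
  exact certOK_sound hW (by omega) (by omega) h1

end Crest.Agent.S0222Lib.FRTable
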