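import Crest.Agent.S0222Lib.FRTableLevel

/-!
# S0222, first-row bound: the first levels of the table

Exact linear duals for the child sizes `1`, `2`, `4`: at these sizes the weights are so constrained
that a handful of moments and the coin decide everything.
-/

set_option autoImplicit false
set_option linter.unusedSectionVars false
set_option linter.unusedVariables false
set_option linter.unusedSimpArgs false

namespace Crest.Agent.S0222Lib.FRTable

open Finset
open Crest.Agent.S0222Lib.FRCore Crest.Agent.S0222Lib.FRCore.DX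

variable {N b : ℕ} {ρ : ℕ → ℕ → ℕ → ℝ}

/-- The right-hand side of a moment inequality. -/
noncomputable def mom (N b k k' : ℕ) : ℝ :=
  (k.factorial : ℝ) * (k'.factorial : ℝ) * ((k + k').choose k : ℝ) * (1 / 4 : ℝ) ^ (k + k') * Sk N b (k + k')

/-- The dual with four moments and the coin. -/
theorem W_dual4 (hW : Weights N b ρ) {F : ℕ → ℕ → ℕ → ℝ} {E : ℝ} {φ : ℕ → ℝ} {y01 y10 y11 y02 : ℝ}
    (h01 : 0 ≤ y01) (h10 : 0 ≤ y10) (h11 : 0 ≤ y11) (h02 : 0 ≤ y02)
    (hφ : ∀ d, 2 * d ≤ b →
      ∑ s ∈ Finset.range (b - 2 * d + 1), ((b - 2 * d).choose s : ℝ) / 2 ^ (b - 2 * d) * φ (d + s) ≤ E)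
    (hpt : ∀ t r r', t ≤ b → r ≤ t → r' ≤ b - t → r + (b - t) ≤ N → r' + t ≤ N →
      F t r r' ≤ y01 * (coL 0 r (Gv (N : ℝ) r t) * coL 1 r' (Gv (N : ℝ) r' (b - t))) +
        y10 * (coL 1 r (Gv (N : ℝ) r t) * coL 0 r' (Gv (N : ℝ) r' (b - t))) +
        y11 * (coL 1 r (Gv (N : ℝ) r t) * coL 1 r' (Gv (N : ℝ) r' (b - t))) +
        y02 * (coL 0 r (Gv (N : ℝ) r t) * coL 2 r' (Gv (N : ℝ) r' (b - t))) + φ t) :
    triSum b (fun t r r' => F t r r' * ρ t r r') ≤
      (y01 * mom N b 0 1 + y10 * mom N b 1 0 + y11 * mom N b 1 1 + y02 * mom N b 0 2 + E) * triSum b ρ := by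
  have h := W_dual_moment hW (F := F) (E := E) (φ := φ) {(0, 1), (1, 0), (1, 1), (0, 2)}
    (fun p => if p = (0, 1) then y01 else if p = (1, 0) then y10 else if p = (1, 1) then y11 else y02)
    (by
      intro p hp
      split_ifs <;> assumption)
    hφ
    (by
      intro t r r' ht hr hr' h2 h3
      refine (hpt t r r' ht hr hr' h2 h3).trans (le_of_eq ?_)
      rw [Finset.sum_insert (by decide), Finset.sum_insert (by decide), Finset.sum_insert (by decide),
        Finset.sum_singleton]
      simp only [Prod.mk.injEq]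
      norm_num
      ring)
  refine h.trans (le_of_eq ?_)
  congr 1
  rw [Finset.sum_insert (by decide), Finset.sum_insert (by decide), Finset.sum_insert (by decide),
    Finset.sum_singleton]
  simp only [Prod.mk.injEq, mom]
  norm_num
  ring

/-- All the feasible sectors vanish. -/
theorem W_feas_zero (hW : Weights N b ρ) {F : ℕ → ℕ → ℕ → ℝ} {Θ : ℝ} (hΘ : 0 ≤ Θ)
    (hpt : ∀ t r r', t ≤ b → r ≤ t → r' ≤ b - t → r + (b - t) ≤ N → r' + t ≤ N → F t r r' ≤ 0) :
    triSum b (fun t r r' => F t r r' * ρ t r r') ≤ Θ * triSum b ρ := by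
  have h := W_triSum_le hW (F := F) (F' := fun _ _ _ => 0) hpt
  refine h.trans ?_
  have h0 : triSum b (fun t r r' => (0 : ℝ) * ρ t r r') = 0 := by
    simp [triSum]
  rw [h0]
  exact mul_nonneg hΘ (W_mass_nonneg hW)


/-! ### The values of the table -/

lemma U0_0 : thU 40 U0 0 = 1 := by norm_num [thU, U0]
lemma U0_1 : thU 40 U0 1 = 0 := by norm_num [thU, U0]
lemma U0_2 : thU 40 U0 2 = 0 := by norm_num [thU, U0]

lemma U1_0 : thU 40 U1 0 = 1 := by norm_num [thU, U1]
lemma U1_1 : thU 40 U1 1 = 0 := by norm_num [thU, U1]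
lemma U1_2 : thU 40 U1 2 = 0 := by norm_num [thU, U1]
lemma U1_3 : thU 40 U1 3 = 0 := by norm_num [thU, U1]
lemma U1_4 : thU 40 U1 4 = 0 := by norm_num [thU, U1]

lemma U2_0 : thU 40 U2 0 = 1 := by norm_num [thU, U2]
lemma U2_1 : thU 40 U2 1 = 0 := by norm_num [thU, U2]
lemma U2_2 : thU 40 U2 2 = 7 / 16 := by norm_num [thU, U2]
lemma U2_3 : thU 40 U2 3 = 0 := by norm_num [thU, U2]
lemma U2_4 : thU 40 U2 4 = 0 := by norm_num [thU, U2]

lemma U3_2 : thU 40 U3 2 = 85 / 256 := by norm_num [thU, U3]
lemma U3_3 : thU 40 U3 3 = 7 / 32 := by norm_num [thU, U3]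
lemma U3_4 : (15331 : ℝ) / 40960 ≤ thU 40 U3 4 := by norm_num [thU, U3]
lemma U3_5 : thU 40 U3 5 = 49 / 256 := by norm_num [thU, U3]
lemma U3_6 : thU 40 U3 6 = 49 / 256 := by norm_num [thU, U3]

/-- The enumeration of the feasible sectors. -/
macro "fr_sectors" : tactic =>
  `(tactic| (intro t r r' ht hr hr' h2 h3
             have hr0 : r ≤ 8 := by omega
             have hr1 : r' ≤ 8 := by omega
             interval_cases t <;> interval_cases r <;> interval_cases r' <;>
               first
                 | (exfalso; omega)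
                 | norm_num [coL, coP, Gv, U0_0, U0_1, U0_2, U1_0, U1_1, U1_2, U1_3, U1_4,
                     U2_0, U2_1, U2_2, U2_3, U2_4]))

/-! ### Child size `1` -/

theorem low0 (hW : Weights 1 b ρ) (h2 : 2 ≤ b) (hb : b ≤ 2) :
    triSum b (fun t r r' => thU 40 U0 (t - r) * thU 40 U0 (b - t - r') * ρ t r r') ≤
      thU 40 U1 b * triSum b ρ := by
  obtain rfl : b = 2 := by omega
  refine W_feas_zero hW (thU_nonneg _ _ _) ?_
  fr_sectors

/-! ### Child size `2` -/

theorem low1 (hW : Weights 2 b ρ) (h2 : 2 ≤ b) (hb : b ≤ 4) :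
    triSum b (fun t r r' => thU 40 U1 (t - r) * thU 40 U1 (b - t - r') * ρ t r r') ≤
      thU 40 U2 b * triSum b ρ := by
  interval_cases b
  · have h := W_dual4 hW (F := fun t r r' => thU 40 U1 (t - r) * thU 40 U1 (2 - t - r'))
      (E := 0) (φ := fun _ => 0) (y01 := 0) (y10 := 1 / 2) (y11 := 0) (y02 := 1 / 4)
      (by norm_num) (by norm_num) (by norm_num) (by norm_num)
      (by
        intro d hd
        simp)
      (by fr_sectors)
    refine h.trans (mul_le_mul_of_nonneg_right (le_of_eq ?_) (W_mass_nonneg hW))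
    norm_num [mom, Sk, Finset.sum_range_succ, Nat.choose, Nat.factorial, U2_2]
  · refine W_feas_zero hW (thU_nonneg _ _ _) ?_
    fr_sectors
  · refine W_feas_zero hW (thU_nonneg _ _ _) ?_
    fr_sectors


/-! ### Child size `4` -/

theorem low2 (hW : Weights 4 b ρ) (h2 : 2 ≤ b) (hb : b ≤ 8) :
    triSum b (fun t r r' => thU 40 U2 (t - r) * thU 40 U2 (b - t - r') * ρ t r r') ≤
      thU 40 U3 b * triSum b ρ := by
  interval_cases b
  · have h := W_dual4 hW (F := fun t r r' => thU 40 U2 (t - r) * thU 40 U2 (2 - t - r'))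
      (E := 7 / 32) (φ := fun t => if t = 0 then 7 / 16 else if t = 2 then 7 / 16 else 0)
      (y01 := 3 / 32) (y10 := 3 / 32) (y11 := 1 / 64) (y02 := 0)
      (by norm_num) (by norm_num) (by norm_num) (by norm_num)
      (by
        intro d hd
        have hd' : d ≤ 1 := by omega
        interval_cases d <;> norm_num [Finset.sum_range_succ, Nat.choose])
      (by fr_sectors)
    refine h.trans (mul_le_mul_of_nonneg_right (le_of_eq ?_) (W_mass_nonneg hW))
    norm_num [mom, Sk, Finset.sum_range_succ, Nat.choose, Nat.factorial, U3_2]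
  · have h := W_dual4 hW (F := fun t r r' => thU 40 U2 (t - r) * thU 40 U2 (3 - t - r'))
      (E := 7 / 64) (φ := fun t => if t = 0 then 7 / 16 else if t = 3 then 7 / 16 else 0)
      (y01 := 7 / 64) (y10 := 7 / 64) (y11 := 0) (y02 := 0)
      (by norm_num) (by norm_num) (by norm_num) (by norm_num)
      (by
        intro d hd
        have hd' : d ≤ 1 := by omega
        interval_cases d <;> norm_num [Finset.sum_range_succ, Nat.choose])
      (by fr_sectors)
    refine h.trans (mul_le_mul_of_nonneg_right (le_of_eq ?_) (W_mass_nonneg hW))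
    norm_num [mom, Sk, Finset.sum_range_succ, Nat.choose, Nat.factorial, U3_3]
  · have h := W_dual4 hW (F := fun t r r' => thU 40 U2 (t - r) * thU 40 U2 (4 - t - r'))
      (E := 49 / 256)
      (φ := fun t => if t = 0 then 821 / 1280 else if t = 1 then 101 / 1280 else if t = 2 then 49 / 256
        else if t = 3 then 101 / 1280 else if t = 4 then 821 / 1280 else 0)
      (y01 := 459 / 5120) (y10 := 459 / 5120) (y11 := 21 / 20480) (y02 := 0)
      (by norm_num) (by norm_num) (by norm_num) (by norm_num)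
      (by
        intro d hd
        have hd' : d ≤ 2 := by omega
        interval_cases d <;> norm_num [Finset.sum_range_succ, Nat.choose])
      (by fr_sectors)
    refine h.trans (mul_le_mul_of_nonneg_right (le_trans (le_of_eq ?_) U3_4) (W_mass_nonneg hW))
    norm_num [mom, Sk, Finset.sum_range_succ, Nat.choose, Nat.factorial]
  · have h := W_dual4 hW (F := fun t r r' => thU 40 U2 (t - r) * thU 40 U2 (5 - t - r'))
      (E := 49 / 256)
      (φ := fun t => if t = 2 then 49 / 256 else if t = 3 then 49 / 256 else 0)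
      (y01 := 0) (y10 := 0) (y11 := 0) (y02 := 0)
      (by norm_num) (by norm_num) (by norm_num) (by norm_num)
      (by
        intro d hd
        have hd' : d ≤ 2 := by omega
        interval_cases d <;> norm_num [Finset.sum_range_succ, Nat.choose])
      (by fr_sectors)
    refine h.trans (mul_le_mul_of_nonneg_right (le_of_eq ?_) (W_mass_nonneg hW))
    norm_num [U3_5]
  · have h := W_dual4 hW (F := fun t r r' => thU 40 U2 (t - r) * thU 40 U2 (6 - t - r'))
      (E := 49 / 256)
      (φ := fun t => if t = 2 then 49 / 256 else if t = 3 then 49 / 256 else if t = 4 then 49 / 256 else 0)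
      (y01 := 0) (y10 := 0) (y11 := 0) (y02 := 0)
      (by norm_num) (by norm_num) (by norm_num) (by norm_num)
      (by
        intro d hd
        have hd' : d ≤ 3 := by omega
        interval_cases d <;> norm_num [Finset.sum_range_succ, Nat.choose])
      (by fr_sectors)
    refine h.trans (mul_le_mul_of_nonneg_right (le_of_eq ?_) (W_mass_nonneg hW))
    norm_num [U3_6]
  · refine W_feas_zero hW (thU_nonneg _ _ _) ?_
    fr_sectors
  · refine W_feas_zero hW (thU_nonneg _ _ _) ?_
    fr_sectors

end Crest.Agent.S0222Lib.FRTable
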