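import Crest.Agent.S0222Lib.SpechtDim

/-!
# S0222: the sharp form of the Frobenius lower bound

`frob_card_lower`: `n! ∏_a (r-1-a)! ≤ #(lattice words of μ) ∏_a (μ_a + r-1-a)!`, from Aitken's
formula and the Vandermonde determinant, with `l_a - l_b ≥ b - a` for `l_a = μ_a + r-1-a`.
`frob_finrank_lower`: the same with `dim V` for a representation with a top vector of shape `μ`.
-/

set_option autoImplicit false
set_option linter.unusedSectionVars false

namespace Crest.Agent.S0222Lib.Specht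

open Finset Nat

variable {r n : ℕ}

/-- The Vandermonde product of `r-1-a`. -/
lemma prod_Ioi_sub (i : Fin r) :
    ∏ j ∈ Finset.Ioi i, ((j.val : ℚ) - (i.val : ℚ)) = (((r - 1 - i.val)! : ℕ) : ℚ) := by
  have hi := i.isLt
  have h : ∏ j ∈ Finset.Ioi i, ((j.val : ℚ) - (i.val : ℚ))
      = ∏ k ∈ Finset.Ico 1 (r - i.val), ((k : ℕ) : ℚ) := by
    refine Finset.prod_bij' (fun j _ => j.val - i.val)
      (fun k hk => ⟨k + i.val, by have := Finset.mem_Ico.1 hk; omega⟩) ?_ ?_ ?_ ?_ ?_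
    · intro j hj
      have h1 : i.val < j.val := Fin.lt_def.1 (Finset.mem_Ioi.1 hj)
      have h2 := j.isLt
      exact Finset.mem_Ico.2 (by omega)
    · intro k hk
      have h1 := Finset.mem_Ico.1 hk
      refine Finset.mem_Ioi.2 (Fin.lt_def.2 ?_)
      show i.val < k + i.val
      omega
    · intro j hj
      have h1 : i.val < j.val := Fin.lt_def.1 (Finset.mem_Ioi.1 hj)
      apply Fin.ext
      show j.val - i.val + i.val = j.val
      omega
    · intro k hk
      have h1 := Finset.mem_Ico.1 hk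
      show k + i.val - i.val = k
      omega
    · intro j hj
      have h1 : i.val < j.val := Fin.lt_def.1 (Finset.mem_Ioi.1 hj)
      rw [Nat.cast_sub h1.le]
  rw [h]
  have h2 : r - i.val = (r - 1 - i.val) + 1 := by omega
  rw [h2, ← Finset.prod_Ico_id_eq_factorial]
  push_cast
  rfl

/-- The sharp lower bound of the Aitken determinant. -/
lemma prod_mul_le_abs_aitkenDet {μ : Fin r → ℕ} (hμ : Antitone μ) :
    (∏ i : Fin r, (((r - 1 - i.val)! : ℕ) : ℚ)) * ∏ i : Fin r, (((μ i + (r - 1 - i.val))! : ℕ) : ℚ)⁻¹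
      ≤ |aitkenDet (fun a => (μ a : ℤ))| := by
  classical
  set l : Fin r → ℕ := fun i => μ i + (r - 1 - i.val) with hl
  let C : Matrix (Fin r) (Fin r) ℚ := Matrix.of fun i k => ((l i).descFactorial k : ℚ)
  let B : Matrix (Fin r) (Fin r) ℚ :=
    Matrix.of fun i k => (((l i)! : ℕ) : ℚ)⁻¹ * C i k
  have hA : aitken (fun a => (μ a : ℤ)) = B.submatrix id Fin.revPerm := by
    ext i j
    simp only [aitken, Matrix.of_apply, Matrix.submatrix_apply, id, B, C]
    rw [← ifac_sub]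
    congr 1
    simp only [hl, Fin.revPerm_apply, Fin.val_rev]
    have hi := i.isLt
    have hj := j.isLt
    push_cast [Nat.cast_sub (show i.val ≤ r - 1 by omega)]
    omega
  have hB : B.det = (∏ i, (((l i)! : ℕ) : ℚ)⁻¹) * C.det :=
    Matrix.det_mul_column (fun i => (((l i)! : ℕ) : ℚ)⁻¹) C
  have hC : C.det = (Matrix.vandermonde fun i => (l i : ℚ)).det := by
    rw [Matrix.det_eval_matrixOfPolynomials_eq_det_vandermonde (fun i => (l i : ℚ))
      (fun k : Fin r => descPochhammer ℚ k.val)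
      (fun k => descPochhammer_natDegree ℚ k.val) (fun k => monic_descPochhammer ℚ k.val)]
    congr 1
    ext i k
    simp only [C, Matrix.of_apply]
    rw [descPochhammer_eval_eq_descFactorial]
  have hV : ∏ i : Fin r, (((r - 1 - i.val)! : ℕ) : ℚ)
      ≤ |(Matrix.vandermonde fun i => (l i : ℚ)).det| := by
    rw [Matrix.det_vandermonde, Finset.abs_prod]
    refine Finset.prod_le_prod (fun _ _ => by positivity) fun i _ => ?_
    rw [← prod_Ioi_sub i, Finset.abs_prod]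
    refine Finset.prod_le_prod ?_ ?_
    · intro j hj
      have h1 : i.val < j.val := Fin.lt_def.1 (Finset.mem_Ioi.1 hj)
      have h2 : (i.val : ℚ) < j.val := by exact_mod_cast h1
      linarith
    · intro j hj
      have h1 : i < j := Finset.mem_Ioi.1 hj
      have h2 : μ j ≤ μ i := hμ h1.le
      have h3 : i.val < j.val := Fin.lt_def.1 h1
      have h4 := j.isLt
      have h5 : (l i : ℤ) - (l j : ℤ) ≥ (j.val : ℤ) - (i.val : ℤ) := by
        simp only [hl]
        omega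
      have h6 : ((j.val : ℚ) - (i.val : ℚ)) ≤ (l i : ℚ) - (l j : ℚ) := by
        have : (((j.val : ℤ) - (i.val : ℤ) : ℤ) : ℚ) ≤ (((l i : ℤ) - (l j : ℤ) : ℤ) : ℚ) := by
          exact_mod_cast h5
        push_cast at this
        exact this
      rw [abs_sub_comm]
      exact h6.trans (le_abs_self _)
  unfold aitkenDet
  rw [hA, Matrix.det_permute', hB, hC, abs_mul, abs_mul]
  have hsign : |(((Equiv.Perm.sign (Fin.revPerm : Equiv.Perm (Fin r)) : ℤˣ) : ℤ) : ℚ)| = 1 := by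
    rcases Int.units_eq_one_or (Equiv.Perm.sign (Fin.revPerm : Equiv.Perm (Fin r))) with h | h <;>
      simp [h]
  rw [hsign, one_mul]
  have hpos : 0 ≤ ∏ i, (((l i)! : ℕ) : ℚ)⁻¹ := Finset.prod_nonneg fun i _ => by positivity
  rw [abs_of_nonneg hpos, mul_comm]
  exact mul_le_mul_of_nonneg_left hV hpos

/-- **The sharp Frobenius lower bound** on the number of lattice words. -/
theorem frob_card_lower {μ : Fin r → ℕ} (hμ : Antitone μ) (hn : ∑ a, μ a = n) :
    n ! * ∏ a : Fin r, (r - 1 - a.val)! ≤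
      (latticeWords μ n).card * ∏ a : Fin r, (μ a + (r - 1 - a.val))! := by
  have hcard := card_latticeWords_eq n μ hμ hn
  have hfac : (0 : ℚ) < (n ! : ℕ) := by exact_mod_cast Nat.factorial_pos n
  have hDnn : 0 ≤ aitkenDet (fun a => (μ a : ℤ)) := by
    have : (0 : ℚ) ≤ ((latticeWords μ n).card : ℚ) := by positivity
    rw [hcard] at this
    exact nonneg_of_mul_nonneg_right this hfac
  have hD := prod_mul_le_abs_aitkenDet hμ
  rw [abs_of_nonneg hDnn] at hD
  have hP : (0 : ℚ) < ∏ a : Fin r, (((μ a + (r - 1 - a.val))! : ℕ) : ℚ) :=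
    Finset.prod_pos fun a _ => by exact_mod_cast Nat.factorial_pos _
  have hinv : (∏ i : Fin r, (((μ i + (r - 1 - i.val))! : ℕ) : ℚ)⁻¹) *
      ∏ a : Fin r, (((μ a + (r - 1 - a.val))! : ℕ) : ℚ) = 1 := by
    rw [← Finset.prod_mul_distrib]
    refine Finset.prod_eq_one fun a _ => ?_
    have : (((μ a + (r - 1 - a.val))! : ℕ) : ℚ) ≠ 0 := by exact_mod_cast Nat.factorial_ne_zero _
    field_simp
  have hq : ((n ! : ℕ) : ℚ) * ∏ a : Fin r, (((r - 1 - a.val)! : ℕ) : ℚ) ≤
      ((latticeWords μ n).card : ℚ) * ∏ a : Fin r, (((μ a + (r - 1 - a.val))! : ℕ) : ℚ) := by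
    rw [hcard]
    have h1 : (∏ a : Fin r, (((r - 1 - a.val)! : ℕ) : ℚ)) ≤
        aitkenDet (fun a => (μ a : ℤ)) * ∏ a : Fin r, (((μ a + (r - 1 - a.val))! : ℕ) : ℚ) := by
      calc (∏ a : Fin r, (((r - 1 - a.val)! : ℕ) : ℚ))
          = (∏ a : Fin r, (((r - 1 - a.val)! : ℕ) : ℚ)) * ((∏ i : Fin r, (((μ i + (r - 1 - i.val))! : ℕ) : ℚ)⁻¹) *
      ∏ a : Fin r, (((μ a + (r - 1 - a.val))! : ℕ) : ℚ)) := by rw [hinv, mul_one]
        _ = ((∏ a : Fin r, (((r - 1 - a.val)! : ℕ) : ℚ)) * (∏ i : Fin r, (((μ i + (r - 1 - i.val))! : ℕ) : ℚ)⁻¹)) *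
      ∏ a : Fin r, (((μ a + (r - 1 - a.val))! : ℕ) : ℚ) := by ring
        _ ≤ _ := mul_le_mul_of_nonneg_right hD hP.le
    calc ((n ! : ℕ) : ℚ) * ∏ a : Fin r, (((r - 1 - a.val)! : ℕ) : ℚ)
        ≤ ((n ! : ℕ) : ℚ) * (aitkenDet (fun a => (μ a : ℤ)) * ∏ a : Fin r, (((μ a + (r - 1 - a.val))! : ℕ) : ℚ)) :=
          mul_le_mul_of_nonneg_left h1 hfac.le
      _ = _ := by ring
  have : (((n ! * ∏ a : Fin r, (r - 1 - a.val)! : ℕ)) : ℚ) ≤
      (((latticeWords μ n).card * ∏ a : Fin r, (μ a + (r - 1 - a.val))! : ℕ) : ℚ) := by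
    push_cast
    exact hq
  exact_mod_cast this

section Rep

variable {𝕜 V : Type*} [RCLike 𝕜] [AddCommGroup V] [Module 𝕜 V]

/-- **The sharp Frobenius lower bound for `dim V`**, for a top vector of shape `μ`. -/
theorem frob_finrank_lower [FiniteDimensional 𝕜 V]
    (ρ : Representation 𝕜 (Equiv.Perm (Fin n)) V) {μ : Fin r → ℕ} (hμ : Antitone μ)
    (w₀ : Word n r) (hw₀ : ∀ a, content w₀ a = μ a) (v : V) (hv : v ≠ 0)
    (hfix : ∀ g : Equiv.Perm (Fin n), w₀ ∘ g = w₀ → ρ g v = v)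
    (hrel : ∀ (a b : Fin r), a.val + 1 = b.val → ∀ j, w₀ j = b →
      v + ∑ i ∈ univ.filter (fun i => w₀ i = a), ρ (Equiv.swap j i) v = 0) :
    n ! * ∏ a : Fin r, (r - 1 - a.val)! ≤
      Module.finrank 𝕜 V * ∏ a : Fin r, (μ a + (r - 1 - a.val))! := by
  have hn : ∑ a, μ a = n := by
    rw [← sum_content w₀]
    exact Finset.sum_congr rfl fun a _ => (hw₀ a).symm
  refine (frob_card_lower hμ hn).trans (Nat.mul_le_mul_right _ ?_)
  exact card_latticeWords_le_finrank_of_top ρ hμ w₀ hw₀ v hv hfix hrel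

/-- The form with binomials: `n! ≤ dim V ∏ μ_a! ∏ C(μ_a + r-1-a, μ_a)`, that is
`dim V ≥ multinomial(n; μ) / ∏ C(μ_a + r-1-a, μ_a)`. -/
theorem frob_finrank_lower' [FiniteDimensional 𝕜 V]
    (ρ : Representation 𝕜 (Equiv.Perm (Fin n)) V) {μ : Fin r → ℕ} (hμ : Antitone μ)
    (w₀ : Word n r) (hw₀ : ∀ a, content w₀ a = μ a) (v : V) (hv : v ≠ 0)
    (hfix : ∀ g : Equiv.Perm (Fin n), w₀ ∘ g = w₀ → ρ g v = v)
    (hrel : ∀ (a b : Fin r), a.val + 1 = b.val → ∀ j, w₀ j = b →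
      v + ∑ i ∈ univ.filter (fun i => w₀ i = a), ρ (Equiv.swap j i) v = 0) :
    n ! ≤ Module.finrank 𝕜 V * ((∏ a : Fin r, (μ a)!) *
      ∏ a : Fin r, (μ a + (r - 1 - a.val)).choose (μ a)) := by
  have h := frob_finrank_lower ρ hμ w₀ hw₀ v hv hfix hrel
  have h1 : ∀ a : Fin r, (μ a + (r - 1 - a.val))! =
      (μ a + (r - 1 - a.val)).choose (μ a) * (μ a)! * (r - 1 - a.val)! :=
    fun a => by
      rw [Nat.choose_symm_add]
      exact (Nat.add_choose_mul_factorial_mul_factorial _ _).symm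
  simp only [h1, Finset.prod_mul_distrib] at h
  have hpos : 0 < ∏ a : Fin r, (r - 1 - a.val)! := Finset.prod_pos fun a _ => Nat.factorial_pos _
  refine Nat.le_of_mul_le_mul_right ?_ hpos
  refine h.trans (le_of_eq ?_)
  ring

end Rep

end Crest.Agent.S0222Lib.Specht
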