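import Crest.Agent.S0222Lib.JConvD

/-!
# S0222: Theorem J, the conversion in one alphabet

`Fam.act`: the block of the colours of a class is replaced by a family `G`;
`conv_MM_le`: `MM (F.act G).Y (Zs) ct T (α + i • single s) ≤ b · MM F.Y (Zs) ct (T ∪ U) α`, under the
bound `(H1)` for `G` with constant `i! · b`.
-/

set_option autoImplicit false
set_option linter.unusedSectionVars false
set_option linter.unusedSimpArgs false

namespace Crest.Agent.S0222Lib.SWord

open Matrix MonoidAlgebra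
open scoped ComplexOrder Kronecker
open Crest.Agent.S0222Lib.Planch Crest.Agent.S0222Lib.WordRep Crest.Agent.S0222Lib.JCore
open Crest.Agent.S0222Lib.Site

section Pass

/-- The element of the group algebra of `Z`. -/
noncomputable def passZ : (D : ℕ) → MonoidAlgebra ℝ (Equiv.Perm (B D))
  | 0 => 1
  | d + 1 => rstar (passA d) * passA d

variable {L : Type*} [Fintype L] [DecidableEq L]

lemma Zs_eq_rhoAS (od : L → Bool) (D : ℕ) : Zs od D = rhoAS od D (passZ D) := by
  cases D with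
  | zero =>
    rw [Zs_zero]
    simp [passZ]
  | succ d =>
    unfold Zs
    rw [Ts_succ_eq_rho, ← rhoAS_rstar, passZ, map_mul]

end Pass

section Act

variable {Tok Col C : Type} [Fintype Tok] [DecidableEq Tok] [Fintype Col] [DecidableEq Col]
  [Fintype C] [DecidableEq C]

/-- The colours outside the image of a class. -/
abbrev ColR (κ : C → Col) : Type := {c : Col // ¬ ∃ d, κ d = c}

/-- The colours are the colours outside and the class. -/
noncomputable def colE (κ : C → Col) (hκ : Function.Injective κ) : ColR κ ⊕ C ≃ Col :=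
  Equiv.ofBijective (Sum.elim Subtype.val κ) (by
    constructor
    · rintro (a | a) (b | b) h
      · simp only [Sum.elim_inl] at h
        rw [Subtype.ext h]
      · simp only [Sum.elim_inl, Sum.elim_inr] at h
        exact absurd ⟨b, h.symm⟩ a.2
      · simp only [Sum.elim_inl, Sum.elim_inr] at h
        exact absurd ⟨a, h⟩ b.2
      · simp only [Sum.elim_inr] at h
        rw [hκ h]
    · intro c
      by_cases hc : ∃ d, κ d = c
      · obtain ⟨d, rfl⟩ := hc
        exact ⟨Sum.inr d, rfl⟩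
      · exact ⟨Sum.inl ⟨c, hc⟩, rfl⟩)

@[simp] lemma colE_inl (κ : C → Col) (hκ : Function.Injective κ) (c : ColR κ) :
    colE κ hκ (Sum.inl c) = c.1 := rfl

@[simp] lemma colE_inr (κ : C → Col) (hκ : Function.Injective κ) (d : C) :
    colE κ hκ (Sum.inr d) = κ d := rfl

/-- The restriction of an operator to the colours outside. -/
def resC (κ : C → Col) (M : Matrix Col Col ℂ) : Matrix (ColR κ) (ColR κ) ℂ :=
  M.submatrix Subtype.val Subtype.val

/-- Replace the block of the class. -/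
noncomputable def repC (κ : C → Col) (hκ : Function.Injective κ) (M : Matrix Col Col ℂ)
    (E : Matrix C C ℂ) : Matrix Col Col ℂ :=
  Matrix.reindex (colE κ hκ) (colE κ hκ) (Matrix.fromBlocks (resC κ M) 0 0 E)

lemma repC_apply (κ : C → Col) (hκ : Function.Injective κ) (M : Matrix Col Col ℂ) (E : Matrix C C ℂ)
    (x y : ColR κ ⊕ C) :
    repC κ hκ M E (colE κ hκ x) (colE κ hκ y) = Matrix.fromBlocks (resC κ M) 0 0 E x y := by
  simp [repC, Matrix.reindex_apply]

lemma repC_posDef (κ : C → Col) (hκ : Function.Injective κ) {M : Matrix Col Col ℂ} {E : Matrix C C ℂ}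
    (hM : M.PosDef) (hE : E.PosDef) : (repC κ hκ M E).PosDef := by
  have h1 : (resC κ M).PosDef := hM.submatrix Subtype.val_injective
  have h2 := fromBlocks_diag_posDef h1 hE
  have h3 := h2.submatrix (colE κ hκ).symm.injective
  exact h3

/-- A family of operators on the colours of a class. -/
structure CFam (C : Type) [Fintype C] [DecidableEq C] where
  /-- the index set -/
  J : Type
  [fJ : Fintype J]
  [nJ : Nonempty J]
  /-- the weights -/
  w : J → ℝ
  w_pos : ∀ j, 0 < w j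
  /-- the operators -/
  E : J → Matrix C C ℂ
  E_pd : ∀ j, (E j).PosDef

attribute [instance] CFam.fJ CFam.nJ

variable {od : Tok ⊕ Col → Bool}

/-- **The activation of a class**: the block of the colours of the class is replaced by `G`. -/
noncomputable def Fam.act (F : Fam od) (κ : C → Col) (hκ : Function.Injective κ)
    (hodκ : ∀ d d', od (Sum.inr (κ d)) = od (Sum.inr (κ d'))) (G : CFam C) : Fam od where
  I := F.I × G.J
  w := fun q => F.w q.1 * G.w q.2
  w_pos := fun q => mul_pos (F.w_pos _) (G.w_pos _)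
  A := fun q => repC κ hκ (F.A q.1) (G.E q.2)
  A_pd := fun q => repC_posDef κ hκ (F.A_pd _) (G.E_pd _)
  A_even := fun q => by
    intro c c' hne
    obtain ⟨x, rfl⟩ := (colE κ hκ).surjective c
    obtain ⟨y, rfl⟩ := (colE κ hκ).surjective c'
    rw [repC_apply] at hne
    rcases x with x | x <;> rcases y with y | y
    · exact F.A_even q.1 _ _ hne
    · simp at hne
    · simp at hne
    · exact hodκ _ _

end Act

section Conv

variable {Tok Col C S : Type} [Fintype Tok] [DecidableEq Tok] [Fintype Col] [DecidableEq Col]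
  [Fintype C] [DecidableEq C] [Fintype S] [DecidableEq S]

/-- The tokens outside `U`. -/
abbrev TokR (U : Finset Tok) : Type := {t : Tok // t ∉ U}

lemma extC_iota {Tok' Col' : Type} [Fintype Tok'] [DecidableEq Tok'] [Fintype Col'] [DecidableEq Col']
    {ιt : Tok' → Tok} {ιc : Col' → Col} (ht : Function.Injective ιt) {M' : Matrix Col' Col' ℂ}
    {M : Matrix Col Col ℂ} (hM : ∀ c c', M (ιc c) (ιc c') = M' c c')
    (l l' : Tok' ⊕ Col') :
    extC M (iotaL ιt ιc l) (iotaL ιt ιc l') = extC M' l l' := by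
  rcases l with a | c <;> rcases l' with a' | c'
  · simp [extC, iotaL, Matrix.one_apply, ht.eq_iff]
  · simp [extC, iotaL]
  · simp [extC, iotaL]
  · simp [extC, iotaL, hM]

variable (U : Finset Tok) (κ : C → Col)

/-- The tokens of the labelled alphabet. -/
noncomputable def tauU : Fin U.card → Tok := fun a => (U.equivFin.symm a).1

lemma tauU_mem (a : Fin U.card) : tauU U a ∈ U := (U.equivFin.symm a).2

lemma tauU_injective : Function.Injective (tauU U) := by
  intro a b h
  exact U.equivFin.symm.injective (Subtype.ext h)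

lemma tauU_surj {t : Tok} (ht : t ∈ U) : ∃ a, tauU U a = t := by
  refine ⟨U.equivFin ⟨t, ht⟩, ?_⟩
  simp [tauU]

/-- The tokens in the labelled alphabet. -/
noncomputable def it₁ : TokR U ⊕ Fin U.card → Tok := Sum.elim Subtype.val (tauU U)

/-- The colours in the labelled alphabet. -/
def ic₁ : ColR κ → Col := Subtype.val

/-- The tokens in the coloured alphabet. -/
def it₂ : TokR U → Tok := Subtype.val

/-- The colours in the coloured alphabet. -/
def ic₂ : ColR κ ⊕ C → Col := Sum.elim Subtype.val κ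

lemma it₁_injective : Function.Injective (it₁ U) := by
  rintro (a | a) (b | b) h
  · simp only [it₁, Sum.elim_inl] at h
    rw [Subtype.ext h]
  · simp only [it₁, Sum.elim_inl, Sum.elim_inr] at h
    exact absurd (h ▸ tauU_mem U b) a.2
  · simp only [it₁, Sum.elim_inl, Sum.elim_inr] at h
    exact absurd (h ▸ tauU_mem U a) b.2
  · simp only [it₁, Sum.elim_inr] at h
    rw [tauU_injective U h]

lemma it₁_surjective : Function.Surjective (it₁ U) := by
  intro t
  by_cases ht : t ∈ U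
  · obtain ⟨a, rfl⟩ := tauU_surj U ht
    exact ⟨Sum.inr a, rfl⟩
  · exact ⟨Sum.inl ⟨t, ht⟩, rfl⟩

lemma ic₁_injective : Function.Injective (ic₁ κ) := Subtype.val_injective

lemma it₂_injective : Function.Injective (it₂ U) := Subtype.val_injective

lemma ic₂_injective (hκ : Function.Injective κ) : Function.Injective (ic₂ κ) :=
  (colE κ hκ).injective

lemma ic₂_surjective (hκ : Function.Injective κ) : Function.Surjective (ic₂ κ) :=
  (colE κ hκ).surjective

/-- Gluing the positions of the labels. -/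
noncomputable def glueU {κ' : Type*} (v : Tok → Option κ') (ℓ : Fin U.card → κ') : Tok → Option κ' :=
  fun t => if h : t ∈ U then some (ℓ (U.equivFin ⟨t, h⟩)) else v t

lemma glueU_comp {κ' : Type*} (v : Tok → Option κ') (ℓ : Fin U.card → κ') :
    glueU U v ℓ ∘ it₁ U = joinU (v ∘ it₂ U) ℓ := by
  funext x
  rcases x with a | a
  · have : a.1 ∉ U := a.2
    simp [glueU, it₁, joinU, it₂, this]
  · have h1 : tauU U a ∈ U := tauU_mem U a
    simp [glueU, it₁, joinU, h1, tauU]

variable {U κ}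

lemma sum_glueU_le {κ' : Type*} [Fintype κ'] [DecidableEq κ'] {T : Finset Tok} (hTU : Disjoint T U)
    (F : (Tok → Option κ') → ℝ) (hF : ∀ y, 0 ≤ F y) :
    ∑ v ∈ Dom κ' T, ∑ ℓ : Fin U.card → κ', F (glueU U v ℓ) ≤ ∑ y ∈ Dom κ' (T ∪ U), F y := by
  classical
  rw [← Finset.sum_product' (f := fun v ℓ => F (glueU U v ℓ))]
  have hinj : Set.InjOn (fun x : (Tok → Option κ') × (Fin U.card → κ') => glueU U x.1 x.2)
      (Dom κ' T ×ˢ (Finset.univ : Finset (Fin U.card → κ')) : Finset _) := by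
    rintro ⟨v, ℓ⟩ hx ⟨v₂, ℓ₂⟩ hy h
    have hv := (Finset.mem_product.1 (Finset.mem_coe.1 hx)).1
    have hv₂ := (Finset.mem_product.1 (Finset.mem_coe.1 hy)).1
    simp only at h
    have e1 : v = v₂ := by
      funext t
      by_cases ht : t ∈ U
      · have hnT : t ∉ T := fun h' => (Finset.disjoint_left.1 hTU h') ht
        have h1 : v t = none := by simpa using (mem_Dom.1 hv t).not.2 hnT
        have h2 : v₂ t = none := by simpa using (mem_Dom.1 hv₂ t).not.2 hnT
        rw [h1, h2]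
      · have := congrFun h t
        simpa [glueU, ht] using this
    have e2 : ℓ = ℓ₂ := by
      funext a
      have h1 := congrFun h (tauU U a)
      have h2 : tauU U a ∈ U := tauU_mem U a
      simpa [glueU, h2, tauU] using h1
    rw [e1, e2]
  rw [← Finset.sum_image (f := F) hinj]
  refine Finset.sum_le_sum_of_subset_of_nonneg ?_ (fun y _ _ => hF y)
  intro y hy
  obtain ⟨⟨v, ℓ⟩, hx, rfl⟩ := Finset.mem_image.1 hy
  have hv := (Finset.mem_product.1 hx).1
  refine mem_Dom.2 fun a => ?_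
  simp only [glueU]
  by_cases ha : a ∈ U
  · simp [ha]
  · have := mem_Dom.1 hv a
    simp [ha, this]

variable {ct : Tok ⊕ Col → (S → ℕ)} {s : S}

lemma sum_labels {M : Type*} [AddCommMonoid M] {Lab : Type*} [Fintype Lab] [DecidableEq Lab]
    {κ' Tok' Col' : Type*} [Fintype κ'] [DecidableEq κ'] {x : κ' → (Tok' ⊕ Lab) ⊕ Col'} (hx : HasAll x)
    (g : (Tok' ⊕ Lab) ⊕ Col' → M) (hg : ∀ l, (∀ a, l ≠ Sum.inl (Sum.inr a)) → g l = 0) :
    ∑ p, g (x p) = ∑ a : Lab, g (Sum.inl (Sum.inr a)) := by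
  classical
  choose ℓ hℓ hu using hx
  have hinj : Function.Injective ℓ := by
    intro a b h
    have h1 := hℓ a
    rw [h, hℓ b] at h1
    simpa using h1.symm
  have h1 : ∑ p ∈ Finset.univ.image ℓ, g (x p) = ∑ p, g (x p) := by
    refine Finset.sum_subset (Finset.subset_univ _) (fun p _ hp => ?_)
    refine hg _ fun a ha => hp ?_
    rw [Finset.mem_image]
    exact ⟨a, Finset.mem_univ _, (hu a p ha).symm⟩
  rw [← h1, Finset.sum_image (fun a _ b _ h => hinj h)]
  refine Finset.sum_congr rfl fun a _ => ?_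
  rw [hℓ a]

/-- The content of a label. -/
def lgS {Tok' Lab Col' : Type*} (s : S) : (Tok' ⊕ Lab) ⊕ Col' → (S → ℕ)
  | Sum.inl (Sum.inr _) => Pi.single s 1
  | _ => 0

/-- The content of a coloured word. -/
lemma cont_colz (hct1 : ∀ t, ct (Sum.inl t) = 0) (hct2 : ∀ d, ct (Sum.inr (κ d)) = Pi.single s 1)
    {D : ℕ} {x : B D → (TokR U ⊕ Fin U.card) ⊕ ColR κ} (hx : HasAll x) (γ : Fin U.card → C) :
    cont (ct ∘ iotaL (it₂ U) (ic₂ κ)) (fun p => colz γ (x p)) =
      cont (ct ∘ iotaL (it₁ U) (ic₁ κ)) x + U.card • Pi.single s 1 := by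
  classical
  unfold cont
  have h1 : ∀ l : (TokR U ⊕ Fin U.card) ⊕ ColR κ,
      (ct ∘ iotaL (it₂ U) (ic₂ κ)) (colz γ l) = (ct ∘ iotaL (it₁ U) (ic₁ κ)) l + lgS s l := by
    rintro ((t | a) | c)
    · simp [colz, iotaL, it₂, it₁, hct1, lgS]
    · simp [colz, iotaL, ic₂, it₁, hct1, hct2, lgS]
    · simp [colz, iotaL, ic₂, ic₁, lgS]
  simp_rw [h1]
  rw [Finset.sum_add_distrib]
  congr 1
  rw [sum_labels hx (lgS s)]
  · simp [lgS]
  · rintro ((t | a) | c) h
    · rfl
    · exact absurd rfl (h a)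
    · rfl

/-- A coloured word with `i` letters of the class has labels. -/
lemma isI_of_count {D : ℕ} (w : B D → TokR U ⊕ (ColR κ ⊕ C))
    (h : (Finset.univ.filter (fun p => ∃ d, w p = Sum.inr (Sum.inr d))).card = U.card) :
    IsI (Lab := Fin U.card) w := by
  classical
  have hcard : Fintype.card {p // ∃ d, w p = Sum.inr (Sum.inr d)} = U.card := by
    rw [Fintype.card_subtype]
    exact h
  let e : Fin U.card ≃ {p // ∃ d, w p = Sum.inr (Sum.inr d)} := (Fintype.equivFinOfCardEq hcard).symm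
  have hγ : ∀ a : Fin U.card, ∃ d, w (e a).1 = Sum.inr (Sum.inr d) := fun a => (e a).2
  choose γ hγ using hγ
  have hx : ∀ p, ∃ l : (TokR U ⊕ Fin U.card) ⊕ ColR κ, colz γ l = w p ∧
      ∀ a : Fin U.card, l = Sum.inl (Sum.inr a) ↔ (e a).1 = p := by
    intro p
    rcases hw : w p with t | c | d
    · refine ⟨Sum.inl (Sum.inl t), rfl, fun a => ?_⟩
      simp only [Sum.inl.injEq, reduceCtorEq, false_iff]
      intro he
      have := hγ a
      rw [he, hw] at this
      simp at this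
    · refine ⟨Sum.inr c, rfl, fun a => ?_⟩
      simp only [reduceCtorEq, false_iff]
      intro he
      have := hγ a
      rw [he, hw] at this
      simp at this
    · let a₀ := e.symm ⟨p, d, hw⟩
      have ha₀ : (e a₀).1 = p := by simp [a₀]
      refine ⟨Sum.inl (Sum.inr a₀), ?_, fun a => ?_⟩
      · have := hγ a₀
        rw [ha₀, hw] at this
        simp only [colz]
        rw [← Sum.inr.inj (Sum.inr.inj this)]
      · simp only [Sum.inl.injEq, Sum.inr.injEq]
        constructor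
        · rintro rfl
          exact ha₀
        · intro he
          apply e.injective
          apply Subtype.ext
          rw [he, ha₀]
  choose x hx1 hx2 using hx
  refine ⟨x, γ, ?_, funext hx1⟩
  intro a
  refine ⟨(e a).1, (hx2 _ a).2 rfl, fun q hq => ((hx2 q a).1 hq).symm⟩

/-- The coordinate of the content counts the letters of the class. -/
lemma isI_of_cont (hct1 : ∀ t, ct (Sum.inl t) = 0) (hct2 : ∀ d, ct (Sum.inr (κ d)) = Pi.single s 1)
    (hct3 : ∀ c, (¬ ∃ d, κ d = c) → ct (Sum.inr c) s = 0) {α : S → ℕ} (hα : α s = 0) {D : ℕ}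
    (w : B D → TokR U ⊕ (ColR κ ⊕ C))
    (h : cont (ct ∘ iotaL (it₂ U) (ic₂ κ)) w = α + U.card • Pi.single s 1) :
    IsI (Lab := Fin U.card) w := by
  classical
  apply isI_of_count
  have h1 := congrFun h s
  simp only [cont, Finset.sum_apply, Pi.add_apply, Pi.smul_apply, hα, Pi.single_eq_same, smul_eq_mul,
    mul_one, zero_add] at h1
  rw [← h1, Finset.card_filter]
  refine Finset.sum_congr rfl fun p _ => ?_
  rcases hw : w p with t | c | d
  · simp [iotaL, hct1, it₂]
  · simp [iotaL, ic₂, hct3 _ c.2]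
  · simp [iotaL, ic₂, hct2]

/-- **The conversion of the tokens `U` into the colours of a class**. -/
theorem conv_MM_le {od : Tok ⊕ Col → Bool} (F : Fam od) (hκ : Function.Injective κ)
    (hodκ : ∀ d d', od (Sum.inr (κ d)) = od (Sum.inr (κ d'))) (G : CFam C) {D : ℕ} (T : Finset Tok)
    (hTU : Disjoint T U) (hodU : ∀ t ∈ U, ∀ d, od (Sum.inl t) = od (Sum.inr (κ d)))
    (hF : ∀ i d c, (¬ ∃ d', κ d' = c) → F.A i (κ d) c = 0)
    (hct1 : ∀ t, ct (Sum.inl t) = 0) (hct2 : ∀ d, ct (Sum.inr (κ d)) = Pi.single s 1)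
    (hct3 : ∀ c, (¬ ∃ d, κ d = c) → ct (Sum.inr c) s = 0) {α : S → ℕ} (hα : α s = 0) {b : ℝ}
    (hb : 0 ≤ b)
    (hH1 : ∀ φ : Equiv.Perm (Fin U.card) → ℂ,
      hs (mixY (Fin U.card) G.w G.E) (∑ π, φ π • rhoG C π) ≤
        ((U.card.factorial : ℝ) * b) * ∑ π, ‖φ π‖ ^ 2) :
    MM ((F.act κ hκ hodκ G).Y D) (Zs od D) ct T (α + U.card • Pi.single s 1) ≤
      b * MM (F.Y D) (Zs od D) ct (T ∪ U) α := by
  classical
  set i := U.card with hi
  set z := passZ D with hz
  set od₁ := od ∘ iotaL (it₁ U) (ic₁ κ) with hod₁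
  set od₂ := od ∘ iotaL (it₂ U) (ic₂ κ) with hod₂
  set f₁ := ct ∘ iotaL (it₁ U) (ic₁ κ) with hf₁
  set f₂ := ct ∘ iotaL (it₂ U) (ic₂ κ) with hf₂
  set α₂ := α + i • (Pi.single s 1 : S → ℕ) with hα₂
  have hod : ∀ (γ : Fin i → C) l, od₂ (colz γ l) = od₁ l := by
    rintro γ ((t | a) | c)
    · rfl
    · exact (hodU _ (tauU_mem U a) _).symm
    · rfl
  -- the mixtures in the small alphabets
  set Y₁ := mixY (B D) F.w (fun j => a1 (Tok := TokR U) (Lab := Fin i) (resC κ (F.A j))) with hY₁def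
  set Ys := mixY (Fin i) G.w G.E with hYsdef
  set Y₂ := mixY (B D) (fun q : F.I × G.J => F.w q.1 * G.w q.2)
    (fun q => a2 (Tok := TokR U) (resC κ (F.A q.1)) (G.E q.2)) with hY₂def
  have hres : ∀ j, (resC κ (F.A j)).PosDef := fun j => (F.A_pd j).submatrix Subtype.val_injective
  have hY₁ : Y₁.PosDef := posDef_sum_smul F.w F.w_pos _
    (fun j => tp_posDef (fun _ => extC_posDef (hres j)))
  have hYs : Ys.PosDef := posDef_sum_smul G.w G.w_pos _ (fun j => tp_posDef (fun _ => G.E_pd j))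
  have hY₂ : Y₂.PosDef := posDef_sum_smul (fun q : F.I × G.J => F.w q.1 * G.w q.2)
    (fun q => mul_pos (F.w_pos _) (G.w_pos _)) _
    (fun q => tp_posDef (fun _ => extC_posDef (fromBlocks_diag_posDef (hres _) (G.E_pd _))))
  have hdY₁ : IsUnit Y₁.det := (Matrix.isUnit_iff_isUnit_det _).mp hY₁.isUnit
  have hdY₂ : IsUnit Y₂.det := (Matrix.isUnit_iff_isUnit_det _).mp hY₂.isUnit
  have hdF : IsUnit (F.Y D).det := (Matrix.isUnit_iff_isUnit_det _).mp (F.Y_posDef D).isUnit
  have hdF' : IsUnit ((F.act κ hκ hodκ G).Y D).det :=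
    (Matrix.isUnit_iff_isUnit_det _).mp ((F.act κ hκ hodκ G).Y_posDef D).isUnit
  -- the intertwinings
  have hJ₁ : F.Y D * iotaJ (B D) (it₁ U) (ic₁ κ) = iotaJ (B D) (it₁ U) (ic₁ κ) * Y₁ := by
    refine mix_iotaJ F.w _ _ (fun j l l' => extC_iota (it₁_injective U) (fun c c' => rfl) l l')
      (fun j m l hm => ?_) (it₁_injective U) (ic₁_injective κ)
    rcases m with t | c
    · obtain ⟨x, rfl⟩ := it₁_surjective U t
      exact absurd ⟨Sum.inl x, rfl⟩ hm
    · by_cases hc : ∃ d, κ d = c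
      · obtain ⟨d, rfl⟩ := hc
        rcases l with x | c₀
        · simp [iotaL, extC]
        · simpa [iotaL, extC, ic₁] using hF j d c₀.1 c₀.2
      · exact absurd ⟨Sum.inr ⟨c, hc⟩, rfl⟩ hm
  have hJ₂ : (F.act κ hκ hodκ G).Y D * iotaJ (B D) (it₂ U) (ic₂ κ) =
      iotaJ (B D) (it₂ U) (ic₂ κ) * Y₂ := by
    refine mix_iotaJ (fun q : F.I × G.J => F.w q.1 * G.w q.2) _ _
      (fun q l l' => extC_iota (it₂_injective U) (fun c c' => repC_apply κ hκ _ _ c c') l l')
      (fun q m l hm => ?_) (it₂_injective U) (ic₂_injective κ hκ)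
    rcases m with t | c
    · have ht : t ∈ U := by
        by_contra ht
        exact hm ⟨Sum.inl ⟨t, ht⟩, rfl⟩
      rcases l with x | c₀
      · have hne : t ≠ x.1 := fun e => x.2 (e ▸ ht)
        simp [iotaL, extC, it₂, hne]
      · simp [iotaL, extC]
    · obtain ⟨y, rfl⟩ := ic₂_surjective κ hκ c
      exact absurd ⟨Sum.inr y, rfl⟩ hm
  -- the conversion in the small alphabets
  have hf₁' : ∀ (π : Equiv.Perm (Fin i)) l, f₁ (relb π l) = f₁ l := by
    rintro π ((t | a) | c)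
    · rfl
    · simp [hf₁, iotaL, it₁, hct1]
    · rfl
  have hf : ∀ (x' : B D → (TokR U ⊕ Fin i) ⊕ ColR κ) (γ' : Fin i → C), HasAll x' →
      (cont f₂ (fun p => colz γ' (x' p)) = α₂ ↔ cont f₁ x' = α) := by
    intro x' γ' hx'
    rw [hf₂, hf₁, cont_colz hct1 hct2 hx' γ', hα₂, add_left_inj]
  have hI : ∀ w : B D → TokR U ⊕ (ColR κ ⊕ C), cont f₂ w = α₂ → IsI (Lab := Fin i) w :=
    fun w h => isI_of_cont hct1 hct2 hct3 hα w h
  have hconv := fun u u' => conv_zq_le (D := D) (Tok := TokR U) (Col := ColR κ) (C := C) (Lab := Fin i)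
    od₁ od₂ hod F.w G.w (fun j => resC κ (F.A j)) G.E hY₁ hYs hY₂ z hH1 f₁ f₂ α α₂ hf hI hf₁' u u'
  -- the small alphabets in the big one
  have hbig₂ : ∀ v ∈ Dom (B D) T, ∀ v' ∈ Dom (B D) T,
      zq ((F.act κ hκ hodκ G).Y D) (Zs od D) ct v v' α₂ =
        zq Y₂ (rhoAS od₂ D z) f₂ (v ∘ it₂ U) (v' ∘ it₂ U) α₂ := by
    intro v hv v' hv'
    rw [Zs_eq_rhoAS]
    have hnone : ∀ y ∈ Dom (B D) T, ∀ a, (¬ ∃ a₀, it₂ U a₀ = a) → y a = none := by
      intro y hy a ha
      have haU : a ∈ U := by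
        by_contra h
        exact ha ⟨⟨a, h⟩, rfl⟩
      have hnT : a ∉ T := fun h' => (Finset.disjoint_left.1 hTU h') haU
      simpa using (mem_Dom.1 hy a).not.2 hnT
    refine zq_embed od (it₂_injective U) (ic₂_injective κ hκ) hdF' hdY₂ hJ₂ z ct v v' α₂
      (hnone v hv) (hnone v' hv') ?_
    intro w hw _
    have hp : ∀ p, ∃ l, iotaL (it₂ U) (ic₂ κ) l = w p := by
      intro p
      rcases hwp : w p with t | c
      · have h1 := (hw t p).1 hwp
        have hT : t ∈ T := (mem_Dom.1 hv' t).1 (by simp [h1])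
        exact ⟨Sum.inl ⟨t, fun h' => (Finset.disjoint_left.1 hTU hT) h'⟩, rfl⟩
      · obtain ⟨y, rfl⟩ := ic₂_surjective κ hκ c
        exact ⟨Sum.inr y, rfl⟩
    choose w₀ hw₀ using hp
    exact ⟨w₀, funext hw₀⟩
  have hbig₁ : ∀ y y' : Tok → Option (B D), zq (F.Y D) (Zs od D) ct y y' α =
      zq Y₁ (rhoAS od₁ D z) f₁ (y ∘ it₁ U) (y' ∘ it₁ U) α := by
    intro y y'
    rw [Zs_eq_rhoAS]
    refine zq_embed od (it₁_injective U) (ic₁_injective κ) hdF hdY₁ hJ₁ z ct y y' α
      (fun a ha => absurd (it₁_surjective U a) ha) (fun a ha => absurd (it₁_surjective U a) ha) ?_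
    intro w _ hw
    have hp : ∀ p, ∃ l, iotaL (it₁ U) (ic₁ κ) l = w p := by
      intro p
      rcases hwp : w p with t | c
      · obtain ⟨x, rfl⟩ := it₁_surjective U t
        exact ⟨Sum.inl x, rfl⟩
      · by_cases hc : ∃ d, κ d = c
        · exfalso
          obtain ⟨d, rfl⟩ := hc
          have h1 := congrFun hw s
          rw [hα] at h1
          simp only [cont, Finset.sum_apply] at h1
          have h2 := (Finset.sum_eq_zero_iff.1 h1) p (Finset.mem_univ _)
          rw [hwp, hct2] at h2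
          simp at h2
        · exact ⟨Sum.inr ⟨c, hc⟩, rfl⟩
    choose w₀ hw₀ using hp
    exact ⟨w₀, funext hw₀⟩
  -- summing
  set c : ℝ := (Fintype.card (Equiv.Perm (Fin i)) : ℝ) with hc
  have hc0 : 0 < c := by
    rw [hc]
    exact_mod_cast Fintype.card_pos
  have hcf : (i.factorial : ℝ) = c := by
    rw [hc, Fintype.card_perm, Fintype.card_fin]
  set Q : (Tok → Option (B D)) → (Tok → Option (B D)) → ℝ :=
    fun y y' => zq (F.Y D) (Zs od D) ct y y' α with hQ
  have hQ0 : ∀ y y', 0 ≤ Q y y' := fun y y' => zq_nonneg (F.Y_posDef D) _ _ _ _ _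
  have hterm : ∀ v ∈ Dom (B D) T, ∀ v' ∈ Dom (B D) T,
      c * zq ((F.act κ hκ hodκ G).Y D) (Zs od D) ct v v' α₂ ≤
        (c * b) * ∑ ℓ : Fin i → B D, ∑ ℓ' : Fin i → B D, Q (glueU U v ℓ) (glueU U v' ℓ') := by
    intro v hv v' hv'
    rw [hbig₂ v hv v' hv']
    have e : ∑ ℓ : Fin i → B D, ∑ ℓ' : Fin i → B D, zq Y₁ (rhoAS od₁ D z) f₁
        (joinU (v ∘ it₂ U) ℓ) (joinU (v' ∘ it₂ U) ℓ') α =
        ∑ ℓ : Fin i → B D, ∑ ℓ' : Fin i → B D, Q (glueU U v ℓ) (glueU U v' ℓ') := by
      refine Finset.sum_congr rfl fun ℓ _ => Finset.sum_congr rfl fun ℓ' _ => ?_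
      simp only [hQ]
      rw [hbig₁, glueU_comp, glueU_comp]
    rw [← e]
    have h9 := hconv (v ∘ it₂ U) (v' ∘ it₂ U)
    rw [hcf] at h9
    exact h9
  have hsum : ∑ v ∈ Dom (B D) T, ∑ v' ∈ Dom (B D) T, ∑ ℓ : Fin i → B D, ∑ ℓ' : Fin i → B D,
      Q (glueU U v ℓ) (glueU U v' ℓ') ≤ MM (F.Y D) (Zs od D) ct (T ∪ U) α := by
    have e1 : ∀ v ∈ Dom (B D) T, ∑ v' ∈ Dom (B D) T, ∑ ℓ : Fin i → B D, ∑ ℓ' : Fin i → B D,
        Q (glueU U v ℓ) (glueU U v' ℓ') = ∑ ℓ : Fin i → B D, ∑ v' ∈ Dom (B D) T, ∑ ℓ' : Fin i → B D,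
          Q (glueU U v ℓ) (glueU U v' ℓ') := by
      intro v _
      exact Finset.sum_comm
    rw [Finset.sum_congr rfl e1]
    set R : (Tok → Option (B D)) → ℝ := fun y => ∑ y' ∈ Dom (B D) (T ∪ U), Q y y' with hR
    have e2 : ∀ y, ∑ v' ∈ Dom (B D) T, ∑ ℓ' : Fin i → B D, Q y (glueU U v' ℓ') ≤ R y :=
      fun y => sum_glueU_le hTU (Q y) (hQ0 y)
    calc _ ≤ ∑ v ∈ Dom (B D) T, ∑ ℓ : Fin i → B D, R (glueU U v ℓ) :=
          Finset.sum_le_sum fun v _ => Finset.sum_le_sum fun ℓ _ => e2 _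
      _ ≤ ∑ y ∈ Dom (B D) (T ∪ U), R y :=
          sum_glueU_le hTU R (fun y => Finset.sum_nonneg fun y' _ => hQ0 y y')
      _ = _ := rfl
  have hfinal : c * MM ((F.act κ hκ hodκ G).Y D) (Zs od D) ct T α₂ ≤
      c * (b * MM (F.Y D) (Zs od D) ct (T ∪ U) α) := by
    calc c * MM ((F.act κ hκ hodκ G).Y D) (Zs od D) ct T α₂
        = ∑ v ∈ Dom (B D) T, ∑ v' ∈ Dom (B D) T,
            c * zq ((F.act κ hκ hodκ G).Y D) (Zs od D) ct v v' α₂ := by
          unfold MM MMz
          simp only [Finset.mul_sum]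
      _ ≤ ∑ v ∈ Dom (B D) T, ∑ v' ∈ Dom (B D) T,
            (c * b) * ∑ ℓ : Fin i → B D, ∑ ℓ' : Fin i → B D, Q (glueU U v ℓ) (glueU U v' ℓ') :=
          Finset.sum_le_sum fun v hv => Finset.sum_le_sum fun v' hv' => hterm v hv v' hv'
      _ = (c * b) * ∑ v ∈ Dom (B D) T, ∑ v' ∈ Dom (B D) T, ∑ ℓ : Fin i → B D, ∑ ℓ' : Fin i → B D,
            Q (glueU U v ℓ) (glueU U v' ℓ') := by
          simp only [Finset.mul_sum]
      _ ≤ (c * b) * MM (F.Y D) (Zs od D) ct (T ∪ U) α :=
          mul_le_mul_of_nonneg_left hsum (mul_nonneg hc0.le hb)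
      _ = _ := by ring
  exact le_of_mul_le_mul_left hfinal hc0

end Conv

end Crest.Agent.S0222Lib.SWord
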