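import Crest.Agent.S0222Lib.JFinal
import Crest.Agent.S0222Lib.JConvE

/-!
# S0222: Theorem J, the base of the chain

* `Fam.triv`: the trivial family;
* `GFB_base`: the generating function at `D = 0` for the trivial family.
-/

set_option autoImplicit false
set_option linter.unusedSectionVars false
set_option linter.unusedSimpArgs false

namespace Crest.Agent.S0222Lib.SWord

open Matrix MonoidAlgebra
open scoped ComplexOrder Kronecker
open Crest.Agent.S0222Lib.Planch Crest.Agent.S0222Lib.WordRep Crest.Agent.S0222Lib.JCore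
open Crest.Agent.S0222Lib.Site Crest.Agent.S0222Lib.JFin

section Triv

variable {Tok Col S : Type} [Fintype Tok] [DecidableEq Tok] [Fintype Col] [DecidableEq Col]
  [Fintype S] [DecidableEq S]

/-- The trivial family. -/
noncomputable def Fam.triv (od : Tok ⊕ Col → Bool) : Fam od where
  I := Unit
  w := fun _ => 1
  w_pos := fun _ => one_pos
  A := fun _ => 1
  A_pd := fun _ => Matrix.PosDef.one
  A_even := fun _ c c' h => by
    have : c = c' := by
      by_contra hne
      exact h (by simp [Matrix.one_apply, hne])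
    rw [this]

lemma Fam.triv_Y (od : Tok ⊕ Col → Bool) (D : ℕ) : (Fam.triv od).Y D = 1 := by
  classical
  change mixY (B D) (fun _ : Unit => (1 : ℝ)) (fun _ => extC (Tok := Tok) (1 : Matrix Col Col ℂ)) = 1
  unfold mixY
  rw [Fintype.sum_unique]
  have h1 : (extC (Tok := Tok) (1 : Matrix Col Col ℂ)) = 1 := by
    simp [extC]
  rw [h1]
  simp only [Complex.ofReal_one, one_smul]
  ext w w'
  rw [tp_apply, Matrix.one_apply]
  by_cases h : w = w'
  · subst h
    simp
  · rw [if_neg h]
    obtain ⟨p, hp⟩ := Function.ne_iff.1 h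
    refine Finset.prod_eq_zero (Finset.mem_univ p) ?_
    rw [Matrix.one_apply, if_neg hp]

variable {od : Tok ⊕ Col → Bool}

open Classical in
/-- The block sum for the trivial family at `D = 0`. -/
lemma zq_triv_zero (ct : Tok ⊕ Col → (S → ℕ)) (u u' : Tok → Option (B 0)) (α : S → ℕ) :
    zq ((Fam.triv od).Y 0) (Zs od 0) ct u u' α =
      ∑ w₃, if inB u' w₃ ∧ cont ct w₃ = α then (if inB u w₃ then 1 else 0) else 0 := by
  rw [zq_eq_sum, Fam.triv_Y, Zs_zero]
  refine Finset.sum_congr rfl fun w₃ _ => ?_
  by_cases h : inB u' w₃ ∧ cont ct w₃ = α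
  · rw [if_pos h, if_pos h]
    unfold qf
    rw [inv_one, Matrix.one_mulVec, dot_star_self]
    simp only [Complex.ofReal_re]
    unfold nsq
    rw [Finset.sum_eq_single w₃]
    · by_cases hu : inB u w₃ <;> simp [hu]
    · intro b _ hb
      by_cases hu : inB u b <;> simp [hu, Matrix.one_apply, hb]
    · simp
  · rw [if_neg h, if_neg h]

/-- **The base of the chain**. -/
theorem GFB_base {ct : Tok ⊕ Col → (S → ℕ)} (hct1 : ∀ t, ct (Sum.inl t) = 0) {vac : Col}
    (hvac : ∀ c, ct (Sum.inr c) = 0 → c = vac) (τ : S → ℝ) :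
    GFB ct (Fam.triv od) 0 τ ∅ Finset.univ 1 := by
  classical
  intro T _
  have hCnt : Cnt 0 (∅ : Finset S) = {0} := by
    ext α
    rw [mem_Cnt, Finset.mem_singleton]
    constructor
    · rintro ⟨-, h⟩
      funext s
      exact h s (by simp)
    · rintro rfl
      simp
  unfold GF
  rw [hCnt, Finset.sum_singleton]
  have hwt : wt τ (0 : S → ℕ) = 1 := by
    simp [wt]
  rw [hwt, one_mul, one_mul]
  have hp : ∀ p : B 0, p = default := fun p => Subsingleton.elim _ _
  -- the unique placement
  set u₀ : Tok → Option (B 0) := fun t => if t ∈ T then some default else none with hu₀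
  have hDom : Dom (B 0) T = {u₀} := by
    ext u
    rw [mem_Dom, Finset.mem_singleton]
    constructor
    · intro h
      funext t
      by_cases ht : t ∈ T
      · obtain ⟨q, hq⟩ := Option.isSome_iff_exists.1 ((h t).2 ht)
        rw [hq, hp q]
        simp [hu₀, ht]
      · have h1 : u t = none := by simpa using (h t).not.2 ht
        rw [h1]
        simp [hu₀, ht]
    · rintro rfl t
      by_cases ht : t ∈ T <;> simp [hu₀, ht]
  unfold MM MMz
  rw [hDom, Finset.sum_singleton, Finset.sum_singleton]
  change zq ((Fam.triv od).Y 0) (Zs od 0) ct u₀ u₀ 0 ≤ Mt 0 T.card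
  rw [zq_triv_zero]
  -- the words of the block
  have hcont : ∀ w : B 0 → Tok ⊕ Col, cont ct w = ct (w default) := by
    intro w
    unfold cont
    rw [Fintype.sum_unique]
    rw [hp (default : B 0)]
    rw [show (@default (B 0) Unique.instInhabited) = @default (B 0) Pi.instInhabited from
      Subsingleton.elim _ _]
  have hsum : (∑ w₃ : B 0 → Tok ⊕ Col, if inB u₀ w₃ ∧ cont ct w₃ = 0 then
      (if inB u₀ w₃ then (1 : ℝ) else 0) else 0) =
      ((Finset.univ.filter fun w₃ : B 0 → Tok ⊕ Col => inB u₀ w₃ ∧ cont ct w₃ = 0).card : ℝ) := by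
    rw [Finset.card_filter]
    push_cast
    refine Finset.sum_congr rfl fun w₃ _ => ?_
    by_cases h : inB u₀ w₃ ∧ cont ct w₃ = 0
    · rw [if_pos h, if_pos h.1, if_pos h]
    · rw [if_neg h, if_neg h]
  rw [hsum]
  -- the letter of the word in the block
  have hletter : ∀ w : B 0 → Tok ⊕ Col, inB u₀ w → ∀ a, a ∈ T → w default = Sum.inl a := by
    intro w hw a ha
    exact (hw a default).2 (by simp [hu₀, ha])
  have hcol : ∀ w : B 0 → Tok ⊕ Col, inB u₀ w → cont ct w = 0 → T = ∅ → w default = Sum.inr vac := by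
    intro w hw hc hT
    rw [hcont] at hc
    rcases hwd : w default with t | c
    · have := (hw t default).1 hwd
      simp [hu₀, hT] at this
    · rw [hwd] at hc
      rw [hvac c hc]
  have hfun : ∀ w w' : B 0 → Tok ⊕ Col, w default = w' default → w = w' := by
    intro w w' h
    funext p
    rw [hp p, h]
  rcases Nat.lt_or_ge T.card 2 with hT2 | hT2
  · -- at most one word
    have hcard : (Finset.univ.filter fun w₃ : B 0 → Tok ⊕ Col => inB u₀ w₃ ∧ cont ct w₃ = 0).card ≤ 1 := by
      rw [Finset.card_le_one]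
      intro w hw w' hw'
      have hw1 := (Finset.mem_filter.1 hw).2
      have hw2 := (Finset.mem_filter.1 hw').2
      apply hfun
      by_cases hT : T = ∅
      · rw [hcol w hw1.1 hw1.2 hT, hcol w' hw2.1 hw2.2 hT]
      · obtain ⟨a, ha⟩ := Finset.nonempty_iff_ne_empty.2 hT
        rw [hletter w hw1.1 a ha, hletter w' hw2.1 a ha]
    have hMt : Mt 0 T.card = 1 := by
      interval_cases hc : T.card
      · exact Mt_zero 0
      · exact Mt_base
    rw [hMt]
    exact_mod_cast hcard
  · -- no words
    have hcard : (Finset.univ.filter fun w₃ : B 0 → Tok ⊕ Col => inB u₀ w₃ ∧ cont ct w₃ = 0) = ∅ := by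
      apply Finset.filter_eq_empty_iff.2
      rintro w - ⟨hw, -⟩
      obtain ⟨a, ha, b, hb, hab⟩ := Finset.one_lt_card.1 (show 1 < T.card by omega)
      have h1 := hletter w hw a ha
      have h2 := hletter w hw b hb
      rw [h1] at h2
      exact hab (Sum.inl.inj h2)
    rw [hcard]
    simpa using Mt_nonneg 0 T.card

end Triv

end Crest.Agent.S0222Lib.SWord
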