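import Crest.Agent.S0222Lib.JCore

/-!
# S0222: the block recursion of Theorem J, part 1: doubling and local site computations

Words `κ → ι`, pair words `κ → ι × ι`.
* `dbl A B`: the operator `A ⊗ B` on pair words;
* `TokId m`: `m` acts as the identity on token letters and preserves the colour letters;
* `locOK ℓ t p x`, `piLoc ℓ t p`: the local block at the pair `p`: tokens with low position `p`
  are at the halves prescribed by `t`, other letters are colours.
-/

set_option autoImplicit false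

namespace Crest.Agent.S0222Lib.JCore

open Matrix
open scoped Kronecker ComplexOrder
open Crest.Agent.S0222Lib.Site

section Dbl

variable {κ ι : Type*} [Fintype κ] [DecidableEq κ] [Fintype ι] [DecidableEq ι]

/-- The two halves of a pair word. -/
def splitW : (κ → ι × ι) ≃ (κ → ι) × (κ → ι) where
  toFun v := (fun p => (v p).1, fun p => (v p).2)
  invFun w := fun p => (w.1 p, w.2 p)
  left_inv _ := rfl
  right_inv _ := rfl

/-- The operator `A ⊗ B` on pair words. -/
def dbl (A B : Matrix (κ → ι) (κ → ι) ℂ) : Matrix (κ → ι × ι) (κ → ι × ι) ℂ :=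
  (A ⊗ₖ B).submatrix splitW splitW

@[simp] lemma dbl_apply (A B : Matrix (κ → ι) (κ → ι) ℂ) (v v' : κ → ι × ι) :
    dbl A B v v' = A (fun p => (v p).1) (fun p => (v' p).1) *
      B (fun p => (v p).2) (fun p => (v' p).2) := rfl

lemma dbl_mul (A B A' B' : Matrix (κ → ι) (κ → ι) ℂ) :
    dbl A B * dbl A' B' = dbl (A * A') (B * B') := by
  unfold dbl
  rw [Matrix.submatrix_mul_equiv, mul_kronecker_mul]

lemma dbl_one : dbl (1 : Matrix (κ → ι) (κ → ι) ℂ) 1 = 1 := by
  unfold dbl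
  rw [one_kronecker_one, Matrix.submatrix_one_equiv]

lemma dbl_conjTranspose (A B : Matrix (κ → ι) (κ → ι) ℂ) :
    (dbl A B)ᴴ = dbl Aᴴ Bᴴ := by
  unfold dbl
  rw [Matrix.conjTranspose_submatrix, conjTranspose_kronecker]

lemma dbl_inv (A B : Matrix (κ → ι) (κ → ι) ℂ) (hA : IsUnit A.det) (hB : IsUnit B.det) :
    (dbl A B)⁻¹ = dbl A⁻¹ B⁻¹ := by
  unfold dbl
  rw [Matrix.inv_submatrix_equiv]
  congr 1
  haveI : Invertible A := Matrix.invertibleOfIsUnitDet A hA
  haveI : Invertible B := Matrix.invertibleOfIsUnitDet B hB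
  rw [Matrix.inv_kronecker]

lemma dbl_posDef {A B : Matrix (κ → ι) (κ → ι) ℂ} (hA : A.PosDef) (hB : B.PosDef) :
    (dbl A B).PosDef := by
  unfold dbl
  exact (hA.kronecker hB).submatrix splitW.injective

lemma dbl_posSemidef {A B : Matrix (κ → ι) (κ → ι) ℂ} (hA : A.PosSemidef) (hB : B.PosSemidef) :
    (dbl A B).PosSemidef := by
  unfold dbl
  exact (hA.kronecker hB).submatrix splitW

lemma dbl_trace (A B : Matrix (κ → ι) (κ → ι) ℂ) :
    (dbl A B).trace = A.trace * B.trace := by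
  unfold dbl
  rw [← Matrix.trace_kronecker]
  simp only [Matrix.trace, Matrix.diag_apply, Matrix.submatrix_apply]
  exact Equiv.sum_comp splitW (fun i => (A ⊗ₖ B) i i)

lemma dbl_tp (a b : κ → Matrix ι ι ℂ) :
    dbl (tp a) (tp b) = tp (fun p => a p ⊗ₖ b p) := by
  ext v v'
  simp only [dbl_apply, tp_apply, Matrix.kroneckerMap_apply]
  rw [Finset.prod_mul_distrib]

lemma dbl_add_left (A A' B : Matrix (κ → ι) (κ → ι) ℂ) :
    dbl (A + A') B = dbl A B + dbl A' B := by
  ext v v'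
  simp only [dbl_apply, Matrix.add_apply]
  ring

lemma dbl_add_right (A B B' : Matrix (κ → ι) (κ → ι) ℂ) :
    dbl A (B + B') = dbl A B + dbl A B' := by
  ext v v'
  simp only [dbl_apply, Matrix.add_apply]
  ring

lemma dbl_sum_sum {I J : Type*} [Fintype I] [Fintype J] (A : I → Matrix (κ → ι) (κ → ι) ℂ)
    (B : J → Matrix (κ → ι) (κ → ι) ℂ) :
    dbl (∑ i, A i) (∑ j, B j) = ∑ i, ∑ j, dbl (A i) (B j) := by
  classical
  ext v v'
  simp only [dbl_apply, Matrix.sum_apply, Finset.sum_mul, Finset.mul_sum]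
  rw [Finset.sum_comm]

lemma dbl_smul_smul (x y : ℂ) (A B : Matrix (κ → ι) (κ → ι) ℂ) :
    dbl (x • A) (y • B) = (x * y) • dbl A B := by
  ext v v'
  simp only [dbl_apply, Matrix.smul_apply, smul_eq_mul]
  ring

end Dbl

section TpExtra

variable {κ ι : Type*} [Fintype κ] [DecidableEq κ] [Fintype ι] [DecidableEq ι]

lemma tp_smul_sites (d : κ → ℂ) (X : κ → Matrix ι ι ℂ) :
    tp (fun p => d p • X p) = (∏ p, d p) • tp X := by
  ext w w'
  simp only [tp_apply, Matrix.smul_apply, smul_eq_mul, Finset.prod_mul_distrib]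

lemma tp_diagonal (d : κ → ι → ℂ) :
    tp (fun p => Matrix.diagonal (d p)) = Matrix.diagonal (fun w : κ → ι => ∏ p, d p (w p)) := by
  ext w w'
  simp only [tp_apply]
  by_cases h : w = w'
  · subst h
    simp
  · rw [Matrix.diagonal_apply_ne _ h]
    obtain ⟨k, hk⟩ := Function.ne_iff.mp h
    apply Finset.prod_eq_zero (Finset.mem_univ k)
    rw [Matrix.diagonal_apply_ne _ hk]

end TpExtra

set_option linter.unusedSectionVars false

section Local

variable {κ Tok Col : Type*} [Fintype κ] [DecidableEq κ] [Fintype Tok] [DecidableEq Tok]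
  [Fintype Col] [DecidableEq Col]

/-- `m` is the identity on the token letters and preserves the colour letters. -/
structure TokId (m : Matrix (Tok ⊕ Col) (Tok ⊕ Col) ℂ) : Prop where
  tt : ∀ a b, m (Sum.inl a) (Sum.inl b) = if a = b then 1 else 0
  tc : ∀ a c, m (Sum.inl a) (Sum.inr c) = 0
  ct : ∀ a c, m (Sum.inr c) (Sum.inl a) = 0

/-- The extension of a colour operator by the identity on tokens. -/
def extC (A : Matrix Col Col ℂ) : Matrix (Tok ⊕ Col) (Tok ⊕ Col) ℂ :=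
  Matrix.fromBlocks 1 0 0 A

lemma tokId_extC (A : Matrix Col Col ℂ) : TokId (extC (Tok := Tok) A) where
  tt a b := by simp [extC, Matrix.one_apply]
  tc a c := by simp [extC]
  ct a c := by simp [extC]

lemma extC_mul (A B : Matrix Col Col ℂ) :
    extC (Tok := Tok) A * extC B = extC (A * B) := by
  simp [extC, Matrix.fromBlocks_multiply]

lemma extC_posDef {A : Matrix Col Col ℂ} (hA : A.PosDef) : (extC (Tok := Tok) A).PosDef := by
  have hps : (extC (Tok := Tok) A).PosSemidef := by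
    unfold extC
    haveI : Invertible (1 : Matrix Tok Tok ℂ) := invertibleOne
    have := (Matrix.PosDef.fromBlocks₁₁ (0 : Matrix Tok Col ℂ) A
      (Matrix.PosDef.one (n := Tok) (R := ℂ)))
    simp only [Matrix.conjTranspose_zero, Matrix.zero_mul, Matrix.mul_zero, sub_zero] at this
    exact this.mpr hA.posSemidef
  refine hps.posDef_iff_isUnit.mpr ?_
  have hdet : IsUnit A.det := (Matrix.isUnit_iff_isUnit_det _).mp hA.isUnit
  refine IsUnit.of_mul_eq_one (extC A⁻¹) ?_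
  rw [extC_mul, Matrix.mul_nonsing_inv _ hdet]
  simp [extC]

lemma TokId.letter_of_ne_zero {m : Matrix (Tok ⊕ Col) (Tok ⊕ Col) ℂ} (hm : TokId m)
    {l l' : Tok ⊕ Col} (h : m l l' ≠ 0) (a : Tok) : l = Sum.inl a ↔ l' = Sum.inl a := by
  rcases l with b | c <;> rcases l' with b' | c'
  · rw [hm.tt] at h
    have : b = b' := by
      by_contra hne
      simp [hne] at h
    subst this
    rfl
  · exact absurd (hm.tc _ _) h
  · exact absurd (hm.ct _ _) h
  · simp

lemma TokId.mul {m n : Matrix (Tok ⊕ Col) (Tok ⊕ Col) ℂ} (hm : TokId m) (hn : TokId n) :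
    TokId (m * n) where
  tt a b := by
    simp only [Matrix.mul_apply, Fintype.sum_sum_type, hm.tt, hm.tc, hn.tt, zero_mul,
      Finset.sum_const_zero, add_zero, ite_mul, one_mul]
    rw [Finset.sum_ite_eq]
    simp
  tc a c := by
    simp only [Matrix.mul_apply, Fintype.sum_sum_type, hm.tt, hm.tc, hn.tc, zero_mul,
      Finset.sum_const_zero, add_zero, mul_zero]
  ct a c := by
    simp only [Matrix.mul_apply, Fintype.sum_sum_type, hm.ct, hn.tt, hn.ct, zero_mul,
      Finset.sum_const_zero, add_zero, mul_zero]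

end Local

section Dp

variable {n : Type*} [DecidableEq n]

open Classical in
/-- The diagonal projection on a predicate. -/
noncomputable def dp (Q : n → Prop) : Matrix n n ℂ :=
  Matrix.diagonal (fun x => if Q x then 1 else 0)

lemma dp_apply_self (Q : n → Prop) (x : n) [Decidable (Q x)] :
    dp Q x x = if Q x then 1 else 0 := by
  classical
  simp only [dp, Matrix.diagonal_apply_eq]
  congr

variable [Fintype n]

omit [Fintype n] in
lemma dp_mul_apply {m : Type*} [Fintype m] (Q : n → Prop) [Fintype n] (M : Matrix n m ℂ) (x : n) (y : m)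
    [Decidable (Q x)] :
    (dp Q * M) x y = if Q x then M x y else 0 := by
  classical
  simp only [dp, Matrix.diagonal_mul]
  split_ifs <;> simp_all

lemma mul_dp_apply {m : Type*} [Fintype m] (Q : n → Prop) (M : Matrix m n ℂ) (x : m) (y : n)
    [Decidable (Q y)] :
    (M * dp Q) x y = if Q y then M x y else 0 := by
  classical
  simp only [dp, Matrix.mul_diagonal]
  split_ifs <;> simp_all

lemma dp_conjTranspose (Q : n → Prop) : (dp Q)ᴴ = dp Q := by
  classical
  simp only [dp, Matrix.diagonal_conjTranspose]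
  congr 1
  funext x
  simp only [Pi.star_apply]
  split_ifs <;> simp

lemma dp_isHermitian (Q : n → Prop) : (dp Q).IsHermitian := dp_conjTranspose Q

lemma dp_mul_dp (Q Q' : n → Prop) : dp Q * dp Q' = dp (fun x => Q x ∧ Q' x) := by
  classical
  simp only [dp, Matrix.diagonal_mul_diagonal]
  congr 1
  funext x
  by_cases h : Q x <;> by_cases h' : Q' x <;> simp [h, h']

lemma dp_idem (Q : n → Prop) : dp Q * dp Q = dp Q := by
  rw [dp_mul_dp]
  congr 1
  funext x
  simp

lemma dp_posSemidef (Q : n → Prop) : (dp Q).PosSemidef := by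
  have := posSemidef_conjTranspose_mul_self (dp Q)
  rwa [dp_conjTranspose, dp_idem] at this

lemma dp_congr {Q Q' : n → Prop} (h : ∀ x, Q x ↔ Q' x) : dp Q = dp Q' := by
  congr 1
  funext x
  exact propext (h x)

end Dp

section Flip

variable {ι : Type*} [Fintype ι] [DecidableEq ι] (od : ι → Bool)

/-- Swap or not. -/
def fl (e : Bool) (x : ι × ι) : ι × ι := if e then x.swap else x

@[simp] lemma fl_fl (e : Bool) (x : ι × ι) : fl e (fl e x) = x := by
  cases e <;> simp [fl]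

/-- The Koszul sign of a pair of letters. -/
def sgP (x : ι × ι) : ℂ := if od x.1 = true ∧ od x.2 = true then -1 else 1

lemma sgP_swap (x : ι × ι) : sgP od x.swap = sgP od x := by
  simp only [sgP, Prod.fst_swap, Prod.snd_swap, and_comm]

lemma sgP_mul_self (x : ι × ι) : sgP od x * sgP od x = 1 := by
  unfold sgP
  split_ifs <;> simp

lemma sgP_star (x : ι × ι) : star (sgP od x) = sgP od x := by
  unfold sgP
  split_ifs <;> simp

/-- The signed swap on pairs of letters. -/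
noncomputable def swS : Matrix (ι × ι) (ι × ι) ℂ :=
  Matrix.of fun x y => if x.swap = y then sgP od x else 0

lemma swS_apply (x y : ι × ι) : swS od x y = if x.swap = y then sgP od x else 0 := rfl

lemma swS_mul_apply {m : Type*} [Fintype m] (M : Matrix (ι × ι) m ℂ) (x : ι × ι) (y : m) :
    (swS od * M) x y = sgP od x * M x.swap y := by
  simp only [Matrix.mul_apply, swS_apply]
  rw [Finset.sum_eq_single x.swap]
  · simp
  · intro b _ hb; simp [Ne.symm hb]
  · simp

lemma mul_swS_apply {m : Type*} [Fintype m] (M : Matrix m (ι × ι) ℂ) (x : m) (y : ι × ι) :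
    (M * swS od) x y = M x y.swap * sgP od y := by
  simp only [Matrix.mul_apply, swS_apply]
  rw [Finset.sum_eq_single y.swap]
  · simp [Prod.swap_swap, sgP_swap]
  · intro b _ hb
    have : b.swap ≠ y := by
      intro h; apply hb; rw [← h]; simp
    simp [this]
  · simp

lemma swS_mul_self : swS od * swS od = 1 := by
  ext x y
  rw [swS_mul_apply, swS_apply, Matrix.one_apply]
  by_cases h : x = y
  · subst h
    simp [sgP_swap, sgP_mul_self]
  · have h' : x.swap.swap ≠ y := by simpa using h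
    simp [h, h']

lemma swS_conjTranspose : (swS od)ᴴ = swS od := by
  ext x y
  simp only [conjTranspose_apply, swS_apply]
  by_cases h : y.swap = x
  · subst h
    simp [sgP_swap, sgP_star]
  · have h' : x.swap ≠ y := by
      intro h2; apply h; rw [← h2]; simp
    simp [h, h']

/-- The projection onto signed-symmetric pair tensors. -/
noncomputable def PiS : Matrix (ι × ι) (ι × ι) ℂ := (1 / 2 : ℂ) • (1 + swS od)

lemma PiS_isHermitian : (PiS od).IsHermitian := by
  unfold Matrix.IsHermitian PiS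
  rw [conjTranspose_smul, conjTranspose_add, conjTranspose_one, swS_conjTranspose]
  congr 1
  simp

lemma PiS_mul_self : PiS od * PiS od = PiS od := by
  unfold PiS
  simp only [smul_mul_assoc, mul_smul_comm, smul_smul, Matrix.add_mul, Matrix.mul_add,
    Matrix.one_mul, Matrix.mul_one, swS_mul_self]
  ext p q
  simp only [Matrix.smul_apply, Matrix.add_apply, smul_eq_mul]
  ring

lemma PiS_posSemidef : (PiS od).PosSemidef := by
  have := posSemidef_conjTranspose_mul_self (PiS od)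
  rwa [(PiS_isHermitian od).eq, PiS_mul_self] at this

lemma PiS_swS : PiS od * swS od = PiS od := by
  unfold PiS
  simp only [smul_mul_assoc, Matrix.add_mul, Matrix.one_mul, swS_mul_self]
  rw [add_comm]

lemma swS_PiS : swS od * PiS od = PiS od := by
  unfold PiS
  simp only [mul_smul_comm, Matrix.mul_add, Matrix.mul_one, swS_mul_self]
  rw [add_comm]

/-- `m` preserves the parity of letters. -/
def EvenM (m : Matrix ι ι ℂ) : Prop := ∀ l l', m l l' ≠ 0 → od l = od l'

variable {od}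

lemma EvenM.mul {m n : Matrix ι ι ℂ} (hm : EvenM od m) (hn : EvenM od n) : EvenM od (m * n) := by
  intro l l' h
  rw [Matrix.mul_apply] at h
  obtain ⟨k, _, hk⟩ := Finset.exists_ne_zero_of_sum_ne_zero h
  rw [hm l k (left_ne_zero_of_mul hk), hn k l' (right_ne_zero_of_mul hk)]

variable (od)

lemma swS_conj_kron {a b : Matrix ι ι ℂ} (ha : EvenM od a) (hb : EvenM od b) :
    swS od * (a ⊗ₖ b) * swS od = b ⊗ₖ a := by
  ext x y
  rw [mul_swS_apply, swS_mul_apply]
  simp only [Matrix.kroneckerMap_apply, Prod.fst_swap, Prod.snd_swap]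
  by_cases h0 : a x.2 y.2 * b x.1 y.1 = 0
  · rw [h0, mul_comm (b x.1 y.1), h0]
    simp
  · have h1 := ha _ _ (left_ne_zero_of_mul h0)
    have h2 := hb _ _ (right_ne_zero_of_mul h0)
    have hsg : sgP od x = sgP od y := by
      simp only [sgP, h1, h2]
    rw [← hsg]
    calc sgP od x * (a x.2 y.2 * b x.1 y.1) * sgP od x
        = (sgP od x * sgP od x) * (a x.2 y.2 * b x.1 y.1) := by ring
      _ = _ := by rw [sgP_mul_self]; ring

/-- `Π (a ⊗ b) Π = Π ½(a⊗b + b⊗a) Π`. -/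
lemma PiS_conj_kron {a b : Matrix ι ι ℂ} (ha : EvenM od a) (hb : EvenM od b) :
    PiS od * (a ⊗ₖ b) * PiS od = PiS od * ((1 / 2 : ℂ) • (a ⊗ₖ b + b ⊗ₖ a)) * PiS od := by
  have h : PiS od * (b ⊗ₖ a) * PiS od = PiS od * (a ⊗ₖ b) * PiS od := by
    rw [← swS_conj_kron od ha hb]
    calc PiS od * (swS od * (a ⊗ₖ b) * swS od) * PiS od
        = (PiS od * swS od) * (a ⊗ₖ b) * (swS od * PiS od) := by simp only [Matrix.mul_assoc]
      _ = _ := by rw [PiS_swS, swS_PiS]
  rw [mul_smul_comm, smul_mul_assoc, Matrix.mul_add, Matrix.add_mul, h]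
  ext p q
  simp only [Matrix.smul_apply, Matrix.add_apply, smul_eq_mul]
  ring

lemma PiS_comm_kron {c : Matrix ι ι ℂ} (hc : EvenM od c) :
    PiS od * (c ⊗ₖ c) = (c ⊗ₖ c) * PiS od := by
  have h : swS od * (c ⊗ₖ c) = (c ⊗ₖ c) * swS od := by
    have := swS_conj_kron od hc hc
    calc swS od * (c ⊗ₖ c) = swS od * (c ⊗ₖ c) * (swS od * swS od) := by
          rw [swS_mul_self, Matrix.mul_one]
      _ = (swS od * (c ⊗ₖ c) * swS od) * swS od := by simp only [Matrix.mul_assoc]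
      _ = _ := by rw [this]
  unfold PiS
  simp only [smul_mul_assoc, mul_smul_comm, Matrix.add_mul, Matrix.mul_add, Matrix.one_mul,
    Matrix.mul_one, h]

/-- The projected site inequality. -/
theorem site_projS {a b c : Matrix ι ι ℂ} (ha : a.IsHermitian) (hb : b.IsHermitian)
    (hc : c.PosSemidef) (h : c * c = (1 / 2 : ℂ) • (a * a + b * b))
    (hae : EvenM od a) (hbe : EvenM od b) (hce : EvenM od c) :
    ((c ⊗ₖ c) * PiS od - PiS od * (a ⊗ₖ b) * PiS od).PosSemidef := by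
  have hs := site_cross ha hb hc h
  have hconj := hs.conjTranspose_mul_mul_same (PiS od)
  rw [(PiS_isHermitian od).eq, Matrix.mul_sub, Matrix.sub_mul] at hconj
  rw [PiS_conj_kron od hae hbe]
  have e : PiS od * (c ⊗ₖ c) * PiS od = (c ⊗ₖ c) * PiS od := by
    rw [PiS_comm_kron od hce, Matrix.mul_assoc, PiS_mul_self]
  rwa [e] at hconj

/-- The flip operator. -/
noncomputable def flipS (e : Bool) : Matrix (ι × ι) (ι × ι) ℂ := if e then swS od else 1

lemma flipS_mul_self (e : Bool) : flipS od e * flipS od e = 1 := by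
  cases e
  · simp [flipS]
  · simp [flipS, swS_mul_self]

lemma flipS_conjTranspose (e : Bool) : (flipS od e)ᴴ = flipS od e := by
  cases e
  · simp [flipS]
  · simp [flipS, swS_conjTranspose]

lemma flipS_mul_PiS (e : Bool) : flipS od e * PiS od = PiS od := by
  cases e
  · simp [flipS]
  · simp [flipS, swS_PiS]

lemma PiS_mul_flipS (e : Bool) : PiS od * flipS od e = PiS od := by
  cases e
  · simp [flipS]
  · simp [flipS, PiS_swS]

/-- Conjugating a Kronecker product by the flip. -/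
noncomputable def kFlip (a b : Matrix ι ι ℂ) (e : Bool) : Matrix (ι × ι) (ι × ι) ℂ :=
  if e then b ⊗ₖ a else a ⊗ₖ b

lemma flipS_conj_kron {a b : Matrix ι ι ℂ} (ha : EvenM od a) (hb : EvenM od b) (e : Bool) :
    flipS od e * (a ⊗ₖ b) * flipS od e = kFlip a b e := by
  cases e
  · simp [flipS, kFlip]
  · simp [flipS, kFlip, swS_conj_kron od ha hb]

lemma kFlip_posSemidef {a b : Matrix ι ι ℂ} (ha : a.PosSemidef) (hb : b.PosSemidef) (e : Bool) :
    (kFlip a b e).PosSemidef := by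
  cases e
  · simpa [kFlip] using ha.kronecker hb
  · simpa [kFlip] using hb.kronecker ha

end Flip

section LocalBlock

variable {κ Tok Col : Type*} [Fintype κ] [DecidableEq κ] [Fintype Tok] [DecidableEq Tok]
  [Fintype Col] [DecidableEq Col] (od : Tok ⊕ Col → Bool)

/-- The local block condition at the pair `p`. -/
def locOK (ℓ : Tok → Option κ) (t : Tok → Bool) (p : κ) (x : (Tok ⊕ Col) × (Tok ⊕ Col)) : Prop :=
  ∀ a, (x.1 = Sum.inl a ↔ (ℓ a = some p ∧ t a = false)) ∧
    (x.2 = Sum.inl a ↔ (ℓ a = some p ∧ t a = true))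

/-- `t` separates the tokens with the same low position. -/
def InjT (ℓ : Tok → Option κ) (t : Tok → Bool) : Prop :=
  ∀ a b p, ℓ a = some p → ℓ b = some p → t a = t b → a = b

/-- The local projection. -/
noncomputable abbrev piLoc (ℓ : Tok → Option κ) (t : Tok → Bool) (p : κ) :
    Matrix ((Tok ⊕ Col) × (Tok ⊕ Col)) ((Tok ⊕ Col) × (Tok ⊕ Col)) ℂ :=
  dp (locOK ℓ t p)

lemma locOK_flip {ℓ : Tok → Option κ} {t s : Tok → Bool} {p : κ} {e : Bool}
    (h : ∀ a, ℓ a = some p → t a = xor (s a) e) (x : (Tok ⊕ Col) × (Tok ⊕ Col)) :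
    locOK ℓ t p x ↔ locOK ℓ s p (fl e x) := by
  have ht : ∀ a v, (ℓ a = some p ∧ t a = v) ↔ (ℓ a = some p ∧ s a = xor v e) := by
    intro a v
    constructor
    · rintro ⟨h1, h2⟩
      refine ⟨h1, ?_⟩
      rw [← h2, h a h1]
      cases s a <;> cases e <;> rfl
    · rintro ⟨h1, h2⟩
      refine ⟨h1, ?_⟩
      rw [h a h1, h2]
      cases v <;> cases e <;> rfl
  cases e
  · simp only [locOK, fl, Bool.false_eq_true, if_false]
    refine forall_congr' (fun a => ?_)
    rw [ht a false, ht a true]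
    simp
  · simp only [locOK, fl, if_true, Prod.fst_swap, Prod.snd_swap]
    refine forall_congr' (fun a => ?_)
    rw [ht a false, ht a true]
    simp only [Bool.xor_true, Bool.not_false, Bool.not_true]
    exact and_comm

lemma rel_of_inj {ℓ : Tok → Option κ} {t s : Tok → Bool} (ht : InjT ℓ t) (hs : InjT ℓ s)
    {p : κ} {a0 : Tok} (h0 : ℓ a0 = some p) :
    ∀ a, ℓ a = some p → t a = xor (s a) (xor (t a0) (s a0)) := by
  intro a ha
  by_cases hne : a = a0
  · subst hne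
    cases t a <;> cases s a <;> rfl
  · have h1 : t a ≠ t a0 := fun h => hne (ht a a0 p ha h0 h)
    have h2 : s a ≠ s a0 := fun h => hne (hs a a0 p ha h0 h)
    revert h1 h2
    cases t a <;> cases t a0 <;> cases s a <;> cases s a0 <;> simp

/-- The local projection is conjugate to another one by a flip. -/
lemma piLoc_flip {ℓ : Tok → Option κ} {t s : Tok → Bool} {p : κ} {e : Bool}
    (h : ∀ a, ℓ a = some p → t a = xor (s a) e) :
    (piLoc ℓ t p : Matrix ((Tok ⊕ Col) × (Tok ⊕ Col)) ((Tok ⊕ Col) × (Tok ⊕ Col)) ℂ) =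
      flipS od e * piLoc ℓ s p * flipS od e := by
  classical
  cases e
  · simp only [flipS, Bool.false_eq_true, if_false, Matrix.one_mul, Matrix.mul_one]
    exact dp_congr (fun x => by simpa [fl] using locOK_flip h x)
  · simp only [flipS, if_true]
    ext x y
    rw [mul_swS_apply, swS_mul_apply]
    simp only [dp, Matrix.diagonal_apply]
    by_cases hxy : x = y
    · subst hxy
      have := locOK_flip h x
      simp only [fl, if_true] at this
      simp only [if_true, this]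
      split_ifs
      · rw [mul_one, sgP_mul_self]
      · simp
    · have h' : x.swap ≠ y.swap := by
        intro h2
        apply hxy
        have := congrArg Prod.swap h2
        simpa using this
      simp [hxy, h']

/-- Occupied pairs: the swap leaves the block. -/
lemma locOK_not_swap {ℓ : Tok → Option κ} {s : Tok → Bool} {p : κ} {a0 : Tok} (h0 : ℓ a0 = some p)
    {x : (Tok ⊕ Col) × (Tok ⊕ Col)} (hx : locOK ℓ s p x) : ¬ locOK ℓ s p x.swap := by
  intro hx'
  cases hs : s a0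
  · have h1 := ((hx a0).1).mpr ⟨h0, hs⟩
    have h2 := ((hx' a0).2).mp (by simpa using h1)
    rw [hs] at h2
    exact absurd h2.2 (by simp)
  · have h1 := ((hx a0).2).mpr ⟨h0, hs⟩
    have h2 := ((hx' a0).1).mp (by simpa using h1)
    rw [hs] at h2
    exact absurd h2.2 (by simp)

lemma piLoc_swap_piLoc {ℓ : Tok → Option κ} {s : Tok → Bool} {p : κ} {a0 : Tok}
    (h0 : ℓ a0 = some p) :
    (piLoc ℓ s p : Matrix ((Tok ⊕ Col) × (Tok ⊕ Col)) ((Tok ⊕ Col) × (Tok ⊕ Col)) ℂ) *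
      swS od * piLoc ℓ s p = 0 := by
  classical
  ext x y
  rw [mul_dp_apply]
  split_ifs with hy
  · rw [mul_swS_apply]
    simp only [dp, Matrix.diagonal_apply, Matrix.zero_apply]
    by_cases hxy : x = y.swap
    · subst hxy
      simp [locOK_not_swap h0 hy]
    · simp [hxy]
  · simp

lemma piLoc_PiS_piLoc {ℓ : Tok → Option κ} {s : Tok → Bool} {p : κ} {a0 : Tok}
    (h0 : ℓ a0 = some p) :
    (piLoc ℓ s p : Matrix ((Tok ⊕ Col) × (Tok ⊕ Col)) ((Tok ⊕ Col) × (Tok ⊕ Col)) ℂ) *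
      PiS od * piLoc ℓ s p = (1 / 2 : ℂ) • piLoc ℓ s p := by
  unfold PiS
  rw [mul_smul_comm, smul_mul_assoc, Matrix.mul_add, Matrix.add_mul, piLoc_swap_piLoc od h0,
    Matrix.mul_one, dp_idem, add_zero]

/-- The local transfer from the block `s` to the block `t`. -/
noncomputable abbrev Tloc (ℓ : Tok → Option κ) (t s : Tok → Bool) (p : κ) :
    Matrix ((Tok ⊕ Col) × (Tok ⊕ Col)) ((Tok ⊕ Col) × (Tok ⊕ Col)) ℂ :=
  piLoc ℓ t p * PiS od * piLoc ℓ s p

lemma Tloc_conjTranspose (ℓ : Tok → Option κ) (t s : Tok → Bool) (p : κ) :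
    (Tloc od ℓ t s p)ᴴ = piLoc ℓ s p * PiS od * piLoc ℓ t p := by
  simp only [Tloc, Matrix.conjTranspose_mul, dp_conjTranspose, (PiS_isHermitian od).eq, Matrix.mul_assoc]

lemma Tloc_eq {ℓ : Tok → Option κ} {t s : Tok → Bool} {p : κ} {e : Bool}
    (h : ∀ a, ℓ a = some p → t a = xor (s a) e) {a0 : Tok} (h0 : ℓ a0 = some p) :
    Tloc od ℓ t s p = (1 / 2 : ℂ) • (flipS od e * piLoc ℓ s p) := by
  unfold Tloc
  rw [piLoc_flip od h]
  calc flipS od e * piLoc ℓ s p * flipS od e * PiS od * piLoc ℓ s p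
      = flipS od e * (piLoc ℓ s p * (flipS od e * PiS od) * piLoc ℓ s p) := by
        simp only [Matrix.mul_assoc]
    _ = _ := by
        rw [flipS_mul_PiS, piLoc_PiS_piLoc od h0, mul_smul_comm]

lemma Tloc_conj_eq {ℓ : Tok → Option κ} {t s : Tok → Bool} {p : κ} {e : Bool}
    (h : ∀ a, ℓ a = some p → t a = xor (s a) e) {a0 : Tok} (h0 : ℓ a0 = some p) :
    (Tloc od ℓ t s p)ᴴ = (1 / 2 : ℂ) • (piLoc ℓ s p * flipS od e) := by
  rw [Tloc_eq od h h0, conjTranspose_smul, Matrix.conjTranspose_mul, flipS_conjTranspose,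
    dp_conjTranspose]
  congr 1
  simp [Complex.star_def]

/-- The local computation for occupied pairs. -/
lemma Tloc_conj_kron {ℓ : Tok → Option κ} {t s : Tok → Bool} {p : κ} {e : Bool}
    (h : ∀ a, ℓ a = some p → t a = xor (s a) e) {a0 : Tok} (h0 : ℓ a0 = some p)
    {a b : Matrix (Tok ⊕ Col) (Tok ⊕ Col) ℂ} (ha : EvenM od a) (hb : EvenM od b) :
    (Tloc od ℓ t s p)ᴴ * (a ⊗ₖ b) * Tloc od ℓ t s p =
      (1 / 4 : ℂ) • (piLoc ℓ s p * kFlip a b e * piLoc ℓ s p) := by
  rw [Tloc_conj_eq od h h0, Tloc_eq od h h0, ← flipS_conj_kron od ha hb e]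
  simp only [smul_mul_assoc, mul_smul_comm, smul_smul, Matrix.mul_assoc]
  norm_num

lemma Tloc_mul_conj {ℓ : Tok → Option κ} {t s : Tok → Bool} {p : κ} {e : Bool}
    (h : ∀ a, ℓ a = some p → t a = xor (s a) e) {a0 : Tok} (h0 : ℓ a0 = some p) :
    Tloc od ℓ t s p * (Tloc od ℓ t s p)ᴴ = (1 / 4 : ℂ) • piLoc ℓ t p := by
  rw [Tloc_conj_eq od h h0, Tloc_eq od h h0, piLoc_flip od h]
  simp only [smul_mul_assoc, mul_smul_comm, smul_smul, Matrix.mul_assoc]
  rw [← Matrix.mul_assoc (piLoc ℓ s p) (piLoc ℓ s p), dp_idem]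
  norm_num

/-- The commutation of a block projection with token-preserving products. -/
lemma piLoc_comm {ℓ : Tok → Option κ} {s : Tok → Bool} {p : κ}
    {m n : Matrix (Tok ⊕ Col) (Tok ⊕ Col) ℂ} (hm : TokId m) (hn : TokId n) :
    (piLoc ℓ s p : Matrix ((Tok ⊕ Col) × (Tok ⊕ Col)) ((Tok ⊕ Col) × (Tok ⊕ Col)) ℂ) * (m ⊗ₖ n) =
      (m ⊗ₖ n) * piLoc ℓ s p := by
  classical
  ext x y
  rw [dp_mul_apply, mul_dp_apply]
  simp only [Matrix.kroneckerMap_apply]
  by_cases h0 : m x.1 y.1 * n x.2 y.2 = 0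
  · simp [h0]
  · have h1 : m x.1 y.1 ≠ 0 := left_ne_zero_of_mul h0
    have h2 : n x.2 y.2 ≠ 0 := right_ne_zero_of_mul h0
    have hiff : locOK ℓ s p x ↔ locOK ℓ s p y := by
      refine forall_congr' (fun a => ?_)
      rw [hm.letter_of_ne_zero h1 a, hn.letter_of_ne_zero h2 a]
    simp only [hiff]

/-- On the block with a token at the half `false`, the first factor is trivial. -/
lemma conj_triv_left {ℓ : Tok → Option κ} {s : Tok → Bool} {p : κ} {a0 : Tok}
    (h0 : ℓ a0 = some p) (hs : s a0 = false)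
    {m : Matrix (Tok ⊕ Col) (Tok ⊕ Col) ℂ} (hm : TokId m)
    (n : Matrix (Tok ⊕ Col) (Tok ⊕ Col) ℂ) :
    (piLoc ℓ s p : Matrix ((Tok ⊕ Col) × (Tok ⊕ Col)) ((Tok ⊕ Col) × (Tok ⊕ Col)) ℂ) * (m ⊗ₖ n) *
      piLoc ℓ s p = piLoc ℓ s p * ((1 : Matrix (Tok ⊕ Col) (Tok ⊕ Col) ℂ) ⊗ₖ n) * piLoc ℓ s p := by
  classical
  ext x y
  rw [mul_dp_apply, mul_dp_apply, dp_mul_apply, dp_mul_apply]
  by_cases hy : locOK ℓ s p y
  · by_cases hx : locOK ℓ s p x
    · simp only [hy, hx, if_true, Matrix.kroneckerMap_apply]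
      have h1 : x.1 = Sum.inl a0 := ((hx a0).1).mpr ⟨h0, hs⟩
      have h2 : y.1 = Sum.inl a0 := ((hy a0).1).mpr ⟨h0, hs⟩
      rw [h1, h2, hm.tt]
      simp
    · simp [hy, hx]
  · simp [hy]

/-- On the block with a token at the half `true`, the second factor is trivial. -/
lemma conj_triv_right {ℓ : Tok → Option κ} {s : Tok → Bool} {p : κ} {a0 : Tok}
    (h0 : ℓ a0 = some p) (hs : s a0 = true)
    {n : Matrix (Tok ⊕ Col) (Tok ⊕ Col) ℂ} (hn : TokId n)
    (m : Matrix (Tok ⊕ Col) (Tok ⊕ Col) ℂ) :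
    (piLoc ℓ s p : Matrix ((Tok ⊕ Col) × (Tok ⊕ Col)) ((Tok ⊕ Col) × (Tok ⊕ Col)) ℂ) * (m ⊗ₖ n) *
      piLoc ℓ s p = piLoc ℓ s p * (m ⊗ₖ (1 : Matrix (Tok ⊕ Col) (Tok ⊕ Col) ℂ)) * piLoc ℓ s p := by
  classical
  ext x y
  rw [mul_dp_apply, mul_dp_apply, dp_mul_apply, dp_mul_apply]
  by_cases hy : locOK ℓ s p y
  · by_cases hx : locOK ℓ s p x
    · simp only [hy, hx, if_true, Matrix.kroneckerMap_apply]
      have h1 : x.2 = Sum.inl a0 := ((hx a0).2).mpr ⟨h0, hs⟩
      have h2 : y.2 = Sum.inl a0 := ((hy a0).2).mpr ⟨h0, hs⟩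
      rw [h1, h2, hn.tt]
      simp
    · simp [hy, hx]
  · simp [hy]

lemma conj_mul_conj {ℓ : Tok → Option κ} {s : Tok → Bool} {p : κ}
    {m n m' n' : Matrix (Tok ⊕ Col) (Tok ⊕ Col) ℂ} (hm : TokId m) (hn : TokId n) :
    ((piLoc ℓ s p : Matrix ((Tok ⊕ Col) × (Tok ⊕ Col)) ((Tok ⊕ Col) × (Tok ⊕ Col)) ℂ) * (m ⊗ₖ n) *
      piLoc ℓ s p) * (piLoc ℓ s p * (m' ⊗ₖ n') * piLoc ℓ s p) =
      piLoc ℓ s p * ((m * m') ⊗ₖ (n * n')) * piLoc ℓ s p := by
  set π : Matrix ((Tok ⊕ Col) × (Tok ⊕ Col)) ((Tok ⊕ Col) × (Tok ⊕ Col)) ℂ := piLoc ℓ s p with hπ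
  have hcomm : π * (m ⊗ₖ n) = (m ⊗ₖ n) * π := piLoc_comm hm hn
  have hid : π * π = π := dp_idem _
  calc π * (m ⊗ₖ n) * π * (π * (m' ⊗ₖ n') * π)
      = π * (m ⊗ₖ n) * (π * π) * (m' ⊗ₖ n') * π := by simp only [Matrix.mul_assoc]
    _ = (π * (m ⊗ₖ n) * π) * (m' ⊗ₖ n') * π := by rw [hid]
    _ = ((m ⊗ₖ n) * (π * π)) * (m' ⊗ₖ n') * π := by
        rw [hcomm]; simp only [Matrix.mul_assoc]
    _ = π * (m ⊗ₖ n) * (m' ⊗ₖ n') * π := by rw [hid, ← hcomm]
    _ = _ := by rw [Matrix.mul_assoc π, mul_kronecker_mul]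

/-- The local frozen operators. -/
noncomputable abbrev Aloc (ℓ : Tok → Option κ) (s : Tok → Bool) (p : κ)
    (a b : Matrix (Tok ⊕ Col) (Tok ⊕ Col) ℂ) (e : Bool) :
    Matrix ((Tok ⊕ Col) × (Tok ⊕ Col)) ((Tok ⊕ Col) × (Tok ⊕ Col)) ℂ :=
  piLoc ℓ s p * kFlip a b e * piLoc ℓ s p

/-- The local target operator. -/
noncomputable abbrev Gloc (ℓ : Tok → Option κ) (s : Tok → Bool) (p : κ)
    (c : Matrix (Tok ⊕ Col) (Tok ⊕ Col) ℂ) :
    Matrix ((Tok ⊕ Col) × (Tok ⊕ Col)) ((Tok ⊕ Col) × (Tok ⊕ Col)) ℂ :=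
  piLoc ℓ s p * (c ⊗ₖ c) * piLoc ℓ s p

lemma conj_psd {n : Type*} [Fintype n] [DecidableEq n] (Q : n → Prop) {k : Matrix n n ℂ}
    (hk : k.PosSemidef) : (dp Q * k * dp Q).PosSemidef := by
  have := hk.conjTranspose_mul_mul_same (dp Q)
  rwa [dp_conjTranspose] at this

lemma Aloc_psd (ℓ : Tok → Option κ) (s : Tok → Bool) (p : κ)
    {a b : Matrix (Tok ⊕ Col) (Tok ⊕ Col) ℂ} (ha : a.PosSemidef) (hb : b.PosSemidef) (e : Bool) :
    (Aloc ℓ s p a b e).PosSemidef := conj_psd _ (kFlip_posSemidef ha hb e)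

lemma Gloc_psd (ℓ : Tok → Option κ) (s : Tok → Bool) (p : κ)
    {c : Matrix (Tok ⊕ Col) (Tok ⊕ Col) ℂ} (hc : c.PosSemidef) :
    (Gloc ℓ s p c).PosSemidef := conj_psd _ (hc.kronecker hc)

/-- The square identity for occupied pairs. -/
lemma sq_occ {ℓ : Tok → Option κ} {s : Tok → Bool} {p : κ} {a0 : Tok} (h0 : ℓ a0 = some p)
    {a b c : Matrix (Tok ⊕ Col) (Tok ⊕ Col) ℂ} (ha : TokId a) (hb : TokId b) (hc : TokId c)
    (h : c * c = (1 / 2 : ℂ) • (a * a + b * b)) :
    Gloc ℓ s p c * Gloc ℓ s p c = (1 / 2 : ℂ) •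
      (Aloc ℓ s p a b false * Aloc ℓ s p a b false + Aloc ℓ s p a b true * Aloc ℓ s p a b true) := by
  simp only [Aloc, Gloc, kFlip, Bool.false_eq_true, if_false, if_true]
  rw [conj_mul_conj hc hc, conj_mul_conj ha hb, conj_mul_conj hb ha]
  cases hs : s a0
  · rw [conj_triv_left h0 hs (hc.mul hc), conj_triv_left h0 hs (ha.mul ha),
      conj_triv_left h0 hs (hb.mul hb), h, kronecker_smul, kronecker_add]
    simp only [smul_mul_assoc, mul_smul_comm, Matrix.mul_add, Matrix.add_mul]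
    rw [add_comm]
  · rw [conj_triv_right h0 hs (hc.mul hc), conj_triv_right h0 hs (hb.mul hb),
      conj_triv_right h0 hs (ha.mul ha), h, smul_kronecker, add_kronecker]
    simp only [smul_mul_assoc, mul_smul_comm, Matrix.mul_add, Matrix.add_mul]

/-- Two tokens at a pair: all the local operators are the projection. -/
lemma conj_two {ℓ : Tok → Option κ} {s : Tok → Bool} {p : κ} {a0 a1 : Tok} (h0 : ℓ a0 = some p)
    (h1 : ℓ a1 = some p) (hne : a0 ≠ a1) (hs : InjT ℓ s)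
    {m n : Matrix (Tok ⊕ Col) (Tok ⊕ Col) ℂ} (hm : TokId m) (hn : TokId n) :
    (piLoc ℓ s p : Matrix ((Tok ⊕ Col) × (Tok ⊕ Col)) ((Tok ⊕ Col) × (Tok ⊕ Col)) ℂ) * (m ⊗ₖ n) *
      piLoc ℓ s p = piLoc ℓ s p := by
  classical
  have hss : s a0 ≠ s a1 := fun h => hne (hs a0 a1 p h0 h1 h)
  have key : ∀ x y : (Tok ⊕ Col) × (Tok ⊕ Col), locOK ℓ s p x → locOK ℓ s p y →
      x = y ∧ m x.1 y.1 * n x.2 y.2 = 1 := by
    intro x y hx hy
    cases hs0 : s a0
    · have hs1 : s a1 = true := by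
        rw [hs0] at hss
        cases h' : s a1
        · exact absurd h'.symm hss
        · rfl
      have e1 := ((hx a0).1).mpr ⟨h0, hs0⟩
      have e2 := ((hy a0).1).mpr ⟨h0, hs0⟩
      have e3 := ((hx a1).2).mpr ⟨h1, hs1⟩
      have e4 := ((hy a1).2).mpr ⟨h1, hs1⟩
      refine ⟨Prod.ext (e1.trans e2.symm) (e3.trans e4.symm), ?_⟩
      rw [e1, e2, e3, e4, hm.tt, hn.tt]
      simp
    · have hs1 : s a1 = false := by
        rw [hs0] at hss
        cases h' : s a1
        · rfl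
        · exact absurd h'.symm hss
      have e1 := ((hx a0).2).mpr ⟨h0, hs0⟩
      have e2 := ((hy a0).2).mpr ⟨h0, hs0⟩
      have e3 := ((hx a1).1).mpr ⟨h1, hs1⟩
      have e4 := ((hy a1).1).mpr ⟨h1, hs1⟩
      refine ⟨Prod.ext (e3.trans e4.symm) (e1.trans e2.symm), ?_⟩
      rw [e1, e2, e3, e4, hm.tt, hn.tt]
      simp
  ext x y
  rw [mul_dp_apply, dp_mul_apply]
  by_cases hy : locOK ℓ s p y
  · by_cases hx : locOK ℓ s p x
    · obtain ⟨rfl, h2⟩ := key x y hx hy
      simp only [hy, if_true, Matrix.kroneckerMap_apply, h2, dp, Matrix.diagonal_apply_eq]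
    · simp only [hy, hx, if_true, if_false, dp, Matrix.diagonal_apply]
      by_cases hxy : x = y
      · subst hxy; exact absurd hy hx
      · simp [hxy]
  · simp only [hy, if_false, dp, Matrix.diagonal_apply]
    by_cases hxy : x = y
    · subst hxy; simp [hy]
    · simp [hxy]

/-- Free pairs. -/
lemma locOK_free {ℓ : Tok → Option κ} {t : Tok → Bool} {p : κ} (hf : ∀ a, ℓ a ≠ some p)
    (x : (Tok ⊕ Col) × (Tok ⊕ Col)) :
    locOK ℓ t p x ↔ (∀ a, x.1 ≠ Sum.inl a) ∧ (∀ a, x.2 ≠ Sum.inl a) := by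
  constructor
  · intro h
    refine ⟨fun a ha => hf a ((h a).1.mp ha).1, fun a ha => hf a ((h a).2.mp ha).1⟩
  · rintro ⟨h1, h2⟩ a
    refine ⟨⟨fun h => absurd h (h1 a), fun h => absurd h.1 (hf a)⟩,
      ⟨fun h => absurd h (h2 a), fun h => absurd h.1 (hf a)⟩⟩

lemma piLoc_free {ℓ : Tok → Option κ} (t s : Tok → Bool) {p : κ} (hf : ∀ a, ℓ a ≠ some p) :
    (piLoc ℓ t p : Matrix ((Tok ⊕ Col) × (Tok ⊕ Col)) ((Tok ⊕ Col) × (Tok ⊕ Col)) ℂ) =
      piLoc ℓ s p :=
  dp_congr (fun x => (locOK_free hf x).trans (locOK_free hf x).symm)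

lemma piLoc_free_swap {ℓ : Tok → Option κ} (s : Tok → Bool) {p : κ} (hf : ∀ a, ℓ a ≠ some p) :
    (piLoc ℓ s p : Matrix ((Tok ⊕ Col) × (Tok ⊕ Col)) ((Tok ⊕ Col) × (Tok ⊕ Col)) ℂ) * swS od =
      swS od * piLoc ℓ s p := by
  classical
  ext x y
  rw [mul_swS_apply, swS_mul_apply]
  simp only [dp, Matrix.diagonal_apply]
  by_cases hxy : x = y.swap
  · subst hxy
    simp only [Prod.swap_swap, if_true]
    have : locOK ℓ s p y.swap ↔ locOK ℓ s p y := by
      rw [locOK_free hf, locOK_free hf]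
      simp only [Prod.fst_swap, Prod.snd_swap]
      exact and_comm
    simp only [this, sgP_swap]
    ring
  · have h' : x.swap ≠ y := by
      intro h
      apply hxy
      rw [← h]
      simp
    simp [hxy, h']

lemma piLoc_free_PiS {ℓ : Tok → Option κ} (s : Tok → Bool) {p : κ} (hf : ∀ a, ℓ a ≠ some p) :
    (piLoc ℓ s p : Matrix ((Tok ⊕ Col) × (Tok ⊕ Col)) ((Tok ⊕ Col) × (Tok ⊕ Col)) ℂ) * PiS od =
      PiS od * piLoc ℓ s p := by
  unfold PiS
  rw [mul_smul_comm, smul_mul_assoc, Matrix.mul_add, Matrix.add_mul, Matrix.mul_one,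
    Matrix.one_mul, piLoc_free_swap od s hf]

lemma Tloc_free {ℓ : Tok → Option κ} (t s : Tok → Bool) {p : κ} (hf : ∀ a, ℓ a ≠ some p) :
    Tloc od ℓ t s p = PiS od * piLoc ℓ s p := by
  unfold Tloc
  rw [piLoc_free t s hf, piLoc_free_PiS od s hf, Matrix.mul_assoc, dp_idem]

lemma Tloc_free_conj {ℓ : Tok → Option κ} (t s : Tok → Bool) {p : κ} (hf : ∀ a, ℓ a ≠ some p) :
    (Tloc od ℓ t s p)ᴴ = piLoc ℓ s p * PiS od := by
  rw [Tloc_free od t s hf, Matrix.conjTranspose_mul, dp_conjTranspose, (PiS_isHermitian od).eq]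

/-- The complement of the pair symmetrizer. -/
lemma one_sub_PiS_idem :
    ((1 : Matrix ((Tok ⊕ Col) × (Tok ⊕ Col)) ((Tok ⊕ Col) × (Tok ⊕ Col)) ℂ) - PiS od) *
      (1 - PiS od) = 1 - PiS od := by
  rw [Matrix.mul_sub, Matrix.sub_mul, Matrix.sub_mul, PiS_mul_self]
  simp

/-- The bound for free pairs. -/
lemma free_F_le {ℓ : Tok → Option κ} (t s : Tok → Bool) {p : κ} (hf : ∀ a, ℓ a ≠ some p)
    {a b c : Matrix (Tok ⊕ Col) (Tok ⊕ Col) ℂ} (ha : a.PosSemidef) (hb : b.PosSemidef)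
    (hc : c.PosSemidef) (h : c * c = (1 / 2 : ℂ) • (a * a + b * b))
    (hae : EvenM od a) (hbe : EvenM od b) (hce : EvenM od c) :
    (Gloc ℓ s p c - (Tloc od ℓ t s p)ᴴ * (a ⊗ₖ b) * Tloc od ℓ t s p).PosSemidef := by
  rw [Tloc_free_conj od t s hf, Tloc_free od t s hf]
  set π : Matrix ((Tok ⊕ Col) × (Tok ⊕ Col)) ((Tok ⊕ Col) × (Tok ⊕ Col)) ℂ := piLoc ℓ s p with hπ
  have hπH : πᴴ = π := dp_conjTranspose _
  have h1 := (site_projS od ha.isHermitian hb.isHermitian hc h hae hbe hce).conjTranspose_mul_mul_same π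
  rw [hπH, Matrix.mul_sub, Matrix.sub_mul] at h1
  have hcP : PiS od * (c ⊗ₖ c) = (c ⊗ₖ c) * PiS od := PiS_comm_kron od hce
  set Q : Matrix ((Tok ⊕ Col) × (Tok ⊕ Col)) ((Tok ⊕ Col) × (Tok ⊕ Col)) ℂ := 1 - PiS od with hQ
  have hQH : Qᴴ = Q := by
    rw [hQ, conjTranspose_sub, conjTranspose_one, (PiS_isHermitian od).eq]
  have hQQ : Q * Q = Q := one_sub_PiS_idem od
  have hcQ : Q * (c ⊗ₖ c) = (c ⊗ₖ c) * Q := by
    rw [hQ, Matrix.sub_mul, Matrix.mul_sub, hcP]
    simp
  have h2 := (hc.kronecker hc).conjTranspose_mul_mul_same (Q * π)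
  rw [Matrix.conjTranspose_mul, hπH, hQH] at h2
  have e2 : π * Q * (c ⊗ₖ c) * (Q * π) = π * (c ⊗ₖ c) * π - π * ((c ⊗ₖ c) * PiS od) * π := by
    calc π * Q * (c ⊗ₖ c) * (Q * π) = π * (Q * (c ⊗ₖ c)) * Q * π := by
          simp only [Matrix.mul_assoc]
      _ = π * (c ⊗ₖ c) * (Q * Q) * π := by rw [hcQ]; simp only [Matrix.mul_assoc]
      _ = _ := by
          rw [hQQ, hQ]
          simp only [Matrix.mul_sub, Matrix.sub_mul, Matrix.mul_one, Matrix.mul_assoc]
  rw [e2] at h2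
  have h3 := h2.add h1
  refine (congrArg Matrix.PosSemidef ?_).mp h3
  simp only [Gloc, Matrix.mul_assoc]
  abel

/-- The bound on the right transfer for free pairs. -/
lemma free_T_le {ℓ : Tok → Option κ} (t s : Tok → Bool) {p : κ} (hf : ∀ a, ℓ a ≠ some p) :
    (piLoc ℓ t p - Tloc od ℓ t s p * (Tloc od ℓ t s p)ᴴ).PosSemidef := by
  rw [Tloc_free_conj od t s hf, Tloc_free od t s hf, piLoc_free t s hf]
  set π : Matrix ((Tok ⊕ Col) × (Tok ⊕ Col)) ((Tok ⊕ Col) × (Tok ⊕ Col)) ℂ := piLoc ℓ s p with hπ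
  have hπH : πᴴ = π := dp_conjTranspose _
  have hid : π * π = π := dp_idem _
  have hcP : π * PiS od = PiS od * π := piLoc_free_PiS od s hf
  have e : π - PiS od * π * (π * PiS od) =
      ((1 - PiS od) * π)ᴴ * ((1 - PiS od) * π) := by
    rw [Matrix.conjTranspose_mul, hπH, conjTranspose_sub, conjTranspose_one, (PiS_isHermitian od).eq]
    have e1 : π * (1 - PiS od) * ((1 - PiS od) * π) = π * ((1 - PiS od) * (1 - PiS od)) * π := by
      simp only [Matrix.mul_assoc]
    rw [e1, one_sub_PiS_idem od]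
    have e2 : PiS od * π * (π * PiS od) = PiS od * π := by
      calc PiS od * π * (π * PiS od) = PiS od * (π * π) * PiS od := by simp only [Matrix.mul_assoc]
        _ = π * PiS od * PiS od := by rw [hid, hcP]
        _ = PiS od * π := by rw [Matrix.mul_assoc, PiS_mul_self od, hcP]
    rw [e2, Matrix.mul_sub, Matrix.sub_mul, Matrix.mul_one, hid, hcP, Matrix.mul_assoc, hid]
  rw [e]
  exact posSemidef_conjTranspose_mul_self _

end LocalBlock

end Crest.Agent.S0222Lib.JCore
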