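import Crest.Agent.S0222Lib.JMix

/-!
# S0222: Theorem J, numerical bound of the conversion constant

`ck_bound`: for an antitone composition `μ` of `i` into `T` parts and a dimension `d` with the
Frobenius bound, the lower bound of `JMix.mix_lower` times `d` dominates the multiplicity `D(μ)`
with the uniform constant `√2 N e^{i(δ+2δ')} Xi T δ δ'`.
-/

set_option autoImplicit false
set_option linter.unusedSectionVars false
set_option linter.unusedSimpArgs false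
set_option linter.unusedVariables false

namespace Crest.Agent.S0222Lib.JBnum

open Finset
open scoped Nat
open Crest.Agent.S0222Lib.JMix

/-- The uniform constant. -/
noncomputable def Xi (T : ℕ) (δ δ' : ℝ) : ℝ :=
  ((1 - Real.exp (-δ'))⁻¹) ^ (2 * T) *
    ∏ a : Fin T, ((1 - Real.exp (-δ / 4) * ((a : ℝ) + 1) ^ (-(1 : ℝ) / 8))⁻¹) ^ (4 * T)

lemma choose_mul_le {z : ℝ} (hz0 : 0 ≤ z) (hz1 : z ≤ 1) :
    ∀ T' m : ℕ, ((m + T').choose T' : ℝ) * z ^ m * (1 - z) ^ (T' + 1) ≤ 1 := by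
  have h1z : 0 ≤ 1 - z := by linarith
  have h1z' : 1 - z ≤ 1 := by linarith
  intro T'
  induction T' with
  | zero =>
    intro m
    simp only [add_zero, Nat.choose_zero_right, Nat.cast_one, one_mul, zero_add, pow_one]
    calc z ^ m * (1 - z) ≤ 1 * 1 :=
          mul_le_mul (pow_le_one₀ hz0 hz1) h1z' h1z (by norm_num)
      _ = 1 := by norm_num
  | succ T' ih =>
    intro m
    induction m with
    | zero =>
      simp only [zero_add, Nat.choose_self, Nat.cast_one, one_mul, pow_zero]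
      exact pow_le_one₀ h1z h1z'
    | succ m ihm =>
      have e : ((m + 1 + (T' + 1)).choose (T' + 1) : ℝ) =
          ((m + 1 + T').choose T' : ℝ) + ((m + (T' + 1)).choose (T' + 1) : ℝ) := by
        have h1 : m + 1 + (T' + 1) = (m + 1 + T') + 1 := by ring
        have h2 : m + (T' + 1) = m + 1 + T' := by ring
        rw [h1, Nat.choose_succ_succ, h2]
        push_cast
        ring
      rw [e]
      have h3 := ih (m + 1)
      have e2 : (((m + 1 + T').choose T' : ℝ) + ((m + (T' + 1)).choose (T' + 1) : ℝ)) * z ^ (m + 1) *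
          (1 - z) ^ (T' + 1 + 1) =
          (1 - z) * (((m + 1 + T').choose T' : ℝ) * z ^ (m + 1) * (1 - z) ^ (T' + 1)) +
          z * (((m + (T' + 1)).choose (T' + 1) : ℝ) * z ^ m * (1 - z) ^ (T' + 1 + 1)) := by
        ring
      rw [e2]
      calc _ ≤ (1 - z) * 1 + z * 1 := by gcongr
        _ = 1 := by ring

/-- `C(m + T - 1, T - 1) ≤ e^{m w} (1 - e^{-w})^{-T}`. -/
lemma choose_le_exp {T : ℕ} (hT : 1 ≤ T) (m : ℕ) {w : ℝ} (hw : 0 < w) :
    ((m + T - 1).choose (T - 1) : ℝ) ≤ Real.exp (m * w) * ((1 - Real.exp (-w))⁻¹) ^ T := by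
  obtain ⟨T', rfl⟩ : ∃ T', T = T' + 1 := ⟨T - 1, by omega⟩
  have hz0 : 0 < Real.exp (-w) := Real.exp_pos _
  have hz1 : Real.exp (-w) < 1 := by simpa using Real.exp_lt_exp.2 (by linarith : -w < 0)
  have h := choose_mul_le hz0.le hz1.le T' m
  have h1 : 0 < 1 - Real.exp (-w) := by linarith
  have e1 : m + (T' + 1) - 1 = m + T' := by omega
  have e2 : T' + 1 - 1 = T' := by omega
  rw [e1, e2, inv_pow]
  have e3 : Real.exp (m * w) = (Real.exp (-w) ^ m)⁻¹ := by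
    rw [← Real.exp_nat_mul, ← Real.exp_neg]
    congr 1
    ring
  have hp : 0 < Real.exp (-w) ^ m * (1 - Real.exp (-w)) ^ (T' + 1) :=
    mul_pos (pow_pos hz0 _) (pow_pos h1 _)
  rw [e3, ← mul_inv, ← one_div, le_div_iff₀ hp]
  calc ((m + T').choose T' : ℝ) * (Real.exp (-w) ^ m * (1 - Real.exp (-w)) ^ (T' + 1))
      = ((m + T').choose T' : ℝ) * Real.exp (-w) ^ m * (1 - Real.exp (-w)) ^ (T' + 1) := by ring
    _ ≤ 1 := h

/-- the `z_a` factors -/
lemma za_eq {δ : ℝ} (a : ℕ) :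
    Real.exp (-δ / 4) * ((a : ℝ) + 1) ^ (-(1 : ℝ) / 8) =
      Real.exp (-(δ / 4 + Real.log ((a : ℝ) + 1) / 8)) := by
  have h : (0 : ℝ) < (a : ℝ) + 1 := by positivity
  rw [Real.rpow_def_of_pos h, ← Real.exp_add]
  congr 1
  ring

lemma w_pos {δ : ℝ} (hδ : 0 < δ) (a : ℕ) : 0 < δ / 4 + Real.log ((a : ℝ) + 1) / 8 := by
  have : 0 ≤ Real.log ((a : ℝ) + 1) := Real.log_nonneg (by
    have : (0 : ℝ) ≤ a := by positivity
    linarith)
  positivity

lemma inv_one_sub_exp_ge {w : ℝ} (hw : 0 < w) : 1 ≤ (1 - Real.exp (-w))⁻¹ := by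
  have hz0 : 0 < Real.exp (-w) := Real.exp_pos _
  have hz1 : Real.exp (-w) < 1 := by simpa using Real.exp_lt_exp.2 (by linarith : -w < 0)
  rw [one_le_inv₀ (by linarith)]
  linarith

/-- `Xi ≥ 1`. -/
theorem one_le_Xi (T : ℕ) {δ δ' : ℝ} (hδ : 0 < δ) (hδ' : 0 < δ') : 1 ≤ Xi T δ δ' := by
  unfold Xi
  have h1 : 1 ≤ ((1 - Real.exp (-δ'))⁻¹) ^ (2 * T) := one_le_pow₀ (inv_one_sub_exp_ge hδ')
  have h2 : 1 ≤ ∏ a : Fin T, ((1 - Real.exp (-δ / 4) * ((a : ℝ) + 1) ^ (-(1 : ℝ) / 8))⁻¹) ^ (4 * T) := by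
    calc (1 : ℝ) = ∏ _a : Fin T, (1 : ℝ) := by simp
      _ ≤ _ := by
        refine Finset.prod_le_prod (fun _ _ => zero_le_one) (fun a _ => ?_)
        apply one_le_pow₀
        have := za_eq (δ := δ) (a : ℕ)
        have e : ((a : ℕ) : ℝ) = (a : ℝ) := rfl
        rw [e] at this
        rw [this]
        exact inv_one_sub_exp_ge (w_pos hδ _)
  calc (1 : ℝ) = 1 * 1 := by norm_num
    _ ≤ _ := mul_le_mul h1 h2 (by norm_num) (by linarith)

variable {T i : ℕ}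

/-- a word of prescribed content -/
lemma exists_word (μ : Comp T i) : ∃ c : Fin i → Fin T, ∀ a, #{p | c p = a} = μ.1 a := by
  have hc : Fintype.card (Σ a : Fin T, Fin (μ.1 a)) = i := by
    simp [μ.2]
  let e : (Σ a : Fin T, Fin (μ.1 a)) ≃ Fin i := Fintype.equivFinOfCardEq hc
  refine ⟨fun p => (e.symm p).1, fun a => ?_⟩
  have h1 : #{p : Fin i | (e.symm p).1 = a} = #{x : Σ a : Fin T, Fin (μ.1 a) | x.1 = a} := by
    refine Finset.card_equiv e.symm (fun p => ?_)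
    simp
  rw [h1]
  have h2 : Fintype.card {x : Σ a : Fin T, Fin (μ.1 a) // x.1 = a} = μ.1 a := by
    rw [Fintype.card_congr (Equiv.sigmaSubtype a)]
    simp
  rw [← h2, Fintype.card_subtype]

lemma prod_word (c : Fin i → Fin T) (g : Fin T → ℝ) :
    ∏ p, g (c p) = ∏ a, g a ^ #{p | c p = a} := by
  rw [← Finset.prod_fiberwise (s := univ) (g := c)]
  apply Finset.prod_congr rfl
  intro a _
  have : ∀ p ∈ ({p | c p = a} : Finset (Fin i)), g (c p) = g a := by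
    intro p hp
    rw [(mem_filter.1 hp).2]
  rw [Finset.prod_congr rfl this, Finset.prod_const]

/-- The multinomial mode bound: `e^{E} · Π μ_a! ≤ C · i!`. -/
lemma exp_EE_le (hT : 1 ≤ T) (hi : 1 ≤ i) (μ : Comp T i) :
    Real.exp (EE i μ.1) * (∏ a, ((μ.1 a)! : ℝ)) ≤
      ((i + T - 1).choose (T - 1) : ℝ) * (i ! : ℝ) := by
  obtain ⟨c₀, hc₀⟩ := exists_word μ
  let w₀ : Fin i → Unit := fun _ => ()
  have hcnt : ∀ (c : Fin i → Fin T) (q : Unit × Fin T), cnt w₀ c q = #{p | c p = q.2} := by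
    intro c q
    unfold cnt pw
    congr 1
    ext p
    simp [Prod.ext_iff, w₀]
  have hbig : ∀ a : Unit, #{p | w₀ p = a} = i := by
    intro a
    have : ({p | w₀ p = a} : Finset (Fin i)) = univ := by
      ext p
      simp [w₀]
    rw [this]
    simp
  have hfact : fib w₀ c₀ * ∏ a, (μ.1 a)! = i ! := by
    have h1 := card_fib_mul w₀ c₀
    have hprod : ∏ q : Unit × Fin T, (cnt w₀ c₀ q)! = ∏ a, (μ.1 a)! := by
      rw [Fintype.prod_prod_type]
      simp [hcnt, hc₀]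
    have h2 : ∏ a : Unit, (#{p | w₀ p = a})! = i ! := by
      rw [Fintype.prod_unique, hbig]
    rw [hprod, h2] at h1
    exact h1
  have hmode := mode_bound w₀ c₀
  -- number of types
  have htypes : #(univ.image (cnt w₀ (C := Fin T))) ≤ Fintype.card (Comp T i) := by
    let row : (Fin i → Fin T) → Comp T i := fun c =>
      ⟨fun b => cnt w₀ c ((), b), by
        have := sum_cnt_row w₀ c ()
        rw [hbig] at this
        exact this⟩
    let dec' : Comp T i → (Unit × Fin T → ℕ) := fun P q => P.1 q.2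
    have h : univ.image (cnt w₀ (C := Fin T)) = (univ.image row).image dec' := by
      rw [Finset.image_image]
      rfl
    rw [h]
    exact Finset.card_image_le.trans (Finset.card_le_univ _)
  have hC : Fintype.card (Comp T i) = (i + T - 1).choose (T - 1) := card_comp' hT i
  rw [hC] at htypes
  have hi0 : (0 : ℝ) < i := by exact_mod_cast hi
  -- evaluate `PP`
  have hPP : PP w₀ (cnt w₀ c₀) c₀ = Real.exp (-EE i μ.1) := by
    have h1 : PP w₀ (cnt w₀ c₀) c₀ = ∏ p, ((μ.1 (c₀ p) : ℝ) / i) := by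
      unfold PP
      apply Finset.prod_congr rfl
      intro p _
      rw [hcnt, hbig, hc₀]
    rw [h1, prod_word c₀ (fun a => (μ.1 a : ℝ) / i)]
    unfold EE
    rw [← Finset.sum_neg_distrib, Real.exp_sum]
    apply Finset.prod_congr rfl
    intro a _
    rw [hc₀ a]
    rcases Nat.eq_zero_or_pos (μ.1 a) with h0 | h0
    · simp [h0]
    · have hp : (0 : ℝ) < μ.1 a := by exact_mod_cast h0
      have hx : (0 : ℝ) < (μ.1 a : ℝ) / i := div_pos hp hi0
      have e : Real.log ((i : ℝ) / μ.1 a) = - Real.log ((μ.1 a : ℝ) / i) := by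
        rw [← Real.log_inv, inv_div]
      rw [e, mul_neg, neg_neg, Real.exp_nat_mul, Real.exp_log hx]
  have hfib : 0 < (fib w₀ c₀ : ℝ) := by exact_mod_cast fib_pos w₀ c₀
  rw [hPP] at hmode
  have hCpos : (0 : ℝ) < ((i + T - 1).choose (T - 1) : ℝ) := by
    exact_mod_cast Nat.choose_pos (by omega)
  have h2 : ((#(univ.image (cnt w₀ (C := Fin T))) : ℕ) : ℝ) ≤ ((i + T - 1).choose (T - 1) : ℝ) := by
    exact_mod_cast htypes
  have h3 : 1 ≤ ((i + T - 1).choose (T - 1) : ℝ) * ((fib w₀ c₀ : ℝ) * Real.exp (-EE i μ.1)) :=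
    hmode.trans (mul_le_mul_of_nonneg_right h2 (by positivity))
  have h4 : Real.exp (EE i μ.1) ≤ ((i + T - 1).choose (T - 1) : ℝ) * (fib w₀ c₀ : ℝ) := by
    have h5 := mul_le_mul_of_nonneg_left h3 (Real.exp_pos (EE i μ.1)).le
    have h6 : Real.exp (EE i μ.1) * Real.exp (-EE i μ.1) = 1 := by
      rw [← Real.exp_add]
      simp
    calc Real.exp (EE i μ.1) = Real.exp (EE i μ.1) * 1 := by ring
      _ ≤ Real.exp (EE i μ.1) * (((i + T - 1).choose (T - 1) : ℝ) *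
            ((fib w₀ c₀ : ℝ) * Real.exp (-EE i μ.1))) := h5
      _ = ((i + T - 1).choose (T - 1) : ℝ) * (fib w₀ c₀ : ℝ) *
            (Real.exp (EE i μ.1) * Real.exp (-EE i μ.1)) := by ring
      _ = _ := by rw [h6, mul_one]
  have hfactR : (fib w₀ c₀ : ℝ) * ∏ a, ((μ.1 a)! : ℝ) = (i ! : ℝ) := by
    exact_mod_cast hfact
  calc Real.exp (EE i μ.1) * (∏ a, ((μ.1 a)! : ℝ))
      ≤ (((i + T - 1).choose (T - 1) : ℝ) * (fib w₀ c₀ : ℝ)) * (∏ a, ((μ.1 a)! : ℝ)) :=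
        mul_le_mul_of_nonneg_right h4 (Finset.prod_nonneg fun _ _ => by positivity)
    _ = ((i + T - 1).choose (T - 1) : ℝ) * ((fib w₀ c₀ : ℝ) * ∏ a, ((μ.1 a)! : ℝ)) := by ring
    _ = _ := by rw [hfactR]

/-- antitone compositions: the `a`-th part is at most `i / (a + 1)`. -/
lemma succ_mul_le {μ : Comp T i} (hμ : Antitone μ.1) (a : Fin T) :
    ((a : ℕ) + 1) * μ.1 a ≤ i := by
  have h1 : ∑ _b ∈ Finset.Iic a, μ.1 a ≤ ∑ b ∈ Finset.Iic a, μ.1 b :=
    Finset.sum_le_sum fun b hb => hμ (Finset.mem_Iic.1 hb)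
  have h2 : ∑ b ∈ Finset.Iic a, μ.1 b ≤ ∑ b, μ.1 b :=
    Finset.sum_le_sum_of_subset (Finset.subset_univ _)
  rw [Finset.sum_const, Fin.card_Iic, smul_eq_mul] at h1
  have h3 := μ.2
  omega

lemma sum_log_le {μ : Comp T i} (hi : 1 ≤ i) (hμ : Antitone μ.1) :
    ∑ a : Fin T, (μ.1 a : ℝ) * Real.log ((a : ℝ) + 1) ≤ EE i μ.1 := by
  unfold EE
  apply Finset.sum_le_sum
  intro a _
  rcases Nat.eq_zero_or_pos (μ.1 a) with h0 | h0
  · simp [h0]
  · apply mul_le_mul_of_nonneg_left _ (by positivity)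
    apply Real.log_le_log (by positivity)
    have hp : (0 : ℝ) < μ.1 a := by exact_mod_cast h0
    rw [le_div_iff₀ hp]
    have := succ_mul_le hμ a
    have h2 : (((a : ℕ) + 1 : ℕ) : ℝ) * (μ.1 a : ℝ) ≤ (i : ℝ) := by exact_mod_cast this
    push_cast at h2
    exact h2

lemma sum_mu (μ : Comp T i) : ∑ a, (μ.1 a : ℝ) = i := by
  exact_mod_cast μ.2

/-- `D⁴ e^{-E/2} ≤ e^{δ i} Π_a (1 - z_a)^{-4T}`. -/
lemma DD_pow_le (hT : 1 ≤ T) (hi : 1 ≤ i) {δ : ℝ} (hδ : 0 < δ) {μ : Comp T i} (hμ : Antitone μ.1) :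
    (DD μ.1 : ℝ) ^ 4 * Real.exp (-(EE i μ.1 / 2)) ≤
      Real.exp (i * δ) *
        ∏ a : Fin T, ((1 - Real.exp (-δ / 4) * ((a : ℝ) + 1) ^ (-(1 : ℝ) / 8))⁻¹) ^ (4 * T) := by
  set w : Fin T → ℝ := fun a => δ / 4 + Real.log ((a : ℝ) + 1) / 8 with hw
  have hw0 : ∀ a, 0 < w a := fun a => w_pos hδ (a : ℕ)
  have hz : ∀ a : Fin T, Real.exp (-δ / 4) * ((a : ℝ) + 1) ^ (-(1 : ℝ) / 8) = Real.exp (-w a) := by
    intro a
    exact za_eq (a : ℕ)
  simp only [hz]
  have hC : ∀ a : Fin T, (((μ.1 a + T - 1).choose (T - 1) : ℕ) : ℝ) ^ 4 ≤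
      Real.exp (4 * (μ.1 a * w a)) * ((1 - Real.exp (-w a))⁻¹) ^ (4 * T) := by
    intro a
    have h1 := choose_le_exp hT (μ.1 a) (hw0 a)
    have hn : (0 : ℝ) ≤ (((μ.1 a + T - 1).choose (T - 1) : ℕ) : ℝ) := by positivity
    calc (((μ.1 a + T - 1).choose (T - 1) : ℕ) : ℝ) ^ 4
        ≤ (Real.exp (μ.1 a * w a) * ((1 - Real.exp (-w a))⁻¹) ^ T) ^ 4 :=
          pow_le_pow_left₀ hn h1 4
      _ = _ := by
          rw [mul_pow, ← Real.exp_nat_mul, ← pow_mul, mul_comm T 4]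
          norm_num
  have hD : (DD μ.1 : ℝ) ^ 4 ≤ ∏ a : Fin T, (Real.exp (4 * (μ.1 a * w a)) *
      ((1 - Real.exp (-w a))⁻¹) ^ (4 * T)) := by
    unfold DD
    push_cast
    rw [← Finset.prod_pow]
    exact Finset.prod_le_prod (fun a _ => by positivity) (fun a _ => hC a)
  rw [Finset.prod_mul_distrib, ← Real.exp_sum] at hD
  have hsum : ∑ a : Fin T, 4 * ((μ.1 a : ℝ) * w a) =
      i * δ + (∑ a : Fin T, (μ.1 a : ℝ) * Real.log ((a : ℝ) + 1)) / 2 := by
    have : ∀ a : Fin T, 4 * ((μ.1 a : ℝ) * w a) =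
        (μ.1 a : ℝ) * δ + (μ.1 a : ℝ) * Real.log ((a : ℝ) + 1) / 2 := by
      intro a
      simp only [hw]
      ring
    simp only [this]
    rw [Finset.sum_add_distrib, ← Finset.sum_mul, sum_mu, Finset.sum_div]
  rw [hsum] at hD
  set S : ℝ := ∑ a : Fin T, (μ.1 a : ℝ) * Real.log ((a : ℝ) + 1) with hS
  have hE := sum_log_le hi hμ
  rw [← hS] at hE
  set P : ℝ := ∏ a : Fin T, ((1 - Real.exp (-w a))⁻¹) ^ (4 * T) with hP
  have hP0 : 0 ≤ P := Finset.prod_nonneg fun a _ => by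
    have hz1 : Real.exp (-w a) < 1 := by simpa using Real.exp_lt_exp.2 (by linarith [hw0 a] : -w a < 0)
    have : 0 < (1 - Real.exp (-w a))⁻¹ := inv_pos.2 (by linarith)
    positivity
  calc (DD μ.1 : ℝ) ^ 4 * Real.exp (-(EE i μ.1 / 2))
      ≤ (Real.exp (i * δ + S / 2) * P) * Real.exp (-(EE i μ.1 / 2)) :=
        mul_le_mul_of_nonneg_right hD (Real.exp_pos _).le
    _ = Real.exp (i * δ) * P * (Real.exp (S / 2) * Real.exp (-(EE i μ.1 / 2))) := by
        rw [Real.exp_add]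
        ring
    _ = Real.exp (i * δ) * P * Real.exp (S / 2 - EE i μ.1 / 2) := by
        rw [← Real.exp_add]
        congr 2
    _ ≤ Real.exp (i * δ) * P * 1 := by
        apply mul_le_mul_of_nonneg_left _ (by positivity)
        rw [Real.exp_le_one_iff]
        linarith
    _ = _ := by ring

theorem ck_bound {T N i : ℕ} (hT : 1 ≤ T) (hi : 1 ≤ i) (hiN : i ≤ N) {δ δ' : ℝ} (hδ : 0 < δ)
    (hδ' : 0 < δ') (μ : Comp T i) (hμ : Antitone μ.1) (d : ℕ)
    (hd : i ! ≤ d * (∏ a, (μ.1 a)!) * DD μ.1) :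
    (DD μ.1 : ℝ) ≤ (√2 * N * Real.exp (i * (δ + 2 * δ')) * Xi T δ δ') *
      (Real.exp (-(EE i μ.1 / 2)) / (√2 * N * ((i + T - 1).choose (T - 1) : ℕ) * (DD μ.1 : ℝ) ^ 2)) *
        d := by
  have hN0 : (0 : ℝ) < N := by exact_mod_cast (by omega : 0 < N)
  have hs2 : (0 : ℝ) < √2 := by positivity
  set C : ℝ := (((i + T - 1).choose (T - 1) : ℕ) : ℝ) with hC
  set D : ℝ := (DD μ.1 : ℝ) with hD
  set E : ℝ := EE i μ.1 with hE
  have hC0 : 0 < C := by
    rw [hC]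
    exact_mod_cast Nat.choose_pos (by omega)
  have hD0 : 0 < D := by
    rw [hD]
    unfold DD
    exact_mod_cast Finset.prod_pos fun a _ => Nat.choose_pos (by omega)
  have hPi : (0 : ℝ) < ∏ a, ((μ.1 a)! : ℝ) := Finset.prod_pos fun a _ => by positivity
  -- mode + Frobenius bound
  have h1 : Real.exp E ≤ C * (d * D) := by
    have hm := exp_EE_le hT hi μ
    have hd' : ((i ! : ℕ) : ℝ) ≤ d * (∏ a, ((μ.1 a)! : ℝ)) * D := by
      rw [hD]
      exact_mod_cast hd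
    have h2 : Real.exp E * (∏ a, ((μ.1 a)! : ℝ)) ≤ (C * (d * D)) * (∏ a, ((μ.1 a)! : ℝ)) := by
      calc Real.exp E * (∏ a, ((μ.1 a)! : ℝ)) ≤ C * ((i ! : ℕ) : ℝ) := hm
        _ ≤ C * (d * (∏ a, ((μ.1 a)! : ℝ)) * D) := mul_le_mul_of_nonneg_left hd' hC0.le
        _ = _ := by ring
    exact le_of_mul_le_mul_right h2 hPi
  have h2 : 1 ≤ C * (d * D) * Real.exp (-E) := by
    have h3 := mul_le_mul_of_nonneg_right h1 (Real.exp_pos (-E)).le
    have h4 : Real.exp E * Real.exp (-E) = 1 := by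
      rw [← Real.exp_add]
      simp
    rwa [h4] at h3
  -- the two generating function bounds
  have h5 : C ^ 2 ≤ Real.exp (2 * (i * δ')) * ((1 - Real.exp (-δ'))⁻¹) ^ (2 * T) := by
    have h6 := choose_le_exp hT i hδ'
    calc C ^ 2 ≤ (Real.exp (i * δ') * ((1 - Real.exp (-δ'))⁻¹) ^ T) ^ 2 :=
          pow_le_pow_left₀ hC0.le h6 2
      _ = _ := by
          rw [mul_pow, ← Real.exp_nat_mul, ← pow_mul, mul_comm T 2]
          norm_num
  have h7 := DD_pow_le hT hi hδ hμ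
  rw [← hD, ← hE] at h7
  set P : ℝ := ∏ a : Fin T, ((1 - Real.exp (-δ / 4) * ((a : ℝ) + 1) ^ (-(1 : ℝ) / 8))⁻¹) ^ (4 * T)
    with hP
  set A : ℝ := ((1 - Real.exp (-δ'))⁻¹) ^ (2 * T) with hA
  have hA0 : 0 ≤ A := by
    have hz1 : Real.exp (-δ') < 1 := by simpa using Real.exp_lt_exp.2 (by linarith : -δ' < 0)
    have : 0 < (1 - Real.exp (-δ'))⁻¹ := inv_pos.2 (by linarith)
    rw [hA]
    positivity
  have hXi : Xi T δ δ' = A * P := rfl
  have hR : C ^ 2 * (D ^ 4 * Real.exp (-(E / 2))) ≤ Real.exp (i * (δ + 2 * δ')) * Xi T δ δ' := by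
    have h8 : Real.exp (i * (δ + 2 * δ')) = Real.exp (2 * (i * δ')) * Real.exp (i * δ) := by
      rw [← Real.exp_add]
      congr 1
      ring
    rw [h8, hXi]
    calc C ^ 2 * (D ^ 4 * Real.exp (-(E / 2)))
        ≤ (Real.exp (2 * (i * δ')) * A) * (Real.exp (i * δ) * P) :=
          mul_le_mul h5 h7 (by positivity) (by positivity)
      _ = _ := by ring
  -- conclude
  have hfinal : D * (C * D ^ 2) ≤ Real.exp (i * (δ + 2 * δ')) * Xi T δ δ' * Real.exp (-(E / 2)) * d := by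
    have h9 : Real.exp (-E) = Real.exp (-(E / 2)) * Real.exp (-(E / 2)) := by
      rw [← Real.exp_add]
      congr 1
      ring
    have h10 : D * (C * D ^ 2) * 1 ≤ D * (C * D ^ 2) * (C * (d * D) * Real.exp (-E)) :=
      mul_le_mul_of_nonneg_left h2 (by positivity)
    have h11 : D * (C * D ^ 2) * (C * (d * D) * Real.exp (-E)) =
        (C ^ 2 * (D ^ 4 * Real.exp (-(E / 2)))) * (Real.exp (-(E / 2)) * d) := by
      rw [h9]
      ring
    rw [mul_one, h11] at h10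
    refine h10.trans ?_
    calc (C ^ 2 * (D ^ 4 * Real.exp (-(E / 2)))) * (Real.exp (-(E / 2)) * d)
        ≤ (Real.exp (i * (δ + 2 * δ')) * Xi T δ δ') * (Real.exp (-(E / 2)) * d) :=
          mul_le_mul_of_nonneg_right hR (by positivity)
      _ = _ := by ring
  have e : (√2 * N * Real.exp (i * (δ + 2 * δ')) * Xi T δ δ') *
      (Real.exp (-(E / 2)) / (√2 * N * C * D ^ 2)) * d =
      (Real.exp (i * (δ + 2 * δ')) * Xi T δ δ' * Real.exp (-(E / 2)) * d) / (C * D ^ 2) := by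
    field_simp
  rw [e, le_div_iff₀ (by positivity)]
  exact hfinal

end Crest.Agent.S0222Lib.JBnum
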