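import Crest.Agent.S0222Lib.JBlock

/-!
# S0222: the block recursion of Theorem J, part 2: the column bound
-/

set_option autoImplicit false
set_option linter.unusedSectionVars false

namespace Crest.Agent.S0222Lib.JCore

open Matrix
open scoped Kronecker ComplexOrder
open Crest.Agent.S0222Lib.Site

section PosDefExtra

variable {n : Type*} [Fintype n] [DecidableEq n]

lemma posDef_sum_smul {I : Type*} [Fintype I] [Nonempty I] (w : I → ℝ) (hw : ∀ i, 0 < w i)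
    (M : I → Matrix n n ℂ) (hM : ∀ i, (M i).PosDef) : (∑ i, (w i : ℂ) • M i).PosDef := by
  classical
  obtain ⟨i0⟩ := ‹Nonempty I›
  rw [← Finset.add_sum_erase Finset.univ _ (Finset.mem_univ i0)]
  have h0 : ((w i0 : ℂ) • M i0).PosDef := (hM i0).smul (by exact_mod_cast hw i0)
  refine h0.add_posSemidef (Matrix.posSemidef_sum _ (fun i _ => ?_))
  exact (hM i).posSemidef.smul (by exact_mod_cast (hw i).le)

lemma tp_posDef {κ ι : Type*} [Fintype κ] [DecidableEq κ] [Fintype ι] [DecidableEq ι]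
    {A : κ → Matrix ι ι ℂ} (h : ∀ k, (A k).PosDef) : (tp A).PosDef := by
  refine (tp_posSemidef (fun k => (h k).posSemidef)).posDef_iff_isUnit.mpr ?_
  refine IsUnit.of_mul_eq_one (tp (fun k => (A k)⁻¹)) ?_
  rw [tp_mul]
  have : (fun k => A k * (A k)⁻¹) = fun _ => (1 : Matrix ι ι ℂ) := by
    funext k
    exact Matrix.mul_nonsing_inv _ ((Matrix.isUnit_iff_isUnit_det _).mp (h k).isUnit)
  rw [this, tp_one]

end PosDefExtra

section Global

variable {κ Tok Col : Type*} [Fintype κ] [DecidableEq κ] [Fintype Tok] [DecidableEq Tok]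
  [Fintype Col] [DecidableEq Col] (od : Tok ⊕ Col → Bool)

/-- The pair word `w` is in the block of `ℓ, t`. -/
def inB2 (ℓ : Tok → Option κ) (t : Tok → Bool) (w : κ → (Tok ⊕ Col) × (Tok ⊕ Col)) : Prop :=
  ∀ p, locOK ℓ t p (w p)

/-- The block projection on pair words. -/
noncomputable abbrev PiB2 (ℓ : Tok → Option κ) (t : Tok → Bool) :
    Matrix (κ → (Tok ⊕ Col) × (Tok ⊕ Col)) (κ → (Tok ⊕ Col) × (Tok ⊕ Col)) ℂ :=
  dp (inB2 ℓ t)

lemma tp_piLoc (ℓ : Tok → Option κ) (t : Tok → Bool) :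
    tp (fun p => (piLoc ℓ t p : Matrix ((Tok ⊕ Col) × (Tok ⊕ Col)) ((Tok ⊕ Col) × (Tok ⊕ Col)) ℂ)) =
      PiB2 ℓ t := by
  classical
  unfold PiB2 dp piLoc
  simp only [dp]
  rw [tp_diagonal]
  congr 1
  funext w
  by_cases h : inB2 ℓ t w
  · rw [if_pos h]
    exact Finset.prod_eq_one (fun p _ => if_pos (h p))
  · rw [if_neg h]
    obtain ⟨p, hp⟩ : ∃ p, ¬ locOK ℓ t p (w p) := by
      by_contra hall
      push_neg at hall
      exact h hall
    exact Finset.prod_eq_zero (Finset.mem_univ p) (if_neg hp)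

/-- The symmetrizer on pair words. -/
noncomputable abbrev PP (κ : Type*) [Fintype κ] [DecidableEq κ] (od : Tok ⊕ Col → Bool) :
    Matrix (κ → (Tok ⊕ Col) × (Tok ⊕ Col)) (κ → (Tok ⊕ Col) × (Tok ⊕ Col)) ℂ :=
  tp (fun _ : κ => PiS od)

lemma PP_isHermitian : (PP κ od).IsHermitian :=
  tp_isHermitian (fun _ => PiS_isHermitian od)

/-- The global transfer. -/
lemma tp_Tloc (ℓ : Tok → Option κ) (t s : Tok → Bool) :
    tp (fun p => Tloc od ℓ t s p) = PiB2 ℓ t * PP κ od * PiB2 ℓ s := by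
  rw [← tp_piLoc, ← tp_piLoc, tp_mul, tp_mul]

lemma tp_Tloc_conj (ℓ : Tok → Option κ) (t s : Tok → Bool) :
    (PiB2 ℓ t * PP κ od * PiB2 ℓ s)ᴴ = PiB2 ℓ s * PP κ od * PiB2 ℓ t := by
  simp only [Matrix.conjTranspose_mul, dp_conjTranspose, (PP_isHermitian od).eq, Matrix.mul_assoc]

/-- The pair `p` is occupied. -/
def Occ (ℓ : Tok → Option κ) (p : κ) : Prop := ∃ a, ℓ a = some p

open Classical in
/-- The weight of the occupied pairs. -/
noncomputable def dd (ℓ : Tok → Option κ) : ℂ := ∏ p, if Occ ℓ p then (1 / 4 : ℂ) else 1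

open Classical in
/-- The number of occupied pairs. -/
noncomputable def occ (ℓ : Tok → Option κ) : ℕ := (Finset.univ.filter (fun p => Occ ℓ p)).card

lemma dd_eq (ℓ : Tok → Option κ) : dd ℓ = (1 / 4 : ℂ) ^ occ ℓ := by
  classical
  unfold dd occ
  rw [Finset.prod_ite]
  simp

lemma dd_re_pos (ℓ : Tok → Option κ) : dd ℓ = (((1 / 4 : ℝ) ^ occ ℓ : ℝ) : ℂ) := by
  rw [dd_eq]
  push_cast
  rfl

open Classical in
/-- The flip bit of `t` relative to `s` at the pair `p`. -/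
noncomputable def flipBit (ℓ : Tok → Option κ) (s : Tok → Bool) (p : κ) (t : Tok → Bool) : Bool :=
  if h : Occ ℓ p then xor (t h.choose) (s h.choose) else false

open Classical in
/-- The pairs with exactly one token. -/
noncomputable def activeSet (ℓ : Tok → Option κ) : Finset κ :=
  Finset.univ.filter (fun p => ∃ a, ℓ a = some p ∧ ∀ b, ℓ b = some p → b = a)

/-- The involution hypothesis on a set of assignments. -/
def FlipProp (ℓ : Tok → Option κ) (s : Tok → Bool) (S : Finset (Tok → Bool)) : Prop :=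
  ∀ p ∈ activeSet ℓ, ∃ ψ : (Tok → Bool) → (Tok → Bool), ∃ q : κ,
    (∀ t ∈ S, ψ t ∈ S) ∧ (∀ t ∈ S, ψ (ψ t) = t) ∧
    (∀ t ∈ S, flipBit ℓ s p (ψ t) = !flipBit ℓ s p t) ∧
    (∀ t ∈ S, ∀ r ∈ activeSet ℓ, r ≠ p → r ≠ q → flipBit ℓ s r (ψ t) = flipBit ℓ s r t) ∧
    (q ≠ p → ∀ t ∈ S, flipBit ℓ s q (ψ t) = !flipBit ℓ s q t)

/-- **The column bound for one term of the mixture.** -/
theorem col_term (ℓ : Tok → Option κ) (s : Tok → Bool) (hs : InjT ℓ s) (S : Finset (Tok → Bool))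
    (hSinj : ∀ t ∈ S, InjT ℓ t) (hflip : FlipProp ℓ s S)
    {a b c : Matrix (Tok ⊕ Col) (Tok ⊕ Col) ℂ} (hap : a.PosSemidef) (hbp : b.PosSemidef)
    (hcp : c.PosSemidef) (ha : TokId a) (hb : TokId b) (hc : TokId c)
    (hae : EvenM od a) (hbe : EvenM od b) (hce : EvenM od c)
    (h : c * c = (1 / 2 : ℂ) • (a * a + b * b)) :
    ((dd ℓ * (S.card : ℂ)) • tp (fun p => Gloc ℓ s p c) -
      ∑ t ∈ S, (PiB2 ℓ t * PP κ od * PiB2 ℓ s)ᴴ * tp (fun _ : κ => a ⊗ₖ b) *
        (PiB2 ℓ t * PP κ od * PiB2 ℓ s)).PosSemidef := by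
  classical
  -- the local operators
  set AA : Bool → κ → Matrix ((Tok ⊕ Col) × (Tok ⊕ Col)) ((Tok ⊕ Col) × (Tok ⊕ Col)) ℂ :=
    fun e p => if Occ ℓ p then Aloc ℓ s p a b e else Gloc ℓ s p c with hAA
  have hAAp : ∀ e p, (AA e p).PosSemidef := by
    intro e p
    by_cases hp : Occ ℓ p
    · simpa [hAA, hp] using Aloc_psd ℓ s p hap hbp e
    · simpa [hAA, hp] using Gloc_psd ℓ s p hcp
  have hGp : ∀ p, (Gloc ℓ s p c).PosSemidef := fun p => Gloc_psd ℓ s p hcp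
  have hsq : ∀ p, Gloc ℓ s p c * Gloc ℓ s p c =
      (1 / 2 : ℂ) • (AA false p * AA false p + AA true p * AA true p) := by
    intro p
    by_cases hp : Occ ℓ p
    · simp only [hAA, hp, if_true]
      obtain ⟨a0, h0⟩ := hp
      exact sq_occ h0 ha hb hc h
    · simp only [hAA, hp, if_false]
      rw [← two_smul ℂ, smul_smul]
      norm_num
  have hsum := sum_tp_le S AA (fun p => Gloc ℓ s p c) (fun p t => flipBit ℓ s p t) (activeSet ℓ)
    hAAp hGp hsq hflip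
  -- comparison of each term
  set HH : (Tok → Bool) → κ → Matrix ((Tok ⊕ Col) × (Tok ⊕ Col)) ((Tok ⊕ Col) × (Tok ⊕ Col)) ℂ :=
    fun t p => if p ∈ activeSet ℓ then AA (flipBit ℓ s p t) p else Gloc ℓ s p c with hHH
  set Fh : (Tok → Bool) → κ → Matrix ((Tok ⊕ Col) × (Tok ⊕ Col)) ((Tok ⊕ Col) × (Tok ⊕ Col)) ℂ :=
    fun t p => if Occ ℓ p then AA (flipBit ℓ s p t) p else
      (Tloc od ℓ t s p)ᴴ * (a ⊗ₖ b) * Tloc od ℓ t s p with hFh
  have hkp : (a ⊗ₖ b).PosSemidef := hap.kronecker hbp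
  have hLHS : ∀ t ∈ S, (PiB2 ℓ t * PP κ od * PiB2 ℓ s)ᴴ * tp (fun _ : κ => a ⊗ₖ b) *
        (PiB2 ℓ t * PP κ od * PiB2 ℓ s) = dd ℓ • tp (Fh t) := by
    intro t ht
    rw [← tp_Tloc od, tp_conjTranspose, tp_mul, tp_mul, dd, ← tp_smul_sites]
    congr 1
    funext p
    by_cases hp : Occ ℓ p
    · have h0 := hp.choose_spec
      have hrel := rel_of_inj (hSinj t ht) hs h0
      rw [Tloc_conj_kron od hrel h0 hae hbe]
      simp only [hFh, hAA, hp, if_true, flipBit, dif_pos]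
    · simp only [hFh, hp, if_false, one_smul]
  have hFhP : ∀ t p, (Fh t p).PosSemidef := by
    intro t p
    by_cases hp : Occ ℓ p
    · simp only [hFh, hp, if_true]; exact hAAp _ _
    · simp only [hFh, hp, if_false]
      exact hkp.conjTranspose_mul_mul_same _
  have hmono : ∀ t ∈ S, (tp (HH t) - tp (Fh t)).PosSemidef := by
    intro t ht
    refine tp_mono (hFhP t) (fun p => ?_)
    by_cases hp : Occ ℓ p
    · by_cases hpa : p ∈ activeSet ℓ
      · simp only [hHH, hFh, hpa, hp, if_true, sub_self]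
        exact PosSemidef.zero
      · obtain ⟨a0, h0⟩ := id hp
        have hex : ∃ a1, ℓ a1 = some p ∧ a0 ≠ a1 := by
          by_contra hno
          push_neg at hno
          apply hpa
          refine Finset.mem_filter.mpr ⟨Finset.mem_univ _, a0, h0, fun b' hb' => ?_⟩
          exact (hno b' hb').symm
        obtain ⟨a1, h1, hne⟩ := hex
        have e1 : Gloc ℓ s p c = piLoc ℓ s p := conj_two h0 h1 hne hs hc hc
        have e2 : ∀ e, Aloc ℓ s p a b e = piLoc ℓ s p := by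
          intro e
          cases e
          · simpa [Aloc, kFlip] using conj_two h0 h1 hne hs ha hb
          · simpa [Aloc, kFlip] using conj_two h0 h1 hne hs hb ha
        simp only [hHH, hFh, hAA, hpa, hp, if_true, if_false, e1, e2, sub_self]
        exact PosSemidef.zero
    · have hf : ∀ a, ℓ a ≠ some p := fun a ha' => hp ⟨a, ha'⟩
      have hpa : p ∉ activeSet ℓ := by
        intro hpa
        obtain ⟨a', ha', _⟩ := (Finset.mem_filter.mp hpa).2
        exact hf a' ha'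
      simp only [hHH, hFh, hpa, hp, if_false]
      exact free_F_le od t s hf hap hbp hcp h hae hbe hce
  have hdd : (0 : ℂ) ≤ dd ℓ := by
    rw [dd_re_pos]
    exact_mod_cast (by positivity : (0 : ℝ) ≤ (1 / 4 : ℝ) ^ occ ℓ)
  have htot : (dd ℓ • (((S.card : ℂ) • tp (fun p => Gloc ℓ s p c) - ∑ t ∈ S, tp (HH t)) +
      ∑ t ∈ S, (tp (HH t) - tp (Fh t)))).PosSemidef :=
    (hsum.add (Matrix.posSemidef_sum S hmono)).smul hdd
  refine (congrArg Matrix.PosSemidef ?_).mp htot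
  rw [Finset.sum_congr rfl hLHS, Finset.sum_sub_distrib, ← Finset.smul_sum, mul_smul]
  rw [smul_add, smul_sub, smul_sub]
  abel

/-- `tp` of the targets is below the tensor power. -/
lemma tp_Gloc_le (ℓ : Tok → Option κ) (s : Tok → Bool) {c : Matrix (Tok ⊕ Col) (Tok ⊕ Col) ℂ}
    (hcp : c.PosSemidef) (hc : TokId c) :
    (tp (fun _ : κ => c ⊗ₖ c) - tp (fun p => Gloc ℓ s p c)).PosSemidef := by
  classical
  set K := tp (fun _ : κ => c ⊗ₖ c) with hK
  set π : Matrix (κ → (Tok ⊕ Col) × (Tok ⊕ Col)) (κ → (Tok ⊕ Col) × (Tok ⊕ Col)) ℂ :=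
    PiB2 ℓ s with hπ
  have hKp : K.PosSemidef := tp_posSemidef (fun _ => hcp.kronecker hcp)
  have e0 : tp (fun p => Gloc ℓ s p c) = π * K * π := by
    rw [hπ, ← tp_piLoc, hK, tp_mul, tp_mul]
  have hcomm : π * K = K * π := by
    rw [hπ, ← tp_piLoc, hK, tp_mul, tp_mul]
    congr 1
    funext p
    exact piLoc_comm hc hc
  have hid : π * π = π := dp_idem _
  have hπH : πᴴ = π := dp_conjTranspose _
  have e : K - π * K * π = (1 - π)ᴴ * K * (1 - π) := by
    rw [conjTranspose_sub, conjTranspose_one, hπH]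
    simp only [Matrix.sub_mul, Matrix.mul_sub, Matrix.one_mul, Matrix.mul_one]
    rw [hcomm, Matrix.mul_assoc K π π, hid]
    abel
  rw [e0, e]
  exact hKp.conjTranspose_mul_mul_same _

/-- **The column bound for the mixture.** -/
theorem col_bound {I : Type*} [Fintype I] (w : I → ℝ) (hw : ∀ i, 0 < w i)
    (a : I → Matrix (Tok ⊕ Col) (Tok ⊕ Col) ℂ) (c : I → I → Matrix (Tok ⊕ Col) (Tok ⊕ Col) ℂ)
    (hap : ∀ i, (a i).PosSemidef) (hcp : ∀ i j, (c i j).PosSemidef)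
    (ha : ∀ i, TokId (a i)) (hc : ∀ i j, TokId (c i j))
    (hae : ∀ i, EvenM od (a i)) (hce : ∀ i j, EvenM od (c i j))
    (h : ∀ i j, c i j * c i j = (1 / 2 : ℂ) • (a i * a i + a j * a j))
    (ℓ : Tok → Option κ) (s : Tok → Bool) (hs : InjT ℓ s) (S : Finset (Tok → Bool))
    (hSinj : ∀ t ∈ S, InjT ℓ t) (hflip : FlipProp ℓ s S) :
    ((dd ℓ * (S.card : ℂ)) • (∑ i, ∑ j, ((w i * w j : ℝ) : ℂ) • tp (fun _ : κ => c i j ⊗ₖ c i j)) -
      ∑ t ∈ S, (PiB2 ℓ t * PP κ od * PiB2 ℓ s)ᴴ *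
        dbl (∑ i, (w i : ℂ) • tp (fun _ : κ => a i)) (∑ i, (w i : ℂ) • tp (fun _ : κ => a i)) *
        (PiB2 ℓ t * PP κ od * PiB2 ℓ s)).PosSemidef := by
  classical
  have hdd : (0 : ℂ) ≤ dd ℓ := by
    rw [dd_re_pos]
    exact_mod_cast (by positivity : (0 : ℝ) ≤ (1 / 4 : ℝ) ^ occ ℓ)
  have hk : (0 : ℂ) ≤ dd ℓ * (S.card : ℂ) := by
    refine mul_nonneg hdd ?_
    exact_mod_cast Nat.zero_le _
  have hterm : ∀ i j, ((dd ℓ * (S.card : ℂ)) • tp (fun _ : κ => c i j ⊗ₖ c i j) -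
      ∑ t ∈ S, (PiB2 ℓ t * PP κ od * PiB2 ℓ s)ᴴ * tp (fun _ : κ => a i ⊗ₖ a j) *
        (PiB2 ℓ t * PP κ od * PiB2 ℓ s)).PosSemidef := by
    intro i j
    have h1 := col_term od ℓ s hs S hSinj hflip (hap i) (hap j) (hcp i j) (ha i) (ha j) (hc i j)
      (hae i) (hae j) (hce i j) (h i j)
    have h2 := ((tp_Gloc_le (κ := κ) ℓ s (hcp i j) (hc i j)).smul hk).add h1
    refine (congrArg Matrix.PosSemidef ?_).mp h2
    rw [smul_sub]
    abel
  have hsum : (∑ i, ∑ j, ((w i * w j : ℝ) : ℂ) • ((dd ℓ * (S.card : ℂ)) •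
      tp (fun _ : κ => c i j ⊗ₖ c i j) -
      ∑ t ∈ S, (PiB2 ℓ t * PP κ od * PiB2 ℓ s)ᴴ * tp (fun _ : κ => a i ⊗ₖ a j) *
        (PiB2 ℓ t * PP κ od * PiB2 ℓ s))).PosSemidef := by
    refine Matrix.posSemidef_sum _ (fun i _ => Matrix.posSemidef_sum _ (fun j _ => ?_))
    refine (hterm i j).smul ?_
    exact_mod_cast (mul_pos (hw i) (hw j)).le
  refine (congrArg Matrix.PosSemidef ?_).mp hsum
  rw [dbl_sum_sum]
  simp only [dbl_smul_smul, dbl_tp]
  simp only [smul_sub, Finset.sum_sub_distrib, Finset.smul_sum, Matrix.mul_sum, Matrix.sum_mul,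
    Matrix.mul_smul, Matrix.smul_mul]
  congr 1
  · simp only [smul_smul, Complex.ofReal_mul]
    refine Finset.sum_congr rfl (fun i _ => Finset.sum_congr rfl (fun j _ => ?_))
    congr 1
    ring
  · have hswap : ∀ F : I → I → (Tok → Bool) →
        Matrix (κ → (Tok ⊕ Col) × (Tok ⊕ Col)) (κ → (Tok ⊕ Col) × (Tok ⊕ Col)) ℂ,
        ∑ i, ∑ j, ∑ t ∈ S, F i j t = ∑ t ∈ S, ∑ i, ∑ j, F i j t := by
      intro F
      calc ∑ i, ∑ j, ∑ t ∈ S, F i j t = ∑ i, ∑ t ∈ S, ∑ j, F i j t :=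
            Finset.sum_congr rfl (fun i _ => Finset.sum_comm)
        _ = _ := Finset.sum_comm
    rw [hswap]
    simp only [Complex.ofReal_mul]

end Global

end Crest.Agent.S0222Lib.JCore
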