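import Crest.Agent.S0222Lib.JGraph

/-!
# S0222: Theorem J, the recursion step in pair-word coordinates

* `Gm Y Z u u'`: the dressed block `(Π_u Z Π_u')ᴴ Y⁻¹ (Π_u Z Π_u')`;
* `SignPat`: the diagonal Koszul signs `J`, depending only on the parity pattern;
* `block_rec_signed`: for `Z₂ = J P J (Z ⊗ Z) J P J`, the dressed block of `Z₂` is bounded by the
  sum over half assignments of products of dressed blocks of `Z`;
* `block_sum`: the same summed over the top bits `s, s'`.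
-/

set_option autoImplicit false
set_option linter.unusedSectionVars false

namespace Crest.Agent.S0222Lib.JCore

open Matrix
open scoped Kronecker ComplexOrder
open Crest.Agent.S0222Lib.Site

section SignAlg

variable {n : Type*} [Fintype n] [DecidableEq n]

lemma conj_sign_mid (J A Yi : Matrix n n ℂ) (hJJ : J * J = 1) (hJH : Jᴴ = J)
    (hc : J * Yi = Yi * J) : (J * A * J)ᴴ * Yi * (J * A * J) = J * (Aᴴ * Yi * A) * J := by
  rw [Matrix.conjTranspose_mul, Matrix.conjTranspose_mul, hJH]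
  calc J * (Aᴴ * J) * Yi * (J * A * J) = J * Aᴴ * (J * Yi) * (J * A * J) := by
        simp only [Matrix.mul_assoc]
    _ = J * Aᴴ * Yi * ((J * J) * A * J) := by
        rw [hc]; simp only [Matrix.mul_assoc]
    _ = _ := by
        rw [hJJ, Matrix.one_mul]; simp only [Matrix.mul_assoc]

lemma hs_conj_sign (Y J D : Matrix n n ℂ) (hJJ : J * J = 1) (hJH : Jᴴ = J)
    (hc : J * Y⁻¹ = Y⁻¹ * J) : hs Y (J * D * J) = hs Y D := by
  unfold hs
  congr 1
  rw [conj_sign_mid J D Y⁻¹ hJJ hJH hc, Matrix.trace_mul_comm, ← Matrix.mul_assoc, hJJ,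
    Matrix.one_mul]

lemma trace_conj_sign (J G R : Matrix n n ℂ) (hJJ : J * J = 1) (hc : J * R = R * J) :
    (J * G * J * R).trace = (G * R).trace := by
  have e3 : J * G * J * R = J * (G * R) * J := by
    calc J * G * J * R = J * G * (J * R) := by simp only [Matrix.mul_assoc]
      _ = _ := by rw [hc]; simp only [Matrix.mul_assoc]
  rw [e3, Matrix.trace_mul_comm, ← Matrix.mul_assoc, hJJ, Matrix.one_mul]

lemma comm_inv_of_comm (J Y : Matrix n n ℂ) (hY : IsUnit Y.det) (hc : J * Y = Y * J) :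
    J * Y⁻¹ = Y⁻¹ * J := by
  calc J * Y⁻¹ = Y⁻¹ * Y * J * Y⁻¹ := by
        rw [Matrix.nonsing_inv_mul _ hY, Matrix.one_mul]
    _ = Y⁻¹ * (J * Y) * Y⁻¹ := by
        rw [hc]; simp only [Matrix.mul_assoc]
    _ = Y⁻¹ * J * (Y * Y⁻¹) := by simp only [Matrix.mul_assoc]
    _ = _ := by rw [Matrix.mul_nonsing_inv _ hY, Matrix.mul_one]

lemma sign_sandwich (J P X A B R : Matrix n n ℂ) (hA : J * A = A * J) (hB : J * B = B * J)
    (hR : J * R = R * J) :
    A * (J * P * J * X * J * P * J) * B * R = J * (A * (P * (J * X * J) * P) * B * R) * J := by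
  calc A * (J * P * J * X * J * P * J) * B * R
      = (A * J) * (P * J * X * J * P) * (J * B) * R := by simp only [Matrix.mul_assoc]
    _ = J * (A * (P * J * X * J * P) * B) * (J * R) := by
        rw [← hA, hB]; simp only [Matrix.mul_assoc]
    _ = _ := by
        rw [hR]; simp only [Matrix.mul_assoc]

lemma sign_block (J X A B : Matrix n n ℂ) (hA : J * A = A * J) (hB : J * B = B * J) :
    A * (J * X * J) * B = J * (A * X * B) * J := by
  calc A * (J * X * J) * B = (A * J) * X * (J * B) := by simp only [Matrix.mul_assoc]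
    _ = _ := by rw [← hA, hB]; simp only [Matrix.mul_assoc]

end SignAlg

section Main

variable {κ Tok Col : Type*} [Fintype κ] [DecidableEq κ] [Fintype Tok] [DecidableEq Tok]
  [Fintype Col] [DecidableEq Col] (od : Tok ⊕ Col → Bool)

/-- The mixture on words. -/
noncomputable def mixY (κ : Type*) [Fintype κ] [DecidableEq κ] {I ι : Type*} [Fintype I]
    [Fintype ι] [DecidableEq ι]
    (w : I → ℝ) (a : I → Matrix ι ι ℂ) : Matrix (κ → ι) (κ → ι) ℂ :=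
  ∑ i, (w i : ℂ) • tp (fun _ : κ => a i)

/-- The doubled mixture on pair words. -/
noncomputable def mixY2 (κ : Type*) [Fintype κ] [DecidableEq κ] {I ι : Type*} [Fintype I]
    [Fintype ι] [DecidableEq ι]
    (w : I → ℝ) (c : I → I → Matrix ι ι ℂ) : Matrix (κ → ι × ι) (κ → ι × ι) ℂ :=
  ∑ i, ∑ j, ((w i * w j : ℝ) : ℂ) • tp (fun _ : κ => c i j ⊗ₖ c i j)

/-- The dressed block. -/
noncomputable def Gm (Y Z : Matrix (κ → (Tok ⊕ Col)) (κ → (Tok ⊕ Col)) ℂ)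
    (u u' : Tok → Option κ) : Matrix (κ → (Tok ⊕ Col)) (κ → (Tok ⊕ Col)) ℂ :=
  (PiB u * Z * PiB u')ᴴ * Y⁻¹ * (PiB u * Z * PiB u')

lemma Gm_posSemidef {Y : Matrix (κ → (Tok ⊕ Col)) (κ → (Tok ⊕ Col)) ℂ} (hY : Y.PosDef)
    (Z : Matrix (κ → (Tok ⊕ Col)) (κ → (Tok ⊕ Col)) ℂ) (u u' : Tok → Option κ) :
    (Gm Y Z u u').PosSemidef :=
  hY.inv.posSemidef.conjTranspose_mul_mul_same _

lemma block_dbl (Z : Matrix (κ → (Tok ⊕ Col)) (κ → (Tok ⊕ Col)) ℂ)
    (ℓ ℓ' : Tok → Option κ) (t : Tok → Bool) :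
    PiB2 ℓ t * dbl Z Z * PiB2 ℓ' t =
      dbl (PiB (resT ℓ t false) * Z * PiB (resT ℓ' t false))
        (PiB (resT ℓ t true) * Z * PiB (resT ℓ' t true)) := by
  rw [PiB2_eq_dbl, PiB2_eq_dbl, dbl_mul, dbl_mul]

lemma Mt_eq {Y : Matrix (κ → (Tok ⊕ Col)) (κ → (Tok ⊕ Col)) ℂ} (hY : Y.PosDef)
    (Z : Matrix (κ → (Tok ⊕ Col)) (κ → (Tok ⊕ Col)) ℂ) (ℓ ℓ' : Tok → Option κ) (t : Tok → Bool) :
    (PiB2 ℓ t * dbl Z Z * PiB2 ℓ' t)ᴴ * (dbl Y Y)⁻¹ * (PiB2 ℓ t * dbl Z Z * PiB2 ℓ' t) =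
      dbl (Gm Y Z (resT ℓ t false) (resT ℓ' t false))
        (Gm Y Z (resT ℓ t true) (resT ℓ' t true)) := by
  have hu : IsUnit Y.det := (Matrix.isUnit_iff_isUnit_det _).mp hY.isUnit
  rw [block_dbl, dbl_conjTranspose, dbl_inv _ _ hu hu, dbl_mul, dbl_mul]
  rfl

/-- The signs. -/
structure SignPat (j : (κ → (Tok ⊕ Col) × (Tok ⊕ Col)) → ℂ) : Prop where
  sq : ∀ v, j v * j v = 1
  real : ∀ v, star (j v) = j v
  pat : ∀ v v', (∀ p, od (v p).1 = od (v' p).1 ∧ od (v p).2 = od (v' p).2) → j v = j v'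

variable {od}

lemma SignPat.mul_self {j : (κ → (Tok ⊕ Col) × (Tok ⊕ Col)) → ℂ} (hj : SignPat od j) :
    (Matrix.diagonal j) * (Matrix.diagonal j) = 1 := by
  rw [Matrix.diagonal_mul_diagonal]
  have : (fun i => j i * j i) = fun _ => 1 := funext hj.sq
  rw [this, Matrix.diagonal_one]

lemma SignPat.conjTranspose {j : (κ → (Tok ⊕ Col) × (Tok ⊕ Col)) → ℂ} (hj : SignPat od j) :
    (Matrix.diagonal j)ᴴ = Matrix.diagonal j := by
  rw [Matrix.diagonal_conjTranspose]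
  congr 1
  funext v
  exact hj.real v

lemma SignPat.comm_dp {j : (κ → (Tok ⊕ Col) × (Tok ⊕ Col)) → ℂ}
    (Q : (κ → (Tok ⊕ Col) × (Tok ⊕ Col)) → Prop) :
    (Matrix.diagonal j) * dp Q = dp Q * Matrix.diagonal j := by
  classical
  unfold dp
  rw [Matrix.diagonal_mul_diagonal, Matrix.diagonal_mul_diagonal]
  congr 1
  funext v
  ring

lemma SignPat.comm_tp {j : (κ → (Tok ⊕ Col) × (Tok ⊕ Col)) → ℂ} (hj : SignPat od j)
    {A : κ → Matrix ((Tok ⊕ Col) × (Tok ⊕ Col)) ((Tok ⊕ Col) × (Tok ⊕ Col)) ℂ}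
    (hA : ∀ p x y, A p x y ≠ 0 → od x.1 = od y.1 ∧ od x.2 = od y.2) :
    (Matrix.diagonal j) * tp A = tp A * Matrix.diagonal j := by
  ext v v'
  rw [Matrix.diagonal_mul, Matrix.mul_diagonal]
  by_cases h : tp A v v' = 0
  · rw [h, mul_zero, zero_mul]
  · have hp : ∀ p, A p (v p) (v' p) ≠ 0 := by
      intro p h0
      apply h
      simp only [tp_apply]
      exact Finset.prod_eq_zero (Finset.mem_univ p) h0
    rw [hj.pat v v' (fun p => hA p _ _ (hp p)), mul_comm]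

lemma kron_even {a b : Matrix (Tok ⊕ Col) (Tok ⊕ Col) ℂ} (ha : EvenM od a) (hb : EvenM od b)
    (x y : (Tok ⊕ Col) × (Tok ⊕ Col)) (h : (a ⊗ₖ b) x y ≠ 0) :
    od x.1 = od y.1 ∧ od x.2 = od y.2 := by
  simp only [Matrix.kroneckerMap_apply] at h
  exact ⟨ha _ _ (left_ne_zero_of_mul h), hb _ _ (right_ne_zero_of_mul h)⟩

variable (od)

/-- **The dressed block recursion with Koszul signs.** -/
theorem block_rec_signed {I : Type*} [Fintype I] [Nonempty I] (w : I → ℝ) (hw : ∀ i, 0 < w i)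
    (a : I → Matrix (Tok ⊕ Col) (Tok ⊕ Col) ℂ) (c : I → I → Matrix (Tok ⊕ Col) (Tok ⊕ Col) ℂ)
    (hap : ∀ i, (a i).PosDef) (hcp : ∀ i j, (c i j).PosDef)
    (ha : ∀ i, TokId (a i)) (hc : ∀ i j, TokId (c i j))
    (hae : ∀ i, EvenM od (a i)) (hce : ∀ i j, EvenM od (c i j))
    (h : ∀ i j, c i j * c i j = (1 / 2 : ℂ) • (a i * a i + a j * a j))
    (Z : Matrix (κ → (Tok ⊕ Col)) (κ → (Tok ⊕ Col)) ℂ) (hZ : PresTok Z)
    {j : (κ → (Tok ⊕ Col) × (Tok ⊕ Col)) → ℂ} (hj : SignPat od j)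
    (ℓ ℓ' : Tok → Option κ) (s s' : Tok → Bool) (hinj : InjT ℓ s) (hinj' : InjT ℓ' s')
    (hdom : ∀ a, ℓ a = none ↔ ℓ' a = none)
    (R : (κ → (Tok ⊕ Col) × (Tok ⊕ Col)) → Prop) (hR : PP κ od * dp R = dp R * PP κ od) :
    hs (mixY2 κ w c)
        (PiB2 ℓ s * (Matrix.diagonal j * PP κ od * Matrix.diagonal j * dbl Z Z *
          Matrix.diagonal j * PP κ od * Matrix.diagonal j) * PiB2 ℓ' s' * dp R) ≤
      ((1 / 4 : ℝ) ^ occ ℓ * ((Sset ℓ ℓ').card : ℝ)) * (((1 / 4 : ℝ) ^ occ ℓ') *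
        ∑ t ∈ Sset ℓ ℓ',
          ((dbl (Gm (mixY κ w a) Z (resT ℓ t false) (resT ℓ' t false))
            (Gm (mixY κ w a) Z (resT ℓ t true) (resT ℓ' t true))) * dp R).trace.re) := by
  classical
  set J := Matrix.diagonal j with hJ
  have hJJ : J * J = 1 := hj.mul_self
  have hJH : Jᴴ = J := hj.conjTranspose
  set X := dbl Z Z with hX
  set Xt := J * X * J with hXt
  set Y1 := mixY κ w a with hY1
  set Y2 := mixY2 κ w c with hY2
  have hY1P : Y1.PosDef := posDef_sum_smul w hw _ (fun i => tp_posDef (fun _ => hap i))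
  have hY2P : Y2.PosDef := by
    rw [hY2, mixY2, ← Fintype.sum_prod_type'
      (f := fun i j => ((w i * w j : ℝ) : ℂ) • tp (fun _ : κ => c i j ⊗ₖ c i j))]
    exact posDef_sum_smul (fun p : I × I => w p.1 * w p.2) (fun p => mul_pos (hw p.1) (hw p.2))
      (fun p => tp (fun _ : κ => c p.1 p.2 ⊗ₖ c p.1 p.2))
      (fun p => tp_posDef (fun _ => (hcp p.1 p.2).kronecker (hcp p.1 p.2)))
  -- the commutations
  have hJdp : ∀ Q : (κ → (Tok ⊕ Col) × (Tok ⊕ Col)) → Prop, J * dp Q = dp Q * J :=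
    fun Q => SignPat.comm_dp Q
  have hJY2 : J * Y2 = Y2 * J := by
    rw [hY2, mixY2, Finset.mul_sum, Finset.sum_mul]
    refine Finset.sum_congr rfl (fun i _ => ?_)
    rw [Finset.mul_sum, Finset.sum_mul]
    refine Finset.sum_congr rfl (fun k _ => ?_)
    rw [Matrix.mul_smul, Matrix.smul_mul,
      hj.comm_tp (fun _ x y hxy => kron_even (hce i k) (hce i k) x y hxy)]
  have hJY' : J * dbl Y1 Y1 = dbl Y1 Y1 * J := by
    have e : dbl Y1 Y1 = ∑ i, ∑ k, (((w i : ℂ) * (w k : ℂ))) • tp (fun _ : κ => a i ⊗ₖ a k) := by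
      rw [hY1, mixY, dbl_sum_sum]
      simp only [dbl_smul_smul, dbl_tp]
    rw [e, Finset.mul_sum, Finset.sum_mul]
    refine Finset.sum_congr rfl (fun i _ => ?_)
    rw [Finset.mul_sum, Finset.sum_mul]
    refine Finset.sum_congr rfl (fun k _ => ?_)
    rw [Matrix.mul_smul, Matrix.smul_mul,
      hj.comm_tp (fun _ x y hxy => kron_even (hae i) (hae k) x y hxy)]
  have hYY : (dbl Y1 Y1).PosDef := dbl_posDef hY1P hY1P
  have hJYi : J * (dbl Y1 Y1)⁻¹ = (dbl Y1 Y1)⁻¹ * J :=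
    comm_inv_of_comm J _ ((Matrix.isUnit_iff_isUnit_det _).mp hYY.isUnit) hJY'
  have hJYi2 : J * Y2⁻¹ = Y2⁻¹ * J :=
    comm_inv_of_comm J _ ((Matrix.isUnit_iff_isUnit_det _).mp hY2P.isUnit) hJY2
  -- removing the signs from the left side
  rw [sign_sandwich J (PP κ od) X (PiB2 ℓ s) (PiB2 ℓ' s') (dp R) (hJdp _) (hJdp _) (hJdp _),
    hs_conj_sign Y2 J _ hJJ hJH hJYi2]
  -- apply the recursion to `Xt`
  have hXtH : PresHalf Xt := by
    intro v v' hne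
    apply presHalf_dbl hZ v v'
    intro h0
    have h0' : X v v' = 0 := h0
    apply hne
    rw [hXt, hJ, Matrix.mul_diagonal, Matrix.diagonal_mul, h0']
    simp
  have hflip := flipProp_Sset ℓ ℓ' s hdom
  have hmain := block_rec od w hw a c hap hcp ha hc hae hce h Xt hXtH ℓ ℓ' s s' hinj hinj' hflip R hR
  refine hmain.trans (le_of_eq ?_)
  congr 2
  refine Finset.sum_congr rfl (fun t _ => ?_)
  -- the signs cancel in the trace
  change (((PiB2 ℓ t * Xt * PiB2 ℓ' t)ᴴ * (dbl Y1 Y1)⁻¹ * (PiB2 ℓ t * Xt * PiB2 ℓ' t)) *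
    dp R).trace.re = _
  rw [sign_block J X (PiB2 ℓ t) (PiB2 ℓ' t) (hJdp _) (hJdp _),
    conj_sign_mid J _ _ hJJ hJH hJYi, trace_conj_sign J _ _ hJJ (hJdp _), hX, Mt_eq hY1P Z]

/-- The top bit assignments `s` with the right domain and separating the partners. -/
noncomputable def topSet (ℓ : Tok → Option κ) : Finset (Tok → Bool) := by
  classical
  exact Finset.univ.filter (fun s => OffDom ℓ s ∧ InjT ℓ s)

lemma mem_topSet {ℓ : Tok → Option κ} {s : Tok → Bool} :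
    s ∈ topSet ℓ ↔ OffDom ℓ s ∧ InjT ℓ s := by
  classical
  simp [topSet]

/-- There are at most `2 ^ occ` top bit assignments. -/
theorem card_topSet_le (ℓ : Tok → Option κ) : (topSet ℓ).card ≤ 2 ^ occ ℓ := by
  classical
  have hc : Fintype.card ({p // Occ ℓ p} → Bool) = 2 ^ occ ℓ := by
    simp only [Fintype.card_fun, Fintype.card_bool]
    congr 1
    rw [Fintype.card_subtype]
    rfl
  rw [← hc, ← Finset.card_univ]
  refine Finset.card_le_card_of_injOn (fun s p => s p.2.choose) (fun _ _ => Finset.mem_univ _) ?_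
  intro s hs s' hs' heq
  obtain ⟨hs1, hs2⟩ := mem_topSet.mp hs
  obtain ⟨hs1', hs2'⟩ := mem_topSet.mp hs'
  funext a
  cases hl : ℓ a with
  | none => rw [hs1 a hl, hs1' a hl]
  | some p =>
    have hocc : Occ ℓ p := ⟨a, hl⟩
    have h0 := hocc.choose_spec
    have hbit : s hocc.choose = s' hocc.choose := congrFun heq ⟨p, hocc⟩
    by_cases hab : a = hocc.choose
    · rw [hab]; exact hbit
    · have h1 : s a ≠ s hocc.choose := fun h => hab (hs2 _ _ p hl h0 h)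
      have h2 : s' a ≠ s' hocc.choose := fun h => hab (hs2' _ _ p hl h0 h)
      rw [hbit] at h1
      revert h1 h2
      cases s a <;> cases s' a <;> cases s' hocc.choose <;> simp

/-- The block is empty unless the partners are separated. -/
lemma PiB2_eq_zero {ℓ : Tok → Option κ} {s : Tok → Bool} (hs : ¬ InjT ℓ s) :
    PiB2 (Col := Col) ℓ s = 0 := by
  classical
  unfold PiB2 dp
  have : (fun x : κ → (Tok ⊕ Col) × (Tok ⊕ Col) => if inB2 ℓ s x then (1 : ℂ) else 0) = 0 := by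
    funext x
    rw [if_neg (fun h => hs (injT_of_inB2 h))]
    rfl
  rw [this]
  simp

lemma hs_zero {n m : Type*} [Fintype n] [DecidableEq n] [Fintype m] [DecidableEq m]
    (Y : Matrix n n ℂ) : hs Y (0 : Matrix n m ℂ) = 0 := by
  simp [hs]

/-- **The recursion summed over the top bits.** -/
theorem block_sum {I : Type*} [Fintype I] [Nonempty I] (w : I → ℝ) (hw : ∀ i, 0 < w i)
    (a : I → Matrix (Tok ⊕ Col) (Tok ⊕ Col) ℂ) (c : I → I → Matrix (Tok ⊕ Col) (Tok ⊕ Col) ℂ)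
    (hap : ∀ i, (a i).PosDef) (hcp : ∀ i j, (c i j).PosDef)
    (ha : ∀ i, TokId (a i)) (hc : ∀ i j, TokId (c i j))
    (hae : ∀ i, EvenM od (a i)) (hce : ∀ i j, EvenM od (c i j))
    (h : ∀ i j, c i j * c i j = (1 / 2 : ℂ) • (a i * a i + a j * a j))
    (Z : Matrix (κ → (Tok ⊕ Col)) (κ → (Tok ⊕ Col)) ℂ) (hZ : PresTok Z)
    {j : (κ → (Tok ⊕ Col) × (Tok ⊕ Col)) → ℂ} (hj : SignPat od j)
    (ℓ ℓ' : Tok → Option κ) (hdom : ∀ a, ℓ a = none ↔ ℓ' a = none)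
    (S S' : Finset (Tok → Bool)) (hS : ∀ s ∈ S, OffDom ℓ s) (hS' : ∀ s ∈ S', OffDom ℓ' s)
    (R : (κ → (Tok ⊕ Col) × (Tok ⊕ Col)) → Prop) (hR : PP κ od * dp R = dp R * PP κ od) :
    ∑ s ∈ S, ∑ s' ∈ S', hs (mixY2 κ w c)
        (PiB2 ℓ s * (Matrix.diagonal j * PP κ od * Matrix.diagonal j * dbl Z Z *
          Matrix.diagonal j * PP κ od * Matrix.diagonal j) * PiB2 ℓ' s' * dp R) ≤
      ((1 / 2 : ℝ) ^ occ ℓ * (1 / 2 : ℝ) ^ occ ℓ' * ((Sset ℓ ℓ').card : ℝ)) *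
        ∑ t ∈ Sset ℓ ℓ',
          ((dbl (Gm (mixY κ w a) Z (resT ℓ t false) (resT ℓ' t false))
            (Gm (mixY κ w a) Z (resT ℓ t true) (resT ℓ' t true))) * dp R).trace.re := by
  classical
  set Z2 := (Matrix.diagonal j * PP κ od * Matrix.diagonal j * dbl Z Z *
          Matrix.diagonal j * PP κ od * Matrix.diagonal j) with hZ2
  set Y1 := mixY κ w a with hY1
  have hY1P : Y1.PosDef := posDef_sum_smul w hw _ (fun i => tp_posDef (fun _ => hap i))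
  set F : ℝ := ∑ t ∈ Sset ℓ ℓ',
          ((dbl (Gm Y1 Z (resT ℓ t false) (resT ℓ' t false))
            (Gm Y1 Z (resT ℓ t true) (resT ℓ' t true))) * dp R).trace.re with hF
  have hFnn : 0 ≤ F := by
    refine Finset.sum_nonneg (fun t _ => ?_)
    exact trace_mul_psd_nonneg (dbl_posSemidef (Gm_posSemidef hY1P _ _ _) (Gm_posSemidef hY1P _ _ _))
      (dp_posSemidef R)
  set B : ℝ := ((1 / 4 : ℝ) ^ occ ℓ * ((Sset ℓ ℓ').card : ℝ)) * (((1 / 4 : ℝ) ^ occ ℓ') * F) with hB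
  have hBnn : 0 ≤ B := by positivity
  have hpt : ∀ s ∈ S, ∀ s' ∈ S', hs (mixY2 κ w c) (PiB2 ℓ s * Z2 * PiB2 ℓ' s' * dp R) ≤
      (if s ∈ topSet ℓ then (if s' ∈ topSet ℓ' then B else 0) else 0) := by
    intro s hsS s' hsS'
    by_cases h1 : InjT ℓ s
    · by_cases h2 : InjT ℓ' s'
      · have m1 : s ∈ topSet ℓ := mem_topSet.mpr ⟨hS s hsS, h1⟩
        have m2 : s' ∈ topSet ℓ' := mem_topSet.mpr ⟨hS' s' hsS', h2⟩
        rw [if_pos m1, if_pos m2]
        exact block_rec_signed od w hw a c hap hcp ha hc hae hce h Z hZ hj ℓ ℓ' s s' h1 h2 hdom R hR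
      · have m2 : s' ∉ topSet ℓ' := fun hm => h2 (mem_topSet.mp hm).2
        rw [if_neg m2, PiB2_eq_zero (Col := Col) h2]
        split_ifs <;> simp [hs_zero]
    · have m1 : s ∉ topSet ℓ := fun hm => h1 (mem_topSet.mp hm).2
      rw [if_neg m1, PiB2_eq_zero (Col := Col) h1]
      simp [hs_zero]
  have hsum1 : ∑ s ∈ S, ∑ s' ∈ S', hs (mixY2 κ w c) (PiB2 ℓ s * Z2 * PiB2 ℓ' s' * dp R) ≤
      ∑ s ∈ S, ∑ s' ∈ S', (if s ∈ topSet ℓ then (if s' ∈ topSet ℓ' then B else 0) else 0) :=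
    Finset.sum_le_sum (fun s hs => Finset.sum_le_sum (fun s' hs' => hpt s hs s' hs'))
  refine hsum1.trans ?_
  have hinner : ∀ x : ℝ, 0 ≤ x → ∀ (U T : Finset (Tok → Bool)) (m : ℕ), T.card ≤ 2 ^ m →
      (∑ u ∈ U, if u ∈ T then x else 0) ≤ (2 : ℝ) ^ m * x := by
    intro x hx U T m hT
    rw [Finset.sum_ite_mem, Finset.sum_const, nsmul_eq_mul]
    refine mul_le_mul_of_nonneg_right ?_ hx
    have : (U ∩ T).card ≤ 2 ^ m := (Finset.card_le_card Finset.inter_subset_right).trans hT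
    exact_mod_cast this
  have h1 := hinner B hBnn S' (topSet ℓ') (occ ℓ') (card_topSet_le ℓ')
  have h2 : ∑ s ∈ S, ∑ s' ∈ S', (if s ∈ topSet ℓ then (if s' ∈ topSet ℓ' then B else 0) else 0) =
      ∑ s ∈ S, if s ∈ topSet ℓ then (∑ s' ∈ S', if s' ∈ topSet ℓ' then B else 0) else 0 := by
    refine Finset.sum_congr rfl (fun s _ => ?_)
    by_cases hm : s ∈ topSet ℓ <;> simp [hm]
  rw [h2]
  have hinnn : 0 ≤ ∑ s' ∈ S', (if s' ∈ topSet ℓ' then B else 0) :=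
    Finset.sum_nonneg (fun s' _ => by split_ifs <;> simp [hBnn])
  have h3 := hinner _ hinnn S (topSet ℓ) (occ ℓ) (card_topSet_le ℓ)
  refine h3.trans ?_
  refine (mul_le_mul_of_nonneg_left h1 (by positivity)).trans (le_of_eq ?_)
  rw [hB]
  have e1 : (2 : ℝ) ^ occ ℓ * (1 / 4 : ℝ) ^ occ ℓ = (1 / 2 : ℝ) ^ occ ℓ := by
    rw [← mul_pow]; norm_num
  have e2 : (2 : ℝ) ^ occ ℓ' * (1 / 4 : ℝ) ^ occ ℓ' = (1 / 2 : ℝ) ^ occ ℓ' := by
    rw [← mul_pow]; norm_num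
  calc (2 : ℝ) ^ occ ℓ * ((2 : ℝ) ^ occ ℓ' * ((1 / 4 : ℝ) ^ occ ℓ * ((Sset ℓ ℓ').card : ℝ) *
        ((1 / 4 : ℝ) ^ occ ℓ' * F)))
      = ((2 : ℝ) ^ occ ℓ * (1 / 4 : ℝ) ^ occ ℓ) * ((2 : ℝ) ^ occ ℓ' * (1 / 4 : ℝ) ^ occ ℓ') *
          ((Sset ℓ ℓ').card : ℝ) * F := by ring
    _ = _ := by rw [e1, e2]

end Main

end Crest.Agent.S0222Lib.JCore
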