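import Crest.Agent.S0222Lib.WordTensor

/-!
# S0222: Theorem J, the universal mixture of densities

For `T, N` we define the finite family `Idx T N` (`i' + 1 ≤ N`, a composition `α` of `i' + 1` into
`T` parts, a `T × T` nonnegative integer matrix `γ` with row sums `α`, phases `θ`) with uniform
weights `wt` at each stage (`wt_pos`, `sum_wt`), and positive definite densities `xx κ` of trace one
(`xx_posDef`, `trace_xx`).

* `mix_lower`: if `f` on words `Fin i → Fin T` is invariant under the stabiliser of a word `w₀`,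
  `‖f‖² e^{-E/2} / (√2 N C(i+T-1,T-1) D²) ≤ Re ⟨f, Σ_κ wt κ (√(xx κ))^{⊗ i} f⟩`,
  with `E = EE i (cont w₀).1` and `D = DD (cont w₀).1`.

Proof: Cauchy-Schwarz against product vectors, phase averaging, and the mode inequality
for multinomial distributions.
-/

set_option autoImplicit false
set_option linter.unusedSectionVars false
set_option linter.unusedSimpArgs false
set_option linter.unnecessarySimpa false

namespace Crest.Agent.S0222Lib.JMix

open Matrix Finset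
open scoped ComplexOrder MatrixOrder Nat
open Crest.Agent.S0222Lib.Site

section Words

variable {X A C Y : Type*} [Fintype X] [DecidableEq X] [Fintype A] [DecidableEq A]
  [Fintype C] [DecidableEq C] [Fintype Y] [DecidableEq Y]

/-- two maps with the same fibre sizes differ by a permutation of the source -/
lemma exists_perm_comp {h h' : X → Y} (hc : ∀ y, #{x | h x = y} = #{x | h' x = y}) :
    ∃ g : Equiv.Perm X, h' = h ∘ g := by
  classical
  have hcard : ∀ y, Fintype.card {x // h' x = y} = Fintype.card {x // h x = y} := by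
    intro y
    rw [Fintype.card_subtype, Fintype.card_subtype, hc y]
  let e : ∀ y, {x // h' x = y} ≃ {x // h x = y} := fun y => Fintype.equivOfCardEq (hcard y)
  let g : Equiv.Perm X :=
    (Equiv.sigmaFiberEquiv h').symm.trans
      ((Equiv.sigmaCongrRight e).trans (Equiv.sigmaFiberEquiv h))
  refine ⟨g, ?_⟩
  funext x
  have : h (g x) = h' x := by
    change h (e (h' x) ⟨x, rfl⟩).1 = h' x
    exact (e (h' x) ⟨x, rfl⟩).2
  simp [this]

/-- the pair word -/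
def pw (w₀ : X → A) (c : X → C) : X → A × C := fun p => (w₀ p, c p)

/-- row-column content -/
def cnt (w₀ : X → A) (c : X → C) (q : A × C) : ℕ := #{p | pw w₀ c p = q}

lemma exists_perm_of_cnt {w₀ : X → A} {c c' : X → C} (h : cnt w₀ c = cnt w₀ c') :
    ∃ g : Equiv.Perm X, w₀ ∘ g = w₀ ∧ c' = c ∘ g := by
  obtain ⟨g, hg⟩ := exists_perm_comp (h := pw w₀ c) (h' := pw w₀ c')
    (fun y => congrFun h y)
  refine ⟨g, ?_, ?_⟩
  · funext x
    have := congrFun hg x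
    exact (Prod.ext_iff.1 this).1.symm
  · funext x
    have := congrFun hg x
    exact (Prod.ext_iff.1 this).2

lemma cnt_comp {w₀ : X → A} {c : X → C} {g : Equiv.Perm X} (hg : w₀ ∘ g = w₀) :
    cnt w₀ (c ∘ g) = cnt w₀ c := by
  funext q
  unfold cnt
  have : pw w₀ (c ∘ g) = pw w₀ c ∘ g := by
    funext x
    have := congrFun hg x
    simp [pw, ← this]
  rw [this]
  refine Finset.card_equiv g (fun x => ?_)
  simp

/-- fibre of a content class -/
def fib (w₀ : X → A) (c₀ : X → C) : ℕ := #{c : X → C | cnt w₀ c = cnt w₀ c₀}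

lemma card_fib_mul (w₀ : X → A) (c₀ : X → C) :
    fib w₀ c₀ * ∏ q, (cnt w₀ c₀ q)! = ∏ a, (#{p | w₀ p = a})! := by
  classical
  have h1 := DomMulAct.stabilizer_card (f := w₀)
  have h2 := DomMulAct.stabilizer_card (f := pw w₀ c₀)
  have hc1 : ∀ a, Fintype.card {p // w₀ p = a} = #{p | w₀ p = a} := fun a => Fintype.card_subtype _
  have hc2 : ∀ q, Fintype.card {p // pw w₀ c₀ p = q} = cnt w₀ c₀ q :=
    fun q => Fintype.card_subtype _
  simp only [hc1] at h1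
  simp only [hc2] at h2
  rw [← h1, ← h2]
  set H : Finset (Equiv.Perm X) := {g | w₀ ∘ g = w₀} with hH
  set H0 : Finset (Equiv.Perm X) := {g | pw w₀ c₀ ∘ g = pw w₀ c₀} with hH0
  set F : Finset (X → C) := {c | cnt w₀ c = cnt w₀ c₀} with hF
  have hcH : Fintype.card {g : Equiv.Perm X // w₀ ∘ g = w₀} = #H := Fintype.card_subtype _
  have hcH0 : Fintype.card {g : Equiv.Perm X // pw w₀ c₀ ∘ g = pw w₀ c₀} = #H0 :=
    Fintype.card_subtype _
  rw [hcH, hcH0]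
  have hmaps : ∀ g ∈ H, (c₀ ∘ (g : X → X)) ∈ F := by
    intro g hg
    simp only [hH, mem_filter, mem_univ, true_and] at hg
    simp only [hF, mem_filter, mem_univ, true_and]
    exact cnt_comp hg
  have h3 := Finset.card_eq_sum_card_fiberwise (f := fun g : Equiv.Perm X => c₀ ∘ (g : X → X))
    (s := H) (t := F) hmaps
  rw [h3]
  have h4 : ∀ c ∈ F, #(H.filter fun g : Equiv.Perm X => c₀ ∘ g = c) = #H0 := by
    intro c hc
    simp only [hF, mem_filter, mem_univ, true_and] at hc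
    obtain ⟨g₁, hg₁, hg₁c⟩ := exists_perm_of_cnt hc.symm
    symm
    refine Finset.card_equiv (s := H0) (t := H.filter fun g : Equiv.Perm X => c₀ ∘ g = c) (Equiv.mulRight g₁) (fun g => ?_)
    simp only [hH0, hH, mem_filter, mem_univ, true_and, Equiv.coe_mulRight]
    constructor
    · intro hg
      have hg1 : w₀ ∘ g = w₀ := by
        funext x
        exact (Prod.ext_iff.1 (congrFun hg x)).1
      have hg2 : c₀ ∘ g = c₀ := by
        funext x
        exact (Prod.ext_iff.1 (congrFun hg x)).2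
      constructor
      · funext x
        have e1 := congrFun hg₁ x
        have e2 := congrFun hg1 (g₁ x)
        simp only [Function.comp, Equiv.Perm.coe_mul] at *
        rw [e2, e1]
      · funext x
        have e1 := congrFun hg₁c x
        have e2 := congrFun hg2 (g₁ x)
        simp only [Function.comp, Equiv.Perm.coe_mul] at *
        rw [e2, e1]
    · rintro ⟨h1', h2'⟩
      have hg1 : w₀ ∘ g = w₀ := by
        funext x
        have e1 := congrFun h1' (g₁.symm x)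
        have e2 := congrFun hg₁ (g₁.symm x)
        simp only [Function.comp, Equiv.Perm.coe_mul, Equiv.apply_symm_apply] at *
        rw [e1, ← e2]
      have hg2 : c₀ ∘ g = c₀ := by
        funext x
        have e1 := congrFun h2' (g₁.symm x)
        have e2 := congrFun hg₁c (g₁.symm x)
        simp only [Function.comp, Equiv.Perm.coe_mul, Equiv.apply_symm_apply] at *
        rw [e1, e2]
      funext x
      exact Prod.ext (congrFun hg1 x) (congrFun hg2 x)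
  rw [Finset.sum_congr rfl h4, Finset.sum_const, smul_eq_mul]
  rfl

/-- products over positions as products over pairs -/
lemma prod_pw {M : Type*} [CommMonoid M] (w₀ : X → A) (c : X → C) (g : A × C → M) :
    ∏ p, g (w₀ p, c p) = ∏ q, g q ^ cnt w₀ c q := by
  rw [← Finset.prod_fiberwise (s := univ) (g := pw w₀ c)]
  apply Finset.prod_congr rfl
  intro q _
  have : ∀ p ∈ ({p | pw w₀ c p = q} : Finset X), g (w₀ p, c p) = g q := by
    intro p hp
    simp only [mem_filter, mem_univ, true_and] at hp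
    rw [← hp]
    rfl
  rw [Finset.prod_congr rfl this, Finset.prod_const]
  rfl

lemma sum_cnt_row (w₀ : X → A) (c : X → C) (a : A) :
    ∑ b, cnt w₀ c (a, b) = #{p | w₀ p = a} := by
  have : ({p | w₀ p = a} : Finset X) = univ.biUnion (fun b => {p | pw w₀ c p = (a, b)}) := by
    ext p
    simp [pw, Prod.ext_iff]
  rw [this, Finset.card_biUnion]
  · rfl
  · intro b _ b' _ hb
    refine Finset.disjoint_left.2 ?_
    intro p hp hp'
    have h1 : pw w₀ c p = (a, b) := (mem_filter.1 hp).2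
    have h2 : pw w₀ c p = (a, b') := (mem_filter.1 hp').2
    apply hb
    exact (Prod.ext_iff.1 (h1.symm.trans h2)).2

lemma cnt_le (w₀ : X → A) (c : X → C) (q : A × C) : cnt w₀ c q ≤ Fintype.card X := by
  unfold cnt
  exact (Finset.card_le_univ _)

/-- the mode inequality in one variable. -/
lemma pow_mul_factorial_le (n m : ℕ) : n ^ m * n ! ≤ n ^ n * m ! := by
  rcases le_total m n with h | h
  · obtain ⟨k, rfl⟩ := Nat.exists_eq_add_of_le h
    have h1 : (m + k)! = m ! * (m + k).descFactorial k := by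
      have := Nat.factorial_mul_descFactorial (n := m + k) (k := k) (by omega)
      simpa using this.symm
    have h2 := Nat.descFactorial_le_pow (m + k) k
    rw [h1, pow_add (m + k) m k]
    calc (m + k) ^ m * (m ! * (m + k).descFactorial k)
        ≤ (m + k) ^ m * (m ! * (m + k) ^ k) := by gcongr
      _ = _ := by ring
  · obtain ⟨k, rfl⟩ := Nat.exists_eq_add_of_le h
    have h1 := Nat.factorial_mul_pow_sub_le_factorial (n := n) (m := n + k) (by omega)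
    have h2 : n + k - n = k := by omega
    rw [h2] at h1
    rw [pow_add]
    calc n ^ n * n ^ k * n ! = n ^ n * (n ! * n ^ k) := by ring
      _ ≤ n ^ n * (n + k)! := by gcongr

/-- the product weight of a word -/
noncomputable def PP (w₀ : X → A) (γ : A × C → ℕ) (c : X → C) : ℝ :=
  ∏ p, ((γ (w₀ p, c p) : ℝ) / (#{p' | w₀ p' = w₀ p} : ℕ))

lemma PP_nonneg (w₀ : X → A) (γ : A × C → ℕ) (c : X → C) : 0 ≤ PP w₀ γ c :=
  Finset.prod_nonneg fun _ _ => by positivity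

lemma fiber_pos (w₀ : X → A) (p : X) : 0 < #{p' | w₀ p' = w₀ p} :=
  Finset.card_pos.2 ⟨p, by simp⟩

lemma sum_PP (w₀ : X → A) (c₀ : X → C) : ∑ c, PP w₀ (cnt w₀ c₀) c = 1 := by
  unfold PP
  have h := Finset.prod_univ_sum (fun _ : X => (univ : Finset C))
    (fun p b => ((cnt w₀ c₀ (w₀ p, b) : ℝ) / (#{p' | w₀ p' = w₀ p} : ℕ)))
  rw [Fintype.piFinset_univ] at h
  rw [← h]
  apply Finset.prod_eq_one
  intro p _
  rw [← Finset.sum_div]
  have h2 : ∑ b, (cnt w₀ c₀ (w₀ p, b) : ℝ) = (#{p' | w₀ p' = w₀ p} : ℕ) := by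
    rw [← sum_cnt_row w₀ c₀ (w₀ p)]
    push_cast
    rfl
  rw [h2]
  have := fiber_pos w₀ p
  field_simp

lemma PP_eq (w₀ : X → A) (γ : A × C → ℕ) (c : X → C) :
    PP w₀ γ c = (∏ q, (γ q : ℝ) ^ cnt w₀ c q) / ∏ p, ((#{p' | w₀ p' = w₀ p} : ℕ) : ℝ) := by
  unfold PP
  rw [Finset.prod_div_distrib]
  congr 1
  exact prod_pw w₀ c (fun q => (γ q : ℝ))

lemma fib_pos (w₀ : X → A) (c : X → C) : 0 < fib w₀ c :=
  Finset.card_pos.2 ⟨c, by simp⟩

/-- the mode inequality on words, in `ℕ` -/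
lemma mode_nat (w₀ : X → A) (c₀ c : X → C) :
    fib w₀ c * ∏ q, (cnt w₀ c₀ q) ^ cnt w₀ c q ≤
      fib w₀ c₀ * ∏ q, (cnt w₀ c₀ q) ^ cnt w₀ c₀ q := by
  have h1 := card_fib_mul w₀ c
  have h2 := card_fib_mul w₀ c₀
  have hpos : 0 < (∏ q, (cnt w₀ c q)!) * ∏ q, (cnt w₀ c₀ q)! := by positivity
  refine Nat.le_of_mul_le_mul_right ?_ hpos
  have h3 : ∏ q, ((cnt w₀ c₀ q) ^ cnt w₀ c q * (cnt w₀ c₀ q)!) ≤
      ∏ q, ((cnt w₀ c₀ q) ^ cnt w₀ c₀ q * (cnt w₀ c q)!) :=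
    Finset.prod_le_prod' (fun q _ => pow_mul_factorial_le _ _)
  rw [Finset.prod_mul_distrib, Finset.prod_mul_distrib] at h3
  calc (fib w₀ c * ∏ q, (cnt w₀ c₀ q) ^ cnt w₀ c q) * ((∏ q, (cnt w₀ c q)!) * ∏ q, (cnt w₀ c₀ q)!)
      = (fib w₀ c * ∏ q, (cnt w₀ c q)!) *
          ((∏ q, (cnt w₀ c₀ q) ^ cnt w₀ c q) * ∏ q, (cnt w₀ c₀ q)!) := by ring
    _ ≤ (fib w₀ c * ∏ q, (cnt w₀ c q)!) *
          ((∏ q, (cnt w₀ c₀ q) ^ cnt w₀ c₀ q) * ∏ q, (cnt w₀ c q)!) := by gcongr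
    _ = (fib w₀ c₀ * ∏ q, (cnt w₀ c₀ q)!) *
          ((∏ q, (cnt w₀ c₀ q) ^ cnt w₀ c₀ q) * ∏ q, (cnt w₀ c q)!) := by rw [h1, h2]
    _ = (fib w₀ c₀ * ∏ q, (cnt w₀ c₀ q) ^ cnt w₀ c₀ q) *
          ((∏ q, (cnt w₀ c q)!) * ∏ q, (cnt w₀ c₀ q)!) := by ring

/-- the mode inequality, real form -/
lemma mode_real (w₀ : X → A) (c₀ c : X → C) :
    (fib w₀ c : ℝ) * PP w₀ (cnt w₀ c₀) c ≤ (fib w₀ c₀ : ℝ) * PP w₀ (cnt w₀ c₀) c₀ := by
  rw [PP_eq, PP_eq]
  have h := mode_nat w₀ c₀ c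
  have h' : (fib w₀ c : ℝ) * ∏ q, (cnt w₀ c₀ q : ℝ) ^ cnt w₀ c q ≤
      (fib w₀ c₀ : ℝ) * ∏ q, (cnt w₀ c₀ q : ℝ) ^ cnt w₀ c₀ q := by
    exact_mod_cast h
  have hD : 0 ≤ ∏ p, ((#{p' | w₀ p' = w₀ p} : ℕ) : ℝ) := Finset.prod_nonneg fun _ _ => by positivity
  rw [← mul_div_assoc, ← mul_div_assoc]
  exact div_le_div_of_nonneg_right h' hD

lemma PP_congr (w₀ : X → A) (γ : A × C → ℕ) {c c' : X → C} (h : cnt w₀ c = cnt w₀ c') :
    PP w₀ γ c = PP w₀ γ c' := by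
  rw [PP_eq, PP_eq, h]

/-- the type count bound: the mode class has mass at least `1/#types`. -/
lemma mode_bound (w₀ : X → A) (c₀ : X → C) :
    1 ≤ (#(univ.image (cnt w₀ (C := C))) : ℝ) * ((fib w₀ c₀ : ℝ) * PP w₀ (cnt w₀ c₀) c₀) := by
  rw [← sum_PP w₀ c₀]
  rw [← Finset.sum_fiberwise_of_maps_to (s := univ) (t := univ.image (cnt w₀ (C := C)))
    (g := cnt w₀) (fun c _ => Finset.mem_image_of_mem _ (mem_univ _))]
  rw [← nsmul_eq_mul]
  apply Finset.sum_le_card_nsmul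
  intro t ht
  obtain ⟨c₁, -, rfl⟩ := Finset.mem_image.1 ht
  have h1 : ∀ c ∈ ({c | cnt w₀ c = cnt w₀ c₁} : Finset (X → C)),
      PP w₀ (cnt w₀ c₀) c = PP w₀ (cnt w₀ c₀) c₁ := by
    intro c hc
    exact PP_congr _ _ (mem_filter.1 hc).2
  rw [Finset.sum_congr rfl h1, Finset.sum_const, nsmul_eq_mul]
  exact mode_real w₀ c₀ c₁

end Words

section Comp

/-- compositions of `n` into `T` parts -/
abbrev Comp (T n : ℕ) : Type := {P : Fin T → ℕ // ∑ a, P a = n}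

noncomputable instance (T n : ℕ) : Fintype (Comp T n) :=
  Fintype.ofEquiv _ (Sym.equivNatSumOfFintype (Fin T) n)

lemma card_comp (T n : ℕ) : Fintype.card (Comp T n) = (T + n - 1).choose n := by
  rw [Fintype.card_congr (Sym.equivNatSumOfFintype (Fin T) n).symm, Sym.card_sym_eq_choose,
    Fintype.card_fin]

lemma card_comp' {T : ℕ} (hT : 1 ≤ T) (n : ℕ) :
    Fintype.card (Comp T n) = (n + T - 1).choose (T - 1) := by
  rw [card_comp]
  have : T + n - 1 = n + (T - 1) := by omega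
  have h2 : n + T - 1 = n + (T - 1) := by omega
  rw [this, h2, Nat.choose_symm_add]

/-- row-content matrices with prescribed row sums -/
abbrev Rows {T : ℕ} (α : Fin T → ℕ) : Type := ∀ a, Comp T (α a)

lemma card_rows {T : ℕ} (hT : 1 ≤ T) (α : Fin T → ℕ) :
    Fintype.card (Rows α) = ∏ a, (α a + T - 1).choose (T - 1) := by
  rw [Fintype.card_pi]
  exact Finset.prod_congr rfl fun a _ => card_comp' hT _

lemma comp_nonempty {T : ℕ} (hT : 1 ≤ T) (n : ℕ) : Nonempty (Comp T n) := by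
  have h : 0 < Fintype.card (Comp T n) := by
    rw [card_comp]
    exact Nat.choose_pos (by omega)
  exact Fintype.card_pos_iff.1 h

variable {T i : ℕ}

/-- content of a word -/
def cont (w₀ : Fin i → Fin T) : Comp T i :=
  ⟨fun a => #{p | w₀ p = a}, by
    have := Finset.card_eq_sum_card_fiberwise (f := w₀) (s := univ) (t := univ) (fun _ _ => mem_univ _)
    simpa using this.symm⟩

/-- the row data of a word -/
def rowOf (w₀ : Fin i → Fin T) (c : Fin i → Fin T) : Rows (cont w₀).1 := fun a =>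
  ⟨fun b => cnt w₀ c (a, b), by simpa [cont] using sum_cnt_row w₀ c a⟩

lemma card_image_cnt_le (w₀ : Fin i → Fin T) :
    #(univ.image (cnt w₀ (C := Fin T))) ≤ Fintype.card (Rows (cont w₀).1) := by
  let dec : Rows (cont w₀).1 → (Fin T × Fin T → ℕ) := fun γ q => (γ q.1).1 q.2
  have h : univ.image (cnt w₀ (C := Fin T)) = (univ.image (rowOf w₀)).image dec := by
    rw [Finset.image_image]
    rfl
  rw [h]
  exact Finset.card_image_le.trans (Finset.card_le_univ _)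

end Comp

section Phase

open ComplexConjugate

/-- the root of unity -/
noncomputable def zt (N : ℕ) : ℂ := Complex.exp (2 * Real.pi * Complex.I / ((N + 1 : ℕ) : ℂ))

lemma zt_prim (N : ℕ) : IsPrimitiveRoot (zt N) (N + 1) :=
  Complex.isPrimitiveRoot_exp (N + 1) (by omega)

lemma zt_conj (N : ℕ) : conj (zt N) = (zt N)⁻¹ := by
  have h : ‖zt N‖ = 1 := (zt_prim N).norm'_eq_one (by omega)
  rw [Complex.inv_def, Complex.normSq_eq_norm_sq, h]
  simp

lemma zt_ne (N : ℕ) : zt N ≠ 0 := Complex.exp_ne_zero _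

lemma phase_sum {N a b : ℕ} (ha : a ≤ N) (hb : b ≤ N) :
    ∑ t : Fin (N + 1), (zt N ^ (t : ℕ)) ^ a * conj ((zt N ^ (t : ℕ)) ^ b) =
      if a = b then ((N + 1 : ℕ) : ℂ) else 0 := by
  set x : ℂ := zt N ^ ((a : ℤ) - b) with hx
  have hterm : ∀ t : Fin (N + 1), (zt N ^ (t : ℕ)) ^ a * conj ((zt N ^ (t : ℕ)) ^ b) =
      x ^ (t : ℕ) := by
    intro t
    have h0 := zt_ne N
    have hx' : x = zt N ^ a * (zt N)⁻¹ ^ b := by
      rw [hx, zpow_sub₀ h0, zpow_natCast, zpow_natCast, inv_pow, div_eq_mul_inv]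
    rw [map_pow, map_pow, zt_conj, hx', mul_pow, ← pow_mul, ← pow_mul, ← pow_mul, ← pow_mul,
      mul_comm (t : ℕ) a, mul_comm (t : ℕ) b]
  rw [Finset.sum_congr rfl (fun t _ => hterm t), Fin.sum_univ_eq_sum_range (fun t => x ^ t)]
  split_ifs with hab
  · subst hab
    have : x = 1 := by simp [hx]
    simp [this]
  · have hne : x ≠ 1 := by
      intro h
      rw [hx, (zt_prim N).zpow_eq_one_iff_dvd] at h
      have h1 : ((N + 1 : ℕ) : ℤ) ∣ (a : ℤ) - b := h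
      obtain ⟨k, hk⟩ := h1
      have hk0 : k = 0 := by
        by_contra hk0
        have h2 : |(a : ℤ) - b| ≤ N := by
          rw [abs_le]
          constructor <;> omega
        have h3 : (N + 1 : ℤ) ≤ |(a : ℤ) - b| := by
          rw [hk, abs_mul]
          have : (1 : ℤ) ≤ |k| := Int.one_le_abs hk0
          push_cast
          have h5 : |((N : ℤ) + 1)| = N + 1 := abs_of_nonneg (by positivity)
          rw [h5]
          nlinarith
        omega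
      rw [hk0] at hk
      omega
    have hpow : x ^ (N + 1) = 1 := by
      rw [hx, ← zpow_natCast, ← _root_.zpow_mul, mul_comm, _root_.zpow_mul, zpow_natCast, (zt_prim N).pow_eq_one]
      simp
    have h := mul_geom_sum x (N + 1)
    rw [hpow, sub_self] at h
    exact (mul_eq_zero.1 h).resolve_left (sub_ne_zero.2 hne)

lemma phase_orth {Q : Type*} [Fintype Q] [DecidableEq Q] {N : ℕ} (n n' : Q → ℕ)
    (h : ∀ q, n q ≤ N) (h' : ∀ q, n' q ≤ N) :
    ∑ θ : Q → Fin (N + 1), ∏ q, ((zt N ^ (θ q : ℕ)) ^ n q * conj ((zt N ^ (θ q : ℕ)) ^ n' q)) =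
      if n = n' then ((Fintype.card (Q → Fin (N + 1)) : ℕ) : ℂ) else 0 := by
  have e := Finset.prod_univ_sum (fun _ : Q => (univ : Finset (Fin (N + 1))))
    (fun q t => (zt N ^ (t : ℕ)) ^ n q * conj ((zt N ^ (t : ℕ)) ^ n' q))
  rw [Fintype.piFinset_univ] at e
  rw [← e]
  simp only [phase_sum (h _) (h' _)]
  split_ifs with hn
  · subst hn
    simp
  · obtain ⟨q, hq⟩ := Function.ne_iff.1 hn
    apply Finset.prod_eq_zero (mem_univ q)
    rw [if_neg hq]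

end Phase

section Avg

open ComplexConjugate

variable {X A C : Type*} [Fintype X] [DecidableEq X] [Fintype A] [DecidableEq A]
  [Fintype C] [DecidableEq C]

/-- the phase of a word -/
noncomputable def ZZ (N : ℕ) (w₀ : X → A) (θ : A × C → Fin (N + 1)) (c : X → C) : ℂ :=
  ∏ p, zt N ^ (θ (w₀ p, c p) : ℕ)

lemma ZZ_eq (N : ℕ) (w₀ : X → A) (θ : A × C → Fin (N + 1)) (c : X → C) :
    ZZ N w₀ θ c = ∏ q, (zt N ^ (θ q : ℕ)) ^ cnt w₀ c q :=
  prod_pw w₀ c (fun q => zt N ^ (θ q : ℕ))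

lemma sum_ZZ {N : ℕ} (hN : Fintype.card X ≤ N) (w₀ : X → A) (c c' : X → C) :
    ∑ θ : A × C → Fin (N + 1), conj (ZZ N w₀ θ c) * ZZ N w₀ θ c' =
      if cnt w₀ c' = cnt w₀ c then ((Fintype.card (A × C → Fin (N + 1)) : ℕ) : ℂ) else 0 := by
  rw [← phase_orth (cnt w₀ c') (cnt w₀ c) (fun q => (cnt_le w₀ c' q).trans hN)
    (fun q => (cnt_le w₀ c q).trans hN)]
  apply Finset.sum_congr rfl
  intro θ _
  rw [ZZ_eq, ZZ_eq, map_prod, ← Finset.prod_mul_distrib]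
  apply Finset.prod_congr rfl
  intro q _
  rw [mul_comm]

/-- **Phase averaging.** -/
lemma phase_avg {N : ℕ} (hN : Fintype.card X ≤ N) (w₀ : X → A) (G : (X → C) → ℂ)
    (hG : ∀ c c', cnt w₀ c = cnt w₀ c' → G c = G c') :
    ∑ θ : A × C → Fin (N + 1), ‖∑ c, conj (ZZ N w₀ θ c) * G c‖ ^ 2 =
      (Fintype.card (A × C → Fin (N + 1)) : ℝ) * ∑ c, (fib w₀ c : ℝ) * ‖G c‖ ^ 2 := by
  apply Complex.ofReal_injective
  push_cast
  have hsq : ∀ z : ℂ, ((‖z‖ : ℂ)) ^ 2 = z * conj z := by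
    intro z
    rw [Complex.mul_conj, Complex.normSq_eq_norm_sq]
    push_cast
    rfl
  simp only [hsq]
  have h1 : ∀ θ : A × C → Fin (N + 1),
      (∑ c, conj (ZZ N w₀ θ c) * G c) * conj (∑ c, conj (ZZ N w₀ θ c) * G c) =
        ∑ c, ∑ c', G c * conj (G c') * (conj (ZZ N w₀ θ c) * ZZ N w₀ θ c') := by
    intro θ
    rw [map_sum, Finset.sum_mul_sum]
    apply Finset.sum_congr rfl
    intro c _
    apply Finset.sum_congr rfl
    intro c' _
    rw [map_mul, Complex.conj_conj]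
    ring
  simp only [h1]
  rw [Finset.sum_comm]
  simp only [Finset.mul_sum]
  apply Finset.sum_congr rfl
  intro c _
  rw [Finset.sum_comm]
  simp only [← Finset.mul_sum, sum_ZZ hN]
  have h2 : ∀ c' : X → C, G c * conj (G c') *
      (if cnt w₀ c' = cnt w₀ c then ((Fintype.card (A × C → Fin (N + 1)) : ℕ) : ℂ) else 0) =
      (if cnt w₀ c' = cnt w₀ c then
        ((Fintype.card (A × C → Fin (N + 1)) : ℕ) : ℂ) * (G c * conj (G c)) else 0) := by
    intro c'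
    split_ifs with h
    · rw [hG c' c h]
      ring
    · simp
  simp only [h2]
  rw [Finset.sum_ite, Finset.sum_const, Finset.sum_const_zero, add_zero, nsmul_eq_mul]
  have h3 : #{x : X → C | cnt w₀ x = cnt w₀ c} = fib w₀ c := rfl
  rw [h3]
  ring

end Avg

section Vec

open ComplexConjugate

variable {T N i : ℕ}

/-- the unit vectors attached to `(α, γ, θ)`. -/
noncomputable def vv (N : ℕ) {T : ℕ} (α : Fin T → ℕ) (γ : Rows α) (θ : Fin T × Fin T → Fin (N + 1))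
    (a b : Fin T) : ℂ :=
  ((√(((γ a).1 b : ℝ) / α a) : ℝ) : ℂ) * zt N ^ (θ (a, b) : ℕ)

lemma norm_zt_pow (N k : ℕ) : ‖zt N ^ k‖ = 1 := by
  rw [norm_pow, (zt_prim N).norm'_eq_one (by omega), one_pow]

lemma vv_unit (N : ℕ) {T : ℕ} (α : Fin T → ℕ) (γ : Rows α) (θ : Fin T × Fin T → Fin (N + 1))
    (a : Fin T) (ha : 0 < α a) : star (vv N α γ θ a) ⬝ᵥ vv N α γ θ a = 1 := by
  have h : ∀ b, star (vv N α γ θ a b) * vv N α γ θ a b = (((γ a).1 b : ℝ) / α a : ℝ) := by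
    intro b
    have h1 : star (vv N α γ θ a b) * vv N α γ θ a b = ((‖vv N α γ θ a b‖ ^ 2 : ℝ) : ℂ) := by
      rw [Complex.star_def, mul_comm, Complex.mul_conj, Complex.normSq_eq_norm_sq]
    rw [h1]
    congr 1
    unfold vv
    rw [norm_mul, norm_zt_pow, mul_one, Complex.norm_real, Real.norm_eq_abs, sq_abs,
      Real.sq_sqrt (by positivity)]
  simp only [dotProduct, Pi.star_apply, h]
  push_cast
  rw [← Finset.sum_div]
  have h2 : ∑ b, ((γ a).1 b : ℂ) = (α a : ℂ) := by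
    have := (γ a).2
    exact_mod_cast this
  rw [h2]
  have : (α a : ℂ) ≠ 0 := by
    exact_mod_cast ha.ne'
  field_simp

/-- decode row data to a function on pairs -/
def dec {T : ℕ} {α : Fin T → ℕ} (γ : Rows α) : Fin T × Fin T → ℕ := fun q => (γ q.1).1 q.2

/-- the word vector -/
noncomputable def uu (N : ℕ) {T i : ℕ} (w₀ : Fin i → Fin T) (γ : Rows (cont w₀).1)
    (θ : Fin T × Fin T → Fin (N + 1)) (c : Fin i → Fin T) : ℂ :=
  ∏ p, vv N (cont w₀).1 γ θ (w₀ p) (c p)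

/-- the real amplitude -/
noncomputable def rr {T i : ℕ} (w₀ : Fin i → Fin T) (γ : Rows (cont w₀).1) (c : Fin i → Fin T) : ℝ :=
  ∏ p, √((dec γ (w₀ p, c p) : ℝ) / (#{p' | w₀ p' = w₀ p} : ℕ))

lemma uu_eq (N : ℕ) {T i : ℕ} (w₀ : Fin i → Fin T) (γ : Rows (cont w₀).1)
    (θ : Fin T × Fin T → Fin (N + 1)) (c : Fin i → Fin T) :
    uu N w₀ γ θ c = (rr w₀ γ c : ℂ) * ZZ N w₀ θ c := by
  unfold uu rr ZZ vv
  push_cast
  rw [Finset.prod_mul_distrib]
  rfl

lemma rr_sq {T i : ℕ} (w₀ : Fin i → Fin T) (γ : Rows (cont w₀).1) (c : Fin i → Fin T) :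
    rr w₀ γ c ^ 2 = PP w₀ (dec γ) c := by
  unfold rr PP
  rw [← Finset.prod_pow]
  apply Finset.prod_congr rfl
  intro p _
  rw [Real.sq_sqrt (by positivity)]

lemma rr_congr {T i : ℕ} (w₀ : Fin i → Fin T) (γ : Rows (cont w₀).1) {c c' : Fin i → Fin T}
    (h : cnt w₀ c = cnt w₀ c') : rr w₀ γ c = rr w₀ γ c' := by
  obtain ⟨g, hg, rfl⟩ := exists_perm_of_cnt h
  unfold rr
  rw [← Equiv.prod_comp g]
  apply Finset.prod_congr rfl
  intro p _
  have hp : w₀ (g p) = w₀ p := congrFun hg p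
  simp [hp]

/-- phase average of the overlap -/
lemma phase_uu {T i N : ℕ} (hN : i ≤ N) (w₀ : Fin i → Fin T) (γ : Rows (cont w₀).1)
    (f : (Fin i → Fin T) → ℂ)
    (hf : ∀ g : Equiv.Perm (Fin i), w₀ ∘ g = w₀ → ∀ c, f (c ∘ g) = f c) :
    ∑ θ : Fin T × Fin T → Fin (N + 1), ‖star (uu N w₀ γ θ) ⬝ᵥ f‖ ^ 2 =
      (Fintype.card (Fin T × Fin T → Fin (N + 1)) : ℝ) *
        ∑ c, (fib w₀ c : ℝ) * (PP w₀ (dec γ) c * ‖f c‖ ^ 2) := by
  have hfc : ∀ c c', cnt w₀ c = cnt w₀ c' → f c = f c' := by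
    intro c c' h
    obtain ⟨g, hg, rfl⟩ := exists_perm_of_cnt h
    exact (hf g hg c).symm
  have h := phase_avg (N := N) (by simpa using hN) w₀
    (fun c => (rr w₀ γ c : ℂ) * f c)
    (fun c c' h => by rw [rr_congr w₀ γ h, hfc c c' h])
  have e : ∀ θ : Fin T × Fin T → Fin (N + 1), star (uu N w₀ γ θ) ⬝ᵥ f =
      ∑ c, conj (ZZ N w₀ θ c) * ((rr w₀ γ c : ℂ) * f c) := by
    intro θ
    simp only [dotProduct, Pi.star_apply, uu_eq, star_mul', Complex.star_def, Complex.conj_ofReal]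
    apply Finset.sum_congr rfl
    intro c _
    ring
  simp only [e]
  rw [h]
  congr 1
  apply Finset.sum_congr rfl
  intro c _
  rw [norm_mul, mul_pow, Complex.norm_real, Real.norm_eq_abs, sq_abs, rr_sq]

end Vec

section Lin

variable {E : Type*} [Fintype E] [DecidableEq E]

/-- **Cauchy-Schwarz for a dual pair of forms** (same proof as `SWord.cs_dual`). -/
theorem cs_dual' {Y : Matrix E E ℂ} (hY : Y.PosDef) (a b : E → ℂ) :
    ‖star a ⬝ᵥ b‖ ^ 2 ≤ (star a ⬝ᵥ (Y⁻¹ *ᵥ a)).re * (star b ⬝ᵥ (Y *ᵥ b)).re := by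
  classical
  have hYu : IsUnit Y.det := (Matrix.isUnit_iff_isUnit_det _).mp hY.isUnit
  set v : E → ℂ := Y⁻¹ *ᵥ a with hv
  have hYv : Y *ᵥ v = a := by
    rw [hv, Matrix.mulVec_mulVec, Matrix.mul_nonsing_inv _ hYu, Matrix.one_mulVec]
  set P : (E → ℂ) → (E → ℂ) → ℂ := fun x y => star x ⬝ᵥ (Y *ᵥ y) with hP
  have hadj : ∀ x y : E → ℂ, star x ⬝ᵥ (Y *ᵥ y) = star (Y *ᵥ x) ⬝ᵥ y :=
    fun x y => by rw [dotProduct_mulVec, star_mulVec, hY.isHermitian.eq]
  have hsym : ∀ x y, P y x = star (P x y) := by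
    intro x y
    simp only [hP]
    rw [Matrix.star_dotProduct, ← hadj x y]
  have hpos : ∀ x, 0 ≤ P x x := fun x => hY.posSemidef.dotProduct_mulVec_nonneg x
  set A : ℝ := (P v v).re with hA
  set B : ℝ := (P b b).re with hB
  have hPA : P v v = (A : ℂ) := by
    have := Complex.le_def.mp (hpos v)
    apply Complex.ext
    · rfl
    · simpa using this.2.symm
  have hPB : P b b = (B : ℂ) := by
    have := Complex.le_def.mp (hpos b)
    apply Complex.ext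
    · rfl
    · simpa using this.2.symm
  have hB0 : 0 ≤ B := (Complex.le_def.mp (hpos b)).1
  have hA0 : 0 ≤ A := (Complex.le_def.mp (hpos v)).1
  have hq : (star a ⬝ᵥ v).re = A := by
    have : star a ⬝ᵥ v = P v v := by
      simp only [hP]
      rw [hadj v v, hYv]
    rw [this, hPA]
    simp
  have hab : star a ⬝ᵥ b = P v b := by
    simp only [hP]
    rw [hadj v b, hYv]
  rw [hq, hab]
  change ‖P v b‖ ^ 2 ≤ A * B
  by_cases hb : b = 0
  · subst hb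
    have : P v 0 = 0 := by simp [hP]
    rw [this]
    have h2 : (P 0 0).re = 0 := by simp [hP]
    have : B = 0 := h2
    rw [this]
    simp
  have hBpos : 0 < B := by
    have h1 := hY.dotProduct_mulVec_pos hb
    exact (Complex.lt_def.mp h1).1
  set μ : ℂ := P b v with hμ
  have hμ2 : P v b = star μ := by
    rw [hμ, hsym v b, star_star]
  set x : E → ℂ := (B : ℂ) • v - μ • b with hx
  have hexp : P x x = (B : ℂ) * (B : ℂ) * P v v - (B : ℂ) * μ * P v b - star μ * (B : ℂ) * P b v +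
      star μ * μ * P b b := by
    simp only [hP, hx]
    rw [star_sub, star_smul, star_smul, Matrix.mulVec_sub, Matrix.mulVec_smul, Matrix.mulVec_smul,
      sub_dotProduct, dotProduct_sub, dotProduct_sub, smul_dotProduct, smul_dotProduct,
      dotProduct_smul, dotProduct_smul, dotProduct_smul, dotProduct_smul]
    simp only [smul_eq_mul, Complex.star_def, Complex.conj_ofReal, smul_dotProduct, dotProduct_smul]
    ring
  have hn : star μ * μ = ((‖μ‖ ^ 2 : ℝ) : ℂ) := by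
    rw [Complex.star_def, mul_comm, Complex.mul_conj, Complex.normSq_eq_norm_sq]
  have hval : P x x = (((B * (B * A - ‖μ‖ ^ 2)) : ℝ) : ℂ) := by
    rw [hexp, hPA, hPB, hμ2, ← hμ]
    have e : (B : ℂ) * (B : ℂ) * (A : ℂ) - (B : ℂ) * μ * star μ - star μ * (B : ℂ) * μ +
        star μ * μ * (B : ℂ) = (B : ℂ) * ((B : ℂ) * (A : ℂ) - star μ * μ) := by ring
    rw [e, hn]
    push_cast
    ring
  have h0 := hpos x
  rw [hval] at h0
  have h1 : 0 ≤ B * (B * A - ‖μ‖ ^ 2) := by exact_mod_cast h0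
  have h2 : 0 ≤ B * A - ‖μ‖ ^ 2 := nonneg_of_mul_nonneg_right h1 hBpos
  have h3 : ‖star μ‖ = ‖μ‖ := norm_star _
  rw [hμ2, h3]
  linarith

/-- a positive definite matrix has a positive definite inverse -/
lemma inv_posDef' {A : Matrix E E ℂ} (hA : A.PosDef) : (A⁻¹).PosDef := by
  have h := hA.inv
  exact h

/-- The single-factor bound. -/
lemma factor_bound {x A : Matrix E E ℂ} (hA : A.PosDef) (hx : A * A = x) {v : E → ℂ}
    (hv : star v ⬝ᵥ v = 1) {w : ℝ} (hw0 : 0 < w)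
    (hw : ∀ y, w * ‖star v ⬝ᵥ y‖ ^ 2 ≤ (star y ⬝ᵥ (x *ᵥ y)).re) :
    (star v ⬝ᵥ (A⁻¹ *ᵥ v)).re ≤ (√w)⁻¹ := by
  have hAu : IsUnit A.det := (Matrix.isUnit_iff_isUnit_det _).mp hA.isUnit
  have hB : (A⁻¹).PosDef := inv_posDef' hA
  set B : Matrix E E ℂ := A⁻¹ with hBdef
  have hAB : A * B = 1 := Matrix.mul_nonsing_inv _ hAu
  set y : E → ℂ := B *ᵥ (B *ᵥ v) with hy
  have hxy : x *ᵥ y = v := by
    rw [hy, ← hx, Matrix.mulVec_mulVec, Matrix.mulVec_mulVec]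
    have : A * A * (B * B) = 1 := by
      rw [mul_assoc A A, ← mul_assoc A B B, hAB, one_mul, hAB]
    rw [mul_assoc (A * A) B B, this, Matrix.one_mulVec]
  set s : ℝ := (star (B *ᵥ v) ⬝ᵥ (B *ᵥ v)).re with hs
  have hadj : ∀ a b : E → ℂ, star a ⬝ᵥ (B *ᵥ b) = star (B *ᵥ a) ⬝ᵥ b :=
    fun a b => by rw [dotProduct_mulVec, star_mulVec, hB.isHermitian.eq]
  have hs0 : 0 ≤ s := by
    have := star_dot_self_nonneg (B *ᵥ v)
    exact (Complex.le_def.mp this).1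
  have h1 : star v ⬝ᵥ y = star (B *ᵥ v) ⬝ᵥ (B *ᵥ v) := hadj _ _
  have h2 : star y ⬝ᵥ v = star (B *ᵥ v) ⬝ᵥ (B *ᵥ v) := by
    rw [hy, ← hadj]
  have hreal : star (B *ᵥ v) ⬝ᵥ (B *ᵥ v) = (s : ℂ) := by
    have := Complex.le_def.mp (star_dot_self_nonneg (B *ᵥ v))
    apply Complex.ext
    · rfl
    · simpa using this.2.symm
  have h3 := hw y
  rw [hxy, h1, h2, hreal, Complex.norm_real, Real.norm_eq_abs, sq_abs, Complex.ofReal_re] at h3
  have hsw : s ≤ w⁻¹ := by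
    by_cases hs00 : s = 0
    · rw [hs00]; positivity
    · have hspos : 0 < s := lt_of_le_of_ne hs0 (Ne.symm hs00)
      have : w * s ≤ 1 := by
        have : (w * s) * s ≤ 1 * s := by nlinarith
        exact le_of_mul_le_mul_right this hspos
      rw [← one_div, le_div_iff₀ hw0]
      linarith
  have hcs := cs_dual' (Matrix.PosDef.one (n := E) (R := ℂ)) v (B *ᵥ v)
  simp only [inv_one, Matrix.one_mulVec] at hcs
  rw [hv] at hcs
  simp only [Complex.one_re, one_mul] at hcs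
  have hle : (star v ⬝ᵥ (B *ᵥ v)).re ≤ ‖star v ⬝ᵥ (B *ᵥ v)‖ := Complex.re_le_norm _
  have h4 : ‖star v ⬝ᵥ (B *ᵥ v)‖ ≤ √s := by
    apply Real.le_sqrt_of_sq_le
    exact hcs
  have h5 : √s ≤ √(w⁻¹) := Real.sqrt_le_sqrt hsw
  rw [Real.sqrt_inv] at h5
  linarith

/-- the overlap with a product vector -/
lemma tp_form {X ι : Type*} [Fintype X] [DecidableEq X] [Fintype ι] [DecidableEq ι]
    (B : Matrix ι ι ℂ) (V : X → ι → ℂ) :
    star (fun c : X → ι => ∏ p, V p (c p)) ⬝ᵥ (tp (fun _ : X => B) *ᵥ (fun c => ∏ p, V p (c p))) =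
      ∏ p, (star (V p) ⬝ᵥ (B *ᵥ V p)) := by
  simp only [dotProduct, Matrix.mulVec, Pi.star_apply, tp_apply, star_prod]
  have h1 : ∀ p, (∑ a, star (V p a) * ∑ b, B a b * V p b) =
      ∑ a, ∑ b, star (V p a) * (B a b * V p b) := by
    intro p
    apply Finset.sum_congr rfl
    intro a _
    rw [Finset.mul_sum]
  simp only [h1]
  have h2 := Finset.prod_univ_sum (fun _ : X => (univ : Finset ι))
    (fun p a => ∑ b, star (V p a) * (B a b * V p b))
  rw [Fintype.piFinset_univ] at h2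
  rw [h2]
  apply Finset.sum_congr rfl
  intro c _
  have h3 := Finset.prod_univ_sum (fun _ : X => (univ : Finset ι))
    (fun p b => star (V p (c p)) * (B (c p) b * V p b))
  rw [Fintype.piFinset_univ] at h3
  rw [h3, Finset.mul_sum]
  apply Finset.sum_congr rfl
  intro c' _
  rw [Finset.prod_mul_distrib, Finset.prod_mul_distrib]

lemma tp_posDef {X ι : Type*} [Fintype X] [DecidableEq X] [Fintype ι] [DecidableEq ι]
    {A : Matrix ι ι ℂ} (hA : A.PosDef) : (tp (fun _ : X => A)).PosDef := by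
  have h1 : (tp (fun _ : X => A)).PosSemidef := tp_posSemidef (fun _ => hA.posSemidef)
  rw [h1.posDef_iff_isUnit]
  have hAu : IsUnit A.det := (Matrix.isUnit_iff_isUnit_det _).mp hA.isUnit
  refine IsUnit.of_mul_eq_one (tp (fun _ : X => A⁻¹)) ?_
  rw [tp_mul]
  simp only [Matrix.mul_nonsing_inv _ hAu]
  exact tp_one

lemma tp_inv {X ι : Type*} [Fintype X] [DecidableEq X] [Fintype ι] [DecidableEq ι]
    {A : Matrix ι ι ℂ} (hA : A.PosDef) : (tp (fun _ : X => A))⁻¹ = tp (fun _ : X => A⁻¹) := by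
  have hAu : IsUnit A.det := (Matrix.isUnit_iff_isUnit_det _).mp hA.isUnit
  apply Matrix.inv_eq_right_inv
  rw [tp_mul]
  simp only [Matrix.mul_nonsing_inv _ hAu]
  exact tp_one

end Lin

section XX

variable {T : ℕ}

/-- the density attached to unit vectors -/
noncomputable def xx0 (I : ℕ) (α : Fin T → ℕ) (v : Fin T → Fin T → ℂ) : Matrix (Fin T) (Fin T) ℂ :=
  ((1 - 1 / (2 * (I : ℝ)) : ℝ) : ℂ) • ∑ a, ((α a / (I : ℝ) : ℝ) : ℂ) • vecMulVec (v a) (star (v a)) +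
    ((1 / (2 * (I : ℝ) * T) : ℝ) : ℂ) • (1 : Matrix (Fin T) (Fin T) ℂ)

lemma form_vecMulVec {E : Type*} [Fintype E] [DecidableEq E] (v y : E → ℂ) :
    star y ⬝ᵥ (vecMulVec v (star v) *ᵥ y) = ((‖star v ⬝ᵥ y‖ ^ 2 : ℝ) : ℂ) := by
  have h1 : vecMulVec v (star v) *ᵥ y = (star v ⬝ᵥ y) • v := by
    ext e
    simp [Matrix.mulVec, vecMulVec_apply, dotProduct, Finset.mul_sum, mul_assoc, mul_comm, mul_left_comm]
  rw [h1, dotProduct_smul, smul_eq_mul]
  have h2 : star y ⬝ᵥ v = star (star v ⬝ᵥ y) := Matrix.star_dotProduct y v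
  rw [h2, Complex.star_def, Complex.mul_conj, Complex.normSq_eq_norm_sq]

lemma form_xx0 (I : ℕ) (α : Fin T → ℕ) (v : Fin T → Fin T → ℂ) (y : Fin T → ℂ) :
    (star y ⬝ᵥ (xx0 I α v *ᵥ y)).re =
      (1 - 1 / (2 * (I : ℝ))) * ∑ a, ((α a / (I : ℝ)) * ‖star (v a) ⬝ᵥ y‖ ^ 2) +
        (1 / (2 * (I : ℝ) * T)) * (star y ⬝ᵥ y).re := by
  unfold xx0
  rw [Matrix.add_mulVec, Matrix.smul_mulVec, Matrix.smul_mulVec, Matrix.one_mulVec,
    dotProduct_add, dotProduct_smul, dotProduct_smul, Matrix.sum_mulVec, dotProduct_sum]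
  simp only [Matrix.smul_mulVec, dotProduct_smul, smul_eq_mul, form_vecMulVec]
  rw [Complex.add_re, Complex.re_ofReal_mul, Complex.re_ofReal_mul, Complex.re_sum]
  congr 2
  apply Finset.sum_congr rfl
  intro a _
  rw [Complex.re_ofReal_mul, Complex.ofReal_re]

lemma star_dot_re_pos {E : Type*} [Fintype E] {y : E → ℂ} (hy : y ≠ 0) :
    0 < (star y ⬝ᵥ y).re := by
  have := Matrix.dotProduct_star_self_pos_iff.mpr hy
  exact (Complex.lt_def.mp this).1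

lemma xx0_posDef {I : ℕ} (hI : 1 ≤ I) (hT : 1 ≤ T) (α : Fin T → ℕ) (v : Fin T → Fin T → ℂ) :
    (xx0 I α v).PosDef := by
  have hI' : (1 : ℝ) ≤ I := by exact_mod_cast hI
  have hT' : (1 : ℝ) ≤ T := by exact_mod_cast hT
  have hc : (0 : ℝ) ≤ 1 - 1 / (2 * (I : ℝ)) := by
    have : 1 / (2 * (I : ℝ)) ≤ 1 := by
      rw [div_le_one (by positivity)]
      linarith
    linarith
  unfold xx0
  refine Matrix.PosDef.posSemidef_add ?_ ?_
  · refine Matrix.PosSemidef.smul ?_ (by exact_mod_cast hc)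
    refine Matrix.posSemidef_sum _ (fun a _ => ?_)
    refine Matrix.PosSemidef.smul (Matrix.posSemidef_vecMulVec_self_star (v a)) ?_
    have : (0 : ℝ) ≤ α a / (I : ℝ) := by positivity
    exact_mod_cast this
  · refine Matrix.PosDef.smul (Matrix.PosDef.one) ?_
    have : (0 : ℝ) < 1 / (2 * (I : ℝ) * T) := by positivity
    exact_mod_cast this

lemma trace_xx0 {I : ℕ} (hI : 1 ≤ I) (hT : 1 ≤ T) (α : Fin T → ℕ) (hα : ∑ a, α a = I)
    (v : Fin T → Fin T → ℂ) (hv : ∀ a, 0 < α a → star (v a) ⬝ᵥ v a = 1) :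
    (xx0 I α v).trace = 1 := by
  have hI' : (I : ℂ) ≠ 0 := by exact_mod_cast (by omega : I ≠ 0)
  have hT' : (T : ℂ) ≠ 0 := by exact_mod_cast (by omega : T ≠ 0)
  unfold xx0
  rw [Matrix.trace_add, Matrix.trace_smul, Matrix.trace_smul, Matrix.trace_sum, Matrix.trace_one,
    Fintype.card_fin]
  have h : ∀ a, ((α a / (I : ℝ) : ℝ) : ℂ) • (vecMulVec (v a) (star (v a))).trace =
      (α a : ℂ) / I := by
    intro a
    have htr : (vecMulVec (v a) (star (v a))).trace = star (v a) ⬝ᵥ v a := by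
      simp [Matrix.trace, vecMulVec_apply, dotProduct, mul_comm]
    rcases Nat.eq_zero_or_pos (α a) with h0 | h0
    · simp [h0]
    · rw [htr, hv a h0]
      simp
  simp only [Matrix.trace_smul, h]
  rw [← Finset.sum_div]
  have h2 : ∑ a, (α a : ℂ) = (I : ℂ) := by exact_mod_cast hα
  rw [h2, smul_eq_mul, smul_eq_mul]
  push_cast
  field_simp
  ring

end XX

section Main

open ComplexConjugate

variable {T N : ℕ}

/-- the index of the mixture -/
abbrev Idx (T N : ℕ) : Type :=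
  Σ i' : Fin N, Σ α : Comp T (i'.1 + 1), Σ _γ : Rows α.1, (Fin T × Fin T → Fin (N + 1))

/-- the weights -/
noncomputable def wt (κ : Idx T N) : ℝ :=
  (N : ℝ)⁻¹ * ((Fintype.card (Comp T (κ.1.1 + 1)) : ℝ)⁻¹ * ((Fintype.card (Rows κ.2.1.1) : ℝ)⁻¹ *
    (Fintype.card (Fin T × Fin T → Fin (N + 1)) : ℝ)⁻¹))

lemma wt_pos (κ : Idx T N) : 0 < wt κ := by
  have h1 : 0 < N := lt_of_le_of_lt (Nat.zero_le _) κ.1.2
  have h2 : 0 < Fintype.card (Comp T (κ.1.1 + 1)) := Fintype.card_pos_iff.2 ⟨κ.2.1⟩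
  have h3 : 0 < Fintype.card (Rows κ.2.1.1) := Fintype.card_pos_iff.2 ⟨κ.2.2.1⟩
  have h4 : 0 < Fintype.card (Fin T × Fin T → Fin (N + 1)) := Fintype.card_pos_iff.2 ⟨κ.2.2.2⟩
  unfold wt
  have h1' : (0 : ℝ) < N := by exact_mod_cast h1
  have h2' : (0 : ℝ) < Fintype.card (Comp T (κ.1.1 + 1)) := by exact_mod_cast h2
  have h3' : (0 : ℝ) < Fintype.card (Rows κ.2.1.1) := by exact_mod_cast h3
  have h4' : (0 : ℝ) < Fintype.card (Fin T × Fin T → Fin (N + 1)) := by exact_mod_cast h4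
  positivity

lemma sum_const_inv (Z : Type*) [Fintype Z] [Nonempty Z] :
    ∑ _z : Z, ((Fintype.card Z : ℝ)⁻¹) = 1 := by
  rw [Finset.sum_const, Finset.card_univ, nsmul_eq_mul]
  have : (Fintype.card Z : ℝ) ≠ 0 := by
    exact_mod_cast (Fintype.card_pos.ne')
  field_simp

lemma sum_wt (hT : 1 ≤ T) (hN : 1 ≤ N) : ∑ κ : Idx T N, wt κ = 1 := by
  have : Nonempty (Fin N) := ⟨⟨0, hN⟩⟩
  have : ∀ n, Nonempty (Comp T n) := comp_nonempty hT
  have hR : ∀ α : Fin T → ℕ, Nonempty (Rows α) := fun α => ⟨fun a => Classical.arbitrary _⟩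
  unfold wt
  simp only [Fintype.sum_sigma]
  have hθ := sum_const_inv (Fin T × Fin T → Fin (N + 1))
  have step3 : ∀ (i' : Fin N) (α : Comp T (i'.1 + 1)),
      ∑ _γ : Rows α.1, ∑ _θ : (Fin T × Fin T → Fin (N + 1)),
        ((N : ℝ)⁻¹ * ((Fintype.card (Comp T (i'.1 + 1)) : ℝ)⁻¹ * ((Fintype.card (Rows α.1) : ℝ)⁻¹ *
          (Fintype.card (Fin T × Fin T → Fin (N + 1)) : ℝ)⁻¹))) =
      (N : ℝ)⁻¹ * (Fintype.card (Comp T (i'.1 + 1)) : ℝ)⁻¹ := by
    intro i' α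
    have := hR α.1
    have h1 : ∀ _γ : Rows α.1, ∑ _θ : (Fin T × Fin T → Fin (N + 1)),
        ((N : ℝ)⁻¹ * ((Fintype.card (Comp T (i'.1 + 1)) : ℝ)⁻¹ * ((Fintype.card (Rows α.1) : ℝ)⁻¹ *
          (Fintype.card (Fin T × Fin T → Fin (N + 1)) : ℝ)⁻¹))) =
        (N : ℝ)⁻¹ * ((Fintype.card (Comp T (i'.1 + 1)) : ℝ)⁻¹ * (Fintype.card (Rows α.1) : ℝ)⁻¹) := by
      intro γ
      rw [← Finset.mul_sum, ← Finset.mul_sum, ← Finset.mul_sum, hθ, mul_one]
    rw [Finset.sum_congr rfl (fun γ _ => h1 γ), ← Finset.mul_sum, ← Finset.mul_sum,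
      sum_const_inv, mul_one]
  simp only [step3]
  have step2 : ∀ i' : Fin N, ∑ _α : Comp T (i'.1 + 1),
      ((N : ℝ)⁻¹ * (Fintype.card (Comp T (i'.1 + 1)) : ℝ)⁻¹) = (N : ℝ)⁻¹ := by
    intro i'
    rw [← Finset.mul_sum, sum_const_inv, mul_one]
  simp only [step2]
  have := sum_const_inv (Fin N)
  simpa using this

/-- the density of an index -/
noncomputable def xx (κ : Idx T N) : Matrix (Fin T) (Fin T) ℂ :=
  xx0 (κ.1.1 + 1) κ.2.1.1 (vv N κ.2.1.1 κ.2.2.1 κ.2.2.2)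

lemma xx_posDef (hT : 1 ≤ T) (κ : Idx T N) : (xx κ).PosDef :=
  xx0_posDef (by omega) hT _ _

lemma trace_xx (hT : 1 ≤ T) (κ : Idx T N) : (xx κ).trace = 1 :=
  trace_xx0 (by omega) hT _ κ.2.1.2 _ (fun a ha => vv_unit N _ _ _ a ha)

lemma sqrt_posDef' {E : Type*} [Fintype E] [DecidableEq E] {A : Matrix E E ℂ} (hA : A.PosDef) :
    (CFC.sqrt A).PosDef := by
  have h0 : 0 ≤ A := hA.posSemidef.nonneg
  have hs : (CFC.sqrt A).PosSemidef := (CFC.sqrt_nonneg A).posSemidef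
  rw [hs.posDef_iff_isUnit]
  have h2 : IsUnit (CFC.sqrt A * CFC.sqrt A) := by rw [CFC.sqrt_mul_sqrt_self A h0]; exact hA.isUnit
  exact (Commute.refl _).isUnit_mul_iff.1 h2 |>.1

/-- entropy of a composition -/
noncomputable def EE {T : ℕ} (i : ℕ) (α : Fin T → ℕ) : ℝ :=
  ∑ a, (α a : ℝ) * Real.log ((i : ℝ) / α a)

/-- number of rows -/
def DD {T : ℕ} (α : Fin T → ℕ) : ℕ := ∏ a, (α a + T - 1).choose (T - 1)

lemma one_sub_pow_ge {i : ℕ} (hi : 1 ≤ i) : 1 / 2 ≤ (1 - 1 / (2 * (i : ℝ))) ^ i := by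
  have hi' : (1 : ℝ) ≤ i := by exact_mod_cast hi
  have h := one_add_mul_le_pow (a := -(1 / (2 * (i : ℝ)))) (by
    have : 1 / (2 * (i : ℝ)) ≤ 1 := by
      rw [div_le_one (by positivity)]
      linarith
    linarith) i
  have e : (1 + -(1 / (2 * (i : ℝ)))) = 1 - 1 / (2 * (i : ℝ)) := by ring
  rw [e] at h
  have e2 : 1 + (i : ℝ) * -(1 / (2 * (i : ℝ))) = 1 / 2 := by
    field_simp
    norm_num
  rw [e2] at h
  exact h

lemma prod_w_le {i : ℕ} (hi : 1 ≤ i) (w₀ : Fin i → Fin T) :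
    ∏ p, (√((1 - 1 / (2 * (i : ℝ))) * (((cont w₀).1 (w₀ p) : ℝ) / i)))⁻¹ ≤
      √2 * Real.exp (EE i (cont w₀).1 / 2) := by
  have hi' : (1 : ℝ) ≤ i := by exact_mod_cast hi
  have hi0 : (0 : ℝ) < i := by linarith
  set s : ℝ := 1 - 1 / (2 * (i : ℝ)) with hs
  have hs0 : 0 < s := by
    have : 1 / (2 * (i : ℝ)) < 1 := by
      rw [div_lt_one (by positivity)]
      linarith
    rw [hs]
    linarith
  have hpos : ∀ p, (0 : ℝ) < (cont w₀).1 (w₀ p) := by
    intro p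
    exact_mod_cast fiber_pos w₀ p
  have h1 : ∀ p, (√(s * (((cont w₀).1 (w₀ p) : ℝ) / i)))⁻¹ =
      (√s)⁻¹ * Real.exp ((1 / 2) * Real.log ((i : ℝ) / (cont w₀).1 (w₀ p))) := by
    intro p
    have ht : (0 : ℝ) < ((cont w₀).1 (w₀ p) : ℝ) / i := div_pos (hpos p) hi0
    rw [Real.sqrt_mul hs0.le, mul_inv]
    congr 1
    have h2 : Real.log ((i : ℝ) / (cont w₀).1 (w₀ p)) =
        - Real.log (((cont w₀).1 (w₀ p) : ℝ) / i) := by
      rw [← Real.log_inv, inv_div]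
    rw [h2]
    have h3 : √(((cont w₀).1 (w₀ p) : ℝ) / i) =
        Real.exp (Real.log (((cont w₀).1 (w₀ p) : ℝ) / i) / 2) := by
      rw [← Real.log_sqrt ht.le, Real.exp_log (Real.sqrt_pos.2 ht)]
    rw [h3, ← Real.exp_neg]
    congr 1
    ring
  simp only [h1]
  rw [Finset.prod_mul_distrib, ← Real.exp_sum, Finset.prod_const, Finset.card_univ, Fintype.card_fin]
  have h5 : ∑ p : Fin i, (1 / 2) * Real.log ((i : ℝ) / (cont w₀).1 (w₀ p)) =
      EE i (cont w₀).1 / 2 := by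
    unfold EE
    rw [← Finset.sum_fiberwise (s := univ) (g := w₀), Finset.sum_div]
    apply Finset.sum_congr rfl
    intro a _
    have : ∀ p ∈ ({p | w₀ p = a} : Finset (Fin i)),
        (1 / 2) * Real.log ((i : ℝ) / (cont w₀).1 (w₀ p)) =
          (1 / 2) * Real.log ((i : ℝ) / (cont w₀).1 a) := by
      intro p hp
      rw [(mem_filter.1 hp).2]
    rw [Finset.sum_congr rfl this, Finset.sum_const, nsmul_eq_mul]
    have h6 : ((#{p | w₀ p = a} : ℕ) : ℝ) = (cont w₀).1 a := rfl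
    rw [h6]
    ring
  rw [h5]
  gcongr
  · -- `(√s)⁻¹ ^ i ≤ √2`
    apply Real.le_sqrt_of_sq_le
    have h7 := one_sub_pow_ge hi
    rw [← hs] at h7
    have h8 : ((√s)⁻¹ ^ i) ^ 2 = (s ^ i)⁻¹ := by
      rw [← pow_mul, mul_comm, pow_mul, inv_pow, Real.sq_sqrt hs0.le, inv_pow]
    rw [h8]
    have h9 : (s ^ i)⁻¹ ≤ (1 / 2 : ℝ)⁻¹ := inv_anti₀ (by norm_num) h7
    norm_num at h9 ⊢
    exact h9

/-- The Cauchy-Schwarz bound of one member of the mixture. -/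
lemma overlap_le {i : ℕ} (hi : 1 ≤ i) (hT : 1 ≤ T) (w₀ : Fin i → Fin T) (v : Fin T → Fin T → ℂ)
    (hv : ∀ p, star (v (w₀ p)) ⬝ᵥ v (w₀ p) = 1) (f : (Fin i → Fin T) → ℂ) :
    ‖star (fun c : Fin i → Fin T => ∏ p, v (w₀ p) (c p)) ⬝ᵥ f‖ ^ 2 ≤
      (√2 * Real.exp (EE i (cont w₀).1 / 2)) *
        (star f ⬝ᵥ (tp (fun _ : Fin i => CFC.sqrt (xx0 i (cont w₀).1 v)) *ᵥ f)).re := by
  set x := xx0 i (cont w₀).1 v with hx
  have hxpd : x.PosDef := xx0_posDef hi hT _ _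
  have hA : (CFC.sqrt x).PosDef := sqrt_posDef' hxpd
  set A := CFC.sqrt x with hAdef
  have hAA : A * A = x := CFC.sqrt_mul_sqrt_self x hxpd.posSemidef.nonneg
  have hY : (tp (fun _ : Fin i => A)).PosDef := tp_posDef hA
  have hcs := cs_dual' hY (fun c : Fin i → Fin T => ∏ p, v (w₀ p) (c p)) f
  rw [tp_inv hA, tp_form A⁻¹ (fun p => v (w₀ p))] at hcs
  refine hcs.trans ?_
  have hq0 : 0 ≤ (star f ⬝ᵥ (tp (fun _ : Fin i => A) *ᵥ f)).re :=
    (Complex.le_def.mp (hY.posSemidef.dotProduct_mulVec_nonneg f)).1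
  refine mul_le_mul_of_nonneg_right ?_ hq0
  have hAinv : (A⁻¹).PosDef := inv_posDef' hA
  have hnn : ∀ p, 0 ≤ star (v (w₀ p)) ⬝ᵥ (A⁻¹ *ᵥ v (w₀ p)) := fun p =>
    hAinv.posSemidef.dotProduct_mulVec_nonneg _
  have hre : (∏ p, (star (v (w₀ p)) ⬝ᵥ (A⁻¹ *ᵥ v (w₀ p)))).re =
      ∏ p, (star (v (w₀ p)) ⬝ᵥ (A⁻¹ *ᵥ v (w₀ p))).re := by
    have h1 : ∀ p, star (v (w₀ p)) ⬝ᵥ (A⁻¹ *ᵥ v (w₀ p)) =
        (((star (v (w₀ p)) ⬝ᵥ (A⁻¹ *ᵥ v (w₀ p))).re : ℝ) : ℂ) := by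
      intro p
      have := Complex.le_def.mp (hnn p)
      apply Complex.ext
      · simp
      · simpa using this.2.symm
    rw [Finset.prod_congr rfl (fun p _ => h1 p), ← Complex.ofReal_prod, Complex.ofReal_re]
  rw [hre]
  refine le_trans ?_ (prod_w_le hi w₀)
  apply Finset.prod_le_prod
  · intro p _
    exact (Complex.le_def.mp (hnn p)).1
  · intro p _
    have hi' : (1 : ℝ) ≤ i := by exact_mod_cast hi
    have hs0 : 0 < 1 - 1 / (2 * (i : ℝ)) := by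
      have : 1 / (2 * (i : ℝ)) < 1 := by
        rw [div_lt_one (by positivity)]
        linarith
      linarith
    have hpos : (0 : ℝ) < (cont w₀).1 (w₀ p) := by exact_mod_cast fiber_pos w₀ p
    refine factor_bound hA hAA (hv p) (by positivity) ?_
    intro y
    rw [hx, form_xx0]
    have h1 : ((cont w₀).1 (w₀ p) : ℝ) / i * ‖star (v (w₀ p)) ⬝ᵥ y‖ ^ 2 ≤
        ∑ a, (((cont w₀).1 a : ℝ) / i * ‖star (v a) ⬝ᵥ y‖ ^ 2) :=
      Finset.single_le_sum (f := fun a => (((cont w₀).1 a : ℝ) / i * ‖star (v a) ⬝ᵥ y‖ ^ 2))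
        (fun a _ => by positivity) (mem_univ (w₀ p))
    have h2 : 0 ≤ (1 / (2 * (i : ℝ) * T)) * (star y ⬝ᵥ y).re := by
      have : 0 ≤ (star y ⬝ᵥ y).re := (Complex.le_def.mp (star_dot_self_nonneg y)).1
      positivity
    have h3 := mul_le_mul_of_nonneg_left h1 hs0.le
    nlinarith

lemma dec_rowOf {i : ℕ} (w₀ c : Fin i → Fin T) : dec (rowOf w₀ c) = cnt w₀ c := by
  funext q
  rfl

/-- summing over row data: the mode bound -/
lemma sum_rows_ge {i : ℕ} (w₀ : Fin i → Fin T) (c : Fin i → Fin T) :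
    1 / (Fintype.card (Rows (cont w₀).1) : ℝ) ≤
      ∑ γ : Rows (cont w₀).1, (fib w₀ c : ℝ) * PP w₀ (dec γ) c := by
  have hD : (0 : ℝ) < Fintype.card (Rows (cont w₀).1) := by
    exact_mod_cast Fintype.card_pos_iff.2 ⟨rowOf w₀ c⟩
  have h1 := mode_bound w₀ c
  have h2 : ((#(univ.image (cnt w₀ (C := Fin T))) : ℕ) : ℝ) ≤ Fintype.card (Rows (cont w₀).1) := by
    exact_mod_cast card_image_cnt_le w₀
  have h3 : 0 ≤ (fib w₀ c : ℝ) * PP w₀ (cnt w₀ c) c := mul_nonneg (by positivity) (PP_nonneg _ _ _)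
  have h4 : (fib w₀ c : ℝ) * PP w₀ (dec (rowOf w₀ c)) c ≤
      ∑ γ : Rows (cont w₀).1, (fib w₀ c : ℝ) * PP w₀ (dec γ) c :=
    Finset.single_le_sum (f := fun γ : Rows (cont w₀).1 => (fib w₀ c : ℝ) * PP w₀ (dec γ) c)
      (fun γ _ => mul_nonneg (by positivity) (PP_nonneg _ _ _)) (mem_univ _)
  rw [dec_rowOf] at h4
  refine le_trans ?_ h4
  rw [div_le_iff₀ hD]
  nlinarith [mul_le_mul_of_nonneg_right h2 h3]

/-- **The mixture lower bound.** -/
theorem mix_lower {i : ℕ} (hi : 1 ≤ i) (hiN : i ≤ N) (w₀ : Fin i → Fin T)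
    (f : (Fin i → Fin T) → ℂ)
    (hf : ∀ g : Equiv.Perm (Fin i), w₀ ∘ g = w₀ → ∀ c, f (c ∘ g) = f c) :
    (∑ c, ‖f c‖ ^ 2) * Real.exp (-(EE i (cont w₀).1 / 2)) /
        (√2 * N * ((i + T - 1).choose (T - 1) : ℕ) * ((DD (cont w₀).1 : ℕ) : ℝ) ^ 2) ≤
      (star f ⬝ᵥ ((∑ κ : Idx T N, ((wt κ : ℝ) : ℂ) •
        tp (fun _ : Fin i => CFC.sqrt (xx κ))) *ᵥ f)).re := by
  have hT : 1 ≤ T := by
    have := (w₀ ⟨0, hi⟩).2
    omega
  obtain ⟨j, rfl⟩ : ∃ j, i = j + 1 := ⟨i - 1, by omega⟩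
  have hj : j < N := by omega
  have hN0 : (0 : ℝ) < N := by exact_mod_cast (by omega : 0 < N)
  set q : Idx T N → ℝ := fun κ =>
    (star f ⬝ᵥ (tp (fun _ : Fin (j + 1) => CFC.sqrt (xx κ)) *ᵥ f)).re with hq
  have hq0 : ∀ κ, 0 ≤ q κ := by
    intro κ
    exact (Complex.le_def.mp ((tp_posDef (X := Fin (j + 1))
      (sqrt_posDef' (xx_posDef hT κ))).posSemidef.dotProduct_mulVec_nonneg f)).1
  have hR : (star f ⬝ᵥ ((∑ κ : Idx T N, ((wt κ : ℝ) : ℂ) •
        tp (fun _ : Fin (j + 1) => CFC.sqrt (xx κ))) *ᵥ f)).re = ∑ κ, wt κ * q κ := by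
    rw [Matrix.sum_mulVec, dotProduct_sum, Complex.re_sum]
    apply Finset.sum_congr rfl
    intro κ _
    rw [Matrix.smul_mulVec, dotProduct_smul, smul_eq_mul, Complex.re_ofReal_mul]
  rw [hR]
  -- the slice
  set i₀ : Fin N := ⟨j, hj⟩ with hi₀
  set α₀ : Comp T (i₀.1 + 1) := cont w₀ with hα₀
  set Cc : ℝ := (Fintype.card (Comp T (i₀.1 + 1)) : ℝ) with hCc
  set D : ℝ := (Fintype.card (Rows α₀.1) : ℝ) with hD
  set Cθ : ℝ := (Fintype.card (Fin T × Fin T → Fin (N + 1)) : ℝ) with hCθ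
  have hCc0 : 0 < Cc := by
    rw [hCc]
    exact_mod_cast Fintype.card_pos_iff.2 ⟨α₀⟩
  have hD0 : 0 < D := by
    rw [hD]
    exact_mod_cast Fintype.card_pos_iff.2 ⟨rowOf w₀ w₀⟩
  have hCθ0 : 0 < Cθ := by
    rw [hCθ]
    exact_mod_cast Fintype.card_pos_iff.2 ⟨fun _ => 0⟩
  set KK : ℝ := √2 * Real.exp (EE (j + 1) (cont w₀).1 / 2) with hKK
  have hKK0 : 0 < KK := by positivity
  have hslice : ∑ γ : Rows α₀.1, ∑ θ : (Fin T × Fin T → Fin (N + 1)),
      wt (⟨i₀, α₀, γ, θ⟩ : Idx T N) * q ⟨i₀, α₀, γ, θ⟩ ≤ ∑ κ, wt κ * q κ := by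
    simp only [Fintype.sum_sigma]
    refine le_trans ?_ (Finset.single_le_sum (f := fun i' : Fin N => ∑ α : Comp T (i'.1 + 1),
      ∑ γ : Rows α.1, ∑ θ : (Fin T × Fin T → Fin (N + 1)),
      wt (⟨i', α, γ, θ⟩ : Idx T N) * q ⟨i', α, γ, θ⟩) ?_ (mem_univ i₀))
    · exact Finset.single_le_sum (f := fun α : Comp T (i₀.1 + 1) =>
        ∑ γ : Rows α.1, ∑ θ : (Fin T × Fin T → Fin (N + 1)),
        wt (⟨i₀, α, γ, θ⟩ : Idx T N) * q ⟨i₀, α, γ, θ⟩)
        (fun α _ => Finset.sum_nonneg fun γ _ => Finset.sum_nonneg fun θ _ =>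
          mul_nonneg (wt_pos _).le (hq0 _)) (mem_univ α₀)
    · intro i' _
      exact Finset.sum_nonneg fun α _ => Finset.sum_nonneg fun γ _ => Finset.sum_nonneg fun θ _ =>
          mul_nonneg (wt_pos _).le (hq0 _)
  refine le_trans ?_ hslice
  have hterm : ∀ (γ : Rows α₀.1) (θ : Fin T × Fin T → Fin (N + 1)),
      ((N : ℝ)⁻¹ * (Cc⁻¹ * (D⁻¹ * Cθ⁻¹))) * KK⁻¹ * ‖star (uu N w₀ γ θ) ⬝ᵥ f‖ ^ 2 ≤
        wt (⟨i₀, α₀, γ, θ⟩ : Idx T N) * q ⟨i₀, α₀, γ, θ⟩ := by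
    intro γ θ
    have hb := overlap_le (i := j + 1) (by omega) hT w₀ (vv N (cont w₀).1 γ θ)
      (fun p => vv_unit N _ _ _ _ (fiber_pos w₀ p)) f
    have hb' : ‖star (uu N w₀ γ θ) ⬝ᵥ f‖ ^ 2 ≤ KK * q ⟨i₀, α₀, γ, θ⟩ := hb
    have hW : wt (⟨i₀, α₀, γ, θ⟩ : Idx T N) = (N : ℝ)⁻¹ * (Cc⁻¹ * (D⁻¹ * Cθ⁻¹)) := rfl
    rw [hW, mul_assoc]
    apply mul_le_mul_of_nonneg_left _ (by positivity)
    rw [inv_mul_le_iff₀ hKK0]
    exact hb'
  have hsum : ∑ γ : Rows α₀.1, ∑ θ : (Fin T × Fin T → Fin (N + 1)),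
      ((N : ℝ)⁻¹ * (Cc⁻¹ * (D⁻¹ * Cθ⁻¹))) * KK⁻¹ * ‖star (uu N w₀ γ θ) ⬝ᵥ f‖ ^ 2 ≤
      ∑ γ : Rows α₀.1, ∑ θ : (Fin T × Fin T → Fin (N + 1)),
        wt (⟨i₀, α₀, γ, θ⟩ : Idx T N) * q ⟨i₀, α₀, γ, θ⟩ :=
    Finset.sum_le_sum fun γ _ => Finset.sum_le_sum fun θ _ => hterm γ θ
  refine le_trans ?_ hsum
  -- evaluate the left side
  have hphase : ∑ γ : Rows α₀.1, ∑ θ : (Fin T × Fin T → Fin (N + 1)),
      ((N : ℝ)⁻¹ * (Cc⁻¹ * (D⁻¹ * Cθ⁻¹))) * KK⁻¹ * ‖star (uu N w₀ γ θ) ⬝ᵥ f‖ ^ 2 =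
      ((N : ℝ)⁻¹ * (Cc⁻¹ * (D⁻¹ * Cθ⁻¹))) * KK⁻¹ * Cθ *
        ∑ c, ‖f c‖ ^ 2 * ∑ γ : Rows α₀.1, (fib w₀ c : ℝ) * PP w₀ (dec γ) c := by
    have h1 : ∀ γ : Rows α₀.1, ∑ θ : (Fin T × Fin T → Fin (N + 1)),
        ((N : ℝ)⁻¹ * (Cc⁻¹ * (D⁻¹ * Cθ⁻¹))) * KK⁻¹ * ‖star (uu N w₀ γ θ) ⬝ᵥ f‖ ^ 2 =
        ((N : ℝ)⁻¹ * (Cc⁻¹ * (D⁻¹ * Cθ⁻¹))) * KK⁻¹ * Cθ *
          ∑ c, (fib w₀ c : ℝ) * (PP w₀ (dec γ) c * ‖f c‖ ^ 2) := by
      intro γ
      rw [← Finset.mul_sum, phase_uu (by omega) w₀ γ f hf]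
      ring
    rw [Finset.sum_congr rfl (fun γ _ => h1 γ), ← Finset.mul_sum]
    congr 1
    rw [Finset.sum_comm]
    apply Finset.sum_congr rfl
    intro c _
    rw [Finset.mul_sum]
    apply Finset.sum_congr rfl
    intro γ _
    ring
  rw [hphase]
  have hlow : ∑ c, ‖f c‖ ^ 2 * D⁻¹ ≤
      ∑ c, ‖f c‖ ^ 2 * ∑ γ : Rows α₀.1, (fib w₀ c : ℝ) * PP w₀ (dec γ) c := by
    apply Finset.sum_le_sum
    intro c _
    apply mul_le_mul_of_nonneg_left _ (by positivity)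
    rw [← one_div]
    exact sum_rows_ge w₀ c
  have hcoef : 0 ≤ ((N : ℝ)⁻¹ * (Cc⁻¹ * (D⁻¹ * Cθ⁻¹))) * KK⁻¹ * Cθ := by positivity
  refine le_trans ?_ (mul_le_mul_of_nonneg_left hlow hcoef)
  rw [← Finset.sum_mul]
  -- constants
  have hCc' : Cc = (((j + 1 + T - 1).choose (T - 1) : ℕ) : ℝ) := by
    rw [hCc, card_comp' hT]
  have hD' : D = ((DD (cont w₀).1 : ℕ) : ℝ) := by
    rw [hD, card_rows hT]
    rfl
  rw [← hCc', ← hD', hKK]
  apply le_of_eq
  rw [Real.exp_neg]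
  have hs2 : √2 ≠ 0 := by positivity
  have hE : Real.exp (EE (j + 1) (cont w₀).1 / 2) ≠ 0 := Real.exp_ne_zero _
  field_simp
  rfl

end Main

end Crest.Agent.S0222Lib.JMix
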