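import Crest.Agent.S0222Lib.JH1
import Crest.Agent.S0222Lib.JMix
import Crest.Agent.S0222Lib.FrobDim
import Crest.Agent.S0222Lib.WordRep
import Crest.Agent.S0222Lib.JMain
import Crest.Agent.S0222Lib.JGlobal

/-!
# S0222: the conversion constant for the symmetric group on words

`H1_of_shape`: **(H1)** for a mixture `Y = ∑ w_j (E_j)^{⊗ i}` on words `Fin i → Fin T`, from a lower
bound `y(w₀)` of `Y` on the functions invariant under the stabiliser of `w₀`, and the numerical
inequality at the top shapes: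
`DD(μ) ∏ μ_a! ∏ C(μ_a + T-1-a, μ_a) ≤ b i! y(w₀)` for every `w₀` with antitone content `μ`.
-/

set_option autoImplicit false
set_option linter.unusedSectionVars false
set_option linter.unusedSimpArgs false

namespace Crest.Agent.S0222Lib.JH1

open Matrix Finset
open scoped ComplexOrder Nat MatrixOrder
open Crest.Agent.S0222Lib.Planch Crest.Agent.S0222Lib.JCore Crest.Agent.S0222Lib.WordRep
open Crest.Agent.S0222Lib.JMix

variable {T i : ℕ}

/-- The stabiliser of a word. -/
def stabS (w₀ : Fin i → Fin T) : Subgroup (Equiv.Perm (Fin i)) where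
  carrier := {g | w₀ ∘ g = w₀}
  mul_mem' := by
    intro a b ha hb
    change w₀ ∘ a = w₀ at ha
    change w₀ ∘ b = w₀ at hb
    change w₀ ∘ ⇑(a * b) = w₀
    rw [Equiv.Perm.coe_mul, ← Function.comp_assoc, ha, hb]
  one_mem' := by
    simp
  inv_mem' := by
    intro a ha
    change w₀ ∘ a = w₀ at ha
    change w₀ ∘ ⇑a⁻¹ = w₀
    funext x
    have h := congrFun ha (a⁻¹ x)
    have h2 : a (a⁻¹ x) = x := by simp
    rw [Function.comp_apply, h2] at h
    exact h.symm

lemma mem_stabS {w₀ : Fin i → Fin T} {g : Equiv.Perm (Fin i)} : g ∈ stabS w₀ ↔ w₀ ∘ g = w₀ := Iff.rfl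

noncomputable instance (w₀ : Fin i → Fin T) : Fintype (stabS w₀) := Fintype.ofFinite _

/-- The word representation on `Fin i → Fin T`. -/
noncomputable abbrev rhoW : Equiv.Perm (Fin i) →* Matrix (Fin i → Fin T) (Fin i → Fin T) ℂ :=
  rhoHom (X := Fin i) (L := Fin T)

lemma rhoW_apply (g : Equiv.Perm (Fin i)) : (rhoW (T := T) g) = rhoG (Fin T) g := rfl

lemma rhoW_unitary (g : Equiv.Perm (Fin i)) : (rhoW (T := T) g)ᴴ * rhoW g = 1 := by
  rw [rhoW_apply, rhoG_conjTranspose, rhoG_inv_mul]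

/-- `e_S` fixes the `S`-fixed vectors. -/
lemma liftR_avg_mulVec {G : Type*} [Group G] [Fintype G] [DecidableEq G]
    {H : Type*} [Fintype H] [DecidableEq H] (ρ : G →* Matrix H H ℂ) (S : Subgroup G) [Fintype S]
    {f : H → ℂ} (hf : ∀ s ∈ S, ρ s *ᵥ f = f) : liftR ρ (avg S) *ᵥ f = f := by
  unfold avg
  rw [map_sum, Matrix.sum_mulVec]
  have : ∀ s : S, liftR ρ (MonoidAlgebra.single (s : G) ((Fintype.card S : ℂ)⁻¹)) *ᵥ f =
      (Fintype.card S : ℂ)⁻¹ • f := by
    intro s
    rw [liftR_single, Matrix.smul_mulVec, hf _ s.2]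
  simp only [this, Finset.sum_const, Finset.card_univ]
  rw [← Nat.cast_smul_eq_nsmul ℂ, smul_smul, mul_inv_cancel₀ (card_S_ne S), one_smul]

/-- The orbit-stabiliser relation through the row content. -/
lemma card_stab_mul_fib (w₀ : Fin i → Fin T) (c : Fin i → Fin T) :
    (#{s : stabS w₀ | c ∘ (s : Equiv.Perm (Fin i)) = c}) * fib w₀ c = Fintype.card (stabS w₀) := by
  classical
  have h0 := card_fib_mul w₀ c
  have h1 := DomMulAct.stabilizer_card (f := w₀)
  have h2 := DomMulAct.stabilizer_card (f := pw w₀ c)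
  have hc1 : ∀ a, Fintype.card {p // w₀ p = a} = #{p | w₀ p = a} := fun a => Fintype.card_subtype _
  have hc2 : ∀ q, Fintype.card {p // pw w₀ c p = q} = cnt w₀ c q :=
    fun q => Fintype.card_subtype _
  simp only [hc1] at h1
  simp only [hc2] at h2
  have h3 : Fintype.card (stabS w₀) = Fintype.card {g : Equiv.Perm (Fin i) // w₀ ∘ g = w₀} :=
    Fintype.card_congr (Equiv.subtypeEquivRight fun g => mem_stabS)
  have h4 : (#{s : stabS w₀ | c ∘ (s : Equiv.Perm (Fin i)) = c}) =
      Fintype.card {g : Equiv.Perm (Fin i) // pw w₀ c ∘ g = pw w₀ c} := by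
    rw [← Fintype.card_subtype]
    refine Fintype.card_congr
      { toFun := fun s => ⟨(s.1 : Equiv.Perm (Fin i)), ?_⟩
        invFun := fun g => ⟨⟨g.1, ?_⟩, ?_⟩
        left_inv := fun s => rfl
        right_inv := fun g => rfl }
    · funext x
      have h5 := congrFun s.1.2 x
      have h6 := congrFun s.2 x
      exact Prod.ext h5 h6
    · funext x
      have := congrFun g.2 x
      exact (Prod.ext_iff.1 this).1
    · funext x
      have := congrFun g.2 x
      exact (Prod.ext_iff.1 this).2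
  rw [h3, h4, h1, h2, mul_comm, h0]

/-- The number of row-contents bounds the trace of the averaging element. -/
theorem trace_avg_le (hT : 1 ≤ T) (w₀ : Fin i → Fin T) :
    (liftR (rhoW (T := T)) (avg (stabS w₀))).trace.re ≤ (DD (cont w₀).1 : ℝ) := by
  classical
  set S := stabS w₀ with hS
  have hn : (Fintype.card S : ℝ) ≠ 0 := by exact_mod_cast Fintype.card_ne_zero
  -- the trace of the generators
  have htr : ∀ s : Equiv.Perm (Fin i), (rhoW (T := T) s).trace =
      ((#{c : Fin i → Fin T | c ∘ s = c} : ℕ) : ℂ) := by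
    intro s
    rw [rhoW_apply, Matrix.trace]
    simp only [Matrix.diag_apply, rhoG_apply]
    rw [Finset.card_filter]
    push_cast
    refine Finset.sum_congr rfl fun c _ => ?_
    by_cases h : c ∘ s = c
    · rw [if_pos h, if_pos h.symm]
    · rw [if_neg h, if_neg (fun e => h e.symm)]
  have h1 : (liftR (rhoW (T := T)) (avg S)).trace =
      (((Fintype.card S : ℝ)⁻¹ * ∑ s : S, (#{c : Fin i → Fin T | c ∘ (s : Equiv.Perm (Fin i)) = c} : ℝ) : ℝ) : ℂ) := by
    unfold avg
    rw [map_sum, Matrix.trace_sum]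
    simp only [liftR_single, Matrix.trace_smul, htr, smul_eq_mul]
    push_cast
    rw [Finset.mul_sum]
  rw [h1, Complex.ofReal_re]
  -- double counting
  have h2 : ∑ s : S, (#{c : Fin i → Fin T | c ∘ (s : Equiv.Perm (Fin i)) = c} : ℝ) =
      ∑ c : Fin i → Fin T, (#{s : S | c ∘ (s : Equiv.Perm (Fin i)) = c} : ℝ) := by
    simp only [Finset.card_filter]
    push_cast
    exact Finset.sum_comm
  rw [h2]
  have h3 : ∀ c : Fin i → Fin T, (#{s : S | c ∘ (s : Equiv.Perm (Fin i)) = c} : ℝ) =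
      (Fintype.card S : ℝ) * ((fib w₀ c : ℝ))⁻¹ := by
    intro c
    have h4 := card_stab_mul_fib w₀ c
    have h5 : 0 < fib w₀ c := by
      by_contra h
      have h6 : fib w₀ c = 0 := by omega
      rw [h6, mul_zero] at h4
      exact Fintype.card_ne_zero h4.symm
    have h6 : ((fib w₀ c : ℝ)) ≠ 0 := by exact_mod_cast h5.ne'
    field_simp
    exact_mod_cast h4
  simp only [h3]
  rw [← Finset.mul_sum, ← mul_assoc, inv_mul_cancel₀ hn, one_mul]
  -- the sum over fibres
  have h7 : ∑ c : Fin i → Fin T, ((fib w₀ c : ℝ))⁻¹ = ((univ.image (cnt w₀ (C := Fin T))).card : ℝ) := by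
    have h8 : ∀ c : Fin i → Fin T, ((fib w₀ c : ℝ))⁻¹ =
        (fun y : Fin T × Fin T → ℕ => ((#{c' : Fin i → Fin T | cnt w₀ c' = y} : ℕ) : ℝ)⁻¹) (cnt w₀ c) := by
      intro c
      rfl
    simp only [h8]
    rw [Finset.sum_comp (fun y : Fin T × Fin T → ℕ => ((#{c' : Fin i → Fin T | cnt w₀ c' = y} : ℕ) : ℝ)⁻¹)
      (cnt w₀ (C := Fin T))]
    rw [Finset.card_eq_sum_ones]
    push_cast
    refine Finset.sum_congr rfl fun y hy => ?_
    obtain ⟨c, -, rfl⟩ := Finset.mem_image.1 hy
    have h9 : 0 < #{c' : Fin i → Fin T | cnt w₀ c' = cnt w₀ c} :=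
      Finset.card_pos.2 ⟨c, by simp⟩
    have h10 : ((#{c' : Fin i → Fin T | cnt w₀ c' = cnt w₀ c} : ℕ) : ℝ) ≠ 0 := by exact_mod_cast h9.ne'
    simp only [nsmul_eq_mul]
    field_simp
  rw [h7]
  have h11 := card_image_cnt_le w₀
  rw [card_rows hT] at h11
  exact_mod_cast h11

/-- A nonzero isotypic projection on words: the irreducible has a vector fixed by the stabiliser of
some word. -/
theorem avg_ne_zero_of_idem (F : Family (Equiv.Perm (Fin i))) (k : Fin F.r)
    (hk : liftR (rhoW (T := T)) (F.idem k) ≠ 0) :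
    ∃ c : Fin i → Fin T, (F.R k).lift (avg (stabS c)) ≠ 0 := by
  classical
  obtain ⟨c, hc⟩ : ∃ c : Fin i → Fin T, liftR (rhoW (T := T)) (F.idem k) *ᵥ (Pi.single c 1) ≠ 0 := by
    by_contra h
    push Not at h
    apply hk
    ext a b
    have := congrFun (h b) a
    simpa using this
  refine ⟨c, fun h0 => hc ?_⟩
  have hfix : liftR (rhoW (T := T)) (avg (stabS c)) *ᵥ Pi.single c (1 : ℂ) = Pi.single c 1 := by
    refine liftR_avg_mulVec _ _ fun s hs => ?_
    funext w
    rw [rhoW_apply, rhoG_mulVec]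
    have hcs : c ∘ s = c := hs
    by_cases h : w = c
    · subst h
      rw [hcs]
    · have h2 : w ∘ s ≠ c := by
        intro e
        apply h
        funext x
        have h3 := congrFun e (s⁻¹ x)
        have h4 := congrFun hcs (s⁻¹ x)
        have h5 : s (s⁻¹ x) = x := by simp
        simp only [Function.comp_apply, h5] at h3 h4
        rw [h3, h4]
      rw [Pi.single_eq_of_ne h2, Pi.single_eq_of_ne h]
  have h1 : F.idem k * avg (stabS c) = 0 := by
    apply F.ext_lift
    intro j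
    rw [map_mul, map_zero, F.lift_idem]
    by_cases hj : j = k
    · rw [if_pos hj, one_mul, hj]
      exact h0
    · rw [if_neg hj, zero_mul]
  rw [← hfix, Matrix.mulVec_mulVec, ← map_mul, h1, map_zero, Matrix.zero_mulVec]

/-- A unitary representation as a `Representation`. -/
noncomputable def repOf {G : Type*} [Group G] {d : ℕ} (R : URep G d) :
    Representation ℂ G (Fin d → ℂ) where
  toFun g := Matrix.toLin' (R.ρ g)
  map_one' := by
    simp only [map_one, Matrix.toLin'_one]
    rfl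
  map_mul' g h := by
    rw [map_mul, Matrix.toLin'_mul]
    rfl

lemma repOf_apply {G : Type*} [Group G] {d : ℕ} (R : URep G d) (g : G) (x : Fin d → ℂ) :
    repOf R g x = R.ρ g *ᵥ x := rfl

/-- The mixture commutes with the position action. -/
lemma mixY_comm {I : Type*} [Fintype I] (w : I → ℝ) (E : I → Matrix (Fin T) (Fin T) ℂ)
    (g : Equiv.Perm (Fin i)) :
    mixY (Fin i) w E * rhoW g = rhoW g * mixY (Fin i) w E := by
  unfold mixY
  rw [Finset.sum_mul, Finset.mul_sum]
  refine Finset.sum_congr rfl fun j _ => ?_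
  rw [Matrix.smul_mul, Matrix.mul_smul, rhoW_apply, rhoG_mul_tp_const]

/-- The shape factor of the top shapes. -/
def Atop (μ : Fin T → ℕ) : ℕ :=
  (∏ a, (μ a)!) * ∏ a : Fin T, (μ a + (T - 1 - a.val)).choose (μ a)

lemma Atop_pos (μ : Fin T → ℕ) : 0 < Atop μ := by
  unfold Atop
  refine Nat.mul_pos (Finset.prod_pos fun a _ => Nat.factorial_pos _) (Finset.prod_pos fun a _ => ?_)
  exact Nat.choose_pos (Nat.le_add_right _ _)

/-- **The conversion constant (H1)**: from a lower bound of the mixture on the invariant functions of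
the stabiliser of a word, and the numerical inequality at the top shapes. -/
theorem H1_of_shape (hT : 1 ≤ T) {I : Type*} [Fintype I] [Nonempty I] (w : I → ℝ) (hw : ∀ j, 0 < w j)
    (E : I → Matrix (Fin T) (Fin T) ℂ) (hE : ∀ j, (E j).PosDef)
    (y : (Fin i → Fin T) → ℝ) (hy0 : ∀ w₀, 0 < y w₀)
    (hy : ∀ (w₀ : Fin i → Fin T) (f : (Fin i → Fin T) → ℂ),
      (∀ g : Equiv.Perm (Fin i), w₀ ∘ g = w₀ → ∀ c, f (c ∘ g) = f c) →
      y w₀ * nsq f ≤ (star f ⬝ᵥ (mixY (Fin i) w E *ᵥ f)).re)
    {b : ℝ} (hb0 : 0 ≤ b)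
    (hb : ∀ w₀ : Fin i → Fin T, Antitone (Specht.content w₀) → ∀ d : ℕ,
      i ! ≤ d * Atop (Specht.content w₀) → (DD (cont w₀).1 : ℝ) ≤ b * y w₀ * d)
    (ph : Equiv.Perm (Fin i) → ℂ) :
    hs (mixY (Fin i) w E) (∑ g, ph g • rhoG (Fin T) g) ≤
      ((i ! : ℝ) * b) * ∑ g, ‖ph g‖ ^ 2 := by
  classical
  obtain ⟨F⟩ := exists_family (Equiv.Perm (Fin i))
  set Y := mixY (Fin i) w E with hYdef
  have hYpd : Y.PosDef := posDef_sum_smul w hw _ (fun j => tp_posDef (fun _ => hE j))
  have hcomm : ∀ g, Y * rhoW g = rhoW g * Y := fun g => mixY_comm w E g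
  have key : ∀ k, (Y⁻¹ * liftR (rhoW (T := T)) (F.idem k)).trace.re ≤ b * (F.d k : ℝ) ^ 2 := by
    intro k
    by_cases hk : liftR (rhoW (T := T)) (F.idem k) = 0
    · rw [hk, Matrix.mul_zero, Matrix.trace_zero, Complex.zero_re]
      positivity
    · obtain ⟨c, hc⟩ := avg_ne_zero_of_idem F k hk
      set Rp := repOf (F.R k) with hRp
      have hinv : Specht.HasInv Rp c := by
        obtain ⟨b', hb'⟩ : ∃ b' : Fin (F.d k), (F.R k).lift (avg (stabS c)) *ᵥ Pi.single b' 1 ≠ 0 := by
          by_contra h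
          push Not at h
          apply hc
          ext a b'
          have := congrFun (h b') a
          simpa using this
        refine ⟨_, hb', fun g hg => ?_⟩
        rw [repOf_apply, Matrix.mulVec_mulVec]
        have h1 := rho_mul_liftR_avg (F.R k).ρ (stabS c) (s := g) hg 1
        rw [mul_one] at h1
        change ((F.R k).ρ g * liftR (F.R k).ρ (avg (stabS c))) *ᵥ _ = liftR (F.R k).ρ (avg (stabS c)) *ᵥ _
        rw [h1]
      obtain ⟨w₂, hw₂, hmax⟩ := Finset.exists_max_image
        (univ.filter fun w' : Fin i → Fin T => Specht.HasInv Rp w') Specht.sqSum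
        ⟨c, by simpa using hinv⟩
      have hw₂' : Specht.HasInv Rp w₂ := by simpa using hw₂
      obtain ⟨π, w₁, v, hanti, hc₁, hv, hfix₁, hrel₁⟩ :=
        Specht.top_of_max w₂ hw₂' (fun w' h' => hmax w' (by simpa using h'))
      have hcontw₁ : Specht.content w₁ = Specht.content w₂ ∘ π := funext hc₁
      have hanti' : Antitone (Specht.content w₁) := by rw [hcontw₁]; exact hanti
      have hfrob := Specht.frob_finrank_lower' Rp hanti' w₁ (fun a => rfl) v hv hfix₁ hrel₁
      rw [Module.finrank_fin_fun] at hfrob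
      have hk' : (F.R k).lift (avg (stabS w₁)) ≠ 0 := by
        intro h0
        apply hv
        have h1 : liftR (F.R k).ρ (avg (stabS w₁)) *ᵥ v = v :=
          liftR_avg_mulVec _ _ fun s hs => hfix₁ s hs
        rw [← h1]
        change (F.R k).lift (avg (stabS w₁)) *ᵥ v = 0
        rw [h0, Matrix.zero_mulVec]
      have hfy : ∀ f : (Fin i → Fin T) → ℂ, (∀ s ∈ stabS w₁, rhoW s *ᵥ f = f) →
          y w₁ * nsq f ≤ (star f ⬝ᵥ (Y *ᵥ f)).re := by
        intro f hf
        refine hy w₁ f (fun g hg c' => ?_)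
        have := congrFun (hf g hg) c'
        rwa [rhoW_apply, rhoG_mulVec] at this
      have h1 := trace_inv_idem_le F (rhoW (T := T)) (stabS w₁) rhoW_unitary hYpd hcomm k hk' (hy0 w₁) hfy
      have h2 := trace_idem_le F (rhoW (T := T)) (stabS w₁) rhoW_unitary k hk'
      have h3 := trace_avg_le hT w₁
      have hy1 := hy0 w₁
      have hd : (0 : ℝ) < F.d k := by exact_mod_cast F.dpos k
      -- the numerics
      have h5 : (DD (cont w₁).1 : ℝ) ≤ b * (F.d k : ℝ) * y w₁ := by
        have h6 := hb w₁ hanti' (F.d k) hfrob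
        linarith
      calc (Y⁻¹ * liftR (rhoW (T := T)) (F.idem k)).trace.re
          ≤ (liftR (rhoW (T := T)) (F.idem k)).trace.re / y w₁ := h1
        _ ≤ ((F.d k : ℝ) * (DD (cont w₁).1 : ℝ)) / y w₁ := by
            refine div_le_div_of_nonneg_right (h2.trans ?_) hy1.le
            exact mul_le_mul_of_nonneg_left h3 hd.le
        _ ≤ ((F.d k : ℝ) * (b * (F.d k : ℝ) * y w₁)) / y w₁ := by
            refine div_le_div_of_nonneg_right ?_ hy1.le
            exact mul_le_mul_of_nonneg_left h5 hd.le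
        _ = b * (F.d k : ℝ) ^ 2 := by
            field_simp
  have := hs_le_of_idem F (rhoW (T := T)) rhoW_unitary hYpd hcomm key ph
  rw [Fintype.card_perm, Fintype.card_fin] at this
  exact this

/-- The lower bound of the universal mixture on the invariant functions of the stabiliser of `w₀`. -/
noncomputable def yMix (N : ℕ) (w₀ : Fin i → Fin T) : ℝ :=
  Real.exp (-(EE i (cont w₀).1 / 2)) /
    (√2 * N * ((i + T - 1).choose (T - 1) : ℕ) * ((DD (cont w₀).1 : ℕ) : ℝ) ^ 2)

/-- The two notions of content agree. -/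
lemma content_eq_cont (w₀ : Fin i → Fin T) : Specht.content w₀ = (cont w₀).1 := by
  funext a
  rfl

lemma choose_le_DD_factor (m a : ℕ) (hT : 1 ≤ T) (ha : a < T) :
    (m + (T - 1 - a)).choose m ≤ (m + T - 1).choose (T - 1) := by
  have h1 : (m + T - 1).choose (T - 1) = (m + T - 1).choose m := by
    have h2 : m + T - 1 = (T - 1) + m := by omega
    rw [h2, Nat.choose_symm_add]
  rw [h1]
  exact Nat.choose_le_choose m (by omega)

lemma Atop_le (hT : 1 ≤ T) (μ : Fin T → ℕ) : Atop μ ≤ (∏ a, (μ a)!) * DD μ := by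
  unfold Atop DD
  refine Nat.mul_le_mul_left _ (Finset.prod_le_prod' fun a _ => ?_)
  exact choose_le_DD_factor (μ a) a.val hT a.isLt

/-- **(H1) for the universal mixture of `JMix`**: the hypothesis is the numerical bound on the
compositions, for every dimension `d` compatible with the weak Frobenius bound. -/
theorem H1_mix {N : ℕ} (hT : 1 ≤ T) (hi : 1 ≤ i) (hiN : i ≤ N) {b : ℝ} (hb0 : 0 ≤ b)
    (hb : ∀ μ : Comp T i, Antitone μ.1 → ∀ d : ℕ, i ! ≤ d * (∏ a, (μ.1 a)!) * DD μ.1 →
      (DD μ.1 : ℝ) ≤ b * (Real.exp (-(EE i μ.1 / 2)) /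
        (√2 * N * ((i + T - 1).choose (T - 1) : ℕ) * ((DD μ.1 : ℕ) : ℝ) ^ 2)) * d)
    (ph : Equiv.Perm (Fin i) → ℂ) :
    hs (mixY (Fin i) (wt (T := T) (N := N)) (fun κ => CFC.sqrt (xx κ)))
        (∑ g, ph g • rhoG (Fin T) g) ≤ ((i ! : ℝ) * b) * ∑ g, ‖ph g‖ ^ 2 := by
  classical
  have hN : 1 ≤ N := hi.trans hiN
  have : Nonempty (Idx T N) := by
    by_contra h
    rw [not_nonempty_iff] at h
    have h2 := sum_wt (T := T) (N := N) hT (by omega)
    simp at h2
  refine H1_of_shape hT wt (fun κ => wt_pos κ) (fun κ => CFC.sqrt (xx κ))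
    (fun κ => ?_) (yMix N) (fun w₀ => ?_) (fun w₀ f hf => ?_) hb0 (fun w₀ hanti d hd => ?_) ph
  · exact sqrt_posDef' (xx_posDef hT κ)
  · unfold yMix
    have hC : 0 < (i + T - 1).choose (T - 1) := Nat.choose_pos (by omega)
    have hDD : 0 < DD (cont w₀).1 := by
      unfold DD
      exact Finset.prod_pos fun a _ => Nat.choose_pos (by omega)
    have hN' : (0 : ℝ) < N := by exact_mod_cast hN
    have hC' : (0 : ℝ) < ((i + T - 1).choose (T - 1) : ℕ) := by exact_mod_cast hC
    have hDD' : (0 : ℝ) < ((DD (cont w₀).1 : ℕ) : ℝ) := by exact_mod_cast hDD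
    positivity
  · have := mix_lower hi hiN w₀ f hf
    unfold yMix nsq
    unfold mixY
    rw [mul_comm, mul_div_assoc']
    exact this
  · rw [content_eq_cont] at hanti hd
    have h1 := hb (cont w₀) hanti d (by
      refine hd.trans ?_
      rw [mul_assoc]
      exact Nat.mul_le_mul_left _ (Atop_le hT _))
    exact h1

end Crest.Agent.S0222Lib.JH1
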