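import Crest.Agent.S0222Lib.JMix3
import Crest.Agent.S0222Lib.JBnum
import Crest.Agent.S0222Lib.JCk

/-!
# S0222: Theorem J, the conversion constant for the fine grid mixture

`ck_bound3`: the numerical inequality of `JH1.H1_of_shape` for the mixture of `JMix3`, with the
constant `(4/3) √2 N e^{i(δ+2δ')} Xi3 T δ δ'`.  `H1_mix3`: the bound (H1).
-/

set_option autoImplicit false
set_option linter.unusedSectionVars false
set_option linter.unusedSimpArgs false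
set_option linter.unusedVariables false

namespace Crest.Agent.S0222Lib.JBnum3

open Finset
open scoped Nat ComplexOrder MatrixOrder
open Crest.Agent.S0222Lib.JMix Crest.Agent.S0222Lib.JMix3 Crest.Agent.S0222Lib.JBnum
open Crest.Agent.S0222Lib.JH1

/-- The uniform constant. -/
noncomputable def Xi3 (T : ℕ) (δ δ' : ℝ) : ℝ :=
  ((1 - Real.exp (-δ'))⁻¹) ^ (2 * T) *
    ∏ a : Fin T, ((1 - Real.exp (-δ / 3) * ((a : ℝ) + 1) ^ (-(1 : ℝ) / 6))⁻¹) ^ (3 * T - (a : ℕ))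

lemma za3_eq {δ : ℝ} (a : ℕ) :
    Real.exp (-δ / 3) * ((a : ℝ) + 1) ^ (-(1 : ℝ) / 6) =
      Real.exp (-(δ / 3 + Real.log ((a : ℝ) + 1) / 6)) := by
  have h : (0 : ℝ) < (a : ℝ) + 1 := by positivity
  rw [Real.rpow_def_of_pos h, ← Real.exp_add]
  congr 1
  ring

lemma w3_pos {δ : ℝ} (hδ : 0 < δ) (a : ℕ) : 0 < δ / 3 + Real.log ((a : ℝ) + 1) / 6 := by
  have : 0 ≤ Real.log ((a : ℝ) + 1) := Real.log_nonneg (by
    have : (0 : ℝ) ≤ a := by positivity
    linarith)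
  positivity

/-- `Xi3 ≥ 1`. -/
theorem one_le_Xi3 (T : ℕ) {δ δ' : ℝ} (hδ : 0 < δ) (hδ' : 0 < δ') : 1 ≤ Xi3 T δ δ' := by
  unfold Xi3
  have h1 : 1 ≤ ((1 - Real.exp (-δ'))⁻¹) ^ (2 * T) := one_le_pow₀ (inv_one_sub_exp_ge hδ')
  have h2 : 1 ≤ ∏ a : Fin T,
      ((1 - Real.exp (-δ / 3) * ((a : ℝ) + 1) ^ (-(1 : ℝ) / 6))⁻¹) ^ (3 * T - (a : ℕ)) := by
    calc (1 : ℝ) = ∏ _a : Fin T, (1 : ℝ) := by simp
      _ ≤ _ := by
        refine Finset.prod_le_prod (fun _ _ => zero_le_one) (fun a _ => ?_)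
        apply one_le_pow₀
        have := za3_eq (δ := δ) (a : ℕ)
        have e : ((a : ℕ) : ℝ) = (a : ℝ) := rfl
        rw [e] at this
        rw [this]
        exact inv_one_sub_exp_ge (w3_pos hδ _)
  calc (1 : ℝ) = 1 * 1 := by norm_num
    _ ≤ _ := mul_le_mul h1 h2 (by norm_num) (by linarith)

variable {T i : ℕ}

/-- the second factor of the top shape -/
def AA (μ : Fin T → ℕ) : ℕ := ∏ a : Fin T, (μ a + (T - 1 - a.val)).choose (μ a)

/-- `D² A e^{-E/2} ≤ e^{δ i} Π_a (1 - z_a)^{-(3T-a)}`. -/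
lemma DD_AA_le (hT : 1 ≤ T) (hi : 1 ≤ i) {δ : ℝ} (hδ : 0 < δ) {μ : Comp T i} (hμ : Antitone μ.1) :
    (DD μ.1 : ℝ) ^ 2 * (AA μ.1 : ℝ) * Real.exp (-(EE i μ.1 / 2)) ≤
      Real.exp (i * δ) *
        ∏ a : Fin T, ((1 - Real.exp (-δ / 3) * ((a : ℝ) + 1) ^ (-(1 : ℝ) / 6))⁻¹) ^ (3 * T - (a : ℕ)) := by
  set w : Fin T → ℝ := fun a => δ / 3 + Real.log ((a : ℝ) + 1) / 6 with hw
  have hw0 : ∀ a, 0 < w a := fun a => w3_pos hδ (a : ℕ)
  have hz : ∀ a : Fin T, Real.exp (-δ / 3) * ((a : ℝ) + 1) ^ (-(1 : ℝ) / 6) = Real.exp (-w a) := by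
    intro a
    exact za3_eq (a : ℕ)
  simp only [hz]
  have hinv : ∀ a, 0 < (1 - Real.exp (-w a))⁻¹ := by
    intro a
    have hz1 : Real.exp (-w a) < 1 := by simpa using Real.exp_lt_exp.2 (by linarith [hw0 a] : -w a < 0)
    exact inv_pos.2 (by linarith)
  -- the rows of `D`
  have hC : ∀ a : Fin T, (((μ.1 a + T - 1).choose (T - 1) : ℕ) : ℝ) ^ 2 ≤
      Real.exp (2 * (μ.1 a * w a)) * ((1 - Real.exp (-w a))⁻¹) ^ (2 * T) := by
    intro a
    have h1 := choose_le_exp hT (μ.1 a) (hw0 a)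
    have hn : (0 : ℝ) ≤ (((μ.1 a + T - 1).choose (T - 1) : ℕ) : ℝ) := by positivity
    calc (((μ.1 a + T - 1).choose (T - 1) : ℕ) : ℝ) ^ 2
        ≤ (Real.exp (μ.1 a * w a) * ((1 - Real.exp (-w a))⁻¹) ^ T) ^ 2 :=
          pow_le_pow_left₀ hn h1 2
      _ = _ := by
          rw [mul_pow, ← Real.exp_nat_mul, ← pow_mul, mul_comm T 2]
          norm_num
  -- the rows of `A`
  have hA : ∀ a : Fin T, (((μ.1 a + (T - 1 - a.val)).choose (μ.1 a) : ℕ) : ℝ) ≤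
      Real.exp (μ.1 a * w a) * ((1 - Real.exp (-w a))⁻¹) ^ (T - a.val) := by
    intro a
    have ha := a.2
    have h1 := choose_le_exp (T := T - a.val) (by omega) (μ.1 a) (hw0 a)
    have e1 : μ.1 a + (T - a.val) - 1 = μ.1 a + (T - 1 - a.val) := by omega
    have e2 : T - a.val - 1 = T - 1 - a.val := by omega
    rw [e1, e2, ← Nat.choose_symm_add] at h1
    exact h1
  have hprod : (DD μ.1 : ℝ) ^ 2 * (AA μ.1 : ℝ) ≤ ∏ a : Fin T, (Real.exp (3 * (μ.1 a * w a)) *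
      ((1 - Real.exp (-w a))⁻¹) ^ (3 * T - a.val)) := by
    unfold DD AA
    push_cast
    rw [← Finset.prod_pow, ← Finset.prod_mul_distrib]
    refine Finset.prod_le_prod (fun a _ => by positivity) (fun a _ => ?_)
    have ha := a.2
    calc _ ≤ (Real.exp (2 * (μ.1 a * w a)) * ((1 - Real.exp (-w a))⁻¹) ^ (2 * T)) *
          (Real.exp (μ.1 a * w a) * ((1 - Real.exp (-w a))⁻¹) ^ (T - a.val)) :=
          mul_le_mul (hC a) (hA a) (by positivity)
            (mul_pos (Real.exp_pos _) (pow_pos (hinv a) _)).le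
      _ = _ := by
        have e : 3 * T - a.val = 2 * T + (T - a.val) := by omega
        rw [e, pow_add, show (3 : ℝ) * (μ.1 a * w a) = 2 * (μ.1 a * w a) + μ.1 a * w a by ring,
          Real.exp_add]
        ring
  rw [Finset.prod_mul_distrib, ← Real.exp_sum] at hprod
  have hsum : ∑ a : Fin T, 3 * ((μ.1 a : ℝ) * w a) =
      i * δ + (∑ a : Fin T, (μ.1 a : ℝ) * Real.log ((a : ℝ) + 1)) / 2 := by
    have : ∀ a : Fin T, 3 * ((μ.1 a : ℝ) * w a) =
        (μ.1 a : ℝ) * δ + (μ.1 a : ℝ) * Real.log ((a : ℝ) + 1) / 2 := by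
      intro a
      simp only [hw]
      ring
    simp only [this]
    rw [Finset.sum_add_distrib, ← Finset.sum_mul, sum_mu, Finset.sum_div]
  rw [hsum] at hprod
  set S : ℝ := ∑ a : Fin T, (μ.1 a : ℝ) * Real.log ((a : ℝ) + 1) with hS
  have hE := sum_log_le hi hμ
  rw [← hS] at hE
  set P : ℝ := ∏ a : Fin T, ((1 - Real.exp (-w a))⁻¹) ^ (3 * T - a.val) with hP
  have hP0 : 0 ≤ P := Finset.prod_nonneg fun a _ => (pow_pos (hinv a) _).le
  calc (DD μ.1 : ℝ) ^ 2 * (AA μ.1 : ℝ) * Real.exp (-(EE i μ.1 / 2))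
      ≤ (Real.exp (i * δ + S / 2) * P) * Real.exp (-(EE i μ.1 / 2)) :=
        mul_le_mul_of_nonneg_right hprod (Real.exp_pos _).le
    _ = Real.exp (i * δ) * P * (Real.exp (S / 2) * Real.exp (-(EE i μ.1 / 2))) := by
        rw [Real.exp_add]
        ring
    _ = Real.exp (i * δ) * P * Real.exp (S / 2 - EE i μ.1 / 2) := by
        rw [← Real.exp_add]
        congr 2
    _ ≤ Real.exp (i * δ) * P * 1 := by
        apply mul_le_mul_of_nonneg_left _ (by positivity)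
        rw [Real.exp_le_one_iff]
        linarith
    _ = _ := by ring

/-- The numerical inequality. -/
theorem ck_bound3 {N : ℕ} (hT : 1 ≤ T) (hi : 1 ≤ i) (hiN : i ≤ N) {δ δ' : ℝ} (hδ : 0 < δ)
    (hδ' : 0 < δ') (μ : Comp T i) (hμ : Antitone μ.1) (d : ℕ)
    (hd : i ! ≤ d * (∏ a, (μ.1 a)!) * AA μ.1) :
    (DD μ.1 : ℝ) ≤ ((4 / 3) * √2 * N * Real.exp (i * (δ + 2 * δ')) * Xi3 T δ δ') *
      ((3 / 4) * Real.exp (-(EE i μ.1 / 2)) / (√2 * N * ((i + T - 1).choose (T - 1) : ℕ) * (DD μ.1 : ℝ))) *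
        d := by
  have hN0 : (0 : ℝ) < N := by exact_mod_cast (by omega : 0 < N)
  have hs2 : (0 : ℝ) < √2 := by positivity
  set C : ℝ := (((i + T - 1).choose (T - 1) : ℕ) : ℝ) with hC
  set D : ℝ := (DD μ.1 : ℝ) with hD
  set A : ℝ := (AA μ.1 : ℝ) with hAdef
  set E : ℝ := EE i μ.1 with hE
  have hC0 : 0 < C := by
    rw [hC]
    exact_mod_cast Nat.choose_pos (by omega)
  have hD0 : 0 < D := by
    rw [hD]
    unfold DD
    exact_mod_cast Finset.prod_pos fun a _ => Nat.choose_pos (by omega)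
  have hPi : (0 : ℝ) < ∏ a, ((μ.1 a)! : ℝ) := Finset.prod_pos fun a _ => by positivity
  -- mode + Frobenius bound
  have h1 : Real.exp E ≤ C * (d * A) := by
    have hm := exp_EE_le hT hi μ
    have hd' : ((i ! : ℕ) : ℝ) ≤ d * (∏ a, ((μ.1 a)! : ℝ)) * A := by
      rw [hAdef]
      exact_mod_cast hd
    have h2 : Real.exp E * (∏ a, ((μ.1 a)! : ℝ)) ≤ (C * (d * A)) * (∏ a, ((μ.1 a)! : ℝ)) := by
      calc Real.exp E * (∏ a, ((μ.1 a)! : ℝ)) ≤ C * ((i ! : ℕ) : ℝ) := hm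
        _ ≤ C * (d * (∏ a, ((μ.1 a)! : ℝ)) * A) := mul_le_mul_of_nonneg_left hd' hC0.le
        _ = _ := by ring
    exact le_of_mul_le_mul_right h2 hPi
  have h2 : 1 ≤ C * (d * A) * Real.exp (-E) := by
    have h3 := mul_le_mul_of_nonneg_right h1 (Real.exp_pos (-E)).le
    have h4 : Real.exp E * Real.exp (-E) = 1 := by
      rw [← Real.exp_add]
      simp
    rwa [h4] at h3
  -- the two generating function bounds
  have h5 : C ^ 2 ≤ Real.exp (2 * (i * δ')) * ((1 - Real.exp (-δ'))⁻¹) ^ (2 * T) := by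
    have h6 := choose_le_exp hT i hδ'
    calc C ^ 2 ≤ (Real.exp (i * δ') * ((1 - Real.exp (-δ'))⁻¹) ^ T) ^ 2 :=
          pow_le_pow_left₀ hC0.le h6 2
      _ = _ := by
          rw [mul_pow, ← Real.exp_nat_mul, ← pow_mul, mul_comm T 2]
          norm_num
  have h7 := DD_AA_le hT hi hδ hμ
  rw [← hD, ← hE, ← hAdef] at h7
  set P : ℝ := ∏ a : Fin T, ((1 - Real.exp (-δ / 3) * ((a : ℝ) + 1) ^ (-(1 : ℝ) / 6))⁻¹) ^ (3 * T - (a : ℕ))
    with hP
  set B : ℝ := ((1 - Real.exp (-δ'))⁻¹) ^ (2 * T) with hB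
  have hB0 : 0 ≤ B := by
    have hz1 : Real.exp (-δ') < 1 := by simpa using Real.exp_lt_exp.2 (by linarith : -δ' < 0)
    have : 0 < (1 - Real.exp (-δ'))⁻¹ := inv_pos.2 (by linarith)
    rw [hB]
    positivity
  have hXi : Xi3 T δ δ' = B * P := rfl
  have hA0 : 0 ≤ A := by
    rw [hAdef]
    positivity
  have hR : C ^ 2 * (D ^ 2 * A * Real.exp (-(E / 2))) ≤ Real.exp (i * (δ + 2 * δ')) * Xi3 T δ δ' := by
    have h8 : Real.exp (i * (δ + 2 * δ')) = Real.exp (2 * (i * δ')) * Real.exp (i * δ) := by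
      rw [← Real.exp_add]
      congr 1
      ring
    rw [h8, hXi]
    calc C ^ 2 * (D ^ 2 * A * Real.exp (-(E / 2)))
        ≤ (Real.exp (2 * (i * δ')) * B) * (Real.exp (i * δ) * P) :=
          mul_le_mul h5 h7 (by positivity) (by positivity)
      _ = _ := by ring
  -- conclude
  have hfinal : D * (C * D) ≤ Real.exp (i * (δ + 2 * δ')) * Xi3 T δ δ' * Real.exp (-(E / 2)) * d := by
    have h9 : Real.exp (-E) = Real.exp (-(E / 2)) * Real.exp (-(E / 2)) := by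
      rw [← Real.exp_add]
      congr 1
      ring
    have h10 : D * (C * D) * 1 ≤ D * (C * D) * (C * (d * A) * Real.exp (-E)) :=
      mul_le_mul_of_nonneg_left h2 (by positivity)
    have h11 : D * (C * D) * (C * (d * A) * Real.exp (-E)) =
        (C ^ 2 * (D ^ 2 * A * Real.exp (-(E / 2)))) * (Real.exp (-(E / 2)) * d) := by
      rw [h9]
      ring
    rw [mul_one, h11] at h10
    refine h10.trans ?_
    calc (C ^ 2 * (D ^ 2 * A * Real.exp (-(E / 2)))) * (Real.exp (-(E / 2)) * d)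
        ≤ (Real.exp (i * (δ + 2 * δ')) * Xi3 T δ δ') * (Real.exp (-(E / 2)) * d) :=
          mul_le_mul_of_nonneg_right hR (by positivity)
      _ = _ := by ring
  have e : ((4 / 3) * √2 * N * Real.exp (i * (δ + 2 * δ')) * Xi3 T δ δ') *
      ((3 / 4) * Real.exp (-(E / 2)) / (√2 * N * C * D)) * d =
      (Real.exp (i * (δ + 2 * δ')) * Xi3 T δ δ' * Real.exp (-(E / 2)) * d) / (C * D) := by
    field_simp
  rw [e, le_div_iff₀ (by positivity)]
  exact hfinal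

/-- The lower bound of the mixture on the invariant functions of the stabiliser of `w₀`. -/
noncomputable def yMix3 (N : ℕ) (w₀ : Fin i → Fin T) : ℝ :=
  (3 / 4) * Real.exp (-(EE i (cont w₀).1 / 2)) /
    (√2 * N * ((i + T - 1).choose (T - 1) : ℕ) * ((DD (cont w₀).1 : ℕ) : ℝ))

/-- the constant of (H1) -/
noncomputable def BMix3 (T N : ℕ) (δ δ' : ℝ) (i : ℕ) : ℝ :=
  (4 / 3) * √2 * N * Real.exp (i * (δ + 2 * δ')) * Xi3 T δ δ'

lemma BMix3_nonneg {T N : ℕ} {δ δ' : ℝ} (hδ : 0 < δ) (hδ' : 0 < δ') (i : ℕ) :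
    0 ≤ BMix3 T N δ δ' i := by
  have := one_le_Xi3 T hδ hδ'
  unfold BMix3
  positivity

lemma one_le_BMix3 {T N : ℕ} (hN : 1 ≤ N) {δ δ' : ℝ} (hδ : 0 < δ) (hδ' : 0 < δ') :
    1 ≤ BMix3 T N δ δ' 0 := by
  have h1 := one_le_Xi3 T hδ hδ'
  have h2 : (1 : ℝ) ≤ N := by exact_mod_cast hN
  have h3 : (1 : ℝ) ≤ √2 := by
    rw [show (1 : ℝ) = √1 by simp]
    exact Real.sqrt_le_sqrt (by norm_num)
  unfold BMix3
  simp only [Nat.cast_zero, zero_mul, Real.exp_zero, mul_one]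
  calc (1 : ℝ) = (4 / 3) * 1 * 1 * 1 - 1 / 3 := by norm_num
    _ ≤ (4 / 3) * 1 * 1 * 1 := by norm_num
    _ ≤ _ := by gcongr

/-- **(H1) for the fine grid mixture.** -/
theorem H1_mix3 {N : ℕ} (hT : 1 ≤ T) (hi : 1 ≤ i) (hiN : i ≤ N) {δ δ' : ℝ} (hδ : 0 < δ)
    (hδ' : 0 < δ') (ph : Equiv.Perm (Fin i) → ℂ) :
    JCore.hs (Crest.Agent.S0222Lib.JCore.mixY (Fin i) (wt3 (T := T) (N := N)) (fun κ => CFC.sqrt (xx3 κ)))
        (∑ g, ph g • WordRep.rhoG (Fin T) g) ≤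
      ((i ! : ℝ) * BMix3 T N δ δ' i) * ∑ g, ‖ph g‖ ^ 2 := by
  classical
  have hN : 1 ≤ N := hi.trans hiN
  have : Nonempty (Idx3 T N) := by
    by_contra h
    rw [not_nonempty_iff] at h
    have h2 := sum_wt3 (T := T) (N := N) hT (by omega)
    simp at h2
  refine H1_of_shape hT wt3 (fun κ => wt3_pos κ) (fun κ => CFC.sqrt (xx3 κ))
    (fun κ => ?_) (yMix3 N) (fun w₀ => ?_) (fun w₀ f hf => ?_) (BMix3_nonneg hδ hδ' i)
    (fun w₀ hanti d hd => ?_) ph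
  · exact sqrt_posDef' (xx3_posDef hT κ)
  · unfold yMix3
    have hC : 0 < (i + T - 1).choose (T - 1) := Nat.choose_pos (by omega)
    have hDD : 0 < DD (cont w₀).1 := by
      unfold DD
      exact Finset.prod_pos fun a _ => Nat.choose_pos (by omega)
    have hN' : (0 : ℝ) < N := by exact_mod_cast hN
    have hC' : (0 : ℝ) < ((i + T - 1).choose (T - 1) : ℕ) := by exact_mod_cast hC
    have hDD' : (0 : ℝ) < ((DD (cont w₀).1 : ℕ) : ℝ) := by exact_mod_cast hDD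
    positivity
  · have := mix_lower3 hi hiN w₀ f hf
    unfold yMix3 Planch.nsq
    unfold JCore.mixY
    have e : (3 / 4) * Real.exp (-(EE i (cont w₀).1 / 2)) /
        (√2 * N * ((i + T - 1).choose (T - 1) : ℕ) * ((DD (cont w₀).1 : ℕ) : ℝ)) * (∑ c, ‖f c‖ ^ 2) =
        (3 / 4) * (∑ c, ‖f c‖ ^ 2) * Real.exp (-(EE i (cont w₀).1 / 2)) /
        (√2 * N * ((i + T - 1).choose (T - 1) : ℕ) * ((DD (cont w₀).1 : ℕ) : ℝ)) := by
      ring
    rw [e]
    exact this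
  · rw [content_eq_cont] at hanti hd
    have hd' : i ! ≤ d * (∏ a, ((cont w₀).1 a)!) * AA (cont w₀).1 := by
      refine hd.trans (le_of_eq ?_)
      unfold Atop AA
      ring
    exact ck_bound3 hT hi hiN hδ hδ' (cont w₀) hanti d hd'

end Crest.Agent.S0222Lib.JBnum3
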