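import Crest.Agent.S0222Lib.SZ

/-!
# S0222: Theorem J, families of letter operators and their doubling

* `Fam od`: a positive mixture of even positive definite operators on the colours;
* `Fam.Y`: the mixture of tensor powers on words;
* `Fam.dbl`: the doubled family, index `I × I`, weights `w i * w j`, operators `√(½(A_i² + A_j²))`;
* `Fam.iter`: iterated doubling;
* `J_step_fam`: the recursion of Theorem J for a family and its doubling.
-/

set_option autoImplicit false
set_option linter.unusedSectionVars false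
set_option linter.unusedSimpArgs false

namespace Crest.Agent.S0222Lib.SWord

open Matrix MonoidAlgebra
open scoped Kronecker ComplexOrder MatrixOrder
open Crest.Agent.S0222Lib.Site Crest.Agent.S0222Lib.WordRep Crest.Agent.S0222Lib.JCore

section Sqrt

variable {n : Type*} [Fintype n] [DecidableEq n]

lemma sqrt_posDef {A : Matrix n n ℂ} (hA : A.PosDef) : (CFC.sqrt A).PosDef := by
  have h0 : 0 ≤ A := hA.posSemidef.nonneg
  have hs : (CFC.sqrt A).PosSemidef := (CFC.sqrt_nonneg A).posSemidef
  rw [hs.posDef_iff_isUnit]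
  have h2 : IsUnit (CFC.sqrt A * CFC.sqrt A) := by rw [CFC.sqrt_mul_sqrt_self A h0]; exact hA.isUnit
  exact (Commute.refl _).isUnit_mul_iff.1 h2 |>.1

lemma sqrt_mul_self' {A : Matrix n n ℂ} (hA : A.PosDef) : CFC.sqrt A * CFC.sqrt A = A :=
  CFC.sqrt_mul_sqrt_self A hA.posSemidef.nonneg

lemma sqrt_commute {A Q : Matrix n n ℂ} (h : Commute A Q) : Commute (CFC.sqrt A) Q := by
  rw [CFC.sqrt_eq_cfc]
  exact h.cfc_nnreal _

/-- The parity operator. -/
noncomputable def parM (od : n → Bool) : Matrix n n ℂ :=
  Matrix.diagonal (fun c => if od c then -1 else 1)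

lemma evenM_iff_commute (od : n → Bool) (m : Matrix n n ℂ) :
    EvenM od m ↔ Commute m (parM od) := by
  constructor
  · intro h
    ext a b
    simp only [parM, Matrix.mul_diagonal, Matrix.diagonal_mul]
    by_cases h0 : m a b = 0
    · simp [h0]
    · rw [h a b h0, mul_comm]
  · intro h a b h0
    have := congrFun (congrFun h a) b
    simp only [parM, Matrix.mul_diagonal, Matrix.diagonal_mul] at this
    by_contra hne
    cases ha : od a <;> cases hb : od b <;> simp [ha, hb] at this hne
    · apply h0
      have h2 : (2 : ℂ) * m a b = 0 := by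
        linear_combination -this
      simpa using h2
    · apply h0
      have h2 : (2 : ℂ) * m a b = 0 := by
        linear_combination this
      simpa using h2

/-- Squares and means of squares. -/
lemma mean_sq_posDef {A B : Matrix n n ℂ} (hA : A.PosDef) (hB : B.PosDef) :
    ((1 / 2 : ℂ) • (A * A + B * B)).PosDef := by
  have hsq : ∀ {C : Matrix n n ℂ}, C.PosDef → (C * C).PosDef := by
    intro C hC
    have h := (Matrix.PosDef.one (n := n) (R := ℂ)).conjTranspose_mul_mul_same
      (B := C) (Matrix.mulVec_injective_of_isUnit hC.isUnit)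
    rw [Matrix.mul_one, hC.isHermitian.eq] at h
    exact h
  have h1 := hsq hA
  have h2 := hsq hB
  exact (h1.add h2).smul (by norm_num)

end Sqrt

section Fam

variable {Tok Col : Type*} [Fintype Tok] [DecidableEq Tok] [Fintype Col] [DecidableEq Col]

/-- A positive mixture of even positive definite operators on the colours. -/
structure Fam (od : Tok ⊕ Col → Bool) where
  /-- the index set -/
  I : Type
  /-- the index set is finite -/
  [fI : Fintype I]
  /-- the index set is nonempty -/
  [nI : Nonempty I]
  /-- the weights -/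
  w : I → ℝ
  w_pos : ∀ i, 0 < w i
  /-- the operators -/
  A : I → Matrix Col Col ℂ
  A_pd : ∀ i, (A i).PosDef
  A_even : ∀ i, EvenM (fun c => od (Sum.inr c)) (A i)

attribute [instance] Fam.fI Fam.nI

variable {od : Tok ⊕ Col → Bool}

lemma evenM_extC {A : Matrix Col Col ℂ} (h : EvenM (fun c => od (Sum.inr c)) A) :
    EvenM od (extC (Tok := Tok) A) := by
  rintro (a | c) (b | d) hne
  · have : a = b := by
      by_contra hab
      apply hne
      simp [extC, Matrix.one_apply, hab]
    rw [this]
  · exfalso
    apply hne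
    simp [extC]
  · exfalso
    apply hne
    simp [extC]
  · apply h
    simpa [extC] using hne

/-- The mixture on words of length `2 ^ D`. -/
noncomputable def Fam.Y (F : Fam od) (D : ℕ) :
    Matrix (B D → (Tok ⊕ Col)) (B D → (Tok ⊕ Col)) ℂ :=
  mixY (B D) F.w (fun i => extC (F.A i))

/-- The congruence lemma of `Fam.Y` is generated here, once. -/
theorem Fam_Y_congr_here : True := by
  have _ := @Fam.Y.congr_simp.{0, 0}
  trivial

lemma Fam.Y_posDef (F : Fam od) (D : ℕ) : (F.Y D).PosDef :=
  posDef_sum_smul F.w F.w_pos _ (fun i => tp_posDef (fun _ => extC_posDef (F.A_pd i)))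

/-- The doubled family. -/
noncomputable def Fam.dbl (F : Fam od) : Fam od where
  I := F.I × F.I
  w := fun i => F.w i.1 * F.w i.2
  w_pos := fun i => mul_pos (F.w_pos _) (F.w_pos _)
  A := fun i => CFC.sqrt ((1 / 2 : ℂ) • (F.A i.1 * F.A i.1 + F.A i.2 * F.A i.2))
  A_pd := fun i => sqrt_posDef (mean_sq_posDef (F.A_pd _) (F.A_pd _))
  A_even := fun i => by
    rw [evenM_iff_commute]
    apply sqrt_commute
    have h1 := (evenM_iff_commute _ _).1 (F.A_even i.1)
    have h2 := (evenM_iff_commute _ _).1 (F.A_even i.2)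
    exact ((h1.mul_left h1).add_left (h2.mul_left h2)).smul_left _

/-- Iterated doubling. -/
noncomputable def Fam.iter (F : Fam od) : ℕ → Fam od
  | 0 => F
  | k + 1 => (F.iter k).dbl

/-- **The recursion of Theorem J** for a family and its doubling. -/
theorem J_step_fam {A : Type*} [AddCommMonoid A] [DecidableEq A] (F : Fam od) {D : ℕ}
    (f : Tok ⊕ Col → A) (S : Finset A) (hS : ∀ v : B D → (Tok ⊕ Col), cont f v ∈ S)
    (T : Finset Tok) (α : A) :
    MM (F.dbl.Y (D + 1)) (Zs od (D + 1)) f T α ≤
      (1 / 2 : ℝ) ^ T.card * ∑ T₀ ∈ T.powerset, kapD D T₀.card (T \ T₀).card *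
        ∑ α₀ ∈ S, ∑ α₁ ∈ S, if α₀ + α₁ = α then
          MM (F.Y D) (Zs od D) f T₀ α₀ * MM (F.Y D) (Zs od D) f (T \ T₀) α₁ else 0 := by
  refine J_step_Zs od F.w F.w_pos (fun i => extC (F.A i))
    (fun i j => extC (CFC.sqrt ((1 / 2 : ℂ) • (F.A i * F.A i + F.A j * F.A j))))
    (fun i => extC_posDef (F.A_pd i))
    (fun i j => extC_posDef (sqrt_posDef (mean_sq_posDef (F.A_pd _) (F.A_pd _))))
    (fun i => tokId_extC _) (fun i j => tokId_extC _)
    (fun i => evenM_extC (F.A_even i))
    (fun i j => evenM_extC (F.dbl.A_even (i, j)))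
    (fun i j => ?_) f S hS T α
  rw [extC_mul, sqrt_mul_self' (mean_sq_posDef (F.A_pd _) (F.A_pd _)), extC_mul, extC_mul]
  ext (a | c) (b | d)
  · simp only [extC, Matrix.smul_apply, Matrix.add_apply, Matrix.fromBlocks_apply₁₁, Matrix.one_apply]
    by_cases h : a = b
    · subst h
      simp
      norm_num
    · simp [h]
  · simp [extC]
  · simp [extC]
  · simp [extC]
    ring

end Fam

end Crest.Agent.S0222Lib.SWord
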