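import Crest.Agent.S0222Lib.Planch

/-!
# S0222: embedding an irreducible representation into functions on a `G`-set

* `Family.schur`: Schur orthogonality, `∑_g |⟨ρ(g) v, u⟩|² = |G| / d ‖v‖² ‖u‖²` (from Burnside);
* `Phi`: for `v` fixed by the stabiliser of `ω₀`, the equivariant map `u ↦ (g ω₀ ↦ ⟨ρ(g) v, u⟩)`;
* `nsq_Phi`: it is a scaled isometry;
* `Phi_lift`: `Φ(x̂ u) = x · Φ(u)`;
* `Family.transfer`: norm bounds transfer from the image of `Φ` to the representation;
* `sum_Phi_eq_zero`: `Φ(u)` is killed by the averaging over `H'` if `V` has no `H'`-fixed vector.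
-/

set_option autoImplicit false
set_option linter.unusedSectionVars false

namespace Crest.Agent.S0222Lib.Planch

open Matrix Finset
open scoped ComplexOrder

variable {G : Type*} [Group G] [Fintype G] [DecidableEq G]

lemma dot_star_self {n : Type*} [Fintype n] (v : n → ℂ) : star v ⬝ᵥ v = (nsq v : ℂ) := by
  unfold nsq dotProduct
  push_cast
  refine Finset.sum_congr rfl fun a _ => ?_
  rw [Pi.star_apply, Complex.star_def, mul_comm, Complex.mul_conj, Complex.normSq_eq_norm_sq]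
  push_cast
  rfl

lemma dot_self_star {n : Type*} [Fintype n] (v : n → ℂ) : v ⬝ᵥ star v = (nsq v : ℂ) := by
  rw [dotProduct_comm, dot_star_self]

lemma star_dot_mulVec {n : Type*} [Fintype n] [DecidableEq n] (a u : n → ℂ) (M : Matrix n n ℂ) :
    star a ⬝ᵥ (M *ᵥ u) = star (Mᴴ *ᵥ a) ⬝ᵥ u := by
  rw [Matrix.star_mulVec, Matrix.conjTranspose_conjTranspose, Matrix.dotProduct_mulVec]

lemma URep.star_dot_mulVec {d : ℕ} (R : URep G d) (a u : Fin d → ℂ) (h : G) :
    star a ⬝ᵥ (R.ρ h *ᵥ u) = star (R.ρ h⁻¹ *ᵥ a) ⬝ᵥ u := by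
  rw [Crest.Agent.S0222Lib.Planch.star_dot_mulVec, URep.inv_eq]

lemma star_dot_swap {n : Type*} [Fintype n] (w u : n → ℂ) :
    star u ⬝ᵥ w = star (star w ⬝ᵥ u) := by
  simp only [dotProduct, star_sum, star_mul', Pi.star_apply, star_star]
  exact Finset.sum_congr rfl fun a _ => mul_comm _ _

lemma norm_dot_sq_eq {n : Type*} [Fintype n] (w u : n → ℂ) :
    (star u ⬝ᵥ ((star w ⬝ᵥ u) • w)) = ((‖star w ⬝ᵥ u‖ ^ 2 : ℝ) : ℂ) := by
  rw [dotProduct_smul, smul_eq_mul, star_dot_swap w u, Complex.star_def, Complex.mul_conj,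
    Complex.normSq_eq_norm_sq]

section Schur

variable (F : Family G) (i : Fin F.r)

/-- **Schur orthogonality** for a member of a complete family. -/
theorem Family.schur (v u : Fin (F.d i) → ℂ) :
    ∑ g, ‖star ((F.R i).ρ g *ᵥ v) ⬝ᵥ u‖ ^ 2 =
      (Fintype.card G : ℝ) / (F.d i : ℝ) * nsq v * nsq u := by
  set ρ := (F.R i).ρ with hρ
  have huni : ∀ g, (ρ g)ᴴ * ρ g = 1 := (F.R i).unitary
  set P : Matrix (Fin (F.d i)) (Fin (F.d i)) ℂ := vecMulVec v (star v) with hP
  set C : Matrix (Fin (F.d i)) (Fin (F.d i)) ℂ := ∑ g, ρ g * P * (ρ g)ᴴ with hC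
  have hterm : ∀ g, ρ g * P * (ρ g)ᴴ = vecMulVec (ρ g *ᵥ v) (star (ρ g *ᵥ v)) := by
    intro g
    rw [hP, Matrix.mul_vecMulVec, Matrix.vecMulVec_mul, Matrix.star_mulVec]
  have hcomm : ∀ h, ρ h * C = C * ρ h := by
    intro h
    rw [hC, Finset.mul_sum]
    conv_rhs => rw [← Equiv.sum_comp (Equiv.mulLeft h) (fun g => ρ g * P * (ρ g)ᴴ)]
    rw [Finset.sum_mul]
    refine Finset.sum_congr rfl fun g _ => ?_
    simp only [Equiv.coe_mulLeft, map_mul, Matrix.conjTranspose_mul]
    calc ρ h * (ρ g * P * (ρ g)ᴴ) = ρ h * ρ g * P * ((ρ g)ᴴ * 1) := by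
          simp only [Matrix.mul_one, Matrix.mul_assoc]
      _ = ρ h * ρ g * P * ((ρ g)ᴴ * ((ρ h)ᴴ * ρ h)) := by rw [huni]
      _ = _ := by simp only [Matrix.mul_assoc]
  have hcen : C ∈ Set.center (Matrix (Fin (F.d i)) (Fin (F.d i)) ℂ) := by
    rw [Semigroup.mem_center_iff]
    intro M
    obtain ⟨x, rfl⟩ := F.surj i M
    rw [URep.lift_eq_sum, Finset.sum_mul, Finset.mul_sum]
    refine Finset.sum_congr rfl fun g _ => ?_
    rw [Matrix.smul_mul, Matrix.mul_smul, hcomm]
  rw [Matrix.center_eq_range] at hcen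
  obtain ⟨c, hc⟩ := hcen
  -- the trace
  have htr : C.trace = (Fintype.card G : ℂ) * (nsq v : ℂ) := by
    rw [hC, Matrix.trace_sum]
    have : ∀ g, (ρ g * P * (ρ g)ᴴ).trace = (nsq v : ℂ) := by
      intro g
      rw [Matrix.trace_mul_comm, ← Matrix.mul_assoc, huni, Matrix.one_mul, hP, Matrix.trace_vecMulVec,
        dot_self_star]
    simp only [this, Finset.sum_const, Finset.card_univ, nsmul_eq_mul]
  have htr' : C.trace = (F.d i : ℂ) * c := by
    rw [← hc]
    simp [Matrix.trace]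
  have hd : (F.d i : ℂ) ≠ 0 := by exact_mod_cast (F.dpos i).ne'
  have hcval : c = (Fintype.card G : ℂ) / (F.d i : ℂ) * (nsq v : ℂ) := by
    field_simp
    rw [← htr, htr']
    ring
  -- the quadratic form
  have hq : star u ⬝ᵥ (C *ᵥ u) = ((∑ g, ‖star (ρ g *ᵥ v) ⬝ᵥ u‖ ^ 2 : ℝ) : ℂ) := by
    rw [hC, Matrix.sum_mulVec, dotProduct_sum]
    push_cast
    refine Finset.sum_congr rfl fun g _ => ?_
    rw [hterm, Matrix.vecMulVec_mulVec, op_smul_eq_smul, norm_dot_sq_eq]
    push_cast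
    rfl
  have hq' : star u ⬝ᵥ (C *ᵥ u) = c * (nsq u : ℂ) := by
    have hs : (Matrix.scalar (Fin (F.d i))) c = c • (1 : Matrix (Fin (F.d i)) (Fin (F.d i)) ℂ) := by
      ext a b
      by_cases hab : a = b
      · subst hab; simp [Matrix.scalar_apply]
      · simp [Matrix.scalar_apply, hab]
    rw [← hc, hs, Matrix.smul_mulVec, Matrix.one_mulVec, dotProduct_smul, smul_eq_mul, dot_star_self]
  apply Complex.ofReal_injective
  rw [← hq, hq', hcval]
  push_cast
  ring

end Schur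

section Embed

variable {Ω : Type*} [Fintype Ω] [DecidableEq Ω] [MulAction G Ω]

/-- The left translation of functions on a `G`-set. -/
def lact (g : G) (f : Ω → ℂ) : Ω → ℂ := fun ω => f (g⁻¹ • ω)

/-- The action of the group algebra on functions on a `G`-set. -/
noncomputable def lactA (x : MonoidAlgebra ℂ G) (f : Ω → ℂ) : Ω → ℂ :=
  ∑ g, x.coeff g • lact g f

variable {d : ℕ} (R : URep G d) (ω₀ : Ω) (v : Fin d → ℂ)

open Classical in
/-- The equivariant map to functions on the orbit of `ω₀`. -/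
noncomputable def Phi : (Fin d → ℂ) →ₗ[ℂ] (Ω → ℂ) where
  toFun u ω := if h : ∃ g : G, g • ω₀ = ω then star (R.ρ (Classical.choose h) *ᵥ v) ⬝ᵥ u else 0
  map_add' u u' := by
    funext ω
    by_cases h : ∃ g : G, g • ω₀ = ω
    · simp [h, dotProduct_add]
    · simp [h]
  map_smul' c u := by
    funext ω
    by_cases h : ∃ g : G, g • ω₀ = ω
    · simp [h, dotProduct_smul]
    · simp [h]

variable {R ω₀ v}

lemma rho_eq_of_smul_eq (hv : ∀ g : G, g • ω₀ = ω₀ → R.ρ g *ᵥ v = v) {g g' : G}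
    (h : g • ω₀ = g' • ω₀) : R.ρ g *ᵥ v = R.ρ g' *ᵥ v := by
  have h1 : (g'⁻¹ * g) • ω₀ = ω₀ := by
    rw [mul_smul, h, inv_smul_smul]
  have h2 := hv _ h1
  calc R.ρ g *ᵥ v = R.ρ (g' * (g'⁻¹ * g)) *ᵥ v := by simp
    _ = R.ρ g' *ᵥ (R.ρ (g'⁻¹ * g) *ᵥ v) := by
        rw [map_mul, Matrix.mulVec_mulVec]
    _ = _ := by rw [h2]

lemma Phi_smul (hv : ∀ g : G, g • ω₀ = ω₀ → R.ρ g *ᵥ v = v) (u : Fin d → ℂ) (g : G) :
    Phi R ω₀ v u (g • ω₀) = star (R.ρ g *ᵥ v) ⬝ᵥ u := by
  classical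
  have h : ∃ g' : G, g' • ω₀ = g • ω₀ := ⟨g, rfl⟩
  change (if h : ∃ g' : G, g' • ω₀ = g • ω₀ then
    star (R.ρ (Classical.choose h) *ᵥ v) ⬝ᵥ u else 0) = _
  rw [dif_pos h, rho_eq_of_smul_eq hv (Classical.choose_spec h)]

lemma Phi_off (u : Fin d → ℂ) {ω : Ω} (h : ¬ ∃ g : G, g • ω₀ = ω) : Phi R ω₀ v u ω = 0 := by
  classical
  change (if h : ∃ g' : G, g' • ω₀ = ω then
    star (R.ρ (Classical.choose h) *ᵥ v) ⬝ᵥ u else 0) = _
  rw [dif_neg h]

/-- **Equivariance**. -/
lemma Phi_rho (hv : ∀ g : G, g • ω₀ = ω₀ → R.ρ g *ᵥ v = v) (h : G) (u : Fin d → ℂ) :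
    Phi R ω₀ v (R.ρ h *ᵥ u) = lact h (Phi R ω₀ v u) := by
  funext ω
  unfold lact
  by_cases hω : ∃ g : G, g • ω₀ = ω
  · obtain ⟨g, rfl⟩ := hω
    rw [Phi_smul hv, ← mul_smul, Phi_smul hv, URep.star_dot_mulVec, Matrix.mulVec_mulVec, map_mul]
  · have h2 : ¬ ∃ g : G, g • ω₀ = h⁻¹ • ω := by
      rintro ⟨g, hg⟩
      apply hω
      refine ⟨h * g, ?_⟩
      rw [mul_smul, hg, smul_inv_smul]
    rw [Phi_off _ hω, Phi_off _ h2]

/-- **Equivariance for the group algebra**. -/
theorem Phi_lift (hv : ∀ g : G, g • ω₀ = ω₀ → R.ρ g *ᵥ v = v) (x : MonoidAlgebra ℂ G)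
    (u : Fin d → ℂ) : Phi R ω₀ v (R.lift x *ᵥ u) = lactA x (Phi R ω₀ v u) := by
  rw [R.lift_eq_sum, Matrix.sum_mulVec, map_sum]
  unfold lactA
  refine Finset.sum_congr rfl fun g _ => ?_
  rw [Matrix.smul_mulVec, map_smul, Phi_rho hv]

/-- The size of the stabiliser of `ω₀`. -/
noncomputable def stabCard (ω₀ : Ω) : ℕ :=
  (Finset.univ.filter (fun g : G => g • ω₀ = ω₀)).card

lemma stabCard_pos (ω₀ : Ω) : 0 < stabCard (G := G) ω₀ :=
  Finset.card_pos.2 ⟨1, by simp⟩

lemma card_fiber_eq (ω₀ : Ω) (g₀ : G) :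
    (Finset.univ.filter (fun g : G => g • ω₀ = g₀ • ω₀)).card = stabCard (G := G) ω₀ := by
  unfold stabCard
  apply Finset.card_bij (fun g _ => g₀⁻¹ * g)
  · intro g hg
    have := (Finset.mem_filter.1 hg).2
    simp only [Finset.mem_filter, Finset.mem_univ, true_and]
    rw [mul_smul, this, inv_smul_smul]
  · intro a _ b _ e
    exact mul_left_cancel e
  · intro g hg
    have := (Finset.mem_filter.1 hg).2
    refine ⟨g₀ * g, ?_, by simp⟩
    simp only [Finset.mem_filter, Finset.mem_univ, true_and]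
    rw [mul_smul, this]

/-- The sum over the group of a function of the orbit point. -/
lemma sum_smul_eq (ω₀ : Ω) (f : Ω → ℝ) (hf : ∀ ω, (¬ ∃ g : G, g • ω₀ = ω) → f ω = 0) :
    ∑ g : G, f (g • ω₀) = (stabCard (G := G) ω₀ : ℝ) * ∑ ω, f ω := by
  classical
  have h1 : ∑ g : G, f (g • ω₀) = ∑ ω, ∑ g ∈ Finset.univ.filter (fun g : G => g • ω₀ = ω), f (g • ω₀) :=
    (Finset.sum_fiberwise _ _ _).symm
  rw [h1, Finset.mul_sum]
  refine Finset.sum_congr rfl fun ω _ => ?_
  by_cases hω : ∃ g : G, g • ω₀ = ω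
  · obtain ⟨g₀, rfl⟩ := hω
    have h2 : ∀ g ∈ Finset.univ.filter (fun g : G => g • ω₀ = g₀ • ω₀), f (g • ω₀) = f (g₀ • ω₀) := by
      intro g hg
      rw [(Finset.mem_filter.1 hg).2]
    rw [Finset.sum_congr rfl h2, Finset.sum_const, card_fiber_eq, nsmul_eq_mul]
  · rw [hf ω hω]
    have : Finset.univ.filter (fun g : G => g • ω₀ = ω) = ∅ := by
      apply Finset.filter_eq_empty_iff.2
      intro g _ hg
      exact hω ⟨g, hg⟩
    rw [this]
    simp

variable (F : Family G) (i : Fin F.r) {v' : Fin (F.d i) → ℂ}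

/-- **Scaled isometry**. -/
theorem Family.nsq_Phi {ω₀ : Ω} (hv : ∀ g : G, g • ω₀ = ω₀ → (F.R i).ρ g *ᵥ v' = v')
    (u : Fin (F.d i) → ℂ) :
    (stabCard (G := G) ω₀ : ℝ) * nsq (Phi (F.R i) ω₀ v' u) =
      (Fintype.card G : ℝ) / (F.d i : ℝ) * nsq v' * nsq u := by
  rw [← F.schur i v' u]
  unfold nsq
  rw [← sum_smul_eq ω₀ (fun ω => ‖Phi (F.R i) ω₀ v' u ω‖ ^ 2)]
  · refine Finset.sum_congr rfl fun g _ => ?_
    rw [Phi_smul hv]
  · intro ω hω
    simp [Phi_off _ hω]

/-- **Transfer of norm bounds**: it suffices to bound the action of `x` on the image of `Φ`. -/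
theorem Family.transfer {ω₀ : Ω} (hv : ∀ g : G, g • ω₀ = ω₀ → (F.R i).ρ g *ᵥ v' = v') (hv0 : v' ≠ 0)
    (x : MonoidAlgebra ℂ G) {s : ℝ}
    (hs : ∀ u, nsq (lactA x (Phi (F.R i) ω₀ v' u)) ≤ s * nsq (Phi (F.R i) ω₀ v' u))
    (u : Fin (F.d i) → ℂ) : nsq ((F.R i).lift x *ᵥ u) ≤ s * nsq u := by
  have h1 := F.nsq_Phi i hv ((F.R i).lift x *ᵥ u)
  have h2 := F.nsq_Phi i hv u
  rw [Phi_lift hv] at h1
  have hnv : 0 < nsq v' := by
    have h3 : star v' ⬝ᵥ v' ≠ 0 := fun h => hv0 (dotProduct_star_self_eq_zero.1 h)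
    rw [dot_star_self] at h3
    have h4 : nsq v' ≠ 0 := fun h => h3 (by rw [h]; simp)
    exact lt_of_le_of_ne (nsq_nonneg _) h4.symm
  have hk : 0 < (Fintype.card G : ℝ) / (F.d i : ℝ) * nsq v' := by
    have hc : (0 : ℝ) < Fintype.card G := by exact_mod_cast Fintype.card_pos
    have hd : (0 : ℝ) < F.d i := by exact_mod_cast F.dpos i
    positivity
  have hst : (0 : ℝ) < stabCard (G := G) ω₀ := by exact_mod_cast stabCard_pos _
  have h3 := hs u
  have h4 := mul_le_mul_of_nonneg_left h3 hst.le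
  rw [h1, mul_left_comm, h2] at h4
  have h5 : (Fintype.card G : ℝ) / (F.d i : ℝ) * nsq v' * nsq ((F.R i).lift x *ᵥ u) ≤
      (Fintype.card G : ℝ) / (F.d i : ℝ) * nsq v' * (s * nsq u) := by
    calc _ ≤ s * ((Fintype.card G : ℝ) / (F.d i : ℝ) * nsq v' * nsq u) := h4
      _ = _ := by ring
  exact le_of_mul_le_mul_left h5 hk

/-- **The image of `Φ` is killed by `H'` averaging** if the representation has no `H'`-fixed vector. -/
theorem sum_Phi_eq_zero {R : URep G d} {ω₀ : Ω} {v : Fin d → ℂ}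
    (hv : ∀ g : G, g • ω₀ = ω₀ → R.ρ g *ᵥ v = v) (H' : Subgroup G) [Fintype H']
    (hno : ∀ w : Fin d → ℂ, (∀ h ∈ H', R.ρ h *ᵥ w = w) → w = 0) (g : G) (u : Fin d → ℂ) :
    ∑ h : H', Phi R ω₀ v u ((g * (h : G)) • ω₀) = 0 := by
  simp_rw [Phi_smul hv, map_mul]
  have hfix : ∑ h : H', R.ρ (h : G) *ᵥ v = 0 := by
    apply hno
    intro k hk
    rw [Matrix.mulVec_sum]
    calc ∑ h : H', R.ρ k *ᵥ (R.ρ (h : G) *ᵥ v)
        = ∑ h : H', (fun h : H' => R.ρ (h : G) *ᵥ v) (Equiv.mulLeft (⟨k, hk⟩ : H') h) := by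
          refine Finset.sum_congr rfl fun h _ => ?_
          simp [Matrix.mulVec_mulVec]
      _ = _ := Equiv.sum_comp (Equiv.mulLeft (⟨k, hk⟩ : H')) (fun h : H' => R.ρ (h : G) *ᵥ v)
  have : ∑ h : H', star ((R.ρ g * R.ρ (h : G)) *ᵥ v) ⬝ᵥ u =
      star (R.ρ g *ᵥ ∑ h : H', R.ρ (h : G) *ᵥ v) ⬝ᵥ u := by
    rw [Matrix.mulVec_sum, star_sum, sum_dotProduct]
    refine Finset.sum_congr rfl fun h _ => ?_
    rw [Matrix.mulVec_mulVec]
  rw [this, hfix]
  simp

end Embed

section Count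

variable (F : Family G)

/-- The sum over a subgroup. -/
noncomputable def sumH (H : Subgroup G) [Fintype H] : MonoidAlgebra ℂ G :=
  ∑ h : H, MonoidAlgebra.single (h : G) 1

lemma single_mul_sumH (H : Subgroup G) [Fintype H] {k : G} (hk : k ∈ H) :
    MonoidAlgebra.single k (1 : ℂ) * sumH H = sumH H := by
  unfold sumH
  rw [Finset.mul_sum]
  calc ∑ h : H, MonoidAlgebra.single k (1 : ℂ) * MonoidAlgebra.single (h : G) 1
      = ∑ h : H, (fun h : H => MonoidAlgebra.single (h : G) (1 : ℂ)) (Equiv.mulLeft (⟨k, hk⟩ : H) h) := by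
        refine Finset.sum_congr rfl fun h _ => ?_
        rw [MonoidAlgebra.single_mul_single, one_mul]
        rfl
    _ = _ := Equiv.sum_comp (Equiv.mulLeft (⟨k, hk⟩ : H)) (fun h : H => MonoidAlgebra.single (h : G) (1 : ℂ))

lemma sumH_mul_single (H : Subgroup G) [Fintype H] {k : G} (hk : k ∈ H) :
    sumH H * MonoidAlgebra.single k (1 : ℂ) = sumH H := by
  unfold sumH
  rw [Finset.sum_mul]
  calc ∑ h : H, MonoidAlgebra.single (h : G) (1 : ℂ) * MonoidAlgebra.single k 1
      = ∑ h : H, (fun h : H => MonoidAlgebra.single (h : G) (1 : ℂ)) (Equiv.mulRight (⟨k, hk⟩ : H) h) := by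
        refine Finset.sum_congr rfl fun h _ => ?_
        rw [MonoidAlgebra.single_mul_single, one_mul]
        rfl
    _ = _ := Equiv.sum_comp (Equiv.mulRight (⟨k, hk⟩ : H)) (fun h : H => MonoidAlgebra.single (h : G) (1 : ℂ))

/-- The representations with a nonzero `H`-fixed vector. -/
noncomputable def Family.fixedIdx (H : Subgroup G) : Finset (Fin F.r) := by
  classical exact Finset.univ.filter (fun i : Fin F.r =>
      ∃ w : Fin (F.d i) → ℂ, w ≠ 0 ∧ ∀ h ∈ H, (F.R i).ρ h *ᵥ w = w)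

lemma Family.mem_fixedIdx {H : Subgroup G} {i : Fin F.r} :
    i ∈ F.fixedIdx H ↔ ∃ w : Fin (F.d i) → ℂ, w ≠ 0 ∧ ∀ h ∈ H, (F.R i).ρ h *ᵥ w = w := by
  classical simp [Family.fixedIdx]

/-- **The number of representations with a vector fixed by `H`** is at most the number of values of
any complete invariant of the double cosets of `H`. -/
theorem Family.card_fixed_le (H : Subgroup G) {T : Type*} [Fintype T] (τ : G → T)
    (hτ : ∀ g g', τ g = τ g' → ∃ h ∈ H, ∃ h' ∈ H, g' = h * g * h') :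
    (F.fixedIdx H).card ≤ Fintype.card T := by
  classical
  let _ : Fintype H := Fintype.ofFinite _
  set I := F.fixedIdx H with hI
  set e := sumH H with he
  let z : Fin F.r → MonoidAlgebra ℂ G := fun i => F.E.symm (Pi.single i 1)
  have hzlift : ∀ i j, (F.R j).lift (z i) = (Pi.single i 1 : Π i, Matrix (Fin (F.d i)) (Fin (F.d i)) ℂ) j := by
    intro i j
    rw [← F.E_apply, AlgEquiv.apply_symm_apply]
  have hzcen : ∀ i x, x * z i = z i * x := by
    intro i x
    apply F.E.injective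
    rw [map_mul, map_mul, AlgEquiv.apply_symm_apply]
    funext j
    simp only [Pi.mul_apply]
    by_cases hj : j = i
    · subst hj; simp
    · simp [Pi.single_eq_of_ne hj]
  let y : { i // i ∈ I } → MonoidAlgebra ℂ G := fun i => z i.1 * e
  have hyH : ∀ (i : { i // i ∈ I }) (k k' : G), k ∈ H → k' ∈ H →
      MonoidAlgebra.single k (1 : ℂ) * y i * MonoidAlgebra.single k' 1 = y i := by
    intro i k k' hk hk'
    simp only [y]
    rw [← mul_assoc, hzcen, mul_assoc (z i.1), mul_assoc (z i.1), he,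
      single_mul_sumH H hk, sumH_mul_single H hk']
  have hinvar : ∀ (a : { i // i ∈ I } → ℂ) (k k' g : G), k ∈ H → k' ∈ H →
      (∑ i, a i • y i).coeff (k * g * k') = (∑ i, a i • y i).coeff g := by
    intro a k k' g hk hk'
    have h1 : MonoidAlgebra.single k⁻¹ (1 : ℂ) * (∑ i, a i • y i) * MonoidAlgebra.single k'⁻¹ 1 =
        ∑ i, a i • y i := by
      rw [Finset.mul_sum, Finset.sum_mul]
      refine Finset.sum_congr rfl fun i _ => ?_
      rw [mul_smul_comm, smul_mul_assoc, hyH i _ _ (H.inv_mem hk) (H.inv_mem hk')]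
    conv_rhs => rw [← h1]
    rw [MonoidAlgebra.coeff_mul_single_apply, MonoidAlgebra.coeff_single_mul_apply]
    simp [mul_assoc]
  let rep : T → G := fun t => if h : ∃ g, τ g = t then Classical.choose h else 1
  have hrep : ∀ g, τ (rep (τ g)) = τ g := by
    intro g
    have h : ∃ g', τ g' = τ g := ⟨g, rfl⟩
    simp only [rep, dif_pos h]
    exact Classical.choose_spec h
  let Λ : ({ i // i ∈ I } → ℂ) →ₗ[ℂ] (T → ℂ) :=
    { toFun := fun a t => (∑ i, a i • y i).coeff (rep t)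
      map_add' := fun a b => by
        funext t
        simp [add_smul, Finset.sum_add_distrib]
      map_smul' := fun c a => by
        funext t
        simp [mul_smul, ← Finset.smul_sum] }
  have hinj : Function.Injective Λ := by
    rw [injective_iff_map_eq_zero]
    intro a ha
    have hy0 : ∑ i, a i • y i = 0 := by
      ext g
      obtain ⟨h, hh, h', hh', hg⟩ := hτ _ _ (hrep g)
      have h2 := congrFun ha (τ g)
      simp only [Pi.zero_apply] at h2
      have h3 : (∑ i, a i • y i).coeff (rep (τ g)) = 0 := h2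
      rw [hg, hinvar a _ _ _ hh hh']
      exact h3
    funext j
    obtain ⟨w, hw0, hw⟩ := F.mem_fixedIdx.1 j.2
    have h1 := congrArg (fun x => (F.R j.1).lift x *ᵥ w) hy0
    simp only [map_zero, Matrix.zero_mulVec] at h1
    have h2 : (F.R j.1).lift (∑ i, a i • y i) = a j • (F.R j.1).lift e := by
      rw [map_sum, Finset.sum_eq_single j]
      · simp only [y, map_smul, map_mul, hzlift, Pi.single_eq_same, one_mul]
      · intro i _ hij
        have hne : i.1 ≠ j.1 := fun h => hij (Subtype.ext h)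
        simp only [y, map_smul, map_mul, hzlift, Pi.single_eq_of_ne hne.symm, zero_mul, smul_zero]
      · simp
    have h3 : (F.R j.1).lift e *ᵥ w = (Fintype.card H : ℂ) • w := by
      rw [he]
      unfold sumH
      rw [map_sum, Matrix.sum_mulVec]
      have : ∀ h : H, (F.R j.1).lift (MonoidAlgebra.single (h : G) 1) *ᵥ w = w := by
        intro h
        rw [URep.lift_single, one_smul, hw _ h.2]
      simp only [this, Finset.sum_const, Finset.card_univ, Nat.cast_smul_eq_nsmul]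
    rw [h2, Matrix.smul_mulVec, h3, smul_smul] at h1
    have hc : (Fintype.card H : ℂ) ≠ 0 := by exact_mod_cast Fintype.card_ne_zero
    exact (mul_eq_zero.1 ((smul_eq_zero.1 h1).resolve_right hw0)).resolve_right hc
  have := LinearMap.finrank_le_finrank_of_injective hinj
  simpa using this

end Count

section PermCount

variable {X : Type*} [Fintype X] [DecidableEq X]

/-- Two injective tuples are related by a permutation. -/
lemma exists_perm_extend {ι : Type*} (x y : ι → X) (hx : Function.Injective x)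
    (hy : Function.Injective y) : ∃ π : Equiv.Perm X, ∀ l, π (x l) = y l := by
  classical
  let e : { z // z ∈ Set.range x } ≃ { z // z ∈ Set.range y } :=
    (Equiv.ofInjective x hx).symm.trans (Equiv.ofInjective y hy)
  refine ⟨e.extendSubtype, fun l => ?_⟩
  rw [Equiv.extendSubtype_apply_of_mem e (x l) ⟨l, rfl⟩]
  simp only [e, Equiv.trans_apply]
  have : (Equiv.ofInjective x hx).symm ⟨x l, ⟨l, rfl⟩⟩ = l := by
    rw [Equiv.symm_apply_eq]
    rfl
  rw [this]
  rfl

/-- The pointwise stabiliser of a tuple. -/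
def ptStab {b : ℕ} (a : Fin b → X) : Subgroup (Equiv.Perm X) where
  carrier := {g | ∀ j, g (a j) = a j}
  one_mem' := fun _ => rfl
  mul_mem' := fun {g h} hg hh j => by
    simp only [Set.mem_ofPred_eq] at hg hh
    rw [Equiv.Perm.mul_apply, hh, hg]
  inv_mem' := fun {g} hg j => by
    simp only [Set.mem_ofPred_eq] at hg
    rw [Equiv.Perm.inv_eq_iff_eq, hg]

lemma mem_ptStab {b : ℕ} {a : Fin b → X} {g : Equiv.Perm X} :
    g ∈ ptStab a ↔ ∀ j, g (a j) = a j := Iff.rfl

/-- The pattern of a permutation on a tuple: this is a complete invariant of the double cosets. -/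
noncomputable def patt {b : ℕ} (a : Fin b → X) (g : Equiv.Perm X) : Fin b → Option (Fin b) :=
  open Classical in fun j => if h : ∃ k, g (a j) = a k then some (Classical.choose h) else none

lemma patt_dbl {b : ℕ} {a : Fin b → X} (ha : Function.Injective a) {g g' : Equiv.Perm X}
    (h : patt a g = patt a g') :
    ∃ k ∈ ptStab a, ∃ k' ∈ ptStab a, g' = k * g * k' := by
  classical
  -- the pattern determines the values on the tuple inside the tuple
  have hsame : ∀ j, (∃ k, g (a j) = a k) ↔ (∃ k, g' (a j) = a k) := by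
    intro j
    have h1 := congrFun h j
    unfold patt at h1
    by_cases h2 : ∃ k, g (a j) = a k
    · by_cases h3 : ∃ k, g' (a j) = a k
      · exact ⟨fun _ => h3, fun _ => h2⟩
      · rw [dif_pos h2, dif_neg h3] at h1
        cases h1
    · by_cases h3 : ∃ k, g' (a j) = a k
      · rw [dif_neg h2, dif_pos h3] at h1
        cases h1
      · exact ⟨fun h4 => absurd h4 h2, fun h4 => absurd h4 h3⟩
  have hval : ∀ j k, g (a j) = a k → g' (a j) = a k := by
    intro j k hk
    have h2 : ∃ k, g (a j) = a k := ⟨k, hk⟩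
    have h3 := (hsame j).1 h2
    have h1 := congrFun h j
    unfold patt at h1
    rw [dif_pos h2, dif_pos h3] at h1
    have h4 := Option.some.inj h1
    have h5 := Classical.choose_spec h2
    have h6 := Classical.choose_spec h3
    have h7 : Classical.choose h2 = k := ha (by rw [← h5, hk])
    rw [h6, ← h4, h7]
  -- the tuples outside
  let J := { j : Fin b // ¬ ∃ k, g (a j) = a k }
  let x : Fin b ⊕ J → X := Sum.elim a (fun j => g (a j.1))
  let y : Fin b ⊕ J → X := Sum.elim a (fun j => g' (a j.1))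
  have hx : Function.Injective x := by
    rintro (i | i) (l | l) e
    · exact congrArg _ (ha e)
    · exact absurd ⟨i, e.symm⟩ l.2
    · exact absurd ⟨l, e⟩ i.2
    · have := ha (g.injective e)
      exact congrArg _ (Subtype.ext this)
  have hy : Function.Injective y := by
    rintro (i | i) (l | l) e
    · exact congrArg _ (ha e)
    · exact absurd ((hsame l.1).2 ⟨i, e.symm⟩) l.2
    · exact absurd ((hsame i.1).2 ⟨l, e⟩) i.2
    · have := ha (g'.injective e)
      exact congrArg _ (Subtype.ext this)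
  obtain ⟨π, hπ⟩ := exists_perm_extend x y hx hy
  have hπa : ∀ j, π (a j) = a j := fun j => hπ (Sum.inl j)
  have hπg : ∀ j, π (g (a j)) = g' (a j) := by
    intro j
    by_cases hj : ∃ k, g (a j) = a k
    · obtain ⟨k, hk⟩ := hj
      rw [hk, hπa, hval j k hk]
    · exact hπ (Sum.inr ⟨j, hj⟩)
  refine ⟨π, hπa, (π * g)⁻¹ * g', ?_, ?_⟩
  · intro j
    simp only [Equiv.Perm.mul_apply]
    rw [Equiv.Perm.inv_eq_iff_eq]
    simp only [Equiv.Perm.mul_apply]
    rw [hπg]
  · simp [mul_assoc]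

/-- **The number of irreducible representations of level at most `b`**: at most `(b+1)^b`. -/
theorem Family.card_level_le (F : Family (Equiv.Perm X)) {b : ℕ} (a : Fin b → X)
    (ha : Function.Injective a) : (F.fixedIdx (ptStab a)).card ≤ (b + 1) ^ b := by
  have := F.card_fixed_le (ptStab a) (patt a) (fun g g' h => patt_dbl ha h)
  simpa using this

end PermCount

end Crest.Agent.S0222Lib.Planch
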