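import Crest.Agent.S0222Lib.SZ
import Crest.Agent.S0222Lib.PlanchEmbed

/-!
# S0222: the graded Frobenius embedding

For a unitary representation `R` of `Perm (B D)`, a word `w₀` and a vector `v` with
`ρ(s) v = ε(s, w₀) v` for all `s` with `w₀ ∘ s = w₀`:
* `PhiS`: `u ↦ (w₀ ∘ g⁻¹ ↦ ε(g⁻¹, w₀) ⟨ρ(g) v, u⟩)`, zero off the orbit;
* `PhiS_rho`: `Φ(ρ(h) u) = rhoS h Φ(u)`;
* `PhiS_lift`: `Φ(x̂ u) = rhoAS x Φ(u)`;
* `nsq_PhiS`: it is a scaled isometry for a member of a complete family;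
* `transferS`: norm bounds transfer from the image of `Φ` to the representation.
-/

set_option autoImplicit false
set_option linter.unusedSectionVars false
set_option linter.unusedSimpArgs false

namespace Crest.Agent.S0222Lib.SWord

open Matrix Finset MonoidAlgebra
open scoped ComplexOrder
open Crest.Agent.S0222Lib.Planch Crest.Agent.S0222Lib.WordRep

section Embed

variable {D : ℕ} {L : Type*} [Fintype L] [DecidableEq L] (od : L → Bool)
  {d : ℕ} (R : URep (Equiv.Perm (B D)) d) (w₀ : B D → L) (v : Fin d → ℂ)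

/-- The signed orbit vector. -/
noncomputable def vecS (g : Equiv.Perm (B D)) : Fin d → ℂ :=
  epsS bval od g⁻¹ w₀ • (R.ρ g *ᵥ v)

open Classical in
/-- The graded Frobenius map. -/
noncomputable def PhiS : (Fin d → ℂ) →ₗ[ℂ] ((B D → L) → ℂ) where
  toFun u w := if h : ∃ g : Equiv.Perm (B D), w₀ ∘ ⇑g⁻¹ = w then
    star (vecS od R w₀ v (Classical.choose h)) ⬝ᵥ u else 0
  map_add' u u' := by
    funext ω
    by_cases h : ∃ g : Equiv.Perm (B D), w₀ ∘ ⇑g⁻¹ = ω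
    · simp only [dif_pos h, Pi.add_apply, dotProduct_add]
    · simp only [dif_neg h, Pi.add_apply, add_zero]
  map_smul' c u := by
    funext ω
    by_cases h : ∃ g : Equiv.Perm (B D), w₀ ∘ ⇑g⁻¹ = ω
    · simp only [dif_pos h, Pi.smul_apply, dotProduct_smul, RingHom.id_apply]
    · simp only [dif_neg h, Pi.smul_apply, RingHom.id_apply, smul_zero]

variable {R w₀ v}

lemma vecS_eq (hv : ∀ s : Equiv.Perm (B D), w₀ ∘ s = w₀ → R.ρ s *ᵥ v = epsS bval od s w₀ • v)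
    {g g' : Equiv.Perm (B D)} (h : w₀ ∘ ⇑g⁻¹ = w₀ ∘ ⇑g'⁻¹) :
    vecS od R w₀ v g = vecS od R w₀ v g' := by
  set s := g⁻¹ * g' with hs
  have hs1 : w₀ ∘ s = w₀ := by
    funext x
    have := congrFun h (g' x)
    simp only [Function.comp] at this
    rw [hs]
    simp only [Function.comp, Equiv.Perm.mul_apply]
    simpa using this
  have hg' : g' = g * s := by rw [hs]; group
  have hsinv : w₀ ∘ ⇑s⁻¹ = w₀ := by
    funext x
    have := congrFun hs1 (s⁻¹ x)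
    simpa using this.symm
  have e1 : epsS bval od g'⁻¹ w₀ = epsS bval od s w₀ * epsS bval od g⁻¹ w₀ := by
    rw [hg', _root_.mul_inv_rev, epsS_mul od bval_injective, hsinv, epsS_inv od bval_injective, hsinv]
  unfold vecS
  rw [e1, hg', map_mul, ← Matrix.mulVec_mulVec, hv s hs1, Matrix.mulVec_smul, smul_smul]
  have e2 : epsS bval od s w₀ * epsS bval od g⁻¹ w₀ * epsS bval od s w₀ = epsS bval od g⁻¹ w₀ := by
    calc _ = (epsS bval od s w₀ * epsS bval od s w₀) * epsS bval od g⁻¹ w₀ := by ring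
      _ = _ := by rw [epsS_mul_self, one_mul]
  rw [e2]

lemma PhiS_orbit (hv : ∀ s : Equiv.Perm (B D), w₀ ∘ s = w₀ → R.ρ s *ᵥ v = epsS bval od s w₀ • v)
    (u : Fin d → ℂ) (g : Equiv.Perm (B D)) :
    PhiS od R w₀ v u (w₀ ∘ ⇑g⁻¹) = star (vecS od R w₀ v g) ⬝ᵥ u := by
  classical
  have h : ∃ g' : Equiv.Perm (B D), w₀ ∘ ⇑g'⁻¹ = w₀ ∘ ⇑g⁻¹ := ⟨g, rfl⟩
  change (if h : ∃ g' : Equiv.Perm (B D), w₀ ∘ ⇑g'⁻¹ = w₀ ∘ ⇑g⁻¹ then
    star (vecS od R w₀ v (Classical.choose h)) ⬝ᵥ u else 0) = _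
  rw [dif_pos h, vecS_eq od hv (Classical.choose_spec h)]

lemma PhiS_off (u : Fin d → ℂ) {w : B D → L} (h : ¬ ∃ g : Equiv.Perm (B D), w₀ ∘ ⇑g⁻¹ = w) :
    PhiS od R w₀ v u w = 0 := by
  classical
  change (if h : ∃ g' : Equiv.Perm (B D), w₀ ∘ ⇑g'⁻¹ = w then
    star (vecS od R w₀ v (Classical.choose h)) ⬝ᵥ u else 0) = _
  rw [dif_neg h]

lemma star_vecS (g : Equiv.Perm (B D)) :
    star (vecS od R w₀ v g) = epsS bval od g⁻¹ w₀ • star (R.ρ g *ᵥ v) := by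
  unfold vecS
  rw [star_smul, epsS_star]

lemma nsq_term_eq (hv : ∀ s : Equiv.Perm (B D), w₀ ∘ s = w₀ → R.ρ s *ᵥ v = epsS bval od s w₀ • v)
    (u : Fin d → ℂ) (g : Equiv.Perm (B D)) :
    ‖PhiS od R w₀ v u (w₀ ∘ ⇑g⁻¹)‖ ^ 2 = ‖star (R.ρ g *ᵥ v) ⬝ᵥ u‖ ^ 2 := by
  rw [PhiS_orbit od hv, star_vecS, smul_dotProduct, smul_eq_mul, norm_mul]
  have h1 : ‖epsS bval od g⁻¹ w₀‖ = 1 := by
    have := congrArg norm (epsS_mul_self bval od g⁻¹ w₀)
    rw [norm_mul, norm_one] at this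
    have h0 : 0 ≤ ‖epsS bval od g⁻¹ w₀‖ := norm_nonneg _
    nlinarith
  rw [h1, one_mul]

/-- **Equivariance**. -/
lemma PhiS_rho (hv : ∀ s : Equiv.Perm (B D), w₀ ∘ s = w₀ → R.ρ s *ᵥ v = epsS bval od s w₀ • v)
    (h : Equiv.Perm (B D)) (u : Fin d → ℂ) :
    PhiS od R w₀ v (R.ρ h *ᵥ u) = rhoS bval od h *ᵥ PhiS od R w₀ v u := by
  funext w
  have hval : (rhoS bval od h *ᵥ PhiS od R w₀ v u) w =
      epsS bval od h w * PhiS od R w₀ v u (w ∘ h) := by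
    simp only [Matrix.mulVec, dotProduct, rhoS_apply]
    rw [Finset.sum_eq_single (w ∘ h)]
    · simp
    · intro b _ hb; simp [hb]
    · simp
  rw [hval]
  by_cases hw : ∃ g : Equiv.Perm (B D), w₀ ∘ ⇑g⁻¹ = w
  · obtain ⟨g, rfl⟩ := hw
    have e : w₀ ∘ ⇑g⁻¹ ∘ ⇑h = w₀ ∘ ⇑(h⁻¹ * g)⁻¹ := by
      rw [_root_.mul_inv_rev, inv_inv]
      rfl
    have e' : (w₀ ∘ ⇑g⁻¹) ∘ ⇑h = w₀ ∘ ⇑(h⁻¹ * g)⁻¹ := e
    rw [e', PhiS_orbit od hv, PhiS_orbit od hv, star_vecS, star_vecS, _root_.mul_inv_rev, inv_inv,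
      epsS_mul od bval_injective, smul_dotProduct, smul_dotProduct, smul_eq_mul, smul_eq_mul]
    have e2 : star (R.ρ (h⁻¹ * g) *ᵥ v) ⬝ᵥ u = star (R.ρ g *ᵥ v) ⬝ᵥ (R.ρ h *ᵥ u) := by
      rw [URep.star_dot_mulVec, Matrix.mulVec_mulVec, map_mul]
    rw [e2, ← mul_assoc, ← mul_assoc]
    have e3 : epsS bval od h (w₀ ∘ ⇑g⁻¹) * epsS bval od g⁻¹ w₀ * epsS bval od h (w₀ ∘ ⇑g⁻¹) =
        epsS bval od g⁻¹ w₀ := by
      calc _ = (epsS bval od h (w₀ ∘ ⇑g⁻¹) * epsS bval od h (w₀ ∘ ⇑g⁻¹)) * epsS bval od g⁻¹ w₀ := by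
            ring
        _ = _ := by rw [epsS_mul_self, one_mul]
    rw [e3]
  · have h2 : ¬ ∃ g : Equiv.Perm (B D), w₀ ∘ ⇑g⁻¹ = w ∘ h := by
      rintro ⟨g, hg⟩
      apply hw
      refine ⟨h * g, ?_⟩
      rw [_root_.mul_inv_rev]
      funext x
      have := congrFun hg (h⁻¹ x)
      simpa using this
    rw [PhiS_off od _ hw, PhiS_off od _ h2, mul_zero]

/-- **Equivariance for the group algebra**. -/
theorem PhiS_lift (hv : ∀ s : Equiv.Perm (B D), w₀ ∘ s = w₀ → R.ρ s *ᵥ v = epsS bval od s w₀ • v)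
    (x : MonoidAlgebra ℝ (Equiv.Perm (B D))) (u : Fin d → ℂ) :
    PhiS od R w₀ v (R.lift (toC x) *ᵥ u) = rhoAS od D x *ᵥ PhiS od R w₀ v u := by
  classical
  induction x using MonoidAlgebra.induction_linear with
  | zero => simp
  | add x₁ x₂ h₁ h₂ =>
    rw [map_add, map_add, Matrix.add_mulVec, map_add, h₁, h₂, map_add, Matrix.add_mulVec]
  | single g r =>
    have e : toC (single g r : MonoidAlgebra ℝ (Equiv.Perm (B D))) =
        single g (r : ℂ) := by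
      ext k
      rw [coeff_toC]
      by_cases hk : g = k
      · subst hk; simp
      · simp [MonoidAlgebra.coeff_single_apply, hk]
    rw [e, URep.lift_single, rhoAS_single, Matrix.smul_mulVec, map_smul, PhiS_rho od hv,
      Matrix.smul_mulVec]
    funext w
    simp [Complex.real_smul]

/-- The stabiliser size of a word. -/
noncomputable def stabW (w₀ : B D → L) : ℕ :=
  (Finset.univ.filter (fun g : Equiv.Perm (B D) => w₀ ∘ ⇑g⁻¹ = w₀)).card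

lemma stabW_pos (w₀ : B D → L) : 0 < stabW w₀ :=
  Finset.card_pos.2 ⟨1, by
    simp only [Finset.mem_filter, Finset.mem_univ, true_and, inv_one]
    rfl⟩

lemma card_fiberW (w₀ : B D → L) (g₀ : Equiv.Perm (B D)) :
    (Finset.univ.filter (fun g : Equiv.Perm (B D) => w₀ ∘ ⇑g⁻¹ = w₀ ∘ ⇑g₀⁻¹)).card = stabW w₀ := by
  unfold stabW
  apply Finset.card_bij (fun g _ => g₀⁻¹ * g)
  · intro g hg
    have := (Finset.mem_filter.1 hg).2
    simp only [Finset.mem_filter, Finset.mem_univ, true_and]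
    funext x
    have h2 := congrFun this (g₀ x)
    simp only [Function.comp] at h2
    simpa using h2
  · intro a _ b _ e
    exact mul_left_cancel e
  · intro g hg
    have := (Finset.mem_filter.1 hg).2
    refine ⟨g₀ * g, ?_, by simp⟩
    simp only [Finset.mem_filter, Finset.mem_univ, true_and]
    funext x
    have h2 := congrFun this (g₀⁻¹ x)
    simp only [Function.comp] at h2
    simpa using h2

/-- The sum over the group of a function of the orbit point. -/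
lemma sum_orbit_eq (w₀ : B D → L) (f : (B D → L) → ℝ)
    (hf : ∀ w, (¬ ∃ g : Equiv.Perm (B D), w₀ ∘ ⇑g⁻¹ = w) → f w = 0) :
    ∑ g : Equiv.Perm (B D), f (w₀ ∘ ⇑g⁻¹) = (stabW w₀ : ℝ) * ∑ w, f w := by
  classical
  have h1 : ∑ g : Equiv.Perm (B D), f (w₀ ∘ ⇑g⁻¹) = ∑ ω, ∑ g ∈ Finset.univ.filter
      (fun g : Equiv.Perm (B D) => w₀ ∘ ⇑g⁻¹ = ω), f (w₀ ∘ ⇑g⁻¹) :=
    (Finset.sum_fiberwise _ _ _).symm
  rw [h1, Finset.mul_sum]
  refine Finset.sum_congr rfl fun ω _ => ?_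
  by_cases hω : ∃ g : Equiv.Perm (B D), w₀ ∘ ⇑g⁻¹ = ω
  · obtain ⟨g₀, rfl⟩ := hω
    have h2 : ∀ g ∈ Finset.univ.filter (fun g : Equiv.Perm (B D) => w₀ ∘ ⇑g⁻¹ = w₀ ∘ ⇑g₀⁻¹),
        f (w₀ ∘ ⇑g⁻¹) = f (w₀ ∘ ⇑g₀⁻¹) := by
      intro g hg
      rw [(Finset.mem_filter.1 hg).2]
    rw [Finset.sum_congr rfl h2, Finset.sum_const, card_fiberW, nsmul_eq_mul]
  · rw [hf ω hω]
    have : Finset.univ.filter (fun g : Equiv.Perm (B D) => w₀ ∘ ⇑g⁻¹ = ω) = ∅ := by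
      apply Finset.filter_eq_empty_iff.2
      intro g _ hg
      exact hω ⟨g, hg⟩
    rw [this]
    simp

variable (F : Family (Equiv.Perm (B D))) (i : Fin F.r) {v' : Fin (F.d i) → ℂ}

/-- **Scaled isometry**. -/
theorem nsq_PhiS (hv : ∀ s : Equiv.Perm (B D), w₀ ∘ s = w₀ →
      (F.R i).ρ s *ᵥ v' = epsS bval od s w₀ • v')
    (u : Fin (F.d i) → ℂ) :
    (stabW w₀ : ℝ) * nsq (PhiS od (F.R i) w₀ v' u) =
      (Fintype.card (Equiv.Perm (B D)) : ℝ) / (F.d i : ℝ) * nsq v' * nsq u := by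
  rw [← F.schur i v' u]
  unfold nsq
  rw [← sum_orbit_eq w₀ (fun ω => ‖PhiS od (F.R i) w₀ v' u ω‖ ^ 2)]
  · refine Finset.sum_congr rfl fun g _ => ?_
    exact nsq_term_eq od hv u g
  · intro ω hω
    simp [PhiS_off od _ hω]

/-- **Transfer of norm bounds**: it suffices to bound the graded action of `x` on the image of `Φ`. -/
theorem transferS (hv : ∀ s : Equiv.Perm (B D), w₀ ∘ s = w₀ →
      (F.R i).ρ s *ᵥ v' = epsS bval od s w₀ • v') (hv0 : v' ≠ 0)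
    (x : MonoidAlgebra ℝ (Equiv.Perm (B D))) {c : ℝ}
    (hs : ∀ u, nsq (rhoAS od D x *ᵥ PhiS od (F.R i) w₀ v' u) ≤ c * nsq (PhiS od (F.R i) w₀ v' u))
    (u : Fin (F.d i) → ℂ) : nsq ((F.R i).lift (toC x) *ᵥ u) ≤ c * nsq u := by
  have h1 := nsq_PhiS od F i hv ((F.R i).lift (toC x) *ᵥ u)
  have h2 := nsq_PhiS od F i hv u
  rw [PhiS_lift od hv] at h1
  have hnv : 0 < nsq v' := by
    have h3 : star v' ⬝ᵥ v' ≠ 0 := fun h => hv0 (dotProduct_star_self_eq_zero.1 h)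
    rw [dot_star_self] at h3
    have h4 : nsq v' ≠ 0 := fun h => h3 (by rw [h]; simp)
    exact lt_of_le_of_ne (nsq_nonneg _) h4.symm
  have hk : 0 < (Fintype.card (Equiv.Perm (B D)) : ℝ) / (F.d i : ℝ) * nsq v' := by
    have hc : (0 : ℝ) < Fintype.card (Equiv.Perm (B D)) := by exact_mod_cast Fintype.card_pos
    have hd : (0 : ℝ) < F.d i := by exact_mod_cast F.dpos i
    positivity
  have hst : (0 : ℝ) < stabW w₀ := by exact_mod_cast stabW_pos _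
  have h3 := hs u
  have h4 := mul_le_mul_of_nonneg_left h3 hst.le
  rw [h1, mul_left_comm, h2] at h4
  have h5 : (Fintype.card (Equiv.Perm (B D)) : ℝ) / (F.d i : ℝ) * nsq v' *
        nsq ((F.R i).lift (toC x) *ᵥ u) ≤
      (Fintype.card (Equiv.Perm (B D)) : ℝ) / (F.d i : ℝ) * nsq v' * (c * nsq u) := by
    calc _ ≤ c * ((Fintype.card (Equiv.Perm (B D)) : ℝ) / (F.d i : ℝ) * nsq v' * nsq u) := h4
      _ = _ := by ring
  exact le_of_mul_le_mul_left h5 hk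

end Embed

end Crest.Agent.S0222Lib.SWord
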