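import Crest.Agent.S0222Lib.JGainFam
import Crest.Agent.S0222Lib.JFam
import Crest.Agent.S0222Lib.SEmbed

/-!
# S0222: the gain of Theorem J

For `f = Φ u` (`Φ` the graded Frobenius map of a representation `R` with vector `v₀`) with `v₀`
isotypic for the symmetric group of each class of positions, and a letter operator `A` even and
block-diagonal for the classes:

  `|⟨f, tp(A) f⟩| ≤ √(∏_x tr(cl (w₀ x)) / ∏_s d_s) ‖f‖²`, `tr s = ∑_{cl l' = s} ∑_l |A l l'|²`.

* `exists_product_system`: the product of the systems of matrix units of commuting actions;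
* `patP`: the projection on a pattern of classes; `hsq_tp_mul_patP`;
* `form_tp_le`: the bound;
* `form_mix_le`, `form_FamY_le`: mixtures;
* `BlockD`, `trC`: block-diagonal operators and traces of blocks, preserved by `Fam.dbl`.
-/

set_option autoImplicit false
set_option linter.unusedSectionVars false

namespace Crest.Agent.S0222Lib.Gain

open Finset Matrix
open scoped ComplexOrder MatrixOrder
open Crest.Agent.S0222Lib.Planch Crest.Agent.S0222Lib.Shape Crest.Agent.S0222Lib.SWord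
  Crest.Agent.S0222Lib.WordRep Crest.Agent.S0222Lib.Site Crest.Agent.S0222Lib.JCore

section Product

variable {W : Type*} [Fintype W] [DecidableEq W]

lemma liftW_commute {H : Type*} [Group H] [Fintype H] [DecidableEq H] (U : H →* Matrix W W ℂ)
    {B : Matrix W W ℂ} (hB : ∀ g, B * U g = U g * B) (x : MonoidAlgebra ℂ H) :
    B * liftW U x = liftW U x * B := by
  rw [liftW_eq_sum, Finset.mul_sum, Finset.sum_mul]
  refine Finset.sum_congr rfl fun g _ => ?_
  rw [Matrix.mul_smul, Matrix.smul_mul, hB]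

variable {ι : Type*} [DecidableEq ι]
  {H : ι → Type} [∀ s, Group (H s)] [∀ s, Fintype (H s)] [∀ s, DecidableEq (H s)]

/-- **The product of the systems of matrix units of commuting representations.** -/
theorem exists_product_system (S : Finset ι) (U : ∀ s, H s →* Matrix W W ℂ)
    (hU : ∀ s g, (U s g)ᴴ = U s g⁻¹)
    (hcomm : ∀ s ∈ S, ∀ s' ∈ S, s ≠ s' → ∀ g g', U s g * U s' g' = U s' g' * U s g)
    (Fs : ∀ s, Family (H s)) (j : ∀ s, Fin (Fs s).r) :
    ∃ (K : Type) (_ : Fintype K) (_ : DecidableEq K) (M : MU W K),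
      Fintype.card K = ∏ s ∈ S, (Fs s).d (j s) ∧
      (∀ B : Matrix W W ℂ, (∀ s ∈ S, ∀ g, B * U s g = U s g * B) →
        ∀ c a, B * M.E c a = M.E c a * B) ∧
      (∀ f : W → ℂ, (∀ s ∈ S, liftW (U s) ((Fs s).idem (j s)) *ᵥ f = f) → ∑ a, M.E a a *ᵥ f = f) := by
  classical
  induction S using Finset.induction_on with
  | empty =>
    refine ⟨Unit, inferInstance, inferInstance, MU.triv W, by simp, ?_, ?_⟩
    · intro B _ _ _
      simp [MU.triv]
    · intro f _
      simp [MU.triv]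
  | insert s S hs ih =>
    obtain ⟨K, iF, iD, M, hcard, hB, hf⟩ := ih (fun a ha b hb => hcomm a (mem_insert_of_mem ha) b
      (mem_insert_of_mem hb))
    let M₂ := muSystem (Fs s) (j s) (U s) (hU s)
    have hc : ∀ c a c' a', M.E c a * M₂.E c' a' = M₂.E c' a' * M.E c a := by
      intro c a c' a'
      refine (hB _ (fun s' hs' g => ?_) c a).symm
      refine (liftW_commute (U s) (B := U s' g) (fun g' => ?_) _).symm
      exact hcomm s' (mem_insert_of_mem hs') s (mem_insert_self _ _) (fun h => hs (h ▸ hs')) g g'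
    refine ⟨K × Fin ((Fs s).d (j s)), inferInstance, inferInstance, M.prod M₂ hc, ?_, ?_, ?_⟩
    · rw [Fintype.card_prod, hcard, Finset.prod_insert hs, Fintype.card_fin, mul_comm]
    · intro B hBB c a
      show B * (M.E c.1 a.1 * M₂.E c.2 a.2) = (M.E c.1 a.1 * M₂.E c.2 a.2) * B
      have h1 := hB B (fun s' hs' g => hBB s' (mem_insert_of_mem hs') g) c.1 a.1
      have h2 : B * M₂.E c.2 a.2 = M₂.E c.2 a.2 * B :=
        liftW_commute (U s) (fun g => hBB s (mem_insert_self _ _) g) _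
      rw [← Matrix.mul_assoc, h1, Matrix.mul_assoc, h2, Matrix.mul_assoc]
    · intro f hff
      have h1 := hf f (fun s' hs' => hff s' (mem_insert_of_mem hs'))
      have h2 := muSystem_sum (Fs s) (j s) (U s) (hU s) f (hff s (mem_insert_self _ _))
      rw [Fintype.sum_prod_type]
      conv_rhs => rw [← h1]
      refine Finset.sum_congr rfl fun a _ => ?_
      conv_rhs => rw [← h2]
      rw [Matrix.mulVec_sum]
      refine Finset.sum_congr rfl fun b _ => ?_
      rw [Matrix.mulVec_mulVec]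
      rfl

end Product

section Proj

variable {W : Type*} [Fintype W] [DecidableEq W]

/-- Decomposition of a form along a complete orthogonal system of projections commuting with it. -/
lemma form_sum_proj {K : Type*} [Fintype K] [DecidableEq K] (P : K → Matrix W W ℂ)
    (hh : ∀ k, (P k)ᴴ = P k) (ho : ∀ k k', k ≠ k' → P k * P k' = 0) (hs : ∑ k, P k = 1)
    (hi : ∀ k, P k * P k = P k) (B : Matrix W W ℂ) (hB : ∀ k, B * P k = P k * B) (f : W → ℂ) :
    star f ⬝ᵥ (B *ᵥ f) = ∑ k, star (P k *ᵥ f) ⬝ᵥ (B *ᵥ (P k *ᵥ f)) := by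
  have hf : ∑ k, P k *ᵥ f = f := by
    rw [← Matrix.sum_mulVec, hs, Matrix.one_mulVec]
  have hadj : ∀ k (x y : W → ℂ), star (P k *ᵥ x) ⬝ᵥ y = star x ⬝ᵥ (P k *ᵥ y) := by
    intro k x y
    rw [star_mulVec_dot, hh]
  have hform : ∀ k k', star (P k *ᵥ f) ⬝ᵥ (B *ᵥ (P k' *ᵥ f)) =
      if k = k' then star (P k *ᵥ f) ⬝ᵥ (B *ᵥ (P k *ᵥ f)) else 0 := by
    intro k k'
    by_cases h : k = k'
    · subst h
      rw [if_pos rfl]
    · rw [if_neg h, Matrix.mulVec_mulVec, hB, hadj, ← Matrix.mulVec_mulVec, Matrix.mulVec_mulVec,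
        ho k k' h, Matrix.zero_mulVec, dotProduct_zero]
  conv_lhs => rw [← hf]
  rw [Matrix.mulVec_sum, star_sum, sum_dotProduct]
  refine Finset.sum_congr rfl fun k _ => ?_
  rw [dotProduct_sum, Finset.sum_eq_single k]
  · intro k' _ hk'
    rw [hform, if_neg hk'.symm]
  · simp

lemma nsq_sum_proj {K : Type*} [Fintype K] [DecidableEq K] (P : K → Matrix W W ℂ)
    (hh : ∀ k, (P k)ᴴ = P k) (ho : ∀ k k', k ≠ k' → P k * P k' = 0) (hs : ∑ k, P k = 1)
    (hi : ∀ k, P k * P k = P k) (f : W → ℂ) : nsq f = ∑ k, nsq (P k *ᵥ f) := by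
  have h := form_sum_proj P hh ho hs hi 1 (by simp) f
  simp only [Matrix.one_mulVec, dot_star_self] at h
  exact_mod_cast h

end Proj

section Pattern

variable {X L C : Type*} [Fintype X] [DecidableEq X] [Fintype L] [DecidableEq L] [Fintype C]
  [DecidableEq C]

/-- The projection on the words with a given pattern of classes. -/
noncomputable def patP (cl : L → C) (P : X → C) : Matrix (X → L) (X → L) ℂ :=
  dp (fun w => cl ∘ w = P)

lemma patP_conj (cl : L → C) (P : X → C) : (patP cl P)ᴴ = patP cl P := dp_conjTranspose _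

lemma patP_mulVec_apply (cl : L → C) (P : X → C) (f : (X → L) → ℂ) (w : X → L) :
    (patP cl P *ᵥ f) w = if cl ∘ w = P then f w else 0 := by
  classical
  unfold patP dp
  rw [Matrix.mulVec_diagonal]
  split_ifs <;> simp

lemma patP_mul_ne (cl : L → C) {P P' : X → C} (h : P ≠ P') : patP cl P * patP cl P' = 0 := by
  unfold patP
  rw [dp_mul_dp]
  ext w w'
  by_cases e : w = w'
  · subst e
    rw [dp_apply_self]
    rw [if_neg]
    · simp
    · rintro ⟨h1, h2⟩
      exact h (h1.symm.trans h2)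
  · simp [dp, e, Matrix.one_apply]

lemma patP_idem (cl : L → C) (P : X → C) : patP cl P * patP cl P = patP cl P := dp_idem _

lemma sum_patP (cl : L → C) : ∑ P : X → C, patP cl P = 1 := by
  ext w w'
  rw [Matrix.sum_apply]
  by_cases e : w = w'
  · subst e
    rw [Matrix.one_apply_eq, Finset.sum_eq_single (cl ∘ w)]
    · unfold patP
      rw [dp_apply_self, if_pos rfl]
    · intro P _ hP
      unfold patP
      rw [dp_apply_self, if_neg]
      exact fun h => hP h.symm
    · simp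
  · rw [Matrix.one_apply_ne e]
    refine Finset.sum_eq_zero fun P _ => ?_
    simp [patP, dp, e]

/-- An operator is block-diagonal for a map to classes. -/
def BlockD (cl : L → C) (A : Matrix L L ℂ) : Prop := ∀ l l', A l l' ≠ 0 → cl l = cl l'

lemma tp_mul_patP_comm {cl : L → C} {A : Matrix L L ℂ} (hA : BlockD cl A) (P : X → C) :
    tp (fun _ : X => A) * patP cl P = patP cl P * tp (fun _ : X => A) := by
  classical
  ext w w'
  unfold patP
  rw [mul_dp_apply, dp_mul_apply]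
  by_cases h0 : tp (fun _ : X => A) w w' = 0
  · rw [h0]
    simp
  · have hcl : cl ∘ w = cl ∘ w' := by
      funext x
      apply hA
      intro h00
      apply h0
      simp only [tp_apply]
      exact Finset.prod_eq_zero (Finset.mem_univ x) h00
    rw [hcl]

/-- The squared Hilbert-Schmidt norm of the block of a letter operator. -/
noncomputable def trC (cl : L → C) (A : Matrix L L ℂ) (s : C) : ℝ :=
  ∑ l', if cl l' = s then ∑ l, ‖A l l'‖ ^ 2 else 0

lemma trC_nonneg (cl : L → C) (A : Matrix L L ℂ) (s : C) : 0 ≤ trC cl A s := by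
  unfold trC
  refine Finset.sum_nonneg fun l' _ => ?_
  split_ifs
  · positivity
  · exact le_rfl

/-- **The Hilbert-Schmidt norm of a tensor power on a pattern.** -/
theorem hsq_tp_mul_patP (cl : L → C) (A : Matrix L L ℂ) (P : X → C) :
    hsq (tp (fun _ : X => A) * patP cl P) = ∏ x, trC cl A (P x) := by
  classical
  unfold hsq trC
  -- expand the product on the right
  have h1 : ∏ x, (∑ l', if cl l' = P x then ∑ l, ‖A l l'‖ ^ 2 else 0) =
      ∑ w' : X → L, ∏ x, (if cl (w' x) = P x then ∑ l, ‖A l (w' x)‖ ^ 2 else 0) := by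
    rw [Finset.prod_univ_sum, Fintype.piFinset_univ]
  rw [h1, Finset.sum_comm]
  refine Finset.sum_congr rfl fun w' _ => ?_
  unfold patP
  by_cases hw : cl ∘ w' = P
  · have h2 : ∀ x, cl (w' x) = P x := fun x => congrFun hw x
    simp only [h2, if_true]
    rw [Finset.prod_univ_sum, Fintype.piFinset_univ]
    refine Finset.sum_congr rfl fun w _ => ?_
    rw [mul_dp_apply, if_pos hw, tp_apply, norm_prod, Finset.prod_pow]
  · have h2 : ∃ x, cl (w' x) ≠ P x := by
      by_contra hc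
      push Not at hc
      exact hw (funext hc)
    obtain ⟨x, hx⟩ := h2
    rw [Finset.prod_eq_zero (Finset.mem_univ x) (by rw [if_neg hx])]
    refine Finset.sum_eq_zero fun w _ => ?_
    rw [mul_dp_apply, if_neg hw]
    simp

lemma rhoS_mul_patP (rk : X → ℕ) (od : L → Bool) (cl : L → C) (g : Equiv.Perm X) (P : X → C) :
    rhoS rk od g * patP cl P = patP cl (P ∘ ⇑g⁻¹) * rhoS rk od g := by
  unfold patP
  rw [rhoS_mul_dp]
  congr 1
  apply dp_congr
  intro w
  constructor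
  · intro h
    funext x
    have := congrFun h (g⁻¹ x)
    simpa using this
  · intro h
    funext x
    have := congrFun h (g x)
    simpa using this

/-- A permutation of the positions preserving a subset of the form `range e`: the permutation of
the subset. -/
lemma exists_restrict {m : ℕ} (e : Fin m ↪ X) (g : Equiv.Perm X) (hg : ∀ a, g (e a) ∈ Set.range e) :
    ∃ τ : Equiv.Perm (Fin m), ∀ a, g (e a) = e (τ a) := by
  classical
  choose t ht using hg
  have hinj : Function.Injective t := by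
    intro a b h
    have : g (e a) = g (e b) := by rw [← ht a, ← ht b, h]
    exact e.injective (g.injective this)
  refine ⟨Equiv.ofBijective t (Finite.injective_iff_bijective.1 hinj), fun a => ?_⟩
  exact (ht a).symm

variable {d : ℕ}

/-- The central idempotents of the symmetric group of a subset commute with the action
of the permutations preserving the subset. -/
lemma lift_idem_rho_of_preserve {m : ℕ} (e : Fin m ↪ X) (F' : Family (Equiv.Perm (Fin m)))
    (j : Fin F'.r) (R : URep (Equiv.Perm X) d) (g : Equiv.Perm X)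
    (hg : ∀ a, g (e a) ∈ Set.range e) (u : Fin d → ℂ) :
    (R.comp (emb e)).lift (F'.idem j) *ᵥ (R.ρ g *ᵥ u) =
      R.ρ g *ᵥ ((R.comp (emb e)).lift (F'.idem j) *ᵥ u) := by
  classical
  obtain ⟨τ, hτ⟩ := exists_restrict e g hg
  set g_r : Equiv.Perm X := (emb e τ)⁻¹ * g with hr
  have hfix : ∀ a, g_r (e a) = e a := by
    intro a
    rw [hr, Equiv.Perm.mul_apply, hτ, Equiv.Perm.inv_eq_iff_eq, emb_apply]
  have hg' : g = emb e τ * g_r := by
    rw [hr]
    group
  have hdisj : ∀ h : Equiv.Perm (Fin m), Equiv.Perm.Disjoint (emb e h) g_r := by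
    intro h x
    by_cases hx : x ∈ Set.range e
    · right
      obtain ⟨a, rfl⟩ := hx
      exact hfix a
    · left
      exact emb_off e h hx
  have hcomm : R.ρ g_r * (R.comp (emb e)).lift (F'.idem j) =
      (R.comp (emb e)).lift (F'.idem j) * R.ρ g_r := by
    rw [URep.lift_eq_sum, Finset.mul_sum, Finset.sum_mul]
    refine Finset.sum_congr rfl fun h _ => ?_
    rw [Matrix.mul_smul, Matrix.smul_mul, URep.comp_rho, ← map_mul, ← map_mul, (hdisj h).commute.eq]
  have h1 : R.ρ (emb e τ) = (R.comp (emb e)).ρ τ := rfl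
  rw [hg', map_mul, ← Matrix.mulVec_mulVec, ← Matrix.mulVec_mulVec, h1, ← URep.rho_mul_lift_idem,
    Matrix.mulVec_mulVec _ (R.ρ g_r), hcomm, ← Matrix.mulVec_mulVec]

end Pattern

section Classes

variable {D : ℕ} {L C : Type*} [Fintype L] [DecidableEq L] [Fintype C] [DecidableEq C]
  (od : L → Bool) (cl : L → C) {d : ℕ} {R : URep (Equiv.Perm (B D)) d} {w₀ : B D → L} {v₀ : Fin d → ℂ}

/-- The graded action of the symmetric group of a set of positions. -/
noncomputable def UU {m : ℕ} (e : Fin m ↪ B D) :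
    Equiv.Perm (Fin m) →* Matrix (B D → L) (B D → L) ℂ :=
  (rhoSHom od D).comp (emb e)

lemma UU_apply {m : ℕ} (e : Fin m ↪ B D) (g : Equiv.Perm (Fin m)) :
    UU od e g = rhoS bval od (emb e g) := rfl

lemma UU_conj {m : ℕ} (e : Fin m ↪ B D) (g : Equiv.Perm (Fin m)) :
    (UU od e g)ᴴ = UU od e g⁻¹ := by
  rw [UU_apply, UU_apply, rhoS_conjTranspose od bval_injective, map_inv]

lemma UU_comm {m m' : ℕ} (e : Fin m ↪ B D) (e' : Fin m' ↪ B D) (hdis : ∀ a b, e a ≠ e' b)
    (g : Equiv.Perm (Fin m)) (g' : Equiv.Perm (Fin m')) :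
    UU od e g * UU od e' g' = UU od e' g' * UU od e g := by
  have hcomm : Equiv.Perm.Disjoint (emb e g) (emb e' g') := by
    intro x
    by_cases hx : x ∈ Set.range e
    · right
      apply emb_off
      rintro ⟨b, rfl⟩
      obtain ⟨a, ha⟩ := hx
      exact hdis a b ha
    · left
      exact emb_off e g hx
  rw [UU_apply, UU_apply, ← rhoS_mul od bval_injective, ← rhoS_mul od bval_injective,
    hcomm.commute.eq]

lemma liftW_UU_PhiS (hv : ∀ s : Equiv.Perm (B D), w₀ ∘ s = w₀ → R.ρ s *ᵥ v₀ = epsS bval od s w₀ • v₀)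
    {m : ℕ} (e : Fin m ↪ B D) (x : MonoidAlgebra ℂ (Equiv.Perm (Fin m))) (u : Fin d → ℂ) :
    liftW (UU od e) x *ᵥ PhiS od R w₀ v₀ u = PhiS od R w₀ v₀ ((R.comp (emb e)).lift x *ᵥ u) := by
  rw [liftW_eq_sum, URep.lift_eq_sum, Matrix.sum_mulVec, Matrix.sum_mulVec, map_sum]
  refine Finset.sum_congr rfl fun g _ => ?_
  rw [Matrix.smul_mulVec, Matrix.smul_mulVec, map_smul, URep.comp_rho, PhiS_rho od hv]
  rfl

/-- The idempotents are self-adjoint. -/
lemma lift_idem_conj {m : ℕ} (R' : URep (Equiv.Perm (Fin m)) d) (F' : Family (Equiv.Perm (Fin m)))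
    (j : Fin F'.r) : (R'.lift (F'.idem j))ᴴ = R'.lift (F'.idem j) := by
  rw [← URep.lift_cstar]
  congr 1
  apply F'.ext_lift
  intro k
  rw [URep.lift_cstar, F'.lift_idem]
  split_ifs <;> simp

variable {A : Matrix L L ℂ}

/-- The pattern of `w₀` is preserved by the symmetric groups of the classes. -/
lemma pattern_comp_emb {s : C} {m : ℕ} {e : Fin m ↪ B D}
    (hcl : ∀ x, cl (w₀ x) = s ↔ x ∈ Set.range e) (g : Equiv.Perm (Fin m)) :
    (cl ∘ w₀) ∘ ⇑(emb e g)⁻¹ = cl ∘ w₀ := by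
  funext x
  have h2 : ∀ y, (cl ∘ w₀) (emb e g y) = (cl ∘ w₀) y := by
    intro y
    by_cases hy : y ∈ Set.range e
    · obtain ⟨a, rfl⟩ := hy
      rw [emb_apply]
      simp only [Function.comp_apply]
      rw [(hcl _).2 ⟨_, rfl⟩, (hcl _).2 ⟨_, rfl⟩]
    · rw [emb_off e g hy]
  have := h2 ((emb e g)⁻¹ x)
  rw [Function.comp_apply]
  rw [← this]
  simp

lemma UU_mul_patP {s : C} {m : ℕ} {e : Fin m ↪ B D}
    (hcl : ∀ x, cl (w₀ x) = s ↔ x ∈ Set.range e) (g : Equiv.Perm (Fin m)) :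
    UU od e g * patP cl (cl ∘ w₀) = patP cl (cl ∘ w₀) * UU od e g := by
  rw [UU_apply, rhoS_mul_patP, pattern_comp_emb cl hcl]

/-- The isotypy of the part of `Φ u` on the pattern of `w₀`. -/
lemma liftW_patP_PhiS (hv : ∀ s : Equiv.Perm (B D), w₀ ∘ s = w₀ → R.ρ s *ᵥ v₀ = epsS bval od s w₀ • v₀)
    {s : C} {m : ℕ} {e : Fin m ↪ B D} (hcl : ∀ x, cl (w₀ x) = s ↔ x ∈ Set.range e)
    (F' : Family (Equiv.Perm (Fin m))) (j : Fin F'.r)
    (hiso : (R.comp (emb e)).lift (F'.idem j) *ᵥ v₀ = v₀) (u : Fin d → ℂ) :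
    liftW (UU od e) (F'.idem j) *ᵥ (patP cl (cl ∘ w₀) *ᵥ PhiS od R w₀ v₀ u) =
      patP cl (cl ∘ w₀) *ᵥ PhiS od R w₀ v₀ u := by
  classical
  have hc : liftW (UU od e) (F'.idem j) * patP cl (cl ∘ w₀) =
      patP cl (cl ∘ w₀) * liftW (UU od e) (F'.idem j) :=
    (liftW_commute (UU od e) (B := patP cl (cl ∘ w₀))
      (fun g => (UU_mul_patP od cl hcl g).symm) _).symm
  rw [Matrix.mulVec_mulVec, hc, ← Matrix.mulVec_mulVec, liftW_UU_PhiS od hv]
  funext w
  rw [patP_mulVec_apply, patP_mulVec_apply]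
  split_ifs with h
  · by_cases hw : ∃ g : Equiv.Perm (B D), w₀ ∘ ⇑g⁻¹ = w
    · obtain ⟨g, rfl⟩ := hw
      rw [PhiS_orbit od hv, PhiS_orbit od hv]
      set Lf := (R.comp (emb e)).lift (F'.idem j) with hLf
      have hg : ∀ a, g (e a) ∈ Set.range e := by
        intro a
        rw [← hcl]
        have h2 := congrFun h (g (e a))
        simp only [Function.comp_apply] at h2
        rw [show g⁻¹ (g (e a)) = e a by simp] at h2
        rw [← h2]
        exact (hcl _).2 ⟨a, rfl⟩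
      have hvec : Lf *ᵥ vecS od R w₀ v₀ g = vecS od R w₀ v₀ g := by
        unfold vecS
        rw [Matrix.mulVec_smul, hLf, lift_idem_rho_of_preserve e F' j R g hg, hiso]
      have hconj : Lfᴴ = Lf := lift_idem_conj _ F' j
      conv_rhs => rw [← hvec]
      rw [star_mulVec_dot, hconj]
    · rw [PhiS_off od _ hw, PhiS_off od _ hw]
  · rfl

/-- **The bound on one pattern.** -/
theorem form_pattern_le (hAe : EvenM od A)
    (hv : ∀ s : Equiv.Perm (B D), w₀ ∘ s = w₀ → R.ρ s *ᵥ v₀ = epsS bval od s w₀ • v₀)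
    {ι : Type*} [DecidableEq ι] (S : Finset ι) (c₀ : ι → C) (hc₀ : Function.Injective c₀)
    (m : ι → ℕ) (e : ∀ s, Fin (m s) ↪ B D)
    (Fs : ∀ s, Family (Equiv.Perm (Fin (m s)))) (j : ∀ s, Fin (Fs s).r)
    (hcl : ∀ s ∈ S, ∀ x, cl (w₀ x) = c₀ s ↔ x ∈ Set.range (e s))
    (hiso : ∀ s ∈ S, (R.comp (emb (e s))).lift ((Fs s).idem (j s)) *ᵥ v₀ = v₀) (u : Fin d → ℂ) :
    ‖star (patP cl (cl ∘ w₀) *ᵥ PhiS od R w₀ v₀ u) ⬝ᵥ
        (tp (fun _ => A) *ᵥ (patP cl (cl ∘ w₀) *ᵥ PhiS od R w₀ v₀ u))‖ ≤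
      Real.sqrt ((∏ x, trC cl A (cl (w₀ x))) / ∏ s ∈ S, ((Fs s).d (j s) : ℝ)) *
        nsq (patP cl (cl ∘ w₀) *ᵥ PhiS od R w₀ v₀ u) := by
  classical
  set f₀ := patP cl (cl ∘ w₀) *ᵥ PhiS od R w₀ v₀ u with hf₀
  have hdis : ∀ s ∈ S, ∀ s' ∈ S, s ≠ s' → ∀ a b, e s a ≠ e s' b := by
    intro s hs s' hs' hne a b h
    apply hne
    apply hc₀
    rw [← (hcl s hs (e s a)).2 ⟨a, rfl⟩, h]
    exact (hcl s' hs' (e s' b)).2 ⟨b, rfl⟩
  obtain ⟨K, iF, iD, M, hcard, hB, hf⟩ := exists_product_system S (fun s => UU od (e s))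
    (fun s g => UU_conj od (e s) g)
    (fun s hs s' hs' hne g g' => UU_comm od (e s) (e s') (hdis s hs s' hs' hne) g g') Fs j
  have hP : patP cl (cl ∘ w₀) *ᵥ f₀ = f₀ := by
    rw [hf₀, Matrix.mulVec_mulVec, patP_idem]
  set BB := tp (fun _ : B D => A) * patP cl (cl ∘ w₀) with hBB
  have h1 := M.form_le BB
    (hB BB (fun s hs g => by
      calc BB * UU od (e s) g = tp (fun _ => A) * (patP cl (cl ∘ w₀) * UU od (e s) g) := by
            rw [hBB, Matrix.mul_assoc]
        _ = (tp (fun _ => A) * UU od (e s) g) * patP cl (cl ∘ w₀) := by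
            rw [← UU_mul_patP od cl (hcl s hs) g, Matrix.mul_assoc]
        _ = (UU od (e s) g * tp (fun _ => A)) * patP cl (cl ∘ w₀) := by
            rw [UU_apply, rhoS_mul_tp_const _ hAe]
        _ = _ := by rw [hBB, Matrix.mul_assoc]))
    f₀ (hf f₀ (fun s hs => liftW_patP_PhiS od cl hv (hcl s hs) (Fs s) (j s) (hiso s hs) u))
  have h2 : BB *ᵥ f₀ = tp (fun _ => A) *ᵥ f₀ := by
    rw [hBB, ← Matrix.mulVec_mulVec, hP]
  rw [h2, hBB, hsq_tp_mul_patP, hcard] at h1
  simp only [Function.comp_apply] at h1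
  push_cast at h1
  exact h1

/-- **The gain**: the bound on the image of the Frobenius map. -/
theorem form_tp_le (hAe : EvenM od A) (hAb : BlockD cl A)
    (hv : ∀ s : Equiv.Perm (B D), w₀ ∘ s = w₀ → R.ρ s *ᵥ v₀ = epsS bval od s w₀ • v₀)
    {ι : Type*} [DecidableEq ι] (S : Finset ι) (c₀ : ι → C) (hc₀ : Function.Injective c₀)
    (m : ι → ℕ) (e : ∀ s, Fin (m s) ↪ B D)
    (Fs : ∀ s, Family (Equiv.Perm (Fin (m s)))) (j : ∀ s, Fin (Fs s).r)
    (hcl : ∀ s ∈ S, ∀ x, cl (w₀ x) = c₀ s ↔ x ∈ Set.range (e s))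
    (hiso : ∀ s ∈ S, (R.comp (emb (e s))).lift ((Fs s).idem (j s)) *ᵥ v₀ = v₀) (u : Fin d → ℂ) :
    ‖star (PhiS od R w₀ v₀ u) ⬝ᵥ (tp (fun _ => A) *ᵥ PhiS od R w₀ v₀ u)‖ ≤
      Real.sqrt ((∏ x, trC cl A (cl (w₀ x))) / ∏ s ∈ S, ((Fs s).d (j s) : ℝ)) *
        nsq (PhiS od R w₀ v₀ u) := by
  classical
  set c := Real.sqrt ((∏ x, trC cl A (cl (w₀ x))) / ∏ s ∈ S, ((Fs s).d (j s) : ℝ)) with hc
  have hc0 : 0 ≤ c := Real.sqrt_nonneg _
  set f := PhiS od R w₀ v₀ u with hf
  have hdec := form_sum_proj (patP (X := B D) cl) (patP_conj cl)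
    (fun k k' h => patP_mul_ne cl h) (sum_patP cl) (patP_idem cl) (tp (fun _ => A))
    (fun P => tp_mul_patP_comm hAb P) f
  have hnsq := nsq_sum_proj (patP (X := B D) cl) (patP_conj cl)
    (fun k k' h => patP_mul_ne cl h) (sum_patP cl) (patP_idem cl) f
  rw [hdec, hnsq, Finset.mul_sum]
  refine (norm_sum_le _ _).trans (Finset.sum_le_sum fun P _ => ?_)
  by_cases hP : ∃ g : Equiv.Perm (B D), (cl ∘ w₀) ∘ ⇑g⁻¹ = P
  · obtain ⟨g, rfl⟩ := hP
    set x := patP cl ((cl ∘ w₀) ∘ ⇑g⁻¹) *ᵥ f with hx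
    set ρ := rhoS bval od g⁻¹ with hρ
    have hρconj : ρᴴ = rhoS bval od g := by
      rw [hρ, rhoS_conjTranspose od bval_injective, inv_inv]
    have hρρ : rhoS bval od g * ρ = 1 := by
      rw [hρ, rhoS_mul_inv od bval_injective]
    -- the translate
    have hy : ρ *ᵥ x = patP cl (cl ∘ w₀) *ᵥ PhiS od R w₀ v₀ (R.ρ g⁻¹ *ᵥ u) := by
      rw [PhiS_rho od hv, ← hf, hx, Matrix.mulVec_mulVec, hρ, rhoS_mul_patP,
        ← Matrix.mulVec_mulVec]
      congr 2
      funext y
      simp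
    have hform : ∀ y : (B D → L) → ℂ, star y ⬝ᵥ (tp (fun _ => A) *ᵥ y) =
        star (ρ *ᵥ y) ⬝ᵥ (tp (fun _ => A) *ᵥ (ρ *ᵥ y)) := by
      intro y
      rw [star_mulVec_dot ρ y, hρconj, Matrix.mulVec_mulVec (ρ *ᵥ y) , Matrix.mulVec_mulVec y,
        rhoS_mul_tp_const _ hAe, Matrix.mul_assoc, hρρ, Matrix.mul_one]
    have hnorm : ∀ y : (B D → L) → ℂ, nsq y = nsq (ρ *ᵥ y) := by
      intro y
      have h1 : star (ρ *ᵥ y) ⬝ᵥ (ρ *ᵥ y) = star y ⬝ᵥ y := by
        rw [star_mulVec_dot ρ y, hρconj, Matrix.mulVec_mulVec, hρρ, Matrix.one_mulVec]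
      rw [dot_star_self, dot_star_self] at h1
      exact Complex.ofReal_injective h1.symm
    rw [hform x, hnorm x, hy]
    exact form_pattern_le od cl hAe hv S c₀ hc₀ m e Fs j hcl hiso _
  · have hzero : patP cl P *ᵥ f = 0 := by
      funext w
      rw [patP_mulVec_apply]
      split_ifs with h
      · have : ¬ ∃ g : Equiv.Perm (B D), w₀ ∘ ⇑g⁻¹ = w := by
          rintro ⟨g, rfl⟩
          exact hP ⟨g, h⟩
        exact PhiS_off od u this
      · rfl
    rw [hzero]
    simp [nsq]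

end Classes

section Mix

variable {D : ℕ} {L C : Type*} [Fintype L] [DecidableEq L] [Fintype C] [DecidableEq C]
  (od : L → Bool) (cl : L → C) {d : ℕ} {R : URep (Equiv.Perm (B D)) d} {w₀ : B D → L} {v₀ : Fin d → ℂ}

/-- **The gain for a mixture** of operators with traces on the classes at most `1`. -/
theorem form_mix_le {I : Type*} [Fintype I] (w : I → ℝ) (hw : ∀ i, 0 ≤ w i) (a : I → Matrix L L ℂ)
    (hae : ∀ i, EvenM od (a i)) (hab : ∀ i, BlockD cl (a i))
    (htr : ∀ i x, trC cl (a i) (cl (w₀ x)) ≤ 1)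
    (hv : ∀ s : Equiv.Perm (B D), w₀ ∘ s = w₀ → R.ρ s *ᵥ v₀ = epsS bval od s w₀ • v₀)
    {ι : Type*} [DecidableEq ι] (S : Finset ι) (c₀ : ι → C) (hc₀ : Function.Injective c₀)
    (m : ι → ℕ) (e : ∀ s, Fin (m s) ↪ B D)
    (Fs : ∀ s, Family (Equiv.Perm (Fin (m s)))) (j : ∀ s, Fin (Fs s).r)
    (hcl : ∀ s ∈ S, ∀ x, cl (w₀ x) = c₀ s ↔ x ∈ Set.range (e s))
    (hiso : ∀ s ∈ S, (R.comp (emb (e s))).lift ((Fs s).idem (j s)) *ᵥ v₀ = v₀) (u : Fin d → ℂ) :
    (star (PhiS od R w₀ v₀ u) ⬝ᵥ (mixY (B D) w a *ᵥ PhiS od R w₀ v₀ u)).re ≤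
      (∑ i, w i) * Real.sqrt (1 / ∏ s ∈ S, ((Fs s).d (j s) : ℝ)) * nsq (PhiS od R w₀ v₀ u) := by
  classical
  set f := PhiS od R w₀ v₀ u with hf
  set c := Real.sqrt (1 / ∏ s ∈ S, ((Fs s).d (j s) : ℝ)) with hc
  have hd0 : ∀ s, (0 : ℝ) < (Fs s).d (j s) := fun s => by exact_mod_cast (Fs s).dpos _
  have h1 : ∀ i, ‖star f ⬝ᵥ (tp (fun _ => a i) *ᵥ f)‖ ≤ c * nsq f := by
    intro i
    refine (form_tp_le od cl (hae i) (hab i) hv S c₀ hc₀ m e Fs j hcl hiso u).trans ?_
    refine mul_le_mul_of_nonneg_right (Real.sqrt_le_sqrt ?_) (nsq_nonneg _)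
    refine div_le_div_of_nonneg_right ?_ (Finset.prod_nonneg fun s _ => (hd0 s).le)
    exact Finset.prod_le_one (fun x _ => trC_nonneg _ _ _) (fun x _ => htr i x)
  have h2 : star f ⬝ᵥ (mixY (B D) w a *ᵥ f) = ∑ i, (w i : ℂ) * (star f ⬝ᵥ (tp (fun _ => a i) *ᵥ f)) := by
    unfold mixY
    rw [Matrix.sum_mulVec, dotProduct_sum]
    refine Finset.sum_congr rfl fun i _ => ?_
    rw [Matrix.smul_mulVec, dotProduct_smul, smul_eq_mul]
  rw [h2, Complex.re_sum, Finset.sum_mul, Finset.sum_mul]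
  refine Finset.sum_le_sum fun i _ => ?_
  rw [Complex.re_ofReal_mul, mul_assoc]
  refine mul_le_mul_of_nonneg_left ?_ (hw i)
  exact (Complex.re_le_norm _).trans (h1 i)

end Mix

section Invariants

variable {L C : Type*} [Fintype L] [DecidableEq L] [DecidableEq C]

lemma blockD_iff (cl : L → C) (A : Matrix L L ℂ) :
    BlockD cl A ↔ ∀ s, Commute A (dp (fun l => cl l = s)) := by
  classical
  constructor
  · intro h s
    ext l l'
    show (A * dp (fun l => cl l = s)) l l' = (dp (fun l => cl l = s) * A) l l'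
    rw [mul_dp_apply, dp_mul_apply]
    by_cases h0 : A l l' = 0
    · rw [h0]
      simp
    · rw [h l l' h0]
  · intro h l l' h0
    have h1 : (A * dp (fun l => cl l = cl l')) l l' = (dp (fun l => cl l = cl l') * A) l l' :=
      congrFun (congrFun (h (cl l')) l) l'
    rw [mul_dp_apply, dp_mul_apply, if_pos rfl] at h1
    by_contra hne
    rw [if_neg hne] at h1
    exact h0 h1

/-- The block structure is preserved by the square root of the mean of squares. -/
lemma BlockD.dbl {cl : L → C} {A A' : Matrix L L ℂ} (h : BlockD cl A) (h' : BlockD cl A') :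
    BlockD cl (CFC.sqrt ((1 / 2 : ℂ) • (A * A + A' * A'))) := by
  rw [blockD_iff] at h h' ⊢
  intro s
  apply sqrt_commute
  exact (((h s).mul_left (h s)).add_left ((h' s).mul_left (h' s))).smul_left _

variable [Fintype C]

lemma trC_eq_re (cl : L → C) (A : Matrix L L ℂ) (s : C) :
    trC cl A s = ∑ l', if cl l' = s then ((Aᴴ * A) l' l').re else 0 := by
  unfold trC
  refine Finset.sum_congr rfl fun l' _ => ?_
  split_ifs
  · rw [Matrix.mul_apply, Complex.re_sum]
    refine Finset.sum_congr rfl fun l _ => ?_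
    rw [Matrix.conjTranspose_apply]
    have : star (A l l') * A l l' = ((‖A l l'‖ ^ 2 : ℝ) : ℂ) := by
      rw [Complex.star_def, Complex.conj_mul']
      push_cast
      rfl
    rw [this, Complex.ofReal_re]
  · rfl

/-- The traces of the blocks of the square root of the mean of squares are the means. -/
lemma trC_dbl (cl : L → C) {A A' : Matrix L L ℂ} (hA : A.PosDef) (hA' : A'.PosDef) (s : C) :
    trC cl (CFC.sqrt ((1 / 2 : ℂ) • (A * A + A' * A'))) s = (1 / 2) * (trC cl A s + trC cl A' s) := by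
  have hM := mean_sq_posDef hA hA'
  have hC := sqrt_posDef hM
  rw [trC_eq_re, trC_eq_re, trC_eq_re, hC.isHermitian.eq, sqrt_mul_self' hM, hA.isHermitian.eq,
    hA'.isHermitian.eq, ← Finset.sum_add_distrib, Finset.mul_sum]
  refine Finset.sum_congr rfl fun l' _ => ?_
  split_ifs
  · simp only [Matrix.smul_apply, Matrix.add_apply, smul_eq_mul, Complex.mul_re, Complex.add_re]
    norm_num
  · simp

variable {Tok : Type*} [Fintype Tok] [DecidableEq Tok]

/-- The classes on tokens and colours: tokens are alone. -/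
def clE (cl : L → C) : Tok ⊕ L → Tok ⊕ C := Sum.elim Sum.inl (Sum.inr ∘ cl)

lemma blockD_extC {cl : L → C} {A : Matrix L L ℂ} (h : BlockD cl A) :
    BlockD (clE (Tok := Tok) cl) (JCore.extC A) := by
  rintro (a | c) (b | d) hne
  · have : a = b := by
      by_contra hab
      apply hne
      simp [JCore.extC, Matrix.one_apply, hab]
    rw [this]
  · exfalso
    apply hne
    simp [JCore.extC]
  · exfalso
    apply hne
    simp [JCore.extC]
  · have := h c d (by simpa [JCore.extC] using hne)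
    simp [clE, this]

lemma trC_extC_inr (cl : L → C) (A : Matrix L L ℂ) (s : C) :
    trC (clE (Tok := Tok) cl) (JCore.extC A) (Sum.inr s) = trC cl A s := by
  unfold trC
  rw [Fintype.sum_sum_type]
  simp only [clE, Sum.elim_inl, Sum.elim_inr, Function.comp_apply, reduceCtorEq, if_false,
    Finset.sum_const_zero, zero_add, Sum.inr.injEq]
  refine Finset.sum_congr rfl fun l' _ => ?_
  split_ifs
  · rw [Fintype.sum_sum_type]
    simp [JCore.extC]
  · rfl

lemma trC_extC_inl (cl : L → C) (A : Matrix L L ℂ) (t : Tok) :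
    trC (clE (Tok := Tok) cl) (JCore.extC A) (Sum.inl t) = 1 := by
  classical
  unfold trC
  rw [Fintype.sum_sum_type]
  simp only [clE, Sum.elim_inl, Sum.elim_inr, Function.comp_apply, reduceCtorEq, if_false,
    Finset.sum_const_zero, add_zero, Sum.inl.injEq]
  rw [Finset.sum_ite_eq' univ t]
  rw [if_pos (Finset.mem_univ t), Fintype.sum_sum_type]
  simp only [JCore.extC, Matrix.fromBlocks_apply₁₁, Matrix.fromBlocks_apply₂₁, Matrix.zero_apply,
    norm_zero]
  rw [Finset.sum_eq_single t]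
  · simp
  · intro b _ hb
    simp [Matrix.one_apply, hb]
  · simp

end Invariants

section FamTop

variable {D : ℕ} {Tok Col C : Type*} [Fintype Tok] [DecidableEq Tok] [Fintype Col] [DecidableEq Col]
  [Fintype C] [DecidableEq C] {od : Tok ⊕ Col → Bool}
  {d : ℕ} {R : URep (Equiv.Perm (B D)) d} {w₀ : B D → Tok ⊕ Col} {v₀ : Fin d → ℂ}

/-- **The input `y` of the top of Theorem J** for a mixture family with block-diagonal operators with
traces at most `1` on the blocks. -/
theorem form_FamY_le (F : Fam od) (cl : Col → C) (hb : ∀ i, BlockD cl (F.A i))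
    (htr : ∀ i s, trC cl (F.A i) s ≤ 1)
    (hv : ∀ s : Equiv.Perm (B D), w₀ ∘ s = w₀ → R.ρ s *ᵥ v₀ = epsS bval od s w₀ • v₀)
    {ι : Type*} [DecidableEq ι] (S : Finset ι) (c₀ : ι → C) (hc₀ : Function.Injective c₀)
    (m : ι → ℕ) (e : ∀ s, Fin (m s) ↪ B D)
    (Fs : ∀ s, Family (Equiv.Perm (Fin (m s)))) (j : ∀ s, Fin (Fs s).r)
    (hcl : ∀ s ∈ S, ∀ x, clE cl (w₀ x) = Sum.inr (c₀ s) ↔ x ∈ Set.range (e s))
    (hiso : ∀ s ∈ S, (R.comp (emb (e s))).lift ((Fs s).idem (j s)) *ᵥ v₀ = v₀) (u : Fin d → ℂ) :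
    (star (PhiS od R w₀ v₀ u) ⬝ᵥ (F.Y D *ᵥ PhiS od R w₀ v₀ u)).re ≤
      (∑ i, F.w i) * Real.sqrt (1 / ∏ s ∈ S, ((Fs s).d (j s) : ℝ)) * nsq (PhiS od R w₀ v₀ u) := by
  refine form_mix_le od (clE cl) F.w (fun i => (F.w_pos i).le) (fun i => JCore.extC (F.A i))
    (fun i => evenM_extC (F.A_even i)) (fun i => blockD_extC (hb i)) ?_ hv S
    (fun s => Sum.inr (c₀ s)) (fun a b h => hc₀ (Sum.inr.inj h)) m e Fs j hcl hiso u
  intro i x
  rcases h : clE (Tok := Tok) cl (w₀ x) with t | s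
  · rw [trC_extC_inl]
  · rw [trC_extC_inr]
    exact htr i s

/-- The invariants of a family under doubling. -/
lemma Fam.blockD_dbl (F : Fam od) {cl : Col → C} (hb : ∀ i, BlockD cl (F.A i)) (i : F.dbl.I) :
    BlockD cl (F.dbl.A i) :=
  BlockD.dbl (hb i.1) (hb i.2)

lemma Fam.trC_dbl_le (F : Fam od) (cl : Col → C) (htr : ∀ i s, trC cl (F.A i) s ≤ 1) (i : F.dbl.I)
    (s : C) : trC cl (F.dbl.A i) s ≤ 1 := by
  have h1 : trC cl (F.dbl.A i) s = (1 / 2) * (trC cl (F.A i.1) s + trC cl (F.A i.2) s) :=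
    trC_dbl cl (F.A_pd _) (F.A_pd _) s
  have h2 := htr i.1 s
  have h3 := htr i.2 s
  rw [h1]
  linarith

end FamTop

end Crest.Agent.S0222Lib.Gain
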