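import Crest.Agent.S0222Lib.JBase
import Crest.Agent.S0222Lib.JGain

/-!
# S0222: Theorem J, the concrete alphabet and the chain

`S` classes, `Ts s` colours of class `s`, parity `o s`; tokens `S × Fin M`, colours `Unit ⊕ Σ s, Fin (Ts s)`.

* `InvS`: the invariants of the families;
* `convHyp_act`: the hypothesis `JFin.ConvHyp` of the chain for `Fam.act`;
* `J_chain`: from families `G s` of operators on the colours of each class with the bound `(H1)`, the
  family at the top and the bound of `MM`.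
-/

set_option autoImplicit false
set_option linter.unusedSectionVars false
set_option linter.unusedSimpArgs false

namespace Crest.Agent.S0222Lib.SWord

open Matrix MonoidAlgebra
open scoped ComplexOrder Kronecker
open Crest.Agent.S0222Lib.Planch Crest.Agent.S0222Lib.WordRep Crest.Agent.S0222Lib.JCore
open Crest.Agent.S0222Lib.Site Crest.Agent.S0222Lib.JFin Crest.Agent.S0222Lib.Gain

section Concrete

variable {S : Type} [Fintype S] [DecidableEq S] (Ts : S → ℕ) (o : S → Bool) (M : ℕ)

/-- The tokens. -/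
abbrev TokS (S : Type) (M : ℕ) : Type := S × Fin M

/-- The colours. -/
abbrev ColS (Ts : S → ℕ) : Type := Unit ⊕ Σ s, Fin (Ts s)

/-- The parity of a letter. -/
def odS : TokS S M ⊕ ColS Ts → Bool
  | Sum.inl t => o t.1
  | Sum.inr (Sum.inl _) => false
  | Sum.inr (Sum.inr c) => o c.1

/-- The content of a letter. -/
noncomputable def ctS : TokS S M ⊕ ColS Ts → (S → ℕ)
  | Sum.inl _ => 0
  | Sum.inr (Sum.inl _) => 0
  | Sum.inr (Sum.inr c) => Pi.single c.1 1

/-- The class of a colour. -/
def clS : ColS Ts → Option S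
  | Sum.inl _ => none
  | Sum.inr c => some c.1

/-- The colours of a class. -/
def kapS (s : S) : Fin (Ts s) → ColS Ts := fun d => Sum.inr ⟨s, d⟩

lemma kapS_injective (s : S) : Function.Injective (kapS Ts s) := by
  intro a b h
  simpa [kapS] using h

lemma clS_eq_some {c : ColS Ts} {s : S} (h : clS Ts c = some s) : ∃ d, kapS Ts s d = c := by
  rcases c with u | ⟨s', d⟩
  · simp [clS] at h
  · simp only [clS, Option.some.injEq] at h
    subst h
    exact ⟨d, rfl⟩

variable {Ts o M}

/-- The invariants of a family. -/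
structure InvS (Act : Finset S) (F : Fam (odS Ts o M)) : Prop where
  sum_w : ∑ i, F.w i = 1
  block : ∀ i, BlockD (clS Ts) (F.A i)
  tr_none : ∀ i, trC (clS Ts) (F.A i) none ≤ 1
  tr_act : ∀ i, ∀ s ∈ Act, trC (clS Ts) (F.A i) (some s) ≤ 1

lemma InvS.dbl {Act : Finset S} {F : Fam (odS Ts o M)} (h : InvS Act F) : InvS Act F.dbl where
  sum_w := by
    change ∑ i : F.I × F.I, F.w i.1 * F.w i.2 = 1
    rw [Fintype.sum_prod_type, ← Finset.sum_mul_sum, h.sum_w]
    simp
  block := Gain.Fam.blockD_dbl F h.block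
  tr_none := fun i => by
    have h1 : trC (clS Ts) (F.dbl.A i) none =
        (1 / 2) * (trC (clS Ts) (F.A i.1) none + trC (clS Ts) (F.A i.2) none) :=
      trC_dbl _ (F.A_pd _) (F.A_pd _) _
    have h2 := h.tr_none i.1
    have h3 := h.tr_none i.2
    rw [h1]
    linarith
  tr_act := fun i s hs => by
    have h1 : trC (clS Ts) (F.dbl.A i) (some s) =
        (1 / 2) * (trC (clS Ts) (F.A i.1) (some s) + trC (clS Ts) (F.A i.2) (some s)) :=
      trC_dbl _ (F.A_pd _) (F.A_pd _) _
    have h2 := h.tr_act i.1 s hs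
    have h3 := h.tr_act i.2 s hs
    rw [h1]
    linarith

lemma InvS.triv : InvS ∅ (Fam.triv (odS Ts o M)) where
  sum_w := by
    change ∑ _i : Unit, (1 : ℝ) = 1
    simp
  block := fun _ l l' h => by
    have : l = l' := by
      by_contra hne
      exact h (by
        change (1 : Matrix (ColS Ts) (ColS Ts) ℂ) l l' = 0
        simp [Matrix.one_apply, hne])
    rw [this]
  tr_none := fun _ => by
    classical
    change trC (clS Ts) (1 : Matrix (ColS Ts) (ColS Ts) ℂ) none ≤ 1
    unfold trC
    rw [Finset.sum_eq_single (Sum.inl ())]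
    · have e1 : clS Ts (Sum.inl ()) = none := rfl
      rw [if_pos e1, Finset.sum_eq_single (Sum.inl ())]
      · simp
      · intro b _ hb
        simp [Matrix.one_apply, hb]
      · simp
    · rintro (u | c) _ hb
      · exact absurd rfl hb
      · simp [clS]
    · simp
  tr_act := fun _ s hs => by simp at hs

/-- The sum over colours along a class. -/
lemma sum_col_split {κ' : S} {N : Type*} [AddCommMonoid N] (f : ColS Ts → N) :
    ∑ c, f c = ∑ x : ColR (kapS Ts κ'), f x.1 + ∑ d, f (kapS Ts κ' d) := by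
  rw [← Equiv.sum_comp (colE (kapS Ts κ') (kapS_injective Ts κ')), Fintype.sum_sum_type]
  rfl

variable {s : S}

/-- The activation of a class keeps the invariants. -/
theorem InvS.act {Act : Finset S} {F : Fam (odS Ts o M)} (h : InvS Act F)
    (hodκ : ∀ d d', odS Ts o M (Sum.inr (kapS Ts s d)) = odS Ts o M (Sum.inr (kapS Ts s d')))
    (G : CFam (Fin (Ts s))) (hGw : ∑ j, G.w j = 1)
    (hGt : ∀ j, ∑ d', ∑ d, ‖G.E j d d'‖ ^ 2 ≤ 1) :
    InvS (insert s Act) (F.act (kapS Ts s) (kapS_injective Ts s) hodκ G) := by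
  classical
  -- entries
  set e := colE (kapS Ts s) (kapS_injective Ts s) with he
  have hfs : ∀ (q : F.I × G.J) (x : ColR (kapS Ts s)) (d : Fin (Ts s)),
      (F.act (kapS Ts s) (kapS_injective Ts s) hodκ G).A q x.1 (kapS Ts s d) = 0 := by
    intro q x d
    have := repC_apply (kapS Ts s) (kapS_injective Ts s) (F.A q.1) (G.E q.2) (Sum.inl x) (Sum.inr d)
    simp at this
    exact this
  have hsf : ∀ (q : F.I × G.J) (x : ColR (kapS Ts s)) (d : Fin (Ts s)),
      (F.act (kapS Ts s) (kapS_injective Ts s) hodκ G).A q (kapS Ts s d) x.1 = 0 := by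
    intro q x d
    have := repC_apply (kapS Ts s) (kapS_injective Ts s) (F.A q.1) (G.E q.2) (Sum.inr d) (Sum.inl x)
    simp at this
    exact this
  have hff : ∀ (q : F.I × G.J) (x y : ColR (kapS Ts s)),
      (F.act (kapS Ts s) (kapS_injective Ts s) hodκ G).A q x.1 y.1 = F.A q.1 x.1 y.1 := by
    intro q x y
    have := repC_apply (kapS Ts s) (kapS_injective Ts s) (F.A q.1) (G.E q.2) (Sum.inl x) (Sum.inl y)
    simp [resC] at this
    exact this
  have hss : ∀ (q : F.I × G.J) (d d' : Fin (Ts s)),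
      (F.act (kapS Ts s) (kapS_injective Ts s) hodκ G).A q (kapS Ts s d) (kapS Ts s d') =
        G.E q.2 d d' := by
    intro q d d'
    have := repC_apply (kapS Ts s) (kapS_injective Ts s) (F.A q.1) (G.E q.2) (Sum.inr d) (Sum.inr d')
    simp at this
    exact this
  have hF0 : ∀ (i : F.I) (d : Fin (Ts s)) (x : ColR (kapS Ts s)), F.A i (kapS Ts s d) x.1 = 0 := by
    intro i d x
    by_contra hne
    have h1 := h.block i _ _ hne
    have h2 : clS Ts x.1 = some s := by
      rw [← h1]
      rfl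
    exact x.2 (clS_eq_some Ts h2)
  have hcl : ∀ x : ColR (kapS Ts s), clS Ts x.1 ≠ some s := fun x h2 => x.2 (clS_eq_some Ts h2)
  -- the traces
  have htr : ∀ (q : F.I × G.J) (c : Option S), c ≠ some s →
      trC (clS Ts) ((F.act (kapS Ts s) (kapS_injective Ts s) hodκ G).A q) c =
        trC (clS Ts) (F.A q.1) c := by
    intro q c hc
    unfold trC
    rw [sum_col_split (κ' := s), sum_col_split (κ' := s)]
    have h0 : ∀ (A : Matrix (ColS Ts) (ColS Ts) ℂ),
        ∑ d, (if clS Ts (kapS Ts s d) = c then ∑ l, ‖A l (kapS Ts s d)‖ ^ 2 else 0) = 0 := by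
      intro A
      refine Finset.sum_eq_zero fun d _ => ?_
      rw [if_neg]
      intro h1
      exact hc h1.symm
    rw [h0, h0]
    refine congrArg (· + (0 : ℝ)) (Finset.sum_congr rfl fun x _ => ?_)
    by_cases h1 : clS Ts x.1 = c
    · rw [if_pos h1, if_pos h1, sum_col_split (κ' := s), sum_col_split (κ' := s)]
      congr 1
      · refine Finset.sum_congr rfl fun y _ => ?_
        exact congrArg (fun z : ℂ => ‖z‖ ^ 2) (hff q y x)
      · refine Finset.sum_congr rfl fun d _ => ?_
        exact congrArg (fun z : ℂ => ‖z‖ ^ 2) ((hsf q x d).trans (hF0 q.1 d x).symm)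
    · rw [if_neg h1, if_neg h1]
  have htrs : ∀ q : F.I × G.J,
      trC (clS Ts) ((F.act (kapS Ts s) (kapS_injective Ts s) hodκ G).A q) (some s) ≤ 1 := by
    intro q
    unfold trC
    rw [sum_col_split (κ' := s)]
    have h1 : ∑ x : ColR (kapS Ts s),
        (if clS Ts x.1 = some s then ∑ l,
          ‖(F.act (kapS Ts s) (kapS_injective Ts s) hodκ G).A q l x.1‖ ^ 2 else 0) = 0 := by
      refine Finset.sum_eq_zero fun x _ => ?_
      rw [if_neg (hcl x)]
    rw [h1, zero_add]
    refine le_trans (le_of_eq ?_) (hGt q.2)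
    refine Finset.sum_congr rfl fun d' _ => ?_
    have e1 : clS Ts (kapS Ts s d') = some s := rfl
    rw [if_pos e1, sum_col_split (κ' := s)]
    have h2 : ∑ x : ColR (kapS Ts s),
        ‖(F.act (kapS Ts s) (kapS_injective Ts s) hodκ G).A q x.1 (kapS Ts s d')‖ ^ 2 = 0 := by
      refine Finset.sum_eq_zero fun x _ => ?_
      have h3 := hfs q x d'
      have h4 : ‖(F.act (kapS Ts s) (kapS_injective Ts s) hodκ G).A q x.1 (kapS Ts s d')‖ = 0 := by
        exact (congrArg norm h3).trans norm_zero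
      rw [h4]
      simp
    rw [h2, zero_add]
    refine Finset.sum_congr rfl fun d _ => ?_
    exact congrArg (fun z : ℂ => ‖z‖ ^ 2) (hss q d d')
  refine ⟨?_, ?_, ?_, ?_⟩
  · change ∑ q : F.I × G.J, F.w q.1 * G.w q.2 = 1
    rw [Fintype.sum_prod_type, ← Finset.sum_mul_sum, h.sum_w, hGw]
    simp
  · intro q c c' hne
    obtain ⟨x, rfl⟩ := e.surjective c
    obtain ⟨y, rfl⟩ := e.surjective c'
    rcases x with x | d <;> rcases y with y | d'
    · have h1 := h.block q.1 x.1 y.1 (by
        intro h0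
        apply hne
        refine (hff q x y).trans ?_
        exact h0)
      exact h1
    · exact absurd (hfs q x d') hne
    · exact absurd (hsf q y d) hne
    · rfl
  · intro q
    rw [htr q none (by simp)]
    exact h.tr_none q.1
  · intro q s' hs'
    by_cases e' : s' = s
    · subst e'
      exact htrs q
    · rw [htr q (some s') (by simpa using e')]
      exact h.tr_act q.1 s' (Finset.mem_of_mem_insert_of_ne hs' e')

/-- The hypothesis of the conversion for `Fam.act`. -/
theorem convHyp_act {Act : Finset S} {F : Fam (odS Ts o M)} (h : InvS Act F) (hs : s ∉ Act)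
    (G : CFam (Fin (Ts s))) (D : ℕ) {B : ℕ → ℝ} (hB : ∀ i, 0 ≤ B i)
    (hH1 : ∀ i ≤ 2 ^ D, ∀ φ : Equiv.Perm (Fin i) → ℂ,
      JCore.hs (mixY (Fin i) G.w G.E) (∑ π, φ π • rhoG (Fin (Ts s)) π) ≤
        ((i.factorial : ℝ) * B i) * ∑ π, ‖φ π‖ ^ 2) :
    ConvHyp (ctS Ts M) (Prod.fst : TokS S M → S) F
      (F.act (kapS Ts s) (kapS_injective Ts s) (fun _ _ => rfl) G) D s Act B := by
  classical
  intro T U i α hT hU hi hiD hα
  subst hi
  have hα0 : α s = 0 := (mem_Cnt.1 hα).2 s hs
  refine conv_MM_le F (kapS_injective Ts s) (fun _ _ => rfl) G T ?_ ?_ ?_ ?_ ?_ ?_ hα0 (hB _) (hH1 _ hiD)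
  · rw [Finset.disjoint_left]
    intro t ht ht'
    exact hT t ht (hU t ht')
  · intro t ht d
    have : t.1 = s := hU t ht
    change o t.1 = o s
    rw [this]
  · intro i d c hc
    by_contra hne
    have h1 := h.block i _ _ hne
    have h2 : clS Ts c = some s := by
      rw [← h1]
      rfl
    exact hc (clS_eq_some Ts h2)
  · intro t
    rfl
  · intro d
    rfl
  · rintro (u | ⟨s', d⟩) hc
    · rfl
    · have hne : s' ≠ s := by
        rintro rfl
        exact hc ⟨d, rfl⟩
      change (Pi.single s' 1 : S → ℕ) s = 0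
      exact Pi.single_eq_of_ne hne.symm _

/-- **The chain in the concrete setting.** From families `G s` on the colours of each class with the
bound `(H1)`, a family at the top with the invariants and the bound of `MM`. -/
theorem J_chain {Ds : S → ℕ} {Dtop : ℕ} (hDs : ∀ s, Ds s ≤ Dtop) (hM : 2 ^ Dtop ≤ M) {τ : S → ℝ}
    {B : S → ℕ → ℝ} (hB : ∀ s i, 0 ≤ B s i) (G : ∀ s, CFam (Fin (Ts s)))
    (hGw : ∀ s, ∑ j, (G s).w j = 1) (hGt : ∀ s j, ∑ d', ∑ d, ‖(G s).E j d d'‖ ^ 2 ≤ 1)
    (hH1 : ∀ s, ∀ i ≤ 2 ^ Ds s, ∀ φ : Equiv.Perm (Fin i) → ℂ,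
      JCore.hs (mixY (Fin i) (G s).w (G s).E) (∑ π, φ π • rhoG (Fin (Ts s)) π) ≤
        ((i.factorial : ℝ) * B s i) * ∑ π, ‖φ π‖ ^ 2) :
    ∃ F : Fam (odS Ts o M), InvS Finset.univ F ∧ ∀ α ∈ Cnt Dtop (Finset.univ : Finset S),
      MM (F.Y Dtop) (Zs (odS Ts o M) Dtop) (ctS Ts M) ∅ α ≤ Real.exp (∑ s, (α s : ℝ) * τ s) *
        ∏ s, gConv (B s) (Ds s) (τ s - JNum.tauD (Ds s)) ^ 2 ^ (Dtop - Ds s) := by
  classical
  refine chain (ct := ctS Ts M) (cl := (Prod.fst : TokS S M → S)) ?_ hDs hB (Inv := InvS)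
    (F₀ := Fam.triv (odS Ts o M)) InvS.triv ?_ (fun _ _ h => h.dbl) ?_ ?_
  · rintro (t | u | ⟨s', d⟩) s
    · simp [ctS]
    · simp [ctS]
    · change (Pi.single s' 1 : S → ℕ) s ≤ 1
      by_cases e : s = s'
      · subst e
        simp
      · rw [Pi.single_eq_of_ne e]
        exact zero_le_one
  · refine GFB_base (vac := Sum.inl ()) (fun t => rfl) ?_ τ
    rintro (u | ⟨s', d⟩) hc
    · rfl
    · exfalso
      have h1 : (Pi.single s' 1 : S → ℕ) = 0 := hc
      have h2 := congrFun h1 s'
      simp at h2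
  · intro D s Act F hF hs hD
    subst hD
    refine ⟨_, hF.act (fun _ _ => rfl) (G s) (hGw s) (hGt s), ?_⟩
    exact convHyp_act hF hs (G s) _ (hB s) (hH1 s)
  · intro s
    have : (Finset.univ.filter fun t : TokS S M => t.1 = s).card = M := by
      have h1 : (Finset.univ.filter fun t : TokS S M => t.1 = s) =
          (Finset.univ : Finset (Fin M)).map ⟨fun k => (s, k), fun a b h => by simpa using h⟩ := by
        ext ⟨s', k⟩
        simp only [Finset.mem_filter, Finset.mem_univ, true_and, Finset.mem_map,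
          Function.Embedding.coeFn_mk]
        constructor
        · rintro rfl
          exact ⟨k, rfl⟩
        · rintro ⟨a, h⟩
          exact (congrArg Prod.fst h).symm
      rw [h1, Finset.card_map, Finset.card_univ, Fintype.card_fin]
    rw [this]
    exact hM

end Concrete

end Crest.Agent.S0222Lib.SWord
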