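import Crest.Agent.S0222Lib.JTopEig

/-!
# S0222: Theorem J, the conversion of labelled tokens to colours: words

Labelled words `x : κ → (Tok ⊕ Lab) ⊕ Col` in which each label occurs exactly once (`HasAll`) and
colourings `γ : Lab → C`: the coloured word `colz γ ∘ x : κ → Tok ⊕ (Col ⊕ C)`.

* `fiber_colz`: two labelled words with the same coloured word differ by a relabelling;
* `sum_colz`: each coloured word with labels has exactly `|Perm Lab|` preimages;
* `rhoAS_colz`: the coloured entries of an element of the group algebra are sums over relabellings of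
  the labelled entries.
-/

set_option autoImplicit false
set_option linter.unusedSectionVars false
set_option linter.unusedSimpArgs false

namespace Crest.Agent.S0222Lib.SWord

open Matrix MonoidAlgebra
open scoped ComplexOrder
open Crest.Agent.S0222Lib.Planch Crest.Agent.S0222Lib.WordRep Crest.Agent.S0222Lib.JCore

section Letters

variable {Tok Col C Lab κ : Type*}

/-- The colouring of the labels. -/
def colz (γ : Lab → C) : (Tok ⊕ Lab) ⊕ Col → Tok ⊕ (Col ⊕ C)
  | Sum.inl (Sum.inl t) => Sum.inl t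
  | Sum.inl (Sum.inr a) => Sum.inr (Sum.inr (γ a))
  | Sum.inr c => Sum.inr (Sum.inl c)

/-- The relabelling of letters. -/
def relb (π : Equiv.Perm Lab) : Equiv.Perm ((Tok ⊕ Lab) ⊕ Col) :=
  Equiv.sumCongr (Equiv.sumCongr (Equiv.refl _) π) (Equiv.refl _)

@[simp] lemma relb_tok (π : Equiv.Perm Lab) (t : Tok) :
    relb (Col := Col) π (Sum.inl (Sum.inl t)) = Sum.inl (Sum.inl t) := rfl

@[simp] lemma relb_lab (π : Equiv.Perm Lab) (a : Lab) :
    relb (Tok := Tok) (Col := Col) π (Sum.inl (Sum.inr a)) = Sum.inl (Sum.inr (π a)) := rfl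

@[simp] lemma relb_col (π : Equiv.Perm Lab) (c : Col) :
    relb (Tok := Tok) π (Sum.inr c) = Sum.inr c := rfl

lemma colz_relb (γ : Lab → C) (π : Equiv.Perm Lab) (l : (Tok ⊕ Lab) ⊕ Col) :
    colz γ (relb π l) = colz (γ ∘ π) l := by
  rcases l with (t | a) | c <;> rfl

lemma relb_mul (π σ : Equiv.Perm Lab) (l : (Tok ⊕ Lab) ⊕ Col) :
    relb (π * σ) l = relb π (relb σ l) := by
  rcases l with (t | a) | c <;> rfl

@[simp] lemma relb_one (l : (Tok ⊕ Lab) ⊕ Col) : relb (1 : Equiv.Perm Lab) l = l := by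
  rcases l with (t | a) | c <;> rfl

/-- Each label occurs exactly once. -/
def HasAll (x : κ → (Tok ⊕ Lab) ⊕ Col) : Prop :=
  ∀ a : Lab, ∃! p, x p = Sum.inl (Sum.inr a)

lemma HasAll.relabel {x : κ → (Tok ⊕ Lab) ⊕ Col} (hx : HasAll x) (π : Equiv.Perm Lab) :
    HasAll (fun p => relb π (x p)) := by
  intro a
  obtain ⟨p, hp, hu⟩ := hx (π⁻¹ a)
  refine ⟨p, ?_, ?_⟩
  · simp [hp]
  · intro q hq
    apply hu
    have h2 := congrArg (relb (Tok := Tok) (Col := Col) π⁻¹) hq
    rw [← relb_mul, inv_mul_cancel, relb_one, relb_lab] at h2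
    exact h2

/-- A relabelling of a word with labels is determined by its effect. -/
lemma HasAll.relb_inj {x : κ → (Tok ⊕ Lab) ⊕ Col} (hx : HasAll x) {π σ : Equiv.Perm Lab}
    (h : ∀ p, relb π (x p) = relb σ (x p)) : π = σ := by
  ext a
  obtain ⟨p, hp, -⟩ := hx a
  have h2 := h p
  rw [hp] at h2
  simpa using h2

/-- **The fibres of the colouring**: two labelled words with the same coloured word differ by a
relabelling. -/
theorem fiber_colz [Finite Lab] {x x' : κ → (Tok ⊕ Lab) ⊕ Col} (hx : HasAll x) (hx' : HasAll x')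
    {γ γ' : Lab → C} (h : ∀ p, colz γ (x p) = colz γ' (x' p)) :
    ∃ π : Equiv.Perm Lab, (∀ p, x p = relb π (x' p)) ∧ γ ∘ π = γ' := by
  classical
  have h1 : ∀ a : Lab, ∃ b : Lab, ∃ p, x' p = Sum.inl (Sum.inr a) ∧ x p = Sum.inl (Sum.inr b) ∧
      γ b = γ' a := by
    intro a
    obtain ⟨p, hp, -⟩ := hx' a
    have h2 := h p
    rw [hp] at h2
    rcases hxp : x p with (t | b) | c
    · rw [hxp] at h2
      simp [colz] at h2
    · rw [hxp] at h2
      simp only [colz, Sum.inr.injEq] at h2
      exact ⟨b, p, hp, hxp, h2⟩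
    · rw [hxp] at h2
      simp [colz] at h2
  choose f hf using h1
  have hinj : Function.Injective f := by
    intro a a' haa
    obtain ⟨p, hp, hxp, -⟩ := hf a
    obtain ⟨p', hp', hxp', -⟩ := hf a'
    have e : p = p' := by
      obtain ⟨q, -, hu⟩ := hx (f a)
      rw [hu p hxp, hu p' (show x p' = _ by rw [hxp', haa])]
    subst e
    rw [hp] at hp'
    simpa using hp'
  let π : Equiv.Perm Lab := Equiv.ofBijective f (Finite.injective_iff_bijective.1 hinj)
  have hπ : ∀ a, π a = f a := fun _ => rfl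
  refine ⟨π, fun p => ?_, ?_⟩
  · have h2 := h p
    rcases hxp' : x' p with (t | a) | c
    · rw [hxp'] at h2
      rcases hxp : x p with (t' | b) | c'
      · rw [hxp] at h2
        simp only [colz, Sum.inl.injEq] at h2
        rw [h2]
        rfl
      · rw [hxp] at h2
        simp [colz] at h2
      · rw [hxp] at h2
        simp [colz] at h2
    · obtain ⟨q, hq, hxq, -⟩ := hf a
      obtain ⟨r, -, hu⟩ := hx' a
      have e : p = q := by rw [hu p hxp', hu q hq]
      subst e
      rw [hxq]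
      simp [hπ]
    · rw [hxp'] at h2
      rcases hxp : x p with (t' | b) | c'
      · rw [hxp] at h2
        simp [colz] at h2
      · rw [hxp] at h2
        simp [colz] at h2
      · rw [hxp] at h2
        simp only [colz, Sum.inr.injEq, Sum.inl.injEq] at h2
        rw [h2]
        rfl
  · funext a
    obtain ⟨-, -, -, h3⟩ := hf a
    simpa [hπ] using h3

variable [Fintype κ] [DecidableEq κ] [Fintype Tok] [DecidableEq Tok] [Fintype Col]
  [DecidableEq Col] [Fintype C] [DecidableEq C] [Fintype Lab] [DecidableEq Lab]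

/-- A coloured word with a full set of labels. -/
def IsI (w : κ → Tok ⊕ (Col ⊕ C)) : Prop :=
  ∃ (x : κ → (Tok ⊕ Lab) ⊕ Col) (γ : Lab → C), HasAll x ∧ (fun p => colz γ (x p)) = w

open Classical in
lemma card_fib {w : κ → Tok ⊕ (Col ⊕ C)} {x₀ : κ → (Tok ⊕ Lab) ⊕ Col} {γ₀ : Lab → C}
    (h₀ : HasAll x₀) (hw : (fun p => colz γ₀ (x₀ p)) = w) :
    (Finset.univ.filter (fun q : (κ → (Tok ⊕ Lab) ⊕ Col) × (Lab → C) =>
      HasAll q.1 ∧ (fun p => colz q.2 (q.1 p)) = w)).card = Fintype.card (Equiv.Perm Lab) := by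
  subst hw
  rw [← Finset.card_univ]
  symm
  refine Finset.card_bij (fun π _ => ((fun p => relb π (x₀ p)), γ₀ ∘ ⇑π⁻¹)) ?_ ?_ ?_
  · intro π _
    simp only [Finset.mem_filter, Finset.mem_univ, true_and]
    refine ⟨h₀.relabel π, ?_⟩
    funext p
    have e : (γ₀ ∘ ⇑π⁻¹) ∘ ⇑π = γ₀ := by
      funext a
      simp
    rw [colz_relb, e]
  · intro π _ σ _ h
    have h1 := congrArg Prod.fst h
    simp only at h1
    exact h₀.relb_inj (fun p => congrFun h1 p)
  · rintro ⟨x, γ⟩ hq
    simp only [Finset.mem_filter, Finset.mem_univ, true_and] at hq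
    obtain ⟨π, hπ, hγ⟩ := fiber_colz hq.1 h₀ (fun p => congrFun hq.2 p)
    refine ⟨π, Finset.mem_univ _, ?_⟩
    ext1
    · funext p
      exact (hπ p).symm
    · simp only
      rw [← hγ]
      funext a
      simp

open Classical in
/-- **The fibre sum**: each coloured word with labels has exactly `|Perm Lab|` preimages. -/
theorem sum_colz {M : Type*} [AddCommMonoid M] (g : (κ → Tok ⊕ (Col ⊕ C)) → M) :
    ∑ q : (κ → (Tok ⊕ Lab) ⊕ Col) × (Lab → C), (if HasAll q.1 then g (fun p => colz q.2 (q.1 p)) else 0)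
      = Fintype.card (Equiv.Perm Lab) • ∑ w, if IsI (Lab := Lab) w then g w else 0 := by
  have h1 : ∀ q : (κ → (Tok ⊕ Lab) ⊕ Col) × (Lab → C),
      (if HasAll q.1 then g (fun p => colz q.2 (q.1 p)) else 0) =
        ∑ w, if HasAll q.1 ∧ (fun p => colz q.2 (q.1 p)) = w then g w else 0 := by
    intro q
    by_cases h : HasAll q.1
    · rw [if_pos h]
      simp only [h, true_and]
      simp
    · simp [h]
  simp_rw [h1]
  rw [Finset.sum_comm, Finset.smul_sum]
  refine Finset.sum_congr rfl fun w _ => ?_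
  rw [← Finset.sum_filter, Finset.sum_const]
  by_cases hw : IsI (Lab := Lab) w
  · rw [if_pos hw]
    obtain ⟨x₀, γ₀, h₀, h₁⟩ := hw
    rw [card_fib h₀ h₁]
  · rw [if_neg hw, smul_zero, Finset.filter_false_of_mem, Finset.card_empty, zero_smul]
    rintro ⟨x, γ⟩ - ⟨hx, hγ⟩
    exact hw ⟨x, γ, hx, hγ⟩

end Letters

section Entries

variable {D : ℕ} {Tok Col C Lab : Type*} [Fintype Tok] [DecidableEq Tok] [Fintype Col]
  [DecidableEq Col] [Fintype C] [DecidableEq C] [Fintype Lab] [DecidableEq Lab]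
  (od₁ : (Tok ⊕ Lab) ⊕ Col → Bool) (od₂ : Tok ⊕ (Col ⊕ C) → Bool)

lemma epsS_colz (hod : ∀ (γ : Lab → C) l, od₂ (colz γ l) = od₁ l) (g : Equiv.Perm (B D))
    (γ : Lab → C) (x : B D → (Tok ⊕ Lab) ⊕ Col) :
    epsS bval od₂ g (fun p => colz γ (x p)) = epsS bval od₁ g x := by
  unfold epsS
  simp only [hod]

/-- **The coloured entries**: a sum over relabellings of the labelled entries. -/
theorem rhoAS_colz (hod : ∀ (γ : Lab → C) l, od₂ (colz γ l) = od₁ l)
    (z : MonoidAlgebra ℝ (Equiv.Perm (B D))) {x x' : B D → (Tok ⊕ Lab) ⊕ Col} (hx : HasAll x)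
    (hx' : HasAll x') (γ γ' : Lab → C) :
    rhoAS od₂ D z (fun p => colz γ (x p)) (fun p => colz γ' (x' p)) =
      ∑ π : Equiv.Perm Lab, if γ ∘ π = γ' then rhoAS od₁ D z x (fun p => relb π (x' p)) else 0 := by
  classical
  simp_rw [rhoAS_eq_sum, Matrix.sum_apply]
  have h1 : ∀ π : Equiv.Perm Lab,
      (if γ ∘ π = γ' then ∑ g, (z.coeff g • rhoS bval od₁ g) x (fun p => relb π (x' p)) else 0) =
        ∑ g, if γ ∘ π = γ' then (z.coeff g • rhoS bval od₁ g) x (fun p => relb π (x' p)) else 0 := by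
    intro π
    split_ifs <;> simp
  simp_rw [h1]
  rw [Finset.sum_comm]
  refine Finset.sum_congr rfl fun g _ => ?_
  simp only [Matrix.smul_apply, rhoS_apply]
  by_cases h : (fun p => colz γ' (x' p)) = (fun p => colz γ (x p)) ∘ g
  · rw [if_pos h, epsS_colz od₁ od₂ hod]
    have hxg : HasAll (x ∘ g) := by
      intro a
      obtain ⟨p, hp, hu⟩ := hx a
      refine ⟨g⁻¹ p, by simp [hp], fun q hq => ?_⟩
      have := hu _ hq
      simp [← this]
    obtain ⟨π, hπ, hγ⟩ := fiber_colz hxg hx' (γ := γ) (γ' := γ') (fun p => (congrFun h p).symm)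
    rw [Finset.sum_eq_single π]
    · rw [if_pos hγ, if_pos]
      funext p
      exact (hπ p).symm
    · intro σ _ hσ
      by_cases hσγ : γ ∘ σ = γ'
      · rw [if_pos hσγ, if_neg, smul_zero]
        intro he
        apply hσ
        apply hx'.relb_inj
        intro p
        have := congrFun he p
        simp only [Function.comp_apply] at this
        rw [this, ← hπ p]
        simp
      · rw [if_neg hσγ]
    · simp
  · rw [if_neg h, smul_zero]
    refine (Finset.sum_eq_zero fun σ _ => ?_).symm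
    by_cases hσγ : γ ∘ σ = γ'
    · rw [if_pos hσγ, if_neg, smul_zero]
      intro he
      apply h
      funext p
      have := congrFun he p
      simp only [Function.comp_apply] at this ⊢
      rw [← this, colz_relb, hσγ]
    · rw [if_neg hσγ]

end Entries

end Crest.Agent.S0222Lib.SWord
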