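import Crest.Agent.S0222Lib.JConvA

/-!
# S0222: Theorem J, the conversion of labelled tokens to colours: the dressing

For a product mixture `Y₂` on coloured words, `Y₁` on labelled words and `Yₛ` on colour words:
* `cvS_mul_mix`: the map `cvS` from coloured words to pairs (labelled word, colouring) intertwines
  `Y₂` with `Y₁ ⊗ Yₛ`;
* `qf_cvS`: `qf (Y₁ ⊗ Yₛ) (cvS ψ) = |Perm Lab| · qf Y₂ ψ`.
-/

set_option autoImplicit false
set_option linter.unusedSectionVars false
set_option linter.unusedSimpArgs false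

namespace Crest.Agent.S0222Lib.SWord

open Matrix MonoidAlgebra
open scoped ComplexOrder Kronecker
open Crest.Agent.S0222Lib.Planch Crest.Agent.S0222Lib.WordRep Crest.Agent.S0222Lib.JCore
open Crest.Agent.S0222Lib.Site

section Letters

variable {κ Tok Col C Lab : Type*} [Fintype κ] [DecidableEq κ] [Fintype Tok] [DecidableEq Tok]
  [Fintype Col] [DecidableEq Col] [Fintype C] [DecidableEq C] [Fintype Lab] [DecidableEq Lab]

/-- The letter operator on coloured letters. -/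
def a2 (A : Matrix Col Col ℂ) (E : Matrix C C ℂ) : Matrix (Tok ⊕ (Col ⊕ C)) (Tok ⊕ (Col ⊕ C)) ℂ :=
  extC (Matrix.fromBlocks A 0 0 E)

/-- The letter operator on labelled letters. -/
def a1 (A : Matrix Col Col ℂ) : Matrix ((Tok ⊕ Lab) ⊕ Col) ((Tok ⊕ Lab) ⊕ Col) ℂ := extC A

/-- The factor of a labelled letter. -/
def lf (F : Lab → ℂ) : (Tok ⊕ Lab) ⊕ Col → ℂ
  | Sum.inl (Sum.inr a) => F a
  | _ => 1

lemma a1_sameLab {A : Matrix Col Col ℂ} {l l₂ : (Tok ⊕ Lab) ⊕ Col} (h : a1 A l l₂ ≠ 0) (a : Lab) :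
    l = Sum.inl (Sum.inr a) ↔ l₂ = Sum.inl (Sum.inr a) := by
  rcases l with l | c <;> rcases l₂ with l' | c'
  · have : l = l' := by
      by_contra hne
      apply h
      simp [a1, extC, Matrix.one_apply, hne]
    subst this
    rfl
  · exfalso
    apply h
    simp [a1, extC]
  · exfalso
    apply h
    simp [a1, extC]
  · simp

lemma a2_colz (A : Matrix Col Col ℂ) (E : Matrix C C ℂ) (γ γ₂ : Lab → C) {l l₂ : (Tok ⊕ Lab) ⊕ Col}
    (h : ∀ a : Lab, l = Sum.inl (Sum.inr a) ↔ l₂ = Sum.inl (Sum.inr a)) :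
    a2 (Tok := Tok) A E (colz γ l) (colz γ₂ l₂) = a1 A l l₂ * lf (fun a => E (γ a) (γ₂ a)) l := by
  rcases l with (t | a) | c <;> rcases l₂ with (t' | a') | c'
  · by_cases e : t = t' <;> simp [a2, a1, colz, extC, lf, Matrix.one_apply, e]
  · have := (h a').2 rfl
    simp at this
  · simp [a2, a1, colz, extC, lf]
  · have := (h a).1 rfl
    simp at this
  · have := (h a).1 rfl
    simp only [Sum.inl.injEq, Sum.inr.injEq] at this
    subst this
    simp [a2, a1, colz, extC, lf]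
  · have := (h a).1 rfl
    simp at this
  · simp [a2, a1, colz, extC, lf]
  · have := (h a').2 rfl
    simp at this
  · simp [a2, a1, colz, extC, lf]

lemma prod_lf {x : κ → (Tok ⊕ Lab) ⊕ Col} (hx : HasAll x) (F : Lab → ℂ) :
    ∏ p, lf F (x p) = ∏ a, F a := by
  classical
  choose ℓ hℓ hu using hx
  have hinj : Function.Injective ℓ := by
    intro a b h
    have h1 := hℓ a
    rw [h, hℓ b] at h1
    simpa using h1.symm
  have h1 : ∏ p ∈ Finset.univ.image ℓ, lf F (x p) = ∏ p, lf F (x p) := by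
    refine Finset.prod_subset (Finset.subset_univ _) (fun p _ hp => ?_)
    rcases hxp : x p with (t | a) | c
    · rfl
    · exfalso
      apply hp
      rw [Finset.mem_image]
      exact ⟨a, Finset.mem_univ _, (hu a p hxp).symm⟩
    · rfl
  rw [← h1, Finset.prod_image (fun a _ b _ h => hinj h)]
  refine Finset.prod_congr rfl fun a _ => ?_
  rw [hℓ a]
  rfl

/-- Same labels at the same positions. -/
def SameLab (x x₂ : κ → (Tok ⊕ Lab) ⊕ Col) : Prop :=
  ∀ p a, x p = Sum.inl (Sum.inr a) ↔ x₂ p = Sum.inl (Sum.inr a)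

lemma SameLab.hasAll {x x₂ : κ → (Tok ⊕ Lab) ⊕ Col} (h : SameLab x x₂) (hx : HasAll x) :
    HasAll x₂ := by
  intro a
  obtain ⟨p, hp, hu⟩ := hx a
  exact ⟨p, (h p a).1 hp, fun q hq => hu q ((h q a).2 hq)⟩

lemma tp_a1_sameLab {A : Matrix Col Col ℂ} {x x₂ : κ → (Tok ⊕ Lab) ⊕ Col}
    (h : tp (fun _ : κ => a1 (Tok := Tok) (Lab := Lab) A) x x₂ ≠ 0) : SameLab x x₂ := by
  intro p a
  rw [tp_apply] at h
  exact a1_sameLab (Finset.prod_ne_zero_iff.1 h p (Finset.mem_univ _)) a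

/-- **The factorisation of an entry**. -/
theorem tp_a2_colz (A : Matrix Col Col ℂ) (E : Matrix C C ℂ) (γ γ₂ : Lab → C)
    {x x₂ : κ → (Tok ⊕ Lab) ⊕ Col} (hx : HasAll x) (h : SameLab x x₂) :
    tp (fun _ : κ => a2 (Tok := Tok) A E) (fun p => colz γ (x p)) (fun p => colz γ₂ (x₂ p)) =
      tp (fun _ : κ => a1 (Tok := Tok) (Lab := Lab) A) x x₂ * tp (fun _ : Lab => E) γ γ₂ := by
  simp only [tp_apply]
  rw [Finset.prod_congr rfl (fun p _ => a2_colz A E γ γ₂ (h p)), Finset.prod_mul_distrib, prod_lf hx]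

/-- Reading a labelled letter from a coloured letter. -/
def decL : (Tok ⊕ Lab) ⊕ Col → Tok ⊕ (Col ⊕ C) → (Tok ⊕ Lab) ⊕ Col
  | Sum.inl (Sum.inr a), _ => Sum.inl (Sum.inr a)
  | _, Sum.inl t => Sum.inl (Sum.inl t)
  | _, Sum.inr (Sum.inl c) => Sum.inr c
  | l, Sum.inr (Sum.inr _) => l

lemma exists_of_tp_a2_ne_zero {A : Matrix Col Col ℂ} {E : Matrix C C ℂ} {γ : Lab → C}
    {x : κ → (Tok ⊕ Lab) ⊕ Col} {w₁ : κ → Tok ⊕ (Col ⊕ C)} (hx : HasAll x)
    (h : tp (fun _ : κ => a2 (Tok := Tok) A E) (fun p => colz γ (x p)) w₁ ≠ 0) :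
    ∃ (x₂ : κ → (Tok ⊕ Lab) ⊕ Col) (γ₂ : Lab → C), (fun p => colz γ₂ (x₂ p)) = w₁ ∧ SameLab x x₂ := by
  classical
  rw [tp_apply] at h
  have hp := fun p => Finset.prod_ne_zero_iff.1 h p (Finset.mem_univ _)
  have h1 : ∀ a : Lab, ∃ c, ∀ p, x p = Sum.inl (Sum.inr a) → w₁ p = Sum.inr (Sum.inr c) := by
    intro a
    obtain ⟨p, hxp, hu⟩ := hx a
    have h2 := hp p
    rw [hxp] at h2
    rcases hw : w₁ p with t | c | c
    · rw [hw] at h2
      simp [a2, colz, extC] at h2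
    · rw [hw] at h2
      simp [a2, colz, extC] at h2
    · refine ⟨c, fun q hq => ?_⟩
      rw [hu q hq, hw]
  choose γ₂ hγ₂ using h1
  refine ⟨fun p => decL (x p) (w₁ p), γ₂, ?_, ?_⟩
  · funext p
    have h2 := hp p
    change colz γ₂ (decL (x p) (w₁ p)) = w₁ p
    rcases hxp : x p with (t | a) | c
    · rw [hxp] at h2
      rcases hw : w₁ p with t' | c' | c'
      · rw [hw] at h2
        have : t = t' := by
          by_contra hne
          apply h2
          simp [a2, colz, extC, Matrix.one_apply, hne]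
        subst this
        rfl
      · rw [hw] at h2
        simp [a2, colz, extC] at h2
      · rw [hw] at h2
        simp [a2, colz, extC] at h2
    · rw [hγ₂ a p hxp]
      rfl
    · rw [hxp] at h2
      rcases hw : w₁ p with t' | c' | c'
      · rw [hw] at h2
        simp [a2, colz, extC] at h2
      · rfl
      · rw [hw] at h2
        simp [a2, colz, extC] at h2
  · intro p a
    change x p = Sum.inl (Sum.inr a) ↔ decL (x p) (w₁ p) = Sum.inl (Sum.inr a)
    constructor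
    · intro e
      rw [e]
      rfl
    · intro e
      rcases hxp : x p with (t | b) | c
      · rw [hxp] at e
        rcases hw : w₁ p with t' | c' | c' <;> rw [hw] at e <;> simp [decL] at e
      · rw [hxp] at e
        exact e
      · rw [hxp] at e
        rcases hw : w₁ p with t' | c' | c' <;> rw [hw] at e <;> simp [decL] at e

open Classical in
/-- The map from coloured words to pairs of a labelled word and a colouring. -/
noncomputable def cvS (κ Tok Col C Lab : Type*) [Fintype κ] [DecidableEq κ] :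
    Matrix ((κ → (Tok ⊕ Lab) ⊕ Col) × (Lab → C)) (κ → Tok ⊕ (Col ⊕ C)) ℂ :=
  fun q w => if HasAll q.1 ∧ (fun p => colz q.2 (q.1 p)) = w then 1 else 0

/-- **The intertwining for one term**. -/
theorem cvS_mul_tp (A : Matrix Col Col ℂ) (E : Matrix C C ℂ) :
    cvS κ Tok Col C Lab * tp (fun _ : κ => a2 (Tok := Tok) A E) =
      (tp (fun _ : κ => a1 (Tok := Tok) (Lab := Lab) A) ⊗ₖ tp (fun _ : Lab => E)) *
        cvS κ Tok Col C Lab := by
  classical
  ext ⟨x, γ⟩ w₁
  rw [Matrix.mul_apply, Matrix.mul_apply]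
  simp only [Matrix.kroneckerMap_apply]
  by_cases hx : HasAll x
  · -- the left side
    have hL : ∑ w, cvS κ Tok Col C Lab (x, γ) w * tp (fun _ : κ => a2 (Tok := Tok) A E) w w₁ =
        tp (fun _ : κ => a2 (Tok := Tok) A E) (fun p => colz γ (x p)) w₁ := by
      rw [Finset.sum_eq_single (fun p => colz γ (x p))]
      · simp [cvS, hx]
      · intro w _ hw
        have : ¬ (HasAll x ∧ (fun p => colz γ (x p)) = w) := fun h => hw h.2.symm
        simp [cvS, this]
      · simp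
    rw [hL]
    by_cases hex : ∃ (x₂ : κ → (Tok ⊕ Lab) ⊕ Col) (γ₂ : Lab → C),
        (fun p => colz γ₂ (x₂ p)) = w₁ ∧ SameLab x x₂
    · obtain ⟨x₂, γ₂, rfl, hs⟩ := hex
      rw [Finset.sum_eq_single (x₂, γ₂)]
      · have hx₂ := hs.hasAll hx
        simp only [cvS, hx₂, true_and, if_true, mul_one]
        exact tp_a2_colz A E γ γ₂ hx hs
      · rintro ⟨x₃, γ₃⟩ _ hne
        by_cases h3 : tp (fun _ : κ => a1 (Tok := Tok) (Lab := Lab) A) x x₃ = 0
        · change tp (fun _ : κ => a1 (Tok := Tok) (Lab := Lab) A) x x₃ * _ * _ = 0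
          rw [h3]
          simp
        · have hs3 := tp_a1_sameLab h3
          by_cases hc : HasAll x₃ ∧ (fun p => colz γ₃ (x₃ p)) = fun p => colz γ₂ (x₂ p)
          · exfalso
            obtain ⟨π, hπ, hγ⟩ := fiber_colz hc.1 (hs.hasAll hx) (fun p => congrFun hc.2 p)
            have hπ1 : π = 1 := by
              apply (hs.hasAll hx).relb_inj
              intro p
              rw [← hπ p, relb_one]
              rcases hxp : x₂ p with (t | a) | c
              · rw [hπ p, hxp]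
                rfl
              · have h5 := ((hs p a).2 hxp)
                exact (hs3 p a).1 h5
              · rw [hπ p, hxp]
                rfl
            subst hπ1
            apply hne
            have e1 : x₃ = x₂ := by
              funext p
              rw [hπ p, relb_one]
            have e2 : γ₃ = γ₂ := by
              rw [← hγ]
              rfl
            rw [e1, e2]
          · simp [cvS, hc]
      · simp
    · rw [Finset.sum_eq_zero]
      · by_contra hne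
        obtain ⟨x₂, γ₂, h1, h2⟩ := exists_of_tp_a2_ne_zero hx hne
        exact hex ⟨x₂, γ₂, h1, h2⟩
      · rintro ⟨x₃, γ₃⟩ _
        by_cases h3 : tp (fun _ : κ => a1 (Tok := Tok) (Lab := Lab) A) x x₃ = 0
        · change tp (fun _ : κ => a1 (Tok := Tok) (Lab := Lab) A) x x₃ * _ * _ = 0
          rw [h3]
          simp
        · have hc : ¬ (HasAll x₃ ∧ (fun p => colz γ₃ (x₃ p)) = w₁) := fun hc =>
            hex ⟨x₃, γ₃, hc.2, tp_a1_sameLab h3⟩
          simp [cvS, hc]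
  · rw [Finset.sum_eq_zero, Finset.sum_eq_zero]
    · rintro ⟨x₃, γ₃⟩ _
      by_cases h3 : tp (fun _ : κ => a1 (Tok := Tok) (Lab := Lab) A) x x₃ = 0
      · change tp (fun _ : κ => a1 (Tok := Tok) (Lab := Lab) A) x x₃ * _ * _ = 0
        rw [h3]
        simp
      · have hs3 := tp_a1_sameLab h3
        have hc : ¬ HasAll x₃ := fun hc => hx (SameLab.hasAll (fun p a => (hs3 p a).symm) hc)
        simp [cvS, hc]
    · intro w _
      simp [cvS, hx]

lemma kron_mix {m n : Type*} [Fintype m] [Fintype n] {I J : Type*} [Fintype I] [Fintype J]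
    (c : I → ℂ) (d : J → ℂ) (X : I → Matrix m m ℂ) (Z : J → Matrix n n ℂ) :
    (∑ i, c i • X i) ⊗ₖ (∑ j, d j • Z j) = ∑ i, ∑ j, (c i * d j) • (X i ⊗ₖ Z j) := by
  ext a b
  simp only [Matrix.kroneckerMap_apply, Matrix.sum_apply, Matrix.smul_apply, smul_eq_mul,
    Finset.sum_mul_sum]
  refine Finset.sum_congr rfl fun i _ => Finset.sum_congr rfl fun j _ => ?_
  ring

variable {I₁ I₂ : Type*} [Fintype I₁] [Fintype I₂]

/-- **The intertwining** of the mixtures. -/
theorem cvS_mul_mix (w₁ : I₁ → ℝ) (w₂ : I₂ → ℝ) (A : I₁ → Matrix Col Col ℂ) (E : I₂ → Matrix C C ℂ) :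
    cvS κ Tok Col C Lab *
        mixY κ (fun q : I₁ × I₂ => w₁ q.1 * w₂ q.2) (fun q => a2 (Tok := Tok) (A q.1) (E q.2)) =
      (mixY κ w₁ (fun i => a1 (Tok := Tok) (Lab := Lab) (A i)) ⊗ₖ mixY Lab w₂ E) *
        cvS κ Tok Col C Lab := by
  unfold mixY
  rw [kron_mix, Fintype.sum_prod_type, Matrix.mul_sum, Matrix.sum_mul]
  refine Finset.sum_congr rfl fun i _ => ?_
  rw [Matrix.mul_sum, Matrix.sum_mul]
  refine Finset.sum_congr rfl fun j _ => ?_
  rw [Matrix.mul_smul, cvS_mul_tp, Matrix.smul_mul]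
  push_cast
  rfl

open Classical in
/-- The adjoint. -/
theorem cvS_adj :
    (cvS κ Tok Col C Lab)ᴴ * cvS κ Tok Col C Lab =
      (Fintype.card (Equiv.Perm Lab) : ℂ) • dp (IsI (κ := κ) (Tok := Tok) (Col := Col) (C := C) (Lab := Lab)) := by
  ext w w₁
  rw [Matrix.mul_apply]
  simp only [Matrix.conjTranspose_apply]
  set g : (κ → Tok ⊕ (Col ⊕ C)) → ℂ := fun w' =>
    (if w' = w then (1 : ℂ) else 0) * (if w' = w₁ then (1 : ℂ) else 0) with hg
  have h1 : ∀ q : (κ → (Tok ⊕ Lab) ⊕ Col) × (Lab → C),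
      star (cvS κ Tok Col C Lab q w) * cvS κ Tok Col C Lab q w₁ =
        if HasAll q.1 then g (fun p => colz q.2 (q.1 p)) else 0 := by
    intro q
    by_cases hq : HasAll q.1
    · simp [cvS, hq, hg]
    · simp [cvS, hq]
  rw [Finset.sum_congr rfl (fun q _ => h1 q), sum_colz g]
  rw [Matrix.smul_apply, nsmul_eq_mul, smul_eq_mul]
  congr 1
  by_cases he : w = w₁
  · subst he
    rw [Finset.sum_eq_single w]
    · rw [dp_apply_self]
      by_cases hI : IsI (Lab := Lab) w <;> simp [hI, hg]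
    · intro b _ hb
      simp [hb, hg]
    · simp
  · rw [Finset.sum_eq_zero]
    · simp [dp, he]
    · intro b _
      by_cases hb : b = w
      · subst hb
        have : b ≠ w₁ := he
        simp [this, hg]
      · simp [hb, hg]

lemma mul_inv_of_intertwine {m n : Type*} [Fintype m] [DecidableEq m] [Fintype n] [DecidableEq n]
    {S : Matrix m n ℂ} {Y : Matrix n n ℂ} {Y' : Matrix m m ℂ} (hY : IsUnit Y.det) (hY' : IsUnit Y'.det)
    (h : S * Y = Y' * S) : S * Y⁻¹ = Y'⁻¹ * S := by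
  calc S * Y⁻¹ = (Y'⁻¹ * Y') * S * Y⁻¹ := by rw [Matrix.nonsing_inv_mul _ hY', Matrix.one_mul]
    _ = Y'⁻¹ * (Y' * S) * Y⁻¹ := by simp only [Matrix.mul_assoc]
    _ = Y'⁻¹ * (S * Y) * Y⁻¹ := by rw [h]
    _ = Y'⁻¹ * S * (Y * Y⁻¹) := by simp only [Matrix.mul_assoc]
    _ = _ := by rw [Matrix.mul_nonsing_inv _ hY, Matrix.mul_one]

open Classical in
/-- **The dressed form on coloured words**. -/
theorem qf_cvS {Y₂ : Matrix (κ → Tok ⊕ (Col ⊕ C)) (κ → Tok ⊕ (Col ⊕ C)) ℂ}
    {Y' : Matrix ((κ → (Tok ⊕ Lab) ⊕ Col) × (Lab → C)) ((κ → (Tok ⊕ Lab) ⊕ Col) × (Lab → C)) ℂ}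
    (hY₂ : IsUnit Y₂.det) (hY' : IsUnit Y'.det) (h : cvS κ Tok Col C Lab * Y₂ = Y' * cvS κ Tok Col C Lab)
    {ψ : (κ → Tok ⊕ (Col ⊕ C)) → ℂ} (hψ : ∀ w, ψ w ≠ 0 → IsI (Lab := Lab) w) :
    qf Y' (cvS κ Tok Col C Lab *ᵥ ψ) = (Fintype.card (Equiv.Perm Lab) : ℝ) * qf Y₂ ψ := by
  have hinv := mul_inv_of_intertwine hY₂ hY' h
  unfold qf
  rw [Matrix.mulVec_mulVec, ← hinv, ← Matrix.mulVec_mulVec, Matrix.star_mulVec, ← Matrix.dotProduct_mulVec,
    Matrix.mulVec_mulVec, cvS_adj, Matrix.smul_mulVec, dotProduct_smul, smul_eq_mul]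
  have h1 : star ψ ⬝ᵥ (dp (IsI (κ := κ) (Tok := Tok) (Col := Col) (C := C) (Lab := Lab)) *ᵥ (Y₂⁻¹ *ᵥ ψ)) =
      star ψ ⬝ᵥ (Y₂⁻¹ *ᵥ ψ) := by
    rw [Matrix.dotProduct_mulVec]
    congr 1
    funext w
    simp only [Matrix.vecMul, dotProduct, dp, Matrix.diagonal_apply, Pi.star_apply]
    rw [Finset.sum_eq_single w]
    · by_cases hw : ψ w = 0
      · simp [hw]
      · simp [hψ w hw]
    · intro b _ hb
      simp [hb]
    · simp
  rw [h1]
  simp

end Letters

section Kron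

variable {E H G : Type*} [Fintype E] [DecidableEq E] [Fintype H] [DecidableEq H] [Fintype G]
  [DecidableEq G]

/-- **The form of a Kronecker product** through a factorisation of the inverse of the first factor. -/
theorem qf_kron {Y : Matrix E E ℂ} {Y' : Matrix H H ℂ} (R : Matrix E E ℂ) (hR : Rᴴ * R = Y⁻¹)
    (ζ : E × H → ℂ) :
    qf (Y ⊗ₖ Y') ζ = ∑ a, qf Y' (fun γ => ∑ x, R a x * ζ (x, γ)) := by
  classical
  unfold qf
  rw [Matrix.inv_kronecker, ← hR]
  have h1 : (Rᴴ * R) ⊗ₖ Y'⁻¹ = (R ⊗ₖ (1 : Matrix H H ℂ))ᴴ * ((1 : Matrix E E ℂ) ⊗ₖ Y'⁻¹) *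
      (R ⊗ₖ (1 : Matrix H H ℂ)) := by
    rw [Matrix.conjTranspose_kronecker, Matrix.conjTranspose_one, ← Matrix.mul_kronecker_mul,
      ← Matrix.mul_kronecker_mul]
    simp
  rw [h1, ← Matrix.mulVec_mulVec, ← Matrix.mulVec_mulVec, star_dot_conj]
  set η : E × H → ℂ := (R ⊗ₖ (1 : Matrix H H ℂ)) *ᵥ ζ with hη
  have hηa : ∀ a γ, η (a, γ) = ∑ x, R a x * ζ (x, γ) := by
    intro a γ
    simp only [hη, Matrix.mulVec, dotProduct, Fintype.sum_prod_type, Matrix.kroneckerMap_apply,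
      Matrix.one_apply]
    refine Finset.sum_congr rfl fun x _ => ?_
    rw [Finset.sum_eq_single γ]
    · simp
    · intro b _ hb
      simp [hb.symm]
    · simp
  rw [← Complex.re_sum]
  congr 1
  simp only [dotProduct, Fintype.sum_prod_type, Matrix.mulVec, Pi.star_apply,
    Matrix.kroneckerMap_apply, Matrix.one_apply]
  refine Finset.sum_congr rfl fun a _ => Finset.sum_congr rfl fun γ _ => ?_
  rw [hηa]
  congr 1
  rw [Finset.sum_eq_single a]
  · refine Finset.sum_congr rfl fun γ' _ => ?_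
    rw [hηa]
    simp
  · intro b _ hb
    simp [hb.symm]
  · simp

open scoped MatrixOrder in
/-- **The operator bound tensored**. -/
theorem qf_kron_sum_le {Y : Matrix E E ℂ} {Y' : Matrix H H ℂ} (hY : Y.PosDef) (D : G → E → ℂ)
    (U : G → Matrix H H ℂ) {B : ℝ}
    (hB : ∀ φ : G → ℂ, hs Y' (∑ g, φ g • U g) ≤ B * ∑ g, ‖φ g‖ ^ 2) :
    ∑ γ', qf (Y ⊗ₖ Y') (fun q => ∑ g, D g q.1 * U g q.2 γ') ≤ B * ∑ g, qf Y (D g) := by
  classical
  have hYi : Y⁻¹.PosDef := hY.inv
  set R : Matrix E E ℂ := CFC.sqrt Y⁻¹ with hRdef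
  have hRh : Rᴴ = R := (sqrt_posDef hYi).isHermitian.eq
  have hR : Rᴴ * R = Y⁻¹ := by
    rw [hRh]
    exact sqrt_mul_self' hYi
  have hq : ∀ d : E → ℂ, qf Y d = nsq (R *ᵥ d) := by
    intro d
    unfold qf
    rw [← hR, ← Matrix.mulVec_mulVec, star_dot_conj, dot_star_self]
    simp
  simp_rw [qf_kron R hR, hq]
  rw [Finset.sum_comm]
  have h1 : ∀ a, ∑ γ', qf Y' (fun γ => ∑ x, R a x * ∑ g, D g x * U g γ γ') ≤
      B * ∑ g, ‖(R *ᵥ D g) a‖ ^ 2 := by
    intro a
    refine le_trans (le_of_eq ?_) (hB (fun g => (R *ᵥ D g) a))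
    rw [hs_eq_sum_qf]
    refine Finset.sum_congr rfl fun γ' _ => ?_
    congr 1
    funext γ
    simp only [Matrix.sum_apply, Matrix.smul_apply, smul_eq_mul, Matrix.mulVec, dotProduct,
      Finset.mul_sum, Finset.sum_mul]
    rw [Finset.sum_comm]
    refine Finset.sum_congr rfl fun g _ => Finset.sum_congr rfl fun x _ => ?_
    ring
  refine (Finset.sum_le_sum fun a _ => h1 a).trans (le_of_eq ?_)
  rw [← Finset.mul_sum, Finset.sum_comm]
  rfl

end Kron

section Pos

variable {m n : Type*} [Fintype m] [DecidableEq m] [Fintype n] [DecidableEq n]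

lemma fromBlocks_diag_posDef {A : Matrix m m ℂ} {E : Matrix n n ℂ} (hA : A.PosDef) (hE : E.PosDef) :
    (Matrix.fromBlocks A 0 0 E).PosDef := by
  classical
  have hps : (Matrix.fromBlocks A 0 0 E).PosSemidef := by
    have : Invertible A := hA.isUnit.invertible
    have := Matrix.PosDef.fromBlocks₁₁ (0 : Matrix m n ℂ) E hA
    simp only [Matrix.conjTranspose_zero, Matrix.zero_mul, Matrix.mul_zero, sub_zero] at this
    exact this.mpr hE.posSemidef
  refine hps.posDef_iff_isUnit.mpr ?_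
  have hdA : IsUnit A.det := (Matrix.isUnit_iff_isUnit_det _).mp hA.isUnit
  have hdE : IsUnit E.det := (Matrix.isUnit_iff_isUnit_det _).mp hE.isUnit
  refine IsUnit.of_mul_eq_one (Matrix.fromBlocks A⁻¹ 0 0 E⁻¹) ?_
  rw [Matrix.fromBlocks_multiply]
  simp [Matrix.mul_nonsing_inv _ hdA, Matrix.mul_nonsing_inv _ hdE]

end Pos

end Crest.Agent.S0222Lib.SWord
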