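import Crest.Agent.S0222Lib.JConvB

/-!
# S0222: Theorem J, the conversion of labelled tokens to colours: the inequality

`conv_zq_le`: for `z` in the group algebra, product mixtures `Y₂` on coloured words, `Y₁` on labelled
words, `Yₛ` on colourings with `hs Yₛ (∑ φ π • π) ≤ B ∑ |φ π|²`:
`|Perm Lab| zq Y₂ (ρ₂ z) u u' α₂ ≤ B ∑_{ℓ,ℓ'} zq Y₁ (ρ₁ z) (u,ℓ) (u',ℓ') α₁`.
-/

set_option autoImplicit false
set_option linter.unusedSectionVars false
set_option linter.unusedSimpArgs false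

namespace Crest.Agent.S0222Lib.SWord

open Matrix MonoidAlgebra
open scoped ComplexOrder Kronecker
open Crest.Agent.S0222Lib.Planch Crest.Agent.S0222Lib.WordRep Crest.Agent.S0222Lib.JCore
open Crest.Agent.S0222Lib.Site

section General

variable {κ Tok Col A : Type*} [Fintype κ] [DecidableEq κ] [Fintype Tok] [DecidableEq Tok]
  [Fintype Col] [DecidableEq Col] [AddCommMonoid A]

open Classical in
/-- The dressed block as a sum over the source words. -/
lemma zq_eq_sum (Y Z : Matrix (κ → (Tok ⊕ Col)) (κ → (Tok ⊕ Col)) ℂ) (f : Tok ⊕ Col → A)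
    (u u' : Tok → Option κ) (α : A) :
    zq Y Z f u u' α = ∑ w₃, if inB u' w₃ ∧ cont f w₃ = α then
      qf Y (fun w => if inB u w then Z w w₃ else 0) else 0 := by
  rw [← hs_eq_zq, hs_eq_sum_qf]
  refine Finset.sum_congr rfl fun w₃ _ => ?_
  have h1 : (fun e => (PiB u * Z * PiB u' * dp (fun w : κ → (Tok ⊕ Col) => cont f w = α) :
      Matrix (κ → (Tok ⊕ Col)) (κ → (Tok ⊕ Col)) ℂ) e w₃) =
      fun e => if inB u' w₃ ∧ cont f w₃ = α then (if inB u e then Z e w₃ else 0) else 0 := by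
    funext e
    rw [mul_dp_apply, mul_dp_apply, dp_mul_apply]
    by_cases h2 : cont f w₃ = α <;> by_cases h3 : inB u' w₃ <;> simp [h2, h3]
  rw [h1]
  by_cases h2 : inB u' w₃ ∧ cont f w₃ = α
  · rw [if_pos h2]
    simp only [if_pos h2]
  · rw [if_neg h2]
    simp only [if_neg h2]
    have h0 : (fun _ : κ → (Tok ⊕ Col) => (0 : ℂ)) = 0 := rfl
    rw [h0]
    unfold qf
    simp

open Classical in
/-- **Orthogonal blocks** for the dressed form. -/
lemma qf_sum_blocks {E ι : Type*} [Fintype E] [DecidableEq E] [Fintype ι] [DecidableEq ι]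
    {Y : Matrix E E ℂ} (hY : IsUnit Y.det) (Q : ι → E → Prop)
    (hc : ∀ i, dp (Q i) * Y = Y * dp (Q i)) (hd : ∀ i j x, Q i x → Q j x → i = j) (d : E → ℂ) :
    qf Y (fun x => ∑ i, if Q i x then d x else 0) = ∑ i, qf Y (fun x => if Q i x then d x else 0) := by
  have hci : ∀ i, dp (Q i) * Y⁻¹ = Y⁻¹ * dp (Q i) := fun i => comm_inv_of_comm _ _ hY (hc i)
  have hvec : ∀ i, (fun x => if Q i x then d x else 0) = dp (Q i) *ᵥ d := by
    intro i
    funext x
    simp only [dp, Matrix.mulVec_diagonal]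
    split_ifs <;> simp
  have hsum : (fun x => ∑ i, if Q i x then d x else 0) = ∑ i, dp (Q i) *ᵥ d := by
    funext x
    rw [Finset.sum_apply]
    refine Finset.sum_congr rfl fun i _ => ?_
    rw [← hvec]
  simp_rw [hvec]
  rw [hsum]
  have hz : ∀ i j, i ≠ j → dp (Q i) *ᵥ (dp (Q j) *ᵥ d) = 0 := by
    intro i j hij
    funext x
    simp only [dp, Matrix.mulVec_diagonal, Pi.zero_apply]
    by_cases h1 : Q i x
    · by_cases h2 : Q j x
      · exact absurd (hd i j x h1 h2) hij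
      · simp [h2]
    · simp [h1]
  have hoff : ∀ i j, i ≠ j → star (dp (Q i) *ᵥ d) ⬝ᵥ (Y⁻¹ *ᵥ (dp (Q j) *ᵥ d)) = 0 := by
    intro i j hij
    have e1 : star (dp (Q i) *ᵥ d) ⬝ᵥ (Y⁻¹ *ᵥ (dp (Q j) *ᵥ d)) =
        star d ⬝ᵥ ((dp (Q i))ᴴ *ᵥ (Y⁻¹ *ᵥ (dp (Q j) *ᵥ d))) := by
      rw [star_dot_conj]
    rw [e1, dp_conjTranspose, Matrix.mulVec_mulVec, hci i, ← Matrix.mulVec_mulVec, hz i j hij]
    simp
  unfold qf
  rw [Matrix.mulVec_sum, star_sum, sum_dotProduct, Complex.re_sum]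
  refine Finset.sum_congr rfl fun i _ => ?_
  rw [dotProduct_sum, Finset.sum_eq_single i]
  · intro j _ hj
    exact hoff i j hj.symm
  · simp

end General

section Assembly

variable {κ Tok Col C Lab A : Type*} [Fintype κ] [DecidableEq κ] [Fintype Tok] [DecidableEq Tok]
  [Fintype Col] [DecidableEq Col] [Fintype C] [DecidableEq C] [Fintype Lab] [DecidableEq Lab]
  [AddCommMonoid A]

/-- The positions of the tokens in a labelled word. -/
def inB0 (u : Tok → Option κ) (x : κ → (Tok ⊕ Lab) ⊕ Col) : Prop :=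
  ∀ t p, x p = Sum.inl (Sum.inl t) ↔ u t = some p

/-- The positions of tokens and labels. -/
def joinU (u : Tok → Option κ) (ℓ : Lab → κ) : Tok ⊕ Lab → Option κ
  | Sum.inl t => u t
  | Sum.inr a => some (ℓ a)

lemma inB_colz (u : Tok → Option κ) (γ : Lab → C) (x : κ → (Tok ⊕ Lab) ⊕ Col) :
    inB u (fun p => colz γ (x p)) ↔ inB0 u x := by
  refine forall_congr' fun t => forall_congr' fun p => ?_
  rw [show (colz γ (x p) = Sum.inl t) ↔ x p = Sum.inl (Sum.inl t) from ?_]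
  rcases x p with (t' | a) | c <;> simp [colz]

lemma inB_joinU (u : Tok → Option κ) (ℓ : Lab → κ) (x : κ → (Tok ⊕ Lab) ⊕ Col) :
    inB (joinU u ℓ) x ↔ inB0 u x ∧ ∀ a p, x p = Sum.inl (Sum.inr a) ↔ ℓ a = p := by
  constructor
  · intro h
    refine ⟨fun t p => h (Sum.inl t) p, fun a p => ?_⟩
    have := h (Sum.inr a) p
    simpa [joinU] using this
  · rintro ⟨h1, h2⟩ (t | a) p
    · exact h1 t p
    · have := h2 a p
      simpa [joinU] using this

lemma inB0_relb (u : Tok → Option κ) (π : Equiv.Perm Lab) (x : κ → (Tok ⊕ Lab) ⊕ Col) :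
    inB0 u (fun p => relb π (x p)) ↔ inB0 u x := by
  refine forall_congr' fun t => forall_congr' fun p => ?_
  rw [show (relb π (x p) = Sum.inl (Sum.inl t)) ↔ x p = Sum.inl (Sum.inl t) from ?_]
  rcases x p with (t' | a) | c <;> simp

lemma hasAll_iff (x : κ → (Tok ⊕ Lab) ⊕ Col) :
    HasAll x ↔ ∃ ℓ : Lab → κ, ∀ a p, x p = Sum.inl (Sum.inr a) ↔ ℓ a = p := by
  constructor
  · intro h
    choose ℓ h1 h2 using h
    exact ⟨ℓ, fun a p => ⟨fun e => (h2 a p e).symm, fun e => by rw [← e]; exact h1 a⟩⟩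
  · rintro ⟨ℓ, h⟩ a
    exact ⟨ℓ a, (h a _).2 rfl, fun q hq => ((h a q).1 hq).symm⟩

lemma hasAll_relb_iff (x : κ → (Tok ⊕ Lab) ⊕ Col) (π : Equiv.Perm Lab) :
    HasAll (fun p => relb π (x p)) ↔ HasAll x := by
  constructor
  · intro h
    have := h.relabel π⁻¹
    simpa [← relb_mul] using this
  · exact fun h => h.relabel π

lemma HasAll.comp {x : κ → (Tok ⊕ Lab) ⊕ Col} (hx : HasAll x) (g : Equiv.Perm κ) : HasAll (x ∘ g) := by
  intro a
  obtain ⟨p, hp, hu⟩ := hx a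
  refine ⟨g⁻¹ p, by simp [hp], fun q hq => ?_⟩
  have := hu _ hq
  simp [← this]

lemma IsI.of_comp {w : κ → Tok ⊕ (Col ⊕ C)} {g : Equiv.Perm κ} (h : IsI (Lab := Lab) (w ∘ g)) :
    IsI (Lab := Lab) w := by
  obtain ⟨x, γ, hx, he⟩ := h
  refine ⟨x ∘ ⇑g⁻¹, γ, hx.comp g⁻¹, ?_⟩
  funext p
  have := congrFun he (g⁻¹ p)
  simpa using this

lemma dp_inB_comm_tp {Tok' Col' : Type*} [Fintype Tok'] [DecidableEq Tok'] [Fintype Col']
    [DecidableEq Col'] {m : Matrix (Tok' ⊕ Col') (Tok' ⊕ Col') ℂ} (hm : TokId m)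
    (v : Tok' → Option κ) :
    dp (inB v) * tp (fun _ : κ => m) = tp (fun _ : κ => m) * dp (inB v) := by
  classical
  ext w w'
  rw [dp_mul_apply, mul_dp_apply]
  by_cases h0 : tp (fun _ : κ => m) w w' = 0
  · rw [h0]
    simp
  · have hiff : inB v w ↔ inB v w' := by
      rw [tp_apply] at h0
      refine forall_congr' fun a => forall_congr' fun p => ?_
      rw [hm.letter_of_ne_zero (Finset.prod_ne_zero_iff.1 h0 p (Finset.mem_univ _)) a]
    simp only [hiff]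

lemma dp_inB_comm_mix {Tok' Col' I : Type*} [Fintype Tok'] [DecidableEq Tok'] [Fintype Col']
    [DecidableEq Col'] [Fintype I] (w : I → ℝ) {m : I → Matrix (Tok' ⊕ Col') (Tok' ⊕ Col') ℂ}
    (hm : ∀ i, TokId (m i)) (v : Tok' → Option κ) :
    dp (inB v) * mixY κ w m = mixY κ w m * dp (inB v) := by
  unfold mixY
  rw [Matrix.mul_sum, Matrix.sum_mul]
  refine Finset.sum_congr rfl fun i _ => ?_
  rw [Matrix.mul_smul, Matrix.smul_mul, dp_inB_comm_tp (hm i)]

open Classical in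
lemma cvS_mulVec_apply (v : (κ → Tok ⊕ (Col ⊕ C)) → ℂ) (x : κ → (Tok ⊕ Lab) ⊕ Col) (γ : Lab → C) :
    (cvS κ Tok Col C Lab *ᵥ v) (x, γ) = if HasAll x then v (fun p => colz γ (x p)) else 0 := by
  simp only [Matrix.mulVec, dotProduct, cvS]
  by_cases hx : HasAll x
  · rw [if_pos hx, Finset.sum_eq_single (fun p => colz γ (x p))]
    · simp [hx]
    · intro w _ hw
      have : ¬ (HasAll x ∧ (fun p => colz γ (x p)) = w) := fun h => hw h.2.symm
      simp [this]
    · simp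
  · rw [if_neg hx]
    refine Finset.sum_eq_zero fun w _ => ?_
    simp [hx]

end Assembly

section Main

variable {D : ℕ} {Tok Col C Lab A I₁ I₂ : Type*} [Fintype Tok] [DecidableEq Tok]
  [Fintype Col] [DecidableEq Col] [Fintype C] [DecidableEq C] [Fintype Lab] [DecidableEq Lab]
  [AddCommMonoid A] [Fintype I₁] [Fintype I₂]

open Classical in
/-- **The conversion inequality** for one pair of token placements. -/
theorem conv_zq_le (od₁ : (Tok ⊕ Lab) ⊕ Col → Bool) (od₂ : Tok ⊕ (Col ⊕ C) → Bool)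
    (hod : ∀ (γ : Lab → C) l, od₂ (colz γ l) = od₁ l)
    (w₁ : I₁ → ℝ) (w₂ : I₂ → ℝ) (Aa : I₁ → Matrix Col Col ℂ) (E : I₂ → Matrix C C ℂ)
    (hY₁ : (mixY (B D) w₁ (fun i => a1 (Tok := Tok) (Lab := Lab) (Aa i))).PosDef)
    (hYs : (mixY Lab w₂ E).PosDef)
    (hY₂ : (mixY (B D) (fun q : I₁ × I₂ => w₁ q.1 * w₂ q.2)
      (fun q => a2 (Tok := Tok) (Aa q.1) (E q.2))).PosDef)
    (z : MonoidAlgebra ℝ (Equiv.Perm (B D))) {Bd : ℝ}
    (hB : ∀ φ : Equiv.Perm Lab → ℂ,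
      hs (mixY Lab w₂ E) (∑ π, φ π • rhoG C π) ≤ Bd * ∑ π, ‖φ π‖ ^ 2)
    (f₁ : (Tok ⊕ Lab) ⊕ Col → A) (f₂ : Tok ⊕ (Col ⊕ C) → A) (α₁ α₂ : A)
    (hf : ∀ (x' : B D → (Tok ⊕ Lab) ⊕ Col) (γ' : Lab → C), HasAll x' →
      (cont f₂ (fun p => colz γ' (x' p)) = α₂ ↔ cont f₁ x' = α₁))
    (hI : ∀ w : B D → Tok ⊕ (Col ⊕ C), cont f₂ w = α₂ → IsI (Lab := Lab) w)
    (hf₁ : ∀ (π : Equiv.Perm Lab) l, f₁ (relb π l) = f₁ l)
    (u u' : Tok → Option (B D)) :
    (Fintype.card (Equiv.Perm Lab) : ℝ) *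
        zq (mixY (B D) (fun q : I₁ × I₂ => w₁ q.1 * w₂ q.2)
          (fun q => a2 (Tok := Tok) (Aa q.1) (E q.2))) (rhoAS od₂ D z) f₂ u u' α₂ ≤
      Bd * ∑ ℓ : Lab → B D, ∑ ℓ' : Lab → B D,
        zq (mixY (B D) w₁ (fun i => a1 (Tok := Tok) (Lab := Lab) (Aa i))) (rhoAS od₁ D z) f₁
          (joinU u ℓ) (joinU u' ℓ') α₁ := by
  set c : ℝ := (Fintype.card (Equiv.Perm Lab) : ℝ) with hc
  have hc0 : 0 < c := by
    rw [hc]
    exact_mod_cast Fintype.card_pos
  set Y₂ := mixY (B D) (fun q : I₁ × I₂ => w₁ q.1 * w₂ q.2)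
    (fun q => a2 (Tok := Tok) (Aa q.1) (E q.2)) with hY₂def
  set Y₁ := mixY (B D) w₁ (fun i => a1 (Tok := Tok) (Lab := Lab) (Aa i)) with hY₁def
  set Ys := mixY Lab w₂ E with hYsdef
  set Z₂ := rhoAS od₂ D z with hZ₂
  set Z₁ := rhoAS od₁ D z with hZ₁
  set ψ : (B D → Tok ⊕ (Col ⊕ C)) → (B D → Tok ⊕ (Col ⊕ C)) → ℂ :=
    fun w₃ w => if inB u w then Z₂ w w₃ else 0 with hψ
  set G₂ : (B D → Tok ⊕ (Col ⊕ C)) → Prop := fun w₃ => inB u' w₃ ∧ cont f₂ w₃ = α₂ with hG₂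
  set g : (B D → Tok ⊕ (Col ⊕ C)) → ℝ := fun w₃ => if G₂ w₃ then qf Y₂ (ψ w₃) else 0 with hg
  set G₁ : (B D → (Tok ⊕ Lab) ⊕ Col) → Prop := fun x' => inB0 u' x' ∧ cont f₁ x' = α₁ with hG₁
  set P : (B D → (Tok ⊕ Lab) ⊕ Col) → Prop := fun x' => HasAll x' ∧ G₁ x' with hP
  set D₀ : (B D → (Tok ⊕ Lab) ⊕ Col) → (B D → (Tok ⊕ Lab) ⊕ Col) → ℂ :=
    fun x₁ x => if HasAll x ∧ inB0 u x then Z₁ x x₁ else 0 with hD₀
  set T : ℝ := ∑ x', if P x' then qf Y₁ (D₀ x') else 0 with hT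
  have h𝒴 : (Y₁ ⊗ₖ Ys).PosDef := hY₁.kronecker hYs
  have hS := cvS_mul_mix (κ := B D) (Tok := Tok) (Lab := Lab) w₁ w₂ Aa E
  have hdet₂ : IsUnit Y₂.det := (Matrix.isUnit_iff_isUnit_det _).mp hY₂.isUnit
  have hdet𝒴 : IsUnit (Y₁ ⊗ₖ Ys).det := (Matrix.isUnit_iff_isUnit_det _).mp h𝒴.isUnit
  have hdet₁ : IsUnit Y₁.det := (Matrix.isUnit_iff_isUnit_det _).mp hY₁.isUnit
  -- the sum over source words
  have h4 : c * zq Y₂ Z₂ f₂ u u' α₂ =
      ∑ q : (B D → (Tok ⊕ Lab) ⊕ Col) × (Lab → C),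
        if HasAll q.1 then g (fun p => colz q.2 (q.1 p)) else 0 := by
    rw [sum_colz g, zq_eq_sum, nsmul_eq_mul]
    congr 1
    refine Finset.sum_congr rfl fun w₃ _ => ?_
    by_cases h : G₂ w₃
    · rw [if_pos h, if_pos (hI w₃ h.2)]
      simp only [hg, if_pos h]
      rfl
    · rw [if_neg h]
      simp [hg, h]
  -- the dressed form
  have h5 : ∀ (x' : B D → (Tok ⊕ Lab) ⊕ Col) (γ' : Lab → C), G₂ (fun p => colz γ' (x' p)) →
      c * qf Y₂ (ψ (fun p => colz γ' (x' p))) =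
        qf (Y₁ ⊗ₖ Ys) (cvS (B D) Tok Col C Lab *ᵥ ψ (fun p => colz γ' (x' p))) := by
    intro x' γ' hG
    rw [qf_cvS hdet₂ hdet𝒴 hS]
    intro w hw
    have hI₃ := hI _ hG.2
    have hZ : Z₂ w (fun p => colz γ' (x' p)) ≠ 0 := by
      intro h0
      apply hw
      simp [hψ, h0]
    obtain ⟨k, hk⟩ := rhoAS_ne_zero z _ _ hZ
    rw [hk] at hI₃
    exact hI₃.of_comp
  have hG : ∀ (x' : B D → (Tok ⊕ Lab) ⊕ Col) (γ' : Lab → C), HasAll x' →
      (G₂ (fun p => colz γ' (x' p)) ↔ G₁ x') := by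
    intro x' γ' hx'
    simp only [hG₂, hG₁]
    rw [inB_colz, hf x' γ' hx']
  -- the entries
  have h7 : ∀ (x' : B D → (Tok ⊕ Lab) ⊕ Col) (γ' : Lab → C), HasAll x' →
      cvS (B D) Tok Col C Lab *ᵥ ψ (fun p => colz γ' (x' p)) =
        fun q => ∑ π : Equiv.Perm Lab, D₀ (fun p => relb π (x' p)) q.1 * rhoG C π q.2 γ' := by
    intro x' γ' hx'
    funext ⟨x, γ⟩
    rw [cvS_mulVec_apply]
    simp only [hψ, hD₀, rhoG_apply]
    by_cases hx : HasAll x
    · rw [if_pos hx]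
      by_cases hu : inB0 u x
      · rw [if_pos ((inB_colz u γ x).2 hu), hZ₂, rhoAS_colz od₁ od₂ hod z hx hx']
        refine Finset.sum_congr rfl fun π _ => ?_
        rw [if_pos (⟨hx, hu⟩ : HasAll x ∧ inB0 u x)]
        by_cases hπ : γ ∘ π = γ'
        · rw [if_pos hπ, if_pos hπ.symm, mul_one]
        · rw [if_neg hπ, if_neg (fun h => hπ h.symm), mul_zero]
      · rw [if_neg (fun h => hu ((inB_colz u γ x).1 h))]
        refine (Finset.sum_eq_zero fun π _ => ?_).symm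
        rw [if_neg (fun h => hu h.2), zero_mul]
    · rw [if_neg hx]
      refine (Finset.sum_eq_zero fun π _ => ?_).symm
      rw [if_neg (fun h => hx h.1), zero_mul]
  -- the bound for one labelled source word
  have h8 : ∀ x', P x' → ∑ γ' : Lab → C, c * g (fun p => colz γ' (x' p)) ≤
      Bd * ∑ π : Equiv.Perm Lab, qf Y₁ (D₀ (fun p => relb π (x' p))) := by
    rintro x' ⟨hx', hG1⟩
    have h81 : ∀ γ' : Lab → C, c * g (fun p => colz γ' (x' p)) =
        qf (Y₁ ⊗ₖ Ys) (fun q => ∑ π : Equiv.Perm Lab,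
          D₀ (fun p => relb π (x' p)) q.1 * rhoG C π q.2 γ') := by
      intro γ'
      have hG2 := (hG x' γ' hx').2 hG1
      simp only [hg]
      rw [if_pos hG2, h5 x' γ' hG2, h7 x' γ' hx']
    simp_rw [h81]
    exact qf_kron_sum_le hY₁ (fun π : Equiv.Perm Lab => D₀ (fun p => relb π (x' p)))
      (fun π => rhoG C π) hB
  -- summing over the labelled source words
  have h9 : c * (c * zq Y₂ Z₂ f₂ u u' α₂) ≤
      ∑ x', if P x' then Bd * ∑ π : Equiv.Perm Lab, qf Y₁ (D₀ (fun p => relb π (x' p))) else 0 := by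
    rw [h4, Fintype.sum_prod_type, Finset.mul_sum]
    refine Finset.sum_le_sum fun x' _ => ?_
    rw [Finset.mul_sum]
    by_cases hx' : HasAll x'
    · by_cases hG1 : G₁ x'
      · rw [if_pos (⟨hx', hG1⟩ : P x')]
        simp only [if_pos hx']
        exact h8 x' ⟨hx', hG1⟩
      · rw [if_neg (fun h : P x' => hG1 h.2)]
        apply le_of_eq
        refine Finset.sum_eq_zero fun γ' _ => ?_
        simp only [if_pos hx', hg]
        rw [if_neg (fun h => hG1 ((hG x' γ' hx').1 h))]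
        simp
    · rw [if_neg (fun h : P x' => hx' h.1)]
      apply le_of_eq
      refine Finset.sum_eq_zero fun γ' _ => ?_
      simp [hx']
  -- the relabelling
  have h10 : (∑ x', if P x' then Bd * ∑ π : Equiv.Perm Lab, qf Y₁ (D₀ (fun p => relb π (x' p)))
      else 0) = Bd * (c * T) := by
    have e1 : ∀ π : Equiv.Perm Lab,
        ∑ x', (if P x' then qf Y₁ (D₀ (fun p => relb π (x' p))) else 0) = T := by
      intro π
      rw [hT, ← Equiv.sum_comp (Equiv.arrowCongr (Equiv.refl (B D)) (relb (Tok := Tok) (Col := Col) π))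
        (fun x' => if P x' then qf Y₁ (D₀ x') else 0)]
      refine Finset.sum_congr rfl fun x' _ => ?_
      have e2 : (Equiv.arrowCongr (Equiv.refl (B D)) (relb (Tok := Tok) (Col := Col) π)) x' =
          fun p => relb π (x' p) := rfl
      rw [e2]
      have hPe : P (fun p => relb π (x' p)) ↔ P x' := by
        simp only [hP, hG₁]
        rw [hasAll_relb_iff, inB0_relb]
        have e3 : cont f₁ (fun p => relb π (x' p)) = cont f₁ x' := by
          unfold cont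
          simp only [hf₁]
        rw [e3]
      simp only [hPe]
    calc (∑ x', if P x' then Bd * ∑ π : Equiv.Perm Lab, qf Y₁ (D₀ (fun p => relb π (x' p))) else 0)
        = ∑ x', Bd * ∑ π : Equiv.Perm Lab, (if P x' then qf Y₁ (D₀ (fun p => relb π (x' p))) else 0) := by
          refine Finset.sum_congr rfl fun x' _ => ?_
          by_cases h : P x'
          · simp only [if_pos h]
          · simp only [if_neg h]
            simp
      _ = Bd * ∑ π : Equiv.Perm Lab, ∑ x', (if P x' then qf Y₁ (D₀ (fun p => relb π (x' p))) else 0) := by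
          rw [← Finset.mul_sum, Finset.sum_comm]
      _ = Bd * (c * T) := by
          simp only [e1, Finset.sum_const, Finset.card_univ, nsmul_eq_mul]
          rw [hc]
  -- the blocks on both sides
  have h11 : T = ∑ ℓ : Lab → B D, ∑ ℓ' : Lab → B D,
      zq Y₁ Z₁ f₁ (joinU u ℓ) (joinU u' ℓ') α₁ := by
    simp_rw [zq_eq_sum]
    have e1 : ∀ ℓ : Lab → B D, ∑ ℓ' : Lab → B D, ∑ x', (if inB (joinU u' ℓ') x' ∧ cont f₁ x' = α₁ then
          qf Y₁ (fun w => if inB (joinU u ℓ) w then Z₁ w x' else 0) else 0) =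
        ∑ x', if P x' then qf Y₁ (fun w => if inB (joinU u ℓ) w then Z₁ w x' else 0) else 0 := by
      intro ℓ
      rw [Finset.sum_comm]
      refine Finset.sum_congr rfl fun x' _ => ?_
      by_cases hPx : P x'
      · rw [if_pos hPx]
        obtain ⟨hx', hu', hcont⟩ := hPx
        obtain ⟨ℓ₀, hℓ₀⟩ := (hasAll_iff x').1 hx'
        rw [Finset.sum_eq_single ℓ₀]
        · rw [if_pos ⟨(inB_joinU u' ℓ₀ x').2 ⟨hu', hℓ₀⟩, hcont⟩]
        · intro ℓ' _ hne
          rw [if_neg]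
          rintro ⟨h1, -⟩
          apply hne
          funext a
          exact ((inB_joinU u' ℓ' x').1 h1).2 a _ |>.1 ((hℓ₀ a _).2 rfl)
        · simp
      · rw [if_neg hPx]
        refine Finset.sum_eq_zero fun ℓ' _ => ?_
        rw [if_neg]
        rintro ⟨h1, h2⟩
        have h3 := (inB_joinU u' ℓ' x').1 h1
        exact hPx ⟨(hasAll_iff x').2 ⟨ℓ', h3.2⟩, h3.1, h2⟩
    simp_rw [e1]
    rw [Finset.sum_comm, hT]
    refine Finset.sum_congr rfl fun x' _ => ?_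
    by_cases hPx : P x'
    · simp only [if_pos hPx]
      have hblocks := qf_sum_blocks hdet₁ (fun (ℓ : Lab → B D) w => inB (joinU u ℓ) w)
        (fun ℓ => dp_inB_comm_mix w₁ (fun i => tokId_extC (Aa i)) (joinU u ℓ))
        (fun ℓ ℓ' x h1 h2 => by
          funext a
          have h3 := (inB_joinU u ℓ x).1 h1
          have h4 := (inB_joinU u ℓ' x).1 h2
          exact ((h4.2 a _).1 ((h3.2 a _).2 rfl)).symm)
        (fun w => Z₁ w x')
      rw [← hblocks]
      congr 1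
      funext x
      simp only [hD₀]
      by_cases h1 : HasAll x ∧ inB0 u x
      · rw [if_pos h1]
        obtain ⟨ℓ₀, hℓ₀⟩ := (hasAll_iff x).1 h1.1
        rw [Finset.sum_eq_single ℓ₀]
        · rw [if_pos ((inB_joinU u ℓ₀ x).2 ⟨h1.2, hℓ₀⟩)]
        · intro ℓ _ hne
          rw [if_neg]
          intro h2
          apply hne
          funext a
          exact ((inB_joinU u ℓ x).1 h2).2 a _ |>.1 ((hℓ₀ a _).2 rfl)
        · simp
      · rw [if_neg h1]
        refine (Finset.sum_eq_zero fun ℓ _ => ?_).symm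
        rw [if_neg]
        intro h2
        have h3 := (inB_joinU u ℓ x).1 h2
        exact h1 ⟨(hasAll_iff x).2 ⟨ℓ, h3.2⟩, h3.1⟩
    · simp only [if_neg hPx]
      simp
  rw [← h11]
  have h12 : c * (c * zq Y₂ Z₂ f₂ u u' α₂) ≤ c * (Bd * T) := by
    calc _ ≤ _ := h9
      _ = Bd * (c * T) := h10
      _ = _ := by ring
  exact le_of_mul_le_mul_left h12 hc0

end Main

end Crest.Agent.S0222Lib.SWord
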