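import Crest.Agent.S0222Lib.JConvC

/-!
# S0222: Theorem J, restriction to a sub-alphabet

For injective maps of tokens and colours, the dressed blocks of a mixture and of an element of the group
algebra in the big alphabet agree with those in the small alphabet, if the words of the block only use
letters of the small alphabet: `zq_embed`.
-/

set_option autoImplicit false
set_option linter.unusedSectionVars false
set_option linter.unusedSimpArgs false

namespace Crest.Agent.S0222Lib.SWord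

open Matrix MonoidAlgebra
open scoped ComplexOrder Kronecker
open Crest.Agent.S0222Lib.Planch Crest.Agent.S0222Lib.WordRep Crest.Agent.S0222Lib.JCore
open Crest.Agent.S0222Lib.Site

section Embed

variable {κ Tok Col Tok' Col' : Type*} [Fintype κ] [DecidableEq κ] [Fintype Tok] [DecidableEq Tok]
  [Fintype Col] [DecidableEq Col] [Fintype Tok'] [DecidableEq Tok'] [Fintype Col'] [DecidableEq Col']

/-- The map of letters. -/
def iotaL (ιt : Tok' → Tok) (ιc : Col' → Col) : Tok' ⊕ Col' → Tok ⊕ Col := Sum.map ιt ιc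

/-- The embedding of words as a matrix. -/
noncomputable def iotaJ (κ : Type*) [Fintype κ] [DecidableEq κ] (ιt : Tok' → Tok) (ιc : Col' → Col) :
    Matrix (κ → Tok ⊕ Col) (κ → Tok' ⊕ Col') ℂ :=
  open Classical in fun m w => if m = (fun p => iotaL ιt ιc (w p)) then 1 else 0

variable {ιt : Tok' → Tok} {ιc : Col' → Col}

lemma iotaL_injective (ht : Function.Injective ιt) (hc : Function.Injective ιc) :
    Function.Injective (iotaL ιt ιc) := Function.Injective.sumMap ht hc

lemma iotaW_injective (ht : Function.Injective ιt) (hc : Function.Injective ιc) :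
    Function.Injective (fun (w : κ → Tok' ⊕ Col') (p : κ) => iotaL ιt ιc (w p)) := by
  intro w w' h
  funext p
  exact iotaL_injective ht hc (congrFun h p)

lemma iotaJ_adj (ht : Function.Injective ιt) (hc : Function.Injective ιc) :
    (iotaJ κ ιt ιc)ᴴ * iotaJ κ ιt ιc = 1 := by
  classical
  ext w w'
  rw [Matrix.mul_apply]
  simp only [Matrix.conjTranspose_apply, iotaJ]
  rw [Finset.sum_eq_single (fun p => iotaL ιt ιc (w p))]
  · by_cases h : w = w'
    · subst h
      simp
    · have : ¬ (fun p => iotaL ιt ιc (w p)) = fun p => iotaL ιt ιc (w' p) :=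
        fun e => h (iotaW_injective ht hc e)
      simp [this, h]
  · intro m _ hm
    simp [hm]
  · simp

lemma iotaJ_mulVec_apply (ht : Function.Injective ιt) (hc : Function.Injective ιc)
    (d : (κ → Tok' ⊕ Col') → ℂ) (w : κ → Tok' ⊕ Col') :
    (iotaJ κ ιt ιc *ᵥ d) (fun p => iotaL ιt ιc (w p)) = d w := by
  classical
  simp only [Matrix.mulVec, dotProduct, iotaJ]
  rw [Finset.sum_eq_single w]
  · simp
  · intro w' _ hw'
    have : ¬ (fun p => iotaL ιt ιc (w p)) = fun p => iotaL ιt ιc (w' p) :=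
      fun e => hw' (iotaW_injective ht hc e).symm
    simp [this]
  · simp

lemma iotaJ_mulVec_off (d : (κ → Tok' ⊕ Col') → ℂ) {m : κ → Tok ⊕ Col}
    (h : ¬ ∃ w : κ → Tok' ⊕ Col', (fun p => iotaL ιt ιc (w p)) = m) :
    (iotaJ κ ιt ιc *ᵥ d) m = 0 := by
  classical
  simp only [Matrix.mulVec, dotProduct, iotaJ]
  refine Finset.sum_eq_zero fun w _ => ?_
  have : ¬ m = fun p => iotaL ιt ιc (w p) := fun e => h ⟨w, e.symm⟩
  simp [this]

/-- The form on the image. -/
theorem qf_iotaJ {Y : Matrix (κ → Tok ⊕ Col) (κ → Tok ⊕ Col) ℂ}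
    {Y' : Matrix (κ → Tok' ⊕ Col') (κ → Tok' ⊕ Col') ℂ} (hY : IsUnit Y.det) (hY' : IsUnit Y'.det)
    (ht : Function.Injective ιt) (hc : Function.Injective ιc)
    (h : Y * iotaJ κ ιt ιc = iotaJ κ ιt ιc * Y') (d : (κ → Tok' ⊕ Col') → ℂ) :
    qf Y (iotaJ κ ιt ιc *ᵥ d) = qf Y' d := by
  have h1 : Y⁻¹ * iotaJ κ ιt ιc = iotaJ κ ιt ιc * Y'⁻¹ :=
    (mul_inv_of_intertwine (S := iotaJ κ ιt ιc) hY' hY h.symm).symm
  unfold qf
  rw [Matrix.mulVec_mulVec, h1, ← Matrix.mulVec_mulVec, ← star_dot_conj, Matrix.mulVec_mulVec,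
    iotaJ_adj ht hc, Matrix.one_mulVec]

/-- The intertwining for a mixture of letter operators. -/
theorem mix_iotaJ {I : Type*} [Fintype I] (w : I → ℝ) (a : I → Matrix (Tok ⊕ Col) (Tok ⊕ Col) ℂ)
    (a' : I → Matrix (Tok' ⊕ Col') (Tok' ⊕ Col') ℂ)
    (h1 : ∀ i l l', a i (iotaL ιt ιc l) (iotaL ιt ιc l') = a' i l l')
    (h2 : ∀ i m l, (¬ ∃ l₀, iotaL ιt ιc l₀ = m) → a i m (iotaL ιt ιc l) = 0)
    (ht : Function.Injective ιt) (hc : Function.Injective ιc) :
    mixY κ w a * iotaJ κ ιt ιc = iotaJ κ ιt ιc * mixY κ w a' := by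
  classical
  unfold mixY
  rw [Matrix.sum_mul, Matrix.mul_sum]
  refine Finset.sum_congr rfl fun i _ => ?_
  rw [Matrix.smul_mul, Matrix.mul_smul]
  congr 1
  ext m x
  rw [Matrix.mul_apply, Matrix.mul_apply]
  rw [Finset.sum_eq_single (fun p => iotaL ιt ιc (x p))]
  · simp only [iotaJ, if_true, mul_one]
    by_cases hm : ∃ y : κ → Tok' ⊕ Col', (fun p => iotaL ιt ιc (y p)) = m
    · obtain ⟨y, rfl⟩ := hm
      rw [Finset.sum_eq_single y]
      · simp [tp_apply, h1]
      · intro y' _ hy'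
        have : ¬ (fun p => iotaL ιt ιc (y p)) = fun p => iotaL ιt ιc (y' p) :=
          fun e => hy' (iotaW_injective ht hc e).symm
        simp [this]
      · simp
    · have h3 : tp (fun _ : κ => a i) m (fun p => iotaL ιt ιc (x p)) = 0 := by
        rw [tp_apply]
        have : ∃ p, ¬ ∃ l₀, iotaL ιt ιc l₀ = m p := by
          by_contra hall
          push_neg at hall
          choose y hy using hall
          exact hm ⟨y, funext hy⟩
        obtain ⟨p, hp⟩ := this
        exact Finset.prod_eq_zero (Finset.mem_univ p) (h2 i _ _ hp)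
      rw [h3]
      refine (Finset.sum_eq_zero fun y _ => ?_).symm
      have : ¬ m = fun p => iotaL ιt ιc (y p) := fun e => hm ⟨y, e.symm⟩
      simp [this]
  · intro b _ hb
    simp [iotaJ, hb]
  · simp

end Embed

section Z

variable {D : ℕ} {Tok Col Tok' Col' A : Type*} [Fintype Tok] [DecidableEq Tok] [Fintype Col]
  [DecidableEq Col] [Fintype Tok'] [DecidableEq Tok'] [Fintype Col'] [DecidableEq Col']
  [AddCommMonoid A] {ιt : Tok' → Tok} {ιc : Col' → Col}

lemma iotaL_eq_inl (ht : Function.Injective ιt) (l : Tok' ⊕ Col') (a : Tok') :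
    iotaL ιt ιc l = Sum.inl (ιt a) ↔ l = Sum.inl a := by
  rcases l with b | c
  · simp [iotaL, ht.eq_iff]
  · simp [iotaL]

lemma epsS_iota (od : Tok ⊕ Col → Bool) (g : Equiv.Perm (B D)) (w : B D → Tok' ⊕ Col') :
    epsS bval od g (fun p => iotaL ιt ιc (w p)) = epsS bval (od ∘ iotaL ιt ιc) g w := rfl

/-- The entries of an element of the group algebra on the image. -/
theorem rhoAS_iota (od : Tok ⊕ Col → Bool) (ht : Function.Injective ιt) (hc : Function.Injective ιc)
    (z : MonoidAlgebra ℝ (Equiv.Perm (B D))) (w w' : B D → Tok' ⊕ Col') :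
    rhoAS od D z (fun p => iotaL ιt ιc (w p)) (fun p => iotaL ιt ιc (w' p)) =
      rhoAS (od ∘ iotaL ιt ιc) D z w w' := by
  classical
  simp_rw [rhoAS_eq_sum, Matrix.sum_apply]
  refine Finset.sum_congr rfl fun g _ => ?_
  simp only [Matrix.smul_apply, rhoS_apply]
  by_cases h : w' = w ∘ g
  · subst h
    have e : (fun p => iotaL ιt ιc ((w ∘ ⇑g) p)) = (fun p => iotaL ιt ιc (w p)) ∘ ⇑g := rfl
    rw [if_pos e, if_pos rfl, epsS_iota]
  · rw [if_neg h, if_neg]
    intro e
    apply h
    apply iotaW_injective (κ := B D) ht hc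
    exact e

/-- **Restriction of a dressed block to a sub-alphabet**. -/
theorem zq_embed (od : Tok ⊕ Col → Bool) (ht : Function.Injective ιt) (hc : Function.Injective ιc)
    {Y : Matrix (B D → Tok ⊕ Col) (B D → Tok ⊕ Col) ℂ}
    {Y' : Matrix (B D → Tok' ⊕ Col') (B D → Tok' ⊕ Col') ℂ} (hY : IsUnit Y.det) (hY' : IsUnit Y'.det)
    (hYY : Y * iotaJ (B D) ιt ιc = iotaJ (B D) ιt ιc * Y')
    (z : MonoidAlgebra ℝ (Equiv.Perm (B D))) (f : Tok ⊕ Col → A) (v v' : Tok → Option (B D)) (α : A)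
    (hv : ∀ a, (¬ ∃ a₀, ιt a₀ = a) → v a = none) (hv' : ∀ a, (¬ ∃ a₀, ιt a₀ = a) → v' a = none)
    (hR : ∀ w : B D → Tok ⊕ Col, inB v' w → cont f w = α →
      ∃ w₀ : B D → Tok' ⊕ Col', (fun p => iotaL ιt ιc (w₀ p)) = w) :
    zq Y (rhoAS od D z) f v v' α =
      zq Y' (rhoAS (od ∘ iotaL ιt ιc) D z) (f ∘ iotaL ιt ιc) (v ∘ ιt) (v' ∘ ιt) α := by
  classical
  have hinB : ∀ (u : Tok → Option (B D)), (∀ a, (¬ ∃ a₀, ιt a₀ = a) → u a = none) →
      ∀ w : B D → Tok' ⊕ Col', (inB u (fun p => iotaL ιt ιc (w p)) ↔ inB (u ∘ ιt) w) := by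
    intro u hu w
    constructor
    · intro h a p
      have := h (ιt a) p
      simp only [Function.comp]
      rw [← this, iotaL_eq_inl ht]
    · intro h a p
      by_cases ha : ∃ a₀, ιt a₀ = a
      · obtain ⟨a₀, rfl⟩ := ha
        have := h a₀ p
        simp only [Function.comp] at this
        rw [iotaL_eq_inl ht, this]
      · rw [hu a ha]
        simp only [reduceCtorEq, iff_false]
        intro e
        rcases hw : w p with b | c
        · rw [hw] at e
          simp only [iotaL, Sum.map_inl, Sum.inl.injEq] at e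
          exact ha ⟨b, e⟩
        · rw [hw] at e
          simp [iotaL] at e
  rw [zq_eq_sum, zq_eq_sum]
  symm
  refine Fintype.sum_of_injective (fun (w : B D → Tok' ⊕ Col') p => iotaL ιt ιc (w p))
    (iotaW_injective ht hc) _ _ ?_ ?_
  · intro w₃ hw₃
    rw [if_neg]
    rintro ⟨h1, h2⟩
    obtain ⟨w₀, hw₀⟩ := hR w₃ h1 h2
    exact hw₃ ⟨w₀, hw₀⟩
  · intro w₃
    have e1 : cont f (fun p => iotaL ιt ιc (w₃ p)) = cont (f ∘ iotaL ιt ιc) w₃ := rfl
    simp only [e1, hinB v' hv' w₃]
    by_cases h : inB (v' ∘ ιt) w₃ ∧ cont (f ∘ iotaL ιt ιc) w₃ = α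
    · rw [if_pos h, if_pos h]
      have e2 : (fun w => if inB v w then rhoAS od D z w (fun p => iotaL ιt ιc (w₃ p)) else 0) =
          iotaJ (B D) ιt ιc *ᵥ (fun w => if inB (v ∘ ιt) w then
            rhoAS (od ∘ iotaL ιt ιc) D z w w₃ else 0) := by
        funext m
        by_cases hm : ∃ w : B D → Tok' ⊕ Col', (fun p => iotaL ιt ιc (w p)) = m
        · obtain ⟨w, rfl⟩ := hm
          rw [iotaJ_mulVec_apply ht hc]
          simp only [hinB v hv w, rhoAS_iota od ht hc]
        · rw [iotaJ_mulVec_off _ hm]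
          by_cases hv1 : inB v m
          · rw [if_pos hv1]
            by_contra hne
            obtain ⟨g, hg⟩ := rhoAS_ne_zero z _ _ hne
            apply hm
            refine ⟨w₃ ∘ ⇑g⁻¹, ?_⟩
            funext p
            have := congrFun hg (g⁻¹ p)
            simpa using this
          · rw [if_neg hv1]
      rw [e2, qf_iotaJ hY hY' ht hc hYY]
    · rw [if_neg h, if_neg h]

end Z

end Crest.Agent.S0222Lib.SWord
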