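import Crest.Agent.S0222Lib.WordTensor

/-!
# S0222: the core of the dressed `L²` recursion (Theorem J), part 1

No square roots: the dressed Hilbert–Schmidt norm is `hs Y D = re Tr (Dᴴ Y⁻¹ D)`.

* `col_cs`: the column Cauchy–Schwarz inequality: if `∑ Cₛᴴ Y' Cₛ ≤ k Y` then
  `hs Y (∑ Cₛᴴ Bₛ) ≤ k ∑ hs Y' Bₛ`.
* `sum_tp_le`: the average over an involution-rich family of assignments of tensor products of
  `2`-valued site operators is dominated by the tensor product of the "means" `G`, with
  `G² = (A₀² + A₁²)/2`, if each involution flips at most two active sites.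
-/

set_option autoImplicit false

namespace Crest.Agent.S0222Lib.JCore

open Matrix
open scoped Kronecker ComplexOrder
open Crest.Agent.S0222Lib.Site

section ColCS

variable {E F G S : Type*} [Fintype E] [DecidableEq E] [Fintype F] [DecidableEq F] [Fintype G]
  [Fintype S]

/-- The value of the form `⟨d, Y⁻¹ d⟩`. -/
noncomputable def qf (Y : Matrix E E ℂ) (d : E → ℂ) : ℝ := (star d ⬝ᵥ (Y⁻¹ *ᵥ d)).re

/-- The dressed squared Hilbert–Schmidt norm. -/
noncomputable def hs (Y : Matrix E E ℂ) (D : Matrix E G ℂ) : ℝ := (Dᴴ * Y⁻¹ * D).trace.re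

theorem hs_eq_sum_qf (Y : Matrix E E ℂ) (D : Matrix E G ℂ) :
    hs Y D = ∑ g, qf Y (fun e => D e g) := by
  unfold hs qf
  rw [Matrix.trace, Complex.re_sum]
  refine Finset.sum_congr rfl (fun g _ => ?_)
  congr 1
  simp only [Matrix.diag_apply, Matrix.mul_apply, Matrix.conjTranspose_apply, dotProduct,
    Matrix.mulVec, Pi.star_apply, Finset.sum_mul, Finset.mul_sum]
  rw [Finset.sum_comm]
  refine Finset.sum_congr rfl (fun a _ => Finset.sum_congr rfl (fun b _ => ?_))
  ring

lemma qf_nonneg {Y : Matrix E E ℂ} (hY : Y.PosDef) (d : E → ℂ) : 0 ≤ qf Y d := by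
  have h := hY.inv.posSemidef.dotProduct_mulVec_nonneg d
  exact (Complex.le_def.mp h).1

lemma hs_nonneg {Y : Matrix E E ℂ} (hY : Y.PosDef) (D : Matrix E G ℂ) : 0 ≤ hs Y D := by
  rw [hs_eq_sum_qf]
  exact Finset.sum_nonneg (fun g _ => qf_nonneg hY _)

lemma star_dot_conj (C : Matrix F E ℂ) (x : E → ℂ) (y : F → ℂ) :
    star x ⬝ᵥ (Cᴴ *ᵥ y) = star (C *ᵥ x) ⬝ᵥ y := by
  rw [Matrix.star_mulVec, Matrix.dotProduct_mulVec]

lemma star_dot_conj2 (C : Matrix F E ℂ) (M : Matrix F F ℂ) (x : E → ℂ) :
    star x ⬝ᵥ ((Cᴴ * M * C) *ᵥ x) = star (C *ᵥ x) ⬝ᵥ (M *ᵥ (C *ᵥ x)) := by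
  rw [← Matrix.mulVec_mulVec, ← Matrix.mulVec_mulVec, star_dot_conj]

/-- The column Cauchy–Schwarz inequality for vectors. -/
theorem qf_col_cs {Y : Matrix E E ℂ} {Y' : Matrix F F ℂ} (hY : Y.PosDef) (hY' : Y'.PosDef)
    (C : S → Matrix F E ℂ) (b : S → F → ℂ) {k : ℝ} (hk : 0 < k)
    (hcol : ((k : ℂ) • Y - ∑ s, (C s)ᴴ * Y' * C s).PosSemidef) :
    qf Y (∑ s, (C s)ᴴ *ᵥ b s) ≤ k * ∑ s, qf Y' (b s) := by
  classical
  set d : E → ℂ := ∑ s, (C s)ᴴ *ᵥ b s with hd
  set v : E → ℂ := Y⁻¹ *ᵥ d with hv
  have hYu : IsUnit Y.det := (Matrix.isUnit_iff_isUnit_det _).mp hY.isUnit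
  have hY'u : IsUnit Y'.det := (Matrix.isUnit_iff_isUnit_det _).mp hY'.isUnit
  have hYv : Y *ᵥ v = d := by
    rw [hv, Matrix.mulVec_mulVec, Matrix.mul_nonsing_inv _ hYu, Matrix.one_mulVec]
  set Q : ℝ := qf Y d with hQ
  -- `Q = re ⟨v, d⟩`
  have hQ1 : Q = (star v ⬝ᵥ d).re := by
    have : star v ⬝ᵥ d = star (star d ⬝ᵥ v) := by
      rw [Matrix.star_dotProduct]
    rw [this, Complex.star_def, Complex.conj_re]
    rfl
  have hQ2 : Q = (star v ⬝ᵥ (Y *ᵥ v)).re := by rw [hYv]; exact hQ1
  -- the individual terms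
  set f : S → F → ℂ := fun s => C s *ᵥ v with hf
  set g : S → F → ℂ := fun s => Y'⁻¹ *ᵥ b s with hg
  have hY'g : ∀ s, Y' *ᵥ g s = b s := by
    intro s
    rw [hg]
    simp only
    rw [Matrix.mulVec_mulVec, Matrix.mul_nonsing_inv _ hY'u, Matrix.one_mulVec]
  have hherm : ∀ x y : F → ℂ, (star x ⬝ᵥ (Y' *ᵥ y)).re = (star y ⬝ᵥ (Y' *ᵥ x)).re := by
    intro x y
    have h1 : star x ⬝ᵥ (Y' *ᵥ y) = star (Y' *ᵥ x) ⬝ᵥ y := adj hY'.isHermitian x y
    rw [h1, Matrix.star_dotProduct, Complex.star_def, Complex.conj_re]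
  have hbg : ∀ s, qf Y' (b s) = (star (g s) ⬝ᵥ (Y' *ᵥ g s)).re := by
    intro s
    rw [hY'g s]
    unfold qf
    rw [Matrix.star_dotProduct, Complex.star_def, Complex.conj_re]
  have hterm : ∀ s, 2 * k * (star (f s) ⬝ᵥ b s).re ≤
      (star (f s) ⬝ᵥ (Y' *ᵥ f s)).re + k ^ 2 * qf Y' (b s) := by
    intro s
    have h0 := hY'.posSemidef.dotProduct_mulVec_nonneg (f s - (k : ℂ) • g s)
    have h1 := (Complex.le_def.mp h0).1
    simp only [Complex.zero_re] at h1
    have e : (star (f s - (k : ℂ) • g s) ⬝ᵥ (Y' *ᵥ (f s - (k : ℂ) • g s))).re =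
        (star (f s) ⬝ᵥ (Y' *ᵥ f s)).re - 2 * k * (star (f s) ⬝ᵥ (Y' *ᵥ g s)).re +
          k ^ 2 * (star (g s) ⬝ᵥ (Y' *ᵥ g s)).re := by
      have hsk : star ((k : ℂ) • g s) = (k : ℂ) • star (g s) := by
        ext j
        simp [Complex.star_def]
      rw [star_sub, hsk, Matrix.mulVec_sub, Matrix.mulVec_smul, sub_dotProduct, dotProduct_sub,
        dotProduct_sub, smul_dotProduct, smul_dotProduct, dotProduct_smul, dotProduct_smul]
      simp only [smul_eq_mul, Complex.sub_re, Complex.mul_re, Complex.ofReal_re, Complex.ofReal_im,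
        zero_mul, sub_zero, Complex.mul_im, Complex.ofReal_re]
      rw [hherm (g s) (f s)]
      ring
    rw [e, hY'g s] at h1
    rw [hbg s, hY'g s]
    linarith
  have hsum1 : Q = ∑ s, (star (f s) ⬝ᵥ b s).re := by
    rw [hQ1, hd, dotProduct_sum, Complex.re_sum]
    refine Finset.sum_congr rfl (fun s _ => ?_)
    rw [star_dot_conj]
  have hsum2 : (star v ⬝ᵥ ((∑ s, (C s)ᴴ * Y' * C s) *ᵥ v)).re =
      ∑ s, (star (f s) ⬝ᵥ (Y' *ᵥ f s)).re := by
    rw [Matrix.sum_mulVec, dotProduct_sum, Complex.re_sum]
    refine Finset.sum_congr rfl (fun s _ => ?_)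
    rw [star_dot_conj2]
  have hcolv : (star v ⬝ᵥ ((∑ s, (C s)ᴴ * Y' * C s) *ᵥ v)).re ≤ k * Q := by
    have h0 := hcol.dotProduct_mulVec_nonneg v
    have h1 := (Complex.le_def.mp h0).1
    simp only [Complex.zero_re] at h1
    rw [Matrix.sub_mulVec, dotProduct_sub, Complex.sub_re, Matrix.smul_mulVec, dotProduct_smul,
      smul_eq_mul, Complex.mul_re, Complex.ofReal_re, Complex.ofReal_im, zero_mul, sub_zero,
      ← hQ2] at h1
    linarith
  have hmain : 2 * k * Q ≤ k * Q + k ^ 2 * ∑ s, qf Y' (b s) := by
    calc 2 * k * Q = ∑ s, 2 * k * (star (f s) ⬝ᵥ b s).re := by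
          rw [hsum1, Finset.mul_sum]
      _ ≤ ∑ s, ((star (f s) ⬝ᵥ (Y' *ᵥ f s)).re + k ^ 2 * qf Y' (b s)) :=
          Finset.sum_le_sum (fun s _ => hterm s)
      _ = (star v ⬝ᵥ ((∑ s, (C s)ᴴ * Y' * C s) *ᵥ v)).re + k ^ 2 * ∑ s, qf Y' (b s) := by
          rw [Finset.sum_add_distrib, hsum2, Finset.mul_sum]
      _ ≤ _ := by linarith
  have h3 : k * Q ≤ k * (k * ∑ s, qf Y' (b s)) := by nlinarith
  exact le_of_mul_le_mul_left h3 hk

/-- The column Cauchy–Schwarz inequality for the dressed Hilbert–Schmidt norm. -/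
theorem col_cs {Y : Matrix E E ℂ} {Y' : Matrix F F ℂ} (hY : Y.PosDef) (hY' : Y'.PosDef)
    (C : S → Matrix F E ℂ) (B : S → Matrix F G ℂ) {k : ℝ} (hk : 0 < k)
    (hcol : ((k : ℂ) • Y - ∑ s, (C s)ᴴ * Y' * C s).PosSemidef) :
    hs Y (∑ s, (C s)ᴴ * B s) ≤ k * ∑ s, hs Y' (B s) := by
  classical
  rw [hs_eq_sum_qf]
  simp_rw [hs_eq_sum_qf Y' (B _)]
  rw [Finset.sum_comm, Finset.mul_sum]
  refine Finset.sum_le_sum (fun g _ => ?_)
  have e : (fun e => (∑ s, (C s)ᴴ * B s) e g) = ∑ s, (C s)ᴴ *ᵥ (fun f => B s f g) := by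
    funext e
    simp [Matrix.sum_apply, Matrix.mul_apply, Matrix.mulVec, dotProduct]
  rw [e]
  exact qf_col_cs hY hY' C _ hk hcol

end ColCS

section Ssum

variable {κ ι X : Type*} [Fintype κ] [DecidableEq κ] [Fintype ι] [DecidableEq ι]

/-- A two-site block of a tensor product as a Kronecker product. -/
lemma tp_update_two (f : κ → Matrix ι ι ℂ) {p q : κ} (hpq : p ≠ q) (a b : Matrix ι ι ℂ) :
    tp (Function.update (Function.update f p a) q b) =
      ((a ⊗ₖ b) ⊗ₖ tp (fun r : {r : κ // r ≠ p ∧ r ≠ q} => f r.1)).submatrix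
        (fun w => ((w p, w q), fun r => w r.1)) (fun w => ((w p, w q), fun r => w r.1)) := by
  ext w w'
  simp only [tp_apply, Matrix.submatrix_apply, Matrix.kroneckerMap_apply]
  have h1 : (Finset.univ : Finset κ) = insert p (insert q (Finset.univ.filter
      (fun r => r ≠ p ∧ r ≠ q))) := by
    ext r
    simp only [Finset.mem_univ, Finset.mem_insert, Finset.mem_filter, true_and, true_iff]
    by_cases h : r = p
    · exact Or.inl h
    · by_cases h' : r = q
      · exact Or.inr (Or.inl h')
      · exact Or.inr (Or.inr ⟨h, h'⟩)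
  rw [h1, Finset.prod_insert, Finset.prod_insert]
  · have e : ∏ r ∈ Finset.univ.filter (fun r => r ≠ p ∧ r ≠ q),
        (Function.update (Function.update f p a) q b) r (w r) (w' r) =
        ∏ r : {r : κ // r ≠ p ∧ r ≠ q}, f r.1 (w r.1) (w' r.1) := by
      rw [← Finset.prod_subtype (Finset.univ.filter (fun r => r ≠ p ∧ r ≠ q))
        (by simp) (fun r => f r (w r) (w' r))]
      refine Finset.prod_congr rfl (fun r hr => ?_)
      have hr' := (Finset.mem_filter.mp hr).2
      rw [Function.update_of_ne hr'.2, Function.update_of_ne hr'.1]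
    rw [e, Function.update_self, Function.update_of_ne hpq, Function.update_self]
    ring
  · simp
  · simp [hpq]

/-- The two-site comparison. -/
theorem tp_two_site_le (f : κ → Matrix ι ι ℂ) (hf : ∀ r, (f r).PosSemidef) {p q : κ} (hpq : p ≠ q)
    {a₁ a₂ c b₁ b₂ c' : Matrix ι ι ℂ} (ha₁ : a₁.IsHermitian) (ha₂ : a₂.IsHermitian)
    (hb₁ : b₁.IsHermitian) (hb₂ : b₂.IsHermitian) (hc : c.PosSemidef) (hc' : c'.PosSemidef)
    (h : c * c = (1 / 2 : ℂ) • (a₁ * a₁ + a₂ * a₂))
    (h' : c' * c' = (1 / 2 : ℂ) • (b₁ * b₁ + b₂ * b₂)) :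
    ((2 : ℂ) • tp (Function.update (Function.update f p c) q c') -
      tp (Function.update (Function.update f p a₁) q b₁) -
      tp (Function.update (Function.update f p a₂) q b₂)).PosSemidef := by
  have hs := site_tensor ha₁ ha₂ hb₁ hb₂ hc hc' h h'
  have hrest : (tp (fun r : {r : κ // r ≠ p ∧ r ≠ q} => f r.1)).PosSemidef :=
    tp_posSemidef (fun r => hf r.1)
  have hk := ((hs.smul (show (0 : ℂ) ≤ 2 by norm_num)).kronecker hrest).submatrix
    (fun w : κ → ι => ((w p, w q), fun r : {r : κ // r ≠ p ∧ r ≠ q} => w r.1))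
  rw [tp_update_two f hpq, tp_update_two f hpq, tp_update_two f hpq]
  refine (congrArg Matrix.PosSemidef ?_).mp hk
  ext w w'
  simp only [Matrix.sub_apply, Matrix.submatrix_apply, Matrix.kroneckerMap_apply, Matrix.smul_apply,
    Matrix.add_apply, smul_eq_mul]
  ring

/-- The one-site comparison. -/
theorem tp_one_site_le (f : κ → Matrix ι ι ℂ) (hf : ∀ r, (f r).PosSemidef) (p : κ)
    {a₁ a₂ c : Matrix ι ι ℂ} (ha₁ : a₁.IsHermitian) (ha₂ : a₂.IsHermitian)
    (hc : c.PosSemidef) (h : c * c = (1 / 2 : ℂ) • (a₁ * a₁ + a₂ * a₂)) :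
    ((2 : ℂ) • tp (Function.update f p c) - tp (Function.update f p a₁) -
      tp (Function.update f p a₂)).PosSemidef := by
  have hs := site_mean ha₁ ha₂ hc h
  have h2 : ((2 : ℂ) • c - a₁ - a₂).PosSemidef := by
    have := hs.smul (show (0 : ℂ) ≤ 2 by norm_num)
    refine (congrArg Matrix.PosSemidef ?_).mp this
    ext i j
    simp only [Matrix.sub_apply, Matrix.smul_apply, Matrix.add_apply, smul_eq_mul]
    ring
  have e : tp (Function.update f p ((2 : ℂ) • c - a₁ - a₂)) =
      (2 : ℂ) • tp (Function.update f p c) - tp (Function.update f p a₁) -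
      tp (Function.update f p a₂) := by
    ext w w'
    simp only [tp_apply, Matrix.sub_apply, Matrix.smul_apply, smul_eq_mul]
    rw [← Finset.mul_prod_erase Finset.univ _ (Finset.mem_univ p),
      ← Finset.mul_prod_erase Finset.univ _ (Finset.mem_univ p),
      ← Finset.mul_prod_erase Finset.univ _ (Finset.mem_univ p),
      ← Finset.mul_prod_erase Finset.univ _ (Finset.mem_univ p)]
    have e : ∀ Z : Matrix ι ι ℂ,
        ∏ x ∈ Finset.univ.erase p, (Function.update f p Z) x (w x) (w' x) =
        ∏ x ∈ Finset.univ.erase p, f x (w x) (w' x) := by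
      intro Z
      apply Finset.prod_congr rfl
      intro x hx
      rw [Function.update_of_ne (Finset.ne_of_mem_erase hx)]
    rw [e, e, e, e]
    simp only [Function.update_self, Matrix.sub_apply, Matrix.smul_apply, smul_eq_mul]
    ring
  rw [← e]
  apply tp_posSemidef
  intro r
  by_cases hr : r = p
  · subst hr; simpa using h2
  · rw [Function.update_of_ne hr]; exact hf r

/-- **The average over an involution-rich family.** -/
theorem sum_tp_le (S : Finset X) (A : Bool → κ → Matrix ι ι ℂ) (G : κ → Matrix ι ι ℂ)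
    (b : κ → X → Bool) (R : Finset κ)
    (hA : ∀ e p, (A e p).PosSemidef) (hG : ∀ p, (G p).PosSemidef)
    (hsq : ∀ p, G p * G p = (1 / 2 : ℂ) • (A false p * A false p + A true p * A true p))
    (hflip : ∀ p ∈ R, ∃ ψ : X → X, ∃ q : κ, (∀ t ∈ S, ψ t ∈ S) ∧ (∀ t ∈ S, ψ (ψ t) = t) ∧
      (∀ t ∈ S, b p (ψ t) = !b p t) ∧
      (∀ t ∈ S, ∀ r ∈ R, r ≠ p → r ≠ q → b r (ψ t) = b r t) ∧
      (q ≠ p → ∀ t ∈ S, b q (ψ t) = !b q t)) :
    ((S.card : ℂ) • tp G -
      ∑ t ∈ S, tp (fun p => if p ∈ R then A (b p t) p else G p)).PosSemidef := by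
  classical
  set H : Finset κ → X → Matrix (κ → ι) (κ → ι) ℂ :=
    fun R' t => tp (fun p => if p ∈ R' then A (b p t) p else G p) with hH
  have hsqor : ∀ p (e : Bool), G p * G p = (1 / 2 : ℂ) • (A e p * A e p + A (!e) p * A (!e) p) := by
    intro p e
    cases e
    · exact hsq p
    · rw [hsq p, add_comm]; rfl
  suffices hR' : ∀ R' : Finset κ, R' ⊆ R →
      ((S.card : ℂ) • tp G - ∑ t ∈ S, H R' t).PosSemidef from hR' R (Finset.Subset.refl _)
  intro R'
  induction R' using Finset.strongInduction with
  | H R' ih =>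
    intro hR'
    by_cases hne : R'.Nonempty
    · obtain ⟨p, hp⟩ := hne
      obtain ⟨ψ, q, h1, h2, h3, h4, h5⟩ := hflip p (hR' hp)
      set R'' := (R'.erase p).erase q with hR''
      have hss : R'' ⊂ R' := by
        refine Finset.ssubset_iff_subset_ne.mpr ⟨?_, ?_⟩
        · exact (Finset.erase_subset _ _).trans (Finset.erase_subset _ _)
        · intro h
          have : p ∈ R'' := h ▸ hp
          simp [hR''] at this
      have hIH := ih R'' hss (hss.subset.trans hR')
      have hstep : ∀ t ∈ S, ((2 : ℂ) • H R'' t - H R' t - H R' (ψ t)).PosSemidef := by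
        intro t ht
        set f : κ → Matrix ι ι ℂ := fun r => if r ∈ R'' then A (b r t) r else G r with hf
        have hfP : ∀ r, (f r).PosSemidef := by
          intro r
          by_cases hr : r ∈ R''
          · simp only [hf, hr, if_true]; exact hA _ _
          · simp only [hf, hr, if_false]; exact hG _
        have hpq' : p ∉ R'' := by simp [hR'']
        by_cases hq : q ≠ p ∧ q ∈ R'
        · have hqp := hq.1
          have hq'' : q ∉ R'' := by simp [hR'']
          have e0 : H R'' t = tp (Function.update (Function.update f p (G p)) q (G q)) := by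
            simp only [hH]
            congr 1
            funext r
            by_cases hrq : r = q
            · subst hrq; simp [hq'']
            · rw [Function.update_of_ne hrq]
              by_cases hrp : r = p
              · subst hrp; simp [hpq']
              · rw [Function.update_of_ne hrp]
          have e1 : H R' t = tp (Function.update (Function.update f p (A (b p t) p)) q
              (A (b q t) q)) := by
            simp only [hH]
            congr 1
            funext r
            by_cases hrq : r = q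
            · subst hrq; simp [hq.2]
            · rw [Function.update_of_ne hrq]
              by_cases hrp : r = p
              · subst hrp; simp [hp]
              · rw [Function.update_of_ne hrp]
                simp [hf, hR'', hrq, hrp]
          have e2 : H R' (ψ t) = tp (Function.update (Function.update f p (A (!b p t) p)) q
              (A (!b q t) q)) := by
            simp only [hH]
            congr 1
            funext r
            by_cases hrq : r = q
            · subst hrq
              simp only [Function.update_self, hq.2, if_true]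
              rw [h5 hqp t ht]
            · rw [Function.update_of_ne hrq]
              by_cases hrp : r = p
              · subst hrp
                simp only [Function.update_self, hp, if_true]
                rw [h3 t ht]
              · rw [Function.update_of_ne hrp]
                simp only [hf, hR'', Finset.mem_erase, hrq, hrp, ne_eq, not_false_eq_true,
                  true_and]
                by_cases hrR : r ∈ R'
                · simp only [hrR, if_true]
                  rw [h4 t ht r (hR' hrR) hrp hrq]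
                · simp [hrR]
          rw [e0, e1, e2]
          exact tp_two_site_le f hfP (Ne.symm hqp) (hA _ _).isHermitian (hA _ _).isHermitian
            (hA _ _).isHermitian (hA _ _).isHermitian (hG _) (hG _) (hsqor p _) (hsqor q _)
        · have hqR : ∀ r, r ∈ R'' ↔ r ∈ R' ∧ r ≠ p := by
            intro r
            simp only [hR'', Finset.mem_erase, ne_eq]
            constructor
            · rintro ⟨_, hrp, hr⟩; exact ⟨hr, hrp⟩
            · rintro ⟨hr, hrp⟩
              refine ⟨?_, hrp, hr⟩
              intro hrq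
              subst hrq
              exact hq ⟨hrp, hr⟩
          have e0 : H R'' t = tp (Function.update f p (G p)) := by
            simp only [hH]
            congr 1
            funext r
            by_cases hrp : r = p
            · subst hrp; simp [hpq']
            · rw [Function.update_of_ne hrp]
          have e1 : H R' t = tp (Function.update f p (A (b p t) p)) := by
            simp only [hH]
            congr 1
            funext r
            by_cases hrp : r = p
            · subst hrp; simp [hp]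
            · rw [Function.update_of_ne hrp]
              simp [hf, hqR, hrp]
          have e2 : H R' (ψ t) = tp (Function.update f p (A (!b p t) p)) := by
            simp only [hH]
            congr 1
            funext r
            by_cases hrp : r = p
            · subst hrp
              simp only [Function.update_self, hp, if_true]
              rw [h3 t ht]
            · rw [Function.update_of_ne hrp]
              simp only [hf, hqR, hrp, ne_eq, not_false_eq_true, and_true]
              by_cases hrR : r ∈ R'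
              · simp only [hrR, if_true]
                by_cases hrq : r = q
                · subst hrq
                  exact absurd ⟨hrp, hrR⟩ hq
                · rw [h4 t ht r (hR' hrR) hrp hrq]
              · simp [hrR]
          rw [e0, e1, e2]
          exact tp_one_site_le f hfP p (hA _ _).isHermitian (hA _ _).isHermitian (hG _) (hsqor p _)
      have hsumψ : ∑ t ∈ S, H R' (ψ t) = ∑ t ∈ S, H R' t := by
        apply Finset.sum_nbij' ψ ψ
        · exact h1
        · exact h1
        · exact h2
        · exact h2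
        · intro t _; rfl
      have hsum : ((2 : ℂ) • ∑ t ∈ S, H R'' t - (2 : ℂ) • ∑ t ∈ S, H R' t).PosSemidef := by
        have := Matrix.posSemidef_sum S hstep
        convert this using 1
        rw [Finset.sum_sub_distrib, Finset.sum_sub_distrib, hsumψ, Finset.smul_sum.symm]
        rw [two_smul ℂ (∑ t ∈ S, H R' t)]
        abel
      have hsum2 : (∑ t ∈ S, H R'' t - ∑ t ∈ S, H R' t).PosSemidef := by
        have := hsum.smul (show (0 : ℂ) ≤ 1 / 2 from Complex.le_def.mpr ⟨by norm_num, by norm_num⟩)
        refine (congrArg Matrix.PosSemidef ?_).mp this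
        rw [smul_sub, smul_smul, smul_smul]
        norm_num
      have := hIH.add hsum2
      convert this using 1
      abel
    · have hemp : R' = ∅ := Finset.not_nonempty_iff_eq_empty.mp hne
      subst hemp
      have : ∑ t ∈ S, H ∅ t = (S.card : ℂ) • tp G := by
        simp [hH, Finset.sum_const, Nat.cast_smul_eq_nsmul]
      rw [this, sub_self]
      exact PosSemidef.zero

end Ssum

end Crest.Agent.S0222Lib.JCore
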