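import Mathlib

/-!
# Prior sums for the coverage argument (helper52, for helper60's `JCov`)

Elementary counting facts about an injectively labelled family of classes `(k s, o s)`.
-/

namespace Crest.Agent.S0222Lib.JCov

open Finset

/-- A weighted sum over a family labelled injectively by `(k, o)` is bounded by twice the sum
over the levels. -/
theorem sum_le_two_mul_sum_range {S : Type*} [Fintype S] (k : S → ℕ) (o : S → Bool)
    (hinj : Function.Injective fun s => (k s, o s)) (J : ℕ) (hk : ∀ s, k s ≤ J)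
    (f : ℕ → ℝ) (hf : ∀ i, 0 ≤ f i) :
    ∑ s, f (k s) ≤ 2 * ∑ i ∈ range (J + 1), f i := by
  classical
  have h1 : ∑ s, f (k s) =
      ∑ p ∈ (univ : Finset S).image (fun s => (k s, o s)), f p.1 := by
    rw [Finset.sum_image (fun a _ b _ h => hinj h)]
  have hsub : (univ : Finset S).image (fun s => (k s, o s)) ⊆
      (range (J + 1)) ×ˢ (univ : Finset Bool) := by
    intro p hp
    simp only [mem_image, mem_univ, true_and] at hp
    obtain ⟨s, rfl⟩ := hp
    simp only [mem_product, mem_range, mem_univ, and_true]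
    exact Nat.lt_succ_of_le (hk s)
  rw [h1]
  calc ∑ p ∈ (univ : Finset S).image (fun s => (k s, o s)), f p.1
      ≤ ∑ p ∈ (range (J + 1)) ×ˢ (univ : Finset Bool), f p.1 :=
        Finset.sum_le_sum_of_subset_of_nonneg hsub (fun p _ _ => hf p.1)
    _ = 2 * ∑ i ∈ range (J + 1), f i := by
        rw [Finset.sum_product]
        simp [Finset.mul_sum, two_mul]

/-- (P1) -/
theorem prior_sum_le {S : Type*} [Fintype S] (k : S → ℕ) (o : S → Bool)
    (hinj : Function.Injective fun s => (k s, o s)) (J : ℕ) (hk : ∀ s, k s ≤ J) :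
    ∑ s, ((49 / 50 : ℝ)) ^ (J - k s) ≤ 100 := by
  have h := sum_le_two_mul_sum_range k o hinj J hk (fun i => ((49 / 50 : ℝ)) ^ (J - i))
    (fun i => by positivity)
  refine h.trans ?_
  have h2 : ∑ i ∈ range (J + 1), ((49 / 50 : ℝ)) ^ (J - i) =
      ∑ i ∈ range (J + 1), ((49 / 50 : ℝ)) ^ i :=
    Finset.sum_range_reflect (fun i => ((49 / 50 : ℝ)) ^ i) (J + 1) |> fun h => by
      simpa using h
  rw [h2]
  have hgeom : ∑ i ∈ range (J + 1), ((49 / 50 : ℝ)) ^ i ≤ 50 := by
    have h3 : ((∑ i ∈ range (J + 1), ((49 / 50 : ℝ)) ^ i)) * ((49 / 50 : ℝ) - 1) =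
        (49 / 50 : ℝ) ^ (J + 1) - 1 := geom_sum_mul _ _
    have h4 : (0 : ℝ) ≤ (49 / 50 : ℝ) ^ (J + 1) := by positivity
    nlinarith
  linarith

/-- (P2) -/
theorem window_card_le {S : Type*} [Fintype S] (k : S → ℕ) (o : S → Bool)
    (hinj : Function.Injective fun s => (k s, o s)) (B : Finset S) (J : ℕ)
    (hB : ∀ s ∈ B, J < 2 * k s + 10 ∧ 2 * k s < J + 5) : B.card ≤ 14 := by
  classical
  have hcard : B.card = (B.image (fun s => (k s, o s))).card :=
    (Finset.card_image_of_injective _ hinj).symm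
  have hsub : B.image (fun s => (k s, o s)) ⊆
      (Icc ((J - 8) / 2) ((J - 8) / 2 + 6)) ×ˢ (univ : Finset Bool) := by
    intro p hp
    simp only [mem_image] at hp
    obtain ⟨s, hs, rfl⟩ := hp
    have := hB s hs
    simp only [mem_product, mem_Icc, mem_univ, and_true]
    omega
  rw [hcard]
  calc (B.image (fun s => (k s, o s))).card
      ≤ ((Icc ((J - 8) / 2) ((J - 8) / 2 + 6)) ×ˢ (univ : Finset Bool)).card :=
        Finset.card_le_card hsub
    _ = 14 := by
        rw [Finset.card_product, Nat.card_Icc]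
        simp only [Finset.card_univ, Fintype.card_bool]
        omega

/-- (P3) -/
theorem small_mass_le {S : Type*} [Fintype S] (k : S → ℕ) (o : S → Bool)
    (hinj : Function.Injective fun s => (k s, o s)) (C : Finset S) (m : S → ℕ) (b : ℕ)
    (hm : ∀ s ∈ C, m s ≤ 12 * 4 ^ k s) (hC : ∀ s ∈ C, 4 ^ k s * 2 ^ 10 ≤ b) :
    ((∑ s ∈ C, m s : ℕ) : ℝ) ≤ (b : ℝ) / 32 := by
  classical
  by_cases hne : C.Nonempty
  swap
  · rw [Finset.not_nonempty_iff_eq_empty] at hne
    subst hne
    simp only [sum_empty, Nat.cast_zero]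
    positivity
  -- the maximal level
  obtain ⟨s₀, hs₀, hmax⟩ := Finset.exists_max_image C k hne
  set K := k s₀ with hK
  -- the restriction of the family to `C` is again injectively labelled
  have hsum : (∑ s ∈ C, (4 : ℝ) ^ k s) ≤ 2 * ∑ i ∈ range (K + 1), (4 : ℝ) ^ i := by
    have h1 : ∑ s ∈ C, (4 : ℝ) ^ k s = ∑ s : C, (4 : ℝ) ^ k s.1 := by
      rw [Finset.sum_coe_sort C (fun s => (4 : ℝ) ^ k s)]
    rw [h1]
    refine sum_le_two_mul_sum_range (fun s : C => k s.1) (fun s : C => o s.1) ?_ K ?_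
      (fun i => (4 : ℝ) ^ i) (fun i => by positivity)
    · intro x y hxy
      exact Subtype.ext (hinj hxy)
    · intro s
      exact hmax s.1 s.2
  have hgeom : ∑ i ∈ range (K + 1), (4 : ℝ) ^ i ≤ (4 / 3) * 4 ^ K := by
    have h3 : ((∑ i ∈ range (K + 1), (4 : ℝ) ^ i)) * ((4 : ℝ) - 1) =
        (4 : ℝ) ^ (K + 1) - 1 := geom_sum_mul _ _
    rw [pow_succ] at h3
    nlinarith
  have hb : (4 : ℝ) ^ K * 2 ^ 10 ≤ b := by
    have := hC s₀ hs₀
    exact_mod_cast this
  have hm' : ((∑ s ∈ C, m s : ℕ) : ℝ) ≤ 12 * ∑ s ∈ C, (4 : ℝ) ^ k s := by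
    rw [Nat.cast_sum, Finset.mul_sum]
    refine Finset.sum_le_sum (fun s hs => ?_)
    have := hm s hs
    exact_mod_cast this
  nlinarith [pow_pos (show (0 : ℝ) < 4 by norm_num) K]

end Crest.Agent.S0222Lib.JCov
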