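import Crest.Agent.S0222Lib.JNumeric
import Crest.Agent.S0222Lib.JCovPrior

/-!
# S0222: the coverage inequality of Theorem J, part 1: the price of a class

`price`: the conversion of a class at the best level, for an abstract constant `x` of the family.
-/

set_option autoImplicit false
set_option linter.unusedSectionVars false
set_option linter.unusedVariables false
set_option exponentiation.threshold 4000

namespace Crest.Agent.S0222Lib.JCov

open Finset

/-! ### Numerical values of logarithms -/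

lemma log_le_pow {x : ℝ} {p q : ℕ} (hx : 0 < x) (hq : 0 < q) (h : x ^ q ≤ 2 ^ p) :
    Real.log x ≤ (p : ℝ) / q * Real.log 2 := by
  have h1 := Real.log_le_log (by positivity) h
  rw [Real.log_pow, Real.log_pow] at h1
  have hq' : (0 : ℝ) < q := by exact_mod_cast hq
  rw [div_mul_eq_mul_div, le_div_iff₀ hq']
  linarith

lemma le_log_pow {x : ℝ} {p q : ℕ} (hx : 0 < x) (hq : 0 < q) (h : 2 ^ p ≤ x ^ q) :
    (p : ℝ) / q * Real.log 2 ≤ Real.log x := by
  have h1 := Real.log_le_log (by positivity) h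
  rw [Real.log_pow, Real.log_pow] at h1
  have hq' : (0 : ℝ) < q := by exact_mod_cast hq
  rw [div_mul_eq_mul_div, div_le_iff₀ hq']
  linarith

lemma log2_lt : Real.log 2 < 0.6931471808 := Real.log_two_lt_d9
lemma log2_gt : 0.6931471803 < Real.log 2 := Real.log_two_gt_d9

lemma l33 : Real.log (33/10 : ℝ) ≤ 1.1940 := by
  have h := log_le_pow (x := (33/10 : ℝ)) (p := 298) (q := 173) (by norm_num) (by norm_num) (by norm_num)
  have h2 := log2_lt
  have h0 : 0 < Real.log 2 := Real.log_pos (by norm_num)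
  norm_num at h ⊢
  linarith

lemma l66 : Real.log (33/5 : ℝ) ≤ 1.8872 := by
  have h := log_le_pow (x := (33/5 : ℝ)) (p := 373) (q := 137) (by norm_num) (by norm_num) (by norm_num)
  have h2 := log2_lt
  have h0 : 0 < Real.log 2 := Real.log_pos (by norm_num)
  norm_num at h ⊢
  linarith

lemma l98 : Real.log (9/8 : ℝ) ≤ 0.11779 := by
  have h := log_le_pow (x := (9/8 : ℝ)) (p := 26) (q := 153) (by norm_num) (by norm_num) (by norm_num)
  have h2 := log2_lt
  have h0 : 0 < Real.log 2 := Real.log_pos (by norm_num)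
  norm_num at h ⊢
  linarith

lemma l3332 : Real.log (33/32 : ℝ) ≤ 0.03078 := by
  have h := log_le_pow (x := (33/32 : ℝ)) (p := 21) (q := 473) (by norm_num) (by norm_num) (by norm_num)
  have h2 := log2_lt
  have h0 : 0 < Real.log 2 := Real.log_pos (by norm_num)
  norm_num at h ⊢
  linarith

lemma l33n : Real.log (33 : ℝ) ≤ 3.4966 := by
  have h := log_le_pow (x := (33 : ℝ)) (p := 227) (q := 45) (by norm_num) (by norm_num) (by norm_num)
  have h2 := log2_lt
  have h0 : 0 < Real.log 2 := Real.log_pos (by norm_num)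
  norm_num at h ⊢
  linarith

lemma l52 : Real.log (5/2 : ℝ) ≤ 0.9163 := by
  have h := log_le_pow (x := (5/2 : ℝ)) (p := 464) (q := 351) (by norm_num) (by norm_num) (by norm_num)
  have h2 := log2_lt
  have h0 : 0 < Real.log 2 := Real.log_pos (by norm_num)
  norm_num at h ⊢
  linarith

lemma l53 : Real.log (5/3 : ℝ) ≤ 0.51083 := by
  have h := log_le_pow (x := (5/3 : ℝ)) (p := 311) (q := 422) (by norm_num) (by norm_num) (by norm_num)
  have h2 := log2_lt
  have h0 : 0 < Real.log 2 := Real.log_pos (by norm_num)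
  norm_num at h ⊢
  linarith

lemma l100 : Real.log (100 : ℝ) ≤ 4.6052 := by
  have h := log_le_pow (x := (100 : ℝ)) (p := 1847) (q := 278) (by norm_num) (by norm_num) (by norm_num)
  have h2 := log2_lt
  have h0 : 0 < Real.log 2 := Real.log_pos (by norm_num)
  norm_num at h ⊢
  linarith

lemma l098 : Real.log (50/49 : ℝ) ≤ 0.020203 := by
  have h := log_le_pow (x := (50/49 : ℝ)) (p := 42) (q := 1441) (by norm_num) (by norm_num) (by norm_num)
  have h2 := log2_lt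
  have h0 : 0 < Real.log 2 := Real.log_pos (by norm_num)
  norm_num at h ⊢
  linarith

lemma lQ : Real.log (17135/1000 : ℝ) ≤ 2.8420 := by
  have h := log_le_pow (x := (17135/1000 : ℝ)) (p := 41) (q := 10) (by norm_num) (by norm_num) (by norm_num)
  have h2 := log2_lt
  have h0 : 0 < Real.log 2 := Real.log_pos (by norm_num)
  norm_num at h ⊢
  linarith

lemma l43 : Real.log (4/3 : ℝ) ≤ 0.28769 := by
  have h := log_le_pow (x := (4/3 : ℝ)) (p := 149) (q := 359) (by norm_num) (by norm_num) (by norm_num)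
  have h2 := log2_lt
  have h0 : 0 < Real.log 2 := Real.log_pos (by norm_num)
  norm_num at h ⊢
  linarith

lemma l411 : Real.log (411/100 : ℝ) ≤ 1.4135 := by
  have h := log_le_pow (x := (411/100 : ℝ)) (p := 104) (q := 51) (by norm_num) (by norm_num) (by norm_num)
  have h2 := log2_lt
  have h0 : 0 < Real.log 2 := Real.log_pos (by norm_num)
  norm_num at h ⊢
  linarith

lemma l51 : Real.log (51 : ℝ) ≤ 3.932 := by
  have h := log_le_pow (x := (51 : ℝ)) (p := 641) (q := 113) (by norm_num) (by norm_num) (by norm_num)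
  have h2 := log2_lt
  have h0 : 0 < Real.log 2 := Real.log_pos (by norm_num)
  norm_num at h ⊢
  linarith

lemma l425 : Real.log (17/4 : ℝ) ≤ 1.447 := by
  have h := log_le_pow (x := (17/4 : ℝ)) (p := 167) (q := 80) (by norm_num) (by norm_num) (by norm_num)
  have h2 := log2_lt
  have h0 : 0 < Real.log 2 := Real.log_pos (by norm_num)
  norm_num at h ⊢
  linarith

lemma l30002 : Real.log (30002/10000 : ℝ) ≤ 1.0987 := by
  have h := log_le_pow (x := (30002/10000 : ℝ)) (p := 382) (q := 241) (by norm_num) (by norm_num) (by norm_num)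
  have h2 := log2_lt
  have h0 : 0 < Real.log 2 := Real.log_pos (by norm_num)
  norm_num at h ⊢
  linarith

lemma g55 : 1.7047 ≤ Real.log (11/2 : ℝ) := by
  have h := le_log_pow (x := (11/2 : ℝ)) (p := 696) (q := 283) (by norm_num) (by norm_num) (by norm_num)
  have h2 := log2_gt
  have h0 : 0 < Real.log 2 := Real.log_pos (by norm_num)
  norm_num at h ⊢
  linarith

lemma g11 : 2.3978 ≤ Real.log (11 : ℝ) := by
  have h := le_log_pow (x := (11 : ℝ)) (p := 595) (q := 172) (by norm_num) (by norm_num) (by norm_num)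
  have h2 := log2_gt
  have h0 : 0 < Real.log 2 := Real.log_pos (by norm_num)
  norm_num at h ⊢
  linarith


/-! ### The value of Theorem J -/

/-- The power `T^(11/6)`. -/
noncomputable def XX (T : ℕ) : ℝ := (T : ℝ) ^ ((11 : ℝ) / 6)

/-- The logarithm of the constant of the conversion at level `D`, for the constant `x`. -/
noncomputable def Lam (x : ℝ) (D : ℕ) : ℝ :=
  Real.log (((2 : ℝ) ^ D + 1) * ((4 / 3) * Real.sqrt 2 * 2 ^ D * x))

/-- The contribution of one class to the value of Theorem J. -/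
noncomputable def Jterm (Dtop m d : ℕ) (x : ℝ) (D : ℕ) : ℝ :=
  (1 / 2) * Real.log d - m * (JNum.tauD D + 3 / 1000) - (2 : ℝ) ^ (Dtop - D) * Lam x D

/-! ### The level price -/

lemma tauD_le {D : ℕ} (hD : 1 ≤ D) :
    JNum.tauD D ≤ (7 / 32) * ((D : ℝ) * Real.log 2) - 0.0628 := by
  unfold JNum.tauD
  have h1 : ((JNum.cd D : ℕ) : ℝ) = 2 ^ (D - 1) := by
    unfold JNum.cd
    push_cast
    rfl
  have hQ : JNum.Qr / 64 = 17135 / 1000 := by
    unfold JNum.Qr JNum.QN JNum.QD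
    norm_num
  have h2 : ((JNum.cd D : ℕ) : ℝ) ^ 7 * JNum.Qr / 64 = ((2 : ℝ) ^ (D - 1)) ^ 7 * (17135 / 1000) := by
    rw [h1, mul_div_assoc, hQ]
  rw [h2, Real.log_mul (by positivity) (by norm_num), Real.log_pow, Real.log_pow]
  have h3 := lQ
  have h4 := log2_gt
  have h5 : ((D - 1 : ℕ) : ℝ) = (D : ℝ) - 1 := by
    rw [Nat.cast_sub hD]; norm_num
  rw [h5]
  push_cast
  have h6 : (41 : ℝ) / 10 * Real.log 2 ≥ Real.log (17135 / 1000) := by
    have h := log_le_pow (x := (17135 / 1000 : ℝ)) (p := 41) (q := 10) (by norm_num) (by norm_num)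
      (by norm_num)
    norm_num at h ⊢
    linarith
  nlinarith

/-- The logarithm of the target of the level. -/
noncomputable def logA (T : ℕ) (Λ' ε lR : ℝ) : ℝ :=
  Real.log Λ' + (11 / 6) * Real.log T + (1 + ε) * lR

lemma XX_eq {T : ℕ} (hT : 0 < T) : XX T = Real.exp ((11 / 6) * Real.log T) := by
  unfold XX
  rw [Real.rpow_def_of_pos (by exact_mod_cast hT)]
  congr 1
  ring

lemma XX_pos {T : ℕ} (hT : 0 < T) : 0 < XX T := by
  rw [XX_eq hT]
  exact Real.exp_pos _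

lemma XX_pow {T : ℕ} : (XX T) ^ 12 = ((T : ℝ) ^ 2) ^ 11 := by
  unfold XX
  have hT : (0 : ℝ) ≤ T := Nat.cast_nonneg T
  rw [← Real.rpow_natCast, ← Real.rpow_mul hT, ← pow_mul, ← Real.rpow_natCast (T : ℝ) (2 * 11)]
  norm_num

lemma exp_logA_sub {T : ℕ} (hT : 0 < T) {Λ' : ℝ} (hΛ' : 0 < Λ') (ε lR : ℝ) :
    Real.exp (logA T Λ' ε lR - lR) = Λ' * XX T * Real.exp (ε * lR) := by
  rw [XX_eq hT]
  unfold logA
  conv_rhs => rw [← Real.exp_log hΛ']
  rw [← Real.exp_add, ← Real.exp_add]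
  congr 1
  ring

/-- The constant of the conversion at level `D` against the target. -/
lemma Lam_le {T D : ℕ} (hT : 0 < T) {x Λ Λ' ε lR : ℝ} (hx : 1 ≤ x) (hlx : Real.log x ≤ Λ * XX T)
    (hΛ' : 0 < Λ') (hε : 0 ≤ ε) (hlR : 0 ≤ lR)
    (ha : 2 * (1 + ε) ≤ Λ' * XX T * ε)
    (hb : 5.11 + 2 * Real.log Λ' + (11 / 3) * Real.log T + Λ * XX T ≤ Λ' * XX T)
    (hD : (D : ℝ) * Real.log 2 ≤ Real.log (33 / 5) + logA T Λ' ε lR) :
    Lam x D ≤ Real.exp (logA T Λ' ε lR - lR) := by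
  have hTr : (0 : ℝ) < T := by exact_mod_cast hT
  rw [exp_logA_sub hT hΛ']
  have hN : (1 : ℝ) ≤ 2 ^ D := one_le_pow₀ (by norm_num)
  have hx0 : 0 < x := by linarith
  have hs2 : (0 : ℝ) < Real.sqrt 2 := by positivity
  have e1 : Lam x D = Real.log ((2 : ℝ) ^ D + 1) + (Real.log (4 / 3) + Real.log (Real.sqrt 2)
      + (D : ℝ) * Real.log 2 + Real.log x) := by
    unfold Lam
    rw [Real.log_mul (by positivity) (by positivity), Real.log_mul (by positivity) hx0.ne',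
      Real.log_mul (by positivity) (by positivity), Real.log_mul (by norm_num) hs2.ne', Real.log_pow]
  have e2 : Real.log ((2 : ℝ) ^ D + 1) ≤ Real.log 2 + (D : ℝ) * Real.log 2 := by
    have : ((2 : ℝ) ^ D + 1) ≤ 2 * 2 ^ D := by linarith
    have h := Real.log_le_log (by positivity) this
    rwa [Real.log_mul (by norm_num) (by positivity), Real.log_pow] at h
  have e3 : Real.log (Real.sqrt 2) = Real.log 2 / 2 := by
    rw [Real.log_sqrt (by norm_num)]
  have hexp : 1 + ε * lR ≤ Real.exp (ε * lR) := by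
    have := Real.add_one_le_exp (ε * lR)
    linarith
  have h66 := l66
  have h43 := l43
  have h2 := log2_lt
  have hX0 : 0 < XX T := XX_pos hT
  have hprod : Λ' * XX T * (1 + ε * lR) ≤ Λ' * XX T * Real.exp (ε * lR) :=
    mul_le_mul_of_nonneg_left hexp (by positivity)
  have hbig : 2 * (1 + ε) * lR ≤ Λ' * XX T * (ε * lR) := by
    calc 2 * (1 + ε) * lR ≤ (Λ' * XX T * ε) * lR := mul_le_mul_of_nonneg_right ha hlR
      _ = _ := by ring
  rw [e1, e3]
  unfold logA at hD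
  have hmain : Λ' * XX T * (1 + ε * lR) = Λ' * XX T + Λ' * XX T * (ε * lR) := by ring
  rw [hmain] at hprod
  nlinarith

/-- The chord of the exponential. -/
lemma exp_neg_le_chord {y : ℝ} (h0 : 0 ≤ y) (h1 : y ≤ Real.log 2) :
    Real.exp (-y) ≤ 1 - y / (2 * Real.log 2) := by
  have hl : 0 < Real.log 2 := Real.log_pos (by norm_num)
  have h := convexOn_exp.2 (Set.mem_univ (-Real.log 2)) (Set.mem_univ (0 : ℝ))
    (div_nonneg h0 hl.le) (show 0 ≤ 1 - y / Real.log 2 by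
      rw [sub_nonneg, div_le_one hl]; exact h1)
    (by ring)
  simp only [smul_eq_mul, mul_zero, add_zero, Real.exp_zero, mul_one] at h
  have e1 : y / Real.log 2 * -Real.log 2 = -y := by field_simp
  have e3 : Real.exp (-Real.log 2) = 2⁻¹ := by
    rw [Real.exp_neg, Real.exp_log (by norm_num)]
  rw [e1, e3] at h
  have e2 : y / Real.log 2 * (2 : ℝ)⁻¹ + (1 - y / Real.log 2) = 1 - y / (2 * Real.log 2) := by
    field_simp
    ring
  rw [e2] at h
  exact h

/-- The price of rounding to a power of two. -/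
lemma round_price {y : ℝ} (h0 : 0 ≤ y) (h1 : y ≤ Real.log 2) :
    (7 / 32) * y + (10 / 33) * Real.exp (-y) ≤ 10 / 33 + 0.00012 := by
  have h := exp_neg_le_chord h0 h1
  have hl : 0 < Real.log 2 := Real.log_pos (by norm_num)
  have h2 := log2_lt
  have h3 : y / (2 * Real.log 2) ≥ y * 0.72134 := by
    rw [ge_iff_le, le_div_iff₀ (by positivity)]
    nlinarith
  nlinarith

/-- **The price of a class, rounding case**: the level is the least `D` with `3.3 A ≤ 2^D`. -/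
theorem cost_one {Dtop T i : ℕ} {x Λ Λ' ε : ℝ} (hT : 0 < T) (hx : 1 ≤ x)
    (hlx : Real.log x ≤ Λ * XX T) (hΛ' : 1 ≤ Λ') (hε : 0 ≤ ε)
    (ha : 2 * (1 + ε) ≤ Λ' * XX T * ε)
    (hb : 5.11 + 2 * Real.log Λ' + (11 / 3) * Real.log T + Λ * XX T ≤ Λ' * XX T)
    (hi : 1 ≤ i) (hin : i ≤ 2 ^ Dtop)
    (h : (33 / 10) * Real.exp (logA T Λ' ε (Real.log ((2 : ℝ) ^ Dtop / i))) ≤ 2 ^ Dtop) :
    ∃ D, D ≤ Dtop ∧ (2 : ℝ) ^ (Dtop - D) * Lam x D + i * (JNum.tauD D + 3 / 1000) ≤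
      i * ((7 / 32) * logA T Λ' ε (Real.log ((2 : ℝ) ^ Dtop / i)) + 0.5046) := by
  classical
  set n : ℝ := (2 : ℝ) ^ Dtop with hn
  have hn0 : 0 < n := by positivity
  have hi0 : (0 : ℝ) < i := by exact_mod_cast hi
  have hin' : (i : ℝ) ≤ n := by rw [hn]; exact_mod_cast hin
  set lR : ℝ := Real.log (n / i) with hlR
  have hR1 : 1 ≤ n / i := by rw [le_div_iff₀ hi0]; linarith
  have hlR0 : 0 ≤ lR := Real.log_nonneg hR1
  set LA : ℝ := logA T Λ' ε lR with hLA
  set A : ℝ := Real.exp LA with hA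
  have hLA0 : 0 ≤ LA := by
    have h1 : 0 ≤ Real.log Λ' := Real.log_nonneg hΛ'
    have h2 := Real.log_natCast_nonneg T
    rw [hLA]
    unfold logA
    positivity
  have hA1 : 1 ≤ A := Real.one_le_exp hLA0
  have hA0 : 0 < A := by linarith
  have hex : ∃ D : ℕ, (33 / 10) * A ≤ (2 : ℝ) ^ D := ⟨Dtop, h⟩
  set D := Nat.find hex with hDdef
  have hD : (33 / 10) * A ≤ (2 : ℝ) ^ D := Nat.find_spec hex
  have hDle : D ≤ Dtop := Nat.find_min' hex h
  have hD1 : 1 ≤ D := by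
    by_contra hcon
    have h0 : D = 0 := by omega
    rw [h0] at hD
    norm_num at hD
    linarith
  have hDlt : (2 : ℝ) ^ (D - 1) < (33 / 10) * A := by
    have := Nat.find_min hex (m := D - 1) (by omega)
    exact not_le.mp this
  have hNlt : (2 : ℝ) ^ D < (33 / 5) * A := by
    have e : (2 : ℝ) ^ D = 2 * 2 ^ (D - 1) := by
      rw [← pow_succ']
      congr 1
      omega
    rw [e]
    linarith
  have hDlog : (D : ℝ) * Real.log 2 ≤ Real.log (33 / 5) + LA := by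
    have h1 := Real.log_le_log (by positivity) hNlt.le
    rw [Real.log_pow, Real.log_mul (by norm_num) hA0.ne', hA, Real.log_exp] at h1
    exact h1
  have hLam := Lam_le hT hx hlx (by linarith) hε hlR0 ha hb hDlog
  have hexp2 : Real.exp (LA - lR) = A * (i / n) := by
    rw [Real.exp_sub, hlR, Real.exp_log (by positivity), ← hA]
    field_simp
  rw [← hLA, hexp2] at hLam
  refine ⟨D, hDle, ?_⟩
  set N : ℝ := (2 : ℝ) ^ D with hN
  have hN0 : 0 < N := by positivity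
  have e2 : (2 : ℝ) ^ (Dtop - D) = n / N := by
    rw [hn, hN, eq_div_iff (by positivity), ← pow_add]
    congr 1
    omega
  -- `v = N / (3.3 A)`, `y = log v`
  set y : ℝ := Real.log (N / ((33 / 10) * A)) with hy
  have hv1 : 1 ≤ N / ((33 / 10) * A) := by
    rw [le_div_iff₀ (by positivity)]
    linarith
  have hv2 : N / ((33 / 10) * A) ≤ 2 := by
    rw [div_le_iff₀ (by positivity)]
    linarith
  have hy0 : 0 ≤ y := Real.log_nonneg hv1
  have hy1 : y ≤ Real.log 2 := Real.log_le_log (by positivity) hv2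
  have hexpy : Real.exp (-y) = (33 / 10) * A / N := by
    rw [Real.exp_neg, hy, Real.exp_log (by positivity), inv_div]
  have hround := round_price hy0 hy1
  rw [hexpy] at hround
  have hlogN : (D : ℝ) * Real.log 2 = Real.log (33 / 10) + LA + y := by
    rw [hy, Real.log_div hN0.ne' (by positivity), Real.log_mul (by norm_num) hA0.ne', hA,
      Real.log_exp, hN, Real.log_pow]
    ring
  have htau := tauD_le hD1
  rw [hlogN] at htau
  have h33 := l33
  have e3 : (10 / 33 : ℝ) * ((33 / 10) * A / N) = A / N := by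
    field_simp
  rw [e3] at hround
  -- the two terms
  have h1 : (2 : ℝ) ^ (Dtop - D) * Lam x D ≤ i * (A / N) := by
    rw [e2]
    calc n / N * Lam x D ≤ n / N * (A * (i / n)) :=
          mul_le_mul_of_nonneg_left hLam (by positivity)
      _ = i * (A / N) := by field_simp
  have h2 : (i : ℝ) * (JNum.tauD D + 3 / 1000) + i * (A / N)
      ≤ i * ((7 / 32) * LA + 0.5046) := by
    rw [← mul_add]
    apply mul_le_mul_of_nonneg_left _ hi0.le
    norm_num at hround htau ⊢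
    nlinarith
  linarith

/-- The logarithm of the constant at the top level. -/
lemma Lam_top_le {D : ℕ} {x Λ' : ℝ} (hx : 1 ≤ x) {Y : ℝ} (hlx : Real.log x ≤ Y) :
    Lam x D ≤ 1.3275 + 2 * ((D : ℝ) * Real.log 2) + Y := by
  have hN : (1 : ℝ) ≤ 2 ^ D := one_le_pow₀ (by norm_num)
  have hx0 : 0 < x := by linarith
  have hs2 : (0 : ℝ) < Real.sqrt 2 := by positivity
  have e1 : Lam x D = Real.log ((2 : ℝ) ^ D + 1) + (Real.log (4 / 3) + Real.log (Real.sqrt 2)
      + (D : ℝ) * Real.log 2 + Real.log x) := by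
    unfold Lam
    rw [Real.log_mul (by positivity) (by positivity), Real.log_mul (by positivity) hx0.ne',
      Real.log_mul (by positivity) (by positivity), Real.log_mul (by norm_num) hs2.ne', Real.log_pow]
  have e2 : Real.log ((2 : ℝ) ^ D + 1) ≤ Real.log 2 + (D : ℝ) * Real.log 2 := by
    have : ((2 : ℝ) ^ D + 1) ≤ 2 * 2 ^ D := by linarith
    have h := Real.log_le_log (by positivity) this
    rwa [Real.log_mul (by norm_num) (by positivity), Real.log_pow] at h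
  have e3 : Real.log (Real.sqrt 2) = Real.log 2 / 2 := by
    rw [Real.log_sqrt (by norm_num)]
  have h43 := l43
  have h2 := log2_lt
  rw [e1, e3]
  norm_num at h2 ⊢
  linarith

/-- `log i` against `i`. -/
lemma log_le_tiny {i : ℝ} (hi : (2 : ℝ) ^ 66 ≤ i) : 2 * Real.log i + 1.3275 ≤ i / 2 ^ 57 := by
  have h0 : (0 : ℝ) < i := lt_of_lt_of_le (by positivity) hi
  have h1 : Real.log (i / 2 ^ 60) ≤ i / 2 ^ 60 - 1 :=
    Real.log_le_sub_one_of_pos (by positivity)
  rw [Real.log_div h0.ne' (by positivity), Real.log_pow] at h1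
  have h2 := log2_lt
  have h3 : (2 : ℝ) ^ 66 / 2 ^ 60 ≤ i / 2 ^ 60 := div_le_div_of_nonneg_right hi (by positivity)
  norm_num at h1 h2 h3 ⊢
  linarith

/-- **The price of a class, top case.** -/
theorem cost_two {Dtop T i : ℕ} {x Y Λ' ε : ℝ} (hT : 0 < T) (hx : 1 ≤ x)
    (hlx : Real.log x ≤ Y) (hΛ' : 1 ≤ Λ') (hε : 0 ≤ ε) (hDtop : 1 ≤ Dtop)
    (hY : Y ≤ 0.3 * i) (hi : 2 ^ 66 ≤ i) (hin : i ≤ 2 ^ Dtop)
    (h : (2 : ℝ) ^ Dtop < (33 / 10) * Real.exp (logA T Λ' ε (Real.log ((2 : ℝ) ^ Dtop / i)))) :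
    (2 : ℝ) ^ (Dtop - Dtop) * Lam x Dtop + i * (JNum.tauD Dtop + 3 / 1000) ≤
      i * ((7 / 32) * logA T Λ' ε (Real.log ((2 : ℝ) ^ Dtop / i)) + 0.5046 +
        Real.log ((2 : ℝ) ^ Dtop / i) / 2 ^ 60) := by
  set n : ℝ := (2 : ℝ) ^ Dtop with hn
  have hn0 : 0 < n := by positivity
  have hi66 : (2 : ℝ) ^ 66 ≤ i := by exact_mod_cast hi
  have hi0 : (0 : ℝ) < i := lt_of_lt_of_le (by positivity) hi66
  have hin' : (i : ℝ) ≤ n := by rw [hn]; exact_mod_cast hin
  set lR : ℝ := Real.log (n / i) with hlR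
  have hR1 : 1 ≤ n / i := by rw [le_div_iff₀ hi0]; linarith
  have hlR0 : 0 ≤ lR := Real.log_nonneg hR1
  set LA : ℝ := logA T Λ' ε lR with hLA
  have hlogn : Real.log n = (Dtop : ℝ) * Real.log 2 := by rw [hn, Real.log_pow]
  have h1 : Real.log n ≤ Real.log (33 / 10) + LA := by
    have h5 := Real.log_le_log hn0 h.le
    rwa [Real.log_mul (by norm_num) (Real.exp_pos _).ne', Real.log_exp] at h5
  have htau := tauD_le hDtop
  rw [← hlogn] at htau
  have hlam := Lam_top_le (D := Dtop) (Λ' := Λ') hx hlx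
  rw [← hlogn] at hlam
  have hlogi : Real.log n = lR + Real.log i := by
    rw [hlR, Real.log_div hn0.ne' hi0.ne']
    ring
  have htiny := log_le_tiny hi66
  have h33 := l33
  have e1 : (2 : ℝ) ^ (Dtop - Dtop) = 1 := by simp
  rw [e1, one_mul]
  have hlam2 : Lam x Dtop ≤ i * (0.3 + 1 / 2 ^ 57 + lR / 2 ^ 60) := by
    have h5 : 2 * lR ≤ i * (lR / 2 ^ 60) := by
      have h6 : (2 : ℝ) ^ 61 ≤ i := le_trans (by norm_num) hi66
      calc 2 * lR = (2 ^ 61) * (lR / 2 ^ 60) := by ring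
        _ ≤ i * (lR / 2 ^ 60) := mul_le_mul_of_nonneg_right h6 (by positivity)
    have e2 : i * (0.3 + 1 / 2 ^ 57 + lR / 2 ^ 60) = 0.3 * i + i / 2 ^ 57 + i * (lR / 2 ^ 60) := by
      ring
    rw [e2]
    rw [hlogi] at hlam
    linarith
  have h6 : (i : ℝ) * (JNum.tauD Dtop + 3 / 1000) + i * (0.3 + 1 / 2 ^ 57 + lR / 2 ^ 60) ≤
      i * ((7 / 32) * LA + 0.5046 + lR / 2 ^ 60) := by
    rw [← mul_add]
    apply mul_le_mul_of_nonneg_left _ hi0.le
    norm_num at htau h33 h1 ⊢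
    linarith
  linarith

/-- **The price of a class.** -/
theorem price {Dtop T i : ℕ} {x Λ Λ' ε : ℝ} (hT : 0 < T) (hx : 1 ≤ x)
    (hlx : Real.log x ≤ Λ * XX T) (hΛ' : 1 ≤ Λ') (hε : 0 ≤ ε) (hDtop : 1 ≤ Dtop)
    (ha : 2 * (1 + ε) ≤ Λ' * XX T * ε)
    (hb : 5.11 + 2 * Real.log Λ' + (11 / 3) * Real.log T + Λ * XX T ≤ Λ' * XX T)
    (hY : Λ * XX T ≤ 0.3 * i) (hi : 2 ^ 66 ≤ i) (hin : i ≤ 2 ^ Dtop) :
    ∃ D, D ≤ Dtop ∧ (2 : ℝ) ^ (Dtop - D) * Lam x D + i * (JNum.tauD D + 3 / 1000) ≤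
      i * ((7 / 32) * logA T Λ' ε (Real.log ((2 : ℝ) ^ Dtop / i)) + 0.5046 +
        Real.log ((2 : ℝ) ^ Dtop / i) / 2 ^ 60) := by
  have hi1 : 1 ≤ i := le_trans (by norm_num) hi
  have hi0 : (0 : ℝ) < i := by exact_mod_cast hi1
  have hR1 : 1 ≤ (2 : ℝ) ^ Dtop / i := by
    rw [le_div_iff₀ hi0, one_mul]
    exact_mod_cast hin
  have hlR0 := Real.log_nonneg hR1
  by_cases h : (33 / 10) * Real.exp (logA T Λ' ε (Real.log ((2 : ℝ) ^ Dtop / i))) ≤ 2 ^ Dtop
  · obtain ⟨D, hD, hc⟩ := cost_one hT hx hlx hΛ' hε ha hb hi1 hin h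
    refine ⟨D, hD, hc.trans ?_⟩
    apply mul_le_mul_of_nonneg_left _ hi0.le
    have : 0 ≤ Real.log ((2 : ℝ) ^ Dtop / i) / 2 ^ 60 := by positivity
    linarith
  · exact ⟨Dtop, le_rfl, cost_two hT hx hlx hΛ' hε hDtop hY hi hin (not_le.mp h)⟩


/-! ### The line of one class -/

/-- The line of a class from its price and the lower bound of its dimension. -/
lemma line {Dtop T i d : ℕ} {x Λ Λ' ε Dx : ℝ} (hT : 0 < T) (hx : 1 ≤ x)
    (hlx : Real.log x ≤ Λ * XX T) (hΛ' : 1 ≤ Λ') (hε : 0 ≤ ε) (hDtop : 1 ≤ Dtop)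
    (ha : 2 * (1 + ε) ≤ Λ' * XX T * ε)
    (hb : 5.11 + 2 * Real.log Λ' + (11 / 3) * Real.log T + Λ * XX T ≤ Λ' * XX T)
    (hY : Λ * XX T ≤ 0.3 * i) (hi : 2 ^ 66 ≤ i) (hin : i ≤ 2 ^ Dtop)
    (hlow : (i : ℝ) * (Real.log T - Dx) ≤ Real.log d) :
    ∃ D, D ≤ Dtop ∧ (i : ℝ) * ((19 / 192) * Real.log T - (1 / 2) * Dx -
        ((7 / 32) * Real.log Λ' + 0.5046) -
        ((7 / 32) * (1 + ε) + 1 / 2 ^ 60) * Real.log ((2 : ℝ) ^ Dtop / i)) ≤
      Jterm Dtop i d x D := by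
  obtain ⟨D, hD, hc⟩ := price hT hx hlx hΛ' hε hDtop ha hb hY hi hin
  refine ⟨D, hD, ?_⟩
  unfold Jterm
  unfold logA at hc
  set lR := Real.log ((2 : ℝ) ^ Dtop / i)
  have e : (i : ℝ) * ((19 / 192) * Real.log T - (1 / 2) * Dx -
        ((7 / 32) * Real.log Λ' + 0.5046) - ((7 / 32) * (1 + ε) + 1 / 2 ^ 60) * lR) =
      (1 / 2) * ((i : ℝ) * (Real.log T - Dx)) -
        i * ((7 / 32) * (Real.log Λ' + (11 / 6) * Real.log T + (1 + ε) * lR) + 0.5046 +
          lR / 2 ^ 60) := by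
    ring
  rw [e]
  linarith

/-! ### Lower bounds for the dimension -/

/-- The logarithm of the last factor of `log_d_lower`. -/
lemma log_last_le : Real.log ((1 - Real.exp (-(1 / 1000 : ℝ)))⁻¹) ≤ 7.61 := by
  have h1 : (1 / 2000 : ℝ) ≤ 1 - Real.exp (-(1 / 1000 : ℝ)) := by
    have h4 : Real.exp (-(1 / 1000 : ℝ)) = (Real.exp (1 / 1000))⁻¹ := Real.exp_neg _
    have h5 : (1 : ℝ) + 1 / 1000 ≤ Real.exp (1 / 1000) := by
      have := Real.add_one_le_exp (1 / 1000 : ℝ)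
      linarith
    have h6 : (Real.exp (1 / 1000))⁻¹ ≤ (1 + 1 / 1000 : ℝ)⁻¹ := by
      apply inv_anti₀ (by norm_num) h5
    have h7 : (1 + 1 / 1000 : ℝ)⁻¹ ≤ 1 - 1 / 2000 := by norm_num
    rw [h4]
    linarith
  have h2 : (1 - Real.exp (-(1 / 1000 : ℝ)))⁻¹ ≤ 2000 := by
    rw [inv_le_comm₀ (by linarith) (by norm_num)]
    norm_num at h1 ⊢
    linarith
  have h3 : Real.log ((1 - Real.exp (-(1 / 1000 : ℝ)))⁻¹) ≤ Real.log 2000 :=
    Real.log_le_log (by
      rw [inv_pos]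
      linarith) h2
  have h4 : Real.log 2000 ≤ 7.61 := by
    have h := log_le_pow (x := (2000 : ℝ)) (p := 439) (q := 40) (by norm_num) (by norm_num)
      (by norm_num)
    have h2 := log2_lt
    have h0 : 0 < Real.log 2 := Real.log_pos (by norm_num)
    norm_num at h ⊢
    linarith
  linarith

/-- The lower bound away from the square. -/
lemma d_low_A {T i d : ℕ} (hT : 0 < T) (hnear : 16 * T ^ 2 < i) (hi : 2 ^ 66 ≤ i)
    (hlow : ∀ z ε : ℝ, 0 < z → z < 1 → 0 < ε →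
      (i : ℝ) * (Real.log T - Real.log (9 / 8) - ε - Real.log (1 / z)) -
        ((T : ℝ) * (T - 1) / 2) * Real.log (1 / (1 - z)) -
        T * Real.log ((1 - Real.exp (-ε))⁻¹) ≤ Real.log d) :
    (i : ℝ) * (Real.log T - 0.259) ≤ Real.log d := by
  have h := hlow (32 / 33) (1 / 1000) (by norm_num) (by norm_num) (by norm_num)
  have hTr : (1 : ℝ) ≤ T := by exact_mod_cast hT
  have hnr : 16 * (T : ℝ) ^ 2 ≤ i := by exact_mod_cast hnear.le
  have hir : (2 : ℝ) ^ 66 ≤ i := by exact_mod_cast hi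
  have hi0 : (0 : ℝ) < i := lt_of_lt_of_le (by positivity) hir
  have e1 : (1 : ℝ) / (1 - 32 / 33) = 33 := by norm_num
  have e2 : (1 : ℝ) / (32 / 33) = 33 / 32 := by norm_num
  rw [e1, e2] at h
  have h33 := l33n
  have h3332 := l3332
  have h98 := l98
  have hlast := log_last_le
  have hl33 : 0 ≤ Real.log 33 := Real.log_nonneg (by norm_num)
  -- the second term
  have h2 : ((T : ℝ) * (T - 1) / 2) * Real.log 33 ≤ i * (3.4966 / 32) := by
    have h3 : (T : ℝ) * (T - 1) / 2 ≤ i / 32 := by nlinarith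
    have h4 : ((T : ℝ) * (T - 1) / 2) * Real.log 33 ≤ (i / 32) * Real.log 33 :=
      mul_le_mul_of_nonneg_right h3 hl33
    have h5 : (i / 32 : ℝ) * Real.log 33 ≤ (i / 32) * 3.4966 :=
      mul_le_mul_of_nonneg_left h33 (by positivity)
    linarith
  -- the third term
  have h3 : (T : ℝ) * Real.log ((1 - Real.exp (-(1 / 1000 : ℝ)))⁻¹) ≤ i * (7.61 / 2 ^ 30) := by
    have hTi : (T : ℝ) * 2 ^ 30 ≤ i := by
      have h5 : ((T : ℝ) * 2 ^ 30) ^ 2 ≤ (i : ℝ) ^ 2 := by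
        have : ((T : ℝ) * 2 ^ 30) ^ 2 = (T : ℝ) ^ 2 * 2 ^ 60 := by ring
        rw [this]
        have h6 : (T : ℝ) ^ 2 * 2 ^ 60 ≤ (i / 16) * 2 ^ 60 :=
          mul_le_mul_of_nonneg_right (by linarith) (by positivity)
        have h7 : (i : ℝ) / 16 * 2 ^ 60 ≤ i * i := by
          have : (i : ℝ) / 16 * 2 ^ 60 = i * (2 ^ 56) := by ring
          rw [this]
          exact mul_le_mul_of_nonneg_left (le_trans (by norm_num) hir) hi0.le
        nlinarith
      exact (pow_le_pow_iff_left₀ (by positivity) hi0.le (by norm_num)).mp h5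
    have h5 : (T : ℝ) * Real.log ((1 - Real.exp (-(1 / 1000 : ℝ)))⁻¹) ≤ T * 7.61 :=
      mul_le_mul_of_nonneg_left hlast (by positivity)
    have h6 : (T : ℝ) * 7.61 ≤ i * (7.61 / 2 ^ 30) := by
      have : (i : ℝ) * (7.61 / 2 ^ 30) = (i / 2 ^ 30) * 7.61 := by ring
      rw [this]
      apply mul_le_mul_of_nonneg_right _ (by norm_num)
      rw [le_div_iff₀ (by positivity)]
      exact hTi
    linarith
  have e3 : (i : ℝ) * (Real.log T - 0.259) ≤
      (i : ℝ) * (Real.log T - Real.log (9 / 8) - 1 / 1000 - Real.log (33 / 32)) -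
        i * (3.4966 / 32) - i * (7.61 / 2 ^ 30) := by
    rw [← mul_sub, ← mul_sub]
    apply mul_le_mul_of_nonneg_left _ hi0.le
    norm_num at h98 h3332 ⊢
    linarith
  linarith

/-- The bound `T² ≤ 3.0002 i` for `T` large. -/
lemma TT_le {T i k : ℕ} (hT : 2 ^ 16 ≤ T) (hk1 : T * 2 ^ k ≤ i) (hk3 : T ≤ 3 * 2 ^ k + 3) :
    (T : ℝ) ^ 2 ≤ (30002 / 10000) * i := by
  have hTb : (65536 : ℝ) ≤ T := by
    have : ((2 ^ 16 : ℕ) : ℝ) ≤ T := by exact_mod_cast hT
    norm_num at this ⊢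
    exact this
  have hT0 : (0 : ℝ) < T := by linarith
  have h3 : (T : ℝ) ≤ 3 * 2 ^ k + 3 := by exact_mod_cast hk3
  have h4 : (T : ℝ) * 2 ^ k ≤ i := by exact_mod_cast hk1
  have h5 : (2 : ℝ) ^ k ≥ 20000 := by linarith
  have h6 : (T : ℝ) * 20000 ≤ i := by
    calc (T : ℝ) * 20000 ≤ T * 2 ^ k := mul_le_mul_of_nonneg_left h5 hT0.le
      _ ≤ _ := h4
  nlinarith

/-- The lower bound near the square. -/
lemma d_low_B {T i d : ℕ} (hT : 2 ^ 16 ≤ T) (hTT : (T : ℝ) ^ 2 ≤ (30002 / 10000) * i)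
    (hlow : ∀ z ε : ℝ, 0 < z → z < 1 → 0 < ε →
      (i : ℝ) * (Real.log T - Real.log (9 / 8) - ε - Real.log (1 / z)) -
        ((T : ℝ) * (T - 1) / 2) * Real.log (1 / (1 - z)) -
        T * Real.log ((1 - Real.exp (-ε))⁻¹) ≤ Real.log d) :
    (i : ℝ) * (Real.log T - 1.802) ≤ Real.log d := by
  have h := hlow (2 / 5) (1 / 1000) (by norm_num) (by norm_num) (by norm_num)
  have hTb : (65536 : ℝ) ≤ T := by
    have : ((2 ^ 16 : ℕ) : ℝ) ≤ T := by exact_mod_cast hT
    norm_num at this ⊢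
    exact this
  have hT0 : (0 : ℝ) < T := by linarith
  have hi0 : (0 : ℝ) < i := by
    by_contra hcon
    have : (i : ℝ) ≤ 0 := not_lt.mp hcon
    nlinarith
  have e1 : (1 : ℝ) / (1 - 2 / 5) = 5 / 3 := by norm_num
  have e2 : (1 : ℝ) / (2 / 5) = 5 / 2 := by norm_num
  rw [e1, e2] at h
  have h53 := l53
  have h52 := l52
  have h98 := l98
  have hlast := log_last_le
  have hl53 : 0 ≤ Real.log (5 / 3) := Real.log_nonneg (by norm_num)
  have h2 : ((T : ℝ) * (T - 1) / 2) * Real.log (5 / 3) ≤ i * (1.5001 * 0.51083) := by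
    have h3 : (T : ℝ) * (T - 1) / 2 ≤ i * 1.5001 := by nlinarith
    have h4 : ((T : ℝ) * (T - 1) / 2) * Real.log (5 / 3) ≤ (i * 1.5001) * Real.log (5 / 3) :=
      mul_le_mul_of_nonneg_right h3 hl53
    have h5 : (i * 1.5001 : ℝ) * Real.log (5 / 3) ≤ (i * 1.5001) * 0.51083 :=
      mul_le_mul_of_nonneg_left h53 (by positivity)
    linarith
  have h3 : (T : ℝ) * Real.log ((1 - Real.exp (-(1 / 1000 : ℝ)))⁻¹) ≤ i * (7.61 * 0.0000458) := by
    have hTi : (T : ℝ) ≤ i * 0.0000458 := by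
      nlinarith
    have h5 : (T : ℝ) * Real.log ((1 - Real.exp (-(1 / 1000 : ℝ)))⁻¹) ≤ T * 7.61 :=
      mul_le_mul_of_nonneg_left hlast (by positivity)
    have h6 : (T : ℝ) * 7.61 ≤ (i * 0.0000458) * 7.61 :=
      mul_le_mul_of_nonneg_right hTi (by norm_num)
    have e : (i : ℝ) * (7.61 * 0.0000458) = (i * 0.0000458) * 7.61 := by ring
    rw [e]
    linarith
  have e3 : (i : ℝ) * (Real.log T - 1.802) ≤
      (i : ℝ) * (Real.log T - Real.log (9 / 8) - 1 / 1000 - Real.log (5 / 2)) -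
        i * (1.5001 * 0.51083) - i * (7.61 * 0.0000458) := by
    rw [← mul_sub, ← mul_sub]
    apply mul_le_mul_of_nonneg_left _ hi0.le
    norm_num at h98 h52 ⊢
    linarith
  linarith

/-! ### The two lines -/

lemma XX_ge_big {T : ℕ} (hT : 2 ^ 16 ≤ T) : 8192 * (T : ℝ) ≤ XX T := by
  have hT0 : (0 : ℝ) < T := by
    have : 0 < T := lt_of_lt_of_le (by positivity) hT
    exact_mod_cast this
  have hT1 : ((2 : ℝ) ^ 16) ≤ T := by exact_mod_cast hT
  have h1 : (2 : ℝ) ^ 13 ≤ (T : ℝ) ^ ((5 : ℝ) / 6) := by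
    have h2 : ((2 : ℝ) ^ (13 : ℕ)) ≤ ((2 : ℝ) ^ (16 : ℕ)) ^ ((5 : ℝ) / 6) := by
      rw [← Real.rpow_natCast, ← Real.rpow_natCast, ← Real.rpow_mul (by norm_num)]
      exact Real.rpow_le_rpow_of_exponent_le (by norm_num) (by norm_num)
    exact h2.trans (Real.rpow_le_rpow (by positivity) hT1 (by norm_num))
  have h3 : XX T = (T : ℝ) * (T : ℝ) ^ ((5 : ℝ) / 6) := by
    unfold XX
    rw [show (11 : ℝ) / 6 = 1 + 5 / 6 by norm_num, Real.rpow_add hT0, Real.rpow_one]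
  rw [h3]
  have h4 : (8192 : ℝ) = 2 ^ 13 := by norm_num
  rw [h4, mul_comm]
  exact mul_le_mul_of_nonneg_left h1 hT0.le

lemma XX_le_sq {T : ℕ} (hT : 0 < T) : XX T ≤ (T : ℝ) ^ 2 := by
  have hT1 : (1 : ℝ) ≤ T := by exact_mod_cast hT
  unfold XX
  rw [← Real.rpow_natCast]
  exact Real.rpow_le_rpow_of_exponent_le hT1 (by norm_num)

lemma one_add_le_XX {T : ℕ} (hT : 0 < T) : 1 + (11 / 6) * Real.log T ≤ XX T := by
  rw [XX_eq hT]
  have := Real.add_one_le_exp ((11 / 6) * Real.log (T : ℝ))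
  linarith

/-- `X ≤ 0.0731 i` when `T² ≤ 3.0002 i`. -/
lemma XX_le_of_TT {T i : ℕ} (hT : 0 < T) (hTT : (T : ℝ) ^ 2 ≤ (30002 / 10000) * i)
    (hi : 2 ^ 66 ≤ i) : XX T ≤ 0.0731 * i := by
  have hir : (2 : ℝ) ^ 66 ≤ i := by exact_mod_cast hi
  have hi0 : (0 : ℝ) < i := lt_of_lt_of_le (by positivity) hir
  have h0 : 0 < XX T := XX_pos hT
  refine (pow_le_pow_iff_left₀ h0.le (by positivity) (show (12 : ℕ) ≠ 0 by norm_num)).mp ?_
  rw [XX_pow]
  calc ((T : ℝ) ^ 2) ^ 11 ≤ ((30002 / 10000) * (i : ℝ)) ^ 11 :=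
        pow_le_pow_left₀ (by positivity) hTT 11
    _ = ((30002 / 10000 : ℝ)) ^ 11 * (i : ℝ) ^ 11 := by rw [mul_pow]
    _ ≤ (0.0731 ^ 12 * (2 : ℝ) ^ 66) * (i : ℝ) ^ 11 :=
        mul_le_mul_of_nonneg_right (by norm_num) (by positivity)
    _ ≤ (0.0731 ^ 12 * i) * (i : ℝ) ^ 11 := by
        apply mul_le_mul_of_nonneg_right _ (by positivity)
        exact mul_le_mul_of_nonneg_left hir (by norm_num)
    _ = (0.0731 * (i : ℝ)) ^ 12 := by ring

/-- The line for a large number of blocks. -/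
lemma line_big {Dtop T i d : ℕ} {x Dx : ℝ} (hT : 2 ^ 16 ≤ T) (hx : 1 ≤ x)
    (hlx : Real.log x ≤ 4.1 * XX T) (hDtop : 1 ≤ Dtop)
    (hTT : (T : ℝ) ^ 2 ≤ (30002 / 10000) * i) (hi : 2 ^ 66 ≤ i) (hin : i ≤ 2 ^ Dtop)
    (hlow : (i : ℝ) * (Real.log T - Dx) ≤ Real.log d) :
    ∃ D, D ≤ Dtop ∧ (i : ℝ) * ((19 / 192) * Real.log T - (1 / 2) * Dx - 0.8139 -
        0.2188 * Real.log ((2 : ℝ) ^ Dtop / i)) ≤ Jterm Dtop i d x D := by
  have hT0 : 0 < T := lt_of_lt_of_le (by positivity) hT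
  have hTb : (65536 : ℝ) ≤ T := by
    have : ((2 ^ 16 : ℕ) : ℝ) ≤ T := by exact_mod_cast hT
    norm_num at this ⊢
    exact this
  have hX := XX_ge_big hT
  have hlogT : Real.log T ≤ T := by
    have := Real.log_le_sub_one_of_pos (show (0 : ℝ) < T by linarith)
    linarith
  have hXb : (65536 * 8192 : ℝ) ≤ XX T := by nlinarith
  have h411 := l411
  have ha : 2 * (1 + (1 / 1000000 : ℝ)) ≤ (411 / 100) * XX T * (1 / 1000000) := by
    norm_num at hXb ⊢
    linarith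
  have hb : 5.11 + 2 * Real.log (411 / 100) + (11 / 3) * Real.log T + 4.1 * XX T ≤
      (411 / 100) * XX T := by
    norm_num at h411 hX hXb ⊢
    linarith
  have hY : 4.1 * XX T ≤ 0.3 * i := by
    have := XX_le_of_TT hT0 hTT hi
    norm_num at this ⊢
    linarith
  obtain ⟨D, hD, hc⟩ := line (Λ' := 411 / 100) (ε := 1 / 1000000) hT0 hx hlx (by norm_num)
    (by norm_num) hDtop ha hb hY hi hin hlow
  refine ⟨D, hD, le_trans ?_ hc⟩
  have hi0 : (0 : ℝ) < i := by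
    have h1 : 0 < i := lt_of_lt_of_le (by positivity) hi
    exact_mod_cast h1
  have hR1 : 1 ≤ (2 : ℝ) ^ Dtop / i := by
    rw [le_div_iff₀ hi0, one_mul]
    exact_mod_cast hin
  have hlR0 := Real.log_nonneg hR1
  apply mul_le_mul_of_nonneg_left _ hi0.le
  have h3 : ((7 / 32) * (1 + 1 / 1000000) + 1 / 2 ^ 60 : ℝ) * Real.log ((2 : ℝ) ^ Dtop / i) ≤
      0.2188 * Real.log ((2 : ℝ) ^ Dtop / i) :=
    mul_le_mul_of_nonneg_right (by norm_num) hlR0
  norm_num at h411 ⊢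
  norm_num at h3
  linarith

/-- The line for a small number of blocks. -/
lemma line_small {Dtop T i d : ℕ} {x : ℝ} (hT0 : 0 < T) (hT : T < 2 ^ 16) (hx : 1 ≤ x)
    (hlx : Real.log x ≤ 38 * XX T) (hDtop : 1 ≤ Dtop)
    (hi : 2 ^ 66 ≤ i) (hin : i ≤ 2 ^ Dtop)
    (hlow : (i : ℝ) * (Real.log T - 0.259) ≤ Real.log d) :
    ∃ D, D ≤ Dtop ∧ (i : ℝ) * ((19 / 192) * Real.log T - (1 / 2) * 0.259 - 1.3648 -
        0.2277 * Real.log ((2 : ℝ) ^ Dtop / i)) ≤ Jterm Dtop i d x D := by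
  have hX1 := one_add_le_XX hT0
  have hl0 : 0 ≤ Real.log (T : ℝ) := Real.log_natCast_nonneg T
  have h51 := l51
  have ha : 2 * (1 + (0.0409 : ℝ)) ≤ 51 * XX T * 0.0409 := by
    norm_num at hX1 ⊢
    linarith
  have hb : 5.11 + 2 * Real.log 51 + (11 / 3) * Real.log T + 38 * XX T ≤ 51 * XX T := by
    norm_num at h51 hX1 ⊢
    linarith
  have hY : 38 * XX T ≤ 0.3 * i := by
    have h1 := XX_le_sq hT0
    have hTr : (T : ℝ) ≤ 2 ^ 16 := by exact_mod_cast hT.le
    have hT2 : (T : ℝ) ^ 2 ≤ (2 ^ 16) ^ 2 := pow_le_pow_left₀ (by positivity) hTr 2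
    have hir : (2 : ℝ) ^ 66 ≤ i := by exact_mod_cast hi
    norm_num at hT2 ⊢
    linarith
  obtain ⟨D, hD, hc⟩ := line (Λ' := 51) (ε := 0.0409) hT0 hx hlx (by norm_num)
    (by norm_num) hDtop ha hb hY hi hin hlow
  refine ⟨D, hD, le_trans ?_ hc⟩
  have hi0 : (0 : ℝ) < i := by
    have h1 : 0 < i := lt_of_lt_of_le (by positivity) hi
    exact_mod_cast h1
  have hR1 : 1 ≤ (2 : ℝ) ^ Dtop / i := by
    rw [le_div_iff₀ hi0, one_mul]
    exact_mod_cast hin
  have hlR0 := Real.log_nonneg hR1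
  apply mul_le_mul_of_nonneg_left _ hi0.le
  have h3 : ((7 / 32) * (1 + 0.0409) + 1 / 2 ^ 60 : ℝ) * Real.log ((2 : ℝ) ^ Dtop / i) ≤
      0.2277 * Real.log ((2 : ℝ) ^ Dtop / i) :=
    mul_le_mul_of_nonneg_right (by norm_num) hlR0
  norm_num at h51 ⊢
  norm_num at h3
  linarith


/-! ### The target of one class -/

/-- The target of a class. -/
noncomputable def Tgt (w a L lq e : ℝ) : ℝ :=
  0.0894 * w - 2.9273 - 0.2277 * L - e + 0.3267 * (lq - a)

/-- The logarithm of the inverse of the prior of a class. -/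
noncomputable def lqq (ι : ℕ) (bst : ℝ) : ℝ :=
  Real.log (17 / 4) + Real.log 100 + ι * Real.log (50 / 49) - Real.log bst

/-- The number of dyadic levels below the top against the weight of a class. -/
lemma iota_bound {b i T k J : ℕ} (hi : 0 < i) (hT : 0 < T) (hib : i ≤ b)
    (hk2 : i < T * 2 ^ (k + 1)) (hJ : 2 ^ J ≤ b) :
    ((J - k : ℕ) : ℝ) * Real.log 2 ≤ Real.log T + Real.log ((b : ℝ) / i) + Real.log 2 := by
  have hi0 : (0 : ℝ) < i := by exact_mod_cast hi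
  have hT0 : (0 : ℝ) < T := by exact_mod_cast hT
  have hb0 : (0 : ℝ) < b := by
    have : 0 < b := by omega
    exact_mod_cast this
  have h1 : Real.log (i : ℝ) ≤ Real.log T + ((k : ℝ) + 1) * Real.log 2 := by
    have h7 : (i : ℝ) ≤ T * 2 ^ (k + 1) := by
      have : (i : ℝ) < T * 2 ^ (k + 1) := by exact_mod_cast hk2
      exact this.le
    have h8 := Real.log_le_log hi0 h7
    rw [Real.log_mul hT0.ne' (by positivity), Real.log_pow] at h8
    push_cast at h8
    exact h8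
  have h2 : (J : ℝ) * Real.log 2 ≤ Real.log b := by
    have h7 : ((2 : ℝ) ^ J) ≤ b := by exact_mod_cast hJ
    have h8 := Real.log_le_log (by positivity) h7
    rwa [Real.log_pow] at h8
  rw [Real.log_div hb0.ne' hi0.ne']
  have hl : 0 < Real.log 2 := Real.log_pos (by norm_num)
  by_cases hkJ : k ≤ J
  · rw [Nat.cast_sub hkJ]
    nlinarith
  · have : J - k = 0 := by omega
    rw [this]
    have h3 : Real.log i ≤ Real.log b := Real.log_le_log hi0 (by exact_mod_cast hib)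
    have h4 : 0 ≤ Real.log (T : ℝ) := Real.log_natCast_nonneg T
    simp only [Nat.cast_zero, zero_mul]
    linarith

/-- The arithmetic of the target. -/
lemma Tgt_le {t a L Dx p B e lb : ℝ} {ι : ℕ} (ht : 0 ≤ t) (ha : 0 ≤ a) (hL : 0 ≤ L)
    (hι : (ι : ℝ) * Real.log 2 ≤ t + a + Real.log 2) (hB : B ≤ 0.2277)
    (hc : (1 / 2) * Dx + p + 1.9839 ≤ 2.9273 + e + 0.3267 * lb) :
    Tgt (t + a) a L (Real.log (17 / 4) + Real.log 100 + ι * Real.log (50 / 49) - lb) e ≤
      (19 / 192) * t - (1 / 2) * Dx - p - B * (L + a) := by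
  unfold Tgt
  have h425 := l425
  have h100 := l100
  have h098 := l098
  have hg := log2_gt
  have hl := log2_lt
  have hι0 : (0 : ℝ) ≤ ι := Nat.cast_nonneg ι
  have h1 : (ι : ℝ) * Real.log (50 / 49) ≤ 0.0291471 * (t + a + Real.log 2) := by
    have h2 : (ι : ℝ) * Real.log (50 / 49) ≤ ι * 0.020203 :=
      mul_le_mul_of_nonneg_left h098 hι0
    have h3 : (ι : ℝ) * 0.020203 ≤ 0.0291471 * ((ι : ℝ) * Real.log 2) := by
      have : (0.020203 : ℝ) ≤ 0.0291471 * Real.log 2 := by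
        norm_num at hg ⊢
        linarith
      calc (ι : ℝ) * 0.020203 ≤ ι * (0.0291471 * Real.log 2) :=
            mul_le_mul_of_nonneg_left this hι0
        _ = _ := by ring
    have h4 := mul_le_mul_of_nonneg_left hι (show (0 : ℝ) ≤ 0.0291471 by norm_num)
    linarith
  have h5 : B * (L + a) ≤ 0.2277 * (L + a) :=
    mul_le_mul_of_nonneg_right hB (by positivity)
  norm_num at h425 h100 h098 hl h1 hc h5 ⊢
  linarith

/-- **The inequality of one class.** -/
theorem class_tgt {Dtop b i T k d J : ℕ} {x bst e : ℝ} (hi : 2 ^ 66 ≤ i) (hib : i ≤ b)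
    (hb : b ≤ 2 ^ Dtop) (hT0 : 0 < T)
    (hk1 : T * 2 ^ k ≤ i) (hk2 : i < T * 2 ^ (k + 1)) (hk3 : T ≤ 3 * 2 ^ k + 3)
    (hJ : 2 ^ J ≤ b) (hDtop : 1 ≤ Dtop) (hx : 1 ≤ x)
    (hx16 : 2 ^ 16 ≤ T → Real.log x ≤ 4.1 * XX T) (hxall : Real.log x ≤ 38 * XX T)
    (hlow : ∀ z ε : ℝ, 0 < z → z < 1 → 0 < ε →
      (i : ℝ) * (Real.log T - Real.log (9 / 8) - ε - Real.log (1 / z)) -
        ((T : ℝ) * (T - 1) / 2) * Real.log (1 / (1 - z)) -
        T * Real.log ((1 - Real.exp (-ε))⁻¹) ≤ Real.log d)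
    (hbst : 1 ≤ bst) (he : 0 ≤ e)
    (hnear : 2 ^ 16 ≤ T → i ≤ 16 * T ^ 2 → 0.7715 ≤ e + 0.3267 * Real.log bst)
    (hsmall : T < 2 ^ 16 → 0.551 ≤ e + 0.3267 * Real.log bst) :
    ∃ D, D ≤ Dtop ∧ (i : ℝ) * Tgt (Real.log T + Real.log ((b : ℝ) / i)) (Real.log ((b : ℝ) / i))
        (Real.log ((2 : ℝ) ^ Dtop / b)) (lqq (J - k) bst) e ≤ Jterm Dtop i d x D := by
  have hi1 : 0 < i := lt_of_lt_of_le (by positivity) hi
  have hi0 : (0 : ℝ) < i := by exact_mod_cast hi1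
  have hb1 : 0 < b := by omega
  have hb0 : (0 : ℝ) < b := by exact_mod_cast hb1
  have hn0 : (0 : ℝ) < (2 : ℝ) ^ Dtop := by positivity
  have hibr : (i : ℝ) ≤ b := by exact_mod_cast hib
  have hbnr : (b : ℝ) ≤ (2 : ℝ) ^ Dtop := by exact_mod_cast hb
  have hin : i ≤ 2 ^ Dtop := hib.trans hb
  set t : ℝ := Real.log T with ht
  have ht0 : 0 ≤ t := Real.log_natCast_nonneg T
  set a : ℝ := Real.log ((b : ℝ) / i) with ha
  have ha0 : 0 ≤ a := Real.log_nonneg (by rw [le_div_iff₀ hi0]; linarith)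
  set L : ℝ := Real.log ((2 : ℝ) ^ Dtop / b) with hL
  have hL0 : 0 ≤ L := Real.log_nonneg (by rw [le_div_iff₀ hb0]; linarith)
  have hlR : Real.log ((2 : ℝ) ^ Dtop / i) = L + a := by
    rw [hL, ha, Real.log_div hn0.ne' hi0.ne', Real.log_div hn0.ne' hb0.ne',
      Real.log_div hb0.ne' hi0.ne']
    ring
  have hι := iota_bound hi1 hT0 hib hk2 hJ
  rw [← ht, ← ha] at hι
  have hlb : 0 ≤ Real.log bst := Real.log_nonneg hbst
  unfold lqq
  by_cases hbig : 2 ^ 16 ≤ T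
  · have hTT := TT_le hbig hk1 hk3
    by_cases hn : i ≤ 16 * T ^ 2
    · obtain ⟨D, hD, hc⟩ := line_big (Dx := 1.802) hbig hx (hx16 hbig) hDtop hTT hi hin
        (d_low_B hbig hTT hlow)
      refine ⟨D, hD, le_trans ?_ hc⟩
      apply mul_le_mul_of_nonneg_left _ hi0.le
      rw [hlR]
      refine Tgt_le ht0 ha0 hL0 hι (by norm_num) ?_
      have := hnear hbig hn
      norm_num at this ⊢
      linarith
    · obtain ⟨D, hD, hc⟩ := line_big (Dx := 0.259) hbig hx (hx16 hbig) hDtop hTT hi hin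
        (d_low_A hT0 (not_le.mp hn) hi hlow)
      refine ⟨D, hD, le_trans ?_ hc⟩
      apply mul_le_mul_of_nonneg_left _ hi0.le
      rw [hlR]
      refine Tgt_le ht0 ha0 hL0 hι (by norm_num) ?_
      have : 0 ≤ 0.3267 * Real.log bst := by positivity
      norm_num at this ⊢
      linarith
  · have hsm : T < 2 ^ 16 := not_le.mp hbig
    have hn : 16 * T ^ 2 < i := by
      have h1 : T ^ 2 ≤ (2 ^ 16) ^ 2 := Nat.pow_le_pow_left hsm.le 2
      calc 16 * T ^ 2 ≤ 16 * (2 ^ 16) ^ 2 := Nat.mul_le_mul_left _ h1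
        _ < 2 ^ 66 := by norm_num
        _ ≤ i := hi
    obtain ⟨D, hD, hc⟩ := line_small hT0 hsm hx hxall hDtop hi hin (d_low_A hT0 hn hi hlow)
    refine ⟨D, hD, le_trans ?_ hc⟩
    apply mul_le_mul_of_nonneg_left _ hi0.le
    rw [hlR]
    refine Tgt_le ht0 ha0 hL0 hι (by norm_num) ?_
    have := hsmall hsm
    norm_num at this ⊢
    linarith

/-- **The inequality of a tiny class.** -/
theorem tiny_bound {Dtop b i T k d : ℕ} {x : ℝ} (hi : i < 2 ^ 66) (hi1 : 0 < i) (hib : i ≤ b)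
    (hb : b ≤ 2 ^ Dtop) (hT0 : 0 < T) (hk1 : T * 2 ^ k ≤ i) (hk3 : T ≤ 3 * 2 ^ k + 3)
    (hDtop : 1 ≤ Dtop) (hd : 0 < d) (hx : 1 ≤ x) (hxall : Real.log x ≤ 38 * XX T) :
    (i : ℝ) * (0.0894 * (Real.log T + Real.log ((b : ℝ) / i))) -
        (2 ^ 65 * Real.log ((2 : ℝ) ^ Dtop) + 2 ^ 71) ≤ Jterm Dtop i d x Dtop := by
  have hi0 : (0 : ℝ) < i := by exact_mod_cast hi1
  have hb1 : 0 < b := by omega
  have hb0 : (0 : ℝ) < b := by exact_mod_cast hb1
  have hn0 : (0 : ℝ) < (2 : ℝ) ^ Dtop := by positivity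
  have hibr : (1 : ℝ) ≤ i := by exact_mod_cast hi1
  have hbnr : (b : ℝ) ≤ (2 : ℝ) ^ Dtop := by exact_mod_cast hb
  have hir : (i : ℝ) ≤ 2 ^ 66 := by exact_mod_cast hi.le
  have hln : (Dtop : ℝ) * Real.log 2 = Real.log ((2 : ℝ) ^ Dtop) := by rw [Real.log_pow]
  set ln := Real.log ((2 : ℝ) ^ Dtop) with hlnd
  have hln0 : 0 ≤ ln := Real.log_nonneg (one_le_pow₀ (by norm_num))
  -- the size of `T`
  have hT35 : T ≤ 2 ^ 35 := by
    by_contra hcon
    have h1 : 2 ^ 35 < T := not_le.mp hcon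
    have h2 : 2 ^ 33 ≤ 2 ^ k := by
      omega
    have h3 : 2 ^ 35 * 2 ^ 33 ≤ T * 2 ^ k := Nat.mul_le_mul h1.le h2
    have h4 : 2 ^ 35 * 2 ^ 33 < 2 ^ 66 := lt_of_le_of_lt (h3.trans hk1) hi
    norm_num at h4
  have hTr : (T : ℝ) ≤ 2 ^ 35 := by exact_mod_cast hT35
  have hTr0 : (0 : ℝ) < T := by exact_mod_cast hT0
  have hX : XX T ≤ 2 ^ 65 := by
    refine (pow_le_pow_iff_left₀ (XX_pos hT0).le (by positivity)
      (show (12 : ℕ) ≠ 0 by norm_num)).mp ?_
    rw [XX_pow]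
    have h1 : (T : ℝ) ^ 2 ≤ (2 ^ 35) ^ 2 := pow_le_pow_left₀ hTr0.le hTr 2
    calc ((T : ℝ) ^ 2) ^ 11 ≤ (((2 : ℝ) ^ 35) ^ 2) ^ 11 := pow_le_pow_left₀ (by positivity) h1 11
      _ ≤ ((2 : ℝ) ^ 65) ^ 12 := by norm_num
  have hlogT : Real.log T ≤ 24.3 := by
    have h1 := Real.log_le_log hTr0 hTr
    rw [Real.log_pow] at h1
    have h2 := log2_lt
    norm_num at h1 h2 ⊢
    linarith
  have ha : Real.log ((b : ℝ) / i) ≤ ln := by
    apply Real.log_le_log (by positivity)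
    calc (b : ℝ) / i ≤ b / 1 := div_le_div_of_nonneg_left hb0.le (by norm_num) hibr
      _ ≤ _ := by simpa using hbnr
  have hlogd : 0 ≤ Real.log d := Real.log_natCast_nonneg d
  have htau := tauD_le hDtop
  rw [hln] at htau
  have hlam := Lam_top_le (D := Dtop) (Λ' := 1) hx hxall
  rw [hln] at hlam
  unfold Jterm
  have e1 : (2 : ℝ) ^ (Dtop - Dtop) = 1 := by simp
  rw [e1, one_mul]
  have hlogT0 : 0 ≤ Real.log (T : ℝ) := Real.log_natCast_nonneg T
  have ha0 : 0 ≤ Real.log ((b : ℝ) / i) := Real.log_nonneg (by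
    rw [le_div_iff₀ hi0]
    rw [one_mul]
    exact_mod_cast hib)
  -- the terms
  have h1 : (i : ℝ) * (JNum.tauD Dtop + 3 / 1000) ≤ 2 ^ 66 * (0.21875 * ln) := by
    have h2 : JNum.tauD Dtop + 3 / 1000 ≤ 0.21875 * ln := by
      norm_num at htau ⊢
      linarith
    have h3 : 0 ≤ 0.21875 * ln := by positivity
    calc (i : ℝ) * (JNum.tauD Dtop + 3 / 1000) ≤ i * (0.21875 * ln) :=
          mul_le_mul_of_nonneg_left h2 hi0.le
      _ ≤ _ := mul_le_mul_of_nonneg_right hir h3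
  have h2 : (i : ℝ) * (0.0894 * (Real.log T + Real.log ((b : ℝ) / i))) ≤
      2 ^ 66 * (0.0894 * (24.3 + ln)) := by
    have h3 : 0.0894 * (Real.log T + Real.log ((b : ℝ) / i)) ≤ 0.0894 * (24.3 + ln) := by
      linarith
    calc (i : ℝ) * (0.0894 * (Real.log T + Real.log ((b : ℝ) / i))) ≤
          i * (0.0894 * (24.3 + ln)) := mul_le_mul_of_nonneg_left h3 hi0.le
      _ ≤ _ := mul_le_mul_of_nonneg_right hir (by positivity)
  have h3 : (2 : ℝ) ^ 66 * (0.21875 * ln) + (1.3275 + 2 * ln + 38 * 2 ^ 65) +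
      2 ^ 66 * (0.0894 * (24.3 + ln)) ≤ 2 ^ 65 * ln + 2 ^ 71 := by
    norm_num
    nlinarith
  nlinarith


/-! ### The data of the coverage -/

/-- The data of the coverage: the classes of a representation. -/
structure CData (S : Type*) [Fintype S] where
  k : S → ℕ
  o : S → Bool
  hinj : Function.Injective fun s => (k s, o s)
  m : S → ℕ
  T : S → ℕ
  d : S → ℕ
  x : S → ℝ
  b : ℕ
  Dtop : ℕ
  hb1 : 1 ≤ b
  hT0 : ∀ s, 0 < T s
  hk1 : ∀ s, T s * 2 ^ k s ≤ m s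
  hk2 : ∀ s, m s < T s * 2 ^ (k s + 1)
  hk3 : ∀ s, T s ≤ 3 * 2 ^ k s + 3
  hsum : ∑ s, m s = b
  hb : b ≤ 2 ^ Dtop
  hd0 : ∀ s, 0 < d s
  hx1 : ∀ s, 1 ≤ x s
  hx16 : ∀ s, 2 ^ 16 ≤ T s → Real.log (x s) ≤ 4.1 * XX (T s)
  hxall : ∀ s, Real.log (x s) ≤ 38 * XX (T s)
  hlow : ∀ s, ∀ z ε : ℝ, 0 < z → z < 1 → 0 < ε →
      ((m s : ℕ) : ℝ) * (Real.log (T s) - Real.log (9 / 8) - ε - Real.log (1 / z)) -
        ((T s : ℝ) * (T s - 1) / 2) * Real.log (1 / (1 - z)) -
        T s * Real.log ((1 - Real.exp (-ε))⁻¹) ≤ Real.log (d s)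

namespace CData

variable {S : Type*} [Fintype S] (C : CData S)

lemma m_pos (s : S) : 0 < C.m s := by
  have h1 := C.hk1 s
  have h2 : 0 < C.T s * 2 ^ C.k s := Nat.mul_pos (C.hT0 s) (by positivity)
  omega

lemma m_le_b (s : S) : C.m s ≤ C.b := by
  rw [← C.hsum]
  exact Finset.single_le_sum (f := C.m) (fun _ _ => Nat.zero_le _) (Finset.mem_univ s)

/-- The level of the weight. -/
def J : ℕ := Nat.log 2 C.b

lemma pow_J_le : 2 ^ C.J ≤ C.b := Nat.pow_log_le_self 2 (by have := C.hb1; omega)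

lemma lt_pow_J : C.b < 2 ^ (C.J + 1) := Nat.lt_pow_succ_log_self (by norm_num) C.b

lemma k_le (s : S) : C.k s ≤ C.J := by
  apply Nat.le_log_of_pow_le (by norm_num)
  have h1 := C.hk1 s
  have h2 : 2 ^ C.k s ≤ C.T s * 2 ^ C.k s := Nat.le_mul_of_pos_left _ (C.hT0 s)
  exact h2.trans (h1.trans (C.m_le_b s))

/-- `log T`. -/
noncomputable def tt (s : S) : ℝ := Real.log (C.T s)
/-- `log (b/m)`. -/
noncomputable def aa (s : S) : ℝ := Real.log ((C.b : ℝ) / C.m s)
/-- `log (n/b)`. -/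
noncomputable def LL : ℝ := Real.log ((2 : ℝ) ^ C.Dtop / C.b)
/-- The total weight. -/
noncomputable def WW : ℝ := ∑ s, (C.m s : ℝ) * (C.tt s + C.aa s)

lemma sum_m : ∑ s, (C.m s : ℝ) = C.b := by
  rw [← C.hsum]
  push_cast
  rfl

lemma b0 : (0 : ℝ) < C.b := by
  have := C.hb1
  exact_mod_cast this

lemma m0 (s : S) : (0 : ℝ) < C.m s := by exact_mod_cast C.m_pos s

lemma tt_nonneg (s : S) : 0 ≤ C.tt s := Real.log_natCast_nonneg _

lemma aa_nonneg (s : S) : 0 ≤ C.aa s := by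
  apply Real.log_nonneg
  rw [le_div_iff₀ (C.m0 s), one_mul]
  exact_mod_cast C.m_le_b s

lemma LL_nonneg : 0 ≤ C.LL := by
  apply Real.log_nonneg
  rw [le_div_iff₀ C.b0, one_mul]
  exact_mod_cast C.hb

lemma iota_le (s : S) : ((C.J - C.k s : ℕ) : ℝ) * Real.log 2 ≤ C.tt s + C.aa s + Real.log 2 :=
  iota_bound (C.m_pos s) (C.hT0 s) (C.m_le_b s) (C.hk2 s) C.pow_J_le

/-- The Gibbs inequality. -/
lemma gibbs {m b Q lq : ℝ} (hm : 0 < m) (hb : 0 < b) (hQ : 0 < Q) (hlq : Real.log Q = -lq) :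
    m - b * Q ≤ m * (lq - Real.log (b / m)) := by
  have h1 : Real.log (b * Q / m) ≤ b * Q / m - 1 := Real.log_le_sub_one_of_pos (by positivity)
  rw [mul_div_right_comm, Real.log_mul (by positivity) hQ.ne', hlq] at h1
  have h2 := mul_le_mul_of_nonneg_left h1 hm.le
  have e : m * (b / m * Q - 1) = b * Q - m := by
    field_simp
  rw [e] at h2
  nlinarith

lemma sum_prior : ∑ s, (49 / 50 : ℝ) ^ (C.J - C.k s) ≤ 100 :=
  prior_sum_le C.k C.o C.hinj C.J C.k_le

/-- `T² ≤ 6 m`. -/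
lemma TT_six (s : S) : C.T s ^ 2 ≤ 6 * C.m s := by
  have h1 := C.hk1 s
  have h2 := C.hk3 s
  have h3 : C.T s ≤ C.m s := by
    have : C.T s ≤ C.T s * 2 ^ C.k s := Nat.le_mul_of_pos_right _ (by positivity)
    omega
  have h4 : C.T s * C.T s ≤ C.T s * (3 * 2 ^ C.k s + 3) := Nat.mul_le_mul_left _ h2
  nlinarith

/-- The entropy of the classes against their weight. -/
lemma sum_aa_le : ∑ s, (C.m s : ℝ) * C.aa s ≤
    (C.b : ℝ) * (4.6052 + 0.020204) + 0.0291471 * C.WW := by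
  -- Gibbs against the prior
  have h1 : ∀ s, (C.m s : ℝ) - C.b * ((49 / 50 : ℝ) ^ (C.J - C.k s) / 100) ≤
      (C.m s : ℝ) * ((Real.log 100 + ((C.J - C.k s : ℕ) : ℝ) * Real.log (50 / 49)) - C.aa s) := by
    intro s
    refine gibbs (C.m0 s) C.b0 (by positivity) ?_
    rw [Real.log_div (by positivity) (by norm_num), Real.log_pow,
      show (49 / 50 : ℝ) = (50 / 49)⁻¹ by norm_num, Real.log_inv]
    ring
  have h2 := Finset.sum_le_sum (fun s (_ : s ∈ Finset.univ) => h1 s)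
  rw [Finset.sum_sub_distrib, C.sum_m, ← Finset.mul_sum, ← Finset.sum_div] at h2
  have h3 := C.sum_prior
  have h4 : (C.b : ℝ) - C.b * ((∑ s, (49 / 50 : ℝ) ^ (C.J - C.k s)) / 100) ≥ 0 := by
    have h5 : (∑ s, (49 / 50 : ℝ) ^ (C.J - C.k s)) / 100 ≤ 1 := by
      rw [div_le_one (by norm_num)]
      exact h3
    have := mul_le_mul_of_nonneg_left h5 C.b0.le
    linarith
  -- the sum of the levels
  have h5 : ∀ s, (C.m s : ℝ) * ((Real.log 100 + ((C.J - C.k s : ℕ) : ℝ) * Real.log (50 / 49)) -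
      C.aa s) ≤ (C.m s : ℝ) * (4.6052 + 0.0291471 * (C.tt s + C.aa s + Real.log 2)) -
        (C.m s : ℝ) * C.aa s := by
    intro s
    rw [← mul_sub]
    apply mul_le_mul_of_nonneg_left _ (C.m0 s).le
    have h100 := l100
    have h098 := l098
    have hg := log2_gt
    have hι := C.iota_le s
    have hι0 : (0 : ℝ) ≤ ((C.J - C.k s : ℕ) : ℝ) := Nat.cast_nonneg _
    set ι : ℝ := ((C.J - C.k s : ℕ) : ℝ)
    have h2 : ι * Real.log (50 / 49) ≤ ι * 0.020203 :=
      mul_le_mul_of_nonneg_left h098 hι0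
    have h3 : ι * 0.020203 ≤ 0.0291471 * (ι * Real.log 2) := by
      have : (0.020203 : ℝ) ≤ 0.0291471 * Real.log 2 := by
        norm_num at hg ⊢
        linarith
      calc ι * 0.020203 ≤ ι * (0.0291471 * Real.log 2) :=
            mul_le_mul_of_nonneg_left this hι0
        _ = _ := by ring
    have h4 := mul_le_mul_of_nonneg_left hι (show (0 : ℝ) ≤ 0.0291471 by norm_num)
    linarith
  have h6 := Finset.sum_le_sum (fun s (_ : s ∈ Finset.univ) => h5 s)
  rw [Finset.sum_sub_distrib] at h6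
  have e1 : ∑ s, (C.m s : ℝ) * (4.6052 + 0.0291471 * (C.tt s + C.aa s + Real.log 2)) =
      (4.6052 + 0.0291471 * Real.log 2) * C.b + 0.0291471 * C.WW := by
    unfold WW
    rw [Finset.mul_sum, ← C.sum_m, Finset.mul_sum, ← Finset.sum_add_distrib]
    refine Finset.sum_congr rfl fun s _ => ?_
    ring
  rw [e1] at h6
  have hl := log2_lt
  have hb := C.b0
  have h7 : (4.6052 + 0.0291471 * Real.log 2) * (C.b : ℝ) ≤ (C.b : ℝ) * (4.6052 + 0.020204) := by
    rw [mul_comm]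
    apply mul_le_mul_of_nonneg_left _ hb.le
    norm_num at hl ⊢
    linarith
  linarith

/-- **The weight is large only for a large level.** -/
lemma b_large (hW : 35 * (C.b : ℝ) ≤ C.WW) : 2 ^ 90 ≤ C.b := by
  have hb := C.b0
  -- class by class
  have h1 : ∀ s, (C.m s : ℝ) * (C.tt s + C.aa s) ≤
      (C.m s : ℝ) * (0.89595 + (1 / 2) * Real.log C.b) + (1 / 2) * ((C.m s : ℝ) * C.aa s) := by
    intro s
    have h2 : (C.T s : ℝ) ^ 2 ≤ 6 * C.m s := by exact_mod_cast C.TT_six s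
    have hT : (0 : ℝ) < C.T s := by exact_mod_cast C.hT0 s
    have h3 := Real.log_le_log (by positivity) h2
    rw [Real.log_pow, Real.log_mul (by norm_num) (C.m0 s).ne'] at h3
    have h6 : Real.log 6 ≤ 1.7919 := by
      have h := log_le_pow (x := (6 : ℝ)) (p := 517) (q := 200) (by norm_num) (by norm_num)
        (by norm_num)
      have h2 := log2_lt
      have h0 : 0 < Real.log 2 := Real.log_pos (by norm_num)
      norm_num at h ⊢
      linarith
    have e : C.aa s = Real.log C.b - Real.log (C.m s) := by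
      unfold aa
      rw [Real.log_div hb.ne' (C.m0 s).ne']
    have e2 : (0.89595 + (1 / 2) * Real.log C.b) * (C.m s : ℝ) + (1 / 2) * ((C.m s : ℝ) * C.aa s) =
        (C.m s : ℝ) * (0.89595 + (1 / 2) * Real.log C.b + (1 / 2) * C.aa s) := by ring
    rw [mul_comm (C.m s : ℝ) (0.89595 + (1 / 2) * Real.log C.b), e2]
    apply mul_le_mul_of_nonneg_left _ (C.m0 s).le
    unfold tt
    push_cast at h3
    norm_num at h6 ⊢
    linarith
  have h2 := Finset.sum_le_sum (fun s (_ : s ∈ Finset.univ) => h1 s)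
  rw [Finset.sum_add_distrib, ← Finset.mul_sum, ← Finset.sum_mul, C.sum_m] at h2
  have h3 := C.sum_aa_le
  change C.WW ≤ _ at h2
  have h4 : (C.b : ℝ) * (31.28 * 2) ≤ (C.b : ℝ) * Real.log C.b := by
    nlinarith
  have h5 : 31.28 * 2 ≤ Real.log C.b := le_of_mul_le_mul_left h4 hb
  have h6 : Real.log ((2 : ℝ) ^ 90) ≤ Real.log C.b := by
    rw [Real.log_pow]
    have := log2_lt
    norm_num at this h5 ⊢
    linarith
  have h7 := (Real.log_le_log_iff (by positivity) hb).mp h6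
  exact_mod_cast h7


/-! ### The boosted prior -/

open Classical in
/-- The boost of a class. -/
noncomputable def bst (s : S) : ℝ :=
  if 2 ^ 16 ≤ C.T s then (if C.J < 2 * C.k s + 10 ∧ 2 * C.k s < C.J + 5 then 11 else 1)
  else (if C.J - C.k s ≤ 27 then 11 / 2 else 1)

open Classical in
/-- The excess of a class. -/
noncomputable def ee (s : S) : ℝ :=
  if 2 ^ 16 ≤ C.T s then
    (if C.m s ≤ 16 * C.T s ^ 2 ∧ ¬ (C.J < 2 * C.k s + 10 ∧ 2 * C.k s < C.J + 5) then 0.7715 else 0)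
  else (if C.J - C.k s ≤ 27 then 0 else 0.551)

/-- The prior of a class. -/
noncomputable def QQ (s : S) : ℝ := C.bst s * (49 / 50 : ℝ) ^ (C.J - C.k s) / 425

lemma bst_ge (s : S) : 1 ≤ C.bst s := by
  unfold bst
  split_ifs <;> norm_num

lemma ee_nonneg (s : S) : 0 ≤ C.ee s := by
  unfold ee
  split_ifs <;> norm_num

lemma QQ_pos (s : S) : 0 < C.QQ s := by
  have := C.bst_ge s
  unfold QQ
  positivity

lemma log_QQ (s : S) : Real.log (C.QQ s) = - lqq (C.J - C.k s) (C.bst s) := by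
  have h1 := C.bst_ge s
  unfold QQ lqq
  rw [Real.log_div (by positivity) (by norm_num), Real.log_mul (by positivity) (by positivity),
    Real.log_pow, show (49 / 50 : ℝ) = (50 / 49)⁻¹ by norm_num, Real.log_inv,
    show (425 : ℝ) = 17 / 4 * 100 by norm_num, Real.log_mul (by norm_num) (by norm_num)]
  ring

/-- The conditions of a class on its boost. -/
lemma bst_near (s : S) (h1 : 2 ^ 16 ≤ C.T s) (h2 : C.m s ≤ 16 * C.T s ^ 2) :
    0.7715 ≤ C.ee s + 0.3267 * Real.log (C.bst s) := by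
  unfold ee bst
  rw [if_pos h1, if_pos h1]
  by_cases h : C.J < 2 * C.k s + 10 ∧ 2 * C.k s < C.J + 5
  · rw [if_pos h, if_neg (fun hc => hc.2 h)]
    have := g11
    norm_num at this ⊢
    linarith
  · rw [if_neg h, if_pos ⟨h2, h⟩, Real.log_one]
    norm_num

lemma bst_small (s : S) (h1 : C.T s < 2 ^ 16) :
    0.551 ≤ C.ee s + 0.3267 * Real.log (C.bst s) := by
  have h1' : ¬ 2 ^ 16 ≤ C.T s := not_le.mpr h1
  unfold ee bst
  rw [if_neg h1', if_neg h1']
  by_cases h : C.J - C.k s ≤ 27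
  · rw [if_pos h, if_pos h]
    have := g55
    norm_num at this ⊢
    linarith
  · rw [if_neg h, if_neg h, Real.log_one]
    norm_num

/-- A near class sits below the window. -/
lemma near_two_k (s : S) (h2 : C.m s ≤ 16 * C.T s ^ 2) : 2 * C.k s < C.J + 5 := by
  have h1 := C.hk1 s
  have hT := C.hT0 s
  have h3 : 2 ^ C.k s ≤ 16 * C.T s := by
    have h4 : C.T s * 2 ^ C.k s ≤ C.T s * (16 * C.T s) := by
      calc C.T s * 2 ^ C.k s ≤ C.m s := h1
        _ ≤ 16 * C.T s ^ 2 := h2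
        _ = _ := by ring
    exact Nat.le_of_mul_le_mul_left h4 hT
  have h5 : 2 ^ (2 * C.k s) < 2 ^ (C.J + 5) := by
    have e : 2 ^ (2 * C.k s) = 2 ^ C.k s * 2 ^ C.k s := by
      rw [two_mul, pow_add]
    have e2 : 2 ^ (C.J + 5) = 16 * 2 ^ (C.J + 1) := by
      rw [show C.J + 5 = 4 + (C.J + 1) by ring, pow_add]
      norm_num
    rw [e, e2]
    have h6 := C.lt_pow_J
    have h7 := C.m_le_b s
    calc 2 ^ C.k s * 2 ^ C.k s ≤ (16 * C.T s) * 2 ^ C.k s := Nat.mul_le_mul_right _ h3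
      _ = 16 * (C.T s * 2 ^ C.k s) := by ring
      _ ≤ 16 * C.b := Nat.mul_le_mul_left _ (h1.trans h7)
      _ < 16 * 2 ^ (C.J + 1) := by omega
  exact (Nat.pow_lt_pow_iff_right (by norm_num)).mp h5

open Classical in
/-- The sum of the boosted prior. -/
lemma sum_QQ (hJ : 80 ≤ C.J) : ∑ s, C.QQ s ≤ 1 := by
  set r : ℝ := 49 / 50 with hr
  set ι : S → ℕ := fun s => C.J - C.k s with hι
  set Wn : Finset S := Finset.univ.filter
    (fun s => C.J < 2 * C.k s + 10 ∧ 2 * C.k s < C.J + 5) with hWn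
  set Sm : Finset S := Finset.univ.filter (fun s => ι s ≤ 27) with hSm
  have hWc : Wn.card ≤ 14 := by
    have := window_card_le C.k C.o C.hinj Wn C.J (fun s hs => by
      simpa [hWn] using hs)
    exact this
  have hSc : Sm.card ≤ 56 := by
    have h1 : Sm.card ≤ ((Finset.range 28) ×ˢ (Finset.univ : Finset Bool)).card := by
      refine Finset.card_le_card_of_injOn (fun s => (ι s, C.o s)) ?_ ?_
      · intro s hs
        have hs' : ι s ≤ 27 := by
          have := Finset.mem_coe.mp hs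
          simpa [hSm] using this
        simp only [Finset.coe_product, Set.mem_prod, Finset.mem_coe, Finset.mem_range,
          Finset.mem_univ, and_true]
        omega
      · intro s _ s' _ h
        simp only [Prod.mk.injEq] at h
        apply C.hinj
        simp only [Prod.mk.injEq]
        refine ⟨?_, h.2⟩
        have h1 := C.k_le s
        have h2 := C.k_le s'
        have h3 := h.1
        simp only [hι] at h3
        omega
    simpa using h1
  have hr0 : (0 : ℝ) ≤ r := by rw [hr]; norm_num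
  have hr1 : r ≤ 1 := by rw [hr]; norm_num
  -- class by class
  obtain ⟨A, hA⟩ : ∃ A : S → ℝ, ∀ s, A s = if s ∈ Wn then 10 * r ^ 35 else 0 := ⟨_, fun _ => rfl⟩
  obtain ⟨B, hB⟩ : ∃ B : S → ℝ, ∀ s, B s = if s ∈ Sm then 9 / 2 else 0 := ⟨_, fun _ => rfl⟩
  have hA0 : ∀ s, 0 ≤ A s := by
    intro s
    rw [hA]
    split_ifs <;> positivity
  have hB0 : ∀ s, 0 ≤ B s := by
    intro s
    rw [hB]
    split_ifs <;> norm_num
  have h1 : ∀ s, C.bst s * r ^ ι s ≤ r ^ ι s + A s + B s := by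
    intro s
    have hp : 0 ≤ r ^ ι s := by positivity
    have hp1 : r ^ ι s ≤ 1 := pow_le_one₀ hr0 hr1
    have hAs := hA0 s
    have hBs := hB0 s
    unfold bst
    by_cases hT : 2 ^ 16 ≤ C.T s
    · rw [if_pos hT]
      by_cases hw : C.J < 2 * C.k s + 10 ∧ 2 * C.k s < C.J + 5
      · rw [if_pos hw]
        have hmem : s ∈ Wn := by
          simp only [hWn, Finset.mem_filter, Finset.mem_univ, true_and]
          exact hw
        have e : A s = 10 * r ^ 35 := by rw [hA, if_pos hmem]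
        have h35 : r ^ ι s ≤ r ^ 35 := by
          apply pow_le_pow_of_le_one hr0 hr1
          simp only [hι]
          omega
        rw [e]
        linarith
      · rw [if_neg hw]
        linarith
    · rw [if_neg hT]
      by_cases hw : C.J - C.k s ≤ 27
      · rw [if_pos hw]
        have hmem : s ∈ Sm := by
          simp only [hSm, Finset.mem_filter, Finset.mem_univ, true_and]
          exact hw
        have e : B s = 9 / 2 := by rw [hB, if_pos hmem]
        rw [e]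
        linarith
      · rw [if_neg hw]
        linarith
  have h2 := Finset.sum_le_sum (fun s (_ : s ∈ Finset.univ) => h1 s)
  have hAs : ∑ s, A s = (Wn.card : ℝ) * (10 * r ^ 35) := by
    simp_rw [hA]
    rw [Finset.sum_ite_mem, Finset.univ_inter, Finset.sum_const, nsmul_eq_mul]
  have hBs : ∑ s, B s = (Sm.card : ℝ) * (9 / 2) := by
    simp_rw [hB]
    rw [Finset.sum_ite_mem, Finset.univ_inter, Finset.sum_const, nsmul_eq_mul]
  rw [Finset.sum_add_distrib, Finset.sum_add_distrib, hAs, hBs] at h2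
  have h3 := C.sum_prior
  have hW : (Wn.card : ℝ) ≤ 14 := by exact_mod_cast hWc
  have hS : (Sm.card : ℝ) ≤ 56 := by exact_mod_cast hSc
  have hr35 : r ^ 35 ≤ 0.4931 := by
    rw [hr]
    norm_num
  have hr350 : 0 ≤ r ^ 35 := by positivity
  have h4 : (Wn.card : ℝ) * (10 * r ^ 35) ≤ 14 * (10 * 0.4931) :=
    mul_le_mul hW (by linarith) (by positivity) (by norm_num)
  have h5 : (Sm.card : ℝ) * (9 / 2) ≤ 56 * (9 / 2) :=
    mul_le_mul_of_nonneg_right hS (by norm_num)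
  have e : ∑ s, C.QQ s = (∑ s, C.bst s * r ^ ι s) / 425 := by
    unfold QQ
    rw [Finset.sum_div]
  rw [e, div_le_one (by norm_num)]
  have h6 : ∑ s, r ^ ι s ≤ 100 := h3
  norm_num at h4 h5 ⊢
  linarith

/-- The mass of the classes with an excess. -/
lemma sum_ee (hJ : 80 ≤ C.J) : ∑ s, (C.m s : ℝ) * C.ee s ≤ (C.b : ℝ) * 0.0252 := by
  classical
  set NC : Finset S := Finset.univ.filter (fun s => 2 ^ 16 ≤ C.T s ∧ C.m s ≤ 16 * C.T s ^ 2 ∧
    ¬ (C.J < 2 * C.k s + 10 ∧ 2 * C.k s < C.J + 5)) with hNC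
  set E3 : Finset S := Finset.univ.filter (fun s => C.T s < 2 ^ 16 ∧ ¬ C.J - C.k s ≤ 27) with hE3
  have hmNC : ((∑ s ∈ NC, C.m s : ℕ) : ℝ) ≤ (C.b : ℝ) / 32 := by
    refine small_mass_le C.k C.o C.hinj NC C.m C.b ?_ ?_
    · intro s _
      have h1 := C.hk2 s
      have h2 := C.hk3 s
      have e1 : 2 ^ (C.k s + 1) = 2 * 2 ^ C.k s := by rw [pow_succ]; ring
      have e2 : 4 ^ C.k s = 2 ^ C.k s * 2 ^ C.k s := by
        rw [← mul_pow]
        norm_num
      rw [e2]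
      rw [e1] at h1
      set p := 2 ^ C.k s with hp
      have hp1 : 1 ≤ p := Nat.one_le_two_pow
      have h3 : C.T s * (2 * p) ≤ (3 * p + 3) * (2 * p) := Nat.mul_le_mul_right _ h2
      nlinarith
    · intro s hs
      have hs' : 2 ^ 16 ≤ C.T s ∧ C.m s ≤ 16 * C.T s ^ 2 ∧
          ¬ (C.J < 2 * C.k s + 10 ∧ 2 * C.k s < C.J + 5) := by
        simpa [hNC] using hs
      have h1 := C.near_two_k s hs'.2.1
      have h2 : 2 * C.k s + 10 ≤ C.J := by
        by_contra hcon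
        exact hs'.2.2 ⟨by omega, h1⟩
      have e2 : 4 ^ C.k s * 2 ^ 10 = 2 ^ (2 * C.k s + 10) := by
        rw [pow_add, pow_mul]
        norm_num
      rw [e2]
      exact (Nat.pow_le_pow_right (by norm_num) h2).trans C.pow_J_le
  have hmE3 : ((∑ s ∈ E3, C.m s : ℕ) : ℝ) ≤ (C.b : ℝ) / 512 := by
    have hk : ∀ s : E3, C.k s.1 ≤ C.J - 28 := by
      intro s
      have hs' : C.T s.1 < 2 ^ 16 ∧ ¬ C.J - C.k s.1 ≤ 27 := by
        have := s.2
        simpa [hE3] using this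
      have := C.k_le s.1
      omega
    have h1 := sum_le_two_mul_sum_range (fun s : E3 => C.k s.1) (fun s : E3 => C.o s.1)
      (fun x y hxy => Subtype.ext (C.hinj hxy)) (C.J - 28) hk
      (fun i => (2 : ℝ) ^ (i + 17)) (fun i => by positivity)
    have h2 : ∑ i ∈ Finset.range (C.J - 28 + 1), (2 : ℝ) ^ (i + 17) ≤ 2 ^ (C.J - 28 + 1 + 17) := by
      have h3 : (∑ i ∈ Finset.range (C.J - 28 + 1), (2 : ℝ) ^ i) * ((2 : ℝ) - 1) =
          2 ^ (C.J - 28 + 1) - 1 := geom_sum_mul _ _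
      have e : ∑ i ∈ Finset.range (C.J - 28 + 1), (2 : ℝ) ^ (i + 17) =
          (∑ i ∈ Finset.range (C.J - 28 + 1), (2 : ℝ) ^ i) * 2 ^ 17 := by
        rw [Finset.sum_mul]
        refine Finset.sum_congr rfl fun i _ => ?_
        rw [pow_add]
      rw [e, pow_add _ (C.J - 28 + 1) 17]
      apply mul_le_mul_of_nonneg_right _ (by positivity)
      linarith
    have h3 : ((∑ s ∈ E3, C.m s : ℕ) : ℝ) ≤ ∑ s : E3, (2 : ℝ) ^ (C.k s.1 + 17) := by
      rw [Nat.cast_sum, ← Finset.sum_coe_sort E3]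
      refine Finset.sum_le_sum fun s _ => ?_
      have hs' : C.T s.1 < 2 ^ 16 ∧ ¬ C.J - C.k s.1 ≤ 27 := by
        have := s.2
        simpa [hE3] using this
      have h4 := C.hk2 s.1
      have h5 : C.T s.1 * 2 ^ (C.k s.1 + 1) ≤ 2 ^ 16 * 2 ^ (C.k s.1 + 1) :=
        Nat.mul_le_mul_right _ hs'.1.le
      have h6 : C.m s.1 ≤ 2 ^ (C.k s.1 + 17) := by
        rw [show C.k s.1 + 17 = 16 + (C.k s.1 + 1) by ring, pow_add]
        omega
      exact_mod_cast h6
    have hJb : (2 : ℝ) ^ C.J ≤ C.b := by exact_mod_cast C.pow_J_le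
    have e : (2 : ℝ) * 2 ^ (C.J - 28 + 1 + 17) = 2 ^ C.J / 512 := by
      have : C.J = (C.J - 28 + 1 + 17) + 10 := by omega
      conv_rhs => rw [this, pow_add]
      norm_num
      ring
    have h7 : (2 : ℝ) ^ C.J / 512 ≤ (C.b : ℝ) / 512 := div_le_div_of_nonneg_right hJb (by norm_num)
    have h8 := mul_le_mul_of_nonneg_left h2 (show (0 : ℝ) ≤ 2 by norm_num)
    linarith
  have h1 : ∀ s, (C.m s : ℝ) * C.ee s ≤ (if s ∈ NC then (C.m s : ℝ) * 0.7715 else 0) +
      (if s ∈ E3 then (C.m s : ℝ) * 0.551 else 0) := by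
    intro s
    have hm := (C.m0 s).le
    have hA : (0 : ℝ) ≤ if s ∈ NC then (C.m s : ℝ) * 0.7715 else 0 := by
      split_ifs <;> positivity
    have hB : (0 : ℝ) ≤ if s ∈ E3 then (C.m s : ℝ) * 0.551 else 0 := by
      split_ifs <;> positivity
    unfold ee
    by_cases hT : 2 ^ 16 ≤ C.T s
    · rw [if_pos hT]
      by_cases hw : C.m s ≤ 16 * C.T s ^ 2 ∧ ¬ (C.J < 2 * C.k s + 10 ∧ 2 * C.k s < C.J + 5)
      · rw [if_pos hw]
        have hmem : s ∈ NC := by
          simp only [hNC, Finset.mem_filter, Finset.mem_univ, true_and]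
          exact ⟨hT, hw.1, hw.2⟩
        rw [if_pos hmem]
        linarith
      · rw [if_neg hw, mul_zero]
        linarith
    · rw [if_neg hT]
      by_cases hw : C.J - C.k s ≤ 27
      · rw [if_pos hw, mul_zero]
        linarith
      · rw [if_neg hw]
        have hmem : s ∈ E3 := by
          simp only [hE3, Finset.mem_filter, Finset.mem_univ, true_and]
          exact ⟨not_le.mp hT, hw⟩
        rw [if_pos hmem]
        linarith
  have h2 := Finset.sum_le_sum (fun s (_ : s ∈ Finset.univ) => h1 s)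
  rw [Finset.sum_add_distrib, Finset.sum_ite_mem, Finset.sum_ite_mem, Finset.univ_inter,
    Finset.univ_inter, ← Finset.sum_mul, ← Finset.sum_mul] at h2
  push_cast at hmNC hmE3
  have hb := C.b0
  have h3 := mul_le_mul_of_nonneg_right hmNC (show (0 : ℝ) ≤ 0.7715 by norm_num)
  have h4 := mul_le_mul_of_nonneg_right hmE3 (show (0 : ℝ) ≤ 0.551 by norm_num)
  norm_num at h3 h4 ⊢
  linarith

/-- The number of tiny classes. -/
lemma card_tiny : (Finset.univ.filter (fun s => C.m s < 2 ^ 66)).card ≤ 132 := by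
  classical
  have h1 : (Finset.univ.filter (fun s => C.m s < 2 ^ 66)).card ≤
      ((Finset.range 66) ×ˢ (Finset.univ : Finset Bool)).card := by
    refine Finset.card_le_card_of_injOn (fun s => (C.k s, C.o s)) ?_ ?_
    · intro s hs
      have hs' : C.m s < 2 ^ 66 := by
        have := Finset.mem_coe.mp hs
        simpa using this
      simp only [Finset.coe_product, Set.mem_prod, Finset.mem_coe, Finset.mem_range,
        Finset.mem_univ, and_true]
      have h2 : 2 ^ C.k s ≤ C.T s * 2 ^ C.k s := Nat.le_mul_of_pos_left _ (C.hT0 s)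
      have h3 : 2 ^ C.k s < 2 ^ 66 := lt_of_le_of_lt (h2.trans (C.hk1 s)) hs'
      exact (Nat.pow_lt_pow_iff_right (by norm_num)).mp h3
    · intro s _ s' _ h
      exact C.hinj h
  simpa using h1


/-- The final numerical inequality. -/
lemma final_num {b W L Jv lb E : ℝ} (hb : (2 : ℝ) ^ 90 ≤ b) (hW : b * (35 + 3 * L) ≤ W)
    (hL : 0 ≤ L) (hlb : lb = Real.log b)
    (hE : E = 2 ^ 65 * (lb + L) + 2 ^ 71 + 0.3267 * 2 ^ 66)
    (hJ : 0.0894 * W - (2.9273 + 0.2277 * L) * b - 0.0252 * b - 132 * E ≤ Jv) :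
    b * (1 + L) + W ≤ 390 * Jv := by
  have hb0 : 0 < b := lt_of_lt_of_le (by positivity) hb
  have h1 : lb ≤ 63 * (b / 2 ^ 90) := by
    have h2 : Real.log (b / 2 ^ 90) ≤ b / 2 ^ 90 - 1 := Real.log_le_sub_one_of_pos (by positivity)
    rw [Real.log_div hb0.ne' (by positivity), Real.log_pow, ← hlb] at h2
    have h3 : (1 : ℝ) ≤ b / 2 ^ 90 := by
      rw [le_div_iff₀ (by positivity), one_mul]
      exact hb
    have h4 := log2_lt
    norm_num at h2 h4 ⊢
    linarith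
  set y := b * L with hy
  have hy0 : 0 ≤ y := by positivity
  have hLy : L * 2 ^ 90 ≤ y := by
    rw [hy, mul_comm]
    exact mul_le_mul_of_nonneg_right hb hL
  have e1 : b * (35 + 3 * L) = 35 * b + 3 * y := by rw [hy]; ring
  have e2 : (2.9273 + 0.2277 * L) * b = 2.9273 * b + 0.2277 * y := by rw [hy]; ring
  have e3 : b * (1 + L) = b + y := by rw [hy]; ring
  rw [e1] at hW
  rw [e2] at hJ
  rw [e3]
  rw [hE] at hJ
  norm_num at h1 hb hLy hW hJ ⊢
  linarith

/-- **The coverage**. -/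
theorem coverage_core (hW : (C.b : ℝ) * (35 + 3 * C.LL) ≤ C.WW) :
    ∃ Ds : S → ℕ, (∀ s, Ds s ≤ C.Dtop) ∧
      (C.b : ℝ) * (1 + C.LL) + C.WW ≤
        390 * ∑ s, Jterm C.Dtop (C.m s) (C.d s) (C.x s) (Ds s) := by
  classical
  have hb0 := C.b0
  have hL0 := C.LL_nonneg
  have hb90 : 2 ^ 90 ≤ C.b := by
    apply C.b_large
    have : (C.b : ℝ) * 35 ≤ (C.b : ℝ) * (35 + 3 * C.LL) :=
      mul_le_mul_of_nonneg_left (by linarith) hb0.le
    linarith
  have hJ : 90 ≤ C.J := Nat.le_log_of_pow_le (by norm_num) hb90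
  have hDtop : 1 ≤ C.Dtop := by
    by_contra hcon
    have h0 : C.Dtop = 0 := by omega
    have h1 := C.hb
    rw [h0] at h1
    norm_num at h1
    omega
  set ln : ℝ := Real.log ((2 : ℝ) ^ C.Dtop) with hln
  have hln0 : 0 ≤ ln := Real.log_nonneg (one_le_pow₀ (by norm_num))
  set E : ℝ := 2 ^ 65 * ln + 2 ^ 71 + 0.3267 * 2 ^ 66 with hE
  have hE0 : 0 ≤ E := by positivity
  -- the bound of one class
  have hclass : ∀ s, ∃ D, D ≤ C.Dtop ∧
      (C.m s : ℝ) * (0.0894 * (C.tt s + C.aa s) - 2.9273 - 0.2277 * C.LL - C.ee s) +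
        0.3267 * ((C.m s : ℝ) - C.b * C.QQ s) - (if C.m s < 2 ^ 66 then E else 0) ≤
        Jterm C.Dtop (C.m s) (C.d s) (C.x s) D := by
    intro s
    have hm0 := C.m0 s
    have hee := C.ee_nonneg s
    have hQ := C.QQ_pos s
    by_cases hs : C.m s < 2 ^ 66
    · refine ⟨C.Dtop, le_rfl, ?_⟩
      have h1 := tiny_bound hs (C.m_pos s) (C.m_le_b s) C.hb (C.hT0 s) (C.hk1 s) (C.hk3 s) hDtop
        (C.hd0 s) (C.hx1 s) (C.hxall s)
      rw [if_pos hs]
      refine le_trans ?_ h1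
      change (C.m s : ℝ) * (0.0894 * (C.tt s + C.aa s) - 2.9273 - 0.2277 * C.LL - C.ee s) +
        0.3267 * ((C.m s : ℝ) - C.b * C.QQ s) - E ≤
        (C.m s : ℝ) * (0.0894 * (C.tt s + C.aa s)) - (2 ^ 65 * ln + 2 ^ 71)
      have hmr : (C.m s : ℝ) ≤ 2 ^ 66 := by exact_mod_cast hs.le
      have h2 : 0 ≤ (C.m s : ℝ) * C.LL := by positivity
      have h3 : 0 ≤ (C.m s : ℝ) * C.ee s := by positivity
      have h4 : 0 ≤ (C.b : ℝ) * C.QQ s := by positivity
      rw [hE]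
      nlinarith
    · obtain ⟨D, hD, hc⟩ := class_tgt (J := C.J) (not_lt.mp hs) (C.m_le_b s) C.hb (C.hT0 s)
        (C.hk1 s) (C.hk2 s) (C.hk3 s) C.pow_J_le hDtop (C.hx1 s) (C.hx16 s) (C.hxall s) (C.hlow s)
        (C.bst_ge s) hee (C.bst_near s) (C.bst_small s)
      refine ⟨D, hD, le_trans ?_ hc⟩
      rw [if_neg hs, sub_zero]
      have h1 := gibbs hm0 hb0 hQ (C.log_QQ s)
      change (C.m s : ℝ) - C.b * C.QQ s ≤ (C.m s : ℝ) * (lqq (C.J - C.k s) (C.bst s) - C.aa s) at h1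
      change (C.m s : ℝ) * (0.0894 * (C.tt s + C.aa s) - 2.9273 - 0.2277 * C.LL - C.ee s) +
        0.3267 * ((C.m s : ℝ) - C.b * C.QQ s) ≤
        (C.m s : ℝ) * Tgt (C.tt s + C.aa s) (C.aa s) C.LL (lqq (C.J - C.k s) (C.bst s)) (C.ee s)
      unfold Tgt
      have e : (C.m s : ℝ) * (0.0894 * (C.tt s + C.aa s) - 2.9273 - 0.2277 * C.LL - C.ee s +
          0.3267 * (lqq (C.J - C.k s) (C.bst s) - C.aa s)) =
          (C.m s : ℝ) * (0.0894 * (C.tt s + C.aa s) - 2.9273 - 0.2277 * C.LL - C.ee s) +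
          0.3267 * ((C.m s : ℝ) * (lqq (C.J - C.k s) (C.bst s) - C.aa s)) := by ring
      rw [e]
      linarith
  choose Ds hDs hc using hclass
  refine ⟨Ds, hDs, ?_⟩
  have h2 := Finset.sum_le_sum (fun s (_ : s ∈ Finset.univ) => hc s)
  -- evaluate the sum
  have e : ∑ s, ((C.m s : ℝ) * (0.0894 * (C.tt s + C.aa s) - 2.9273 - 0.2277 * C.LL - C.ee s) +
        0.3267 * ((C.m s : ℝ) - C.b * C.QQ s) - (if C.m s < 2 ^ 66 then E else 0)) =
      0.0894 * C.WW - (2.9273 + 0.2277 * C.LL) * (C.b : ℝ) - ∑ s, (C.m s : ℝ) * C.ee s +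
        0.3267 * ((C.b : ℝ) - C.b * ∑ s, C.QQ s) -
        ((Finset.univ.filter (fun s => C.m s < 2 ^ 66)).card : ℝ) * E := by
    have e1 : ∑ s, (if C.m s < 2 ^ 66 then E else 0) =
        ((Finset.univ.filter (fun s => C.m s < 2 ^ 66)).card : ℝ) * E := by
      rw [← Finset.sum_filter, Finset.sum_const, nsmul_eq_mul]
    have e2 : ∑ s, (C.m s : ℝ) * (0.0894 * (C.tt s + C.aa s) - 2.9273 - 0.2277 * C.LL - C.ee s) =
        0.0894 * C.WW - (2.9273 + 0.2277 * C.LL) * (C.b : ℝ) - ∑ s, (C.m s : ℝ) * C.ee s := by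
      have e3 : ∀ s, (C.m s : ℝ) * (0.0894 * (C.tt s + C.aa s) - 2.9273 - 0.2277 * C.LL - C.ee s) =
          0.0894 * ((C.m s : ℝ) * (C.tt s + C.aa s)) - (2.9273 + 0.2277 * C.LL) * (C.m s : ℝ) -
            (C.m s : ℝ) * C.ee s := by
        intro s
        ring
      simp_rw [e3]
      rw [Finset.sum_sub_distrib, Finset.sum_sub_distrib, ← Finset.mul_sum, ← Finset.mul_sum,
        C.sum_m]
      rfl
    have e4 : ∑ s, 0.3267 * ((C.m s : ℝ) - C.b * C.QQ s) =
        0.3267 * ((C.b : ℝ) - C.b * ∑ s, C.QQ s) := by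
      rw [← Finset.mul_sum, Finset.sum_sub_distrib, ← Finset.mul_sum, C.sum_m]
    rw [Finset.sum_sub_distrib, e1, Finset.sum_add_distrib, e2, e4]
  rw [e] at h2
  have hQs := C.sum_QQ (by omega)
  have hee := C.sum_ee (by omega)
  have hcard : ((Finset.univ.filter (fun s => C.m s < 2 ^ 66)).card : ℝ) ≤ 132 := by
    exact_mod_cast C.card_tiny
  have h3 : ((Finset.univ.filter (fun s => C.m s < 2 ^ 66)).card : ℝ) * E ≤ 132 * E :=
    mul_le_mul_of_nonneg_right hcard hE0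
  have h4 : 0 ≤ (C.b : ℝ) - C.b * ∑ s, C.QQ s := by
    have := mul_le_mul_of_nonneg_left hQs hb0.le
    linarith
  have hb90r : (2 : ℝ) ^ 90 ≤ C.b := by exact_mod_cast hb90
  have hlnE : ln = Real.log C.b + C.LL := by
    unfold LL
    rw [Real.log_div (by positivity) hb0.ne']
    ring
  refine final_num hb90r hW hL0 rfl (E := E) (by rw [hE, hlnE]) ?_
  clear_value E ln
  have h6 : (C.b : ℝ) * 0.0252 = 0.0252 * C.b := by ring
  rw [h6] at hee
  have h7 := mul_nonneg (show (0 : ℝ) ≤ 0.3267 by norm_num) h4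
  refine le_trans ?_ h2
  have h8 : ∀ A B X Y Z : ℝ, X ≤ 0.0252 * C.b → 0 ≤ Y → Z ≤ 132 * E →
      A - B - 0.0252 * C.b - 132 * E ≤ A - B - X + Y - Z := by
    intro A B X Y Z h1 h2 h3
    linarith
  exact h8 _ _ _ _ _ hee h7 h3

end CData

end Crest.Agent.S0222Lib.JCov
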