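import Crest.Agent.S0222Lib.JGood
import Crest.Agent.S0222Lib.JCov
import Crest.Agent.S0222Lib.JCovLeaf

/-!
# S0222: the numerical coverage `Cov`

`cov_of_pot_aux`: `Cov θ d` from the lower bound of `-log θ` (the first-row potential), the index bound and the bounds
for the constant `Xi3` of the family.
-/

set_option autoImplicit false
set_option linter.unusedSectionVars false
set_option linter.unusedSimpArgs false
set_option linter.unusedVariables false

namespace Crest.Agent.S0222Lib.SWord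

open Finset

lemma m_bounds' {d b dV : ℕ} {S₀ : Finset (ℕ × Bool)} {T : S₀ → ℕ} {μ : ∀ s, Fin (T s) → ℕ}
    {m ds : S₀ → ℕ} (h : ShapeFacts d b dV T μ m ds) (s : S₀) :
    T s * 2 ^ s.1.1 ≤ m s ∧ m s < T s * 2 ^ (s.1.1 + 1) := by
  have hT := h.T_pos s
  rw [h.m_eq s]
  constructor
  · calc T s * 2 ^ s.1.1 = ∑ a : Fin (T s), 2 ^ s.1.1 := by simp
      _ ≤ ∑ a, μ s a := Finset.sum_le_sum fun a _ => (h.dyadic s a).1
  · calc ∑ a, μ s a < ∑ a : Fin (T s), 2 ^ (s.1.1 + 1) := by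
          apply Finset.sum_lt_sum_of_nonempty
          · exact ⟨⟨0, hT⟩, Finset.mem_univ _⟩
          · exact fun a _ => (h.dyadic s a).2
      _ = _ := by simp

/-- The expression of `Jval` as a sum over the classes. -/
lemma Jval_eq_sum {S₀ : Type} [Fintype S₀] (d : ℕ) (m ds T Ds : S₀ → ℕ) :
    Jval d m ds Ds (C3 T Ds) = ∑ s, JCov.Jterm (d + 1) (m s) (ds s)
      (JBnum3.Xi3 (T s) (1 / 1000) (1 / 1000)) (Ds s) := by
  unfold Jval
  rw [Finset.mul_sum, ← Finset.sum_sub_distrib, ← Finset.sum_sub_distrib]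
  refine Finset.sum_congr rfl fun s _ => ?_
  unfold JCov.Jterm JCov.Lam C3
  push_cast
  ring

/-- **The coverage**, from the lower bound of the first-row potential and the leaves. -/
theorem cov_of_pot_aux
    (hidx : ∀ {d b dV : ℕ} {S₀ : Finset (ℕ × Bool)} {T : S₀ → ℕ} {μ : ∀ s, Fin (T s) → ℕ}
      {m ds : S₀ → ℕ}, ShapeFacts d b dV T μ m ds →
      Real.log dV ≤ (b : ℝ) * (1 + Real.log ((2 : ℝ) ^ (d + 1) / b)) +
        ∑ s, (m s : ℝ) * (Real.log (T s) + Real.log ((b : ℝ) / m s)))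
    (HX16 : ∀ T : ℕ, 2 ^ 16 ≤ T → Real.log (JBnum3.Xi3 T (1 / 1000) (1 / 1000)) ≤ 4.1 * JCov.XX T)
    (HX1 : ∀ T : ℕ, 1 ≤ T → Real.log (JBnum3.Xi3 T (1 / 1000) (1 / 1000)) ≤ 38 * JCov.XX T)
    {θ : ℕ → ℕ → ℝ} {d : ℕ}
    (hθ : ∀ b : ℕ, 1 ≤ b → b ≤ 2 ^ (d + 1) → 0 < θ (d + 1) b →
      (b : ℝ) * (36 + 4 * Real.log ((2 : ℝ) ^ (d + 1) / b)) ≤ 780 * (-Real.log (θ (d + 1) b))) :
    Cov θ d := by
  classical
  intro b dV S₀ T μ m ds hpos h
  by_cases hcase : Real.log dV ≤ 780 * (-Real.log (θ (d + 1) b))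
  · refine ⟨fun _ => d + 1, fun _ => le_rfl, hcase.trans ?_⟩
    exact mul_le_mul_of_nonneg_left (le_max_left _ _) (by norm_num)
  have hcase' := not_le.mp hcase
  have hδ : (0 : ℝ) < 1 / 1000 := by norm_num
  let C : JCov.CData S₀ :=
    { k := fun s => s.1.1
      o := fun s => s.1.2
      hinj := by
        intro x y hxy
        apply Subtype.ext
        exact Prod.ext (congrArg Prod.fst hxy) (congrArg Prod.snd hxy)
      m := m
      T := T
      d := ds
      x := fun s => JBnum3.Xi3 (T s) (1 / 1000) (1 / 1000)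
      b := b
      Dtop := d + 1
      hb1 := h.b_pos
      hT0 := h.T_pos
      hk1 := fun s => (m_bounds' h s).1
      hk2 := fun s => (m_bounds' h s).2
      hk3 := h.T_le
      hsum := h.sum_m
      hb := h.b_le
      hd0 := h.ds_pos
      hx1 := fun s => JBnum3.one_le_Xi3 (T s) hδ hδ
      hx16 := fun s hs => HX16 (T s) hs
      hxall := fun s => HX1 (T s) (h.T_pos s)
      hlow := fun s z ε hz0 hz1 hε => by
        refine JCov.log_d_lower (h.T_pos s) (μ s) (h.anti s) (h.m_eq s).symm (h.dyadic s)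
          (h.frob s) hz0 hz1 hε }
  have hW : (C.b : ℝ) * (35 + 3 * C.LL) ≤ C.WW := by
    have h1 := hidx h
    have h2 := hθ b h.b_pos h.b_le hpos
    change (b : ℝ) * (35 + 3 * Real.log ((2 : ℝ) ^ (d + 1) / b)) ≤
      ∑ s, (m s : ℝ) * (Real.log (T s) + Real.log ((b : ℝ) / m s))
    nlinarith
  obtain ⟨Ds, hDs, hc⟩ := C.coverage_core hW
  refine ⟨Ds, hDs, ?_⟩
  have h1 := hidx h
  have e : Jval d m ds Ds (C3 T Ds) = ∑ s, JCov.Jterm (d + 1) (m s) (ds s)
      (JBnum3.Xi3 (T s) (1 / 1000) (1 / 1000)) (Ds s) := Jval_eq_sum d m ds T Ds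
  have h2 : (b : ℝ) * (1 + Real.log ((2 : ℝ) ^ (d + 1) / b)) +
      ∑ s, (m s : ℝ) * (Real.log (T s) + Real.log ((b : ℝ) / m s)) ≤ 390 * Jval d m ds Ds (C3 T Ds) := by
    rw [e]
    exact hc
  have h3 : Jval d m ds Ds (C3 T Ds) / 2 ≤ max (-Real.log (θ (d + 1) b)) (Jval d m ds Ds (C3 T Ds) / 2) :=
    le_max_right _ _
  linarith

end Crest.Agent.S0222Lib.SWord
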