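import Crest.Agent.S0222Lib.JFam
import Crest.Agent.S0222Lib.DecoupleJ

/-!
# S0222: Theorem J, the generating function and the chain of levels

`GF F D τ Act T = ∑_α exp(-∑ α_s τ_s) · MM (F.Y D) (Zs od D) ct T α`, the sum over contents supported in the
set `Act` of active classes.

* `gf_step`: doubling squares the constant in `GF ≤ g · Mt D |T|`;
* `gf_conv`: the conversion of the tokens of a class into colours multiplies it by
  `∑_i B i · exp(-i (τ_s - tauD D))`;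
* `chain`: the whole chain: `MM (F.Y Dtop) (Zs od Dtop) ct ∅ α ≤ exp(∑ α_s τ_s) ∏_s g_s^{2^(Dtop - D_s)}`.
-/

set_option autoImplicit false
set_option linter.unusedSectionVars false
set_option linter.unusedSimpArgs false

namespace Crest.Agent.S0222Lib.JFin

open Finset Matrix
open Crest.Agent.S0222Lib.JCore Crest.Agent.S0222Lib.SWord Crest.Agent.S0222Lib.WordRep
open Crest.Agent.S0222Lib.Decouple

variable {Tok Col : Type} [Fintype Tok] [DecidableEq Tok] [Fintype Col] [DecidableEq Col]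
  {S : Type} [Fintype S] [DecidableEq S] {od : Tok ⊕ Col → Bool}

/-- The token recursion table. -/
noncomputable def Mt : ℕ → ℕ → ℝ := Classical.choose (JNum.exists_Mt isBd_Bd)

lemma Mt_spec : (∀ d j, 0 ≤ Mt d j) ∧ (∀ d, Mt d 0 = 1) ∧ (∀ d j, 2 ^ d < j → Mt d j = 0) ∧ (Mt 0 1 = 1) ∧
    (∀ d j, ((1 : ℝ) / 2) ^ j * ∑ x ∈ antidiagonal j, (j.choose x.1 : ℝ) * JNum.kap Bd d x.1 x.2 *
        Mt d x.1 * Mt d x.2 ≤ Mt (d + 1) j) ∧
    (∀ d j i, j + i ≤ 2 ^ d → Mt d (j + i) ≤ Mt d j * Real.exp (i * JNum.tauD d)) :=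
  Classical.choose_spec (JNum.exists_Mt isBd_Bd)

lemma Mt_nonneg (d j : ℕ) : 0 ≤ Mt d j := Mt_spec.1 d j
lemma Mt_zero (d : ℕ) : Mt d 0 = 1 := Mt_spec.2.1 d
lemma Mt_big {d j : ℕ} (h : 2 ^ d < j) : Mt d j = 0 := Mt_spec.2.2.1 d j h
lemma Mt_base : Mt 0 1 = 1 := Mt_spec.2.2.2.1
lemma Mt_step (d j : ℕ) : ((1 : ℝ) / 2) ^ j * ∑ x ∈ antidiagonal j, (j.choose x.1 : ℝ) *
    JNum.kap Bd d x.1 x.2 * Mt d x.1 * Mt d x.2 ≤ Mt (d + 1) j := Mt_spec.2.2.2.2.1 d j

/-- The slope bound, valid for all sizes. -/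
lemma Mt_slope (d j i : ℕ) : Mt d (j + i) ≤ Mt d j * Real.exp (i * JNum.tauD d) := by
  by_cases h : j + i ≤ 2 ^ d
  · exact Mt_spec.2.2.2.2.2 d j i h
  · rw [Mt_big (not_le.1 h)]
    exact mul_nonneg (Mt_nonneg _ _) (Real.exp_pos _).le

/-- The weight of a content. -/
noncomputable def wt (τ : S → ℝ) (α : S → ℕ) : ℝ := Real.exp (-∑ s, (α s : ℝ) * τ s)

lemma wt_pos (τ : S → ℝ) (α : S → ℕ) : 0 < wt τ α := Real.exp_pos _

lemma wt_add (τ : S → ℝ) (α β : S → ℕ) : wt τ (α + β) = wt τ α * wt τ β := by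
  unfold wt
  rw [← Real.exp_add]
  congr 1
  simp only [Pi.add_apply, Nat.cast_add, add_mul, Finset.sum_add_distrib]
  ring

/-- The contents supported in `Act`, with entries at most `2 ^ D`. -/
noncomputable def Cnt (D : ℕ) (Act : Finset S) : Finset (S → ℕ) :=
  (Fintype.piFinset fun _ : S => range (2 ^ D + 1)).filter (fun α => ∀ s, s ∉ Act → α s = 0)

lemma mem_Cnt {D : ℕ} {Act : Finset S} {α : S → ℕ} :
    α ∈ Cnt D Act ↔ (∀ s, α s ≤ 2 ^ D) ∧ ∀ s, s ∉ Act → α s = 0 := by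
  simp [Cnt, Fintype.mem_piFinset, Nat.lt_succ_iff]

/-- The generating function. -/
noncomputable def GF (ct : Tok ⊕ Col → (S → ℕ)) (F : Fam od) (D : ℕ) (τ : S → ℝ) (Act : Finset S)
    (T : Finset Tok) : ℝ :=
  ∑ α ∈ Cnt D Act, wt τ α * MM (F.Y D) (Zs od D) ct T α

lemma GF_nonneg (ct : Tok ⊕ Col → (S → ℕ)) (F : Fam od) (D : ℕ) (τ : S → ℝ) (Act : Finset S)
    (T : Finset Tok) : 0 ≤ GF ct F D τ Act T :=
  sum_nonneg fun _ _ => mul_nonneg (wt_pos _ _).le (MM_nonneg (F.Y_posDef D) _ _ _ _)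

lemma cont_mem {ct : Tok ⊕ Col → (S → ℕ)} (hct : ∀ l s, ct l s ≤ 1) (D : ℕ)
    (v : B D → (Tok ⊕ Col)) : cont ct v ∈ Fintype.piFinset fun _ : S => range (2 ^ D + 1) := by
  rw [Fintype.mem_piFinset]
  intro s
  rw [mem_range, Nat.lt_succ_iff]
  unfold cont
  rw [Finset.sum_apply]
  calc ∑ p, ct (v p) s ≤ ∑ _p : B D, 1 := sum_le_sum fun p _ => hct _ _
    _ = 2 ^ D := by simp [B]

/-- The convolution over contents is controlled by the product of generating functions. -/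
lemma conv_le {D : ℕ} (τ : S → ℝ) (Act : Finset S) (m₀ m₁ : (S → ℕ) → ℝ)
    (h₀ : ∀ α, 0 ≤ m₀ α) (h₁ : ∀ α, 0 ≤ m₁ α) (P : Finset (S → ℕ))
    (hP : P = Fintype.piFinset fun _ : S => range (2 ^ D + 1)) :
    ∑ α ∈ Cnt (D + 1) Act, wt τ α * ∑ α₀ ∈ P, ∑ α₁ ∈ P,
        (if α₀ + α₁ = α then m₀ α₀ * m₁ α₁ else 0) ≤
      (∑ α ∈ Cnt D Act, wt τ α * m₀ α) * ∑ α ∈ Cnt D Act, wt τ α * m₁ α := by
  classical
  have e1 : ∑ α ∈ Cnt (D + 1) Act, wt τ α * ∑ α₀ ∈ P, ∑ α₁ ∈ P,
        (if α₀ + α₁ = α then m₀ α₀ * m₁ α₁ else 0) =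
      ∑ α₀ ∈ P, ∑ α₁ ∈ P, ∑ α ∈ Cnt (D + 1) Act,
        (if α₀ + α₁ = α then wt τ α * (m₀ α₀ * m₁ α₁) else 0) := by
    simp only [Finset.mul_sum]
    rw [Finset.sum_comm]
    refine Finset.sum_congr rfl fun α₀ _ => ?_
    rw [Finset.sum_comm]
    refine Finset.sum_congr rfl fun α₁ _ => Finset.sum_congr rfl fun α _ => ?_
    split_ifs <;> simp
  rw [e1, Finset.sum_mul_sum]
  have hsub : Cnt D Act ⊆ P := by
    rw [hP]
    intro α hα
    exact (Finset.mem_filter.1 hα).1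
  have hout : ∀ α₀ ∈ P, ∀ α₁ ∈ P, ∑ α ∈ Cnt (D + 1) Act,
        (if α₀ + α₁ = α then wt τ α * (m₀ α₀ * m₁ α₁) else 0) ≤
      if (α₀ ∈ Cnt D Act ∧ α₁ ∈ Cnt D Act) then wt τ α₀ * m₀ α₀ * (wt τ α₁ * m₁ α₁) else 0 := by
    intro α₀ h0 α₁ h1
    by_cases hm : α₀ + α₁ ∈ Cnt (D + 1) Act
    · rw [Finset.sum_ite_eq]
      rw [if_pos hm]
      have hs := (mem_Cnt.1 hm).2
      have h0' : α₀ ∈ Cnt D Act := by
        rw [hP] at h0
        refine Finset.mem_filter.2 ⟨h0, fun s hs' => ?_⟩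
        have := hs s hs'
        simp only [Pi.add_apply] at this
        omega
      have h1' : α₁ ∈ Cnt D Act := by
        rw [hP] at h1
        refine Finset.mem_filter.2 ⟨h1, fun s hs' => ?_⟩
        have := hs s hs'
        simp only [Pi.add_apply] at this
        omega
      rw [if_pos ⟨h0', h1'⟩, wt_add]
      exact le_of_eq (by ring)
    · rw [Finset.sum_ite_eq, if_neg hm]
      split_ifs
      · exact mul_nonneg (mul_nonneg (wt_pos _ _).le (h₀ _)) (mul_nonneg (wt_pos _ _).le (h₁ _))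
      · exact le_rfl
  calc _ ≤ ∑ α₀ ∈ P, ∑ α₁ ∈ P,
        if (α₀ ∈ Cnt D Act ∧ α₁ ∈ Cnt D Act) then wt τ α₀ * m₀ α₀ * (wt τ α₁ * m₁ α₁) else 0 :=
        Finset.sum_le_sum fun α₀ h0 => Finset.sum_le_sum fun α₁ h1 => hout α₀ h0 α₁ h1
    _ = ∑ α₀ ∈ Cnt D Act, ∑ α₁ ∈ Cnt D Act, wt τ α₀ * m₀ α₀ * (wt τ α₁ * m₁ α₁) := by
        have e2 : ∀ α₀ ∈ P, ∑ α₁ ∈ P,
            (if (α₀ ∈ Cnt D Act ∧ α₁ ∈ Cnt D Act) then wt τ α₀ * m₀ α₀ * (wt τ α₁ * m₁ α₁) else 0) =
            if α₀ ∈ Cnt D Act then ∑ α₁ ∈ Cnt D Act, wt τ α₀ * m₀ α₀ * (wt τ α₁ * m₁ α₁) else 0 := by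
          intro α₀ _
          by_cases h : α₀ ∈ Cnt D Act
          · rw [if_pos h]
            simp only [h, true_and]
            rw [← Finset.sum_filter, Finset.filter_mem_eq_inter, Finset.inter_eq_right.2 hsub]
          · rw [if_neg h]
            simp [h]
        rw [Finset.sum_congr rfl e2, ← Finset.sum_filter, Finset.filter_mem_eq_inter,
          Finset.inter_eq_right.2 hsub]

/-- The recursion for the generating function. -/
lemma gf_dbl {ct : Tok ⊕ Col → (S → ℕ)} (hct : ∀ l s, ct l s ≤ 1) (F : Fam od) (D : ℕ) (τ : S → ℝ)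
    (Act : Finset S) (T : Finset Tok) :
    GF ct F.dbl (D + 1) τ Act T ≤ (1 / 2 : ℝ) ^ T.card * ∑ T₀ ∈ T.powerset,
      kapD D T₀.card (T \ T₀).card * (GF ct F D τ Act T₀ * GF ct F D τ Act (T \ T₀)) := by
  classical
  set P : Finset (S → ℕ) := Fintype.piFinset fun _ : S => range (2 ^ D + 1) with hP
  have hb : ∀ α, MM (F.dbl.Y (D + 1)) (Zs od (D + 1)) ct T α ≤
      (1 / 2 : ℝ) ^ T.card * ∑ T₀ ∈ T.powerset, kapD D T₀.card (T \ T₀).card *
        ∑ α₀ ∈ P, ∑ α₁ ∈ P, if α₀ + α₁ = α then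
          MM (F.Y D) (Zs od D) ct T₀ α₀ * MM (F.Y D) (Zs od D) ct (T \ T₀) α₁ else 0 :=
    fun α => J_step_fam F ct P (fun v => cont_mem hct D v) T α
  unfold GF
  calc _ ≤ ∑ α ∈ Cnt (D + 1) Act, wt τ α * ((1 / 2 : ℝ) ^ T.card * ∑ T₀ ∈ T.powerset,
        kapD D T₀.card (T \ T₀).card *
        ∑ α₀ ∈ P, ∑ α₁ ∈ P, if α₀ + α₁ = α then
          MM (F.Y D) (Zs od D) ct T₀ α₀ * MM (F.Y D) (Zs od D) ct (T \ T₀) α₁ else 0) :=
        Finset.sum_le_sum fun α _ => mul_le_mul_of_nonneg_left (hb α) (wt_pos _ _).le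
    _ = (1 / 2 : ℝ) ^ T.card * ∑ T₀ ∈ T.powerset, kapD D T₀.card (T \ T₀).card *
        ∑ α ∈ Cnt (D + 1) Act, wt τ α * ∑ α₀ ∈ P, ∑ α₁ ∈ P, if α₀ + α₁ = α then
          MM (F.Y D) (Zs od D) ct T₀ α₀ * MM (F.Y D) (Zs od D) ct (T \ T₀) α₁ else 0 := by
        simp only [Finset.mul_sum]
        rw [Finset.sum_comm]
        refine Finset.sum_congr rfl fun T₀ _ => Finset.sum_congr rfl fun α _ => ?_
        refine Finset.sum_congr rfl fun α₀ _ => Finset.sum_congr rfl fun α₁ _ => ?_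
        ring
    _ ≤ _ := by
        refine mul_le_mul_of_nonneg_left (Finset.sum_le_sum fun T₀ _ => ?_) (by positivity)
        refine mul_le_mul_of_nonneg_left ?_ (kapD_nonneg _ _ _)
        exact conv_le τ Act _ _ (fun α => MM_nonneg (F.Y_posDef D) _ _ _ _)
          (fun α => MM_nonneg (F.Y_posDef D) _ _ _ _) P hP

/-- The bound `GF ≤ g · Mt D |T|` for tokens in a set. -/
def GFB (ct : Tok ⊕ Col → (S → ℕ)) (F : Fam od) (D : ℕ) (τ : S → ℝ) (Act : Finset S)
    (Tk : Finset Tok) (g : ℝ) : Prop :=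
  ∀ T, T ⊆ Tk → GF ct F D τ Act T ≤ g * Mt D T.card

lemma kapD_eq (D i k : ℕ) : kapD D i k = JNum.kap Bd D i k := rfl

/-- **Doubling** squares the constant. -/
theorem gf_step {ct : Tok ⊕ Col → (S → ℕ)} (hct : ∀ l s, ct l s ≤ 1) {F : Fam od} {D : ℕ} {τ : S → ℝ}
    {Act : Finset S} {Tk : Finset Tok} {g : ℝ} (hg : 0 ≤ g) (h : GFB ct F D τ Act Tk g) :
    GFB ct F.dbl (D + 1) τ Act Tk (g * g) := by
  classical
  intro T hT
  refine (gf_dbl hct F D τ Act T).trans ?_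
  have h1 : ∀ T₀ ∈ T.powerset, kapD D T₀.card (T \ T₀).card *
      (GF ct F D τ Act T₀ * GF ct F D τ Act (T \ T₀)) ≤
      (g * g) * ((fun m => kapD D m (T.card - m) * Mt D m * Mt D (T.card - m)) T₀.card) := by
    intro T₀ hT₀
    have hsub := Finset.mem_powerset.1 hT₀
    have hc : (T \ T₀).card = T.card - T₀.card := Finset.card_sdiff_of_subset hsub
    have h0 := h T₀ (hsub.trans hT)
    have h1 := h (T \ T₀) (Finset.sdiff_subset.trans hT)
    have hk := kapD_nonneg D T₀.card (T \ T₀).card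
    calc _ ≤ kapD D T₀.card (T \ T₀).card * ((g * Mt D T₀.card) * (g * Mt D (T \ T₀).card)) := by
          refine mul_le_mul_of_nonneg_left ?_ hk
          exact mul_le_mul h0 h1 (GF_nonneg _ _ _ _ _ _) (mul_nonneg hg (Mt_nonneg _ _))
      _ = _ := by
          simp only [hc]
          ring
  calc _ ≤ (1 / 2 : ℝ) ^ T.card * ∑ T₀ ∈ T.powerset, (g * g) *
        ((fun m => kapD D m (T.card - m) * Mt D m * Mt D (T.card - m)) T₀.card) :=
        mul_le_mul_of_nonneg_left (Finset.sum_le_sum h1) (by positivity)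
    _ = (g * g) * ((1 / 2 : ℝ) ^ T.card * ∑ x ∈ antidiagonal T.card, (T.card.choose x.1 : ℝ) *
          JNum.kap Bd D x.1 x.2 * Mt D x.1 * Mt D x.2) := by
        rw [← Finset.mul_sum, Finset.sum_powerset_apply_card
            (fun m => kapD D m (T.card - m) * Mt D m * Mt D (T.card - m)),
          Finset.Nat.sum_antidiagonal_eq_sum_range_succ_mk]
        have : ∀ m ∈ range (T.card + 1), T.card.choose m • (kapD D m (T.card - m) * Mt D m * Mt D (T.card - m)) =
            (T.card.choose m : ℝ) * JNum.kap Bd D m (T.card - m) * Mt D m * Mt D (T.card - m) := by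
          intro m _
          rw [nsmul_eq_mul, kapD_eq]
          ring
        rw [Finset.sum_congr rfl this]
        ring
    _ ≤ _ := mul_le_mul_of_nonneg_left (Mt_step D T.card) (mul_nonneg hg hg)

/-- The hypothesis of the conversion of the tokens of a class `s`, with constants `B`. -/
def ConvHyp (ct : Tok ⊕ Col → (S → ℕ)) (cl : Tok → S) (F F' : Fam od) (D : ℕ) (s : S)
    (Act : Finset S) (B : ℕ → ℝ) : Prop :=
  ∀ (T U : Finset Tok) (i : ℕ) (α : S → ℕ), (∀ t ∈ T, cl t ≠ s) → (∀ t ∈ U, cl t = s) → U.card = i →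
    i ≤ 2 ^ D → α ∈ Cnt D Act →
    MM (F'.Y D) (Zs od D) ct T (α + i • Pi.single s 1) ≤ B i * MM (F.Y D) (Zs od D) ct (T ∪ U) α

/-- The constant of a conversion. -/
noncomputable def gConv (B : ℕ → ℝ) (D : ℕ) (δ : ℝ) : ℝ :=
  ∑ i ∈ range (2 ^ D + 1), B i * Real.exp (-(i * δ))

lemma gConv_nonneg {B : ℕ → ℝ} (hB : ∀ i, 0 ≤ B i) (D : ℕ) (δ : ℝ) : 0 ≤ gConv B D δ :=
  sum_nonneg fun i _ => mul_nonneg (hB i) (Real.exp_pos _).le

/-- The decomposition of a content along a class. -/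
lemma sum_Cnt_insert {D : ℕ} {Act : Finset S} {s : S} (hs : s ∉ Act) (φ : (S → ℕ) → ℝ) :
    ∑ α ∈ Cnt D (insert s Act), φ α =
      ∑ i ∈ range (2 ^ D + 1), ∑ α ∈ Cnt D Act, φ (α + i • Pi.single s 1) := by
  classical
  rw [← Finset.sum_product']
  refine Finset.sum_nbij' (fun α : S → ℕ => (α s, Function.update α s 0))
    (fun p : ℕ × (S → ℕ) => p.2 + p.1 • Pi.single s 1) ?_ ?_ ?_ ?_ ?_
  · intro α hα
    obtain ⟨h1, h2⟩ := mem_Cnt.1 hα
    refine Finset.mem_product.2 ⟨Finset.mem_range.2 (Nat.lt_succ_of_le (h1 s)), mem_Cnt.2 ⟨?_, ?_⟩⟩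
    · intro t
      by_cases ht : t = s
      · subst ht; simp
      · simpa [Function.update_of_ne ht] using h1 t
    · intro t ht
      by_cases hts : t = s
      · subst hts; simp
      · have e : (α s, Function.update α s 0).2 t = α t := Function.update_of_ne hts _ _
        rw [e]
        exact h2 t (by simp [hts, ht])
  · rintro ⟨i, α⟩ hp
    obtain ⟨h1, h2⟩ := Finset.mem_product.1 hp
    obtain ⟨h3, h4⟩ := mem_Cnt.1 h2
    have hi : i ≤ 2 ^ D := Nat.lt_succ_iff.1 (Finset.mem_range.1 h1)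
    have hαs : α s = 0 := h4 s hs
    refine mem_Cnt.2 ⟨fun t => ?_, fun t ht => ?_⟩
    · by_cases hts : t = s
      · subst hts
        simp [hαs, hi]
      · simpa [Pi.single_eq_of_ne hts] using h3 t
    · have hts : t ≠ s := fun e => ht (by simp [e])
      have : t ∉ Act := fun e => ht (by simp [e])
      have h5 : α t = 0 := h4 t this
      simp [Pi.single_eq_of_ne hts, h5]
  · intro α _
    funext t
    by_cases hts : t = s
    · subst hts; simp
    · simp [Function.update_of_ne hts, Pi.single_eq_of_ne hts]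
  · rintro ⟨i, α⟩ hp
    obtain ⟨h1, h2⟩ := Finset.mem_product.1 hp
    obtain ⟨h3, h4⟩ := mem_Cnt.1 h2
    have hαs : α s = 0 := h4 s hs
    refine Prod.ext (by simp [hαs]) ?_
    funext t
    by_cases hts : t = s
    · subst hts; simp [hαs]
    · simp [Function.update_of_ne hts, Pi.single_eq_of_ne hts]
  · intro α _
    congr 1
    funext t
    by_cases hts : t = s
    · subst hts; simp
    · simp [Function.update_of_ne hts, Pi.single_eq_of_ne hts]

lemma wt_add_single (τ : S → ℝ) (α : S → ℕ) (s : S) (i : ℕ) :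
    wt τ (α + i • Pi.single s 1) = wt τ α * Real.exp (-(i * τ s)) := by
  classical
  rw [wt_add]
  congr 1
  unfold wt
  congr 1
  rw [Finset.sum_eq_single s]
  · simp
  · intro t _ hts
    simp [Pi.single_eq_of_ne hts]
  · simp

/-- **Conversion** multiplies the constant by `gConv`. -/
theorem gf_conv {ct : Tok ⊕ Col → (S → ℕ)} {cl : Tok → S} {F F' : Fam od} {D : ℕ} {τ : S → ℝ} {s : S}
    {Act : Finset S} {Tk Tk' : Finset Tok} {g : ℝ} {B : ℕ → ℝ} (hs : s ∉ Act) (hB : ∀ i, 0 ≤ B i)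
    (hg : 0 ≤ g) (h : GFB ct F D τ Act Tk g) (hc : ConvHyp ct cl F F' D s Act B)
    (hTk : ∀ t ∈ Tk', cl t ≠ s) (hsub : Tk' ⊆ Tk)
    (hU : ∀ i ≤ 2 ^ D, ∃ U : Finset Tok, U ⊆ Tk ∧ (∀ t ∈ U, cl t = s) ∧ U.card = i) :
    GFB ct F' D τ (insert s Act) Tk' (g * gConv B D (τ s - JNum.tauD D)) := by
  classical
  intro T hT
  unfold GF
  rw [sum_Cnt_insert hs]
  have hone : ∀ i ∈ range (2 ^ D + 1), ∑ α ∈ Cnt D Act, wt τ (α + i • Pi.single s 1) *
      MM (F'.Y D) (Zs od D) ct T (α + i • Pi.single s 1) ≤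
      g * Mt D T.card * (B i * Real.exp (-(i * (τ s - JNum.tauD D)))) := by
    intro i hi
    have hi' : i ≤ 2 ^ D := Nat.lt_succ_iff.1 (Finset.mem_range.1 hi)
    obtain ⟨U, hU1, hU2, hU3⟩ := hU i hi'
    have hT' : ∀ t ∈ T, cl t ≠ s := fun t ht => hTk t (hT ht)
    have hdisj : Disjoint T U := by
      rw [Finset.disjoint_left]
      intro t ht ht'
      exact hT' t ht (hU2 t ht')
    have hcard : (T ∪ U).card = T.card + i := by
      rw [Finset.card_union_of_disjoint hdisj, hU3]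
    have hG := h (T ∪ U) (Finset.union_subset (hT.trans hsub) hU1)
    rw [hcard] at hG
    calc _ ≤ ∑ α ∈ Cnt D Act, wt τ α * Real.exp (-(i * τ s)) *
          (B i * MM (F.Y D) (Zs od D) ct (T ∪ U) α) := by
          refine Finset.sum_le_sum fun α hα => ?_
          rw [wt_add_single]
          refine mul_le_mul_of_nonneg_left ?_ (mul_nonneg (wt_pos _ _).le (Real.exp_pos _).le)
          exact hc T U i α hT' hU2 hU3 hi' hα
      _ = Real.exp (-(i * τ s)) * B i * GF ct F D τ Act (T ∪ U) := by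
          unfold GF
          rw [Finset.mul_sum]
          refine Finset.sum_congr rfl fun α _ => ?_
          ring
      _ ≤ Real.exp (-(i * τ s)) * B i * (g * Mt D (T.card + i)) :=
          mul_le_mul_of_nonneg_left hG (mul_nonneg (Real.exp_pos _).le (hB i))
      _ ≤ Real.exp (-(i * τ s)) * B i * (g * (Mt D T.card * Real.exp (i * JNum.tauD D))) := by
          refine mul_le_mul_of_nonneg_left ?_ (mul_nonneg (Real.exp_pos _).le (hB i))
          exact mul_le_mul_of_nonneg_left (Mt_slope _ _ _) hg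
      _ = _ := by
          have : Real.exp (-(i * (τ s - JNum.tauD D))) =
              Real.exp (-(i * τ s)) * Real.exp (i * JNum.tauD D) := by
            rw [← Real.exp_add]
            congr 1
            ring
          rw [this]
          ring
  refine (Finset.sum_le_sum hone).trans (le_of_eq ?_)
  unfold gConv
  rw [Finset.mul_sum, Finset.sum_mul]
  refine Finset.sum_congr rfl fun i _ => ?_
  ring

/-- The classes active at level `D`. -/
noncomputable def actAt (Ds : S → ℕ) (D : ℕ) : Finset S := univ.filter fun s => Ds s ≤ D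

/-- The tokens of the classes outside `Act`. -/
noncomputable def tkOf (cl : Tok → S) (Act : Finset S) : Finset Tok := univ.filter fun t => cl t ∉ Act

/-- The constant at level `D`. -/
noncomputable def gAt (Ds : S → ℕ) (gs : S → ℝ) (D : ℕ) : ℝ :=
  ∏ s ∈ actAt Ds D, gs s ^ 2 ^ (D - Ds s)

lemma gAt_nonneg {Ds : S → ℕ} {gs : S → ℝ} (h : ∀ s, 0 ≤ gs s) (D : ℕ) : 0 ≤ gAt Ds gs D :=
  prod_nonneg fun s _ => pow_nonneg (h s) _

lemma actAt_succ (Ds : S → ℕ) (D : ℕ) :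
    actAt Ds (D + 1) = actAt Ds D ∪ univ.filter fun s => Ds s = D + 1 := by
  ext s
  simp only [actAt, mem_filter, mem_univ, true_and, mem_union]
  omega

lemma actAt_disj (Ds : S → ℕ) (D : ℕ) :
    Disjoint (actAt Ds D) (univ.filter fun s => Ds s = D + 1) := by
  rw [Finset.disjoint_left]
  intro s h1 h2
  simp only [actAt, mem_filter, mem_univ, true_and] at h1 h2
  omega

lemma gAt_succ (Ds : S → ℕ) (gs : S → ℝ) (D : ℕ) :
    gAt Ds gs (D + 1) = gAt Ds gs D * gAt Ds gs D * ∏ s ∈ univ.filter (fun s => Ds s = D + 1), gs s := by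
  unfold gAt
  rw [actAt_succ, Finset.prod_union (actAt_disj Ds D), ← Finset.prod_mul_distrib]
  congr 1
  · refine Finset.prod_congr rfl fun s hs => ?_
    have hs' : Ds s ≤ D := by simpa [actAt] using hs
    have : D + 1 - Ds s = (D - Ds s) + 1 := by omega
    rw [this, pow_succ, pow_mul, pow_two]
  · refine Finset.prod_congr rfl fun s hs => ?_
    have hs' : Ds s = D + 1 := by simpa using hs
    rw [hs']
    simp

/-- The conversions at one level. -/
theorem conv_level {ct : Tok ⊕ Col → (S → ℕ)} {cl : Tok → S} {Ds : S → ℕ} {τ : S → ℝ} {B : S → ℕ → ℝ}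
    (hB : ∀ s i, 0 ≤ B s i) {Inv : Finset S → Fam od → Prop}
    {D : ℕ} (hU : ∀ s, 2 ^ D ≤ (univ.filter fun t => cl t = s).card)
    (hact : ∀ s Act F, Inv Act F → s ∉ Act → Ds s = D →
      ∃ F', Inv (insert s Act) F' ∧ ConvHyp ct cl F F' D s Act (B s))
    {A₀ : Finset S} {F₀ : Fam od} {g₀ : ℝ} (hg₀ : 0 ≤ g₀) (h₀ : Inv A₀ F₀)
    (hG₀ : GFB ct F₀ D τ A₀ (tkOf cl A₀) g₀) (C : Finset S) (hC : ∀ s ∈ C, Ds s = D)
    (hdisj : Disjoint A₀ C) :
    ∃ F, Inv (A₀ ∪ C) F ∧ GFB ct F D τ (A₀ ∪ C) (tkOf cl (A₀ ∪ C))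
      (g₀ * ∏ s ∈ C, gConv (B s) D (τ s - JNum.tauD D)) := by
  classical
  induction C using Finset.induction_on with
  | empty =>
    exact ⟨F₀, by simpa using h₀, by simpa using hG₀⟩
  | insert s C hsC ih =>
    have hC' : ∀ t ∈ C, Ds t = D := fun t ht => hC t (Finset.mem_insert_of_mem ht)
    have hdisj' : Disjoint A₀ C := Finset.disjoint_of_subset_right (Finset.subset_insert _ _) hdisj
    obtain ⟨F, hF, hG⟩ := ih hC' hdisj'
    have hsA : s ∉ A₀ ∪ C := by
      intro hs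
      rcases Finset.mem_union.1 hs with h | h
      · exact (Finset.disjoint_left.1 hdisj h) (Finset.mem_insert_self _ _)
      · exact hsC h
    obtain ⟨F', hF', hconv⟩ := hact s _ F hF hsA (hC s (Finset.mem_insert_self _ _))
    refine ⟨F', ?_, ?_⟩
    · have e : A₀ ∪ insert s C = insert s (A₀ ∪ C) := by
        rw [Finset.union_insert]
      rw [e]
      exact hF'
    · have e : A₀ ∪ insert s C = insert s (A₀ ∪ C) := by
        rw [Finset.union_insert]
      rw [e, Finset.prod_insert hsC]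
      have hp : 0 ≤ ∏ t ∈ C, gConv (B t) D (τ t - JNum.tauD D) :=
        prod_nonneg fun t _ => gConv_nonneg (hB t) _ _
      have := gf_conv (Tk' := tkOf cl (insert s (A₀ ∪ C))) hsA (hB s) (mul_nonneg hg₀ hp) hG hconv
        ?_ ?_ ?_
      · convert this using 1
        ring
      · intro t ht
        have : cl t ∉ insert s (A₀ ∪ C) := (Finset.mem_filter.1 ht).2
        exact fun e => this (by simp [e])
      · intro t ht
        have h1 : cl t ∉ insert s (A₀ ∪ C) := (Finset.mem_filter.1 ht).2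
        refine Finset.mem_filter.2 ⟨Finset.mem_univ _, fun e => h1 (Finset.mem_insert_of_mem e)⟩
      · intro i hi
        have hc : i ≤ (univ.filter fun t => cl t = s).card := hi.trans (hU s)
        obtain ⟨U, hU1, hU2⟩ := Finset.exists_subset_card_eq hc
        refine ⟨U, ?_, fun t ht => (Finset.mem_filter.1 (hU1 ht)).2, hU2⟩
        intro t ht
        have : cl t = s := (Finset.mem_filter.1 (hU1 ht)).2
        refine Finset.mem_filter.2 ⟨Finset.mem_univ _, ?_⟩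
        rw [this]
        exact hsA

/-- **The chain of levels.** -/
theorem chain {ct : Tok ⊕ Col → (S → ℕ)} (hct : ∀ l s, ct l s ≤ 1) {cl : Tok → S} {Ds : S → ℕ}
    {Dtop : ℕ} (hDs : ∀ s, Ds s ≤ Dtop) {τ : S → ℝ} {B : S → ℕ → ℝ} (hB : ∀ s i, 0 ≤ B s i)
    {Inv : Finset S → Fam od → Prop} {F₀ : Fam od} (h₀ : Inv ∅ F₀)
    (hbase : GFB ct F₀ 0 τ ∅ univ 1)
    (hdbl : ∀ Act F, Inv Act F → Inv Act F.dbl)
    (hact : ∀ D s Act F, Inv Act F → s ∉ Act → Ds s = D →
      ∃ F', Inv (insert s Act) F' ∧ ConvHyp ct cl F F' D s Act (B s))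
    (hU : ∀ s, 2 ^ Dtop ≤ (univ.filter fun t => cl t = s).card) :
    ∃ F, Inv univ F ∧ ∀ α ∈ Cnt Dtop (univ : Finset S),
      MM (F.Y Dtop) (Zs od Dtop) ct ∅ α ≤ Real.exp (∑ s, (α s : ℝ) * τ s) *
        ∏ s, gConv (B s) (Ds s) (τ s - JNum.tauD (Ds s)) ^ 2 ^ (Dtop - Ds s) := by
  classical
  set gs : S → ℝ := fun s => gConv (B s) (Ds s) (τ s - JNum.tauD (Ds s)) with hgs
  have hgs0 : ∀ s, 0 ≤ gs s := fun s => gConv_nonneg (hB s) _ _
  have hU' : ∀ D ≤ Dtop, ∀ s, 2 ^ D ≤ (univ.filter fun t => cl t = s).card := fun D hD s =>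
    (Nat.pow_le_pow_right (by norm_num) hD).trans (hU s)
  -- the induction on the level
  have key : ∀ D ≤ Dtop, ∃ F, Inv (actAt Ds D) F ∧
      GFB ct F D τ (actAt Ds D) (tkOf cl (actAt Ds D)) (gAt Ds gs D) := by
    intro D
    induction D with
    | zero =>
      intro hD
      have h := conv_level (ct := ct) (cl := cl) (Ds := Ds) (τ := τ) hB (hU' 0 hD) (hact 0)
        (A₀ := ∅) (F₀ := F₀) (g₀ := 1) zero_le_one h₀
        (fun T _ => hbase T (Finset.subset_univ _)) (actAt Ds 0)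
        (fun s hs => by simpa [actAt] using hs) (by simp)
      obtain ⟨F, hF, hG⟩ := h
      rw [Finset.empty_union] at hF hG
      refine ⟨F, hF, ?_⟩
      have e : 1 * ∏ s ∈ actAt Ds 0, gConv (B s) 0 (τ s - JNum.tauD 0) = gAt Ds gs 0 := by
        rw [one_mul]
        unfold gAt
        refine Finset.prod_congr rfl fun s hs => ?_
        have hs' : Ds s = 0 := by simpa [actAt] using hs
        simp [hgs, hs']
      rwa [e] at hG
    | succ D ih =>
      intro hD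
      obtain ⟨F, hF, hG⟩ := ih (by omega)
      have hg0 := gAt_nonneg (Ds := Ds) hgs0 D
      have h1 := gf_step hct hg0 hG
      have h2 := conv_level (ct := ct) (cl := cl) (Ds := Ds) (τ := τ) hB (hU' (D + 1) hD)
        (hact (D + 1)) (A₀ := actAt Ds D) (F₀ := F.dbl) (mul_nonneg hg0 hg0) (hdbl _ _ hF) h1
        (univ.filter fun s => Ds s = D + 1) (fun s hs => by simpa using hs) (actAt_disj Ds D)
      obtain ⟨F', hF', hG'⟩ := h2
      rw [← actAt_succ] at hF' hG'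
      refine ⟨F', hF', ?_⟩
      have e : gAt Ds gs D * gAt Ds gs D *
          ∏ s ∈ univ.filter (fun s => Ds s = D + 1), gConv (B s) (D + 1) (τ s - JNum.tauD (D + 1)) =
          gAt Ds gs (D + 1) := by
        rw [gAt_succ]
        congr 1
        refine Finset.prod_congr rfl fun s hs => ?_
        have hs' : Ds s = D + 1 := by simpa using hs
        simp [hgs, hs']
      rwa [e] at hG'
  obtain ⟨F, hF, hG⟩ := key Dtop le_rfl
  have hact_top : actAt Ds Dtop = univ := by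
    ext s
    simp [actAt, hDs s]
  rw [hact_top] at hF hG
  refine ⟨F, hF, fun α hα => ?_⟩
  have hG0 := hG ∅ (Finset.empty_subset _)
  rw [Finset.card_empty, Mt_zero, mul_one] at hG0
  have hg_eq : gAt Ds gs Dtop = ∏ s, gs s ^ 2 ^ (Dtop - Ds s) := by
    unfold gAt
    rw [hact_top]
  rw [hg_eq] at hG0
  have hsingle : wt τ α * MM (F.Y Dtop) (Zs od Dtop) ct ∅ α ≤ GF ct F Dtop τ univ ∅ := by
    unfold GF
    exact Finset.single_le_sum
      (f := fun α => wt τ α * MM (F.Y Dtop) (Zs od Dtop) ct ∅ α)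
      (fun a _ => mul_nonneg (wt_pos _ _).le (MM_nonneg (F.Y_posDef Dtop) _ _ _ _)) hα
  have hwt : wt τ α * Real.exp (∑ s, (α s : ℝ) * τ s) = 1 := by
    unfold wt
    rw [← Real.exp_add]
    simp
  have h3 := hsingle.trans hG0
  calc MM (F.Y Dtop) (Zs od Dtop) ct ∅ α
      = Real.exp (∑ s, (α s : ℝ) * τ s) * (wt τ α * MM (F.Y Dtop) (Zs od Dtop) ct ∅ α) := by
        rw [← mul_assoc, mul_comm (Real.exp _), hwt, one_mul]
    _ ≤ _ := mul_le_mul_of_nonneg_left h3 (Real.exp_pos _).le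

end Crest.Agent.S0222Lib.JFin
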