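import Crest.Agent.S0222Lib.JGainMU

/-!
# S0222: matrix units of a complete family

`Family.mu j c a`: the element of the group algebra which is the matrix unit `E_{ca}` on `V_j` and zero on
the others.  `muSystem`: the image of these units under a unitary representation `U` on a space
`W → ℂ` is a system of matrix units, with `∑_a E_aa` the image of the central idempotent.
-/

set_option autoImplicit false
set_option linter.unusedSectionVars false

namespace Crest.Agent.S0222Lib.Planch

open Finset Matrix

section Units

variable {G : Type*} [Group G] [Fintype G] [DecidableEq G] (F : Family G)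

/-- The matrix units of the group algebra. -/
noncomputable def Family.mu (j : Fin F.r) (c a : Fin (F.d j)) : MonoidAlgebra ℂ G :=
  F.E.symm (Pi.single j (Matrix.single c a 1))

lemma Family.lift_mu_self (j : Fin F.r) (c a : Fin (F.d j)) :
    (F.R j).lift (F.mu j c a) = Matrix.single c a 1 := by
  have := congrFun (F.E.apply_symm_apply (Pi.single j (Matrix.single c a 1))) j
  rwa [F.E_apply, Pi.single_eq_same] at this

lemma Family.lift_mu_ne {j k : Fin F.r} (h : k ≠ j) (c a : Fin (F.d j)) :
    (F.R k).lift (F.mu j c a) = 0 := by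
  have := congrFun (F.E.apply_symm_apply (Pi.single j (Matrix.single c a 1))) k
  rwa [F.E_apply, Pi.single_eq_of_ne h] at this

lemma Family.mu_mul (j : Fin F.r) (c a c' a' : Fin (F.d j)) :
    F.mu j c a * F.mu j c' a' = if a = c' then F.mu j c a' else 0 := by
  apply F.ext_lift
  intro k
  by_cases hk : k = j
  · subst hk
    rw [map_mul, F.lift_mu_self, F.lift_mu_self]
    by_cases h : a = c'
    · subst h
      rw [if_pos rfl, F.lift_mu_self, Matrix.single_mul_single_same, one_mul]
    · rw [if_neg h, map_zero]
      exact Matrix.single_mul_single_of_ne _ _ _ _ h _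
  · rw [map_mul, F.lift_mu_ne hk, zero_mul]
    split_ifs
    · rw [F.lift_mu_ne hk]
    · rw [map_zero]

lemma Family.mu_cstar (j : Fin F.r) (c a : Fin (F.d j)) : cstar (F.mu j c a) = F.mu j a c := by
  apply F.ext_lift
  intro k
  rw [URep.lift_cstar]
  by_cases hk : k = j
  · subst hk
    rw [F.lift_mu_self, F.lift_mu_self]
    ext x y
    simp only [Matrix.conjTranspose_apply, Matrix.single_apply]
    by_cases h1 : c = y
    · by_cases h2 : a = x
      · simp [h1, h2]
      · simp [h2]
    · simp [h1]
  · rw [F.lift_mu_ne hk, F.lift_mu_ne hk]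
    simp

lemma Family.sum_mu (j : Fin F.r) : ∑ a, F.mu j a a = F.idem j := by
  apply F.ext_lift
  intro k
  rw [map_sum, F.lift_idem]
  by_cases hk : k = j
  · subst hk
    rw [if_pos rfl]
    simp only [F.lift_mu_self]
    ext x y
    rw [Matrix.sum_apply]
    simp only [Matrix.single_apply, Matrix.one_apply]
    by_cases h : x = y
    · subst h
      simp
    · simp [h]
  · rw [if_neg hk]
    simp only [F.lift_mu_ne hk]
    simp

end Units

section Word

variable {H : Type*} [Group H] [Fintype H] [DecidableEq H] {W : Type*} [Fintype W] [DecidableEq W]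

/-- The extension of a representation on `W → ℂ` to the group algebra. -/
noncomputable def liftW (U : H →* Matrix W W ℂ) : MonoidAlgebra ℂ H →ₐ[ℂ] Matrix W W ℂ :=
  MonoidAlgebra.lift ℂ _ H U

@[simp] lemma liftW_single (U : H →* Matrix W W ℂ) (g : H) (c : ℂ) :
    liftW U (MonoidAlgebra.single g c) = c • U g := by
  simp [liftW, MonoidAlgebra.lift_single]

lemma liftW_eq_sum (U : H →* Matrix W W ℂ) (x : MonoidAlgebra ℂ H) :
    liftW U x = ∑ g, x.coeff g • U g := by
  classical
  induction x using MonoidAlgebra.induction_linear with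
  | zero => simp
  | add x y hx hy =>
    simp only [map_add, hx, hy, MonoidAlgebra.coeff_add, Finsupp.add_apply, add_smul, sum_add_distrib]
  | single g c =>
    rw [liftW_single]
    rw [Finset.sum_eq_single g]
    · simp
    · intro h _ hne
      simp [MonoidAlgebra.coeff_single, hne.symm]
    · simp

lemma liftW_cstar (U : H →* Matrix W W ℂ) (hU : ∀ g, (U g)ᴴ = U g⁻¹) (x : MonoidAlgebra ℂ H) :
    liftW U (cstar x) = (liftW U x)ᴴ := by
  unfold cstar
  rw [map_sum, liftW_eq_sum U x, Matrix.conjTranspose_sum]
  refine Finset.sum_congr rfl fun g _ => ?_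
  rw [liftW_single, Matrix.conjTranspose_smul, hU]

end Word

end Crest.Agent.S0222Lib.Planch

namespace Crest.Agent.S0222Lib.Gain

open Finset Matrix
open Crest.Agent.S0222Lib.Planch

variable {H : Type*} [Group H] [Fintype H] [DecidableEq H] {W : Type*} [Fintype W] [DecidableEq W]

/-- The system of matrix units of a member of a family in a unitary representation. -/
noncomputable def muSystem (F : Family H) (j : Fin F.r) (U : H →* Matrix W W ℂ)
    (hU : ∀ g, (U g)ᴴ = U g⁻¹) : MU W (Fin (F.d j)) where
  E c a := liftW U (F.mu j c a)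
  mul_E c a c' a' := by
    rw [← map_mul, F.mu_mul]
    split_ifs
    · rfl
    · rw [map_zero]
  star_E c a := by
    rw [← liftW_cstar U hU, F.mu_cstar]

lemma muSystem_sum (F : Family H) (j : Fin F.r) (U : H →* Matrix W W ℂ) (hU : ∀ g, (U g)ᴴ = U g⁻¹)
    (f : W → ℂ) (hf : liftW U (F.idem j) *ᵥ f = f) : ∑ a, (muSystem F j U hU).E a a *ᵥ f = f := by
  rw [← Matrix.sum_mulVec]
  simp only [muSystem]
  rw [← map_sum, F.sum_mu, hf]

end Crest.Agent.S0222Lib.Gain
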