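import Crest.Agent.S0222Lib.ShapeDim

/-!
# S0222: a system of matrix units bounds a form

For a system of matrix units `E c a` (`c a : K`) in `End(W)` commuting with `B`, and `f` with
`∑_a E a a f = f`:

  `|K| |⟨f, B f⟩|² ≤ ‖B‖²_HS ‖f‖⁴`.

`MU.prod`: product of two commuting systems.
-/

set_option autoImplicit false
set_option linter.unusedSectionVars false

namespace Crest.Agent.S0222Lib.Gain

open Finset Matrix
open Crest.Agent.S0222Lib.Planch

variable {W : Type*} [Fintype W] [DecidableEq W]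

/-- Cauchy-Schwarz. -/
lemma norm_dot_sq_le (a b : W → ℂ) : ‖star a ⬝ᵥ b‖ ^ 2 ≤ nsq a * nsq b := by
  have h1 : ‖star a ⬝ᵥ b‖ ≤ ∑ w, ‖a w‖ * ‖b w‖ := by
    unfold dotProduct
    refine (norm_sum_le _ _).trans (le_of_eq ?_)
    refine Finset.sum_congr rfl fun w _ => ?_
    simp
  have h2 := Finset.sum_mul_sq_le_sq_mul_sq univ (fun w => ‖a w‖) (fun w => ‖b w‖)
  calc ‖star a ⬝ᵥ b‖ ^ 2 ≤ (∑ w, ‖a w‖ * ‖b w‖) ^ 2 := by
        exact pow_le_pow_left₀ (norm_nonneg _) h1 2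
    _ ≤ _ := h2

/-- Bessel for an orthogonal family with equal norms. -/
lemma bessel_orth {K : Type*} [Fintype K] [DecidableEq K] (g : K → W → ℂ) {τ : ℝ} (hτ : 0 ≤ τ)
    (hg : ∀ c c', star (g c) ⬝ᵥ g c' = if c = c' then (τ : ℂ) else 0) (z : W → ℂ) :
    ∑ c, ‖star (g c) ⬝ᵥ z‖ ^ 2 ≤ τ * nsq z := by
  classical
  set S := ∑ c, ‖star (g c) ⬝ᵥ z‖ ^ 2 with hS
  have hS0 : 0 ≤ S := Finset.sum_nonneg fun c _ => by positivity
  -- x = ∑ ⟨g c, z⟩ g c
  set x : W → ℂ := ∑ c, (star (g c) ⬝ᵥ z) • g c with hx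
  have h1 : star x ⬝ᵥ z = (S : ℂ) := by
    rw [hx, star_sum, sum_dotProduct, hS]
    push_cast
    refine Finset.sum_congr rfl fun c _ => ?_
    rw [star_smul, smul_dotProduct, smul_eq_mul]
    rw [← Complex.conj_mul']
    rfl
  have h2 : star x ⬝ᵥ x = ((τ * S : ℝ) : ℂ) := by
    have h3 : ∀ c, star x ⬝ᵥ g c = (τ : ℂ) * star (star (g c) ⬝ᵥ z) := by
      intro c
      rw [hx, star_sum, sum_dotProduct]
      rw [Finset.sum_eq_single c]
      · rw [star_smul, smul_dotProduct, hg, if_pos rfl, smul_eq_mul, mul_comm]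
      · intro c' _ hc'
        rw [star_smul, smul_dotProduct, hg, if_neg hc', smul_zero]
      · simp
    calc star x ⬝ᵥ x = star x ⬝ᵥ (∑ c, (star (g c) ⬝ᵥ z) • g c) := by rw [← hx]
      _ = ∑ c, (star (g c) ⬝ᵥ z) * (star x ⬝ᵥ g c) := by
          rw [dotProduct_sum]
          simp only [dotProduct_smul, smul_eq_mul]
      _ = _ := by
          rw [hS]
          push_cast
          rw [Finset.mul_sum]
          refine Finset.sum_congr rfl fun c _ => ?_
          rw [h3, mul_left_comm]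
          congr 1
          exact Complex.mul_conj' _
  have h3 : nsq x = τ * S := by
    have := dot_star_self x
    rw [h2] at this
    exact Complex.ofReal_injective this.symm
  have hcs := norm_dot_sq_le x z
  rw [h1, Complex.norm_real, Real.norm_eq_abs, sq_abs, h3] at hcs
  by_cases hS1 : S = 0
  · rw [hS1]
    exact mul_nonneg hτ (nsq_nonneg _)
  · have hSpos : 0 < S := lt_of_le_of_ne hS0 (Ne.symm hS1)
    have : S * S ≤ S * (τ * nsq z) := by nlinarith
    exact le_of_mul_le_mul_left this hSpos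

/-- Moving a matrix across the form. -/
lemma star_mulVec_dot (M : Matrix W W ℂ) (x y : W → ℂ) : star (M *ᵥ x) ⬝ᵥ y = star x ⬝ᵥ (Mᴴ *ᵥ y) := by
  rw [Matrix.star_mulVec, Matrix.dotProduct_mulVec]

/-- The Hilbert-Schmidt norm bounds the sum over an orthogonal family. -/
lemma sum_nsq_mulVec_le {K : Type*} [Fintype K] [DecidableEq K] (B : Matrix W W ℂ) (g : K → W → ℂ)
    {τ : ℝ} (hτ : 0 ≤ τ) (hg : ∀ c c', star (g c) ⬝ᵥ g c' = if c = c' then (τ : ℂ) else 0) :
    ∑ c, nsq (B *ᵥ g c) ≤ τ * hsq B := by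
  classical
  set b : W → W → ℂ := fun w w' => star (B w w') with hb
  have hrow : ∀ c w, ‖(B *ᵥ g c) w‖ ^ 2 = ‖star (g c) ⬝ᵥ b w‖ ^ 2 := by
    intro c w
    have h1 : star (g c) ⬝ᵥ b w = star ((B *ᵥ g c) w) := by
      simp only [Matrix.mulVec, dotProduct, star_sum, star_mul', Pi.star_apply, hb]
      refine Finset.sum_congr rfl fun k _ => ?_
      ring
    rw [h1, norm_star]
  have h2 : ∑ c, nsq (B *ᵥ g c) = ∑ w, ∑ c, ‖star (g c) ⬝ᵥ b w‖ ^ 2 := by
    unfold nsq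
    rw [Finset.sum_comm]
    refine Finset.sum_congr rfl fun w _ => Finset.sum_congr rfl fun c _ => hrow c w
  rw [h2]
  have h3 : ∀ w, ∑ c, ‖star (g c) ⬝ᵥ b w‖ ^ 2 ≤ τ * nsq (b w) := fun w => bessel_orth g hτ hg (b w)
  refine (Finset.sum_le_sum fun w _ => h3 w).trans (le_of_eq ?_)
  rw [← Finset.mul_sum]
  congr 1
  unfold hsq nsq
  refine Finset.sum_congr rfl fun w _ => Finset.sum_congr rfl fun k _ => ?_
  simp [hb]

/-- A system of matrix units. -/
structure MU (W K : Type*) [Fintype W] [DecidableEq W] [Fintype K] [DecidableEq K] where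
  /-- the units -/
  E : K → K → Matrix W W ℂ
  mul_E : ∀ c a c' a', E c a * E c' a' = if a = c' then E c a' else 0
  star_E : ∀ c a, (E c a)ᴴ = E a c

section MUForm

variable {K : Type*} [Fintype K] [DecidableEq K] (M : MU W K)

/-- **The form bound**. -/
theorem MU.form_le (B : Matrix W W ℂ) (hB : ∀ c a, B * M.E c a = M.E c a * B) (f : W → ℂ)
    (hf : ∑ a, M.E a a *ᵥ f = f) :
    ‖star f ⬝ᵥ (B *ᵥ f)‖ ≤ Real.sqrt (hsq B / Fintype.card K) * nsq f := by
  classical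
  set r := Real.sqrt (hsq B / Fintype.card K) with hr
  have hr0 : 0 ≤ r := Real.sqrt_nonneg _
  have hhsq : 0 ≤ hsq B := hsq_nonneg B
  set τ : K → ℝ := fun a => nsq (M.E a a *ᵥ f) with hτ
  have hτ0 : ∀ a, 0 ≤ τ a := fun a => nsq_nonneg _
  -- products of the units on the form
  have hstar : ∀ (c a : K) (x y : W → ℂ), star (M.E c a *ᵥ x) ⬝ᵥ y = star x ⬝ᵥ (M.E a c *ᵥ y) := by
    intro c a x y
    rw [star_mulVec_dot, M.star_E]
  have hEE : ∀ (c a a' : K) (x : W → ℂ), M.E c a *ᵥ (M.E a a' *ᵥ x) = M.E c a' *ᵥ x := by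
    intro c a a' x
    rw [Matrix.mulVec_mulVec, M.mul_E, if_pos rfl]
  have hEE0 : ∀ (c a c' a' : K) (x : W → ℂ), a ≠ c' → M.E c a *ᵥ (M.E c' a' *ᵥ x) = 0 := by
    intro c a c' a' x h
    rw [Matrix.mulVec_mulVec, M.mul_E, if_neg h, Matrix.zero_mulVec]
  have hBE : ∀ (c a : K) (x : W → ℂ), B *ᵥ (M.E c a *ᵥ x) = M.E c a *ᵥ (B *ᵥ x) := by
    intro c a x
    rw [Matrix.mulVec_mulVec, hB, ← Matrix.mulVec_mulVec]
  -- the diagonal pieces are orthogonal
  have hdiag : ∀ a b, star (M.E a a *ᵥ f) ⬝ᵥ (M.E b b *ᵥ f) = if a = b then (τ a : ℂ) else 0 := by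
    intro a b
    by_cases h : a = b
    · subst h
      rw [if_pos rfl, dot_star_self]
    · rw [if_neg h, hstar, hEE0 a a b b f h]
      simp
  have hform : ∀ a b, star (M.E a a *ᵥ f) ⬝ᵥ (B *ᵥ (M.E b b *ᵥ f)) =
      if a = b then star (M.E a a *ᵥ f) ⬝ᵥ (B *ᵥ (M.E a a *ᵥ f)) else 0 := by
    intro a b
    by_cases h : a = b
    · subst h
      rw [if_pos rfl]
    · rw [if_neg h, hBE, hstar, hEE0 a a b b _ h]
      simp
  have hnsq : nsq f = ∑ a, τ a := by
    have h1 : ((nsq f : ℝ) : ℂ) = ∑ a, ((τ a : ℝ) : ℂ) := by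
      rw [← dot_star_self]
      conv_lhs => rw [← hf]
      rw [star_sum, sum_dotProduct]
      refine Finset.sum_congr rfl fun a _ => ?_
      rw [dotProduct_sum, Finset.sum_eq_single a]
      · rw [hdiag, if_pos rfl]
      · intro b _ hb
        rw [hdiag, if_neg hb.symm]
      · simp
    exact_mod_cast h1
  have hq : star f ⬝ᵥ (B *ᵥ f) = ∑ a, star (M.E a a *ᵥ f) ⬝ᵥ (B *ᵥ (M.E a a *ᵥ f)) := by
    conv_lhs => rw [← hf]
    rw [Matrix.mulVec_sum, star_sum, sum_dotProduct]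
    refine Finset.sum_congr rfl fun a _ => ?_
    rw [dotProduct_sum, Finset.sum_eq_single a]
    · intro b _ hb
      rw [hform, if_neg hb.symm]
    · simp
  rw [hq, hnsq, Finset.mul_sum]
  refine (norm_sum_le _ _).trans (Finset.sum_le_sum fun a _ => ?_)
  -- one diagonal piece
  set g : K → W → ℂ := fun c => M.E c a *ᵥ f with hg
  have hgg : ∀ c c', star (g c) ⬝ᵥ g c' = if c = c' then (τ a : ℂ) else 0 := by
    intro c c'
    by_cases h : c = c'
    · subst h
      rw [if_pos rfl]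
      simp only [hg]
      rw [hstar, hEE a c a f, ← dot_star_self, hstar, hEE a a a f]
    · rw [if_neg h]
      simp only [hg]
      rw [hstar, hEE0 a c c' a f h]
      simp
  have hqc : ∀ c, star (g c) ⬝ᵥ (B *ᵥ g c) = star (M.E a a *ᵥ f) ⬝ᵥ (B *ᵥ (M.E a a *ᵥ f)) := by
    intro c
    simp only [hg]
    rw [hBE, hstar, hEE a c a, hBE, hstar, hEE a a a]
  have hnorm : ∀ c, nsq (g c) = τ a := by
    intro c
    have := hgg c c
    rw [if_pos rfl, dot_star_self] at this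
    exact Complex.ofReal_injective this
  set q := ‖star (M.E a a *ᵥ f) ⬝ᵥ (B *ᵥ (M.E a a *ᵥ f))‖ with hqdef
  have hcs : ∀ c, q ^ 2 ≤ τ a * nsq (B *ᵥ g c) := by
    intro c
    rw [hqdef, ← hqc c, ← hnorm c]
    exact norm_dot_sq_le _ _
  have hsum : (Fintype.card K : ℝ) * q ^ 2 ≤ τ a * (τ a * hsq B) := by
    have h1 : ∑ _c : K, q ^ 2 ≤ ∑ c, τ a * nsq (B *ᵥ g c) := Finset.sum_le_sum fun c _ => hcs c
    rw [Finset.sum_const, ← Finset.mul_sum, Finset.card_univ, nsmul_eq_mul] at h1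
    exact h1.trans (mul_le_mul_of_nonneg_left (sum_nsq_mulVec_le B g (hτ0 a) hgg) (hτ0 a))
  by_cases hK : (Fintype.card K : ℝ) = 0
  · exfalso
    have : IsEmpty K := Fintype.card_eq_zero_iff.1 (by exact_mod_cast hK)
    exact isEmptyElim a
  · have hKpos : (0 : ℝ) < Fintype.card K := lt_of_le_of_ne (by positivity) (Ne.symm hK)
    have hq0 : 0 ≤ q := norm_nonneg _
    have h2 : q ^ 2 ≤ (r * τ a) ^ 2 := by
      rw [mul_pow, hr, Real.sq_sqrt (by positivity)]
      have : q ^ 2 ≤ τ a * (τ a * hsq B) / Fintype.card K := by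
        rw [le_div_iff₀ hKpos]
        linarith
      calc q ^ 2 ≤ τ a * (τ a * hsq B) / Fintype.card K := this
        _ = _ := by ring
    exact abs_le_of_sq_le_sq' h2 (mul_nonneg hr0 (hτ0 a)) |>.2

end MUForm

section Prod

variable {K₁ K₂ : Type*} [Fintype K₁] [DecidableEq K₁] [Fintype K₂] [DecidableEq K₂]

/-- The product of two commuting systems of matrix units. -/
def MU.prod (M₁ : MU W K₁) (M₂ : MU W K₂)
    (hc : ∀ c a c' a', M₁.E c a * M₂.E c' a' = M₂.E c' a' * M₁.E c a) : MU W (K₁ × K₂) where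
  E c a := M₁.E c.1 a.1 * M₂.E c.2 a.2
  mul_E c a c' a' := by
    have h : M₁.E c.1 a.1 * M₂.E c.2 a.2 * (M₁.E c'.1 a'.1 * M₂.E c'.2 a'.2) =
        (M₁.E c.1 a.1 * M₁.E c'.1 a'.1) * (M₂.E c.2 a.2 * M₂.E c'.2 a'.2) := by
      rw [Matrix.mul_assoc, ← Matrix.mul_assoc (M₂.E c.2 a.2), ← hc, Matrix.mul_assoc, Matrix.mul_assoc]
    rw [h, M₁.mul_E, M₂.mul_E]
    by_cases h1 : a.1 = c'.1
    · by_cases h2 : a.2 = c'.2
      · have h3 : a = c' := Prod.ext h1 h2
        rw [if_pos h1, if_pos h2, if_pos h3]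
      · have h3 : a ≠ c' := fun e => h2 (congrArg Prod.snd e)
        rw [if_neg h2, if_neg h3, Matrix.mul_zero]
    · have h3 : a ≠ c' := fun e => h1 (congrArg Prod.fst e)
      rw [if_neg h1, if_neg h3, Matrix.zero_mul]
  star_E c a := by
    rw [Matrix.conjTranspose_mul, M₁.star_E, M₂.star_E, hc]

/-- The trivial system. -/
def MU.triv (W : Type*) [Fintype W] [DecidableEq W] : MU W Unit where
  E _ _ := 1
  mul_E _ _ _ _ := by simp
  star_E _ _ := by simp

end Prod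

end Crest.Agent.S0222Lib.Gain
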