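import Crest.Agent.S0222Lib.JRec

/-!
# S0222: the token graph: a component contains at most two tokens without a left partner

This gives the involutions `FlipProp` needed in the column bound.
-/

set_option autoImplicit false
set_option linter.unusedSectionVars false

namespace Crest.Agent.S0222Lib.JCore

open Matrix
open scoped Kronecker ComplexOrder
open Crest.Agent.S0222Lib.Site

open Classical in
/-- A connected graph of maximal degree two has at most two vertices of degree at most one. -/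
theorem comp_three {V : Type*} [Fintype V] (G : SimpleGraph V)
    (hdeg : ∀ v, (G.neighborFinset v).card ≤ 2) {a b c : V} (hab : a ≠ b) (hac : a ≠ c) (hbc : b ≠ c)
    (ha : (G.neighborFinset a).card ≤ 1) (hb : (G.neighborFinset b).card ≤ 1)
    (hc : (G.neighborFinset c).card ≤ 1) (hrb : G.Reachable a b) (hrc : G.Reachable a c) : False := by
  set C := G.connectedComponentMk a with hC
  set H := C.toSimpleGraph with hH
  have hconn : H.Connected := C.connected_toSimpleGraph
  have h1 := hconn.card_vert_le_card_edgeSet_add_one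
  have h2 := H.sum_degrees_eq_twice_card_edges
  have hma : a ∈ C.supp := rfl
  have hmb : b ∈ C.supp := (SimpleGraph.ConnectedComponent.sound hrb).symm
  have hmc : c ∈ C.supp := (SimpleGraph.ConnectedComponent.sound hrc).symm
  let a' : C := ⟨a, hma⟩
  let b' : C := ⟨b, hmb⟩
  let c' : C := ⟨c, hmc⟩
  have hdegle : ∀ v : C, H.degree v ≤ (G.neighborFinset v.1).card := by
    intro v
    have hinj : Function.Injective (Subtype.val : C → V) := Subtype.val_injective
    rw [← SimpleGraph.card_neighborFinset_eq_degree]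
    apply Finset.card_le_card_of_injOn Subtype.val
    · intro w hw
      simp only [Finset.mem_coe, SimpleGraph.mem_neighborFinset] at hw ⊢
      exact hw
    · exact fun x _ y _ h => hinj h
  set T : Finset C := {a', b', c'} with hT
  have hTcard : T.card = 3 := by
    rw [hT, Finset.card_insert_of_notMem, Finset.card_insert_of_notMem, Finset.card_singleton]
    · simp only [Finset.mem_singleton]
      exact fun h => hbc (congrArg Subtype.val h)
    · simp only [Finset.mem_insert, Finset.mem_singleton, not_or]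
      exact ⟨fun h => hab (congrArg Subtype.val h), fun h => hac (congrArg Subtype.val h)⟩
  have hpt : ∀ v : C, H.degree v + (if v ∈ T then 1 else 0) ≤ 2 := by
    intro v
    by_cases hv : v ∈ T
    · rw [if_pos hv]
      have : (G.neighborFinset v.1).card ≤ 1 := by
        simp only [hT, Finset.mem_insert, Finset.mem_singleton] at hv
        rcases hv with rfl | rfl | rfl
        · exact ha
        · exact hb
        · exact hc
      have := hdegle v
      omega
    · rw [if_neg hv]
      have := hdegle v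
      have := hdeg v.1
      omega
  have hsum : ∑ v : C, (H.degree v + (if v ∈ T then 1 else 0)) ≤ ∑ _v : C, 2 :=
    Finset.sum_le_sum (fun v _ => hpt v)
  rw [Finset.sum_add_distrib, h2, Finset.sum_const, smul_eq_mul] at hsum
  have h3 : (∑ v : C, if v ∈ T then 1 else 0) = 3 := by
    rw [Finset.sum_ite_mem]
    simp [hTcard]
  rw [h3] at hsum
  rw [Nat.card_eq_fintype_card, Nat.card_eq_fintype_card, ← SimpleGraph.edgeFinset_card] at h1
  rw [Finset.card_univ] at hsum
  omega

section Flip

variable {κ Tok Col : Type*} [Fintype κ] [DecidableEq κ] [Fintype Tok] [DecidableEq Tok]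
  [Fintype Col] [DecidableEq Col]

/-- The token graph. -/
def tokGraph (ℓ ℓ' : Tok → Option κ) : SimpleGraph Tok where
  Adj a b := a ≠ b ∧ ((∃ q, ℓ a = some q ∧ ℓ b = some q) ∨ (∃ q, ℓ' a = some q ∧ ℓ' b = some q))
  symm := ⟨by
    rintro a b ⟨hne, h⟩
    refine ⟨hne.symm, ?_⟩
    rcases h with ⟨q, h1, h2⟩ | ⟨q, h1, h2⟩
    · exact Or.inl ⟨q, h2, h1⟩
    · exact Or.inr ⟨q, h2, h1⟩⟩
  loopless := ⟨fun a h => h.1 rfl⟩

open Classical in
lemma card_mates_le_one (ℓ : Tok → Option κ) (t : Tok → Bool) (ht : InjT ℓ t) (v : Tok) :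
    (Finset.univ.filter (fun b => v ≠ b ∧ ∃ q, ℓ v = some q ∧ ℓ b = some q)).card ≤ 1 := by
  refine Finset.card_le_one.mpr (fun x hx y hy => ?_)
  obtain ⟨hx1, q, hq1, hq2⟩ := (Finset.mem_filter.mp hx).2
  obtain ⟨hy1, q', hq1', hq2'⟩ := (Finset.mem_filter.mp hy).2
  have hqq : q' = q := by
    rw [hq1] at hq1'
    exact (Option.some.inj hq1').symm
  subst hqq
  have h1 : t v ≠ t x := fun h => hx1 (ht v x _ hq1 hq2 h)
  have h2 : t v ≠ t y := fun h => hy1 (ht v y _ hq1 hq2' h)
  apply ht x y _ hq2 hq2'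
  revert h1 h2
  cases t v <;> cases t x <;> cases t y <;> simp

open Classical in
lemma card_neighbor_le (ℓ ℓ' : Tok → Option κ) (t : Tok → Bool) (ht : InjT ℓ t) (ht' : InjT ℓ' t)
    (v : Tok) : ((tokGraph ℓ ℓ').neighborFinset v).card ≤ 2 := by
  have hsub : (tokGraph ℓ ℓ').neighborFinset v ⊆
      (Finset.univ.filter (fun b => v ≠ b ∧ ∃ q, ℓ v = some q ∧ ℓ b = some q)) ∪
      (Finset.univ.filter (fun b => v ≠ b ∧ ∃ q, ℓ' v = some q ∧ ℓ' b = some q)) := by
    intro b hb
    have hb' : (tokGraph ℓ ℓ').Adj v b := (SimpleGraph.mem_neighborFinset _ _ _).mp hb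
    simp only [Finset.mem_union, Finset.mem_filter, Finset.mem_univ, true_and]
    rcases hb' with ⟨h0, h | h⟩
    · exact Or.inl ⟨h0, h⟩
    · exact Or.inr ⟨h0, h⟩
  calc _ ≤ _ := Finset.card_le_card hsub
    _ ≤ _ := Finset.card_union_le _ _
    _ ≤ 1 + 1 := add_le_add (card_mates_le_one ℓ t ht v) (card_mates_le_one ℓ' t ht' v)

open Classical in
lemma card_neighbor_single (ℓ ℓ' : Tok → Option κ) (t : Tok → Bool) (ht' : InjT ℓ' t)
    {v : Tok} {r : κ} (hv : ℓ v = some r) (hu : ∀ b, ℓ b = some r → b = v) :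
    ((tokGraph ℓ ℓ').neighborFinset v).card ≤ 1 := by
  have hsub : (tokGraph ℓ ℓ').neighborFinset v ⊆
      (Finset.univ.filter (fun b => v ≠ b ∧ ∃ q, ℓ' v = some q ∧ ℓ' b = some q)) := by
    intro b hb
    have hb' : (tokGraph ℓ ℓ').Adj v b := (SimpleGraph.mem_neighborFinset _ _ _).mp hb
    simp only [Finset.mem_filter, Finset.mem_univ, true_and]
    rcases hb' with ⟨h0, ⟨q, h1, h2⟩ | h⟩
    · exfalso
      rw [hv] at h1
      have : q = r := (Option.some.inj h1).symm
      subst this
      exact h0 (hu b h2).symm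
    · exact ⟨h0, h⟩
  exact (Finset.card_le_card hsub).trans (card_mates_le_one ℓ' t ht' v)

lemma flipBit_eq (ℓ : Tok → Option κ) (s t : Tok → Bool) {b : Tok} {r : κ} (hb : ℓ b = some r)
    (hu : ∀ b', ℓ b' = some r → b' = b) : flipBit ℓ s r t = xor (t b) (s b) := by
  classical
  have hocc : Occ ℓ r := ⟨b, hb⟩
  unfold flipBit
  rw [dif_pos hocc]
  have : hocc.choose = b := hu _ hocc.choose_spec
  rw [this]

/-- **The involutions exist.** -/
theorem flipProp_Sset (ℓ ℓ' : Tok → Option κ) (s : Tok → Bool)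
    (hdom : ∀ a, ℓ a = none ↔ ℓ' a = none) : FlipProp ℓ s (Sset ℓ ℓ') := by
  classical
  intro p hp
  obtain ⟨a0, h0, hu0⟩ := (Finset.mem_filter.mp hp).2
  set G := tokGraph ℓ ℓ' with hG
  set ψ : (Tok → Bool) → (Tok → Bool) := fun t x => xor (t x) (decide (G.Reachable a0 x)) with hψ
  have hadj : ∀ {a b}, G.Adj a b → (G.Reachable a0 a ↔ G.Reachable a0 b) := by
    intro a b hab
    exact ⟨fun h => h.trans hab.reachable, fun h => h.trans hab.symm.reachable⟩
  have hmemS : ∀ t ∈ Sset ℓ ℓ', ψ t ∈ Sset ℓ ℓ' := by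
    intro t ht
    obtain ⟨_, h1, h2, h3⟩ := Finset.mem_filter.mp ht
    refine Finset.mem_filter.mpr ⟨Finset.mem_univ _, ?_, ?_, ?_⟩
    · intro a ha
      have hnr : ¬ G.Reachable a0 a := by
        intro hr
        have hne : a ≠ a0 := by
          rintro rfl
          rw [ha] at h0
          exact absurd h0 (by simp)
        obtain ⟨wk⟩ := hr.symm
        cases wk with
        | nil => exact hne rfl
        | cons hA _ =>
          rcases hA.2 with ⟨q, hq, _⟩ | ⟨q, hq, _⟩
          · rw [ha] at hq; exact absurd hq (by simp)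
          · rw [(hdom a).mp ha] at hq; exact absurd hq (by simp)
      simp only [hψ, h1 a ha, hnr, decide_false, Bool.xor_false]
    · intro a b q ha hb hab
      by_contra hne
      have hA : G.Adj a b := ⟨hne, Or.inl ⟨q, ha, hb⟩⟩
      have := hadj hA
      simp only [hψ, this] at hab
      exact hne (h2 a b q ha hb (by simpa using hab))
    · intro a b q ha hb hab
      by_contra hne
      have hA : G.Adj a b := ⟨hne, Or.inr ⟨q, ha, hb⟩⟩
      have := hadj hA
      simp only [hψ, this] at hab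
      exact hne (h3 a b q ha hb (by simpa using hab))
  have hinv : ∀ t ∈ Sset ℓ ℓ', ψ (ψ t) = t := by
    intro t _
    funext x
    simp only [hψ]
    cases t x <;> cases decide (G.Reachable a0 x) <;> rfl
  have hbit : ∀ t ∈ Sset ℓ ℓ', flipBit ℓ s p (ψ t) = !flipBit ℓ s p t := by
    intro t _
    rw [flipBit_eq ℓ s _ h0 hu0, flipBit_eq ℓ s _ h0 hu0]
    have : G.Reachable a0 a0 := SimpleGraph.Reachable.refl _
    simp only [hψ, this, decide_true]
    cases t a0 <;> cases s a0 <;> rfl
  have hreachbit : ∀ {r b}, ℓ b = some r → (∀ b', ℓ b' = some r → b' = b) → G.Reachable a0 b →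
      ∀ t, flipBit ℓ s r (ψ t) = !flipBit ℓ s r t := by
    intro r b hb hu hr t
    rw [flipBit_eq ℓ s _ hb hu, flipBit_eq ℓ s _ hb hu]
    simp only [hψ, hr, decide_true]
    cases t b <;> cases s b <;> rfl
  have hnotreachbit : ∀ {r b}, ℓ b = some r → (∀ b', ℓ b' = some r → b' = b) →
      ¬ G.Reachable a0 b → ∀ t, flipBit ℓ s r (ψ t) = flipBit ℓ s r t := by
    intro r b hb hu hr t
    rw [flipBit_eq ℓ s _ hb hu, flipBit_eq ℓ s _ hb hu]
    simp only [hψ, hr, decide_false, Bool.xor_false]
  by_cases hQ : ∃ r ∈ activeSet ℓ, r ≠ p ∧ ∃ b, ℓ b = some r ∧ G.Reachable a0 b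
  · obtain ⟨q, hq, hqp, bq, hbq, hrq⟩ := hQ
    obtain ⟨bq', hbq', huq⟩ := (Finset.mem_filter.mp hq).2
    have hbqe : bq = bq' := huq bq hbq
    subst hbqe
    refine ⟨ψ, q, hmemS, hinv, hbit, ?_, ?_⟩
    · intro t ht r hr hrp hrq'
      obtain ⟨b, hb, hub⟩ := (Finset.mem_filter.mp hr).2
      refine hnotreachbit hb hub (fun hrb => ?_) t
      obtain ⟨_, _, h2, h3⟩ := Finset.mem_filter.mp ht
      have hne : ∀ {x y : Tok} {m n : κ}, ℓ x = some m → ℓ y = some n → m ≠ n → x ≠ y := by
        rintro x y m n hx hy hmn rfl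
        rw [hx] at hy
        exact hmn (Option.some.inj hy)
      exact comp_three G (card_neighbor_le ℓ ℓ' t h2 h3) (hne h0 hbq hqp.symm) (hne h0 hb hrp.symm)
        (hne hbq hb (Ne.symm hrq')) (card_neighbor_single ℓ ℓ' t h3 h0 hu0)
        (card_neighbor_single ℓ ℓ' t h3 hbq huq) (card_neighbor_single ℓ ℓ' t h3 hb hub) hrq hrb
    · intro _ t _
      exact hreachbit hbq huq hrq t
  · refine ⟨ψ, p, hmemS, hinv, hbit, ?_, fun h => absurd rfl h⟩
    intro t _ r hr hrp _
    obtain ⟨b, hb, hub⟩ := (Finset.mem_filter.mp hr).2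
    exact hnotreachbit hb hub (fun hrb => hQ ⟨r, hr, hrp, b, hb, hrb⟩) t

end Flip

end Crest.Agent.S0222Lib.JCore
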