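import Crest.Agent.S0222Lib.ShapeDim
import Crest.Agent.S0222Lib.JCore

/-!
# S0222: the pure symmetric group statement of the conversion

For a unitary matrix representation `ρ` of a finite group `G` on `H → ℂ` and `Y` positive definite
commuting with `ρ`:

* `tracial_decomp`: a tracial functional of `ℂ[G]` is `∑_k (t(p_k)/d_k) Tr R_k`;
* `hs_le_of_idem` **(H1)**: `hs Y (∑ φ g • ρ g) ≤ |G| b ∑ ‖φ g‖²` if `Tr(Y⁻¹ p_k) ≤ b d_k²` for all `k`;
* `exists_fixed_of_eig`, `le_eigenvalue`, `trace_inv_idem_le`: the smallest eigenvalue of `Y` on the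
  `k`-isotypic part is bounded by the minimum of `Y` on the vectors fixed by any subgroup `S` with a
  fixed vector in `V_k`;
* `trace_idem_le`: `Tr p_k ≤ d_k Tr ρ(e_S)`.
-/

set_option autoImplicit false
set_option linter.unusedSectionVars false
set_option linter.unusedSimpArgs false

namespace Crest.Agent.S0222Lib.JH1

open Matrix Finset
open scoped ComplexOrder
open Crest.Agent.S0222Lib.Planch Crest.Agent.S0222Lib.JCore

section Tracial

/-- A tracial functional on a matrix algebra is a multiple of the trace. -/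
lemma tracial_eq {d : ℕ} (hd : 0 < d) (L : Matrix (Fin d) (Fin d) ℂ →ₗ[ℂ] ℂ)
    (hL : ∀ A B, L (A * B) = L (B * A)) (M : Matrix (Fin d) (Fin d) ℂ) :
    L M = (L 1 / d) * M.trace := by
  classical
  set E : Fin d → Fin d → Matrix (Fin d) (Fin d) ℂ := fun a b => Matrix.single a b 1 with hE
  have hmul : ∀ a b c, E a b * E b c = E a c := by
    intro a b c
    simp [hE, Matrix.single_mul_single_same]
  have hmul0 : ∀ a b c e, b ≠ c → E a b * E c e = 0 := by
    intro a b c e h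
    simp [hE, h]
  have hoff : ∀ a b, a ≠ b → L (E a b) = 0 := by
    intro a b hab
    rw [← hmul a a b, hL, hmul0 _ _ _ _ hab.symm, map_zero]
  have hdiag : ∀ a b, L (E a a) = L (E b b) := by
    intro a b
    rw [← hmul a b a, hL, hmul b a b]
  have hone : (1 : Matrix (Fin d) (Fin d) ℂ) = ∑ a, E a a := by
    ext a b
    simp only [hE, Matrix.sum_apply, Matrix.single_apply, Matrix.one_apply]
    by_cases h : a = b
    · subst h
      simp
    · rw [if_neg h]
      refine (Finset.sum_eq_zero fun c _ => ?_).symm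
      rw [if_neg]
      rintro ⟨rfl, rfl⟩
      exact h rfl
  have ha0 : Fin d := ⟨0, hd⟩
  have hL1 : L 1 = d * L (E ha0 ha0) := by
    rw [hone, map_sum, Finset.sum_congr rfl (fun a _ => hdiag a ha0)]
    simp
  have hd0 : (d : ℂ) ≠ 0 := by exact_mod_cast hd.ne'
  have hM : M = ∑ a, ∑ b, (M a b) • E a b := by
    conv_lhs => rw [Matrix.matrix_eq_sum_single M]
    refine Finset.sum_congr rfl fun a _ => Finset.sum_congr rfl fun b _ => ?_
    simp [hE]
  conv_lhs => rw [hM]
  rw [map_sum]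
  simp only [map_sum, map_smul, smul_eq_mul]
  have : ∀ a, ∑ b, M a b * L (E a b) = M a a * L (E ha0 ha0) := by
    intro a
    rw [Finset.sum_eq_single a]
    · rw [hdiag a ha0]
    · intro b _ hb
      rw [hoff a b hb.symm, mul_zero]
    · simp
  simp only [this]
  rw [hL1, Matrix.trace, ← Finset.sum_mul]
  simp only [Matrix.diag_apply]
  field_simp

variable {G : Type*} [Group G] [Fintype G] [DecidableEq G] (F : Family G)

lemma idem_eq_single (k : Fin F.r) : F.idem k = F.E.symm (Pi.single k 1) := by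
  unfold Family.idem
  congr 1
  funext j
  by_cases h : j = k
  · subst h
    simp
  · simp [h]

lemma idem_mul_eq (k : Fin F.r) (y : MonoidAlgebra ℂ G) :
    F.idem k * y = F.E.symm (Pi.single k ((F.R k).lift y)) := by
  apply F.E.injective
  rw [AlgEquiv.apply_symm_apply]
  funext j
  rw [F.E_apply, map_mul, F.lift_idem]
  by_cases h : j = k
  · subst h
    simp
  · simp [h]

/-- **The trace decomposition**: a tracial functional of the group algebra. -/
theorem tracial_decomp (t : MonoidAlgebra ℂ G →ₗ[ℂ] ℂ) (ht : ∀ x y, t (x * y) = t (y * x))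
    (y : MonoidAlgebra ℂ G) :
    t y = ∑ k, (t (F.idem k) / F.d k) * ((F.R k).lift y).trace := by
  have h1 : y = ∑ k, F.idem k * y := by rw [← Finset.sum_mul, F.sum_idem, one_mul]
  conv_lhs => rw [h1, map_sum]
  refine Finset.sum_congr rfl fun k _ => ?_
  let Lk : Matrix (Fin (F.d k)) (Fin (F.d k)) ℂ →ₗ[ℂ] ℂ :=
    t ∘ₗ F.E.symm.toLinearMap ∘ₗ
      LinearMap.single ℂ (fun i => Matrix (Fin (F.d i)) (Fin (F.d i)) ℂ) k
  have hLk : ∀ M, Lk M = t (F.E.symm (Pi.single k M)) := fun M => rfl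
  have hmul : ∀ A B, Lk (A * B) = Lk (B * A) := by
    intro A B
    rw [hLk, hLk, Pi.single_mul, map_mul, ht, ← map_mul, ← Pi.single_mul]
  rw [idem_mul_eq, ← hLk, tracial_eq (F.dpos k) Lk hmul, hLk 1, idem_eq_single]

end Tracial

section Lift

variable {G : Type*} [Group G] [Fintype G] [DecidableEq G] (F : Family G)
  {H : Type*} [Fintype H] [DecidableEq H] (ρ : G →* Matrix H H ℂ)

/-- The extension of a matrix representation to the group algebra. -/
noncomputable def liftR : MonoidAlgebra ℂ G →ₐ[ℂ] Matrix H H ℂ :=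
  MonoidAlgebra.lift ℂ _ G ρ

@[simp] lemma liftR_single (g : G) (c : ℂ) : liftR ρ (MonoidAlgebra.single g c) = c • ρ g := by
  simp [liftR, MonoidAlgebra.lift_single]

lemma liftR_eq_sum (x : MonoidAlgebra ℂ G) : liftR ρ x = ∑ g, x.coeff g • ρ g := by
  classical
  induction x using MonoidAlgebra.induction_linear with
  | zero => simp
  | add x y hx hy =>
    simp only [map_add, hx, hy, MonoidAlgebra.coeff_add, Finsupp.add_apply, add_smul,
      Finset.sum_add_distrib]
  | single g c =>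
    rw [liftR_single]
    rw [Finset.sum_eq_single g]
    · simp
    · intro h _ hne
      simp [MonoidAlgebra.coeff_single, hne.symm]
    · simp

lemma rho_inv_eq (hu : ∀ g, (ρ g)ᴴ * ρ g = 1) (g : G) : ρ g⁻¹ = (ρ g)ᴴ := by
  have h2 := hu g
  calc ρ g⁻¹ = ((ρ g)ᴴ * ρ g) * ρ g⁻¹ := by rw [h2, Matrix.one_mul]
    _ = (ρ g)ᴴ * (ρ g * ρ g⁻¹) := Matrix.mul_assoc _ _ _
    _ = (ρ g)ᴴ := by rw [← map_mul]; simp

lemma liftR_cstar (hu : ∀ g, (ρ g)ᴴ * ρ g = 1) (x : MonoidAlgebra ℂ G) :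
    liftR ρ (cstar x) = (liftR ρ x)ᴴ := by
  unfold cstar
  rw [map_sum, liftR_eq_sum ρ x, Matrix.conjTranspose_sum]
  refine Finset.sum_congr rfl fun g _ => ?_
  rw [liftR_single, rho_inv_eq ρ hu, Matrix.conjTranspose_smul]

lemma commute_liftR {W : Matrix H H ℂ} (hc : ∀ g, W * ρ g = ρ g * W) (x : MonoidAlgebra ℂ G) :
    W * liftR ρ x = liftR ρ x * W := by
  rw [liftR_eq_sum, Finset.mul_sum, Finset.sum_mul]
  refine Finset.sum_congr rfl fun g _ => ?_
  rw [Matrix.mul_smul, Matrix.smul_mul, hc]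

lemma inv_commute {Y : Matrix H H ℂ} (hY : Y.PosDef) (hc : ∀ g, Y * ρ g = ρ g * Y) (g : G) :
    Y⁻¹ * ρ g = ρ g * Y⁻¹ := by
  have hdet : IsUnit Y.det := (Matrix.isUnit_iff_isUnit_det Y).1 hY.isUnit
  have hinv1 : Y⁻¹ * Y = 1 := Matrix.nonsing_inv_mul Y hdet
  have hinv2 : Y * Y⁻¹ = 1 := Matrix.mul_nonsing_inv Y hdet
  calc Y⁻¹ * ρ g = Y⁻¹ * ρ g * (Y * Y⁻¹) := by rw [hinv2, Matrix.mul_one]
    _ = Y⁻¹ * (Y * ρ g) * Y⁻¹ := by rw [hc]; simp only [Matrix.mul_assoc]
    _ = ρ g * Y⁻¹ := by rw [← Matrix.mul_assoc, hinv1, Matrix.one_mul]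

/-- **(H1)** from the traces of the isotypic projections. -/
theorem hs_le_of_idem (hu : ∀ g, (ρ g)ᴴ * ρ g = 1) {Y : Matrix H H ℂ} (hY : Y.PosDef)
    (hc : ∀ g, Y * ρ g = ρ g * Y) {b : ℝ}
    (hb : ∀ k, (Y⁻¹ * liftR ρ (F.idem k)).trace.re ≤ b * (F.d k : ℝ) ^ 2) (φ : G → ℂ) :
    hs Y (∑ g, φ g • ρ g) ≤ ((Fintype.card G : ℝ) * b) * ∑ g, ‖φ g‖ ^ 2 := by
  classical
  have hcW := inv_commute ρ hY hc
  set x : MonoidAlgebra ℂ G := ∑ g, MonoidAlgebra.single g (φ g) with hx
  have hcoeff : ∀ g, x.coeff g = φ g := by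
    intro g
    rw [hx, MonoidAlgebra.coeff_sum, Finsupp.finsetSum_apply, Finset.sum_eq_single g]
    · simp [MonoidAlgebra.coeff_single]
    · intro h _ hne
      simp [MonoidAlgebra.coeff_single, hne]
    · simp
  have hD : ∑ g, φ g • ρ g = liftR ρ x := by
    rw [liftR_eq_sum]
    simp only [hcoeff]
  let t : MonoidAlgebra ℂ G →ₗ[ℂ] ℂ :=
    { toFun := fun y => (Y⁻¹ * liftR ρ y).trace
      map_add' := fun a b => by simp [Matrix.mul_add, Matrix.trace_add]
      map_smul' := fun c a => by simp [Matrix.mul_smul, Matrix.trace_smul] }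
  have ht : ∀ a b, t (a * b) = t (b * a) := by
    intro a b
    change (Y⁻¹ * liftR ρ (a * b)).trace = (Y⁻¹ * liftR ρ (b * a)).trace
    rw [map_mul, map_mul, ← Matrix.mul_assoc, Matrix.trace_mul_comm, ← Matrix.mul_assoc,
      ← commute_liftR ρ hcW b, Matrix.mul_assoc]
  have hs_eq : hs Y (liftR ρ x) = (t (x * cstar x)).re := by
    unfold hs
    change ((liftR ρ x)ᴴ * Y⁻¹ * liftR ρ x).trace.re = (Y⁻¹ * liftR ρ (x * cstar x)).trace.re
    rw [map_mul, liftR_cstar ρ hu, Matrix.trace_mul_comm, ← Matrix.mul_assoc, Matrix.trace_mul_comm]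
  rw [hD, hs_eq, tracial_decomp F t ht, Complex.re_sum]
  have hterm : ∀ k, ((t (F.idem k) / F.d k) * ((F.R k).lift (x * cstar x)).trace).re
      ≤ b * ((F.d k : ℝ) * hsq ((F.R k).lift x)) := by
    intro k
    rw [map_mul, URep.lift_cstar, trace_mul_conjTranspose]
    have hd : (0 : ℝ) < F.d k := by exact_mod_cast F.dpos k
    have h1 : ((t (F.idem k) / F.d k) * (hsq ((F.R k).lift x) : ℂ)).re
        = (t (F.idem k)).re / (F.d k) * hsq ((F.R k).lift x) := by
      have : (t (F.idem k) / (F.d k : ℂ)) = (t (F.idem k)) * (((F.d k : ℝ)⁻¹ : ℝ) : ℂ) := by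
        push_cast
        rw [div_eq_mul_inv]
      rw [this, Complex.mul_re, Complex.re_mul_ofReal, Complex.im_mul_ofReal]
      simp only [Complex.ofReal_re, Complex.ofReal_im, mul_zero, sub_zero]
      rw [div_eq_mul_inv]
    rw [h1]
    have h2 : (t (F.idem k)).re / (F.d k) ≤ b * F.d k := by
      rw [div_le_iff₀ hd]
      have := hb k
      change (t (F.idem k)).re ≤ _ at this
      nlinarith
    have h3 := hsq_nonneg ((F.R k).lift x)
    nlinarith [mul_le_mul_of_nonneg_right h2 h3]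
  calc ∑ k, ((t (F.idem k) / F.d k) * ((F.R k).lift (x * cstar x)).trace).re
      ≤ ∑ k, b * ((F.d k : ℝ) * hsq ((F.R k).lift x)) := Finset.sum_le_sum fun k _ => hterm k
    _ = b * ((Fintype.card G : ℝ) * ∑ g, ‖x.coeff g‖ ^ 2) := by
        rw [← Finset.mul_sum, F.plancherel]
    _ = _ := by
        simp only [hcoeff]
        ring

end Lift

section Avg

variable {G : Type*} [Group G] [Fintype G] [DecidableEq G] (F : Family G)
  {H : Type*} [Fintype H] [DecidableEq H] (ρ : G →* Matrix H H ℂ)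
  (S : Subgroup G) [Fintype S]

/-- The averaging element of a subgroup. -/
noncomputable def avg : MonoidAlgebra ℂ G :=
  ∑ s : S, MonoidAlgebra.single (s : G) ((Fintype.card S : ℂ)⁻¹)

lemma card_S_ne : (Fintype.card S : ℂ) ≠ 0 := by
  exact_mod_cast Fintype.card_ne_zero

lemma single_mul_avg {s : G} (hs : s ∈ S) (c : ℂ) :
    MonoidAlgebra.single s c * avg S = c • avg S := by
  unfold avg
  rw [Finset.mul_sum, Finset.smul_sum,
    ← Equiv.sum_comp (Equiv.mulLeft (⟨s, hs⟩ : S))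
      (fun g : S => c • MonoidAlgebra.single (g : G) ((Fintype.card S : ℂ)⁻¹))]
  refine Finset.sum_congr rfl fun g _ => ?_
  rw [MonoidAlgebra.single_mul_single, MonoidAlgebra.smul_single']
  rfl

lemma avg_mul_single {s : G} (hs : s ∈ S) (c : ℂ) :
    avg S * MonoidAlgebra.single s c = c • avg S := by
  unfold avg
  rw [Finset.sum_mul, Finset.smul_sum,
    ← Equiv.sum_comp (Equiv.mulRight (⟨s, hs⟩ : S))
      (fun g : S => c • MonoidAlgebra.single (g : G) ((Fintype.card S : ℂ)⁻¹))]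
  refine Finset.sum_congr rfl fun g _ => ?_
  rw [MonoidAlgebra.single_mul_single, MonoidAlgebra.smul_single', mul_comm]
  rfl

lemma avg_mul_avg : avg S * avg S = avg S := by
  conv_lhs => enter [1]; unfold avg
  rw [Finset.sum_mul]
  have : ∀ s : S, MonoidAlgebra.single (s : G) ((Fintype.card S : ℂ)⁻¹) * avg S =
      (Fintype.card S : ℂ)⁻¹ • avg S := fun s => single_mul_avg S s.2 _
  simp only [this, Finset.sum_const, Finset.card_univ]
  rw [← Nat.cast_smul_eq_nsmul ℂ, smul_smul, mul_inv_cancel₀ (card_S_ne S), one_smul]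

lemma cstar_avg : cstar (avg S) = avg S := by
  classical
  -- the coefficients of the average
  have hco : ∀ h : G, (avg S).coeff h = if h ∈ S then (Fintype.card S : ℂ)⁻¹ else 0 := by
    intro h
    unfold avg
    rw [MonoidAlgebra.coeff_sum, Finsupp.finsetSum_apply]
    by_cases hh : h ∈ S
    · rw [if_pos hh, Finset.sum_eq_single (⟨h, hh⟩ : S)]
      · simp [MonoidAlgebra.coeff_single]
      · intro g _ hne
        have : (g : G) ≠ h := fun e => hne (Subtype.ext e)
        simp [MonoidAlgebra.coeff_single, this]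
      · simp
    · rw [if_neg hh]
      refine Finset.sum_eq_zero fun g _ => ?_
      have : (g : G) ≠ h := fun e => hh (e ▸ g.2)
      simp [MonoidAlgebra.coeff_single, this]
  ext h
  change (cstar (avg S)).coeff h = (avg S).coeff h
  rw [coeff_cstar, hco, hco]
  by_cases hh : h ∈ S
  · rw [if_pos hh, if_pos (S.inv_mem hh)]
    simp
  · rw [if_neg hh, if_neg (fun e => hh (by simpa using S.inv_mem e))]
    simp

lemma rho_mul_liftR_avg {s : G} (hs : s ∈ S) (x : MonoidAlgebra ℂ G) :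
    ρ s * liftR ρ (avg S * x) = liftR ρ (avg S * x) := by
  have h1 : ρ s = liftR ρ (MonoidAlgebra.single s 1) := by simp
  rw [h1, ← map_mul, ← mul_assoc, single_mul_avg S hs, one_smul]

/-- Through a nonzero block of `e_S`, every nonzero `k`-isotypic vector reaches the `S`-fixed
vectors. -/
theorem exists_fixed_of_eig (k : Fin F.r) (hk : (F.R k).lift (avg S) ≠ 0) {v : H → ℂ} (hv : v ≠ 0)
    (hp : liftR ρ (F.idem k) *ᵥ v = v) : ∃ x, liftR ρ (avg S * x) *ᵥ v ≠ 0 := by
  classical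
  by_contra hno
  push Not at hno
  apply hv
  set M := (F.R k).lift (avg S) with hM
  obtain ⟨a, b, hab⟩ : ∃ a b, M a b ≠ 0 := by
    by_contra h
    push Not at h
    exact hk (Matrix.ext h)
  choose A hA using fun c => F.surj k (Matrix.single c a (1 : ℂ))
  choose X hX using fun c => F.surj k (Matrix.single b c (1 : ℂ))
  have key : F.idem k * (∑ c, A c * (avg S * X c)) = (M a b) • F.idem k := by
    apply F.ext_lift
    intro j
    by_cases hj : j = k
    · rw [hj]
      rw [map_mul, F.lift_idem_self, one_mul, map_sum, map_smul, F.lift_idem_self]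
      simp only [map_mul, hA, hX, ← hM]
      have h1 : ∀ c : Fin (F.d k), Matrix.single c a (1 : ℂ) * (M * Matrix.single b c (1 : ℂ)) =
          Matrix.single c c (M a b) := by
        intro c
        rw [← Matrix.mul_assoc, Matrix.single_mul_mul_single]
        simp
      simp only [h1]
      ext p q
      simp only [Matrix.sum_apply, Matrix.single_apply, Matrix.smul_apply, Matrix.one_apply,
        smul_eq_mul]
      by_cases h : p = q
      · subst h
        simp
      · rw [if_neg h, mul_zero]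
        refine Finset.sum_eq_zero fun c _ => ?_
        rw [if_neg]
        rintro ⟨rfl, rfl⟩
        exact h rfl
    · rw [map_mul, map_smul, F.lift_idem_ne hj]
      simp
  have h1 : (M a b) • v = 0 := by
    calc M a b • v = M a b • (liftR ρ (F.idem k) *ᵥ v) := by rw [hp]
      _ = liftR ρ (M a b • F.idem k) *ᵥ v := by rw [map_smul, Matrix.smul_mulVec]
      _ = liftR ρ (F.idem k * ∑ c, A c * (avg S * X c)) *ᵥ v := by rw [key]
      _ = ∑ c, liftR ρ (F.idem k * A c) *ᵥ (liftR ρ (avg S * X c) *ᵥ v) := by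
          rw [Finset.mul_sum, map_sum, Matrix.sum_mulVec]
          refine Finset.sum_congr rfl fun c _ => ?_
          rw [Matrix.mulVec_mulVec, ← map_mul, mul_assoc]
      _ = 0 := Finset.sum_eq_zero fun c _ => by rw [hno (X c), Matrix.mulVec_zero]
  exact (smul_eq_zero.1 h1).resolve_left hab

/-- The minimum of `Y` on the `S`-fixed vectors bounds the eigenvalues on the `k`-isotypic part. -/
theorem le_eigenvalue {Y : Matrix H H ℂ} (hc : ∀ g, Y * ρ g = ρ g * Y) (k : Fin F.r)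
    (hk : (F.R k).lift (avg S) ≠ 0) {y : ℝ}
    (hy : ∀ f : H → ℂ, (∀ s ∈ S, ρ s *ᵥ f = f) → y * nsq f ≤ (star f ⬝ᵥ (Y *ᵥ f)).re)
    {v : H → ℂ} {l : ℝ} (hv : v ≠ 0) (hp : liftR ρ (F.idem k) *ᵥ v = v)
    (hl : Y *ᵥ v = (l : ℂ) • v) : y ≤ l := by
  obtain ⟨x, hx⟩ := exists_fixed_of_eig F ρ S k hk hv hp
  set f := liftR ρ (avg S * x) *ᵥ v with hf
  have hfix : ∀ s ∈ S, ρ s *ᵥ f = f := by
    intro s hs
    rw [hf, Matrix.mulVec_mulVec, rho_mul_liftR_avg ρ S hs]
  have hYf : Y *ᵥ f = (l : ℂ) • f := by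
    rw [hf, Matrix.mulVec_mulVec, commute_liftR ρ hc, ← Matrix.mulVec_mulVec, hl,
      Matrix.mulVec_smul]
  have h1 := hy f hfix
  rw [hYf, dotProduct_smul, dot_star_self] at h1
  have h2 : 0 < nsq f := pos_nsq hx
  have h3 : (((l : ℂ) • (nsq f : ℂ)) : ℂ).re = l * nsq f := by
    simp
  rw [h3] at h1
  exact le_of_mul_le_mul_right h1 h2

end Avg

section Trace

variable {G : Type*} [Group G] [Fintype G] [DecidableEq G] (F : Family G)
  {H : Type*} [Fintype H] [DecidableEq H] (ρ : G →* Matrix H H ℂ)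
  (S : Subgroup G) [Fintype S]

lemma cstar_idem (k : Fin F.r) : cstar (F.idem k) = F.idem k := by
  apply F.ext_lift
  intro j
  rw [URep.lift_cstar, F.lift_idem]
  split_ifs <;> simp

/-- The isotypic projection is Hermitian. -/
lemma liftR_idem_herm (hu : ∀ g, (ρ g)ᴴ * ρ g = 1) (k : Fin F.r) :
    (liftR ρ (F.idem k))ᴴ = liftR ρ (F.idem k) := by
  rw [← liftR_cstar ρ hu, cstar_idem]

lemma liftR_idem_idem (k : Fin F.r) :
    liftR ρ (F.idem k) * liftR ρ (F.idem k) = liftR ρ (F.idem k) := by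
  rw [← map_mul, F.idem_mul_self]

/-- The trace of a Hermitian idempotent is a sum of squares. -/
lemma trace_proj_eq {n : Type*} [Fintype n] [DecidableEq n] {P : Matrix n n ℂ} (h1 : Pᴴ = P)
    (h2 : P * P = P) : P.trace = (hsq P : ℂ) := by
  rw [← trace_mul_conjTranspose, h1, h2]

lemma nsq_mulVec_le_hsq {n : Type*} [Fintype n] [DecidableEq n] (P : Matrix n n ℂ) (u : n → ℂ) :
    nsq (P *ᵥ u) ≤ hsq P * nsq u := by
  unfold nsq hsq
  rw [Finset.sum_mul]
  refine Finset.sum_le_sum fun a _ => ?_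
  have h1 : ‖(P *ᵥ u) a‖ ≤ ∑ c, ‖P a c‖ * ‖u c‖ := by
    simp only [Matrix.mulVec, dotProduct]
    refine (norm_sum_le _ _).trans (le_of_eq ?_)
    simp
  have h2 : (∑ c, ‖P a c‖ * ‖u c‖) ^ 2 ≤ (∑ c, ‖P a c‖ ^ 2) * ∑ c, ‖u c‖ ^ 2 :=
    Finset.sum_mul_sq_le_sq_mul_sq _ _ _
  have h3 : 0 ≤ ‖(P *ᵥ u) a‖ := norm_nonneg _
  nlinarith

/-- The trace of a nonzero Hermitian idempotent is at least `1`. -/
lemma one_le_trace_proj {n : Type*} [Fintype n] [DecidableEq n] {P : Matrix n n ℂ} (_h1 : Pᴴ = P)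
    (h2 : P * P = P) (h0 : P ≠ 0) : 1 ≤ hsq P := by
  obtain ⟨u, hu⟩ : ∃ u : n → ℂ, P *ᵥ u ≠ 0 := by
    by_contra h
    push Not at h
    apply h0
    ext a b
    have := congrFun (h (Pi.single b 1)) a
    simpa using this
  have h3 := nsq_mulVec_le_hsq P (P *ᵥ u)
  rw [Matrix.mulVec_mulVec, h2] at h3
  have h4 := pos_nsq hu
  nlinarith

/-- **The multiplicity of `V_k`** is bounded by the trace of `e_S`, for any subgroup with a fixed
vector in `V_k`. -/
theorem trace_idem_le (hu : ∀ g, (ρ g)ᴴ * ρ g = 1) (k : Fin F.r)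
    (hk : (F.R k).lift (avg S) ≠ 0) :
    (liftR ρ (F.idem k)).trace.re ≤ (F.d k : ℝ) * (liftR ρ (avg S)).trace.re := by
  classical
  let t : MonoidAlgebra ℂ G →ₗ[ℂ] ℂ :=
    { toFun := fun y => (liftR ρ y).trace
      map_add' := fun a b => by simp [Matrix.trace_add]
      map_smul' := fun c a => by simp [Matrix.trace_smul] }
  have ht : ∀ a b, t (a * b) = t (b * a) := by
    intro a b
    change (liftR ρ (a * b)).trace = (liftR ρ (b * a)).trace
    rw [map_mul, map_mul, Matrix.trace_mul_comm]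
  have htp : ∀ j, t (F.idem j) = (hsq (liftR ρ (F.idem j)) : ℂ) := fun j =>
    trace_proj_eq (liftR_idem_herm F ρ hu j) (liftR_idem_idem F ρ j)
  have hRh : ∀ j, ((F.R j).lift (avg S))ᴴ = (F.R j).lift (avg S) := by
    intro j
    rw [← URep.lift_cstar, cstar_avg]
  have hRi : ∀ j, (F.R j).lift (avg S) * (F.R j).lift (avg S) = (F.R j).lift (avg S) := by
    intro j
    rw [← map_mul, avg_mul_avg]
  have hRt : ∀ j, ((F.R j).lift (avg S)).trace = (hsq ((F.R j).lift (avg S)) : ℂ) := fun j =>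
    trace_proj_eq (hRh j) (hRi j)
  have hdec := tracial_decomp F t ht (avg S)
  have hval : (liftR ρ (avg S)).trace.re =
      ∑ j, hsq (liftR ρ (F.idem j)) / F.d j * hsq ((F.R j).lift (avg S)) := by
    change (t (avg S)).re = _
    rw [hdec, Complex.re_sum]
    refine Finset.sum_congr rfl fun j _ => ?_
    rw [htp, hRt]
    have : (hsq (liftR ρ (F.idem j)) : ℂ) / (F.d j : ℂ) * (hsq ((F.R j).lift (avg S)) : ℂ) =
        ((hsq (liftR ρ (F.idem j)) / F.d j * hsq ((F.R j).lift (avg S)) : ℝ) : ℂ) := by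
      push_cast
      ring
    rw [this, Complex.ofReal_re]
  have hterm : hsq (liftR ρ (F.idem k)) / F.d k ≤
      ∑ j, hsq (liftR ρ (F.idem j)) / F.d j * hsq ((F.R j).lift (avg S)) := by
    have hnn : ∀ j ∈ Finset.univ, 0 ≤ hsq (liftR ρ (F.idem j)) / F.d j * hsq ((F.R j).lift (avg S)) :=
      fun j _ => mul_nonneg (div_nonneg (hsq_nonneg _) (by positivity)) (hsq_nonneg _)
    refine le_trans ?_ (Finset.single_le_sum hnn (Finset.mem_univ k))
    have h1 := one_le_trace_proj (hRh k) (hRi k) hk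
    have h2 : 0 ≤ hsq (liftR ρ (F.idem k)) / F.d k := div_nonneg (hsq_nonneg _) (by positivity)
    nlinarith
  have hd : (0 : ℝ) < F.d k := by exact_mod_cast F.dpos k
  rw [hval, trace_proj_eq (liftR_idem_herm F ρ hu k) (liftR_idem_idem F ρ k), Complex.ofReal_re]
  rw [div_le_iff₀ hd] at hterm
  linarith

/-- The trace with respect to an eigenbasis. -/
lemma trace_eq_sum_col {n : Type*} [Fintype n] [DecidableEq n] (U : Matrix n n ℂ)
    (hU : U * star U = 1) (A : Matrix n n ℂ) :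
    A.trace = ∑ j, star (fun a => U a j) ⬝ᵥ (A *ᵥ fun a => U a j) := by
  have h1 : A.trace = (star U * A * U).trace := by
    rw [Matrix.trace_mul_comm, ← Matrix.mul_assoc, hU, Matrix.one_mul]
  rw [h1, Matrix.trace]
  refine Finset.sum_congr rfl fun j _ => ?_
  simp only [Matrix.diag_apply, Matrix.mul_apply, dotProduct, Matrix.mulVec, Pi.star_apply,
    Matrix.star_apply, Finset.sum_mul, Finset.mul_sum]
  rw [Finset.sum_comm]
  refine Finset.sum_congr rfl fun a _ => ?_
  rw [Finset.sum_congr rfl]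
  intro c _
  ring

/-- **The trace of `Y⁻¹` on the `k`-isotypic part.** -/
theorem trace_inv_idem_le (hu : ∀ g, (ρ g)ᴴ * ρ g = 1) {Y : Matrix H H ℂ} (hY : Y.PosDef)
    (hc : ∀ g, Y * ρ g = ρ g * Y) (k : Fin F.r) (hk : (F.R k).lift (avg S) ≠ 0) {y : ℝ} (hy0 : 0 < y)
    (hy : ∀ f : H → ℂ, (∀ s ∈ S, ρ s *ᵥ f = f) → y * nsq f ≤ (star f ⬝ᵥ (Y *ᵥ f)).re) :
    (Y⁻¹ * liftR ρ (F.idem k)).trace.re ≤ (liftR ρ (F.idem k)).trace.re / y := by
  classical
  set P := liftR ρ (F.idem k) with hP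
  have hPh : Pᴴ = P := liftR_idem_herm F ρ hu k
  have hPi : P * P = P := liftR_idem_idem F ρ k
  have hH : Y.IsHermitian := hY.isHermitian
  set U : Matrix H H ℂ := (hH.eigenvectorUnitary : Matrix H H ℂ) with hU
  have hUU : U * star U = 1 := Unitary.coe_mul_star_self hH.eigenvectorUnitary
  have hUU' : star U * U = 1 := Unitary.coe_star_mul_self hH.eigenvectorUnitary
  have hsp : Y = U * diagonal ((RCLike.ofReal : ℝ → ℂ) ∘ hH.eigenvalues) * star U := by
    have := hH.spectral_theorem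
    rw [Unitary.conjStarAlgAut_apply] at this
    exact this
  set u : H → H → ℂ := fun j a => U a j with hu'
  have hYU : Y * U = U * diagonal ((RCLike.ofReal : ℝ → ℂ) ∘ hH.eigenvalues) := by
    have h0 : Y * U = (U * diagonal ((RCLike.ofReal : ℝ → ℂ) ∘ hH.eigenvalues) * star U) * U :=
      congrArg (fun Q => Q * U) hsp
    rw [h0, Matrix.mul_assoc, hUU', Matrix.mul_one]
  have hYu : ∀ j, Y *ᵥ u j = (hH.eigenvalues j : ℂ) • u j := by
    intro j
    funext a
    have h1 := congrFun (congrFun hYU a) j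
    rw [Matrix.mul_apply, Matrix.mul_diagonal] at h1
    simp only [Matrix.mulVec, dotProduct, Pi.smul_apply, smul_eq_mul, hu']
    rw [h1, mul_comm]
    rfl
  have hpos : ∀ j, 0 < hH.eigenvalues j := hY.eigenvalues_pos
  have hdet : IsUnit Y.det := (Matrix.isUnit_iff_isUnit_det Y).1 hY.isUnit
  have hinv1 : Y⁻¹ * Y = 1 := Matrix.nonsing_inv_mul Y hdet
  have hWu : ∀ j, Y⁻¹ *ᵥ u j = ((hH.eigenvalues j : ℂ))⁻¹ • u j := by
    intro j
    have hne : ((hH.eigenvalues j : ℝ) : ℂ) ≠ 0 := by exact_mod_cast (hpos j).ne'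
    have h1 : Y⁻¹ *ᵥ (Y *ᵥ u j) = u j := by
      rw [Matrix.mulVec_mulVec, hinv1, Matrix.one_mulVec]
    rw [hYu, Matrix.mulVec_smul] at h1
    calc Y⁻¹ *ᵥ u j = ((hH.eigenvalues j : ℂ))⁻¹ • ((hH.eigenvalues j : ℂ) • Y⁻¹ *ᵥ u j) := by
          rw [smul_smul, inv_mul_cancel₀ hne, one_smul]
      _ = _ := by rw [h1]
  have hWh : (Y⁻¹)ᴴ = Y⁻¹ := by
    rw [Matrix.conjTranspose_nonsing_inv, hH.eq]
  have hPcomm : Y * P = P * Y := commute_liftR ρ hc _
  -- the two traces
  have hdot : ∀ j, star (u j) ⬝ᵥ (P *ᵥ u j) = (nsq (P *ᵥ u j) : ℂ) := by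
    intro j
    rw [← dot_star_self, Matrix.star_mulVec, hPh, ← Matrix.dotProduct_mulVec, Matrix.mulVec_mulVec,
      hPi]
  have h1 : P.trace.re = ∑ j, nsq (P *ᵥ u j) := by
    rw [trace_eq_sum_col U hUU P, Complex.re_sum]
    refine Finset.sum_congr rfl fun j _ => ?_
    have := hdot j
    simp only [hu'] at this ⊢
    rw [this, Complex.ofReal_re]
  have h2 : (Y⁻¹ * P).trace.re = ∑ j, (hH.eigenvalues j)⁻¹ * nsq (P *ᵥ u j) := by
    rw [trace_eq_sum_col U hUU (Y⁻¹ * P), Complex.re_sum]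
    refine Finset.sum_congr rfl fun j _ => ?_
    have h3 : star (u j) ⬝ᵥ ((Y⁻¹ * P) *ᵥ u j) =
        ((hH.eigenvalues j : ℂ))⁻¹ * (nsq (P *ᵥ u j) : ℂ) := by
      rw [← Matrix.mulVec_mulVec, Matrix.dotProduct_mulVec, ← hdot j]
      have h4 : star (u j) ᵥ* Y⁻¹ = ((hH.eigenvalues j : ℂ))⁻¹ • star (u j) := by
        have h5 : star (Y⁻¹ *ᵥ u j) = star (u j) ᵥ* (Y⁻¹)ᴴ := Matrix.star_mulVec _ _
        rw [hWh, hWu] at h5
        rw [← h5, star_smul]
        simp
      rw [h4, smul_dotProduct, smul_eq_mul]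
    simp only [hu'] at h3 ⊢
    rw [h3]
    have : ((hH.eigenvalues j : ℂ))⁻¹ * (nsq (P *ᵥ fun a => U a j) : ℂ) =
        (((hH.eigenvalues j)⁻¹ * nsq (P *ᵥ fun a => U a j) : ℝ) : ℂ) := by
      push_cast
      rfl
    rw [this, Complex.ofReal_re]
  rw [h1, h2, Finset.sum_div]
  refine Finset.sum_le_sum fun j _ => ?_
  by_cases h0 : P *ᵥ u j = 0
  · rw [h0]
    have : nsq (0 : H → ℂ) = 0 := nsq_eq_zero_iff.2 rfl
    simp [this]
  · have hl : y ≤ hH.eigenvalues j := by
      refine le_eigenvalue F ρ S hc k hk hy h0 ?_ ?_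
      · rw [← hP, Matrix.mulVec_mulVec, hPi]
      · rw [Matrix.mulVec_mulVec, hPcomm, ← Matrix.mulVec_mulVec, hYu, Matrix.mulVec_smul]
    have h3 : (hH.eigenvalues j)⁻¹ ≤ y⁻¹ := inv_anti₀ hy0 hl
    have h4 := nsq_nonneg (P *ᵥ u j)
    rw [div_eq_mul_inv, mul_comm (nsq _)]
    exact mul_le_mul_of_nonneg_right h3 h4

end Trace

end Crest.Agent.S0222Lib.JH1
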