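import Crest.Agent.S0222Lib.JStep

/-!
# S0222: Theorem J, the invariance of the dressed blocks

`zq_inv`: a family of unitaries `Ug g` (`g` a tree automorphism) commuting with `Y`, with the content
projections, moving the blocks and leaving `Z` invariant on both sides gives the invariance
of `zq` needed by `J_step`.  `zq_inv_rhoG`: the case of the plain word representation.
-/

set_option autoImplicit false
set_option linter.unusedSectionVars false
set_option linter.unusedSimpArgs false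

namespace Crest.Agent.S0222Lib.JCore

open Matrix
open scoped Kronecker ComplexOrder
open Crest.Agent.S0222Lib.Site Crest.Agent.S0222Lib.WordRep Crest.Agent.S0222Lib.Decouple

section Inv

variable {D : ℕ} {Tok Col A : Type*} [Fintype Tok] [DecidableEq Tok] [Fintype Col] [DecidableEq Col]
  [AddCommMonoid A]

/-- The action on partial placements. -/
def actO (g : Equiv.Perm (B D)) (u : Tok → Option (B D)) : Tok → Option (B D) :=
  fun a => (u a).map g

/-- The dressed norm is invariant under unitaries commuting with `Y`. -/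
lemma hs_conj_unitary {n : Type*} [Fintype n] [DecidableEq n] (Y X U V : Matrix n n ℂ)
    (hV : V * Vᴴ = 1) (hUY : Uᴴ * Y⁻¹ * U = Y⁻¹) :
    hs Y (U * X * V) = hs Y X := by
  unfold hs
  congr 1
  rw [Matrix.conjTranspose_mul, Matrix.conjTranspose_mul]
  have e1 : Vᴴ * (Xᴴ * Uᴴ) * Y⁻¹ * (U * X * V) = Vᴴ * (Xᴴ * (Uᴴ * Y⁻¹ * U) * X * V) := by
    simp only [Matrix.mul_assoc]
  rw [e1, hUY, Matrix.trace_mul_comm, Matrix.mul_assoc, hV, Matrix.mul_one]

/-- The data of a symmetry of `(Y, Z, f)`. -/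
structure WordSym (Y Z : Matrix (B D → (Tok ⊕ Col)) (B D → (Tok ⊕ Col)) ℂ) (f : Tok ⊕ Col → A)
    (Ug : Equiv.Perm (B D) → Matrix (B D → (Tok ⊕ Col)) (B D → (Tok ⊕ Col)) ℂ) : Prop where
  star_eq : ∀ g, (Ug g)ᴴ = Ug g⁻¹
  mul_inv : ∀ g, Ug g * Ug g⁻¹ = 1
  comm_inv : ∀ g, Ug g⁻¹ * Y⁻¹ * Ug g = Y⁻¹
  block : ∀ g (v : Tok → Option (B D)), Ug g * PiB v * Ug g⁻¹ = PiB (actO g v)
  cont : ∀ g α, Ug g * dp (fun w => cont f w = α) = dp (fun w => cont f w = α) * Ug g
  inv : ∀ g ∈ autGroup D, ∀ k ∈ autGroup D, Ug g⁻¹ * Z * Ug k = Z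

theorem zq_inv {Y Z : Matrix (B D → (Tok ⊕ Col)) (B D → (Tok ⊕ Col)) ℂ} {f : Tok ⊕ Col → A}
    {Ug : Equiv.Perm (B D) → Matrix (B D → (Tok ⊕ Col)) (B D → (Tok ⊕ Col)) ℂ}
    (h : WordSym Y Z f Ug) (α : A) (g : Equiv.Perm (B D)) (hg : g ∈ autGroup D)
    (k : Equiv.Perm (B D)) (hk : k ∈ autGroup D) (u u' : Tok → Option (B D)) :
    zq Y Z f (actO g u) (actO k u') α = zq Y Z f u u' α := by
  rw [← hs_eq_zq, ← hs_eq_zq, ← h.block g u, ← h.block k u']
  set C := dp (fun w : B D → (Tok ⊕ Col) => JCore.cont f w = α) with hC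
  have e : Ug g * PiB u * Ug g⁻¹ * Z * (Ug k * PiB u' * Ug k⁻¹) * C =
      Ug g * (PiB u * Z * PiB u' * C) * Ug k⁻¹ := by
    have h1 : Ug k⁻¹ * C = C * Ug k⁻¹ := h.cont k⁻¹ α
    calc Ug g * PiB u * Ug g⁻¹ * Z * (Ug k * PiB u' * Ug k⁻¹) * C
        = Ug g * PiB u * (Ug g⁻¹ * Z * Ug k) * PiB u' * (Ug k⁻¹ * C) := by
          simp only [Matrix.mul_assoc]
      _ = Ug g * (PiB u * Z * PiB u' * C) * Ug k⁻¹ := by
          rw [h.inv g hg k hk, h1]
          simp only [Matrix.mul_assoc]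
  rw [e]
  refine hs_conj_unitary Y _ _ _ ?_ ?_
  · rw [h.star_eq]
    simpa using h.mul_inv k⁻¹
  · rw [h.star_eq]
    exact h.comm_inv g

/-! ### The plain word representation -/

lemma inB_comp (g : Equiv.Perm (B D)) (v : Tok → Option (B D)) (w : B D → (Tok ⊕ Col)) :
    inB v (w ∘ g) ↔ inB (actO g v) w := by
  constructor
  · intro h a p
    have := h a (g⁻¹ p)
    simp only [Function.comp] at this
    have e0 : g (g⁻¹ p) = p := by simp
    rw [e0] at this
    rw [this]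
    unfold actO
    cases hv : v a with
    | none => simp
    | some x =>
      simp only [Option.map_some, Option.some.injEq]
      constructor
      · intro e; rw [e]; simp
      · intro e; rw [← e]; simp
  · intro h a p
    have := h a (g p)
    simp only [Function.comp]
    rw [this]
    unfold actO
    cases hv : v a with
    | none => simp
    | some x =>
      simp only [Option.map_some, Option.some.injEq]
      constructor
      · intro e; exact g.injective e
      · intro e; rw [e]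

lemma cont_comp (f : Tok ⊕ Col → A) (g : Equiv.Perm (B D)) (w : B D → (Tok ⊕ Col)) :
    cont f (w ∘ g) = cont f w := by
  unfold cont
  exact Equiv.sum_comp g (fun p => f (w p))

lemma rhoG_mul_dp (g : Equiv.Perm (B D)) (Q : (B D → (Tok ⊕ Col)) → Prop) :
    rhoG (Tok ⊕ Col) g * dp Q = dp (fun w => Q (w ∘ g)) * rhoG (Tok ⊕ Col) g := by
  classical
  ext w w'
  rw [mul_dp_apply, dp_mul_apply, rhoG_apply]
  by_cases h : w' = w ∘ g
  · subst h
    simp
  · simp [h]

lemma wordSym_rhoG {I : Type*} [Fintype I] (w : I → ℝ) (a : I → Matrix (Tok ⊕ Col) (Tok ⊕ Col) ℂ)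
    (hY : (mixY (B D) w a).PosDef) (Z : Matrix (B D → (Tok ⊕ Col)) (B D → (Tok ⊕ Col)) ℂ)
    (hZ : ∀ g ∈ autGroup D, ∀ k ∈ autGroup D, rhoG (Tok ⊕ Col) g * Z * rhoG (Tok ⊕ Col) k = Z)
    (f : Tok ⊕ Col → A) :
    WordSym (mixY (B D) w a) Z f (rhoG (Tok ⊕ Col)) where
  star_eq g := rhoG_conjTranspose g
  mul_inv g := rhoG_mul_inv g
  comm_inv g := by
    have hu : IsUnit (mixY (B D) w a).det := (Matrix.isUnit_iff_isUnit_det _).mp hY.isUnit
    have hc : rhoG (Tok ⊕ Col) g⁻¹ * mixY (B D) w a = mixY (B D) w a * rhoG (Tok ⊕ Col) g⁻¹ := by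
      unfold mixY
      rw [Finset.mul_sum, Finset.sum_mul]
      refine Finset.sum_congr rfl (fun i _ => ?_)
      rw [Matrix.mul_smul, Matrix.smul_mul, rhoG_mul_tp_const]
    rw [comm_inv_of_comm _ _ hu hc, Matrix.mul_assoc, rhoG_inv_mul, Matrix.mul_one]
  block g v := by
    unfold PiB
    rw [rhoG_mul_dp, Matrix.mul_assoc, rhoG_mul_inv, Matrix.mul_one]
    exact dp_congr (fun x => inB_comp g v x)
  cont g α := by
    rw [rhoG_mul_dp]
    congr 1
    exact dp_congr (fun x => by rw [cont_comp])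
  inv g hg k hk := hZ g⁻¹ ((autGroup D).inv_mem hg) k hk

lemma presTok_of_comp {Z : Matrix (B D → (Tok ⊕ Col)) (B D → (Tok ⊕ Col)) ℂ}
    (h : ∀ v v', Z v v' ≠ 0 → ∃ g : Equiv.Perm (B D), v' = v ∘ g) : PresTok Z := by
  intro v v' h0 a
  obtain ⟨g, rfl⟩ := h v v' h0
  constructor
  · rintro ⟨p, hp⟩
    exact ⟨g⁻¹ p, by simpa using hp⟩
  · rintro ⟨p, hp⟩
    exact ⟨g p, hp⟩

end Inv

end Crest.Agent.S0222Lib.JCore
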