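import Crest.Agent.S0222Lib.JMix

/-!
# S0222: Theorem J, the universal mixture on a fine grid

As `JMix`, with rows `γ_a` in a fine grid `Comp T L`, `L = 4 N²`, and uniform weights. The mode
bound of `JMix.mix_lower` is replaced by the discrete Dirichlet integral:
`∑_{g ∈ Comp T L} ∏_b C(g_b, n_b) = C(L+T-1, α+T-1)`, `α = ∑ n_b`.

* `mix_lower3`: if `f` on words `Fin i → Fin T` is invariant under the stabiliser of a word `w₀`,
  `(3/4) ‖f‖² e^{-E/2} / (√2 N C(i+T-1,T-1) D) ≤ Re ⟨f, Σ_κ wt3 κ (√(xx3 κ))^{⊗ i} f⟩`.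
-/

set_option autoImplicit false
set_option linter.unusedSectionVars false
set_option linter.unusedSimpArgs false
set_option linter.unnecessarySimpa false
set_option linter.unusedVariables false

namespace Crest.Agent.S0222Lib.JMix3

open Matrix Finset
open scoped ComplexOrder MatrixOrder Nat
open Crest.Agent.S0222Lib.Site Crest.Agent.S0222Lib.JMix

section Dirichlet

/-- Chu's identity -/
lemma chu (a : ℕ) : ∀ m b : ℕ,
    ∑ j ∈ range (m + 1), j.choose a * (m - j).choose b = (m + 1).choose (a + b + 1) := by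
  intro m
  induction m with
  | zero =>
    intro b
    rcases a with _ | a
    · rcases b with _ | b
      · simp
      · simp only [zero_add, range_one, sum_singleton, Nat.zero_sub]
        rw [Nat.choose_zero_succ, mul_zero, Nat.choose_eq_zero_of_lt (by omega)]
    · simp only [zero_add, range_one, sum_singleton, Nat.zero_sub]
      rw [Nat.choose_zero_succ, zero_mul, Nat.choose_eq_zero_of_lt (by omega)]
  | succ m ih =>
    intro b
    rw [Finset.sum_range_succ]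
    rcases b with _ | b
    · have h1 := ih 0
      simp only [Nat.choose_zero_right, mul_one, add_zero] at h1 ⊢
      rw [h1, Nat.choose_succ_succ (m + 1) (a)]
      simp only [Nat.succ_eq_add_one]
      ring
    · have h2 : ∀ j ∈ range (m + 1), j.choose a * (m + 1 - j).choose (b + 1) =
          j.choose a * (m - j).choose (b + 1) + j.choose a * (m - j).choose b := by
        intro j hj
        have hj' : j ≤ m := Nat.lt_succ_iff.1 (mem_range.1 hj)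
        have e : m + 1 - j = (m - j) + 1 := by omega
        rw [e, Nat.choose_succ_succ]
        ring
      rw [Finset.sum_congr rfl h2, Finset.sum_add_distrib, ih (b + 1), ih b]
      have e : m + 1 - (m + 1) = 0 := by omega
      rw [e]
      have e2 : Nat.choose 0 (b + 1) = 0 := by simp
      rw [e2, mul_zero, add_zero]
      have e3 : a + (b + 1) + 1 = (a + b + 1) + 1 := by ring
      rw [e3, Nat.choose_succ_succ (m + 1) (a + b + 1)]
      ring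

/-- the composition obtained by prepending -/
def consComp {T L : ℕ} (u : ℕ) (hu : u ≤ L) (g : Comp T (L - u)) : Comp (T + 1) L :=
  ⟨Fin.cons u g.1, by
    rw [Fin.sum_univ_succ]
    simp only [Fin.cons_zero, Fin.cons_succ]
    rw [g.2]
    omega⟩

/-- split a sum over compositions by the first part -/
lemma sum_comp_succ {R : Type*} [AddCommMonoid R] (T L : ℕ) (h : (Fin (T + 1) → ℕ) → R) :
    ∑ g : Comp (T + 1) L, h g.1 =
      ∑ u ∈ (range (L + 1)).attach, ∑ g' : Comp T (L - u.1), h (Fin.cons u.1 g'.1) := by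
  classical
  rw [Finset.sum_sigma']
  refine Finset.sum_bij' (fun g _ => ⟨⟨g.1 0, mem_range.2 (by
        have h1 : g.1 0 ≤ ∑ b, g.1 b := Finset.single_le_sum (f := g.1) (fun _ _ => Nat.zero_le _) (mem_univ _)
        rw [g.2] at h1
        omega)⟩, ⟨Fin.tail g.1, by
        have h1 := g.2
        rw [Fin.sum_univ_succ] at h1
        have h2 : ∑ i : Fin T, Fin.tail g.1 i = ∑ i : Fin T, g.1 i.succ := rfl
        rw [h2]
        simp only
        omega⟩⟩)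
    (fun x _ => consComp x.1.1 (Nat.lt_succ_iff.1 (mem_range.1 x.1.2)) x.2) ?_ ?_ ?_ ?_ ?_
  · intro g _
    simp
  · intro x _
    simp
  · intro g _
    apply Subtype.ext
    simp [consComp]
  · rintro ⟨⟨u, hu⟩, g'⟩ _
    simp only [consComp]
    apply Sigma.ext
    · simp
    · simp only
      apply HEq.symm
      have e2 : (Fin.tail (Fin.cons u g'.1 : Fin (T + 1) → ℕ)) = g'.1 := by simp
      congr 1
  · intro g _
    simp only
    congr 1
    funext b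
    refine Fin.cases ?_ (fun b => ?_) b
    · simp
    · simp [Fin.tail]

/-- the Chu identity in the form of the induction -/
lemma chu' (a b T L : ℕ) (hb : T ≤ b) :
    ∑ u ∈ (range (L + 1)).attach, u.1.choose a * (L - u.1 + T).choose b =
      (L + T + 1).choose (a + b + 1) := by
  rw [Finset.sum_attach (range (L + 1)) (fun u => u.choose a * (L - u + T).choose b), ← chu a (L + T) b]
  have hsub : range (L + 1) ⊆ range (L + T + 1) := by
    intro j hj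
    have := mem_range.1 hj
    exact mem_range.2 (by omega)
  rw [← Finset.sum_subset hsub]
  · refine Finset.sum_congr rfl fun u hu => ?_
    have := mem_range.1 hu
    have e : L - u + T = L + T - u := by omega
    rw [e]
  · intro j hj hj'
    have h1 := mem_range.1 hj
    have h2 : ¬ j < L + 1 := fun h => hj' (mem_range.2 h)
    rw [Nat.choose_eq_zero_of_lt (by omega : L + T - j < b), mul_zero]

/-- **The discrete Dirichlet identity** -/
theorem sum_comp_choose : ∀ (T L : ℕ) (n : Fin (T + 1) → ℕ),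
    ∑ g : Comp (T + 1) L, ∏ b, (g.1 b).choose (n b) = (L + T).choose (∑ b, n b + T) := by
  intro T
  induction T with
  | zero =>
    intro L n
    have h : (Finset.univ : Finset (Comp 1 L)) = {⟨fun _ => L, by simp⟩} := by
      ext g
      simp only [mem_univ, mem_singleton, true_iff]
      apply Subtype.ext
      funext b
      have h1 := g.2
      simp only [Fin.sum_univ_one] at h1
      have e : b = 0 := Subsingleton.elim _ _
      rw [e, h1]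
    rw [h, Finset.sum_singleton]
    simp
  | succ T ih =>
    intro L n
    rw [sum_comp_succ (T + 1) L (fun g => ∏ b, (g b).choose (n b))]
    have h1 : ∀ u ∈ (range (L + 1)).attach, ∑ g' : Comp (T + 1) (L - u.1),
        ∏ b, ((Fin.cons u.1 g'.1 : Fin (T + 1 + 1) → ℕ) b).choose (n b) =
        u.1.choose (n 0) * (L - u.1 + T).choose (∑ b : Fin (T + 1), n b.succ + T) := by
      intro u _
      rw [← ih (L - u.1) (fun b => n b.succ), Finset.mul_sum]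
      refine Finset.sum_congr rfl fun g' _ => ?_
      rw [Fin.prod_univ_succ]
      simp
    rw [Finset.sum_congr rfl h1, chu' _ _ T L (by omega)]
    have e : ∑ b, n b = n 0 + ∑ b : Fin (T + 1), n b.succ := Fin.sum_univ_succ n
    rw [e]
    congr 1
    ring

/-- the real form -/
theorem dirichlet {T : ℕ} (hT : 1 ≤ T) (L : ℕ) (n : Fin T → ℕ) :
    (∏ b, ((n b)! : ℝ)) * ((L + T - 1).choose (∑ b, n b + T - 1) : ℝ) ≤
      ∑ g : Comp T L, ∏ b, ((g.1 b : ℝ)) ^ n b := by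
  obtain ⟨T', rfl⟩ : ∃ T', T = T' + 1 := ⟨T - 1, by omega⟩
  have e1 : L + (T' + 1) - 1 = L + T' := by omega
  have e2 : ∑ b, n b + (T' + 1) - 1 = ∑ b, n b + T' := by omega
  rw [e1, e2, ← sum_comp_choose T' L n]
  push_cast
  rw [Finset.mul_sum]
  refine Finset.sum_le_sum fun g _ => ?_
  rw [← Finset.prod_mul_distrib]
  refine Finset.prod_le_prod (fun b _ => by positivity) fun b _ => ?_
  have h := Nat.descFactorial_le_pow (g.1 b) (n b)
  rw [Nat.descFactorial_eq_factorial_mul_choose] at h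
  exact_mod_cast h

end Dirichlet

section Family

open ComplexConjugate

variable {T N i : ℕ}

/-- the fineness of the grid -/
def LL (N : ℕ) : ℕ := 4 * N ^ 2

lemma LL_pos (hN : 1 ≤ N) : 0 < LL N := by
  unfold LL
  positivity

/-- the grid of rows -/
abbrev Grid (T N : ℕ) : Type := Rows (fun _ : Fin T => LL N)

/-- the index of the mixture -/
abbrev Idx3 (T N : ℕ) : Type :=
  Σ i' : Fin N, Σ _α : Comp T (i'.1 + 1), Σ _γ : Grid T N, (Fin T × Fin T → Fin (N + 1))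

/-- the weights -/
noncomputable def wt3 (κ : Idx3 T N) : ℝ :=
  (N : ℝ)⁻¹ * ((Fintype.card (Comp T (κ.1.1 + 1)) : ℝ)⁻¹ * ((Fintype.card (Grid T N) : ℝ)⁻¹ *
    (Fintype.card (Fin T × Fin T → Fin (N + 1)) : ℝ)⁻¹))

lemma wt3_pos (κ : Idx3 T N) : 0 < wt3 κ := by
  have h1 : 0 < N := lt_of_le_of_lt (Nat.zero_le _) κ.1.2
  have h2 : 0 < Fintype.card (Comp T (κ.1.1 + 1)) := Fintype.card_pos_iff.2 ⟨κ.2.1⟩
  have h3 : 0 < Fintype.card (Grid T N) := Fintype.card_pos_iff.2 ⟨κ.2.2.1⟩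
  have h4 : 0 < Fintype.card (Fin T × Fin T → Fin (N + 1)) := Fintype.card_pos_iff.2 ⟨κ.2.2.2⟩
  unfold wt3
  have h1' : (0 : ℝ) < N := by exact_mod_cast h1
  have h2' : (0 : ℝ) < Fintype.card (Comp T (κ.1.1 + 1)) := by exact_mod_cast h2
  have h3' : (0 : ℝ) < Fintype.card (Grid T N) := by exact_mod_cast h3
  have h4' : (0 : ℝ) < Fintype.card (Fin T × Fin T → Fin (N + 1)) := by exact_mod_cast h4
  positivity

lemma sum_wt3 (hT : 1 ≤ T) (hN : 1 ≤ N) : ∑ κ : Idx3 T N, wt3 κ = 1 := by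
  have : Nonempty (Fin N) := ⟨⟨0, hN⟩⟩
  have : ∀ n, Nonempty (Comp T n) := comp_nonempty hT
  have hG : Nonempty (Grid T N) := ⟨fun a => Classical.arbitrary _⟩
  unfold wt3
  simp only [Fintype.sum_sigma]
  have hθ := sum_const_inv (Fin T × Fin T → Fin (N + 1))
  have step3 : ∀ (i' : Fin N) (_α : Comp T (i'.1 + 1)),
      ∑ _γ : Grid T N, ∑ _θ : (Fin T × Fin T → Fin (N + 1)),
        ((N : ℝ)⁻¹ * ((Fintype.card (Comp T (i'.1 + 1)) : ℝ)⁻¹ * ((Fintype.card (Grid T N) : ℝ)⁻¹ *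
          (Fintype.card (Fin T × Fin T → Fin (N + 1)) : ℝ)⁻¹))) =
      (N : ℝ)⁻¹ * (Fintype.card (Comp T (i'.1 + 1)) : ℝ)⁻¹ := by
    intro i' α
    have h1 : ∀ _γ : Grid T N, ∑ _θ : (Fin T × Fin T → Fin (N + 1)),
        ((N : ℝ)⁻¹ * ((Fintype.card (Comp T (i'.1 + 1)) : ℝ)⁻¹ * ((Fintype.card (Grid T N) : ℝ)⁻¹ *
          (Fintype.card (Fin T × Fin T → Fin (N + 1)) : ℝ)⁻¹))) =
        (N : ℝ)⁻¹ * ((Fintype.card (Comp T (i'.1 + 1)) : ℝ)⁻¹ * (Fintype.card (Grid T N) : ℝ)⁻¹) := by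
      intro γ
      rw [← Finset.mul_sum, ← Finset.mul_sum, ← Finset.mul_sum, hθ, mul_one]
    rw [Finset.sum_congr rfl (fun γ _ => h1 γ), ← Finset.mul_sum, ← Finset.mul_sum,
      sum_const_inv, mul_one]
  have step2 : ∀ i' : Fin N, ∑ _α : Comp T (i'.1 + 1),
      ((N : ℝ)⁻¹ * (Fintype.card (Comp T (i'.1 + 1)) : ℝ)⁻¹) = (N : ℝ)⁻¹ := by
    intro i'
    rw [← Finset.mul_sum, sum_const_inv, mul_one]
  have := sum_const_inv (Fin N)
  calc _ = ∑ i' : Fin N, ∑ _α : Comp T (i'.1 + 1),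
        ((N : ℝ)⁻¹ * (Fintype.card (Comp T (i'.1 + 1)) : ℝ)⁻¹) :=
        Finset.sum_congr rfl fun i' _ => Finset.sum_congr rfl fun α _ => step3 i' α
    _ = ∑ _i' : Fin N, (N : ℝ)⁻¹ := Finset.sum_congr rfl fun i' _ => step2 i'
    _ = 1 := by simpa using this

/-- the density of an index -/
noncomputable def xx3 (κ : Idx3 T N) : Matrix (Fin T) (Fin T) ℂ :=
  xx0 (κ.1.1 + 1) κ.2.1.1 (vv N (fun _ => LL N) κ.2.2.1 κ.2.2.2)

lemma xx3_posDef (hT : 1 ≤ T) (κ : Idx3 T N) : (xx3 κ).PosDef :=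
  xx0_posDef (by omega) hT _ _

lemma trace_xx3 (hT : 1 ≤ T) (κ : Idx3 T N) : (xx3 κ).trace = 1 :=
  trace_xx0 (by omega) hT _ κ.2.1.2 _ (fun a ha => vv_unit N _ _ _ a
    (LL_pos (lt_of_le_of_lt (Nat.zero_le _) κ.1.2)))

/-- the word vector -/
noncomputable def uu3 (N : ℕ) (w₀ : Fin i → Fin T) (γ : Grid T N)
    (θ : Fin T × Fin T → Fin (N + 1)) (c : Fin i → Fin T) : ℂ :=
  ∏ p, vv N (fun _ => LL N) γ θ (w₀ p) (c p)

/-- the real amplitude -/
noncomputable def rr3 (w₀ : Fin i → Fin T) (γ : Grid T N) (c : Fin i → Fin T) : ℝ :=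
  ∏ p, √(((γ (w₀ p)).1 (c p) : ℝ) / LL N)

/-- its square -/
noncomputable def PP3 (w₀ : Fin i → Fin T) (γ : Grid T N) (c : Fin i → Fin T) : ℝ :=
  ∏ p, (((γ (w₀ p)).1 (c p) : ℝ) / LL N)

lemma uu3_eq (w₀ : Fin i → Fin T) (γ : Grid T N)
    (θ : Fin T × Fin T → Fin (N + 1)) (c : Fin i → Fin T) :
    uu3 N w₀ γ θ c = (rr3 w₀ γ c : ℂ) * ZZ N w₀ θ c := by
  unfold uu3 rr3 ZZ vv
  push_cast
  rw [Finset.prod_mul_distrib]

lemma rr3_sq (w₀ : Fin i → Fin T) (γ : Grid T N) (c : Fin i → Fin T) :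
    rr3 w₀ γ c ^ 2 = PP3 w₀ γ c := by
  unfold rr3 PP3
  rw [← Finset.prod_pow]
  apply Finset.prod_congr rfl
  intro p _
  rw [Real.sq_sqrt (by positivity)]

lemma rr3_congr (w₀ : Fin i → Fin T) (γ : Grid T N) {c c' : Fin i → Fin T}
    (h : cnt w₀ c = cnt w₀ c') : rr3 w₀ γ c = rr3 w₀ γ c' := by
  obtain ⟨g, hg, rfl⟩ := exists_perm_of_cnt h
  unfold rr3
  rw [← Equiv.prod_comp g]
  apply Finset.prod_congr rfl
  intro p _
  have hp : w₀ (g p) = w₀ p := congrFun hg p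
  have h2 : (γ (w₀ (g p)) : Comp T (LL N)) = γ (w₀ p) := congrArg (fun a => (γ a : Comp T (LL N))) hp
  simp only [Function.comp_apply, h2]

/-- phase average of the overlap -/
lemma phase_uu3 (hN : i ≤ N) (w₀ : Fin i → Fin T) (γ : Grid T N)
    (f : (Fin i → Fin T) → ℂ)
    (hf : ∀ g : Equiv.Perm (Fin i), w₀ ∘ g = w₀ → ∀ c, f (c ∘ g) = f c) :
    ∑ θ : Fin T × Fin T → Fin (N + 1), ‖star (uu3 N w₀ γ θ) ⬝ᵥ f‖ ^ 2 =
      (Fintype.card (Fin T × Fin T → Fin (N + 1)) : ℝ) *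
        ∑ c, (fib w₀ c : ℝ) * (PP3 w₀ γ c * ‖f c‖ ^ 2) := by
  have hfc : ∀ c c', cnt w₀ c = cnt w₀ c' → f c = f c' := by
    intro c c' h
    obtain ⟨g, hg, rfl⟩ := exists_perm_of_cnt h
    exact (hf g hg c).symm
  have h := phase_avg (N := N) (by simpa using hN) w₀
    (fun c => (rr3 w₀ γ c : ℂ) * f c)
    (fun c c' h => by rw [rr3_congr w₀ γ h, hfc c c' h])
  have e : ∀ θ : Fin T × Fin T → Fin (N + 1), star (uu3 N w₀ γ θ) ⬝ᵥ f =
      ∑ c, conj (ZZ N w₀ θ c) * ((rr3 w₀ γ c : ℂ) * f c) := by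
    intro θ
    simp only [dotProduct, Pi.star_apply, uu3_eq, star_mul', Complex.star_def, Complex.conj_ofReal]
    apply Finset.sum_congr rfl
    intro c _
    ring
  simp only [e]
  rw [h]
  congr 1
  apply Finset.sum_congr rfl
  intro c _
  rw [norm_mul, mul_pow, Complex.norm_real, Real.norm_eq_abs, sq_abs, rr3_sq]

lemma PP3_eq (w₀ : Fin i → Fin T) (γ : Grid T N) (c : Fin i → Fin T) :
    PP3 w₀ γ c = ∏ a, ∏ b, (((γ a).1 b : ℝ) / LL N) ^ cnt w₀ c (a, b) := by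
  rw [← Fintype.prod_prod_type']
  exact prod_pw w₀ c (fun q => ((γ q.1).1 q.2 : ℝ) / LL N)

lemma sum_PP3 (w₀ : Fin i → Fin T) (c : Fin i → Fin T) :
    ∑ γ : Grid T N, PP3 w₀ γ c =
      ∏ a, ∑ g : Comp T (LL N), ∏ b, ((g.1 b : ℝ) / LL N) ^ cnt w₀ c (a, b) := by
  rw [Finset.prod_univ_sum, Fintype.piFinset_univ]
  refine Finset.sum_congr rfl fun γ _ => ?_
  rw [PP3_eq]

/-- one row -/
lemma factor_lower (hT : 1 ≤ T) {L : ℕ} (hL : 0 < L) (n : Fin T → ℕ) {α : ℕ} (hα : ∑ b, n b = α)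
    (hαL : α ≤ L) :
    (∏ b, ((n b)! : ℝ)) * (L.choose α : ℝ) / (((α + T - 1).choose (T - 1) : ℝ) * (L : ℝ) ^ α) ≤
      (Fintype.card (Comp T L) : ℝ)⁻¹ * ∑ g : Comp T L, ∏ b, ((g.1 b : ℝ) / L) ^ n b := by
  have hL' : (0 : ℝ) < L := by exact_mod_cast hL
  have h1 := dirichlet hT L n
  rw [hα] at h1
  have e1 : ∀ g : Comp T L, ∏ b, ((g.1 b : ℝ) / L) ^ n b = (∏ b, (g.1 b : ℝ) ^ n b) / (L : ℝ) ^ α := by
    intro g
    simp only [div_pow]
    rw [Finset.prod_div_distrib, Finset.prod_pow_eq_pow_sum, hα]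
  simp only [e1]
  rw [← Finset.sum_div, card_comp' hT]
  set A : ℝ := ∑ g : Comp T L, ∏ b, (g.1 b : ℝ) ^ n b with hA
  have hch : ((L + T - 1).choose (α + T - 1) : ℝ) * ((α + T - 1).choose (T - 1) : ℝ) =
      ((L + T - 1).choose (T - 1) : ℝ) * (L.choose α : ℝ) := by
    have h2 := Nat.choose_mul (n := L + T - 1) (k := α + T - 1) (s := T - 1) (by omega)
    have e2 : L + T - 1 - (T - 1) = L := by omega
    have e3 : α + T - 1 - (T - 1) = α := by omega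
    rw [e2, e3] at h2
    exact_mod_cast h2
  have hC1 : (0 : ℝ) < ((α + T - 1).choose (T - 1) : ℝ) := by
    exact_mod_cast Nat.choose_pos (by omega)
  have hC2 : (0 : ℝ) < ((L + T - 1).choose (T - 1) : ℝ) := by
    exact_mod_cast Nat.choose_pos (by omega)
  have hP : (0 : ℝ) < (L : ℝ) ^ α := by positivity
  rw [div_le_iff₀ (by positivity)]
  have hkey : (∏ b, ((n b)! : ℝ)) * (L.choose α : ℝ) * ((L + T - 1).choose (T - 1) : ℝ) ≤
      A * ((α + T - 1).choose (T - 1) : ℝ) := by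
    calc (∏ b, ((n b)! : ℝ)) * (L.choose α : ℝ) * ((L + T - 1).choose (T - 1) : ℝ)
        = (∏ b, ((n b)! : ℝ)) * (((L + T - 1).choose (T - 1) : ℝ) * (L.choose α : ℝ)) := by ring
      _ = ((∏ b, ((n b)! : ℝ)) * ((L + T - 1).choose (α + T - 1) : ℝ)) *
            ((α + T - 1).choose (T - 1) : ℝ) := by rw [← hch]; ring
      _ ≤ _ := mul_le_mul_of_nonneg_right h1 hC1.le
  have e4 : (((L + T - 1).choose (T - 1) : ℕ) : ℝ)⁻¹ * (A / (L : ℝ) ^ α) *
      (((α + T - 1).choose (T - 1) : ℝ) * (L : ℝ) ^ α) =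
      A * ((α + T - 1).choose (T - 1) : ℝ) / ((L + T - 1).choose (T - 1) : ℝ) := by
    field_simp
  rw [e4, le_div_iff₀ hC2]
  exact hkey

/-- the falling factorial over the power -/
lemma ratio_lower {L α I : ℕ} (hα : α ≤ I) (hIL : I ≤ L) (hL : 0 < L) :
    (1 - (I : ℝ) / L) ^ α ≤ ((α ! : ℝ) * (L.choose α : ℝ)) / (L : ℝ) ^ α := by
  have hL' : (0 : ℝ) < L := by exact_mod_cast hL
  rw [le_div_iff₀ (by positivity), ← mul_pow]
  have e : (1 - (I : ℝ) / L) * L = (L : ℝ) - I := by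
    field_simp
  rw [e]
  have h1 := Nat.pow_sub_le_descFactorial L α
  rw [Nat.descFactorial_eq_factorial_mul_choose] at h1
  have h2 : ((L + 1 - α) ^ α : ℕ) ≤ α ! * L.choose α := h1
  have h3 : (((L + 1 - α : ℕ) : ℝ)) ^ α ≤ (α ! : ℝ) * (L.choose α : ℝ) := by exact_mod_cast h2
  refine le_trans ?_ h3
  apply pow_le_pow_left₀
  · have : (I : ℝ) ≤ L := by exact_mod_cast hIL
    linarith
  · have h4 : L - I ≤ L + 1 - α := by omega
    have h5 : ((L - I : ℕ) : ℝ) ≤ ((L + 1 - α : ℕ) : ℝ) := by exact_mod_cast h4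
    rw [Nat.cast_sub hIL] at h5
    exact h5

/-- summing over the grid: the discrete Dirichlet integral -/
theorem sum_grid_ge (hT : 1 ≤ T) (hi : 1 ≤ i) (hiN : i ≤ N) (w₀ : Fin i → Fin T) (c : Fin i → Fin T) :
    (3 / 4) / ((DD (cont w₀).1 : ℕ) : ℝ) ≤
      (fib w₀ c : ℝ) * ((Fintype.card (Grid T N) : ℝ)⁻¹ * ∑ γ : Grid T N, PP3 w₀ γ c) := by
  have hN : 1 ≤ N := hi.trans hiN
  have hLpos := LL_pos hN
  set L := LL N with hL
  have hL' : (0 : ℝ) < L := by exact_mod_cast hLpos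
  have hiL : i ≤ L := by
    rw [hL]
    unfold LL
    nlinarith
  have hα : ∀ a, (cont w₀).1 a ≤ i := by
    intro a
    have h1 : (cont w₀).1 a ≤ ∑ b, (cont w₀).1 b :=
      Finset.single_le_sum (f := (cont w₀).1) (fun _ _ => Nat.zero_le _) (mem_univ _)
    rwa [(cont w₀).2] at h1
  -- the row factors
  have hrow : ∀ a, (∏ b, ((cnt w₀ c (a, b))! : ℝ)) * (L.choose ((cont w₀).1 a) : ℝ) /
      ((((cont w₀).1 a + T - 1).choose (T - 1) : ℝ) * (L : ℝ) ^ ((cont w₀).1 a)) ≤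
      (Fintype.card (Comp T L) : ℝ)⁻¹ *
        ∑ g : Comp T L, ∏ b, ((g.1 b : ℝ) / L) ^ cnt w₀ c (a, b) := fun a =>
    factor_lower hT hLpos (fun b => cnt w₀ c (a, b)) (sum_cnt_row w₀ c a)
      ((hα a).trans hiL)
  have hcard : (Fintype.card (Grid T N) : ℝ)⁻¹ =
      ∏ _a : Fin T, (Fintype.card (Comp T L) : ℝ)⁻¹ := by
    rw [Fintype.card_pi]
    push_cast
    rw [Finset.prod_inv_distrib]
  rw [hcard, sum_PP3, ← Finset.prod_mul_distrib]
  have hprod := Finset.prod_le_prod (s := (univ : Finset (Fin T)))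
    (fun a _ => by positivity) (fun a _ => hrow a)
  have hfib0 : (0 : ℝ) ≤ fib w₀ c := by positivity
  refine le_trans ?_ (mul_le_mul_of_nonneg_left hprod hfib0)
  -- the fibre count
  have hfib : (fib w₀ c : ℝ) * ∏ a, ∏ b, ((cnt w₀ c (a, b))! : ℝ) = ∏ a, (((cont w₀).1 a)! : ℝ) := by
    have h1 := card_fib_mul w₀ c
    rw [Fintype.prod_prod_type] at h1
    exact_mod_cast h1
  have hD : ((DD (cont w₀).1 : ℕ) : ℝ) = ∏ a, (((cont w₀).1 a + T - 1).choose (T - 1) : ℝ) := by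
    unfold DD
    push_cast
    rfl
  have hsplit : ∏ a, ((∏ b, ((cnt w₀ c (a, b))! : ℝ)) * (L.choose ((cont w₀).1 a) : ℝ) /
      ((((cont w₀).1 a + T - 1).choose (T - 1) : ℝ) * (L : ℝ) ^ ((cont w₀).1 a))) =
      (∏ a, ∏ b, ((cnt w₀ c (a, b))! : ℝ)) *
        ((∏ a, ((L.choose ((cont w₀).1 a) : ℝ) / (L : ℝ) ^ ((cont w₀).1 a))) /
          ((DD (cont w₀).1 : ℕ) : ℝ)) := by
    rw [hD, ← Finset.prod_div_distrib, ← Finset.prod_mul_distrib]
    refine Finset.prod_congr rfl fun a _ => ?_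
    have : (0 : ℝ) < (((cont w₀).1 a + T - 1).choose (T - 1) : ℝ) := by
      exact_mod_cast Nat.choose_pos (by omega)
    field_simp
  rw [hsplit, ← mul_assoc, hfib, ← mul_div_assoc, ← Finset.prod_mul_distrib]
  have hDD : (0 : ℝ) < ((DD (cont w₀).1 : ℕ) : ℝ) := by
    rw [hD]
    exact Finset.prod_pos fun a _ => by exact_mod_cast Nat.choose_pos (by omega)
  apply div_le_div_of_nonneg_right _ hDD.le
  -- the product of ratios
  have hratio : ∀ a, (1 - (i : ℝ) / L) ^ (cont w₀).1 a ≤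
      (((cont w₀).1 a)! : ℝ) * ((L.choose ((cont w₀).1 a) : ℝ) / (L : ℝ) ^ ((cont w₀).1 a)) := by
    intro a
    rw [← mul_div_assoc]
    exact ratio_lower (hα a) hiL hLpos
  have hbase : 0 ≤ 1 - (i : ℝ) / L := by
    have : (i : ℝ) / L ≤ 1 := by
      rw [div_le_one hL']
      exact_mod_cast hiL
    linarith
  have hprod2 := Finset.prod_le_prod (s := (univ : Finset (Fin T)))
    (fun a _ => by positivity) (fun a _ => hratio a)
  refine le_trans ?_ hprod2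
  rw [Finset.prod_pow_eq_pow_sum, (cont w₀).2]
  -- Bernoulli
  have hB := one_add_mul_le_pow (a := -((i : ℝ) / L)) (by
    have : (i : ℝ) / L ≤ 1 := by
      rw [div_le_one hL']
      exact_mod_cast hiL
    linarith) i
  have e : (1 + -((i : ℝ) / L)) = 1 - (i : ℝ) / L := by ring
  rw [e] at hB
  refine le_trans ?_ hB
  have hi2 : (4 : ℝ) * (i : ℝ) ^ 2 ≤ L := by
    rw [hL]
    unfold LL
    push_cast
    have : (i : ℝ) ≤ N := by exact_mod_cast hiN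
    have h0 : (0 : ℝ) ≤ i := by positivity
    nlinarith
  have h5 : (i : ℝ) * ((i : ℝ) / L) ≤ 1 / 4 := by
    rw [← mul_div_assoc, div_le_iff₀ hL']
    nlinarith
  have e6 : (1 : ℝ) + (i : ℝ) * -((i : ℝ) / L) = 1 - (i : ℝ) * ((i : ℝ) / L) := by ring
  rw [e6]
  linarith

/-- **The mixture lower bound.** -/
theorem mix_lower3 {i : ℕ} (hi : 1 ≤ i) (hiN : i ≤ N) (w₀ : Fin i → Fin T)
    (f : (Fin i → Fin T) → ℂ)
    (hf : ∀ g : Equiv.Perm (Fin i), w₀ ∘ g = w₀ → ∀ c, f (c ∘ g) = f c) :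
    (3 / 4) * (∑ c, ‖f c‖ ^ 2) * Real.exp (-(EE i (cont w₀).1 / 2)) /
        (√2 * N * ((i + T - 1).choose (T - 1) : ℕ) * ((DD (cont w₀).1 : ℕ) : ℝ)) ≤
      (star f ⬝ᵥ ((∑ κ : Idx3 T N, ((wt3 κ : ℝ) : ℂ) •
        tp (fun _ : Fin i => CFC.sqrt (xx3 κ))) *ᵥ f)).re := by
  have hT : 1 ≤ T := by
    have := (w₀ ⟨0, hi⟩).2
    omega
  obtain ⟨j, rfl⟩ : ∃ j, i = j + 1 := ⟨i - 1, by omega⟩
  have hj : j < N := by omega
  have hN1 : 1 ≤ N := by omega
  have hN0 : (0 : ℝ) < N := by exact_mod_cast (by omega : 0 < N)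
  set q : Idx3 T N → ℝ := fun κ =>
    (star f ⬝ᵥ (tp (fun _ : Fin (j + 1) => CFC.sqrt (xx3 κ)) *ᵥ f)).re with hq
  have hq0 : ∀ κ, 0 ≤ q κ := by
    intro κ
    exact (Complex.le_def.mp ((tp_posDef (X := Fin (j + 1))
      (sqrt_posDef' (xx3_posDef hT κ))).posSemidef.dotProduct_mulVec_nonneg f)).1
  have hR : (star f ⬝ᵥ ((∑ κ : Idx3 T N, ((wt3 κ : ℝ) : ℂ) •
        tp (fun _ : Fin (j + 1) => CFC.sqrt (xx3 κ))) *ᵥ f)).re = ∑ κ, wt3 κ * q κ := by
    rw [Matrix.sum_mulVec, dotProduct_sum, Complex.re_sum]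
    apply Finset.sum_congr rfl
    intro κ _
    rw [Matrix.smul_mulVec, dotProduct_smul, smul_eq_mul, Complex.re_ofReal_mul]
  rw [hR]
  -- the slice
  set i₀ : Fin N := ⟨j, hj⟩ with hi₀
  set α₀ : Comp T (i₀.1 + 1) := cont w₀ with hα₀
  set Cc : ℝ := (Fintype.card (Comp T (i₀.1 + 1)) : ℝ) with hCc
  set D : ℝ := (Fintype.card (Grid T N) : ℝ) with hD
  set Cθ : ℝ := (Fintype.card (Fin T × Fin T → Fin (N + 1)) : ℝ) with hCθ
  have hCc0 : 0 < Cc := by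
    rw [hCc]
    exact_mod_cast Fintype.card_pos_iff.2 ⟨α₀⟩
  have hG : Nonempty (Grid T N) := ⟨fun a => Classical.choice (comp_nonempty hT _)⟩
  have hD0 : 0 < D := by
    rw [hD]
    exact_mod_cast Fintype.card_pos_iff.2 hG
  have hCθ0 : 0 < Cθ := by
    rw [hCθ]
    exact_mod_cast Fintype.card_pos_iff.2 ⟨fun _ => 0⟩
  set KK : ℝ := √2 * Real.exp (EE (j + 1) (cont w₀).1 / 2) with hKK
  have hKK0 : 0 < KK := by positivity
  have hslice : ∑ γ : Grid T N, ∑ θ : (Fin T × Fin T → Fin (N + 1)),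
      wt3 (⟨i₀, α₀, γ, θ⟩ : Idx3 T N) * q ⟨i₀, α₀, γ, θ⟩ ≤ ∑ κ, wt3 κ * q κ := by
    simp only [Fintype.sum_sigma]
    refine le_trans ?_ (Finset.single_le_sum (f := fun i' : Fin N => ∑ α : Comp T (i'.1 + 1),
      ∑ γ : Grid T N, ∑ θ : (Fin T × Fin T → Fin (N + 1)),
      wt3 (⟨i', α, γ, θ⟩ : Idx3 T N) * q ⟨i', α, γ, θ⟩) ?_ (mem_univ i₀))
    · exact Finset.single_le_sum (f := fun α : Comp T (i₀.1 + 1) =>
        ∑ γ : Grid T N, ∑ θ : (Fin T × Fin T → Fin (N + 1)),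
        wt3 (⟨i₀, α, γ, θ⟩ : Idx3 T N) * q ⟨i₀, α, γ, θ⟩)
        (fun α _ => Finset.sum_nonneg fun γ _ => Finset.sum_nonneg fun θ _ =>
          mul_nonneg (wt3_pos _).le (hq0 _)) (mem_univ α₀)
    · intro i' _
      exact Finset.sum_nonneg fun α _ => Finset.sum_nonneg fun γ _ => Finset.sum_nonneg fun θ _ =>
          mul_nonneg (wt3_pos _).le (hq0 _)
  refine le_trans ?_ hslice
  have hterm : ∀ (γ : Grid T N) (θ : Fin T × Fin T → Fin (N + 1)),
      ((N : ℝ)⁻¹ * (Cc⁻¹ * (D⁻¹ * Cθ⁻¹))) * KK⁻¹ * ‖star (uu3 N w₀ γ θ) ⬝ᵥ f‖ ^ 2 ≤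
        wt3 (⟨i₀, α₀, γ, θ⟩ : Idx3 T N) * q ⟨i₀, α₀, γ, θ⟩ := by
    intro γ θ
    have hb := overlap_le (i := j + 1) (by omega) hT w₀ (vv N (fun _ => LL N) γ θ)
      (fun p => vv_unit N _ _ _ _ (LL_pos hN1)) f
    have hb' : ‖star (uu3 N w₀ γ θ) ⬝ᵥ f‖ ^ 2 ≤ KK * q ⟨i₀, α₀, γ, θ⟩ := hb
    have hW : wt3 (⟨i₀, α₀, γ, θ⟩ : Idx3 T N) = (N : ℝ)⁻¹ * (Cc⁻¹ * (D⁻¹ * Cθ⁻¹)) := rfl
    rw [hW, mul_assoc]
    apply mul_le_mul_of_nonneg_left _ (by positivity)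
    rw [inv_mul_le_iff₀ hKK0]
    exact hb'
  have hsum : ∑ γ : Grid T N, ∑ θ : (Fin T × Fin T → Fin (N + 1)),
      ((N : ℝ)⁻¹ * (Cc⁻¹ * (D⁻¹ * Cθ⁻¹))) * KK⁻¹ * ‖star (uu3 N w₀ γ θ) ⬝ᵥ f‖ ^ 2 ≤
      ∑ γ : Grid T N, ∑ θ : (Fin T × Fin T → Fin (N + 1)),
        wt3 (⟨i₀, α₀, γ, θ⟩ : Idx3 T N) * q ⟨i₀, α₀, γ, θ⟩ :=
    Finset.sum_le_sum fun γ _ => Finset.sum_le_sum fun θ _ => hterm γ θ
  refine le_trans ?_ hsum
  -- evaluate the left side
  have hphase : ∑ γ : Grid T N, ∑ θ : (Fin T × Fin T → Fin (N + 1)),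
      ((N : ℝ)⁻¹ * (Cc⁻¹ * (D⁻¹ * Cθ⁻¹))) * KK⁻¹ * ‖star (uu3 N w₀ γ θ) ⬝ᵥ f‖ ^ 2 =
      ((N : ℝ)⁻¹ * Cc⁻¹ * KK⁻¹) *
        ∑ c, ‖f c‖ ^ 2 * ((fib w₀ c : ℝ) * (D⁻¹ * ∑ γ : Grid T N, PP3 w₀ γ c)) := by
    have h1 : ∀ γ : Grid T N, ∑ θ : (Fin T × Fin T → Fin (N + 1)),
        ((N : ℝ)⁻¹ * (Cc⁻¹ * (D⁻¹ * Cθ⁻¹))) * KK⁻¹ * ‖star (uu3 N w₀ γ θ) ⬝ᵥ f‖ ^ 2 =
        ((N : ℝ)⁻¹ * (Cc⁻¹ * (D⁻¹ * Cθ⁻¹))) * KK⁻¹ * Cθ *
          ∑ c, (fib w₀ c : ℝ) * (PP3 w₀ γ c * ‖f c‖ ^ 2) := by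
      intro γ
      rw [← Finset.mul_sum, phase_uu3 (by omega) w₀ γ f hf]
      ring
    rw [Finset.sum_congr rfl (fun γ _ => h1 γ), ← Finset.mul_sum, Finset.sum_comm, Finset.mul_sum,
      Finset.mul_sum]
    refine Finset.sum_congr rfl fun c _ => ?_
    have hc : ∑ γ : Grid T N, (fib w₀ c : ℝ) * (PP3 w₀ γ c * ‖f c‖ ^ 2) =
        (fib w₀ c : ℝ) * (∑ γ : Grid T N, PP3 w₀ γ c) * ‖f c‖ ^ 2 := by
      rw [Finset.mul_sum, Finset.sum_mul]
      refine Finset.sum_congr rfl fun γ _ => ?_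
      ring
    rw [hc]
    field_simp
  rw [hphase]
  have hlow : ∑ c, ‖f c‖ ^ 2 * ((3 / 4) / ((DD (cont w₀).1 : ℕ) : ℝ)) ≤
      ∑ c, ‖f c‖ ^ 2 * ((fib w₀ c : ℝ) * (D⁻¹ * ∑ γ : Grid T N, PP3 w₀ γ c)) := by
    apply Finset.sum_le_sum
    intro c _
    apply mul_le_mul_of_nonneg_left _ (by positivity)
    exact sum_grid_ge hT (by omega) (by omega) w₀ c
  have hcoef : 0 ≤ ((N : ℝ)⁻¹ * Cc⁻¹ * KK⁻¹) := by positivity
  refine le_trans ?_ (mul_le_mul_of_nonneg_left hlow hcoef)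
  rw [← Finset.sum_mul]
  -- constants
  have hCc' : Cc = (((j + 1 + T - 1).choose (T - 1) : ℕ) : ℝ) := by
    rw [hCc, card_comp' hT]
  rw [← hCc', hKK]
  apply le_of_eq
  rw [Real.exp_neg]
  have hs2 : √2 ≠ 0 := by positivity
  have hE : Real.exp (EE (j + 1) (cont w₀).1 / 2) ≠ 0 := Real.exp_ne_zero _
  have hDD : (0 : ℝ) < ((DD (cont w₀).1 : ℕ) : ℝ) := by
    unfold DD
    push_cast
    exact Finset.prod_pos fun a _ => by exact_mod_cast Nat.choose_pos (by omega)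
  field_simp
  show (∑ x, ‖f x‖ ^ 2) * Real.exp (EE (j + 1) (cont w₀).1 / 2) * ((DD (cont w₀).1 : ℕ) : ℝ) /
      ((DD (cont w₀).1 : ℕ) : ℝ) = (∑ x, ‖f x‖ ^ 2) * Real.exp (EE (j + 1) (cont w₀).1 / 2)
  rw [mul_div_assoc, div_self hDD.ne', mul_one]

end Family

end Crest.Agent.S0222Lib.JMix3
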