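import Crest.Agent.S0222Lib.JNumTab

/-!
# S0222, J/Numeric: the kernel checks of the tables (`decide +kernel`, GMP arithmetic only)
-/

set_option autoImplicit false
set_option maxRecDepth 100000

namespace Crest.Agent.S0222Lib.JNum

/-- Largest table entry of the token recursion. -/
def JJ : ℕ := 1150

/-- The cap of level `d`: `2^(d-1)`. -/
def cd (d : ℕ) : ℕ := 2 ^ (d - 1)

/-- Numerator of the rational upper bound `Q = QN / QD ≥ e^7`. -/
def QN : ℕ := 109664
/-- Denominator of `Q`. -/
def QD : ℕ := 100
/-- Numerator of the rational lower bound `QLN / QD ≤ e^7`. -/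
def QLN : ℕ := 109663

/-- Table of level `l` of the token recursion. -/
def TM : ℕ → List ℕ
  | 0 => tM0
  | 1 => tM1
  | 2 => tM2
  | 3 => tM3
  | 4 => tM4
  | 5 => tM5
  | 6 => tM6
  | 7 => tM7
  | 8 => tM8
  | 9 => tM9
  | 10 => tM10
  | 11 => tM11
  | 12 => tM12
  | _ => []

/-- Table of square roots of the cycle bound, level `l`. -/
def TS : ℕ → List ℕ
  | 0 => tS0
  | 1 => tS1
  | 2 => tS2
  | 3 => tS3
  | 4 => tS4
  | 5 => tS5
  | 6 => tS6
  | 7 => tS7
  | 8 => tS8
  | 9 => tS9
  | 10 => tS10
  | 11 => tS11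
  | 12 => tS12
  | _ => []

/-- Walk along a list with the index. -/
def allI (p : ℕ → ℕ → Bool) : List ℕ → ℕ → Bool
  | [], _ => true
  | x :: xs, i => p i x && allI p xs (i + 1)

theorem allI_spec (p : ℕ → ℕ → Bool) (l : List ℕ) (i : ℕ) (h : allI p l i = true) (k : ℕ)
    (hk : k < l.length) : p (i + k) (l.getD k 0) = true := by
  induction l generalizing i k with
  | nil => simp at hk
  | cons x xs ih =>
    simp only [allI, Bool.and_eq_true] at h
    cases k with
    | zero => simpa using h.1
    | succ k =>
      have := ih (i + 1) h.2 k (by simpa using hk)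
      rw [show i + 1 + k = i + (k + 1) by omega] at this
      simpa using this

/-- Consecutive entries: slope test for the cap `c`. -/
def slopeOK (c : ℕ) : List ℕ → Bool
  | a :: b :: r => Nat.ble (b ^ 32 * 64 * QD) (a ^ 32 * c ^ 7 * QN) && slopeOK c (b :: r)
  | _ => true

theorem slopeOK_spec (c : ℕ) (l : List ℕ) (h : slopeOK c l = true) (k : ℕ) (hk : k + 1 < l.length) :
    (l.getD (k + 1) 0) ^ 32 * 64 * QD ≤ (l.getD k 0) ^ 32 * c ^ 7 * QN := by
  induction l generalizing k with
  | nil => simp at hk
  | cons a l ih =>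
    cases l with
    | nil => simp at hk
    | cons b r =>
      simp only [slopeOK, Bool.and_eq_true, Nat.ble_eq] at h
      cases k with
      | zero => simpa using h.1
      | succ k =>
        have := ih h.2 k (by simpa using hk)
        simpa using this

/-- Test for the square-root tables. -/
def checkB (s s' : List ℕ) : Bool :=
  (List.range s'.length).all fun m => (List.range (m + 1)).all fun mL =>
    Nat.ble ((s.getD mL 0) ^ 2 * (s.getD (m - mL) 0) ^ 2
        + min ((s.getD mL 0) ^ 2) ((s.getD (m - mL) 0) ^ 2) * 4 ^ SB)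
      (2 * (s'.getD m 0) ^ 2 * 4 ^ SB)

/-- Test of the closed form with cap `c`. -/
def phiTest (c j x : ℕ) : Bool :=
  if j ≤ c then
    Nat.ble (x ^ 32 * 2 ^ (6 * j) * QLN ^ j) (j ^ (7 * j) * 2 ^ 36 * 2 ^ (32 * SS) * QN ^ j)
  else
    Nat.ble (x ^ 32 * 2 ^ (6 * j) * QLN ^ j * QD ^ (j - c))
      (c ^ (7 * j) * QN ^ (j - c) * 2 ^ 36 * 2 ^ (32 * SS) * QN ^ j)

/-- All the per-level tests except the recursion. -/
def levelOK (l : ℕ) (M s : List ℕ) : Bool :=
  (M.length == min (2 ^ l) JJ + 1) && (s.length == min (2 ^ l) 64 + 1) &&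
    (M.headD 0 == 2 ^ SS) && (s.headD 0 == 2 ^ SB) && slopeOK (cd l) M

theorem level_ok_0 : levelOK 0 tM0 tS0 = true := by decide +kernel
theorem level_ok_1 : levelOK 1 tM1 tS1 = true := by decide +kernel
theorem level_ok_2 : levelOK 2 tM2 tS2 = true := by decide +kernel
theorem level_ok_3 : levelOK 3 tM3 tS3 = true := by decide +kernel
theorem level_ok_4 : levelOK 4 tM4 tS4 = true := by decide +kernel
theorem level_ok_5 : levelOK 5 tM5 tS5 = true := by decide +kernel
theorem level_ok_6 : levelOK 6 tM6 tS6 = true := by decide +kernel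
theorem level_ok_7 : levelOK 7 tM7 tS7 = true := by decide +kernel
theorem level_ok_8 : levelOK 8 tM8 tS8 = true := by decide +kernel
theorem level_ok_9 : levelOK 9 tM9 tS9 = true := by decide +kernel
theorem level_ok_10 : levelOK 10 tM10 tS10 = true := by decide +kernel
theorem level_ok_11 : levelOK 11 tM11 tS11 = true := by decide +kernel
theorem level_ok_12 : levelOK 12 tM12 tS12 = true := by decide +kernel

theorem phi_ok_10 : allI (fun j x => j == 0 || phiTest (cd 10) j x) tM10 0 = true := by decide +kernel
theorem phi_ok_11 : allI (fun j x => j == 0 || phiTest (cd 11) j x) tM11 0 = true := by decide +kernel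
theorem phi_ok_12 : allI (fun j x => j == 0 || phiTest (cd 12) j x) tM12 0 = true := by decide +kernel

theorem chk_step_0 : checkStep tM0 tM1 (sMerged tC tS0) = true := by decide +kernel
theorem chk_step_1 : checkStep tM1 tM2 (sMerged tC tS1) = true := by decide +kernel
theorem chk_step_2 : checkStep tM2 tM3 (sMerged tC tS2) = true := by decide +kernel
theorem chk_step_3 : checkStep tM3 tM4 (sMerged tC tS3) = true := by decide +kernel
theorem chk_step_4 : checkStep tM4 tM5 (sMerged tC tS4) = true := by decide +kernel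
theorem chk_step_5 : checkStep tM5 tM6 (sMerged tC tS5) = true := by decide +kernel
theorem chk_step_6 : checkStep tM6 tM7 (sMerged tC tS6) = true := by decide +kernel
theorem chk_step_7 : checkStep tM7 tM8 (sMerged tC tS7) = true := by decide +kernel
theorem chk_step_8 : checkStep tM8 tM9 (sMerged tC tS8) = true := by decide +kernel
theorem chk_step_9 : checkStep tM9 tM10 (sMerged tC tS9) = true := by decide +kernel
theorem chk_step_10 : checkStep tM10 tM11 (sMerged tC tS10) = true := by decide +kernel
theorem chk_step_11 : checkStep tM11 tM12 (sMerged tC tS11) = true := by decide +kernel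
theorem chk_step_12 : checkStep tM12 tM12 (sMerged tC tS12) = true := by decide +kernel

theorem chk_B_0 : checkB tS0 tS1 = true := by decide +kernel
theorem chk_B_1 : checkB tS1 tS2 = true := by decide +kernel
theorem chk_B_2 : checkB tS2 tS3 = true := by decide +kernel
theorem chk_B_3 : checkB tS3 tS4 = true := by decide +kernel
theorem chk_B_4 : checkB tS4 tS5 = true := by decide +kernel
theorem chk_B_5 : checkB tS5 tS6 = true := by decide +kernel
theorem chk_B_6 : checkB tS6 tS7 = true := by decide +kernel
theorem chk_B_7 : checkB tS7 tS8 = true := by decide +kernel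
theorem chk_B_8 : checkB tS8 tS9 = true := by decide +kernel
theorem chk_B_9 : checkB tS9 tS10 = true := by decide +kernel
theorem chk_B_10 : checkB tS10 tS11 = true := by decide +kernel
theorem chk_B_11 : checkB tS11 tS12 = true := by decide +kernel
theorem chk_B_12 : checkB tS12 tS12 = true := by decide +kernel

/-- The base of the crude bound `B ≤ 2·2^(55m/128) - 1` at level 4. -/
theorem chk_crude_base : allI (fun m x => Nat.ble ((x ^ 2 + 4 ^ SB) ^ 128) (2 ^ (128 + 55 * m) * 4 ^ (SB * 128)))
    tS4 0 = true := by decide +kernel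

/-- The crude square-root table. -/
theorem chk_tC : allI (fun m x => Nat.ble (2 ^ (256 * SB + 128 + 55 * m)) (x ^ 256)) tC 0 = true := by
  decide +kernel

theorem chk_tC_len : tC.length = JJ + 1 := by decide +kernel

/-- Junction of the table and the closed form, level 11. -/
theorem chk_junction_11 : Nat.ble
    ((cd 11) ^ (7 * (JJ + 1)) * QN ^ (JJ + 1 - cd 11) * 2 ^ 36 * 2 ^ (32 * SS) * (64 * QD))
    ((tM11.getD JJ 0) ^ 32 * 2 ^ (6 * (JJ + 1)) * QD ^ (JJ + 1 - cd 11) * ((cd 11) ^ 7 * QN)) = true := by
  decide +kernel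

/-- Junction of the table and the closed form, level 12. -/
theorem chk_junction_12 : Nat.ble
    ((JJ + 1) ^ (7 * (JJ + 1)) * 2 ^ 36 * 2 ^ (32 * SS) * (64 * QD))
    ((tM12.getD JJ 0) ^ 32 * 2 ^ (6 * (JJ + 1)) * ((cd 12) ^ 7 * QN)) = true := by
  decide +kernel

/-- Base of the square-root table. -/
theorem chk_S0_one : Nat.ble (2 * 4 ^ SB) ((tS0.getD 1 0) ^ 2) = true := by decide +kernel

end Crest.Agent.S0222Lib.JNum
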