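import Mathlib

/-!
# S0222, J/Numeric: kernel-checkable convolution certificates (Kronecker substitution)

A list of naturals is evaluated at `2^W` (Horner, `hor`); the square of the resulting big number has the
convolution coefficients as base-`2^W` digits as soon as they are all `< 2^W`.  The check functions below
only use arithmetic that the kernel does with GMP.
-/

set_option autoImplicit false

namespace Crest.Agent.S0222Lib.JNum

open Finset Polynomial

/-- Horner evaluation. -/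
def hor (b : ℕ) : List ℕ → ℕ
  | [] => 0
  | x :: xs => x + b * hor b xs

/-- The polynomial of a list. -/
noncomputable def toPoly : List ℕ → ℕ[X]
  | [] => 0
  | x :: xs => C x + X * toPoly xs

theorem eval_toPoly (b : ℕ) (l : List ℕ) : (toPoly l).eval b = hor b l := by
  induction l with
  | nil => simp [toPoly, hor]
  | cons x xs ih => simp [toPoly, hor, ih]

theorem coeff_toPoly (l : List ℕ) (i : ℕ) : (toPoly l).coeff i = l.getD i 0 := by
  induction l generalizing i with
  | nil => simp [toPoly]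
  | cons x xs ih =>
    cases i with
    | zero => simp [toPoly]
    | succ i => simp [toPoly, ih, coeff_C_succ, coeff_X_mul]

/-- Digits of the evaluation of a polynomial with small coefficients. -/
theorem digit_eq (b : ℕ) (q : ℕ[X]) (hq : ∀ i, q.coeff i < b) (j : ℕ) :
    (q.eval b / b ^ j) % b = q.coeff j := by
  have hb : 0 < b := lt_of_le_of_lt (Nat.zero_le _) (hq 0)
  have key : ∀ r : ℕ[X], (∀ i, r.coeff i < b) →
      r.eval b = r.divX.eval b * b + r.coeff 0 := by
    intro r _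
    conv_lhs => rw [← divX_mul_X_add r]
    simp
  induction j generalizing q with
  | zero =>
    rw [pow_zero, Nat.div_one, key q hq]
    exact Nat.mul_add_mod_of_lt (hq 0)
  | succ j ih =>
    have h1 : ∀ i, q.divX.coeff i < b := fun i => by rw [coeff_divX]; exact hq _
    have h2 := ih q.divX h1
    rw [coeff_divX] at h2
    rw [← h2, pow_succ', ← Nat.div_div_eq_div_mul, key q hq]
    congr 2
    rw [mul_comm, Nat.mul_add_div hb, Nat.div_eq_of_lt (hq 0), add_zero]

theorem coeff_le_eval_one (q : ℕ[X]) (i : ℕ) : q.coeff i ≤ q.eval 1 := by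
  rw [eval_eq_sum_range]
  by_cases h : i ≤ q.natDegree
  · have := Finset.single_le_sum (f := fun k => q.coeff k * 1 ^ k) (s := range (q.natDegree + 1))
      (fun _ _ => Nat.zero_le _) (mem_range.mpr (Nat.lt_succ_of_le h))
    simpa using this
  · rw [coeff_eq_zero_of_natDegree_lt (by omega)]
    exact Nat.zero_le _

/-- The digits of the square are the convolution coefficients. -/
theorem conv_digit (Y : List ℕ) (W : ℕ) (h : (hor 1 Y) ^ 2 < 2 ^ W) (j : ℕ) :
    ((hor (2 ^ W) Y * hor (2 ^ W) Y) >>> (W * j)) &&& (2 ^ W - 1)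
      = ∑ x ∈ antidiagonal j, Y.getD x.1 0 * Y.getD x.2 0 := by
  set p := toPoly Y with hp
  have hq : ∀ i, (p * p).coeff i < 2 ^ W := by
    intro i
    refine lt_of_le_of_lt (coeff_le_eval_one _ _) ?_
    rw [eval_mul, hp, eval_toPoly, ← sq]
    exact h
  have := digit_eq (2 ^ W) (p * p) hq j
  rw [Nat.and_two_pow_sub_one_eq_mod, Nat.shiftRight_eq_div_pow, pow_mul]
  rw [eval_mul, hp, eval_toPoly] at this
  rw [this, coeff_mul]
  simp [hp, coeff_toPoly]

/-- Scales. -/
def SS : ℕ := 64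
def SB : ℕ := 32
def KK : ℕ := 7
def WW : ℕ := 1700

/-- Common factor. -/
def AA : ℕ := 2 ^ (2 * SB + SS)

/-- A floating point literal. -/
def fp (m e : ℕ) : ℕ := m * 2 ^ e

/-- Coefficients of the exponential generating function (tilted by `2^(KK i)`), rounded up; `f = i!`. -/
def Yloop : List ℕ → List ℕ → ℕ → ℕ → List ℕ
  | m :: ms, s :: ss, i, f => ((s * m * 2 ^ (KK * i)) / f + 1) :: Yloop ms ss (i + 1) (f * (i + 1))
  | _, _, _, _ => []

theorem Yloop_spec (ms ss : List ℕ) (i f : ℕ) (hf : f = i.factorial) (k : ℕ) (hk : k < ms.length)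
    (hk' : k < ss.length) :
    ss.getD k 0 * ms.getD k 0 * 2 ^ (KK * (i + k)) ≤ (Yloop ms ss i f).getD k 0 * (i + k).factorial := by
  induction ms generalizing ss i f k with
  | nil => simp at hk
  | cons m ms ih =>
    cases ss with
    | nil => simp at hk'
    | cons s ss =>
      cases k with
      | zero =>
        simp only [List.getD_cons_zero, add_zero, Yloop]
        subst hf
        have := Nat.div_add_mod (s * m * 2 ^ (KK * i)) i.factorial
        have h2 := Nat.mod_lt (s * m * 2 ^ (KK * i)) (Nat.factorial_pos i)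
        nlinarith
      | succ k =>
        simp only [List.length_cons, Nat.add_lt_add_iff_right] at hk hk'
        simp only [List.getD_cons_succ, Yloop]
        have := ih ss (i + 1) (f * (i + 1)) (by rw [hf, Nat.factorial_succ, mul_comm]) k hk hk'
        rw [show i + 1 + k = i + (k + 1) by omega] at this
        exact this

/-- The digit test, walking along the lists; `f = j!`. -/
def testLoop (Q : ℕ) : List ℕ → List ℕ → ℕ → ℕ → Bool
  | _, [], _, _ => true
  | M, m' :: ms', j, f =>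
    Nat.ble (f * ((Q >>> (WW * j)) &&& (2 ^ WW - 1)) + 2 * M.headD 0 * AA * 2 ^ (KK * j))
      (m' * AA * 2 ^ (j + KK * j)) && testLoop Q M.tail ms' (j + 1) (f * (j + 1))

theorem testLoop_spec (Q : ℕ) (M M' : List ℕ) (j f : ℕ) (hf : f = j.factorial)
    (h : testLoop Q M M' j f = true) (k : ℕ) (hk : k < M'.length) :
    (j + k).factorial * ((Q >>> (WW * (j + k))) &&& (2 ^ WW - 1))
        + 2 * M.getD k 0 * AA * 2 ^ (KK * (j + k))
      ≤ M'.getD k 0 * AA * 2 ^ (j + k + KK * (j + k)) := by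
  induction M' generalizing M j f k with
  | nil => simp at hk
  | cons m' ms' ih =>
    simp only [testLoop, Bool.and_eq_true, Nat.ble_eq] at h
    obtain ⟨h1, h2⟩ := h
    cases k with
    | zero =>
      subst hf
      have e : M.getD 0 0 = M.headD 0 := by cases M <;> simp
      simp only [add_zero, List.getD_cons_zero]
      rw [e]
      exact h1
    | succ k =>
      simp only [List.length_cons, Nat.add_lt_add_iff_right] at hk
      have := ih M.tail (j + 1) (f * (j + 1)) (by rw [hf, Nat.factorial_succ, mul_comm]) h2 k hk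
      have e : M.tail.getD k 0 = M.getD (k + 1) 0 := by cases M <;> simp
      rw [e, show j + 1 + k = j + (k + 1) by omega] at this
      simp only [List.getD_cons_succ]
      exact this

/-- The square-root table, merged with the crude table. -/
def sMerged (tC t : List ℕ) : List ℕ := (t.take 65) ++ (if t.length < 65 then [] else tC.drop 65)

/-- The `Y` list of a level. -/
def Yof (M sl : List ℕ) : List ℕ := 0 :: Yloop M.tail sl.tail 1 1

/-- The certificate for one level of the token recursion. -/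
def checkStep (M M' sl : List ℕ) : Bool :=
  let Y := Yof M sl
  let Q := hor (2 ^ WW) Y * hor (2 ^ WW) Y
  Nat.blt ((hor 1 Y) ^ 2) (2 ^ WW) && testLoop Q M.tail M'.tail 1 1

theorem Yof_spec (M sl : List ℕ) (i : ℕ) (hi : i ≠ 0) (hL : i < M.length) (hL' : i < sl.length) :
    sl.getD i 0 * M.getD i 0 * 2 ^ (KK * i) ≤ (Yof M sl).getD i 0 * i.factorial := by
  obtain ⟨k, rfl⟩ := Nat.exists_eq_succ_of_ne_zero hi
  have h1 : k < M.tail.length := by simpa using Nat.lt_sub_of_add_lt (by simpa using hL)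
  have h2 : k < sl.tail.length := by simpa using Nat.lt_sub_of_add_lt (by simpa using hL')
  have := Yloop_spec M.tail sl.tail 1 1 (by simp) k h1 h2
  have e1 : M.tail.getD k 0 = M.getD (k + 1) 0 := by cases M <;> simp
  have e2 : sl.tail.getD k 0 = sl.getD (k + 1) 0 := by cases sl <;> simp
  rw [e1, e2, show 1 + k = k + 1 by omega] at this
  simpa [Yof] using this

/-- What `checkStep` gives over `ℕ`. -/
theorem checkStep_nat {M M' sl : List ℕ} (h : checkStep M M' sl = true) (j : ℕ)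
    (hj0 : j ≠ 0) (hj : j < M'.length) :
    j.factorial * (∑ x ∈ antidiagonal j, (Yof M sl).getD x.1 0 * (Yof M sl).getD x.2 0)
      + 2 * M.getD j 0 * AA * 2 ^ (KK * j) ≤ M'.getD j 0 * AA * 2 ^ (j + KK * j) := by
  unfold checkStep at h
  simp only [Bool.and_eq_true] at h
  obtain ⟨h1, h2⟩ := h
  have h1' : (hor 1 (Yof M sl)) ^ 2 < 2 ^ WW := by
    simpa [Nat.blt_eq] using h1
  obtain ⟨k, rfl⟩ := Nat.exists_eq_succ_of_ne_zero hj0
  have hk : k < M'.tail.length := by simpa using Nat.lt_sub_of_add_lt (by simpa using hj)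
  have h3 := testLoop_spec _ _ _ 1 1 (by simp) h2 k hk
  rw [show 1 + k = k + 1 by omega, conv_digit _ _ h1'] at h3
  have e1 : M.tail.getD k 0 = M.getD (k + 1) 0 := by cases M <;> simp
  have e2 : M'.tail.getD k 0 = M'.getD (k + 1) 0 := by cases M' <;> simp
  rw [e1, e2] at h3
  simpa using h3

/-- The real form of one level, for a general weight `κ` (only used on interior splits). -/
theorem step_real {M M' sl : List ℕ} (h : checkStep M M' sl = true)
    (hlen : M.length ≤ sl.length)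
    (κ : ℕ → ℕ → ℝ)
    (hκ : ∀ i k, i ≠ 0 → k ≠ 0 → i < M.length → k < M.length →
      κ i k ≤ ((sl.getD i 0 : ℝ) / 2 ^ SB) * ((sl.getD k 0 : ℝ) / 2 ^ SB))
    (hM0 : M.getD 0 0 = 2 ^ SS)
    (j : ℕ) (hj0 : j ≠ 0) (hj : j < M'.length) :
    ((1 : ℝ) / 2) ^ j * ∑ x ∈ antidiagonal j, (j.choose x.1 : ℝ) *
        (if x.1 = 0 ∨ x.2 = 0 then 1 else κ x.1 x.2) *
        ((M.getD x.1 0 : ℝ) / 2 ^ SS) * ((M.getD x.2 0 : ℝ) / 2 ^ SS)
      ≤ (M'.getD j 0 : ℝ) / 2 ^ SS := by
  set Y := Yof M sl with hY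
  have hnat := checkStep_nat h j hj0 hj
  rw [← hY] at hnat
  -- termwise bound
  have hterm : ∀ x ∈ antidiagonal j, (j.choose x.1 : ℝ) *
        (if x.1 = 0 ∨ x.2 = 0 then 1 else κ x.1 x.2) *
        ((M.getD x.1 0 : ℝ) / 2 ^ SS) * ((M.getD x.2 0 : ℝ) / 2 ^ SS)
      ≤ (if x.1 = 0 then (M.getD j 0 : ℝ) / 2 ^ SS else 0)
        + (if x.2 = 0 then (M.getD j 0 : ℝ) / 2 ^ SS else 0)
        + (j.factorial : ℝ) * ((Y.getD x.1 0 : ℝ) * (Y.getD x.2 0 : ℝ)) /
            (2 ^ (KK * j) * 2 ^ (2 * SB + 2 * SS)) := by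
    intro x hx
    have hsum : x.1 + x.2 = j := Finset.HasAntidiagonal.mem_antidiagonal.mp hx
    have hpos2 : (0 : ℝ) ≤ (j.factorial : ℝ) * ((Y.getD x.1 0 : ℝ) * (Y.getD x.2 0 : ℝ)) /
            (2 ^ (KK * j) * 2 ^ (2 * SB + 2 * SS)) := by positivity
    have hM0' : ((M.getD 0 0 : ℝ) / 2 ^ SS) = 1 := by
      rw [hM0]; push_cast; field_simp
    by_cases h1 : x.1 = 0
    · have h2 : x.2 = j := by omega
      have h3 : x.2 ≠ 0 := by omega
      simp only [h1, h2, hj0, true_or, if_true, if_false, Nat.choose_zero_right, Nat.cast_one, one_mul]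
      rw [hM0', one_mul]
      have : (0 : ℝ) ≤ (j.factorial : ℝ) * ((Y.getD 0 0 : ℝ) * (Y.getD j 0 : ℝ)) /
            (2 ^ (KK * j) * 2 ^ (2 * SB + 2 * SS)) := by positivity
      linarith
    by_cases h2 : x.2 = 0
    · have h3 : x.1 = j := by omega
      simp only [h2, h3, hj0, or_true, if_true, if_false, Nat.choose_self, Nat.cast_one, one_mul]
      rw [hM0', mul_one]
      have : (0 : ℝ) ≤ (j.factorial : ℝ) * ((Y.getD j 0 : ℝ) * (Y.getD 0 0 : ℝ)) /
            (2 ^ (KK * j) * 2 ^ (2 * SB + 2 * SS)) := by positivity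
      linarith
    simp only [h1, h2, or_self, if_false, zero_add]
    by_cases hL : x.1 < M.length ∧ x.2 < M.length
    · obtain ⟨hL1, hL2⟩ := hL
      have hk := hκ x.1 x.2 h1 h2 hL1 hL2
      have hs1 := Yof_spec M sl x.1 h1 hL1 (by omega)
      have hs2 := Yof_spec M sl x.2 h2 hL2 (by omega)
      rw [← hY] at hs1 hs2
      have hs1R : ((sl.getD x.1 0 : ℝ) * (M.getD x.1 0 : ℝ)) * 2 ^ (KK * x.1)
          ≤ (Y.getD x.1 0 : ℝ) * (x.1.factorial : ℝ) := by exact_mod_cast hs1
      have hs2R : ((sl.getD x.2 0 : ℝ) * (M.getD x.2 0 : ℝ)) * 2 ^ (KK * x.2)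
          ≤ (Y.getD x.2 0 : ℝ) * (x.2.factorial : ℝ) := by exact_mod_cast hs2
      have hchoose : (j.choose x.1 : ℝ) * ((x.1.factorial : ℝ) * (x.2.factorial : ℝ))
          = (j.factorial : ℝ) := by
        have := Nat.choose_mul_factorial_mul_factorial (show x.1 ≤ j by omega)
        have h4 : j - x.1 = x.2 := by omega
        rw [h4] at this
        have h5 : ((j.choose x.1 * x.1.factorial * x.2.factorial : ℕ) : ℝ) = (j.factorial : ℝ) := by
          rw [this]
        push_cast at h5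
        linarith
      have hm1 : (0 : ℝ) ≤ (M.getD x.1 0 : ℝ) := by positivity
      have hm2 : (0 : ℝ) ≤ (M.getD x.2 0 : ℝ) := by positivity
      have hmain : (j.choose x.1 : ℝ) * κ x.1 x.2 * ((M.getD x.1 0 : ℝ) / 2 ^ SS) *
            ((M.getD x.2 0 : ℝ) / 2 ^ SS)
          ≤ (j.choose x.1 : ℝ) * (((sl.getD x.1 0 : ℝ) / 2 ^ SB) * ((sl.getD x.2 0 : ℝ) / 2 ^ SB)) *
            ((M.getD x.1 0 : ℝ) / 2 ^ SS) * ((M.getD x.2 0 : ℝ) / 2 ^ SS) := by
        gcongr
      refine hmain.trans ?_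
      have hpow : (2 : ℝ) ^ (KK * j) = 2 ^ (KK * x.1) * 2 ^ (KK * x.2) := by
        rw [← pow_add, ← hsum, mul_add]
      have hprod : (((sl.getD x.1 0 : ℝ) * (M.getD x.1 0 : ℝ)) * 2 ^ (KK * x.1)) *
            (((sl.getD x.2 0 : ℝ) * (M.getD x.2 0 : ℝ)) * 2 ^ (KK * x.2))
          ≤ ((Y.getD x.1 0 : ℝ) * (x.1.factorial : ℝ)) *
            ((Y.getD x.2 0 : ℝ) * (x.2.factorial : ℝ)) := by
        apply mul_le_mul hs1R hs2R (by positivity) (by positivity)
      have hc0 : (0 : ℝ) ≤ (j.choose x.1 : ℝ) := by positivity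
      have hfin : (j.choose x.1 : ℝ) * ((((sl.getD x.1 0 : ℝ) * (M.getD x.1 0 : ℝ)) * 2 ^ (KK * x.1)) *
            (((sl.getD x.2 0 : ℝ) * (M.getD x.2 0 : ℝ)) * 2 ^ (KK * x.2)))
          ≤ (j.factorial : ℝ) * ((Y.getD x.1 0 : ℝ) * (Y.getD x.2 0 : ℝ)) := by
        rw [← hchoose]
        calc _ ≤ (j.choose x.1 : ℝ) * (((Y.getD x.1 0 : ℝ) * (x.1.factorial : ℝ)) *
              ((Y.getD x.2 0 : ℝ) * (x.2.factorial : ℝ))) := by
                exact mul_le_mul_of_nonneg_left hprod hc0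
          _ = _ := by ring
      rw [le_div_iff₀ (by positivity)]
      rw [hpow]
      have e : (2 : ℝ) ^ (2 * SB + 2 * SS) = (2 ^ SB * 2 ^ SB) * (2 ^ SS * 2 ^ SS) := by
        rw [← pow_add, ← pow_add, ← pow_add]; congr 1
      rw [e]
      calc _ = (j.choose x.1 : ℝ) * ((((sl.getD x.1 0 : ℝ) * (M.getD x.1 0 : ℝ)) * 2 ^ (KK * x.1)) *
            (((sl.getD x.2 0 : ℝ) * (M.getD x.2 0 : ℝ)) * 2 ^ (KK * x.2))) := by
              field_simp
        _ ≤ _ := hfin
    · -- one of the two entries is outside the table: then the `M` factor vanishes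
      have hz : (M.getD x.1 0 : ℝ) * (M.getD x.2 0 : ℝ) = 0 := by
        have : M.getD x.1 0 = 0 ∨ M.getD x.2 0 = 0 := by
          by_contra hcon
          push Not at hcon
          apply hL
          constructor
          · by_contra hlen
            exact hcon.1 (by simp [List.getD, List.getElem?_eq_none (not_lt.mp hlen)])
          · by_contra hlen
            exact hcon.2 (by simp [List.getD, List.getElem?_eq_none (not_lt.mp hlen)])
        rcases this with h4 | h4
        · rw [h4]; simp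
        · rw [h4]; simp
      have : (j.choose x.1 : ℝ) * κ x.1 x.2 * ((M.getD x.1 0 : ℝ) / 2 ^ SS) *
            ((M.getD x.2 0 : ℝ) / 2 ^ SS) = 0 := by
        have : (j.choose x.1 : ℝ) * κ x.1 x.2 * ((M.getD x.1 0 : ℝ) / 2 ^ SS) *
            ((M.getD x.2 0 : ℝ) / 2 ^ SS) = (j.choose x.1 : ℝ) * κ x.1 x.2 *
              ((M.getD x.1 0 : ℝ) * (M.getD x.2 0 : ℝ)) / (2 ^ SS * 2 ^ SS) := by
          field_simp
        rw [this, hz]; simp
      rw [this]
      exact hpos2
  -- summing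
  have hsumB : ∑ x ∈ antidiagonal j, (j.choose x.1 : ℝ) *
        (if x.1 = 0 ∨ x.2 = 0 then 1 else κ x.1 x.2) *
        ((M.getD x.1 0 : ℝ) / 2 ^ SS) * ((M.getD x.2 0 : ℝ) / 2 ^ SS)
      ≤ 2 * ((M.getD j 0 : ℝ) / 2 ^ SS) + (j.factorial : ℝ) *
          ((∑ x ∈ antidiagonal j, Y.getD x.1 0 * Y.getD x.2 0 : ℕ) : ℝ) /
            (2 ^ (KK * j) * 2 ^ (2 * SB + 2 * SS)) := by
    refine (Finset.sum_le_sum hterm).trans ?_
    rw [Finset.sum_add_distrib, Finset.sum_add_distrib]
    have a1 : ∑ x ∈ antidiagonal j, (if x.1 = 0 then (M.getD j 0 : ℝ) / 2 ^ SS else 0)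
        = (M.getD j 0 : ℝ) / 2 ^ SS := by
      rw [Finset.sum_ite, Finset.sum_const_zero, add_zero, Finset.sum_const]
      have : (antidiagonal j).filter (fun x => x.1 = 0) = {(0, j)} := by
        ext ⟨a, b⟩
        simp only [mem_filter, Finset.HasAntidiagonal.mem_antidiagonal, mem_singleton, Prod.mk.injEq]
        constructor
        · rintro ⟨h1, rfl⟩; subst h1; simp
        · rintro ⟨rfl, rfl⟩; simp
      rw [this]; simp
    have a2 : ∑ x ∈ antidiagonal j, (if x.2 = 0 then (M.getD j 0 : ℝ) / 2 ^ SS else 0)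
        = (M.getD j 0 : ℝ) / 2 ^ SS := by
      rw [Finset.sum_ite, Finset.sum_const_zero, add_zero, Finset.sum_const]
      have : (antidiagonal j).filter (fun x => x.2 = 0) = {(j, 0)} := by
        ext ⟨a, b⟩
        simp only [mem_filter, Finset.HasAntidiagonal.mem_antidiagonal, mem_singleton, Prod.mk.injEq]
        constructor
        · rintro ⟨rfl, rfl⟩; simp
        · rintro ⟨rfl, rfl⟩; simp
      rw [this]; simp
    rw [a1, a2]
    have a3 : ∑ x ∈ antidiagonal j, (j.factorial : ℝ) * ((Y.getD x.1 0 : ℝ) * (Y.getD x.2 0 : ℝ)) /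
            (2 ^ (KK * j) * 2 ^ (2 * SB + 2 * SS))
        = (j.factorial : ℝ) * ((∑ x ∈ antidiagonal j, Y.getD x.1 0 * Y.getD x.2 0 : ℕ) : ℝ) /
            (2 ^ (KK * j) * 2 ^ (2 * SB + 2 * SS)) := by
      push_cast
      rw [Finset.mul_sum, Finset.sum_div]
    rw [a3]
    linarith
  -- from ℕ to ℝ
  have hnatR : (j.factorial : ℝ) * ((∑ x ∈ antidiagonal j, Y.getD x.1 0 * Y.getD x.2 0 : ℕ) : ℝ)
      + 2 * (M.getD j 0 : ℝ) * (AA : ℝ) * 2 ^ (KK * j)
      ≤ (M'.getD j 0 : ℝ) * (AA : ℝ) * 2 ^ (j + KK * j) := by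
    exact_mod_cast hnat
  have hAA : (AA : ℝ) = 2 ^ (2 * SB + SS) := by simp [AA]
  rw [hAA] at hnatR
  have hpowA : (0 : ℝ) < 2 ^ (KK * j) := by positivity
  have hfinal : ((1 : ℝ) / 2) ^ j * (2 * ((M.getD j 0 : ℝ) / 2 ^ SS) + (j.factorial : ℝ) *
          ((∑ x ∈ antidiagonal j, Y.getD x.1 0 * Y.getD x.2 0 : ℕ) : ℝ) /
            (2 ^ (KK * j) * 2 ^ (2 * SB + 2 * SS)))
      ≤ (M'.getD j 0 : ℝ) / 2 ^ SS := by
    set c : ℝ := ((∑ x ∈ antidiagonal j, Y.getD x.1 0 * Y.getD x.2 0 : ℕ) : ℝ) with hc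
    have e1 : ((1 : ℝ) / 2) ^ j * (2 * ((M.getD j 0 : ℝ) / 2 ^ SS) + (j.factorial : ℝ) * c /
            (2 ^ (KK * j) * 2 ^ (2 * SB + 2 * SS)))
        = ((j.factorial : ℝ) * c + 2 * (M.getD j 0 : ℝ) * 2 ^ (2 * SB + SS) * 2 ^ (KK * j)) /
            (2 ^ j * 2 ^ (KK * j) * 2 ^ (2 * SB + 2 * SS)) := by
      have e2 : (2 : ℝ) ^ (2 * SB + 2 * SS) = 2 ^ (2 * SB + SS) * 2 ^ SS := by
        rw [← pow_add]; congr 1
      rw [one_div, inv_pow, e2]
      field_simp
      ring
    rw [e1, div_le_div_iff₀ (by positivity) (by positivity)]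
    have e3 : (2 : ℝ) ^ (j + KK * j) = 2 ^ j * 2 ^ (KK * j) := pow_add _ _ _
    rw [e3] at hnatR
    have e2 : (2 : ℝ) ^ (2 * SB + 2 * SS) = 2 ^ (2 * SB + SS) * 2 ^ SS := by
      rw [← pow_add]; congr 1
    rw [e2]
    calc _ ≤ ((M'.getD j 0 : ℝ) * 2 ^ (2 * SB + SS) * (2 ^ j * 2 ^ (KK * j))) * 2 ^ SS :=
          mul_le_mul_of_nonneg_right hnatR (by positivity)
      _ = _ := by ring
  refine le_trans ?_ hfinal
  exact mul_le_mul_of_nonneg_left hsumB (by positivity)

end Crest.Agent.S0222Lib.JNum
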