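import Crest.Agent.S0222Lib.JGlobal

/-!
# S0222: the block recursion of Theorem J, part 3

* `decomp`: `Π_U P (Z ⊗ Z) P Π_U' = ∑_{t ∈ S} Π_U P Π_{ℓ,t} (Z ⊗ Z) Π_{ℓ',t} P Π_U'`;
* `block_rec`: the recursion for the dressed norms.
-/

set_option autoImplicit false
set_option linter.unusedSectionVars false

namespace Crest.Agent.S0222Lib.JCore

open Matrix
open scoped Kronecker ComplexOrder
open Crest.Agent.S0222Lib.Site

section Rec

variable {κ Tok Col : Type*} [Fintype κ] [DecidableEq κ] [Fintype Tok] [DecidableEq Tok]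
  [Fintype Col] [DecidableEq Col] (od : Tok ⊕ Col → Bool)

/-- The word `w` is in the block of the partial token position `u`. -/
def inB (u : Tok → Option κ) (w : κ → (Tok ⊕ Col)) : Prop :=
  ∀ a p, w p = Sum.inl a ↔ u a = some p

/-- The block projection on words. -/
noncomputable abbrev PiB (u : Tok → Option κ) :
    Matrix (κ → (Tok ⊕ Col)) (κ → (Tok ⊕ Col)) ℂ := dp (inB u)

/-- The restriction of a low position to one half. -/
def resT (ℓ : Tok → Option κ) (t : Tok → Bool) (h : Bool) (a : Tok) : Option κ :=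
  if t a = h then ℓ a else none

lemma inB2_iff (ℓ : Tok → Option κ) (t : Tok → Bool) (v : κ → (Tok ⊕ Col) × (Tok ⊕ Col)) :
    inB2 ℓ t v ↔ inB (resT ℓ t false) (fun p => (v p).1) ∧
      inB (resT ℓ t true) (fun p => (v p).2) := by
  constructor
  · intro h
    refine ⟨fun a p => ?_, fun a p => ?_⟩
    · rw [(h p a).1]
      simp only [resT]
      by_cases ht : t a = false <;> simp [ht]
    · rw [(h p a).2]
      simp only [resT]
      by_cases ht : t a = true <;> simp [ht]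
  · rintro ⟨h1, h2⟩ p a
    refine ⟨?_, ?_⟩
    · rw [h1 a p]
      simp only [resT]
      by_cases ht : t a = false <;> simp [ht]
    · rw [h2 a p]
      simp only [resT]
      by_cases ht : t a = true <;> simp [ht]

lemma dbl_dp (Q Q' : (κ → (Tok ⊕ Col)) → Prop) :
    dbl (dp Q) (dp Q') = dp (fun v : κ → (Tok ⊕ Col) × (Tok ⊕ Col) =>
      Q (fun p => (v p).1) ∧ Q' (fun p => (v p).2)) := by
  classical
  ext v v'
  simp only [dbl_apply, dp, Matrix.diagonal_apply]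
  by_cases h : v = v'
  · subst h
    by_cases h1 : Q (fun p => (v p).1) <;> by_cases h2 : Q' (fun p => (v p).2) <;> simp [h1, h2]
  · rw [if_neg h]
    have h' : (fun p => (v p).1) ≠ (fun p => (v' p).1) ∨ (fun p => (v p).2) ≠ (fun p => (v' p).2) := by
      by_contra hcon
      push_neg at hcon
      apply h
      funext p
      exact Prod.ext (congrFun hcon.1 p) (congrFun hcon.2 p)
    rcases h' with h' | h'
    · simp [if_neg h']
    · simp [if_neg h']

lemma PiB2_eq_dbl (ℓ : Tok → Option κ) (t : Tok → Bool) :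
    PiB2 (Col := Col) ℓ t = dbl (PiB (resT ℓ t false)) (PiB (resT ℓ t true)) := by
  unfold PiB2 PiB
  rw [dbl_dp]
  exact dp_congr (inB2_iff ℓ t)

/-- Tokens outside the domain get the value `false`. -/
def OffDom (ℓ : Tok → Option κ) (t : Tok → Bool) : Prop := ∀ a, ℓ a = none → t a = false

open Classical in
/-- The compatible half assignments. -/
noncomputable def Sset (ℓ ℓ' : Tok → Option κ) : Finset (Tok → Bool) :=
  Finset.univ.filter (fun t => OffDom ℓ t ∧ InjT ℓ t ∧ InjT ℓ' t)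

open Classical in
/-- The half of each token in a pair word. -/
noncomputable def halfOf (v : κ → (Tok ⊕ Col) × (Tok ⊕ Col)) (a : Tok) : Bool :=
  decide (∃ p, (v p).2 = Sum.inl a)

/-- `Z` preserves the set of tokens. -/
def PresTok (Z : Matrix (κ → (Tok ⊕ Col)) (κ → (Tok ⊕ Col)) ℂ) : Prop :=
  ∀ v v', Z v v' ≠ 0 → ∀ a, (∃ p, v p = Sum.inl a) ↔ (∃ p, v' p = Sum.inl a)

lemma inB2_of_flip {ℓ : Tok → Option κ} {s : Tok → Bool} {w v : κ → (Tok ⊕ Col) × (Tok ⊕ Col)}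
    (hw : inB2 ℓ s w) (hv : ∀ p, v p = w p ∨ v p = (w p).swap) : inB2 ℓ (halfOf v) v := by
  classical
  -- the location of a token
  have hloc1 : ∀ p a, (v p).1 = Sum.inl a → ℓ a = some p := by
    intro p a h
    rcases hv p with e | e
    · rw [e] at h
      exact ((hw p a).1.mp h).1
    · rw [e] at h
      exact ((hw p a).2.mp (by simpa using h)).1
  have hloc2 : ∀ p a, (v p).2 = Sum.inl a → ℓ a = some p := by
    intro p a h
    rcases hv p with e | e
    · rw [e] at h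
      exact ((hw p a).2.mp h).1
    · rw [e] at h
      exact ((hw p a).1.mp (by simpa using h)).1
  have hnot : ∀ p a, (v p).1 = Sum.inl a → (v p).2 = Sum.inl a → False := by
    intro p a h1 h2
    have hl := hloc1 p a h1
    rcases hv p with e | e
    · rw [e] at h1 h2
      have h3 := ((hw p a).1.mp h1).2
      have h4 := ((hw p a).2.mp h2).2
      rw [h3] at h4
      exact absurd h4 (by simp)
    · rw [e] at h1 h2
      have h3 := ((hw p a).2.mp (by simpa using h1)).2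
      have h4 := ((hw p a).1.mp (by simpa using h2)).2
      rw [h3] at h4
      exact absurd h4 (by simp)
  have hinj : ∀ p p' a, ℓ a = some p → ℓ a = some p' → p = p' := by
    intro p p' a h1 h2
    rw [h1] at h2
    exact Option.some.inj h2
  have hpres : ∀ p a, ℓ a = some p → (v p).1 = Sum.inl a ∨ (v p).2 = Sum.inl a := by
    intro p a hl
    cases hs : s a
    · have := (hw p a).1.mpr ⟨hl, hs⟩
      rcases hv p with e | e
      · left; rw [e]; exact this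
      · right; rw [e]; simpa using this
    · have := (hw p a).2.mpr ⟨hl, hs⟩
      rcases hv p with e | e
      · right; rw [e]; exact this
      · left; rw [e]; simpa using this
  have hh2 : ∀ a, halfOf v a = true ↔ ∃ p, (v p).2 = Sum.inl a := by
    intro a
    simp [halfOf]
  intro p a
  refine ⟨⟨fun h => ?_, fun h => ?_⟩, ⟨fun h => ?_, fun h => ?_⟩⟩
  · refine ⟨hloc1 p a h, ?_⟩
    by_contra hne
    have : halfOf v a = true := by
      cases h' : halfOf v a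
      · exact absurd h' hne
      · rfl
    obtain ⟨p', hp'⟩ := (hh2 a).mp this
    have := hinj _ _ a (hloc2 p' a hp') (hloc1 p a h)
    subst this
    exact hnot _ a h hp'
  · rcases hpres p a h.1 with h' | h'
    · exact h'
    · have : halfOf v a = true := (hh2 a).mpr ⟨p, h'⟩
      rw [h.2] at this
      exact absurd this (by simp)
  · exact ⟨hloc2 p a h, (hh2 a).mpr ⟨p, h⟩⟩
  · obtain ⟨p', hp'⟩ := (hh2 a).mp h.2
    have := hinj _ _ a (hloc2 p' a hp') h.1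
    subst this
    exact hp'

lemma offDom_halfOf {ℓ : Tok → Option κ} {v : κ → (Tok ⊕ Col) × (Tok ⊕ Col)}
    (hv : inB2 ℓ (halfOf v) v) : OffDom ℓ (halfOf v) := by
  classical
  intro a ha
  by_contra hne
  have : ∃ p, (v p).2 = Sum.inl a := by
    by_contra hno
    apply hne
    simp [halfOf, hno]
  obtain ⟨p, hp⟩ := this
  have := ((hv p a).2.mp hp).1
  rw [ha] at this
  exact absurd this (by simp)

lemma injT_of_inB2 {ℓ : Tok → Option κ} {t : Tok → Bool} {v : κ → (Tok ⊕ Col) × (Tok ⊕ Col)}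
    (hv : inB2 ℓ t v) : InjT ℓ t := by
  intro a b p ha hb hab
  cases ht : t a
  · have h1 := (hv p a).1.mpr ⟨ha, ht⟩
    have h2 := (hv p b).1.mpr ⟨hb, by rw [← hab, ht]⟩
    rw [h1] at h2
    exact Sum.inl.inj h2
  · have h1 := (hv p a).2.mpr ⟨ha, ht⟩
    have h2 := (hv p b).2.mpr ⟨hb, by rw [← hab, ht]⟩
    rw [h1] at h2
    exact Sum.inl.inj h2

lemma eq_halfOf {ℓ : Tok → Option κ} {t : Tok → Bool} {v : κ → (Tok ⊕ Col) × (Tok ⊕ Col)}
    (hv : inB2 ℓ t v) (ht : OffDom ℓ t) : t = halfOf v := by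
  classical
  funext a
  cases hl : ℓ a with
  | none =>
    rw [ht a hl]
    symm
    by_contra hne
    have : ∃ p, (v p).2 = Sum.inl a := by
      by_contra hno
      apply hne
      simp [halfOf, hno]
    obtain ⟨p, hp⟩ := this
    have := ((hv p a).2.mp hp).1
    rw [hl] at this
    exact absurd this (by simp)
  | some p =>
    cases hta : t a
    · symm
      by_contra hne
      have : ∃ p, (v p).2 = Sum.inl a := by
        by_contra hno
        apply hne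
        simp [halfOf, hno]
      obtain ⟨p', hp'⟩ := this
      have := ((hv p' a).2.mp hp').2
      rw [hta] at this
      exact absurd this (by simp)
    · symm
      have := (hv p a).2.mpr ⟨hl, hta⟩
      simp only [halfOf, decide_eq_true_eq]
      exact ⟨p, this⟩

lemma PiS_ne_zero_imp {ι : Type*} [Fintype ι] [DecidableEq ι] (od : ι → Bool) {x y : ι × ι}
    (h : PiS od x y ≠ 0) : y = x ∨ y = x.swap := by
  by_contra hcon
  push_neg at hcon
  apply h
  have h1 : (1 : Matrix (ι × ι) (ι × ι) ℂ) x y = 0 := Matrix.one_apply_ne (Ne.symm hcon.1)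
  have h2 : swS od x y = 0 := by
    rw [swS_apply, if_neg (Ne.symm hcon.2)]
  simp [PiS, Matrix.smul_apply, Matrix.add_apply, h1, h2]

lemma PP_ne_zero_imp {x y : κ → (Tok ⊕ Col) × (Tok ⊕ Col)} (h : PP κ od x y ≠ 0) :
    ∀ p, y p = x p ∨ y p = (x p).swap := by
  intro p
  apply PiS_ne_zero_imp od
  simp only [tp_apply] at h
  exact fun h0 => h (Finset.prod_eq_zero (Finset.mem_univ p) h0)

lemma flip_symm {x y : κ → (Tok ⊕ Col) × (Tok ⊕ Col)} (h : ∀ p, y p = x p ∨ y p = (x p).swap) :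
    ∀ p, x p = y p ∨ x p = (y p).swap := by
  intro p
  rcases h p with e | e
  · left; exact e.symm
  · right; rw [e]; simp

/-- `X` preserves the half of each token. -/
def PresHalf (X : Matrix (κ → (Tok ⊕ Col) × (Tok ⊕ Col)) (κ → (Tok ⊕ Col) × (Tok ⊕ Col)) ℂ) : Prop :=
  ∀ v v', X v v' ≠ 0 → halfOf v = halfOf v'

lemma presHalf_dbl {Z : Matrix (κ → (Tok ⊕ Col)) (κ → (Tok ⊕ Col)) ℂ} (hZ : PresTok Z) :
    PresHalf (dbl Z Z) := by
  classical
  intro v v' hX0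
  have hZ1 : Z (fun p => (v p).2) (fun p => (v' p).2) ≠ 0 := by
    intro h0
    apply hX0
    simp [dbl_apply, h0]
  funext a
  have := hZ _ _ hZ1 a
  simp only [halfOf]
  exact decide_eq_decide.mpr this

/-- **The resolution of the block** by the half assignments. -/
theorem decomp (X : Matrix (κ → (Tok ⊕ Col) × (Tok ⊕ Col)) (κ → (Tok ⊕ Col) × (Tok ⊕ Col)) ℂ)
    (hX : PresHalf X) (ℓ ℓ' : Tok → Option κ) (s s' : Tok → Bool) :
    PiB2 ℓ s * PP κ od * X * PP κ od * PiB2 ℓ' s' =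
      ∑ t ∈ Sset ℓ ℓ', PiB2 ℓ s * PP κ od * PiB2 ℓ t * X * PiB2 ℓ' t *
        PP κ od * PiB2 ℓ' s' := by
  classical
  set A := PiB2 (Col := Col) ℓ s * PP κ od with hA
  set B := PP κ od * PiB2 (Col := Col) ℓ' s' with hB
  have hL : A * X * PP κ od * PiB2 ℓ' s' = A * X * B := by
    rw [hB]; simp only [Matrix.mul_assoc]
  rw [hL]
  have hR : ∀ t, A * PiB2 ℓ t * X * PiB2 ℓ' t * PP κ od * PiB2 ℓ' s' =
      A * (PiB2 ℓ t * X * PiB2 ℓ' t) * B := by
    intro t
    rw [hB]; simp only [Matrix.mul_assoc]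
  simp_rw [hR]
  set X' : Matrix (κ → (Tok ⊕ Col) × (Tok ⊕ Col)) (κ → (Tok ⊕ Col) × (Tok ⊕ Col)) ℂ :=
    ∑ t ∈ Sset ℓ ℓ', PiB2 ℓ t * X * PiB2 ℓ' t with hX'
  have hRHS : ∑ t ∈ Sset ℓ ℓ', A * (PiB2 ℓ t * X * PiB2 ℓ' t) * B = A * X' * B := by
    rw [hX', Finset.mul_sum, Finset.sum_mul]
  rw [hRHS]
  have hterm : ∀ w v v' w', A w v ≠ 0 → B v' w' ≠ 0 → X' v v' = X v v' := by
    intro w v v' w' hA0 hB0
    rw [hA, dp_mul_apply] at hA0
    rw [hB, mul_dp_apply] at hB0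
    by_cases hw : inB2 ℓ s w
    swap
    · simp [hw] at hA0
    by_cases hw' : inB2 ℓ' s' w'
    swap
    · simp [hw'] at hB0
    simp only [hw, hw', if_true] at hA0 hB0
    have hf := PP_ne_zero_imp od hA0
    have hf' := flip_symm (PP_ne_zero_imp od hB0)
    have hv := inB2_of_flip hw hf
    have hv' := inB2_of_flip hw' hf'
    have hval : ∀ t, (PiB2 ℓ t * X * PiB2 ℓ' t : Matrix (κ → (Tok ⊕ Col) × (Tok ⊕ Col))
        (κ → (Tok ⊕ Col) × (Tok ⊕ Col)) ℂ) v v' =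
        if inB2 ℓ t v ∧ inB2 ℓ' t v' then X v v' else 0 := by
      intro t
      rw [mul_dp_apply, dp_mul_apply]
      by_cases h1 : inB2 ℓ t v <;> by_cases h2 : inB2 ℓ' t v' <;> simp [h1, h2]
    rw [hX', Matrix.sum_apply]
    simp_rw [hval]
    by_cases hX0 : X v v' = 0
    · simp [hX0]
    have ht : halfOf v = halfOf v' := hX v v' hX0
    rw [← ht] at hv'
    have hmem : halfOf v ∈ Sset ℓ ℓ' :=
      Finset.mem_filter.mpr ⟨Finset.mem_univ _, offDom_halfOf hv, injT_of_inB2 hv, injT_of_inB2 hv'⟩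
    rw [Finset.sum_eq_single (halfOf v)]
    · simp [hv, hv']
    · intro t ht' hne
      rw [if_neg]
      rintro ⟨h1, _⟩
      exact hne (eq_halfOf h1 (Finset.mem_filter.mp ht').2.1)
    · exact fun h => absurd hmem h
  ext w w'
  simp only [Matrix.mul_apply, Finset.sum_mul]
  refine Finset.sum_congr rfl (fun v' _ => Finset.sum_congr rfl (fun v _ => ?_))
  by_cases hA0 : A w v = 0
  · simp [hA0]
  by_cases hB0 : B v' w' = 0
  · simp [hB0]
  rw [hterm w v v' w' hA0 hB0]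

lemma trace_mul_psd_nonneg {n : Type*} [Fintype n] [DecidableEq n] {M Q : Matrix n n ℂ}
    (hM : M.PosSemidef) (hQ : Q.PosSemidef) : 0 ≤ (M * Q).trace.re := by
  obtain ⟨N, hN⟩ := eq_conjTranspose_mul_self_of_psd hM
  rw [hN, Matrix.mul_assoc, Matrix.trace_mul_comm, Matrix.mul_assoc]
  have h := (hQ.mul_mul_conjTranspose_same N).trace_nonneg
  rw [Matrix.mul_assoc] at h
  exact (Complex.le_def.mp h).1

lemma dp_comm {n : Type*} [Fintype n] [DecidableEq n] (Q Q' : n → Prop) :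
    dp Q * dp Q' = dp Q' * dp Q := by
  rw [dp_mul_dp, dp_mul_dp]
  exact dp_congr (fun x => and_comm)

lemma hs_mul_eq {n : Type*} [Fintype n] [DecidableEq n] (Y Xh Tt Dr : Matrix n n ℂ)
    (hDr : Drᴴ = Dr) (hcomm : Tt * Dr = Dr * Tt) :
    hs Y (Xh * (Tt * Dr)) = (((Xh)ᴴ * Y⁻¹ * Xh) * (Dr * (Tt * Ttᴴ) * Dr)).trace.re := by
  unfold hs
  rw [hcomm, Matrix.conjTranspose_mul, Matrix.conjTranspose_mul, hDr]
  congr 1
  have e1 : Ttᴴ * Dr * Xhᴴ * Y⁻¹ * (Xh * (Dr * Tt)) =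
      (Ttᴴ * Dr) * (Xhᴴ * Y⁻¹ * Xh * (Dr * Tt)) := by
    simp only [Matrix.mul_assoc]
  rw [e1, Matrix.trace_mul_comm]
  simp only [Matrix.mul_assoc]

lemma trace_step {n : Type*} [Fintype n] [DecidableEq n] (M Dr Pp TT : Matrix n n ℂ) (d : ℝ)
    (hM : M * Pp = M) (hc : Dr * Pp = Pp * Dr) (hD : Dr * Dr = Dr) :
    (M * (Dr * ((d : ℂ) • Pp - TT) * Dr)).trace.re =
      d * (M * Dr).trace.re - (M * (Dr * TT * Dr)).trace.re := by
  have e1 : Dr * ((d : ℂ) • Pp - TT) * Dr = (d : ℂ) • (Pp * Dr) - Dr * TT * Dr := by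
    rw [Matrix.mul_sub, Matrix.sub_mul]
    congr 1
    rw [mul_smul_comm, smul_mul_assoc, hc, Matrix.mul_assoc, hD]
  rw [e1, Matrix.mul_sub, Matrix.trace_sub, Complex.sub_re, Matrix.mul_smul, Matrix.trace_smul,
    ← Matrix.mul_assoc, hM, smul_eq_mul, Complex.mul_re]
  simp

/-- The right transfer bound. -/
lemma T_mul_conj_le (ℓ' : Tok → Option κ) (t s' : Tok → Bool) (ht : InjT ℓ' t) (hs' : InjT ℓ' s') :
    (dd ℓ' • PiB2 ℓ' t - (PiB2 ℓ' t * PP κ od * PiB2 ℓ' s') *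
      (PiB2 ℓ' t * PP κ od * PiB2 ℓ' s')ᴴ).PosSemidef := by
  classical
  rw [← tp_Tloc od, tp_conjTranspose, tp_mul, dd, ← tp_piLoc, ← tp_smul_sites]
  refine tp_mono (fun p => posSemidef_self_mul_conjTranspose _) (fun p => ?_)
  by_cases hp : Occ ℓ' p
  · obtain ⟨a0, h0⟩ := hp
    have hrel := rel_of_inj ht hs' h0
    rw [Tloc_mul_conj od hrel h0]
    have hp' : Occ ℓ' p := ⟨a0, h0⟩
    simp only [hp', if_true, sub_self]
    exact PosSemidef.zero
  · have hf : ∀ a, ℓ' a ≠ some p := fun a ha' => hp ⟨a, ha'⟩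
    simp only [hp, if_false, one_smul]
    exact free_T_le od t s' hf

/-- **The dressed block recursion.** -/
theorem block_rec {I : Type*} [Fintype I] [Nonempty I] (w : I → ℝ) (hw : ∀ i, 0 < w i)
    (a : I → Matrix (Tok ⊕ Col) (Tok ⊕ Col) ℂ) (c : I → I → Matrix (Tok ⊕ Col) (Tok ⊕ Col) ℂ)
    (hap : ∀ i, (a i).PosDef) (hcp : ∀ i j, (c i j).PosDef)
    (ha : ∀ i, TokId (a i)) (hc : ∀ i j, TokId (c i j))
    (hae : ∀ i, EvenM od (a i)) (hce : ∀ i j, EvenM od (c i j))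
    (h : ∀ i j, c i j * c i j = (1 / 2 : ℂ) • (a i * a i + a j * a j))
    (X : Matrix (κ → (Tok ⊕ Col) × (Tok ⊕ Col)) (κ → (Tok ⊕ Col) × (Tok ⊕ Col)) ℂ)
    (hX : PresHalf X)
    (ℓ ℓ' : Tok → Option κ) (s s' : Tok → Bool) (hinj : InjT ℓ s) (hinj' : InjT ℓ' s')
    (hflip : FlipProp ℓ s (Sset ℓ ℓ'))
    (R : (κ → (Tok ⊕ Col) × (Tok ⊕ Col)) → Prop) (hR : PP κ od * dp R = dp R * PP κ od) :
    hs (∑ i, ∑ j, ((w i * w j : ℝ) : ℂ) • tp (fun _ : κ => c i j ⊗ₖ c i j))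
        (PiB2 ℓ s * (PP κ od * X * PP κ od) * PiB2 ℓ' s' * dp R) ≤
      ((1 / 4 : ℝ) ^ occ ℓ * ((Sset ℓ ℓ').card : ℝ)) * (((1 / 4 : ℝ) ^ occ ℓ') *
        ∑ t ∈ Sset ℓ ℓ',
          (((PiB2 ℓ t * X * PiB2 ℓ' t)ᴴ *
            (dbl (∑ i, (w i : ℂ) • tp (fun _ : κ => a i))
              (∑ i, (w i : ℂ) • tp (fun _ : κ => a i)))⁻¹ *
            (PiB2 ℓ t * X * PiB2 ℓ' t)) * dp R).trace.re) := by
  classical
  set S := Sset ℓ ℓ' with hS
  set Y1 : Matrix (κ → (Tok ⊕ Col)) (κ → (Tok ⊕ Col)) ℂ :=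
    ∑ i, (w i : ℂ) • tp (fun _ : κ => a i) with hY1
  set Y2 : Matrix (κ → (Tok ⊕ Col) × (Tok ⊕ Col)) (κ → (Tok ⊕ Col) × (Tok ⊕ Col)) ℂ :=
    ∑ i, ∑ j, ((w i * w j : ℝ) : ℂ) • tp (fun _ : κ => c i j ⊗ₖ c i j) with hY2
  have hY1P : Y1.PosDef := posDef_sum_smul w hw _ (fun i => tp_posDef (fun _ => hap i))
  have hY2P : Y2.PosDef := by
    rw [hY2, ← Fintype.sum_prod_type'
      (f := fun i j => ((w i * w j : ℝ) : ℂ) • tp (fun _ : κ => c i j ⊗ₖ c i j))]
    exact posDef_sum_smul (fun p : I × I => w p.1 * w p.2) (fun p => mul_pos (hw p.1) (hw p.2))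
      (fun p => tp (fun _ : κ => c p.1 p.2 ⊗ₖ c p.1 p.2))
      (fun p => tp_posDef (fun _ => (hcp p.1 p.2).kronecker (hcp p.1 p.2)))
  set Y' := dbl Y1 Y1 with hY'
  have hY'P : Y'.PosDef := dbl_posDef hY1P hY1P
  have hdec := decomp od X hX ℓ ℓ' s s'
  set C : (Tok → Bool) → Matrix (κ → (Tok ⊕ Col) × (Tok ⊕ Col)) (κ → (Tok ⊕ Col) × (Tok ⊕ Col)) ℂ :=
    fun t => PiB2 ℓ t * PP κ od * PiB2 ℓ s with hC
  set T : (Tok → Bool) → Matrix (κ → (Tok ⊕ Col) × (Tok ⊕ Col)) (κ → (Tok ⊕ Col) × (Tok ⊕ Col)) ℂ :=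
    fun t => PiB2 ℓ' t * PP κ od * PiB2 ℓ' s' with hT
  set Xh : (Tok → Bool) → Matrix (κ → (Tok ⊕ Col) × (Tok ⊕ Col)) (κ → (Tok ⊕ Col) × (Tok ⊕ Col)) ℂ :=
    fun t => PiB2 ℓ t * X * PiB2 ℓ' t with hXh
  have hD : PiB2 ℓ s * (PP κ od * X * PP κ od) * PiB2 ℓ' s' * dp R =
      ∑ t ∈ S, (C t)ᴴ * (Xh t * (T t * dp R)) := by
    have e1 : PiB2 ℓ s * (PP κ od * X * PP κ od) * PiB2 ℓ' s' =
        PiB2 ℓ s * PP κ od * X * PP κ od * PiB2 ℓ' s' := by
      simp only [Matrix.mul_assoc]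
    rw [e1, hdec, Finset.sum_mul]
    refine Finset.sum_congr rfl (fun t _ => ?_)
    simp only [hC, hT, hXh]
    rw [tp_Tloc_conj od]
    have hid1 : PiB2 (Col := Col) ℓ t * PiB2 ℓ t = PiB2 ℓ t := dp_idem _
    have hid2 : PiB2 (Col := Col) ℓ' t * PiB2 ℓ' t = PiB2 ℓ' t := dp_idem _
    calc PiB2 ℓ s * PP κ od * PiB2 ℓ t * X * PiB2 ℓ' t * PP κ od * PiB2 ℓ' s' * dp R
        = PiB2 ℓ s * PP κ od * (PiB2 ℓ t * PiB2 ℓ t) * X * (PiB2 ℓ' t * PiB2 ℓ' t) *
            PP κ od * PiB2 ℓ' s' * dp R := by rw [hid1, hid2]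
      _ = _ := by simp only [Matrix.mul_assoc]
  rw [hD]
  by_cases hSe : S = ∅
  · rw [hSe]
    simp [hs]
  have hSne : S.Nonempty := Finset.nonempty_iff_ne_empty.mpr hSe
  have hcardpos : (0 : ℝ) < (S.card : ℝ) := by exact_mod_cast hSne.card_pos
  set k : ℝ := (1 / 4 : ℝ) ^ occ ℓ * (S.card : ℝ) with hk
  have hkpos : 0 < k := mul_pos (by positivity) hcardpos
  have hSinj : ∀ t ∈ S, InjT ℓ t := fun t ht => (Finset.mem_filter.mp ht).2.2.1
  have hSinj' : ∀ t ∈ S, InjT ℓ' t := fun t ht => (Finset.mem_filter.mp ht).2.2.2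
  have hcol : ((k : ℂ) • Y2 - ∑ t : ↥S, (C t)ᴴ * Y' * C t).PosSemidef := by
    have := col_bound od (κ := κ) w hw a c (fun i => (hap i).posSemidef)
      (fun i j => (hcp i j).posSemidef) ha hc hae hce h ℓ s hinj S hSinj hflip
    rw [Finset.sum_coe_sort S (fun t => (C t)ᴴ * Y' * C t)]
    have e : dd ℓ * (S.card : ℂ) = (k : ℂ) := by
      rw [dd_re_pos, hk]
      push_cast
      rfl
    rw [e] at this
    exact this
  have hmain := col_cs hY2P hY'P (fun t : ↥S => C t) (fun t : ↥S => Xh t * (T t * dp R)) hkpos hcol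
  have hsumeq : ∑ t ∈ S, (C t)ᴴ * (Xh t * (T t * dp R)) =
      ∑ t : ↥S, (C t)ᴴ * (Xh t * (T t * dp R)) :=
    (Finset.sum_coe_sort S (fun t => (C t)ᴴ * (Xh t * (T t * dp R)))).symm
  rw [hsumeq]
  refine hmain.trans ?_
  refine mul_le_mul_of_nonneg_left ?_ hkpos.le
  rw [Finset.mul_sum, ← Finset.sum_coe_sort S]
  refine Finset.sum_le_sum (fun t _ => ?_)
  -- one term
  set t' : Tok → Bool := t.1 with ht'
  have htS : t' ∈ S := t.2
  set M := (Xh t')ᴴ * Y'⁻¹ * Xh t' with hM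
  have hMP : M.PosSemidef := hY'P.inv.posSemidef.conjTranspose_mul_mul_same _
  have hMi : M * PiB2 ℓ' t' = M := by
    rw [hM, hXh]
    simp only [Matrix.mul_assoc, dp_idem]
  have hcomm : T t' * dp R = dp R * T t' := by
    simp only [hT]
    calc PiB2 ℓ' t' * PP κ od * PiB2 ℓ' s' * dp R
        = PiB2 ℓ' t' * PP κ od * (PiB2 ℓ' s' * dp R) := by simp only [Matrix.mul_assoc]
      _ = PiB2 ℓ' t' * (PP κ od * dp R) * PiB2 ℓ' s' := by
          rw [dp_comm]; simp only [Matrix.mul_assoc]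
      _ = (PiB2 ℓ' t' * dp R) * PP κ od * PiB2 ℓ' s' := by
          rw [hR]; simp only [Matrix.mul_assoc]
      _ = _ := by rw [dp_comm]; simp only [Matrix.mul_assoc]
  have hTb := T_mul_conj_le od ℓ' t' s' (hSinj' t' htS) hinj'
  have hQ := conj_psd R hTb
  have hnn := trace_mul_psd_nonneg hMP hQ
  have hexp : hs Y' (Xh t' * (T t' * dp R)) = (M * (dp R * (T t' * (T t')ᴴ) * dp R)).trace.re :=
    hs_mul_eq Y' (Xh t') (T t') (dp R) (dp_conjTranspose R) hcomm
  rw [hexp]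
  have hexp2 : (M * (dp R * (dd ℓ' • PiB2 ℓ' t' - T t' * (T t')ᴴ) * dp R)).trace.re =
      (1 / 4 : ℝ) ^ occ ℓ' * (M * dp R).trace.re -
        (M * (dp R * (T t' * (T t')ᴴ) * dp R)).trace.re := by
    rw [dd_re_pos]
    exact trace_step M (dp R) (PiB2 ℓ' t') _ _ hMi (dp_comm _ _) (dp_idem _)
  rw [hexp2] at hnn
  linarith

end Rec

end Crest.Agent.S0222Lib.JCore
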