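import Crest.Agent.S0222Lib.JMain

/-!
# S0222: Theorem J, the split of the content

For an additive content `f` on letters:
* `cont f w`, `R2 f α v`: the content of a word, the pair words with total content `α`;
* `PP_comm_R2`: the pair symmetrizer commutes with the projection on `R2 f α`;
* `zq Y Z f u u' α`: the dressed block of `Z` restricted to content `α`, `hs_eq_zq`;
* `trace_dbl_R2`: the trace of a doubled block on content `α` is the convolution of the traces.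
-/

set_option autoImplicit false
set_option linter.unusedSectionVars false

namespace Crest.Agent.S0222Lib.JCore

open Matrix
open scoped Kronecker ComplexOrder
open Crest.Agent.S0222Lib.Site

section Split

variable {κ Tok Col A : Type*} [Fintype κ] [DecidableEq κ] [Fintype Tok] [DecidableEq Tok]
  [Fintype Col] [DecidableEq Col] [AddCommMonoid A] (od : Tok ⊕ Col → Bool)

/-- The content of a word. -/
def cont (f : Tok ⊕ Col → A) (w : κ → (Tok ⊕ Col)) : A := ∑ p, f (w p)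

/-- The pair words with total content `α`. -/
def R2 (f : Tok ⊕ Col → A) (α : A) (v : κ → (Tok ⊕ Col) × (Tok ⊕ Col)) : Prop :=
  cont f (fun p => (v p).1) + cont f (fun p => (v p).2) = α

lemma R2_eq_sum (f : Tok ⊕ Col → A) (v : κ → (Tok ⊕ Col) × (Tok ⊕ Col)) :
    cont f (fun p => (v p).1) + cont f (fun p => (v p).2) = ∑ p, (f (v p).1 + f (v p).2) := by
  simp only [cont, Finset.sum_add_distrib]

lemma R2_flip (f : Tok ⊕ Col → A) (α : A) {x y : κ → (Tok ⊕ Col) × (Tok ⊕ Col)}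
    (h : ∀ p, y p = x p ∨ y p = (x p).swap) : R2 f α x ↔ R2 f α y := by
  unfold R2
  rw [R2_eq_sum, R2_eq_sum]
  have : (fun p => f (x p).1 + f (x p).2) = fun p => f (y p).1 + f (y p).2 := by
    funext p
    rcases h p with e | e <;> rw [e]
    simp [add_comm]
  simp only [this]

lemma PP_comm_R2 (f : Tok ⊕ Col → A) (α : A) :
    PP κ od * dp (R2 f α) = dp (R2 f α) * PP κ od := by
  classical
  ext x y
  rw [mul_dp_apply, dp_mul_apply]
  by_cases h0 : PP κ od x y = 0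
  · change (if R2 f α y then PP κ od x y else 0) = (if R2 f α x then PP κ od x y else 0) 
    rw [h0]
    simp
  · have := R2_flip f α (PP_ne_zero_imp od h0)
    by_cases hR : R2 f α x
    · rw [if_pos hR, if_pos (this.1 hR)]
    · rw [if_neg hR, if_neg (fun h => hR (this.2 h))]

/-- The dressed block of `Z` restricted to content `α`. -/
noncomputable def zq (Y Z : Matrix (κ → (Tok ⊕ Col)) (κ → (Tok ⊕ Col)) ℂ) (f : Tok ⊕ Col → A)
    (u u' : Tok → Option κ) (α : A) : ℝ :=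
  (Gm Y Z u u' * dp (fun w => cont f w = α)).trace.re

lemma hs_mul_dp {n : Type*} [Fintype n] [DecidableEq n] (Y X : Matrix n n ℂ) (Q : n → Prop) :
    hs Y (X * dp Q) = (Xᴴ * Y⁻¹ * X * dp Q).trace.re := by
  unfold hs
  rw [Matrix.conjTranspose_mul, dp_conjTranspose]
  congr 1
  calc (dp Q * Xᴴ * Y⁻¹ * (X * dp Q)).trace = (dp Q * (Xᴴ * Y⁻¹ * X * dp Q)).trace := by
        simp only [Matrix.mul_assoc]
    _ = (Xᴴ * Y⁻¹ * X * dp Q * dp Q).trace := Matrix.trace_mul_comm _ _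
    _ = _ := by rw [Matrix.mul_assoc (Xᴴ * Y⁻¹ * X), dp_idem]

lemma hs_eq_zq (Y Z : Matrix (κ → (Tok ⊕ Col)) (κ → (Tok ⊕ Col)) ℂ) (f : Tok ⊕ Col → A)
    (u u' : Tok → Option κ) (α : A) :
    hs Y (PiB u * Z * PiB u' * dp (fun w => cont f w = α)) = zq Y Z f u u' α :=
  hs_mul_dp Y _ _

lemma zq_nonneg {Y : Matrix (κ → (Tok ⊕ Col)) (κ → (Tok ⊕ Col)) ℂ} (hY : Y.PosDef)
    (Z : Matrix (κ → (Tok ⊕ Col)) (κ → (Tok ⊕ Col)) ℂ) (f : Tok ⊕ Col → A)
    (u u' : Tok → Option κ) (α : A) : 0 ≤ zq Y Z f u u' α := by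
  rw [← hs_eq_zq]
  exact hs_nonneg hY _

/-- The trace against a diagonal projection. -/
lemma trace_mul_dp {n : Type*} [Fintype n] [DecidableEq n] (G : Matrix n n ℂ) (Q : n → Prop)
    [DecidablePred Q] : (G * dp Q).trace = ∑ x, if Q x then G x x else 0 := by
  simp only [Matrix.trace, Matrix.diag_apply, mul_dp_apply]

lemma diag_im_zero {n : Type*} {G : Matrix n n ℂ} (h : G.IsHermitian) (x : n) : (G x x).im = 0 := by
  have := h.apply x x
  have h2 := congrArg Complex.im this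
  simp only [Complex.star_def, Complex.conj_im] at h2
  linarith

/-- **The split of the content.** -/
theorem trace_dbl_R2 (G₀ G₁ : Matrix (κ → (Tok ⊕ Col)) (κ → (Tok ⊕ Col)) ℂ)
    (h₀ : G₀.IsHermitian) (h₁ : G₁.IsHermitian) (f : Tok ⊕ Col → A) (α : A)
    [DecidableEq A] (F : Finset A) (hF : ∀ w : κ → (Tok ⊕ Col), cont f w ∈ F) :
    (dbl G₀ G₁ * dp (R2 f α)).trace.re =
      ∑ α₀ ∈ F, ∑ α₁ ∈ F, if α₀ + α₁ = α then
        (G₀ * dp (fun w => cont f w = α₀)).trace.re * (G₁ * dp (fun w => cont f w = α₁)).trace.re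
        else 0 := by
  classical
  set g₀ : (κ → (Tok ⊕ Col)) → ℝ := fun w => (G₀ w w).re with hg₀
  set g₁ : (κ → (Tok ⊕ Col)) → ℝ := fun w => (G₁ w w).re with hg₁
  have hz : ∀ (G : Matrix (κ → (Tok ⊕ Col)) (κ → (Tok ⊕ Col)) ℂ) (β : A),
      (G * dp (fun w => cont f w = β)).trace.re = ∑ w, if cont f w = β then (G w w).re else 0 := by
    intro G β
    rw [trace_mul_dp, Complex.re_sum]
    refine Finset.sum_congr rfl (fun w _ => ?_)
    split_ifs <;> simp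
  have hL : (dbl G₀ G₁ * dp (R2 f α)).trace.re =
      ∑ w₀, ∑ w₁, if cont f w₀ + cont f w₁ = α then g₀ w₀ * g₁ w₁ else 0 := by
    rw [trace_mul_dp, Complex.re_sum, ← Equiv.sum_comp (splitW (κ := κ) (ι := Tok ⊕ Col)).symm,
      Fintype.sum_prod_type]
    refine Finset.sum_congr rfl (fun w₀ _ => Finset.sum_congr rfl (fun w₁ _ => ?_))
    have e1 : R2 f α ((splitW (κ := κ) (ι := Tok ⊕ Col)).symm (w₀, w₁)) ↔
        cont f w₀ + cont f w₁ = α := Iff.rfl
    by_cases h : cont f w₀ + cont f w₁ = α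
    · rw [if_pos (e1.2 h), if_pos h]
      have e2 : dbl G₀ G₁ ((splitW (κ := κ) (ι := Tok ⊕ Col)).symm (w₀, w₁))
          ((splitW (κ := κ) (ι := Tok ⊕ Col)).symm (w₀, w₁)) = G₀ w₀ w₀ * G₁ w₁ w₁ := rfl
      rw [e2, Complex.mul_re, diag_im_zero h₀, zero_mul, sub_zero]
    · rw [if_neg (fun h' => h (e1.1 h')), if_neg h]
      simp
  rw [hL]
  simp only [hz]
  -- expand the right side
  have hR : ∀ α₀ ∈ F, ∀ α₁ ∈ F,
      (if α₀ + α₁ = α then
        (∑ w, if cont f w = α₀ then (G₀ w w).re else 0) *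
          (∑ w, if cont f w = α₁ then (G₁ w w).re else 0) else 0) =
      ∑ w₀, ∑ w₁, if (cont f w₀ = α₀ ∧ cont f w₁ = α₁ ∧ α₀ + α₁ = α) then g₀ w₀ * g₁ w₁ else 0 := by
    intro α₀ _ α₁ _
    by_cases hα : α₀ + α₁ = α
    · rw [if_pos hα, Finset.sum_mul]
      refine Finset.sum_congr rfl (fun w₀ _ => ?_)
      rw [Finset.mul_sum]
      refine Finset.sum_congr rfl (fun w₁ _ => ?_)
      by_cases h0 : cont f w₀ = α₀ <;> by_cases h1 : cont f w₁ = α₁ <;> simp [h0, h1, hα, hg₀, hg₁]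
    · rw [if_neg hα]
      simp [hα]
  rw [Finset.sum_congr rfl (fun α₀ h₀' => Finset.sum_congr rfl (fun α₁ h₁' => hR α₀ h₀' α₁ h₁'))]
  -- exchange the sums
  have hex : ∑ α₀ ∈ F, ∑ α₁ ∈ F, ∑ w₀, ∑ w₁,
      (if (cont f w₀ = α₀ ∧ cont f w₁ = α₁ ∧ α₀ + α₁ = α) then g₀ w₀ * g₁ w₁ else 0) =
      ∑ w₀, ∑ w₁, ∑ α₀ ∈ F, ∑ α₁ ∈ F,
      (if (cont f w₀ = α₀ ∧ cont f w₁ = α₁ ∧ α₀ + α₁ = α) then g₀ w₀ * g₁ w₁ else 0) := by
    calc _ = ∑ α₀ ∈ F, ∑ w₀, ∑ α₁ ∈ F, ∑ w₁,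
          (if (cont f w₀ = α₀ ∧ cont f w₁ = α₁ ∧ α₀ + α₁ = α) then g₀ w₀ * g₁ w₁ else 0) := by
          refine Finset.sum_congr rfl (fun α₀ _ => ?_)
          rw [Finset.sum_comm]
      _ = ∑ w₀, ∑ α₀ ∈ F, ∑ α₁ ∈ F, ∑ w₁,
          (if (cont f w₀ = α₀ ∧ cont f w₁ = α₁ ∧ α₀ + α₁ = α) then g₀ w₀ * g₁ w₁ else 0) :=
          Finset.sum_comm
      _ = ∑ w₀, ∑ α₀ ∈ F, ∑ w₁, ∑ α₁ ∈ F,
          (if (cont f w₀ = α₀ ∧ cont f w₁ = α₁ ∧ α₀ + α₁ = α) then g₀ w₀ * g₁ w₁ else 0) := by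
          refine Finset.sum_congr rfl (fun w₀ _ => Finset.sum_congr rfl (fun α₀ _ => ?_))
          rw [Finset.sum_comm]
      _ = _ := by
          refine Finset.sum_congr rfl (fun w₀ _ => ?_)
          rw [Finset.sum_comm]
  rw [hex]
  refine Finset.sum_congr rfl (fun w₀ _ => Finset.sum_congr rfl (fun w₁ _ => ?_))
  rw [Finset.sum_eq_single (cont f w₀), Finset.sum_eq_single (cont f w₁)]
  · simp
  · intro β _ hβ
    simp [Ne.symm hβ]
  · intro h
    exact absurd (hF w₁) h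
  · intro β _ hβ
    refine Finset.sum_eq_zero (fun γ _ => ?_)
    rw [if_neg]
    rintro ⟨h, -, -⟩
    exact hβ h.symm
  · intro h
    exact absurd (hF w₀) h

end Split

end Crest.Agent.S0222Lib.JCore
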