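import Crest.Agent.S0222Lib.JTrans

/-!
# S0222: Theorem J, the recursion step

`J_step`: with `MM Y Z f T α = ∑_{u, u' with domain T} zq Y Z f u u' α`, the dressed sum at level
`D + 1` is bounded by the convolution of the dressed sums at level `D`:
`MM' T α ≤ 2^{-|T|} ∑_{T₀ ⊆ T} κ_D(|T₀|, |T \ T₀|) ∑_{α₀ + α₁ = α} MM T₀ α₀ · MM (T \ T₀) α₁`.
-/

set_option autoImplicit false
set_option linter.unusedSectionVars false
set_option linter.unusedSimpArgs false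

namespace Crest.Agent.S0222Lib.JCore

open Matrix
open scoped Kronecker ComplexOrder
open Crest.Agent.S0222Lib.Site Crest.Agent.S0222Lib.WordRep Crest.Agent.S0222Lib.Decouple

section Step

variable {D : ℕ} {Tok Col A : Type*} [Fintype Tok] [DecidableEq Tok] [Fintype Col] [DecidableEq Col]
  [AddCommMonoid A] (od : Tok ⊕ Col → Bool)

/-- The dressed sum over placements with domain `T`. -/
noncomputable def MM (Y Z : Matrix (B D → (Tok ⊕ Col)) (B D → (Tok ⊕ Col)) ℂ)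
    (f : Tok ⊕ Col → A) (T : Finset Tok) (α : A) : ℝ :=
  MMz (fun u u' => zq Y Z f u u' α) T

lemma MM_nonneg {Y : Matrix (B D → (Tok ⊕ Col)) (B D → (Tok ⊕ Col)) ℂ} (hY : Y.PosDef)
    (Z : Matrix (B D → (Tok ⊕ Col)) (B D → (Tok ⊕ Col)) ℂ)
    (f : Tok ⊕ Col → A) (T : Finset Tok) (α : A) : 0 ≤ MM Y Z f T α :=
  MMz_nonneg (fun _ _ => zq_nonneg hY Z f _ _ _) T

/-- The dressed block at level `D + 1` in pair word coordinates. -/
lemma zq_succ (Y' Z' : Matrix (B (D + 1) → (Tok ⊕ Col)) (B (D + 1) → (Tok ⊕ Col)) ℂ)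
    (f : Tok ⊕ Col → A) (U U' : Tok → Option (B (D + 1))) (α : A) :
    zq Y' Z' f U U' α =
      hs (Matrix.reindex (pairE (Tok ⊕ Col) D) (pairE (Tok ⊕ Col) D) Y')
        (PiB2 (lowP U) (topP U) * Matrix.reindex (pairE (Tok ⊕ Col) D) (pairE (Tok ⊕ Col) D) Z' *
          PiB2 (lowP U') (topP U') * dp (R2 f α)) := by
  rw [← hs_eq_zq, ← hs_reindex (pairE (Tok ⊕ Col) D), rei_mul, rei_mul, rei_mul, reindex_PiB,
    reindex_PiB, reindex_dp_cont]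

/-- Linear algebra of the sums. -/
lemma sum_double_zq (T : Finset Tok) (z : (Tok → Option (B (D + 1))) → (Tok → Option (B (D + 1))) → ℝ) :
    MMz z T = ∑ ℓ ∈ Dom (B D) T, ∑ ℓ' ∈ Dom (B D) T, ∑ s ∈ Off ℓ, ∑ s' ∈ Off ℓ',
      z (mkP ℓ s) (mkP ℓ' s') := by
  unfold MMz
  rw [sum_Dom_succ]
  simp only [sum_Dom_succ]
  refine Finset.sum_congr rfl (fun ℓ _ => ?_)
  rw [Finset.sum_comm]

lemma sum4_comm {X X' : Type*} (S : Finset X) (F : Finset X') (G : X → X → X' → X' → ℝ) :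
    ∑ ℓ ∈ S, ∑ ℓ' ∈ S, ∑ α₀ ∈ F, ∑ α₁ ∈ F, G ℓ ℓ' α₀ α₁ =
      ∑ α₀ ∈ F, ∑ α₁ ∈ F, ∑ ℓ ∈ S, ∑ ℓ' ∈ S, G ℓ ℓ' α₀ α₁ := by
  calc _ = ∑ ℓ ∈ S, ∑ α₀ ∈ F, ∑ ℓ' ∈ S, ∑ α₁ ∈ F, G ℓ ℓ' α₀ α₁ :=
        Finset.sum_congr rfl (fun ℓ _ => Finset.sum_comm)
    _ = ∑ α₀ ∈ F, ∑ ℓ ∈ S, ∑ ℓ' ∈ S, ∑ α₁ ∈ F, G ℓ ℓ' α₀ α₁ := Finset.sum_comm
    _ = ∑ α₀ ∈ F, ∑ ℓ ∈ S, ∑ α₁ ∈ F, ∑ ℓ' ∈ S, G ℓ ℓ' α₀ α₁ :=
        Finset.sum_congr rfl (fun α₀ _ => Finset.sum_congr rfl (fun ℓ _ => Finset.sum_comm))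
    _ = _ := Finset.sum_congr rfl (fun α₀ _ => Finset.sum_comm)

/-- **The recursion step.** -/
theorem J_step {I : Type*} [Fintype I] [Nonempty I] (w : I → ℝ) (hw : ∀ i, 0 < w i)
    (a : I → Matrix (Tok ⊕ Col) (Tok ⊕ Col) ℂ) (c : I → I → Matrix (Tok ⊕ Col) (Tok ⊕ Col) ℂ)
    (hap : ∀ i, (a i).PosDef) (hcp : ∀ i j, (c i j).PosDef)
    (ha : ∀ i, TokId (a i)) (hc : ∀ i j, TokId (c i j))
    (hae : ∀ i, EvenM od (a i)) (hce : ∀ i j, EvenM od (c i j))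
    (h : ∀ i j, c i j * c i j = (1 / 2 : ℂ) • (a i * a i + a j * a j))
    (Z : Matrix (B D → (Tok ⊕ Col)) (B D → (Tok ⊕ Col)) ℂ) (hZ : PresTok Z)
    (Z' : Matrix (B (D + 1) → (Tok ⊕ Col)) (B (D + 1) → (Tok ⊕ Col)) ℂ)
    {j : (B D → (Tok ⊕ Col) × (Tok ⊕ Col)) → ℂ} (hj : SignPat od j)
    (hZ' : Matrix.reindex (pairE (Tok ⊕ Col) D) (pairE (Tok ⊕ Col) D) Z' =
      Matrix.diagonal j * PP (B D) od * Matrix.diagonal j * dbl Z Z *
        Matrix.diagonal j * PP (B D) od * Matrix.diagonal j)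
    (f : Tok ⊕ Col → A) [DecidableEq A] (F : Finset A) (hF : ∀ v : B D → (Tok ⊕ Col), cont f v ∈ F)
    (hinv : ∀ α, ∀ g ∈ autGroup D, ∀ k ∈ autGroup D, ∀ u u',
      zq (mixY (B D) w a) Z f (fun x => (u x).map g) (fun x => (u' x).map k) α =
        zq (mixY (B D) w a) Z f u u' α)
    (T : Finset Tok) (α : A) :
    MM (mixY (B (D + 1)) (fun i : I × I => w i.1 * w i.2) (fun i => c i.1 i.2)) Z' f T α ≤
      (1 / 2 : ℝ) ^ T.card * ∑ T₀ ∈ T.powerset, kapD D T₀.card (T \ T₀).card *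
        ∑ α₀ ∈ F, ∑ α₁ ∈ F, if α₀ + α₁ = α then
          MM (mixY (B D) w a) Z f T₀ α₀ * MM (mixY (B D) w a) Z f (T \ T₀) α₁ else 0 := by
  classical
  set Y := mixY (B D) (I := I) w a with hY
  have hYP : Y.PosDef := posDef_sum_smul w hw _ (fun i => tp_posDef (fun _ => hap i))
  set Z2 := Matrix.diagonal j * PP (B D) od * Matrix.diagonal j * dbl Z Z *
        Matrix.diagonal j * PP (B D) od * Matrix.diagonal j with hZ2
  set z : A → (Tok → Option (B D)) → (Tok → Option (B D)) → ℝ := fun β u u' => zq Y Z f u u' β with hz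
  have hznn : ∀ β u u', 0 ≤ z β u u' := fun β u u' => zq_nonneg hYP Z f u u' β
  set δ : A → A → ℝ := fun α₀ α₁ => if α₀ + α₁ = α then 1 else 0 with hδ
  have hδnn : ∀ α₀ α₁, 0 ≤ δ α₀ α₁ := by
    intro α₀ α₁
    simp only [hδ]
    split_ifs <;> norm_num
  -- the weight of a pair of low placements
  set W : (Tok → Option (B D)) → (Tok → Option (B D)) → ℝ := fun ℓ ℓ' =>
    (1 / 2 : ℝ) ^ occ ℓ * (1 / 2 : ℝ) ^ occ ℓ' * ((Sset ℓ ℓ').card : ℝ) with hW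
  have hWnn : ∀ ℓ ℓ', 0 ≤ W ℓ ℓ' := fun ℓ ℓ' => by simp only [hW]; positivity
  -- one pair of low placements
  have hpair : ∀ ℓ ∈ Dom (B D) T, ∀ ℓ' ∈ Dom (B D) T,
      ∑ s ∈ Off ℓ, ∑ s' ∈ Off ℓ',
        zq (mixY (B (D + 1)) (fun i : I × I => w i.1 * w i.2) (fun i => c i.1 i.2)) Z' f
          (mkP ℓ s) (mkP ℓ' s') α ≤
      W ℓ ℓ' * ∑ t ∈ Sset ℓ ℓ', ∑ α₀ ∈ F, ∑ α₁ ∈ F, δ α₀ α₁ *
        (z α₀ (resT ℓ t false) (resT ℓ' t false) * z α₁ (resT ℓ t true) (resT ℓ' t true)) := by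
    intro ℓ hℓ ℓ' hℓ'
    have hdom : ∀ x, ℓ x = none ↔ ℓ' x = none := by
      intro x
      have h1 := (mem_Dom.1 hℓ x)
      have h2 := (mem_Dom.1 hℓ' x)
      rw [← Option.not_isSome_iff_eq_none, ← Option.not_isSome_iff_eq_none, h1, h2]
    have hS : ∀ {ℓ₁ : Tok → Option (B D)}, ∀ s ∈ Off ℓ₁, OffDom ℓ₁ s := by
      intro ℓ₁ s hs
      simpa [Off] using hs
    have hb := block_sum od w hw a c hap hcp ha hc hae hce h Z hZ hj ℓ ℓ' hdom (Off ℓ) (Off ℓ')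
      (fun s hs => hS s hs) (fun s hs => hS s hs) (R2 f α) (PP_comm_R2 od f α)
    have e1 : ∑ s ∈ Off ℓ, ∑ s' ∈ Off ℓ',
        zq (mixY (B (D + 1)) (fun i : I × I => w i.1 * w i.2) (fun i => c i.1 i.2)) Z' f
          (mkP ℓ s) (mkP ℓ' s') α =
        ∑ s ∈ Off ℓ, ∑ s' ∈ Off ℓ', hs (mixY2 (B D) w c)
          (PiB2 ℓ s * Z2 * PiB2 ℓ' s' * dp (R2 f α)) := by
      refine Finset.sum_congr rfl (fun s hs₀ => Finset.sum_congr rfl (fun s' hs₀' => ?_))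
      rw [zq_succ, reindex_mixY, hZ', lowP_mkP, lowP_mkP, topP_mkP (hS s hs₀), topP_mkP (hS s' hs₀')]
    rw [e1]
    refine hb.trans (le_of_eq ?_)
    congr 1
    refine Finset.sum_congr rfl (fun t _ => ?_)
    rw [trace_dbl_R2 _ _ (Gm_posSemidef hYP Z _ _).isHermitian (Gm_posSemidef hYP Z _ _).isHermitian
      f α F hF]
    refine Finset.sum_congr rfl (fun α₀ _ => Finset.sum_congr rfl (fun α₁ _ => ?_))
    simp only [hδ]
    split_ifs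
    · rw [one_mul]
      rfl
    · rw [zero_mul]
  -- sum up
  have hexch : ∀ ℓ ℓ', W ℓ ℓ' * ∑ t ∈ Sset ℓ ℓ', ∑ α₀ ∈ F, ∑ α₁ ∈ F, δ α₀ α₁ *
        (z α₀ (resT ℓ t false) (resT ℓ' t false) * z α₁ (resT ℓ t true) (resT ℓ' t true)) =
      ∑ α₀ ∈ F, ∑ α₁ ∈ F, δ α₀ α₁ * (W ℓ ℓ' * ∑ t ∈ Sset ℓ ℓ',
        z α₀ (resT ℓ t false) (resT ℓ' t false) * z α₁ (resT ℓ t true) (resT ℓ' t true)) := by
    intro ℓ ℓ'
    rw [Finset.sum_comm, Finset.mul_sum]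
    refine Finset.sum_congr rfl (fun α₀ _ => ?_)
    rw [Finset.sum_comm, Finset.mul_sum]
    refine Finset.sum_congr rfl (fun α₁ _ => ?_)
    rw [← Finset.mul_sum]
    ring
  have hJ : ∀ α₀ α₁, ∑ ℓ ∈ Dom (B D) T, ∑ ℓ' ∈ Dom (B D) T, W ℓ ℓ' * ∑ t ∈ Sset ℓ ℓ',
        z α₀ (resT ℓ t false) (resT ℓ' t false) * z α₁ (resT ℓ t true) (resT ℓ' t true) ≤
      (1 / 2 : ℝ) ^ T.card * ∑ T₀ ∈ T.powerset, kapD D T₀.card (T \ T₀).card *
        MMz (z α₀) T₀ * MMz (z α₁) (T \ T₀) := by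
    intro α₀ α₁
    exact J_sum T (hznn α₀) (hznn α₁) (fun g hg k hk u u' => hinv α₁ g hg k hk u u')
  unfold MM
  rw [sum_double_zq]
  calc _ ≤ ∑ ℓ ∈ Dom (B D) T, ∑ ℓ' ∈ Dom (B D) T, ∑ α₀ ∈ F, ∑ α₁ ∈ F, δ α₀ α₁ *
        (W ℓ ℓ' * ∑ t ∈ Sset ℓ ℓ',
        z α₀ (resT ℓ t false) (resT ℓ' t false) * z α₁ (resT ℓ t true) (resT ℓ' t true)) := by
        refine Finset.sum_le_sum (fun ℓ hℓ => Finset.sum_le_sum (fun ℓ' hℓ' => ?_))
        rw [← hexch]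
        exact hpair ℓ hℓ ℓ' hℓ'
    _ = ∑ α₀ ∈ F, ∑ α₁ ∈ F, δ α₀ α₁ * ∑ ℓ ∈ Dom (B D) T, ∑ ℓ' ∈ Dom (B D) T,
        (W ℓ ℓ' * ∑ t ∈ Sset ℓ ℓ',
        z α₀ (resT ℓ t false) (resT ℓ' t false) * z α₁ (resT ℓ t true) (resT ℓ' t true)) := by
        rw [sum4_comm]
        refine Finset.sum_congr rfl (fun α₀ _ => Finset.sum_congr rfl (fun α₁ _ => ?_))
        rw [Finset.mul_sum]
        refine Finset.sum_congr rfl (fun ℓ _ => ?_)
        rw [Finset.mul_sum]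
    _ ≤ ∑ α₀ ∈ F, ∑ α₁ ∈ F, δ α₀ α₁ * ((1 / 2 : ℝ) ^ T.card *
        ∑ T₀ ∈ T.powerset, kapD D T₀.card (T \ T₀).card *
        MMz (z α₀) T₀ * MMz (z α₁) (T \ T₀)) := by
        refine Finset.sum_le_sum (fun α₀ _ => Finset.sum_le_sum (fun α₁ _ => ?_))
        exact mul_le_mul_of_nonneg_left (hJ α₀ α₁) (hδnn α₀ α₁)
    _ = _ := by
        have hL : ∀ α₀ α₁, δ α₀ α₁ * ((1 / 2 : ℝ) ^ T.card *
            ∑ T₀ ∈ T.powerset, kapD D T₀.card (T \ T₀).card *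
            MMz (z α₀) T₀ * MMz (z α₁) (T \ T₀)) =
            ∑ x ∈ T.powerset, (1 / 2 : ℝ) ^ T.card * (kapD D x.card (T \ x).card *
              (δ α₀ α₁ * (MMz (z α₀) x * MMz (z α₁) (T \ x)))) := by
          intro α₀ α₁
          rw [Finset.mul_sum, Finset.mul_sum]
          exact Finset.sum_congr rfl (fun x _ => by ring)
        have hR : ∀ x, kapD D x.card (T \ x).card *
            ∑ α₀ ∈ F, ∑ α₁ ∈ F, (if α₀ + α₁ = α then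
              MMz (z α₀) x * MMz (z α₁) (T \ x) else 0) =
            ∑ α₀ ∈ F, ∑ α₁ ∈ F, kapD D x.card (T \ x).card *
              (δ α₀ α₁ * (MMz (z α₀) x * MMz (z α₁) (T \ x))) := by
          intro x
          rw [Finset.mul_sum]
          refine Finset.sum_congr rfl (fun α₀ _ => ?_)
          rw [Finset.mul_sum]
          refine Finset.sum_congr rfl (fun α₁ _ => ?_)
          simp only [hδ]
          split_ifs <;> ring
        simp only [hL]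
        have e3 : ∀ x ∈ T.powerset, kapD D x.card (T \ x).card *
            ∑ α₀ ∈ F, ∑ α₁ ∈ F, (if α₀ + α₁ = α then
              MMz (z α₀) x * MMz (z α₁) (T \ x) else 0) =
            ∑ α₀ ∈ F, ∑ α₁ ∈ F, kapD D x.card (T \ x).card *
              (δ α₀ α₁ * (MMz (z α₀) x * MMz (z α₁) (T \ x))) := fun x _ => hR x
        rw [Finset.sum_congr rfl e3, Finset.mul_sum]
        calc _ = ∑ α₀ ∈ F, ∑ x ∈ T.powerset, ∑ α₁ ∈ F, (1 / 2 : ℝ) ^ T.card *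
              (kapD D x.card (T \ x).card * (δ α₀ α₁ * (MMz (z α₀) x * MMz (z α₁) (T \ x)))) :=
              Finset.sum_congr rfl (fun α₀ _ => Finset.sum_comm)
          _ = ∑ x ∈ T.powerset, ∑ α₀ ∈ F, ∑ α₁ ∈ F, (1 / 2 : ℝ) ^ T.card *
              (kapD D x.card (T \ x).card * (δ α₀ α₁ * (MMz (z α₀) x * MMz (z α₁) (T \ x)))) :=
              Finset.sum_comm
          _ = _ := by
              refine Finset.sum_congr rfl (fun x _ => ?_)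
              rw [Finset.mul_sum]
              refine Finset.sum_congr rfl (fun α₀ _ => ?_)
              rw [Finset.mul_sum]

end Step

end Crest.Agent.S0222Lib.JCore
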