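import Crest.Agent.S0222Lib.JGraph
import Crest.Agent.S0222Lib.DecoupleBridge

/-!
# S0222: Theorem J, the combinatorial sum

Partial placements `u : Tok → Option κ` with domain a finset `T` of tokens (`Dom κ T`).  For two
functions `z₀, z₁` of pairs of partial placements, `z₁` invariant under the action of the tree
automorphisms, `J_sum` bounds the sum over all placements of the tokens `T` and all their compatible
splits, with the weight of the block recursion, by the sum over the subsets `T₀ ⊆ T`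
of `κ(|T₀|, |T \ T₀|) · (∑ z₀ over T₀) · (∑ z₁ over T \ T₀)`.
-/

set_option autoImplicit false
set_option linter.unusedSectionVars false
set_option linter.unusedSimpArgs false

namespace Crest.Agent.S0222Lib.JCore

open Finset
open Crest.Agent.S0222Lib.Decouple

section Placements

variable {Tok κ : Type*} [Fintype Tok] [DecidableEq Tok] [Fintype κ] [DecidableEq κ]

open Classical in
/-- The partial placements with domain `T`. -/
noncomputable def Dom (κ : Type*) [Fintype κ] (T : Finset Tok) : Finset (Tok → Option κ) :=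
  univ.filter (fun u => ∀ a, (u a).isSome = true ↔ a ∈ T)

lemma mem_Dom {T : Finset Tok} {u : Tok → Option κ} :
    u ∈ Dom κ T ↔ ∀ a, (u a).isSome = true ↔ a ∈ T := by
  classical
  simp [Dom]

/-- The sum of a function over pairs of placements with domain `T`. -/
noncomputable def MMz (z : (Tok → Option κ) → (Tok → Option κ) → ℝ) (T : Finset Tok) : ℝ :=
  ∑ u ∈ Dom κ T, ∑ u' ∈ Dom κ T, z u u'

lemma MMz_nonneg {z : (Tok → Option κ) → (Tok → Option κ) → ℝ} (hz : ∀ u u', 0 ≤ z u u')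
    (T : Finset Tok) : 0 ≤ MMz z T :=
  sum_nonneg (fun _ _ => sum_nonneg (fun _ _ => hz _ _))

variable [Inhabited κ]

/-- The total function on `T` of a partial placement. -/
def tot (T : Finset Tok) (u : Tok → Option κ) : T → κ := fun x => (u x.1).getD default

lemma eq_some_tot {T : Finset Tok} {u : Tok → Option κ} (hu : u ∈ Dom κ T) {a : Tok} (ha : a ∈ T) :
    u a = some (tot T u ⟨a, ha⟩) := by
  have h := (mem_Dom.1 hu a).2 ha
  obtain ⟨b, hb⟩ := Option.isSome_iff_exists.1 h
  simp [tot, hb]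

lemma eq_none_of_not_mem {T : Finset Tok} {u : Tok → Option κ} (hu : u ∈ Dom κ T) {a : Tok}
    (ha : a ∉ T) : u a = none := by
  have h := (mem_Dom.1 hu a).not.2 ha
  simpa using h

variable (T : Finset Tok) (t : Tok → Bool)

/-- The split of `T` given by `t`. -/
def spl : T → Bool := fun x => t x.1

/-- The extension by `none` of a placement of the tokens of `T` on side `b`. -/
def ofHalf (b : Bool) (e : {x : T // spl T t x = b} → κ) : Tok → Option κ := fun a =>
  if h : a ∈ T then (if h2 : t a = b then some (e ⟨⟨a, h⟩, h2⟩) else none) else none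

/-- Gluing the two sides. -/
def glue (e₀ : {x : T // spl T t x = false} → κ) (e₁ : {x : T // spl T t x = true} → κ) :
    Tok → Option κ := fun a =>
  if h : a ∈ T then
    (if h2 : t a = false then some (e₀ ⟨⟨a, h⟩, h2⟩)
      else some (e₁ ⟨⟨a, h⟩, by simpa [spl] using h2⟩))
  else none

variable {T t}

lemma glue_mem_Dom (e₀ : {x : T // spl T t x = false} → κ) (e₁ : {x : T // spl T t x = true} → κ) :
    glue T t e₀ e₁ ∈ Dom κ T := by
  rw [mem_Dom]
  intro a
  unfold glue
  by_cases h : a ∈ T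
  · by_cases h2 : t a = false <;> simp [h, h2]
  · simp [h]

lemma tot_glue (e₀ : {x : T // spl T t x = false} → κ) (e₁ : {x : T // spl T t x = true} → κ)
    (y : {x : T // spl T t x = false}) : half (spl T t) false (tot T (glue T t e₀ e₁)) y = e₀ y := by
  obtain ⟨⟨a, ha⟩, hy⟩ := y
  have h2 : t a = false := hy
  simp [half, tot, glue, ha, h2]

lemma tot_glue' (e₀ : {x : T // spl T t x = false} → κ) (e₁ : {x : T // spl T t x = true} → κ)
    (y : {x : T // spl T t x = true}) : half (spl T t) true (tot T (glue T t e₀ e₁)) y = e₁ y := by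
  obtain ⟨⟨a, ha⟩, hy⟩ := y
  have h2 : t a = true := hy
  simp [half, tot, glue, ha, h2]

lemma glue_half {u : Tok → Option κ} (hu : u ∈ Dom κ T) :
    glue T t (half (spl T t) false (tot T u)) (half (spl T t) true (tot T u)) = u := by
  funext a
  unfold glue half
  by_cases h : a ∈ T
  · rw [eq_some_tot hu h]
    by_cases h2 : t a = false <;> simp [h, h2]
  · rw [eq_none_of_not_mem hu h]
    simp [h]

lemma resT_eq_ofHalf {u : Tok → Option κ} (hu : u ∈ Dom κ T) (b : Bool) :
    JCore.resT u t b = ofHalf T t b (half (spl T t) b (tot T u)) := by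
  funext a
  unfold JCore.resT ofHalf half
  by_cases h : a ∈ T
  · by_cases h2 : t a = b
    · rw [if_pos h2, eq_some_tot hu h]
      simp [h, h2]
    · rw [if_neg h2]
      simp [h, h2]
  · rw [eq_none_of_not_mem hu h]
    simp [h]

lemma ofHalf_mem_Dom (b : Bool) (e : {x : T // spl T t x = b} → κ) :
    ofHalf T t b e ∈ Dom κ (T.filter (fun a => t a = b)) := by
  rw [mem_Dom]
  intro a
  unfold ofHalf
  by_cases h : a ∈ T
  · by_cases h2 : t a = b <;> simp [h, h2]
  · simp [h]

lemma ofHalf_injective (b : Bool) : Function.Injective (ofHalf (κ := κ) T t b) := by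
  intro e e' h
  funext y
  obtain ⟨⟨a, ha⟩, hy⟩ := y
  have h2 : t a = b := hy
  have := congrFun h a
  simp only [ofHalf, ha, h2, dite_true] at this
  simpa using this

lemma ofHalf_map (b : Bool) (e : {x : T // spl T t x = b} → κ) (g : κ → κ) :
    ofHalf T t b (g ∘ e) = fun a => (ofHalf T t b e a).map g := by
  funext a
  unfold ofHalf
  by_cases h : a ∈ T
  · by_cases h2 : t a = b <;> simp [h, h2]
  · simp [h]

lemma occ_eq_card {T : Finset Tok} {u : Tok → Option κ} (hu : u ∈ Dom κ T) :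
    JCore.occ u = (univ.image (tot T u)).card := by
  classical
  unfold JCore.occ
  congr 1
  ext p
  rw [Finset.mem_filter, Finset.mem_image]
  constructor
  · rintro ⟨-, a, ha⟩
    have hT : a ∈ T := (mem_Dom.1 hu a).1 (by simp [ha])
    refine ⟨⟨a, hT⟩, Finset.mem_univ _, ?_⟩
    have := eq_some_tot hu hT
    rw [ha] at this
    exact (Option.some.inj this).symm
  · rintro ⟨⟨a, hT⟩, -, rfl⟩
    exact ⟨Finset.mem_univ _, a, eq_some_tot hu hT⟩

lemma spl_mem_compat {T : Finset Tok} {t : Tok → Bool} {u u' : Tok → Option κ}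
    (hu : u ∈ Dom κ T) (hu' : u' ∈ Dom κ T) (ht : t ∈ JCore.Sset u u') :
    spl T t ∈ compat (tot T u) (tot T u') := by
  classical
  rw [mem_compat]
  have ht' := (mem_filter.1 ht).2
  rintro ⟨a, ha⟩ ⟨b, hb⟩ hne hor hS
  have hne' : a ≠ b := fun h => hne (Subtype.ext h)
  have hSt : t a = t b := hS
  rcases hor with e | e
  · exact hne' (ht'.2.1 a b _ (eq_some_tot hu ha) ((eq_some_tot hu hb).trans (by rw [e])) hSt)
  · exact hne' (ht'.2.2 a b _ (eq_some_tot hu' ha) ((eq_some_tot hu' hb).trans (by rw [e])) hSt)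

lemma card_Sset_le {T : Finset Tok} {u u' : Tok → Option κ}
    (hu : u ∈ Dom κ T) (hu' : u' ∈ Dom κ T) :
    (JCore.Sset u u').card ≤ (compat (tot T u) (tot T u')).card := by
  classical
  refine Finset.card_le_card_of_injOn (fun t => spl T t)
    (fun t ht => spl_mem_compat hu hu' ht) ?_
  intro t ht t' ht' e
  have h1 := (mem_filter.1 (Finset.mem_coe.1 ht)).2.1
  have h2 := (mem_filter.1 (Finset.mem_coe.1 ht')).2.1
  funext a
  by_cases ha : a ∈ T
  · exact congrFun e ⟨a, ha⟩
  · rw [h1 a (eq_none_of_not_mem hu ha), h2 a (eq_none_of_not_mem hu ha)]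

/-- The weight of the block recursion is bounded by the cycle weight. -/
lemma weight_le {T : Finset Tok} {t : Tok → Bool} {u u' : Tok → Option κ}
    (hu : u ∈ Dom κ T) (hu' : u' ∈ Dom κ T) (ht : t ∈ JCore.Sset u u') :
    (1 / 2 : ℝ) ^ JCore.occ u * (1 / 2 : ℝ) ^ JCore.occ u' * ((JCore.Sset u u').card : ℝ) ≤
      (1 / 2 : ℝ) ^ T.card *
        (pairW (half (spl T t) false (tot T u)) (half (spl T t) false (tot T u'))
          (half (spl T t) true (tot T u)) (half (spl T t) true (tot T u')) : ℝ) := by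
  have h := card_compat_mul_le (spl_mem_compat hu hu' ht)
  rw [Fintype.card_coe] at h
  have h' : ((compat (tot T u) (tot T u')).card : ℝ) * 2 ^ T.card ≤
      2 ^ ((univ.image (tot T u)).card + (univ.image (tot T u')).card) *
        (pairW (half (spl T t) false (tot T u)) (half (spl T t) false (tot T u'))
          (half (spl T t) true (tot T u)) (half (spl T t) true (tot T u')) : ℝ) := by
    exact_mod_cast h
  have hc : ((JCore.Sset u u').card : ℝ) ≤ ((compat (tot T u) (tot T u')).card : ℝ) := by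
    exact_mod_cast card_Sset_le hu hu'
  rw [occ_eq_card hu, occ_eq_card hu']
  set x := (univ.image (tot T u)).card
  set y := (univ.image (tot T u')).card
  set W : ℝ := (pairW (half (spl T t) false (tot T u)) (half (spl T t) false (tot T u'))
          (half (spl T t) true (tot T u)) (half (spl T t) true (tot T u')) : ℝ)
  have h2 : (0 : ℝ) < (1 / 2 : ℝ) ^ x * (1 / 2 : ℝ) ^ y * (1 / 2 : ℝ) ^ T.card := by positivity
  have e1 : (1 / 2 : ℝ) ^ x * (1 / 2 : ℝ) ^ y * (2 : ℝ) ^ (x + y) = 1 := by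
    rw [pow_add, ← mul_assoc, mul_comm _ ((2 : ℝ) ^ x), ← mul_assoc, ← mul_pow]
    norm_num
    rw [← mul_pow]
    norm_num
  have e2 : (1 / 2 : ℝ) ^ T.card * (2 : ℝ) ^ T.card = 1 := by
    rw [← mul_pow]
    norm_num
  calc (1 / 2 : ℝ) ^ x * (1 / 2 : ℝ) ^ y * ((JCore.Sset u u').card : ℝ)
      ≤ (1 / 2 : ℝ) ^ x * (1 / 2 : ℝ) ^ y * ((compat (tot T u) (tot T u')).card : ℝ) := by
        gcongr
    _ = (1 / 2 : ℝ) ^ x * (1 / 2 : ℝ) ^ y * (1 / 2 : ℝ) ^ T.card *
          (((compat (tot T u) (tot T u')).card : ℝ) * 2 ^ T.card) := by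
        calc _ = (1 / 2 : ℝ) ^ x * (1 / 2 : ℝ) ^ y * ((compat (tot T u) (tot T u')).card : ℝ) *
              ((1 / 2 : ℝ) ^ T.card * (2 : ℝ) ^ T.card) := by rw [e2, mul_one]
          _ = _ := by ring
    _ ≤ (1 / 2 : ℝ) ^ x * (1 / 2 : ℝ) ^ y * (1 / 2 : ℝ) ^ T.card * (2 ^ (x + y) * W) := by
        gcongr
    _ = ((1 / 2 : ℝ) ^ x * (1 / 2 : ℝ) ^ y * (2 : ℝ) ^ (x + y)) * ((1 / 2 : ℝ) ^ T.card * W) := by
        ring
    _ = _ := by rw [e1, one_mul]

end Placements

section Sum

variable {Tok : Type*} [Fintype Tok] [DecidableEq Tok] {D : ℕ}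

/-- The weight of a split. -/
noncomputable def kapD (D i k : ℕ) : ℝ :=
  if i = 0 ∨ k = 0 then 1 else Real.sqrt (Bd D i * Bd D k)

lemma kapD_nonneg (D i k : ℕ) : 0 ≤ kapD D i k := by
  unfold kapD
  split_ifs
  · exact zero_le_one
  · exact Real.sqrt_nonneg _

variable (T : Finset Tok) (t : Tok → Bool)

lemma card_side (b : Bool) :
    Fintype.card {x : T // spl T t x = b} = (T.filter (fun a => t a = b)).card := by
  rw [← Fintype.card_coe (T.filter (fun a => t a = b))]
  refine Fintype.card_congr ⟨fun y => ⟨y.1.1, Finset.mem_filter.2 ⟨y.1.2, y.2⟩⟩,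
    fun y => ⟨⟨y.1, (Finset.mem_filter.1 y.2).1⟩, (Finset.mem_filter.1 y.2).2⟩, ?_, ?_⟩
  · rintro ⟨⟨a, ha⟩, hy⟩; rfl
  · rintro ⟨a, ha⟩; rfl

/-- The sum over injective placements is at most the sum over partial placements. -/
lemma sum_Plc_le (b : Bool) {z : (Tok → Option (B D)) → (Tok → Option (B D)) → ℝ}
    (hz : ∀ u u', 0 ≤ z u u') :
    ∑ π : Plc {x : T // spl T t x = b} D, z (ofHalf T t b π.1) (ofHalf T t b π.2) ≤
      MMz z (T.filter (fun a => t a = b)) := by
  classical
  set φ : ({x : T // spl T t x = b} ↪ B D) → (Tok → Option (B D)) :=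
    fun e => ofHalf T t b e with hφ
  have hinj : Function.Injective φ := by
    intro e e' h
    exact DFunLike.coe_injective (ofHalf_injective b h)
  have hsub : (univ.image φ) ⊆ Dom (B D) (T.filter (fun a => t a = b)) := by
    intro u hu
    obtain ⟨e, -, rfl⟩ := Finset.mem_image.1 hu
    exact ofHalf_mem_Dom b e
  have e1 : ∑ π : Plc {x : T // spl T t x = b} D, z (ofHalf T t b π.1) (ofHalf T t b π.2) =
      ∑ u ∈ univ.image φ, ∑ u' ∈ univ.image φ, z u u' := by
    rw [Fintype.sum_prod_type, Finset.sum_image (fun x _ y _ h => hinj h)]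
    refine Finset.sum_congr rfl (fun e _ => ?_)
    rw [Finset.sum_image (fun x _ y _ h => hinj h)]
  rw [e1]
  unfold MMz
  calc ∑ u ∈ univ.image φ, ∑ u' ∈ univ.image φ, z u u'
      ≤ ∑ u ∈ univ.image φ, ∑ u' ∈ Dom (B D) (T.filter (fun a => t a = b)), z u u' := by
        refine Finset.sum_le_sum (fun u _ => ?_)
        exact Finset.sum_le_sum_of_subset_of_nonneg hsub (fun _ _ _ => hz _ _)
    _ ≤ _ := by
        refine Finset.sum_le_sum_of_subset_of_nonneg hsub (fun _ _ _ => ?_)
        exact Finset.sum_nonneg (fun _ _ => hz _ _)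

/-- The decoupled sum for one split. -/
theorem split_sum {z₀ z₁ : (Tok → Option (B D)) → (Tok → Option (B D)) → ℝ}
    (h₀ : ∀ u u', 0 ≤ z₀ u u') (h₁ : ∀ u u', 0 ≤ z₁ u u')
    (hinv : ∀ g ∈ WordRep.autGroup D, ∀ k ∈ WordRep.autGroup D, ∀ u u',
      z₁ (fun a => (u a).map g) (fun a => (u' a).map k) = z₁ u u') :
    ∑ p ∈ ((Dom (B D) T) ×ˢ (Dom (B D) T)).filter (fun p => t ∈ JCore.Sset p.1 p.2),
      ((1 / 2 : ℝ) ^ JCore.occ p.1 * (1 / 2 : ℝ) ^ JCore.occ p.2 *
        ((JCore.Sset p.1 p.2).card : ℝ)) *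
      (z₀ (JCore.resT p.1 t false) (JCore.resT p.2 t false) *
        z₁ (JCore.resT p.1 t true) (JCore.resT p.2 t true)) ≤
    (1 / 2 : ℝ) ^ T.card * (kapD D (T.filter (fun a => t a = false)).card
        (T.filter (fun a => t a = true)).card *
      MMz z₀ (T.filter (fun a => t a = false)) * MMz z₁ (T.filter (fun a => t a = true))) := by
  classical
  set S := spl T t with hS
  set τ₀ := {x : T // S x = false} with hτ₀
  set τ₁ := {x : T // S x = true} with hτ₁
  set A := ((Dom (B D) T) ×ˢ (Dom (B D) T)).filter (fun p => t ∈ JCore.Sset p.1 p.2) with hA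
  set Z : ((Tok → Option (B D)) × (Tok → Option (B D))) → ℝ := fun p =>
    z₀ (JCore.resT p.1 t false) (JCore.resT p.2 t false) *
      z₁ (JCore.resT p.1 t true) (JCore.resT p.2 t true) with hZ
  have hZnn : ∀ p, 0 ≤ Z p := fun p => mul_nonneg (h₀ _ _) (h₁ _ _)
  set F : ((Tok → Option (B D)) × (Tok → Option (B D))) → ℝ := fun p =>
    (pairW (half S false (tot T p.1)) (half S false (tot T p.2))
      (half S true (tot T p.1)) (half S true (tot T p.2)) : ℝ) * Z p with hF
  have hFnn : ∀ p, 0 ≤ F p := fun p => mul_nonneg (Nat.cast_nonneg _) (hZnn p)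
  set f : Plc τ₀ D → ℝ := fun π => z₀ (ofHalf T t false π.1) (ofHalf T t false π.2) with hf
  set h : Plc τ₁ D → ℝ := fun π => z₁ (ofHalf T t true π.1) (ofHalf T t true π.2) with hh
  -- step 1
  have step1 : ∑ p ∈ A, ((1 / 2 : ℝ) ^ JCore.occ p.1 * (1 / 2 : ℝ) ^ JCore.occ p.2 *
        ((JCore.Sset p.1 p.2).card : ℝ)) * Z p ≤ (1 / 2 : ℝ) ^ T.card * ∑ p ∈ A, F p := by
    rw [Finset.mul_sum]
    refine Finset.sum_le_sum (fun p hp => ?_)
    have hp' := Finset.mem_filter.1 hp
    have hp1 := Finset.mem_product.1 hp'.1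
    have := weight_le hp1.1 hp1.2 hp'.2
    calc _ ≤ ((1 / 2 : ℝ) ^ T.card * (pairW (half S false (tot T p.1)) (half S false (tot T p.2))
      (half S true (tot T p.1)) (half S true (tot T p.2)) : ℝ)) * Z p :=
          mul_le_mul_of_nonneg_right this (hZnn p)
      _ = _ := by rw [hF]; ring
  -- step 2
  set Ψ : (Plc τ₀ D × Plc τ₁ D) → ((Tok → Option (B D)) × (Tok → Option (B D))) := fun x =>
    (glue T t x.1.1 x.2.1, glue T t x.1.2 x.2.2) with hΨ
  have hsub : A ⊆ univ.image Ψ := by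
    intro p hp
    have hp' := Finset.mem_filter.1 hp
    have hp1 := Finset.mem_product.1 hp'.1
    have hc := Finset.mem_coe.1 (spl_mem_compat hp1.1 hp1.2 hp'.2)
    rw [mem_compat] at hc
    have i1 : ∀ b, Function.Injective (half S b (tot T p.1)) := fun b =>
      half_injective (fun x x' hne e => hc x x' hne (Or.inl e)) b
    have i2 : ∀ b, Function.Injective (half S b (tot T p.2)) := fun b =>
      half_injective (fun x x' hne e => hc x x' hne (Or.inr e)) b
    refine Finset.mem_image.2 ⟨((⟨_, i1 false⟩, ⟨_, i2 false⟩), (⟨_, i1 true⟩, ⟨_, i2 true⟩)),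
      Finset.mem_univ _, ?_⟩
    refine Prod.ext ?_ ?_
    · exact glue_half hp1.1
    · exact glue_half hp1.2
  have hFΨ : ∀ x, F (Ψ x) = f x.1 * h x.2 * (Wp x.1 x.2 : ℝ) := by
    rintro ⟨π₀, π₁⟩
    have d1 : glue T t π₀.1 π₁.1 ∈ Dom (B D) T := glue_mem_Dom _ _
    have d2 : glue T t π₀.2 π₁.2 ∈ Dom (B D) T := glue_mem_Dom _ _
    have a1 : half S false (tot T (glue T t π₀.1 π₁.1)) = π₀.1 := funext (tot_glue _ _)
    have a2 : half S false (tot T (glue T t π₀.2 π₁.2)) = π₀.2 := funext (tot_glue _ _)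
    have a3 : half S true (tot T (glue T t π₀.1 π₁.1)) = π₁.1 := funext (tot_glue' _ _)
    have a4 : half S true (tot T (glue T t π₀.2 π₁.2)) = π₁.2 := funext (tot_glue' _ _)
    simp only [hF, hZ, hΨ, hf, hh, Wp]
    rw [resT_eq_ofHalf d1, resT_eq_ofHalf d2, resT_eq_ofHalf d1, resT_eq_ofHalf d2, a1, a2, a3, a4]
    ring
  have step2 : ∑ p ∈ A, F p ≤ ∑ π₀, ∑ π₁, f π₀ * h π₁ * (Wp π₀ π₁ : ℝ) := by
    calc ∑ p ∈ A, F p ≤ ∑ p ∈ univ.image Ψ, F p :=
          Finset.sum_le_sum_of_subset_of_nonneg hsub (fun _ _ _ => hFnn _)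
      _ ≤ ∑ x, F (Ψ x) := Finset.sum_image_le_of_nonneg (fun _ _ => hFnn _)
      _ = _ := by
          rw [Fintype.sum_prod_type]
          exact Finset.sum_congr rfl (fun π₀ _ => Finset.sum_congr rfl (fun π₁ _ => hFΨ (π₀, π₁)))
  -- step 3
  have hfnn : ∀ π, 0 ≤ f π := fun π => h₀ _ _
  have hhnn : ∀ π, 0 ≤ h π := fun π => h₁ _ _
  have hc0 : Fintype.card τ₀ = (T.filter (fun a => t a = false)).card := card_side T t false
  have hc1 : Fintype.card τ₁ = (T.filter (fun a => t a = true)).card := card_side T t true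
  have hinvh : ∀ g ∈ WordRep.autGroup D, ∀ k ∈ WordRep.autGroup D, ∀ π,
      h (actP g k π) = h π := by
    intro g hg k hk π
    have e1 : ofHalf T t true (actP g k π).1 = fun a => (ofHalf T t true π.1 a).map g :=
      ofHalf_map true π.1 g
    have e2 : ofHalf T t true (actP g k π).2 = fun a => (ofHalf T t true π.2 a).map k :=
      ofHalf_map true π.2 k
    simp only [hh]
    rw [e1, e2]
    exact hinv g hg k hk _ _
  have step3 : ∑ π₀, ∑ π₁, f π₀ * h π₁ * (Wp π₀ π₁ : ℝ) ≤
      kapD D (T.filter (fun a => t a = false)).card (T.filter (fun a => t a = true)).card *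
        (∑ π, f π) * (∑ π, h π) := by
    unfold kapD
    rw [← hc0, ← hc1]
    by_cases he : Fintype.card τ₀ = 0 ∨ Fintype.card τ₁ = 0
    · rw [if_pos he, one_mul]
      rcases he with he | he
      · have : IsEmpty τ₀ := Fintype.card_eq_zero_iff.1 he
        exact le_of_eq (sum_Wp_of_isEmpty_left f h)
      · have : IsEmpty τ₁ := Fintype.card_eq_zero_iff.1 he
        exact le_of_eq (sum_Wp_of_isEmpty_right f h)
    · rw [if_neg he]
      exact sum_Wp_le f h hfnn hhnn hinvh
  -- step 4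
  have hS0 : ∑ π, f π ≤ MMz z₀ (T.filter (fun a => t a = false)) := sum_Plc_le T t false h₀
  have hS1 : ∑ π, h π ≤ MMz z₁ (T.filter (fun a => t a = true)) := sum_Plc_le T t true h₁
  have hSf : 0 ≤ ∑ π, f π := Finset.sum_nonneg (fun _ _ => hfnn _)
  have hSh : 0 ≤ ∑ π, h π := Finset.sum_nonneg (fun _ _ => hhnn _)
  have hk := kapD_nonneg D (T.filter (fun a => t a = false)).card
    (T.filter (fun a => t a = true)).card
  have hM0 := MMz_nonneg h₀ (T.filter (fun a => t a = false))
  calc _ ≤ (1 / 2 : ℝ) ^ T.card * ∑ p ∈ A, F p := step1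
    _ ≤ (1 / 2 : ℝ) ^ T.card * (kapD D (T.filter (fun a => t a = false)).card
        (T.filter (fun a => t a = true)).card * (∑ π, f π) * (∑ π, h π)) :=
        mul_le_mul_of_nonneg_left (step2.trans step3) (by positivity)
    _ ≤ _ :=
        mul_le_mul_of_nonneg_left
          (mul_le_mul (mul_le_mul_of_nonneg_left hS0 hk) hS1 hSh (mul_nonneg hk hM0)) (by positivity)

/-- The sides given by a subset. -/
def sideOf (T T₀ : Finset Tok) (a : Tok) : Bool := decide (a ∈ T ∧ a ∉ T₀)

lemma sideOf_filter_false {T T₀ : Finset Tok} (h : T₀ ⊆ T) :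
    T.filter (fun a => sideOf T T₀ a = false) = T₀ := by
  ext a
  simp only [Finset.mem_filter, sideOf, decide_eq_false_iff_not, not_and, not_not]
  constructor
  · rintro ⟨h1, h2⟩
    exact h2 h1
  · intro ha
    exact ⟨h ha, fun _ => ha⟩

lemma sideOf_filter_true {T T₀ : Finset Tok} :
    T.filter (fun a => sideOf T T₀ a = true) = T \ T₀ := by
  ext a
  simp only [Finset.mem_filter, sideOf, decide_eq_true_eq, Finset.mem_sdiff]
  tauto

lemma eq_sideOf {T : Finset Tok} {t : Tok → Bool} (h : ∀ a, a ∉ T → t a = false) :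
    sideOf T (T.filter (fun a => t a = false)) = t := by
  funext a
  by_cases ha : a ∈ T
  · cases hb : t a <;> simp [sideOf, ha, hb]
  · simp [sideOf, ha, h a ha]

lemma sideOf_injOn {T T₀ T₁ : Finset Tok} (h₀ : T₀ ⊆ T) (h₁ : T₁ ⊆ T)
    (e : sideOf T T₀ = sideOf T T₁) : T₀ = T₁ := by
  rw [← sideOf_filter_false h₀, ← sideOf_filter_false h₁, e]

/-- **The combinatorial sum.** -/
theorem J_sum {z₀ z₁ : (Tok → Option (B D)) → (Tok → Option (B D)) → ℝ}
    (h₀ : ∀ u u', 0 ≤ z₀ u u') (h₁ : ∀ u u', 0 ≤ z₁ u u')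
    (hinv : ∀ g ∈ WordRep.autGroup D, ∀ k ∈ WordRep.autGroup D, ∀ u u',
      z₁ (fun a => (u a).map g) (fun a => (u' a).map k) = z₁ u u') :
    ∑ u ∈ Dom (B D) T, ∑ u' ∈ Dom (B D) T,
      ((1 / 2 : ℝ) ^ JCore.occ u * (1 / 2 : ℝ) ^ JCore.occ u' * ((JCore.Sset u u').card : ℝ)) *
        ∑ t ∈ JCore.Sset u u', z₀ (JCore.resT u t false) (JCore.resT u' t false) *
          z₁ (JCore.resT u t true) (JCore.resT u' t true) ≤
    (1 / 2 : ℝ) ^ T.card * ∑ T₀ ∈ T.powerset, kapD D T₀.card (T \ T₀).card *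
      MMz z₀ T₀ * MMz z₁ (T \ T₀) := by
  classical
  rw [← Finset.sum_product', Finset.mul_sum]
  -- the sum over sides is a sum over subsets
  have hside : ∀ p ∈ (Dom (B D) T) ×ˢ (Dom (B D) T),
      ∀ G : (Tok → Bool) → ℝ, ∑ t ∈ JCore.Sset p.1 p.2, G t =
        ∑ T₀ ∈ T.powerset, if sideOf T T₀ ∈ JCore.Sset p.1 p.2 then G (sideOf T T₀) else 0 := by
    intro p hp G
    have hp1 := Finset.mem_product.1 hp
    have himg : JCore.Sset p.1 p.2 =
        (T.powerset.filter (fun T₀ => sideOf T T₀ ∈ JCore.Sset p.1 p.2)).image (sideOf T) := by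
      ext t
      rw [Finset.mem_image]
      constructor
      · intro ht
        have hoff : ∀ a, a ∉ T → t a = false := fun a ha =>
          (Finset.mem_filter.1 ht).2.1 a (eq_none_of_not_mem hp1.1 ha)
        refine ⟨T.filter (fun a => t a = false), Finset.mem_filter.2
          ⟨Finset.mem_powerset.2 (Finset.filter_subset _ _), ?_⟩, eq_sideOf hoff⟩
        rw [eq_sideOf hoff]
        exact ht
      · rintro ⟨T₀, hT₀, rfl⟩
        exact (Finset.mem_filter.1 hT₀).2
    conv_lhs => rw [himg]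
    rw [Finset.sum_image, Finset.sum_filter]
    intro x hx y hy e
    exact sideOf_injOn (Finset.mem_powerset.1 (Finset.mem_filter.1 hx).1)
      (Finset.mem_powerset.1 (Finset.mem_filter.1 hy).1) e
  have hL : ∑ p ∈ (Dom (B D) T) ×ˢ (Dom (B D) T),
      ((1 / 2 : ℝ) ^ JCore.occ p.1 * (1 / 2 : ℝ) ^ JCore.occ p.2 * ((JCore.Sset p.1 p.2).card : ℝ)) *
        ∑ t ∈ JCore.Sset p.1 p.2, z₀ (JCore.resT p.1 t false) (JCore.resT p.2 t false) *
          z₁ (JCore.resT p.1 t true) (JCore.resT p.2 t true) =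
      ∑ T₀ ∈ T.powerset, ∑ p ∈ ((Dom (B D) T) ×ˢ (Dom (B D) T)).filter
          (fun p => sideOf T T₀ ∈ JCore.Sset p.1 p.2),
        ((1 / 2 : ℝ) ^ JCore.occ p.1 * (1 / 2 : ℝ) ^ JCore.occ p.2 *
          ((JCore.Sset p.1 p.2).card : ℝ)) *
        (z₀ (JCore.resT p.1 (sideOf T T₀) false) (JCore.resT p.2 (sideOf T T₀) false) *
          z₁ (JCore.resT p.1 (sideOf T T₀) true) (JCore.resT p.2 (sideOf T T₀) true)) := by
    rw [Finset.sum_congr rfl (fun p hp => by rw [hside p hp]), ]
    simp only [Finset.mul_sum]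
    rw [Finset.sum_comm]
    refine Finset.sum_congr rfl (fun T₀ _ => ?_)
    rw [Finset.sum_filter]
    refine Finset.sum_congr rfl (fun p _ => ?_)
    split_ifs <;> simp
  rw [hL]
  refine Finset.sum_le_sum (fun T₀ hT₀ => ?_)
  have hsub := Finset.mem_powerset.1 hT₀
  have := split_sum (D := D) T (sideOf T T₀) h₀ h₁ hinv
  rw [sideOf_filter_false hsub, sideOf_filter_true] at this
  exact this

end Sum

end Crest.Agent.S0222Lib.JCore
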