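import Crest.Agent.S0222Lib.JTopCore

/-!
# S0222: Theorem J, the top: from the dressed sum to the bound on the representation

`Family.nsq_lift_le_of_MM`: a member of a complete family of `Perm (B (d+1))` with a vector `v'` which
transforms under the stabiliser of a token-free word `w₀` of content `α` by the sign `epsS`:
if `⟨Φ u, Y Φ u⟩ ≤ y ‖Φ u‖²` and `MM Y Z f ∅ α ≤ M` for `Z` the graded square of one pass, then
`‖(passA d)^ u‖² ≤ √(M y) ‖u‖²`.
-/

set_option autoImplicit false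
set_option linter.unusedSectionVars false
set_option linter.unusedSimpArgs false

namespace Crest.Agent.S0222Lib.SWord

open Matrix MonoidAlgebra
open scoped ComplexOrder
open Crest.Agent.S0222Lib.Planch Crest.Agent.S0222Lib.WordRep Crest.Agent.S0222Lib.JCore

section Spec

variable {n : Type*} [Fintype n] [DecidableEq n]

/-- A Hermitian form is bounded by its largest eigenvalue. -/
lemma form_le_of_eigenvalues {H : Matrix n n ℂ} (hH : H.IsHermitian) {c : ℝ}
    (hc : ∀ j, hH.eigenvalues j ≤ c) (u : n → ℂ) :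
    (star u ⬝ᵥ (H *ᵥ u)).re ≤ c * nsq u := by
  classical
  set U : Matrix n n ℂ := (hH.eigenvectorUnitary : Matrix n n ℂ) with hU
  have hUU : U * star U = 1 := Unitary.coe_mul_star_self hH.eigenvectorUnitary
  have hsp : H = U * diagonal ((RCLike.ofReal : ℝ → ℂ) ∘ hH.eigenvalues) * star U := by
    have := hH.spectral_theorem
    rw [Unitary.conjStarAlgAut_apply] at this
    exact this
  have hdiff : (c : ℂ) • (1 : Matrix n n ℂ) - H =
      U * diagonal (fun j => ((c - hH.eigenvalues j : ℝ) : ℂ)) * star U := by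
    have h1 : diagonal (fun j => ((c - hH.eigenvalues j : ℝ) : ℂ)) =
        (c : ℂ) • (1 : Matrix n n ℂ) - diagonal ((RCLike.ofReal : ℝ → ℂ) ∘ hH.eigenvalues) := by
      ext a b
      by_cases h : a = b
      · subst h
        simp
      · simp [h, Matrix.one_apply]
    rw [h1, Matrix.mul_sub, Matrix.sub_mul, ← hsp, Matrix.mul_smul, Matrix.mul_one, Matrix.smul_mul,
      hUU]
  have hpsd : ((c : ℂ) • (1 : Matrix n n ℂ) - H).PosSemidef := by
    rw [hdiff]
    have h2 : (diagonal (fun j => ((c - hH.eigenvalues j : ℝ) : ℂ))).PosSemidef := by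
      apply Matrix.PosSemidef.diagonal
      intro j
      have : 0 ≤ c - hH.eigenvalues j := sub_nonneg.2 (hc j)
      change (0 : ℂ) ≤ ((c - hH.eigenvalues j : ℝ) : ℂ)
      exact_mod_cast this
    exact h2.mul_mul_conjTranspose_same U
  have h3 := hpsd.dotProduct_mulVec_nonneg u
  rw [Matrix.sub_mulVec, dotProduct_sub, Matrix.smul_mulVec, Matrix.one_mulVec, dotProduct_smul,
    dot_star_self] at h3
  have h4 := (Complex.le_def.mp h3).1
  simp only [Complex.sub_re, Complex.zero_re, smul_eq_mul, Complex.mul_re, Complex.ofReal_re,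
    Complex.ofReal_im, zero_mul, sub_zero] at h4
  linarith

/-- All eigenvalues of `Aᴴ A` bounded implies the bound on `A`. -/
lemma nsq_mulVec_le_of_eigen (A : Matrix n n ℂ) {c : ℝ}
    (hc : ∀ (u : n → ℂ) (l : ℝ), u ≠ 0 → (Aᴴ * A) *ᵥ u = (l : ℂ) • u → l ≤ c) (u : n → ℂ) :
    nsq (A *ᵥ u) ≤ c * nsq u := by
  classical
  have hH : (Aᴴ * A).IsHermitian := Matrix.isHermitian_conjTranspose_mul_self A
  have h1 := form_le_of_eigenvalues hH (c := c) (fun j => by
    refine hc _ _ ((WithLp.ofLp_eq_zero 2).ne.2 (hH.eigenvectorBasis.orthonormal.ne_zero j)) ?_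
    rw [hH.mulVec_eigenvectorBasis j]
    funext a
    simp [Complex.real_smul]) u
  have h2 : star u ⬝ᵥ ((Aᴴ * A) *ᵥ u) = star (A *ᵥ u) ⬝ᵥ (A *ᵥ u) := by
    rw [← Matrix.mulVec_mulVec, Matrix.star_mulVec, Matrix.dotProduct_mulVec, ]
  rw [h2, dot_star_self] at h1
  simpa using h1

end Spec

section Adj

variable {G : Type*} [Group G] [Fintype G] [DecidableEq G]

/-- The adjoint of the real group algebra. -/
noncomputable def rstar (x : MonoidAlgebra ℝ G) : MonoidAlgebra ℝ G :=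
  ∑ g, single g⁻¹ (x.coeff g)

lemma coeff_rstar (x : MonoidAlgebra ℝ G) (h : G) : (rstar x).coeff h = x.coeff h⁻¹ := by
  classical
  unfold rstar
  rw [MonoidAlgebra.coeff_sum, Finsupp.finsetSum_apply]
  rw [Finset.sum_eq_single h⁻¹]
  · simp [MonoidAlgebra.coeff_single]
  · intro g _ hne
    have : g⁻¹ ≠ h := fun e => hne (by rw [← e, inv_inv])
    simp [MonoidAlgebra.coeff_single, this]
  · simp

lemma toC_rstar (x : MonoidAlgebra ℝ G) : toC (rstar x) = cstar (toC x) := by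
  classical
  ext h
  have h1 := coeff_cstar (toC x) h
  have h2 := coeff_toC (rstar x) h
  have h3 := coeff_toC x h⁻¹
  rw [coeff_rstar] at h2
  change (toC (rstar x)).coeff h = (cstar (toC x)).coeff h
  rw [h1, h2, h3]
  simp

end Adj

section Graded

variable {D : ℕ} {L : Type*} [Fintype L] [DecidableEq L] (od : L → Bool)

lemma rhoAS_eq_sum (x : MonoidAlgebra ℝ (Equiv.Perm (B D))) :
    rhoAS od D x = ∑ g, x.coeff g • rhoS bval od g := by
  classical
  induction x using MonoidAlgebra.induction_linear with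
  | zero => simp
  | add x y hx hy =>
    simp only [map_add, hx, hy, MonoidAlgebra.coeff_add, Finsupp.add_apply, add_smul,
      Finset.sum_add_distrib]
  | single g c =>
    rw [rhoAS_single]
    rw [Finset.sum_eq_single g]
    · simp
    · intro h _ hne
      simp [MonoidAlgebra.coeff_single, hne.symm]
    · simp

lemma rhoAS_rstar (x : MonoidAlgebra ℝ (Equiv.Perm (B D))) :
    rhoAS od D (rstar x) = (rhoAS od D x)ᴴ := by
  classical
  rw [rhoAS_eq_sum, rhoAS_eq_sum, Matrix.conjTranspose_sum,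
    ← Equiv.sum_comp (Equiv.inv (Equiv.Perm (B D)))]
  refine Finset.sum_congr rfl fun g _ => ?_
  rw [Equiv.inv_apply, coeff_rstar, inv_inv, Matrix.conjTranspose_smul,
    rhoS_conjTranspose od bval_injective]
  simp

end Graded

section Top

variable {d : ℕ} {Tok Col A : Type*} [Fintype Tok] [DecidableEq Tok] [Fintype Col] [DecidableEq Col]
  [AddCommMonoid A]

/-- **The top of Theorem J**, for a member of a complete family. -/
theorem nsq_lift_le_of_MM (F : Family (Equiv.Perm (B (d + 1)))) (i : Fin F.r)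
    (od : Tok ⊕ Col → Bool) (f : Tok ⊕ Col → A) (α : A) {w₀ : B (d + 1) → (Tok ⊕ Col)}
    (hw₀ : inB (fun _ : Tok => (none : Option (B (d + 1)))) w₀) (hα : cont f w₀ = α)
    {v' : Fin (F.d i) → ℂ}
    (hv : ∀ s : Equiv.Perm (B (d + 1)), w₀ ∘ s = w₀ →
      (F.R i).ρ s *ᵥ v' = epsS bval od s w₀ • v') (hv0 : v' ≠ 0)
    {Y : Matrix (B (d + 1) → (Tok ⊕ Col)) (B (d + 1) → (Tok ⊕ Col)) ℂ} (hY : Y.PosDef) {M y : ℝ}
    (hM : MM Y (Zs od (d + 1)) f (∅ : Finset Tok) α ≤ M)
    (hy : ∀ u, (star (PhiS od (F.R i) w₀ v' u) ⬝ᵥ (Y *ᵥ PhiS od (F.R i) w₀ v' u)).re ≤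
      y * nsq (PhiS od (F.R i) w₀ v' u))
    (u : Fin (F.d i) → ℂ) :
    nsq ((F.R i).lift (toC (passA d)) *ᵥ u) ≤ Real.sqrt (M * y) * nsq u := by
  classical
  set Φ := PhiS od (F.R i) w₀ v' with hΦ
  refine nsq_mulVec_le_of_eigen _ (fun u l hu hl => ?_) u
  have hM0 : 0 ≤ M := (MM_nonneg hY _ _ _ _).trans hM
  by_cases hl0 : l ≤ 0
  · exact hl0.trans (Real.sqrt_nonneg _)
  have hl' : 0 < l := not_le.1 hl0
  -- the equivariance
  have hx : (F.R i).lift (toC (passA d)) = (F.R i).lift (toC (passA d)) := rfl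
  have hZ : Zs od (d + 1) *ᵥ Φ u = (l : ℂ) • Φ u := by
    unfold Zs
    rw [Ts_succ_eq_rho, ← rhoAS_rstar, ← Matrix.mulVec_mulVec, ← PhiS_lift od hv, ← PhiS_lift od hv,
      Matrix.mulVec_mulVec, toC_rstar, URep.lift_cstar, hl, map_smul]
  -- `Φ` is injective
  have hnv : 0 < nsq v' := by
    have h3 : star v' ⬝ᵥ v' ≠ 0 := fun h => hv0 (dotProduct_star_self_eq_zero.1 h)
    rw [dot_star_self] at h3
    have h4 : nsq v' ≠ 0 := fun h => h3 (by rw [h]; simp)
    exact lt_of_le_of_ne (nsq_nonneg _) h4.symm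
  have hnu : 0 < nsq u := by
    have h3 : star u ⬝ᵥ u ≠ 0 := fun h => hu (dotProduct_star_self_eq_zero.1 h)
    rw [dot_star_self] at h3
    have h4 : nsq u ≠ 0 := fun h => h3 (by rw [h]; simp)
    exact lt_of_le_of_ne (nsq_nonneg _) h4.symm
  have hξ0 : 0 < nsq (Φ u) := by
    have h1 := nsq_PhiS od F i hv u
    have hc : (0 : ℝ) < Fintype.card (Equiv.Perm (B (d + 1))) := by exact_mod_cast Fintype.card_pos
    have hd : (0 : ℝ) < F.d i := by exact_mod_cast F.dpos i
    have hst : (0 : ℝ) < stabW w₀ := by exact_mod_cast stabW_pos _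
    have h2 : 0 < (stabW w₀ : ℝ) * nsq (Φ u) := by
      rw [hΦ, h1]
      positivity
    exact (pos_iff_pos_of_mul_pos h2).1 hst
  have hξ : Φ u ≠ 0 := by
    intro h
    rw [h] at hξ0
    simp [nsq] at hξ0
  have hξsupp : ∀ w, Φ u w ≠ 0 → ∃ g : Equiv.Perm (B (d + 1)), w₀ ∘ ⇑g⁻¹ = w := by
    intro w hw
    by_contra h
    exact hw (PhiS_off od u h)
  have hξt : ∀ w, Φ u w ≠ 0 → inB (fun _ : Tok => (none : Option (B (d + 1)))) w := by
    intro w hw
    obtain ⟨g, rfl⟩ := hξsupp w hw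
    intro a p
    have := hw₀ a (g⁻¹ p)
    simpa using this
  have hξc : ∀ w, Φ u w ≠ 0 → cont f w = α := by
    intro w hw
    obtain ⟨g, rfl⟩ := hξsupp w hw
    rw [cont_comp, hα]
  have h1 := lam_sq_le hY (Zs od (d + 1)) f α (Φ u) hξ hξt hξc (l : ℂ) hZ
  have h2 := hy u
  have hYpos : 0 ≤ (star (Φ u) ⬝ᵥ (Y *ᵥ Φ u)).re :=
    (Complex.le_def.mp (hY.posSemidef.dotProduct_mulVec_nonneg _)).1
  have h3 : l ^ 2 * nsq (Φ u) ≤ (M * y) * nsq (Φ u) := by
    have e : ‖(l : ℂ)‖ ^ 2 = l ^ 2 := by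
      rw [Complex.norm_real, Real.norm_eq_abs, sq_abs]
    rw [e] at h1
    calc l ^ 2 * nsq (Φ u) ≤ MM Y (Zs od (d + 1)) f (∅ : Finset Tok) α *
          (star (Φ u) ⬝ᵥ (Y *ᵥ Φ u)).re := h1
      _ ≤ M * (star (Φ u) ⬝ᵥ (Y *ᵥ Φ u)).re := mul_le_mul_of_nonneg_right hM hYpos
      _ ≤ M * (y * nsq (Φ u)) := mul_le_mul_of_nonneg_left h2 hM0
      _ = _ := by ring
  have h4 : l ^ 2 ≤ M * y := le_of_mul_le_mul_right h3 hξ0
  exact Real.le_sqrt_of_sq_le h4

end Top

end Crest.Agent.S0222Lib.SWord
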