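import Crest.Agent.S0222Lib.SpechtTab

/-!
# S0222: columns against rows: the numerical consequence

If `M ≤ μ_r < 2M` for `T` rows and the product of the factorials of the columns of `μ` is at most the product of
the factorials of its rows, then `T ≤ 3M + 3`.

* `card_colOf_eq`: the length of a column of the tableau of a word is the number of rows longer than the column index;
* `T_le_of_col_prod`: the bound.
-/

set_option autoImplicit false
set_option linter.unusedSectionVars false

namespace Crest.Agent.S0222Lib.Shape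

open Finset

/-- The length of the column of the tableau of a word. -/
theorem card_colOf_eq {m T : ℕ} (w₁ : Fin m → Fin T) (μ : Fin T → ℕ)
    (hcont : ∀ r, Specht.content w₁ r = μ r) (c : ℕ) :
    (univ.filter fun a => Specht.colOf w₁ a = c).card = (univ.filter fun r => c < μ r).card := by
  classical
  refine Finset.card_bij (fun a _ => w₁ a) ?_ ?_ ?_
  · intro a ha
    have hc : Specht.colOf w₁ a = c := by simpa using ha
    have := Specht.colOf_lt_content w₁ a
    rw [hc, hcont] at this
    simpa using this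
  · intro a ha b hb h
    have hca : Specht.colOf w₁ a = c := by simpa using ha
    have hcb : Specht.colOf w₁ b = c := by simpa using hb
    exact Specht.colOf_inj w₁ a b h (hca.trans hcb.symm)
  · intro r hr
    have hr' : c < μ r := by simpa using hr
    -- the positions of the row have all the columns below the length
    have himg : (univ.filter fun a => w₁ a = r).image (Specht.colOf w₁) = range (μ r) := by
      apply Finset.eq_of_subset_of_card_le
      · intro x hx
        obtain ⟨a, ha, rfl⟩ := mem_image.1 hx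
        have ha' : w₁ a = r := by simpa using ha
        have := Specht.colOf_lt_content w₁ a
        rw [ha', hcont] at this
        exact mem_range.2 this
      · rw [Finset.card_image_of_injOn, card_range, ← hcont]
        · exact le_of_eq rfl
        · intro a ha b hb h
          have ha' : w₁ a = r := by simpa using ha
          have hb' : w₁ b = r := by simpa using hb
          exact Specht.colOf_inj w₁ a b (ha'.trans hb'.symm) h
    have : c ∈ (univ.filter fun a => w₁ a = r).image (Specht.colOf w₁) := by
      rw [himg]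
      exact mem_range.2 hr'
    obtain ⟨a, ha, hca⟩ := mem_image.1 this
    refine ⟨a, by simpa using hca, by simpa using ha⟩

section Numeric

lemma factorial_le_mul_pow {M x : ℕ} (h1 : M ≤ x) (h2 : x ≤ 2 * M) :
    x.factorial ≤ M.factorial * (2 * M) ^ (x - M) := by
  induction x, h1 using Nat.le_induction with
  | base => simp
  | succ x hx ih =>
    have h3 := ih (by omega)
    have h4 : x + 1 - M = (x - M) + 1 := by omega
    rw [h4, Nat.factorial_succ, pow_succ]
    calc (x + 1) * x.factorial ≤ (2 * M) * (M.factorial * (2 * M) ^ (x - M)) :=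
          Nat.mul_le_mul h2 h3
      _ = _ := by ring

/-- Stirling upper bound, in logarithms. -/
lemma log_factorial_le (M : ℕ) (hM : 1 ≤ M) :
    Real.log M.factorial ≤ 1 + Real.log M + M * Real.log M - M := by
  induction M, hM using Nat.le_induction with
  | base => simp
  | succ M hM ih =>
    have hM0 : (0 : ℝ) < M := by exact_mod_cast hM
    have hM1 : (0 : ℝ) < (M : ℝ) + 1 := by positivity
    rw [Nat.factorial_succ]
    push_cast
    rw [Real.log_mul hM1.ne' (by exact_mod_cast (Nat.factorial_pos M).ne')]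
    have h1 : 1 - ((M + 1 : ℝ) / M)⁻¹ ≤ Real.log ((M + 1 : ℝ) / M) :=
      Real.one_sub_inv_le_log_of_pos (by positivity)
    rw [Real.log_div hM1.ne' hM0.ne'] at h1
    have h2 : 1 - ((M + 1 : ℝ) / M)⁻¹ = 1 / (M + 1) := by
      field_simp
      ring
    rw [h2] at h1
    have h3 : 1 ≤ ((M : ℝ) + 1) * (Real.log (M + 1) - Real.log M) := by
      have := mul_le_mul_of_nonneg_left h1 hM1.le
      rwa [mul_one_div_cancel hM1.ne'] at this
    nlinarith

/-- Lower Stirling bound, in logarithms. -/
lemma le_log_factorial (T : ℕ) (hT : 1 ≤ T) :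
    T * Real.log T - T ≤ Real.log T.factorial := by
  have hT0 : (0 : ℝ) < T := by exact_mod_cast hT
  have hf : (0 : ℝ) < T.factorial := by exact_mod_cast Nat.factorial_pos T
  have h1 := Real.pow_div_factorial_le_exp (x := (T : ℝ)) hT0.le T
  have h2 : Real.log ((T : ℝ) ^ T / T.factorial) ≤ T := by
    calc _ ≤ Real.log (Real.exp T) := Real.log_le_log (by positivity) h1
      _ = T := Real.log_exp _
  rw [Real.log_div (by positivity) hf.ne', Real.log_pow] at h2
  linarith

lemma log_three_ge : (12 / 11 : ℝ) ≤ Real.log 3 := by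
  rw [Real.le_log_iff_exp_le (by norm_num)]
  have h1 : Real.exp (12 / 11) ^ 11 = Real.exp 1 ^ 12 := by
    rw [← Real.exp_nat_mul, ← Real.exp_nat_mul]
    norm_num
  have h2 : Real.exp 1 ^ 12 ≤ (3 : ℝ) ^ 11 := by
    have h3 := Real.exp_one_lt_d9
    calc Real.exp 1 ^ 12 ≤ (2.7182818286 : ℝ) ^ 12 :=
          pow_le_pow_left₀ (Real.exp_pos _).le h3.le 12
      _ ≤ _ := by norm_num
  rw [← h1] at h2
  exact le_of_pow_le_pow_left₀ (by norm_num) (by norm_num) h2

/-- **The main inequality excludes long classes**, for large `M`. -/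
lemma large_case {T M : ℕ} (hM : 8 ≤ M) (hT : 3 * M ≤ T)
    (h : (T.factorial : ℝ) ^ M ≤ (M.factorial : ℝ) ^ T * Real.exp (2 * M * M)) : False := by
  have hM1 : 1 ≤ M := by omega
  have hT1 : 1 ≤ T := by omega
  have hM0 : (0 : ℝ) < M := by exact_mod_cast hM1
  have hT0 : (0 : ℝ) < T := by exact_mod_cast hT1
  have hMf : (0 : ℝ) < M.factorial := by exact_mod_cast Nat.factorial_pos M
  have hTf : (0 : ℝ) < T.factorial := by exact_mod_cast Nat.factorial_pos T
  have hTM : (3 : ℝ) * M ≤ T := by exact_mod_cast hT
  have hM8 : (8 : ℝ) ≤ M := by exact_mod_cast hM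
  have hlog := Real.log_le_log (by positivity) h
  rw [Real.log_mul (by positivity) (by positivity), Real.log_pow, Real.log_pow, Real.log_exp] at hlog
  have h1 := le_log_factorial T hT1
  have h2 := log_factorial_le M hM1
  -- log T - log M ≥ log 3
  have h3 : Real.log T - Real.log M ≥ 12 / 11 := by
    have h4 : Real.log 3 ≤ Real.log (T / M) := by
      apply Real.log_le_log (by norm_num)
      rw [le_div_iff₀ hM0]
      exact hTM
    rw [Real.log_div hT0.ne' hM0.ne'] at h4
    linarith [log_three_ge]
  -- log M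
  have h5 : Real.log M ≤ 2.08 + M / 8 - 1 := by
    have h6 : Real.log ((M : ℝ) / 8) ≤ M / 8 - 1 := Real.log_le_sub_one_of_pos (by positivity)
    rw [Real.log_div hM0.ne' (by norm_num)] at h6
    have h7 : Real.log 8 = 3 * Real.log 2 := by
      rw [show (8 : ℝ) = 2 ^ 3 by norm_num, Real.log_pow]
      norm_num
    have h8 := Real.log_two_lt_d9
    rw [h7] at h6
    linarith
  -- combine
  have e1 : (M : ℝ) * (T * Real.log T - T) ≤ M * Real.log T.factorial :=
    mul_le_mul_of_nonneg_left h1 hM0.le
  have e2 : (T : ℝ) * Real.log M.factorial ≤ T * (1 + Real.log M + M * Real.log M - M) :=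
    mul_le_mul_of_nonneg_left h2 hT0.le
  have e3 : (M : ℝ) * T * (12 / 11) ≤ T * (1 + Real.log M) + 2 * M * M := by
    have e4 : (M : ℝ) * T * (Real.log T - Real.log M) ≤ T * (1 + Real.log M) + 2 * M * M := by
      nlinarith
    have e5 : (M : ℝ) * T * (12 / 11) ≤ M * T * (Real.log T - Real.log M) :=
      mul_le_mul_of_nonneg_left h3 (by positivity)
    linarith
  have e6 : (T : ℝ) * (1 + Real.log M) ≤ T * (2.08 + M / 8) :=
    mul_le_mul_of_nonneg_left (by linarith) hT0.le
  have e7 : 2 * (M : ℝ) * M ≤ (2 / 3) * (M * T) := by nlinarith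
  have e8 : (M : ℝ) * T * (12 / 11 - 2 / 3 - 1 / 8) ≤ T * 2.08 := by nlinarith
  have e9 : (M : ℝ) * (12 / 11 - 2 / 3 - 1 / 8) ≤ 2.08 := by
    have : (T : ℝ) * (M * (12 / 11 - 2 / 3 - 1 / 8)) ≤ T * 2.08 := by nlinarith
    exact le_of_mul_le_mul_left this hT0
  norm_num at e9
  nlinarith

/-- The monotone step for small `M`. -/
lemma small_step {M T₀ C : ℕ} (hM : 1 ≤ M) (hT₀ : M ≤ T₀)
    (hb : M.factorial ^ T₀ * C < T₀.factorial ^ M) {T : ℕ} (hT : T₀ ≤ T) :
    M.factorial ^ T * C < T.factorial ^ M := by
  induction T, hT using Nat.le_induction with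
  | base => exact hb
  | succ T hT ih =>
    have h1 : M.factorial ≤ (T + 1) ^ M :=
      (Nat.factorial_le_pow M).trans (Nat.pow_le_pow_left (by omega) M)
    rw [Nat.factorial_succ, mul_pow, pow_succ]
    calc M.factorial ^ T * M.factorial * C = M.factorial * (M.factorial ^ T * C) := by ring
      _ ≤ (T + 1) ^ M * (M.factorial ^ T * C) := Nat.mul_le_mul_right _ h1
      _ < (T + 1) ^ M * T.factorial ^ M := by
          apply Nat.mul_lt_mul_of_pos_left ih
          positivity

/-- **The main inequality** `(T!)^M ≤ (M!)^T exp(2M²)` implies `T ≤ 3M+3`. -/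
lemma T_le_of_main {T M : ℕ} (hM : 1 ≤ M)
    (h : (T.factorial : ℝ) ^ M ≤ (M.factorial : ℝ) ^ T * Real.exp (2 * M * M)) : T ≤ 3 * M + 3 := by
  by_contra hcon
  push Not at hcon
  by_cases hM8 : 8 ≤ M
  · exact large_case hM8 (by omega) h
  · -- small `M`
    have hexp : Real.exp (2 * M * M) ≤ (3 : ℝ) ^ (2 * M * M) := by
      have h1 : Real.exp (2 * M * M) = Real.exp 1 ^ (2 * M * M) := by
        rw [← Real.exp_nat_mul]
        push_cast
        congr 1
        ring
      rw [h1]
      refine pow_le_pow_left₀ (Real.exp_pos _).le ?_ _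
      exact Real.exp_one_lt_d9.le.trans (by norm_num)
    have hbase : M.factorial ^ (3 * M + 4) * 3 ^ (2 * M * M) < (3 * M + 4).factorial ^ M := by
      have hM' : M ≤ 7 := by omega
      interval_cases M <;> norm_num [Nat.factorial]
    have hmain := small_step hM (by omega) hbase (show 3 * M + 4 ≤ T by omega)
    have h2 : (T.factorial : ℝ) ^ M ≤ (M.factorial : ℝ) ^ T * (3 : ℝ) ^ (2 * M * M) :=
      h.trans (mul_le_mul_of_nonneg_left hexp (by positivity))
    have h3 : T.factorial ^ M ≤ M.factorial ^ T * 3 ^ (2 * M * M) := by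
      exact_mod_cast h2
    omega

/-- **Columns against rows.** -/
theorem T_le_of_col_prod {T M : ℕ} (hM : 1 ≤ M) (μ : Fin T → ℕ) (hlo : ∀ r, M ≤ μ r)
    (hhi : ∀ r, μ r < 2 * M)
    (h : ∏ c ∈ range (2 * M), ((univ.filter fun r => c < μ r).card).factorial ≤
      ∏ r, (μ r).factorial) : T ≤ 3 * M + 3 := by
  classical
  apply T_le_of_main hM
  set conj : ℕ → ℕ := fun c => (univ.filter fun r => c < μ r).card with hconj
  have hsplit := Finset.prod_range_mul_prod_Ico (fun c => (conj c).factorial) (show M ≤ 2 * M by omega)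
  have hfull : ∀ c ∈ range M, (conj c).factorial = T.factorial := by
    intro c hc
    have hc' := mem_range.1 hc
    have : conj c = T := by
      simp only [hconj]
      rw [Finset.filter_true_of_mem]
      · simp
      · intro r _
        exact lt_of_lt_of_le hc' (hlo r)
    rw [this]
  rw [Finset.prod_congr rfl hfull, Finset.prod_const, card_range] at hsplit
  -- the sum of the extra parts
  have hsum : ∑ c ∈ Ico M (2 * M), conj c = ∑ r, (μ r - M) := by
    simp only [hconj, Finset.card_filter]
    rw [Finset.sum_comm]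
    refine Finset.sum_congr rfl fun r _ => ?_
    rw [← Finset.card_filter]
    have : (Ico M (2 * M)).filter (fun c => c < μ r) = Ico M (μ r) := by
      ext c
      simp only [mem_filter, mem_Ico]
      have := hhi r
      omega
    rw [this, Nat.card_Ico]
  -- the rows
  have hrows : ∏ r, (μ r).factorial ≤ M.factorial ^ T * (2 * M) ^ (∑ c ∈ Ico M (2 * M), conj c) := by
    rw [hsum]
    calc ∏ r, (μ r).factorial ≤ ∏ r, (M.factorial * (2 * M) ^ (μ r - M)) :=
          Finset.prod_le_prod (fun _ _ => Nat.zero_le _)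
            (fun r _ => factorial_le_mul_pow (hlo r) (hhi r).le)
      _ = _ := by
          rw [Finset.prod_mul_distrib, Finset.prod_const, Finset.card_univ, Fintype.card_fin,
            Finset.prod_pow_eq_pow_sum]
  set C : ℝ := ∏ c ∈ Ico M (2 * M), ((conj c).factorial : ℝ) with hC
  have hCpos : 0 < C := Finset.prod_pos fun c _ => by exact_mod_cast Nat.factorial_pos _
  have hM0 : (0 : ℝ) < M := by exact_mod_cast hM
  have hcols : ((2 * M : ℕ) : ℝ) ^ (∑ c ∈ Ico M (2 * M), conj c) ≤ C * Real.exp (2 * M * M) := by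
    have h1 : ((2 * M : ℕ) : ℝ) ^ (∑ c ∈ Ico M (2 * M), conj c) =
        ∏ c ∈ Ico M (2 * M), ((2 * M : ℕ) : ℝ) ^ conj c := (Finset.prod_pow_eq_pow_sum _ _ _).symm
    have h2 : ∀ c ∈ Ico M (2 * M), ((2 * M : ℕ) : ℝ) ^ conj c ≤
        ((conj c).factorial : ℝ) * Real.exp (2 * M) := by
      intro c _
      have hf : (0 : ℝ) < (conj c).factorial := by exact_mod_cast Nat.factorial_pos _
      have h3 := Real.pow_div_factorial_le_exp (x := ((2 * M : ℕ) : ℝ)) (by positivity) (conj c)
      rw [div_le_iff₀ hf] at h3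
      push_cast at h3 ⊢
      linarith
    have h4 : ∏ c ∈ Ico M (2 * M), (((conj c).factorial : ℝ) * Real.exp (2 * M)) =
        C * Real.exp (2 * M * M) := by
      rw [Finset.prod_mul_distrib, Finset.prod_const, Nat.card_Ico, ← Real.exp_nat_mul]
      congr 2
      have : 2 * M - M = M := by omega
      rw [this]
      ring
    rw [h1, ← h4]
    exact Finset.prod_le_prod (fun _ _ => by positivity) h2
  have hmain : (T.factorial : ℝ) ^ M * C ≤ ((M.factorial : ℝ) ^ T) * (C * Real.exp (2 * M * M)) := by
    have h5 : (T.factorial ^ M * ∏ k ∈ Ico M (2 * M), (conj k).factorial : ℕ) ≤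
        M.factorial ^ T * (2 * M) ^ (∑ c ∈ Ico M (2 * M), conj c) := by
      rw [hsplit]
      exact h.trans hrows
    have h6 : ((T.factorial ^ M * ∏ k ∈ Ico M (2 * M), (conj k).factorial : ℕ) : ℝ) ≤
        ((M.factorial ^ T * (2 * M) ^ (∑ c ∈ Ico M (2 * M), conj c) : ℕ) : ℝ) := by
      exact_mod_cast h5
    rw [Nat.cast_mul, Nat.cast_mul, Nat.cast_prod, Nat.cast_pow, Nat.cast_pow, Nat.cast_pow] at h6
    refine h6.trans (mul_le_mul_of_nonneg_left hcols (by positivity))
  have h7 : (T.factorial : ℝ) ^ M * C ≤ ((M.factorial : ℝ) ^ T * Real.exp (2 * M * M)) * C := by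
    calc _ ≤ _ := hmain
      _ = _ := by ring
  exact le_of_mul_le_mul_right h7 hCpos

end Numeric

end Crest.Agent.S0222Lib.Shape
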