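import Crest.Agent.S0222Lib.ShapeT

/-!
# S0222: columns against rows: the sharper consequence

If `M ≤ μ_r < 2M` for `T` rows, `256 ≤ M`, and the product of the factorials of the columns of `μ` is at most the
product of the factorials of its rows, then `T² ≤ (8/5) ∑ μ_r`.
-/

set_option autoImplicit false
set_option linter.unusedSectionVars false

namespace Crest.Agent.S0222Lib.Shape

open Finset

section Numeric

/-- The tangent bound for a column. -/
private lemma col_tangent (x : ℕ) {t : ℝ} (ht : 0 < t) :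
    (x : ℝ) * Real.log t - t ≤ Real.log x.factorial := by
  rcases Nat.eq_zero_or_pos x with rfl | hx
  · simp
    exact ht.le
  · have hx0 : (0 : ℝ) < x := by exact_mod_cast hx
    have h1 := le_log_factorial x hx
    have h2 : Real.log (t / x) ≤ t / x - 1 := Real.log_le_sub_one_of_pos (by positivity)
    rw [Real.log_div ht.ne' hx0.ne'] at h2
    have h3 : (x : ℝ) * (Real.log t - Real.log x) ≤ x * (t / x - 1) :=
      mul_le_mul_of_nonneg_left h2 hx0.le
    have h4 : (x : ℝ) * (t / x - 1) = t - x := by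
      field_simp
    rw [h4] at h3
    linarith

/-- The tangent bound for a row. -/
private lemma row_tangent {x s : ℝ} (hx : 0 < x) (hs : 0 < s) :
    x * Real.log x ≤ x * Real.log s + x ^ 2 / s - x := by
  have h2 : Real.log (x / s) ≤ x / s - 1 := Real.log_le_sub_one_of_pos (by positivity)
  rw [Real.log_div hx.ne' hs.ne'] at h2
  have h3 : x * (Real.log x - Real.log s) ≤ x * (x / s - 1) :=
    mul_le_mul_of_nonneg_left h2 hx.le
  have h4 : x * (x / s - 1) = x ^ 2 / s - x := by
    field_simp
  rw [h4] at h3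
  linarith

private lemma log_ten_thirds_le : Real.log (10 / 3) ≤ 13 / 10 := by
  have h1 : Real.log ((10 / 3) / Real.exp 1) ≤ (10 / 3) / Real.exp 1 - 1 :=
    Real.log_le_sub_one_of_pos (by positivity)
  rw [Real.log_div (by norm_num) (Real.exp_pos _).ne', Real.log_exp] at h1
  have h2 : (10 / 3) / Real.exp 1 ≤ 13 / 10 := by
    rw [div_le_iff₀ (Real.exp_pos _)]
    have := Real.exp_one_gt_d9
    norm_num at this ⊢
    linarith
  linarith

private lemma log_eight_fifths_ge : (46 / 100 : ℝ) ≤ Real.log (8 / 5) := by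
  rw [Real.le_log_iff_exp_le (by norm_num)]
  have h1 : Real.exp (46 / 100) ^ 100 = Real.exp 1 ^ 46 := by
    rw [← Real.exp_nat_mul, ← Real.exp_nat_mul]
    norm_num
  have h2 : Real.exp 1 ^ 46 ≤ (8 / 5 : ℝ) ^ 100 := by
    have h3 := Real.exp_one_lt_d9
    calc Real.exp 1 ^ 46 ≤ (2.7182818286 : ℝ) ^ 46 :=
          pow_le_pow_left₀ (Real.exp_pos _).le h3.le 46
      _ ≤ _ := by norm_num
  rw [← h1] at h2
  exact le_of_pow_le_pow_left₀ (by norm_num) (by norm_num) h2

private lemma err_le {M : ℕ} (hM : 256 ≤ M) : 1 + Real.log (2 * M) ≤ (3 / 100) * (M : ℝ) := by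
  have hM' : (256 : ℝ) ≤ M := by exact_mod_cast hM
  have hM0 : (0 : ℝ) < M := by linarith
  have h1 : Real.log ((2 * M : ℝ) / 512) ≤ (2 * M : ℝ) / 512 - 1 :=
    Real.log_le_sub_one_of_pos (by positivity)
  rw [Real.log_div (by positivity) (by norm_num)] at h1
  have h2 : Real.log 512 = 9 * Real.log 2 := by
    rw [show (512 : ℝ) = 2 ^ 9 by norm_num, Real.log_pow]
    norm_num
  have h3 := Real.log_two_lt_d9
  rw [h2] at h1
  linarith

/-- **Columns against rows, the sharper bound.** -/
theorem T_sq_le_of_col_prod {T M : ℕ} (hM : 256 ≤ M) (μ : Fin T → ℕ) (hlo : ∀ r, M ≤ μ r)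
    (hhi : ∀ r, μ r < 2 * M)
    (h : ∏ c ∈ range (2 * M), ((univ.filter fun r => c < μ r).card).factorial ≤
      ∏ r, (μ r).factorial) : 5 * T ^ 2 ≤ 8 * ∑ r, μ r := by
  classical
  rcases Nat.eq_zero_or_pos T with rfl | hT
  · simp
  by_contra hcon
  push Not at hcon
  set conj : ℕ → ℕ := fun c => (univ.filter fun r => c < μ r).card with hconj
  have hsplit := Finset.prod_range_mul_prod_Ico (fun c => (conj c).factorial) (show M ≤ 2 * M by omega)
  have hfull : ∀ c ∈ range M, (conj c).factorial = T.factorial := by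
    intro c hc
    have hc' := mem_range.1 hc
    have : conj c = T := by
      simp only [hconj]
      rw [Finset.filter_true_of_mem]
      · simp
      · intro r _
        exact lt_of_lt_of_le hc' (hlo r)
    rw [this]
  rw [Finset.prod_congr rfl hfull, Finset.prod_const, card_range] at hsplit
  -- the sum of the extra parts
  have hsum : ∑ c ∈ Ico M (2 * M), conj c = ∑ r, (μ r - M) := by
    simp only [hconj, Finset.card_filter]
    rw [Finset.sum_comm]
    refine Finset.sum_congr rfl fun r _ => ?_
    rw [← Finset.card_filter]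
    have : (Ico M (2 * M)).filter (fun c => c < μ r) = Ico M (μ r) := by
      ext c
      simp only [mem_filter, mem_Ico]
      have := hhi r
      omega
    rw [this, Nat.card_Ico]
  -- real quantities
  have hT1 : (1 : ℝ) ≤ T := by exact_mod_cast hT
  have hT0 : (0 : ℝ) < T := by linarith
  have hM' : (256 : ℝ) ≤ M := by exact_mod_cast hM
  have hM0 : (0 : ℝ) < M := by linarith
  set i : ℝ := ∑ r, (μ r : ℝ) with hi
  have hiMT : (M : ℝ) * T ≤ i := by
    have : ∑ _r : Fin T, (M : ℝ) ≤ ∑ r, (μ r : ℝ) :=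
      Finset.sum_le_sum fun r _ => by exact_mod_cast hlo r
    simp only [Finset.sum_const, Finset.card_univ, Fintype.card_fin, nsmul_eq_mul] at this
    linarith
  have hi0 : 0 < i := lt_of_lt_of_le (by positivity) hiMT
  have hμ0 : ∀ r, (0 : ℝ) < μ r := fun r => by
    have : 0 < μ r := by have := hlo r; omega
    exact_mod_cast this
  -- logs of the products
  have hlog : (M : ℝ) * Real.log T.factorial + ∑ c ∈ Ico M (2 * M), Real.log (conj c).factorial ≤
      ∑ r, Real.log (μ r).factorial := by
    have h1 : ((∏ c ∈ range (2 * M), (conj c).factorial : ℕ) : ℝ) ≤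
        ((∏ r, (μ r).factorial : ℕ) : ℝ) := by exact_mod_cast h
    have h2 : (0 : ℝ) < ((∏ c ∈ range (2 * M), (conj c).factorial : ℕ) : ℝ) := by
      exact_mod_cast Finset.prod_pos fun c _ => Nat.factorial_pos _
    have h3 := Real.log_le_log h2 h1
    rw [← hsplit] at h3
    push_cast at h3
    rw [Real.log_mul (by positivity) (Finset.prod_ne_zero_iff.2 fun c _ => by
      exact_mod_cast (Nat.factorial_pos _).ne'), Real.log_pow,
      Real.log_prod (fun c _ => by exact_mod_cast (Nat.factorial_pos _).ne'),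
      Real.log_prod (fun r _ => by exact_mod_cast (Nat.factorial_pos _).ne')] at h3
    exact h3
  -- the columns
  set t : ℝ := (3 / 10) * T with ht
  have ht0 : 0 < t := by positivity
  have hesum : ((∑ c ∈ Ico M (2 * M), conj c : ℕ) : ℝ) = i - M * T := by
    rw [hsum, Nat.cast_sum, hi]
    have : ∀ r, ((μ r - M : ℕ) : ℝ) = (μ r : ℝ) - M := fun r => by
      rw [Nat.cast_sub (hlo r)]
    simp only [this]
    rw [Finset.sum_sub_distrib]
    simp
    ring
  have hcols : (i - M * T) * Real.log t - M * t ≤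
      ∑ c ∈ Ico M (2 * M), Real.log (conj c).factorial := by
    have h1 := Finset.sum_le_sum (s := Ico M (2 * M)) fun c _ => col_tangent (conj c) ht0
    rw [Finset.sum_sub_distrib, ← Finset.sum_mul] at h1
    have h2 : ∑ c ∈ Ico M (2 * M), ((conj c : ℕ) : ℝ) = i - M * T := by
      rw [← hesum]
      push_cast
      rfl
    rw [h2] at h1
    have h3 : ∑ _c ∈ Ico M (2 * M), t = M * t := by
      simp only [Finset.sum_const, Nat.card_Ico, nsmul_eq_mul]
      congr 2
      push_cast
      rw [show 2 * M - M = M by omega]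
    rw [h3] at h1
    exact h1
  -- the rows
  have hsq : ∑ r, ((μ r : ℝ)) ^ 2 ≤ 3 * M * i - 2 * M ^ 2 * T := by
    have h1 : ∀ r : Fin T, ((μ r : ℝ)) ^ 2 ≤ 3 * M * (μ r : ℝ) - 2 * M ^ 2 := by
      intro r
      have h2 : (M : ℝ) ≤ μ r := by exact_mod_cast hlo r
      have h3 : (μ r : ℝ) ≤ 2 * M := by exact_mod_cast (hhi r).le
      nlinarith [mul_nonneg (sub_nonneg.2 h2) (sub_nonneg.2 h3)]
    have h4 := Finset.sum_le_sum fun r (_ : r ∈ univ) => h1 r
    rw [Finset.sum_sub_distrib, ← Finset.mul_sum] at h4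
    simp only [Finset.sum_const, Finset.card_univ, Fintype.card_fin, nsmul_eq_mul] at h4
    linarith
  set s : ℝ := (9 / 8) * (i / T) with hs
  have hs0 : 0 < s := by positivity
  have hsq2 : ∑ r, ((μ r : ℝ)) ^ 2 ≤ i * s := by
    refine hsq.trans ?_
    rw [hs]
    have e : i * (9 / 8 * (i / T)) = (9 / 8) * i ^ 2 / T := by
      field_simp
    rw [e, le_div_iff₀ hT0]
    have h5 := sq_nonneg (4 * (M : ℝ) * T - 3 * i)
    nlinarith
  have hrows1 : ∑ r, (μ r : ℝ) * Real.log (μ r) ≤ i * Real.log s := by
    have h1 := Finset.sum_le_sum fun r (_ : r ∈ univ) => row_tangent (hμ0 r) hs0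
    rw [Finset.sum_sub_distrib, Finset.sum_add_distrib, ← Finset.sum_mul, ← Finset.sum_div, ← hi] at h1
    have h2 : (∑ r, ((μ r : ℝ)) ^ 2) / s ≤ i := by
      rw [div_le_iff₀ hs0]
      exact hsq2
    linarith
  have hrows : ∑ r, Real.log (μ r).factorial ≤ T * (1 + Real.log (2 * M)) + i * Real.log s - i := by
    have h1 : ∀ r : Fin T, Real.log (μ r).factorial ≤
        (1 + Real.log (2 * M)) + (μ r : ℝ) * Real.log (μ r) - (μ r : ℝ) := by
      intro r
      have hp : 1 ≤ μ r := by have := hlo r; omega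
      have h2 := log_factorial_le (μ r) hp
      have h3 : Real.log (μ r) ≤ Real.log (2 * M) := by
        apply Real.log_le_log (hμ0 r)
        exact_mod_cast (hhi r).le
      linarith
    have h4 := Finset.sum_le_sum fun r (_ : r ∈ univ) => h1 r
    rw [Finset.sum_sub_distrib, Finset.sum_add_distrib, ← hi] at h4
    simp only [Finset.sum_const, Finset.card_univ, Fintype.card_fin, nsmul_eq_mul] at h4
    linarith
  -- combining
  have hTf := le_log_factorial T hT
  have hlogt : Real.log t = Real.log T - Real.log (10 / 3) := by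
    have e : t = T / (10 / 3) := by
      rw [ht]
      ring
    rw [e, Real.log_div hT0.ne' (by norm_num)]
  have hlogs : Real.log s = Real.log (9 / 8) + Real.log i - Real.log T := by
    rw [hs, Real.log_mul (by norm_num) (by positivity), Real.log_div hi0.ne' hT0.ne']
    ring
  have hlog98 : Real.log (9 / 8) ≤ 1 / 8 := by
    have := Real.log_le_sub_one_of_pos (show (0 : ℝ) < 9 / 8 by norm_num)
    linarith
  have herr : (T : ℝ) * (1 + Real.log (2 * M)) ≤ (3 / 100) * i := by
    have h1 := err_le hM
    have h2 : (T : ℝ) * (1 + Real.log (2 * M)) ≤ T * ((3 / 100) * M) :=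
      mul_le_mul_of_nonneg_left h1 hT0.le
    linarith
  have hQ : i * (2 * Real.log T - Real.log i) ≤ (455 / 1000) * i := by
    have hM1 : (M : ℝ) * Real.log T.factorial ≥ M * (T * Real.log T - T) :=
      mul_le_mul_of_nonneg_left hTf hM0.le
    have hc := log_ten_thirds_le
    have hc2 : (i - M * T) * Real.log (10 / 3) ≤ (i - M * T) * (13 / 10) :=
      mul_le_mul_of_nonneg_left hc (by linarith)
    have hr := hi0
    rw [hlogt] at hcols
    rw [hlogs] at hrows
    have ht2 : (M : ℝ) * t = (3 / 10) * (M * T) := by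
      rw [ht]
      ring
    rw [ht2] at hcols
    have h98 : i * Real.log (9 / 8) ≤ i * (1 / 8) := mul_le_mul_of_nonneg_left hlog98 hi0.le
    linarith
  have hlt : (8 : ℝ) * i < 5 * T ^ 2 := by
    have : ((8 * ∑ r, μ r : ℕ) : ℝ) < ((5 * T ^ 2 : ℕ) : ℝ) := by exact_mod_cast hcon
    push_cast at this
    exact this
  have hlogQ : Real.log (8 / 5) ≤ 2 * Real.log T - Real.log i := by
    have h1 : (8 / 5 : ℝ) ≤ (T : ℝ) ^ 2 / i := by
      rw [le_div_iff₀ hi0]
      linarith
    have h2 := Real.log_le_log (by norm_num) h1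
    rw [Real.log_div (by positivity) hi0.ne', Real.log_pow] at h2
    push_cast at h2
    exact h2
  have h46 := log_eight_fifths_ge
  have hfin : i * (46 / 100) ≤ i * (2 * Real.log T - Real.log i) :=
    mul_le_mul_of_nonneg_left (h46.trans hlogQ) hi0.le
  linarith

end Numeric

end Crest.Agent.S0222Lib.Shape
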