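import Crest.Agent.S0222Lib.ShapeCol
import Crest.Agent.S0222Lib.ShapeT
import Crest.Agent.S0222Lib.ShapeT2

/-!
# S0222: the shape data of a representation of a symmetric group

`exists_shape_data`: for a member `V_i` of a complete family of `Perm X` of level `b`: a word `w₀` on `X`
in the letters `Unit ⊕ Σ s, Fin (T s)` with vacuum block of size `n - b`, classes `s` (index:
dyadic size of the blocks and parity) with rows `μ s`, a nonzero shape vector `v₀`, isotypic for the symmetric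
group of each class with representation of dimension `d_s`, such that

* `m_s! ∏_a (T_s - 1 - a)! ≤ d_s ∏_a (μ_{s,a} + T_s - 1 - a)!`;
* `T_s ≤ 3 · 2^k + 3` where `2^k ≤ μ_{s,a} < 2^(k+1)`; `5 T_s² ≤ 8 m_s` if `2^k ≥ 256` (`exists_shape_data2`);
* `d_V (n-b)! ∏_s m_s! ≤ n! ∏_s d_s`.
-/

set_option autoImplicit false
set_option linter.unusedSectionVars false

namespace Crest.Agent.S0222Lib.Shape

open Finset Matrix
open scoped ComplexOrder
open Crest.Agent.S0222Lib.Planch Crest.Agent.S0222Lib.SWord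

variable {X : Type} [Fintype X] [DecidableEq X]

lemma content_clsWord {L : Type*} [Fintype L] [DecidableEq L] {w₀ : X → L} {m : ℕ} (e : Fin m ↪ X)
    {A : Finset L} (π : Fin A.card ≃ {l // l ∈ A}) (hA1 : ∀ a, w₀ (e a) ∈ A)
    (hA2 : ∀ x, w₀ x ∈ A → x ∈ Set.range e) (c : Fin A.card) :
    Specht.content (clsWord e π hA1) c = blk w₀ (π c).1 := by
  classical
  have hfil : univ.filter (fun x => w₀ x = (π c).1) =
      (univ.filter fun i => clsWord e π hA1 i = c).map e := by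
    ext x
    simp only [mem_filter, mem_univ, true_and, mem_map]
    constructor
    · intro hx
      have hxA : w₀ x ∈ A := by
        rw [hx]
        exact (π c).2
      obtain ⟨a, rfl⟩ := hA2 x hxA
      exact ⟨a, (clsWord_eq_iff a c).2 hx, rfl⟩
    · rintro ⟨a, ha, rfl⟩
      exact (clsWord_eq_iff a c).1 ha
  unfold blk Specht.content
  rw [hfil, Finset.card_map]

/-- The bound of the number of rows of a class at a minimal word. -/
theorem IsMinOn.card_le {d : ℕ} {R : URep (Equiv.Perm X) d} {B₀ : Finset X} {w₀ : X → UL X}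
    (h : IsMinOn R B₀ w₀) {v₀ : Fin d → ℂ} (hv : Adm R odU w₀ v₀) (hv0 : v₀ ≠ 0)
    {m : ℕ} (e : Fin m ↪ X) (A : Finset (UL X)) (σ : Bool) (hA1 : ∀ a, w₀ (e a) ∈ A)
    (hA2 : ∀ x, w₀ x ∈ A → x ∈ Set.range e) (hσ : ∀ l ∈ A, odU l = σ) (hnone : none ∉ A)
    (F' : Family (Equiv.Perm (Fin m))) (j : Fin F'.r)
    (hj : (R.comp (emb e)).lift (F'.idem j) *ᵥ v₀ = v₀)
    (π : Fin A.card ≃ {l // l ∈ A}) (hπ : Antitone (fun c => blk w₀ (π c).1)) {M : ℕ} (hM : 1 ≤ M)
    (hlo : ∀ l ∈ A, M ≤ blk w₀ l) (hhi : ∀ l ∈ A, blk w₀ l < 2 * M) : A.card ≤ 3 * M + 3 := by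
  classical
  have hle := h.col_le hv hv0 e A σ hA1 hA2 hσ hnone F' j hj π hπ
  set w₁ := clsWord e π hA1 with hw₁
  set μ : Fin A.card → ℕ := fun c => blk w₀ (π c).1 with hμ
  have hcont : ∀ r, Specht.content w₁ r = μ r := fun r => content_clsWord e π hA1 hA2 r
  have hrows : ∏ l ∈ A, (blk w₀ l).factorial = ∏ r, (μ r).factorial := by
    rw [← Finset.prod_coe_sort A (fun l => (blk w₀ l).factorial)]
    exact (Equiv.prod_comp π (fun l : {l // l ∈ A} => (blk w₀ l.1).factorial)).symm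
  rw [hrows] at hle
  simp only [card_colOf_eq w₁ μ hcont] at hle
  refine T_le_of_col_prod hM μ (fun r => hlo _ (π r).2) (fun r => hhi _ (π r).2) (le_trans (le_of_eq ?_) hle)
  symm
  apply Finset.prod_subset
  · intro c hc
    obtain ⟨a, -, rfl⟩ := mem_image.1 hc
    have h1 := Specht.colOf_lt_content w₁ a
    rw [hcont] at h1
    exact mem_range.2 (h1.trans (hhi _ (π _).2))
  · intro c _ hc
    have h2 : (univ.filter fun r => c < μ r).card = 0 := by
      rw [← card_colOf_eq w₁ μ hcont, Finset.card_eq_zero, Finset.filter_eq_empty_iff]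
      intro a _ ha
      exact hc (mem_image.2 ⟨a, mem_univ a, ha⟩)
    rw [h2]
    rfl

/-- The sharper bound of the number of rows of a class at a minimal word. -/
theorem IsMinOn.card_sq_le {d : ℕ} {R : URep (Equiv.Perm X) d} {B₀ : Finset X} {w₀ : X → UL X}
    (h : IsMinOn R B₀ w₀) {v₀ : Fin d → ℂ} (hv : Adm R odU w₀ v₀) (hv0 : v₀ ≠ 0)
    {m : ℕ} (e : Fin m ↪ X) (A : Finset (UL X)) (σ : Bool) (hA1 : ∀ a, w₀ (e a) ∈ A)
    (hA2 : ∀ x, w₀ x ∈ A → x ∈ Set.range e) (hσ : ∀ l ∈ A, odU l = σ) (hnone : none ∉ A)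
    (F' : Family (Equiv.Perm (Fin m))) (j : Fin F'.r)
    (hj : (R.comp (emb e)).lift (F'.idem j) *ᵥ v₀ = v₀)
    (π : Fin A.card ≃ {l // l ∈ A}) (hπ : Antitone (fun c => blk w₀ (π c).1)) {M : ℕ} (hM : 256 ≤ M)
    (hlo : ∀ l ∈ A, M ≤ blk w₀ l) (hhi : ∀ l ∈ A, blk w₀ l < 2 * M) :
    5 * A.card ^ 2 ≤ 8 * ∑ c, blk w₀ (π c).1 := by
  classical
  have hle := h.col_le hv hv0 e A σ hA1 hA2 hσ hnone F' j hj π hπ
  set w₁ := clsWord e π hA1 with hw₁
  set μ : Fin A.card → ℕ := fun c => blk w₀ (π c).1 with hμ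
  have hcont : ∀ r, Specht.content w₁ r = μ r := fun r => content_clsWord e π hA1 hA2 r
  have hrows : ∏ l ∈ A, (blk w₀ l).factorial = ∏ r, (μ r).factorial := by
    rw [← Finset.prod_coe_sort A (fun l => (blk w₀ l).factorial)]
    exact (Equiv.prod_comp π (fun l : {l // l ∈ A} => (blk w₀ l.1).factorial)).symm
  rw [hrows] at hle
  simp only [card_colOf_eq w₁ μ hcont] at hle
  refine T_sq_le_of_col_prod hM μ (fun r => hlo _ (π r).2) (fun r => hhi _ (π r).2) (le_trans (le_of_eq ?_) hle)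
  symm
  apply Finset.prod_subset
  · intro c hc
    obtain ⟨a, -, rfl⟩ := mem_image.1 hc
    have h1 := Specht.colOf_lt_content w₁ a
    rw [hcont] at h1
    exact mem_range.2 (h1.trans (hhi _ (π _).2))
  · intro c _ hc
    have h2 : (univ.filter fun r => c < μ r).card = 0 := by
      rw [← card_colOf_eq w₁ μ hcont, Finset.card_eq_zero, Finset.filter_eq_empty_iff]
      intro a _ ha
      exact hc (mem_image.2 ⟨a, mem_univ a, ha⟩)
    rw [h2]
    rfl

/-- **The shape data**, with the sharper bound on the number of rows of the classes of large rows. -/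
theorem exists_shape_data2 (F : Family (Equiv.Perm X)) (i : Fin F.r)
    (Fm : ∀ m, Family (Equiv.Perm (Fin m))) :
    ∃ (S₀ : Finset (ℕ × Bool)) (T : S₀ → ℕ) (μ : ∀ s, Fin (T s) → ℕ) (m : S₀ → ℕ)
      (e : ∀ s, Fin (m s) ↪ X) (j : ∀ s, Fin (Fm (m s)).r)
      (w₀ : X → Unit ⊕ (Σ s : S₀, Fin (T s))) (v₀ : Fin (F.d i) → ℂ),
      v₀ ≠ 0 ∧
      Adm (F.R i) (Sum.elim (fun _ => false) (fun p => p.1.1.2)) w₀ v₀ ∧
      (univ.filter fun x => w₀ x = Sum.inl ()).card + F.level i = Fintype.card X ∧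
      (∀ s x, (∃ a, w₀ x = Sum.inr ⟨s, a⟩) ↔ x ∈ Set.range (e s)) ∧
      (∀ s a, (univ.filter fun x => w₀ x = Sum.inr ⟨s, a⟩).card = μ s a) ∧
      (∀ s, Antitone (μ s)) ∧
      (∀ s a, 2 ^ s.1.1 ≤ μ s a ∧ μ s a < 2 ^ (s.1.1 + 1)) ∧
      (∀ s, 0 < T s) ∧
      (∀ s, m s = ∑ a, μ s a) ∧
      (∀ s, T s ≤ 3 * 2 ^ s.1.1 + 3) ∧
      (∀ s, 256 ≤ 2 ^ s.1.1 → 5 * T s ^ 2 ≤ 8 * m s) ∧
      (∀ s, ((F.R i).comp (emb (e s))).lift ((Fm (m s)).idem (j s)) *ᵥ v₀ = v₀) ∧
      (∀ s, (m s).factorial * ∏ a : Fin (T s), (T s - 1 - a.val).factorial ≤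
        (Fm (m s)).d (j s) * ∏ a : Fin (T s), (μ s a + (T s - 1 - a.val)).factorial) ∧
      F.d i * ((Fintype.card X - F.level i).factorial * ∏ s, (m s).factorial) ≤
        (Fintype.card X).factorial * ∏ s, (Fm (m s)).d (j s) := by
  classical
  set R := F.R i with hR
  obtain ⟨a, ha, hfix⟩ := F.level_spec i
  obtain ⟨v, hv0, hvfix⟩ := F.mem_fixedIdx.1 hfix
  obtain ⟨wU, hmin⟩ := exists_isMinOn R hv0 hvfix
  set B₀ : Finset X := univ.image a with hB₀
  have hB₀card : B₀.card = F.level i := by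
    rw [hB₀, Finset.card_image_of_injective _ ha]
    simp
  obtain ⟨v₁, hv₁0, hv₁⟩ := hmin.ex
  have hnoneB : ∀ x, wU x ≠ none ↔ x ∈ B₀ := by
    intro x
    rw [Ne, hmin.vac, not_not]
  let key : UL X → ℕ × Bool := fun l => (Nat.log 2 (blk wU l), odU l)
  set S₀ : Finset (ℕ × Bool) := B₀.image (fun x => key (wU x)) with hS₀
  let Pos : ℕ × Bool → Finset X := fun s => B₀.filter fun x => key (wU x) = s
  have hPos : ∀ s x, x ∈ Pos s ↔ x ∈ B₀ ∧ key (wU x) = s := by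
    intro s x
    simp [Pos]
  let A : ℕ × Bool → Finset (UL X) := fun s => (Pos s).image wU
  let m : ℕ × Bool → ℕ := fun s => (Pos s).card
  let e : ∀ s, Fin (m s) ↪ X := fun s =>
    (Pos s).equivFin.symm.toEmbedding.trans (Function.Embedding.subtype _)
  have herange : ∀ s x, x ∈ Set.range (e s) ↔ x ∈ Pos s := by
    intro s x
    constructor
    · rintro ⟨b, rfl⟩
      exact ((Pos s).equivFin.symm b).2
    · intro hx
      refine ⟨(Pos s).equivFin ⟨x, hx⟩, ?_⟩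
      simp [e]
  have hePos : ∀ s b, e s b ∈ Pos s := fun s b => (herange s _).1 ⟨b, rfl⟩
  have hA1 : ∀ s, ∀ b, wU (e s b) ∈ A s := fun s b => mem_image_of_mem _ (hePos s b)
  have hAmem : ∀ s l, l ∈ A s → l ≠ none ∧ key l = s ∧ 0 < blk wU l := by
    intro s l hl
    obtain ⟨y, hy, rfl⟩ := mem_image.1 hl
    have hy' := (hPos s y).1 hy
    refine ⟨(hnoneB y).2 hy'.1, hy'.2, ?_⟩
    exact Finset.card_pos.2 ⟨y, by simp⟩
  have hA2 : ∀ s, ∀ x, wU x ∈ A s → x ∈ Set.range (e s) := by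
    intro s x hx
    rw [herange, hPos]
    obtain ⟨h1, h2, -⟩ := hAmem s _ hx
    exact ⟨(hnoneB x).1 h1, h2⟩
  have hdis : ∀ s s', s ≠ s' → ∀ b b', e s b ≠ e s' b' := by
    intro s s' hne b b' h
    apply hne
    have h1 := ((hPos s _).1 (hePos s b)).2
    have h2 := ((hPos s' _).1 (hePos s' b')).2
    rw [h] at h1
    exact h1.symm.trans h2
  obtain ⟨v₀, j, Y, hv₀0, hv₀, hiso, hvY, hfin, hinv⟩ := exists_primitive hv₁ hv₁0 S₀ m e A
    (fun s _ b => hA1 s b) (fun s _ x hx => hA2 s x hx)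
    (fun s _ s' _ hne b b' => hdis s s' hne b b') (fun s => Fm (m s))
  -- sorted rows
  have hsort := fun s => exists_sorted (A s) (blk wU)
  choose π hπ using hsort
  have hσ : ∀ s, ∀ l ∈ A s, odU l = s.2 := fun s l hl => congrArg Prod.snd (hAmem s l hl).2.1
  have hnone : ∀ s, none ∉ A s := fun s hl => (hAmem s _ hl).1 rfl
  have hrais : ∀ s (b : Fin (m s)) (l : UL X), l ∈ A s → wU (e s b) ≠ l →
      blk wU (wU (e s b)) ≤ blk wU l →
      v₀ + sgnL odU l • ∑ i ∈ univ.filter (fun i => wU i = l), R.ρ (Equiv.swap (e s b) i) *ᵥ v₀ = 0 := by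
    intro s b l hl hne hle
    refine hmin.raising hv₀ (hAmem s l hl).1 (hAmem s _ (hA1 s b)).1 hne hle
  let T : S₀ → ℕ := fun s => (A s.1).card
  let μ : ∀ s, Fin (T s) → ℕ := fun s c => blk wU (π s.1 c).1
  -- the word
  have hBS : ∀ x, x ∈ B₀ → key (wU x) ∈ S₀ := fun x hx => mem_image_of_mem _ hx
  have hAx : ∀ x, x ∈ B₀ → wU x ∈ A (key (wU x)) := fun x hx =>
    mem_image_of_mem _ ((hPos _ _).2 ⟨hx, rfl⟩)
  let w₀ : X → Unit ⊕ (Σ s : S₀, Fin (T s)) := fun x =>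
    if hx : x ∈ B₀ then
      Sum.inr ⟨⟨key (wU x), hBS x hx⟩, (π (key (wU x))).symm ⟨wU x, hAx x hx⟩⟩
    else Sum.inl ()
  have hw₀in : ∀ x (hx : x ∈ B₀), w₀ x =
      Sum.inr ⟨⟨key (wU x), hBS x hx⟩, (π (key (wU x))).symm ⟨wU x, hAx x hx⟩⟩ := by
    intro x hx
    simp only [w₀]
    rw [dif_pos hx]
  have hw₀out : ∀ x, x ∉ B₀ → w₀ x = Sum.inl () := by
    intro x hx
    simp only [w₀]
    rw [dif_neg hx]
  have hw₀ : ∀ x s c, w₀ x = Sum.inr ⟨s, c⟩ ↔ wU x = (π s.1 c).1 := by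
    intro x s c
    constructor
    · intro h
      by_cases hx : x ∈ B₀
      · rw [hw₀in x hx] at h
        have h1 := Sum.inr.inj h
        obtain ⟨rfl, h2⟩ := Sigma.mk.inj_iff.1 h1
        have h3 := eq_of_heq h2
        subst h3
        rw [Equiv.apply_symm_apply]
      · rw [hw₀out x hx] at h
        exact absurd h (by simp)
    · intro h
      have hl : wU x ∈ A s.1 := by
        rw [h]
        exact (π s.1 c).2
      obtain ⟨h1, h2, -⟩ := hAmem s.1 _ hl
      have hx : x ∈ B₀ := (hnoneB x).1 h1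
      rw [hw₀in x hx]
      obtain ⟨s₀, hs₀⟩ := s
      simp only at h2
      subst h2
      congr 2
      rw [Equiv.symm_apply_eq]
      exact Subtype.ext h
  have hinl : ∀ x, w₀ x = Sum.inl () ↔ x ∉ B₀ := by
    intro x
    by_cases hx : x ∈ B₀
    · rw [hw₀in x hx]
      simp [hx]
    · rw [hw₀out x hx]
      simp [hx]
  -- the pattern
  let P : X → Option S₀ := fun x => if hx : x ∈ B₀ then some ⟨key (wU x), hBS x hx⟩ else none
  have hPin : ∀ x s, P x = some s ↔ x ∈ Pos s.1 := by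
    intro x s
    simp only [P, hPos]
    by_cases hx : x ∈ B₀
    · rw [dif_pos hx]
      simp only [Option.some.injEq, hx, true_and]
      constructor
      · intro h
        rw [← h]
      · intro h
        exact Subtype.ext h
    · rw [dif_neg hx]
      simp [hx]
  have hPnone : ∀ x, P x = none ↔ x ∉ B₀ := by
    intro x
    simp only [P]
    by_cases hx : x ∈ B₀ <;> simp [hx]
  have hinvP : ∀ x y, x ≠ y → P x = P y → ∀ y' ∈ Y, (F.R i).ρ (Equiv.swap x y) *ᵥ y' ∈ Y := by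
    intro x y hxy hP
    apply hinv x y hxy
    by_cases hx : x ∈ B₀
    · have hs := hBS x hx
      have h1 : P x = some ⟨key (wU x), hs⟩ := (hPin x _).2 ((hPos _ _).2 ⟨hx, rfl⟩)
      have h2 : y ∈ Pos (key (wU x)) := (hPin y ⟨key (wU x), hs⟩).1 (by rw [← hP, h1])
      refine Or.inr ⟨_, hs, ?_, ?_⟩
      · rw [herange]
        exact (hPos _ _).2 ⟨hx, rfl⟩
      · rw [herange]
        exact h2
    · have h1 : P x = none := (hPnone x).2 hx
      have h2 : y ∉ B₀ := (hPnone y).1 (by rw [← hP, h1])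
      left
      rw [(hmin.vac x).2 hx, (hmin.vac y).2 h2]
  have hd := d_le_multi_mul F i hv₀0 hvY P hinvP
  have hspec := multi_spec P
  rw [Fintype.prod_option] at hspec
  have hblkn : blk P none = Fintype.card X - F.level i := by
    have h1 : (univ.filter fun x => P x = none) = B₀ᶜ := by
      ext x
      simp [hPnone]
    unfold blk
    rw [h1, Finset.card_compl, hB₀card]
  have hblks : ∀ s : S₀, blk P (some s) = m s.1 := by
    intro s
    have h1 : (univ.filter fun x => P x = some s) = Pos s.1 := by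
      ext x
      simp [hPin]
    unfold blk
    rw [h1]
  simp only [hblkn, hblks] at hspec
  refine ⟨S₀, T, μ, fun s => m s.1, fun s => e s.1, fun s => j s.1, w₀, v₀, hv₀0, ?_, ?_, ?_, ?_, ?_, ?_,
    ?_, ?_, ?_, ?_, ?_, ?_, ?_⟩
  · refine hv₀.relabel ?_ ?_
    · intro x y h
      by_cases hx : x ∈ B₀
      · have h1 := hw₀in x hx
        have h2 : wU x = _ := (hw₀ x _ _).1 h1
        have h3 : wU y = _ := (hw₀ y _ _).1 (h.symm.trans h1)
        rw [h2, h3]
      · have hy : y ∉ B₀ := (hinl y).1 (by rw [← h]; exact (hinl x).2 hx)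
        rw [(hmin.vac x).2 hx, (hmin.vac y).2 hy]
    · intro x
      by_cases hx : x ∈ B₀
      · rw [hw₀in x hx]
        rfl
      · rw [hw₀out x hx, (hmin.vac x).2 hx]
        rfl
  · have h1 : (univ.filter fun x => w₀ x = Sum.inl ()) = B₀ᶜ := by
      ext x
      simp [hinl]
    rw [h1, Finset.card_compl, hB₀card]
    have := F.level_le_card i
    omega
  · intro s x
    constructor
    · rintro ⟨c, hc⟩
      apply hA2
      rw [(hw₀ x s c).1 hc]
      exact (π s.1 c).2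
    · intro hx
      have hx' := (hPos _ _).1 ((herange _ _).1 hx)
      have hm : wU x ∈ A s.1 := mem_image_of_mem _ ((herange _ _).1 hx)
      refine ⟨(π s.1).symm ⟨wU x, hm⟩, (hw₀ x s _).2 ?_⟩
      rw [Equiv.apply_symm_apply]
  · intro s c
    show _ = blk wU (π s.1 c).1
    unfold blk
    congr 1
    ext x
    simp only [mem_filter, mem_univ, true_and]
    exact hw₀ x s c
  · intro s
    exact hπ s.1
  · intro s c
    obtain ⟨h1, h2, h3⟩ := hAmem s.1 _ (π s.1 c).2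
    have h4 : Nat.log 2 (blk wU (π s.1 c).1) = s.1.1 := congrArg Prod.fst h2
    show 2 ^ s.1.1 ≤ blk wU (π s.1 c).1 ∧ blk wU (π s.1 c).1 < 2 ^ (s.1.1 + 1)
    rw [← h4]
    exact ⟨Nat.pow_log_le_self 2 h3.ne', Nat.lt_pow_succ_log_self (by norm_num) _⟩
  · intro s
    obtain ⟨x, hx, hxs⟩ := mem_image.1 s.2
    apply Finset.card_pos.2
    refine ⟨wU x, ?_⟩
    have : s.1 = key (wU x) := hxs.symm
    rw [this]
    exact hAx x hx
  · intro s
    have h1 := Specht.sum_content (clsWord (e s.1) (π s.1) (hA1 s.1))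
    simp only [content_clsWord (e s.1) (π s.1) (hA1 s.1) (hA2 s.1)] at h1
    exact h1.symm
  · intro s
    have hlo : ∀ l ∈ A s.1, 2 ^ s.1.1 ≤ blk wU l := by
      intro l hl
      obtain ⟨-, h2, h3⟩ := hAmem s.1 l hl
      have h4 : Nat.log 2 (blk wU l) = s.1.1 := congrArg Prod.fst h2
      rw [← h4]
      exact Nat.pow_log_le_self 2 h3.ne'
    have hhi : ∀ l ∈ A s.1, blk wU l < 2 * 2 ^ s.1.1 := by
      intro l hl
      obtain ⟨-, h2, -⟩ := hAmem s.1 l hl
      have h4 : Nat.log 2 (blk wU l) = s.1.1 := congrArg Prod.fst h2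
      rw [← h4, ← pow_succ']
      exact Nat.lt_pow_succ_log_self (by norm_num) _
    exact hmin.card_le hv₀ hv₀0 (e s.1) (A s.1) s.1.2 (hA1 s.1) (hA2 s.1) (hσ s.1) (hnone s.1) _ _
      (hiso s.1 s.2) (π s.1) (hπ s.1) (Nat.one_le_two_pow) hlo hhi
  · intro s hs
    have hlo : ∀ l ∈ A s.1, 2 ^ s.1.1 ≤ blk wU l := by
      intro l hl
      obtain ⟨-, h2, h3⟩ := hAmem s.1 l hl
      have h4 : Nat.log 2 (blk wU l) = s.1.1 := congrArg Prod.fst h2
      rw [← h4]
      exact Nat.pow_log_le_self 2 h3.ne'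
    have hhi : ∀ l ∈ A s.1, blk wU l < 2 * 2 ^ s.1.1 := by
      intro l hl
      obtain ⟨-, h2, -⟩ := hAmem s.1 l hl
      have h4 : Nat.log 2 (blk wU l) = s.1.1 := congrArg Prod.fst h2
      rw [← h4, ← pow_succ']
      exact Nat.lt_pow_succ_log_self (by norm_num) _
    have h1 := Specht.sum_content (clsWord (e s.1) (π s.1) (hA1 s.1))
    simp only [content_clsWord (e s.1) (π s.1) (hA1 s.1) (hA2 s.1)] at h1
    have h2 := hmin.card_sq_le hv₀ hv₀0 (e s.1) (A s.1) s.1.2 (hA1 s.1) (hA2 s.1) (hσ s.1) (hnone s.1) _ _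
      (hiso s.1 s.2) (π s.1) (hπ s.1) hs hlo hhi
    rw [h1] at h2
    exact h2
  · intro s
    exact hiso s.1 s.2
  · intro s
    exact class_frob hv₀ hv₀0 (e s.1) (A s.1) s.1.2 (hA1 s.1) (hA2 s.1) (hσ s.1) (hrais s.1) _ _
      (hiso s.1 s.2) (π s.1) (hπ s.1)
  · have hprod : ∏ s : S₀, (Fm (m s.1)).d (j s.1) = ∏ s ∈ S₀, (Fm (m s)).d (j s) :=
      Finset.prod_coe_sort S₀ (fun s => (Fm (m s)).d (j s))
    rw [hprod, ← hspec]
    have h1 : F.d i ≤ multi P * ∏ s ∈ S₀, (Fm (m s)).d (j s) :=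
      hd.trans (Nat.mul_le_mul_left _ hfin)
    calc F.d i * ((Fintype.card X - F.level i).factorial * ∏ s : S₀, (m s.1).factorial)
        ≤ (multi P * ∏ s ∈ S₀, (Fm (m s)).d (j s)) *
            ((Fintype.card X - F.level i).factorial * ∏ s : S₀, (m s.1).factorial) :=
          Nat.mul_le_mul_right _ h1
      _ = _ := by ring

/-- **The shape data.** -/
theorem exists_shape_data (F : Family (Equiv.Perm X)) (i : Fin F.r)
    (Fm : ∀ m, Family (Equiv.Perm (Fin m))) :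
    ∃ (S₀ : Finset (ℕ × Bool)) (T : S₀ → ℕ) (μ : ∀ s, Fin (T s) → ℕ) (m : S₀ → ℕ)
      (e : ∀ s, Fin (m s) ↪ X) (j : ∀ s, Fin (Fm (m s)).r)
      (w₀ : X → Unit ⊕ (Σ s : S₀, Fin (T s))) (v₀ : Fin (F.d i) → ℂ),
      v₀ ≠ 0 ∧
      Adm (F.R i) (Sum.elim (fun _ => false) (fun p => p.1.1.2)) w₀ v₀ ∧
      (univ.filter fun x => w₀ x = Sum.inl ()).card + F.level i = Fintype.card X ∧
      (∀ s x, (∃ a, w₀ x = Sum.inr ⟨s, a⟩) ↔ x ∈ Set.range (e s)) ∧
      (∀ s a, (univ.filter fun x => w₀ x = Sum.inr ⟨s, a⟩).card = μ s a) ∧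
      (∀ s, Antitone (μ s)) ∧
      (∀ s a, 2 ^ s.1.1 ≤ μ s a ∧ μ s a < 2 ^ (s.1.1 + 1)) ∧
      (∀ s, 0 < T s) ∧
      (∀ s, m s = ∑ a, μ s a) ∧
      (∀ s, T s ≤ 3 * 2 ^ s.1.1 + 3) ∧
      (∀ s, ((F.R i).comp (emb (e s))).lift ((Fm (m s)).idem (j s)) *ᵥ v₀ = v₀) ∧
      (∀ s, (m s).factorial * ∏ a : Fin (T s), (T s - 1 - a.val).factorial ≤
        (Fm (m s)).d (j s) * ∏ a : Fin (T s), (μ s a + (T s - 1 - a.val)).factorial) ∧
      F.d i * ((Fintype.card X - F.level i).factorial * ∏ s, (m s).factorial) ≤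
        (Fintype.card X).factorial * ∏ s, (Fm (m s)).d (j s) := by
  obtain ⟨S₀, T, μ, m, e, j, w₀, v₀, h1, h2, h3, h4, h5, h6, h7, h8, h9, h10, -, h12, h13, h14⟩ :=
    exists_shape_data2 F i Fm
  exact ⟨S₀, T, μ, m, e, j, w₀, v₀, h1, h2, h3, h4, h5, h6, h7, h8, h9, h10, h12, h13, h14⟩

/-- **The index bound**: `d_V (n-b)! ∏_s ∏_a μ_{s,a}! ≤ n!`, from the output of `exists_shape_data`. -/
theorem shape_index_bound (F : Family (Equiv.Perm X)) (i : Fin F.r) {S₀ : Finset (ℕ × Bool)}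
    {T : S₀ → ℕ} {μ : ∀ s, Fin (T s) → ℕ} {w₀ : X → Unit ⊕ (Σ s : S₀, Fin (T s))} {v₀ : Fin (F.d i) → ℂ}
    (hv0 : v₀ ≠ 0) (hv : Adm (F.R i) (Sum.elim (fun _ => false) (fun p => p.1.1.2)) w₀ v₀)
    (hvac : (univ.filter fun x => w₀ x = Sum.inl ()).card + F.level i = Fintype.card X)
    (hμ : ∀ s a, (univ.filter fun x => w₀ x = Sum.inr ⟨s, a⟩).card = μ s a) :
    F.d i * ((Fintype.card X - F.level i).factorial * ∏ s, ∏ a, (μ s a).factorial) ≤
      (Fintype.card X).factorial := by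
  classical
  have h1 := d_le_multi F i hv hv0
  have h2 := multi_spec w₀
  rw [Fintype.prod_sum_type, Fintype.prod_sigma] at h2
  have h3 : ∀ u : Unit, blk w₀ (Sum.inl u) = Fintype.card X - F.level i := by
    intro u
    have : (univ.filter fun x => w₀ x = Sum.inl u).card = Fintype.card X - F.level i := by
      have e : u = () := rfl
      rw [e]
      omega
    exact this
  have h4 : ∀ s a, blk w₀ (Sum.inr ⟨s, a⟩) = μ s a := fun s a => hμ s a
  simp only [h3, h4, Finset.prod_const, Finset.card_univ, Fintype.card_unit, pow_one] at h2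
  rw [← h2, mul_comm]
  exact Nat.mul_le_mul_left _ h1

end Crest.Agent.S0222Lib.Shape
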