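import Crest.Agent.S0222Lib.JChain
import Crest.Agent.S0222Lib.JCk
import Crest.Agent.S0222Lib.JBnum
import Crest.Agent.S0222Lib.JTopEig
import Crest.Agent.S0222Lib.ShapeData

/-!
# S0222: Theorem J, the assembly

* `mixCF`: the universal mixture of `JMix` as a family of operators on the colours of a class;
* `H1_mixCF`: the bound `(H1)` for it, with the constant `BMix`;
* `J_top_of_data`, `J_top`: for a member `V_i` of a complete family of `Perm (B (d+1))`, the shape data, and for any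
  levels of conversion `Ds s`, the bound of `(passA d)^` on `V_i`.
-/

set_option autoImplicit false
set_option linter.unusedSectionVars false
set_option linter.unusedSimpArgs false

namespace Crest.Agent.S0222Lib.SWord

open Matrix MonoidAlgebra
open scoped ComplexOrder MatrixOrder
open Crest.Agent.S0222Lib.Planch Crest.Agent.S0222Lib.WordRep Crest.Agent.S0222Lib.JCore
open Crest.Agent.S0222Lib.Site Crest.Agent.S0222Lib.JFin Crest.Agent.S0222Lib.Gain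
open Crest.Agent.S0222Lib.Shape

section Mix

variable {T N : ℕ}

lemma idx_nonempty (hT : 1 ≤ T) (hN : 1 ≤ N) : Nonempty (JMix.Idx T N) := by
  by_contra h
  rw [not_nonempty_iff] at h
  have h2 := JMix.sum_wt (T := T) (N := N) hT (by omega)
  simp at h2

/-- The universal mixture as a family of operators on the colours. -/
noncomputable def mixCF (hT : 1 ≤ T) (hN : 1 ≤ N) : CFam (Fin T) :=
  { J := JMix.Idx T N
    fJ := inferInstance
    nJ := idx_nonempty hT hN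
    w := JMix.wt
    w_pos := fun κ => JMix.wt_pos κ
    E := fun κ => CFC.sqrt (JMix.xx κ)
    E_pd := fun κ => sqrt_posDef (JMix.xx_posDef hT κ) }

/-- The constant of `(H1)` for the universal mixture. -/
noncomputable def BMix (T N : ℕ) (δ δ' : ℝ) (i : ℕ) : ℝ :=
  √2 * N * Real.exp (i * (δ + 2 * δ')) * JBnum.Xi T δ δ'

lemma BMix_nonneg {T N : ℕ} {δ δ' : ℝ} (hδ : 0 < δ) (hδ' : 0 < δ') (i : ℕ) : 0 ≤ BMix T N δ δ' i := by
  have := JBnum.one_le_Xi T hδ hδ'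
  unfold BMix
  positivity

lemma one_le_BMix {T N : ℕ} (hN : 1 ≤ N) {δ δ' : ℝ} (hδ : 0 < δ) (hδ' : 0 < δ') :
    1 ≤ BMix T N δ δ' 0 := by
  have h1 := JBnum.one_le_Xi T hδ hδ'
  have h2 : (1 : ℝ) ≤ N := by exact_mod_cast hN
  have h3 : (1 : ℝ) ≤ √2 := by
    rw [show (1 : ℝ) = √1 by simp]
    exact Real.sqrt_le_sqrt (by norm_num)
  unfold BMix
  simp only [Nat.cast_zero, zero_mul, Real.exp_zero, mul_one]
  calc (1 : ℝ) = 1 * 1 * 1 := by ring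
    _ ≤ _ := by gcongr

lemma sum_norm_sqrt_le (hT : 1 ≤ T) (κ : JMix.Idx T N) :
    ∑ d', ∑ d, ‖(CFC.sqrt (JMix.xx κ)) d d'‖ ^ 2 ≤ 1 := by
  have hpd := JMix.xx_posDef hT κ
  set A := CFC.sqrt (JMix.xx κ) with hA
  have hAh : Aᴴ = A := (sqrt_posDef hpd).isHermitian.eq
  have hAA : A * A = JMix.xx κ := sqrt_mul_self' hpd
  have htr : ((∑ d', ∑ d, ‖A d d'‖ ^ 2 : ℝ) : ℂ) = (JMix.xx κ).trace := by
    rw [← hAA, Matrix.trace]
    push_cast
    refine Finset.sum_congr rfl fun d' _ => ?_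
    rw [Matrix.diag_apply, Matrix.mul_apply]
    refine Finset.sum_congr rfl fun d _ => ?_
    have h1 : A d' d = star (A d d') := by
      conv_lhs => rw [← hAh]
      rfl
    rw [h1, mul_comm]
    rw [← Complex.mul_conj' (A d d')]
    rfl
  rw [JMix.trace_xx hT κ] at htr
  have : (∑ d', ∑ d, ‖A d d'‖ ^ 2 : ℝ) = 1 := by exact_mod_cast htr
  exact this.le

/-- `(H1)` on the empty word. -/
lemma H1_zero {I C : Type*} [Fintype I] [Fintype C] [DecidableEq C] (w : I → ℝ) (hw : ∑ j, w j = 1)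
    (E : I → Matrix C C ℂ) {b : ℝ} (hb : 1 ≤ b) (φ : Equiv.Perm (Fin 0) → ℂ) :
    hs (mixY (Fin 0) w E) (∑ π, φ π • rhoG C π) ≤ (((0 : ℕ).factorial : ℝ) * b) * ∑ π, ‖φ π‖ ^ 2 := by
  classical
  have hY : mixY (Fin 0) w E = 1 := by
    unfold mixY
    have h1 : ∀ j, tp (fun _ : Fin 0 => E j) = 1 := by
      intro j
      ext x y
      rw [tp_apply, Subsingleton.elim y x]
      simp
    simp only [h1]
    rw [← Finset.sum_smul]
    have : ∑ j, (w j : ℂ) = 1 := by exact_mod_cast hw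
    rw [this, one_smul]
  have hD : (∑ π, φ π • rhoG C π) = φ 1 • (1 : Matrix (Fin 0 → C) (Fin 0 → C) ℂ) := by
    rw [Fintype.sum_eq_single (1 : Equiv.Perm (Fin 0))]
    · congr 1
    · intro π hπ
      exact absurd (Subsingleton.elim π 1) hπ
  rw [hY, hD]
  have hsum : ∑ π, ‖φ π‖ ^ 2 = ‖φ 1‖ ^ 2 := by
    rw [Fintype.sum_eq_single (1 : Equiv.Perm (Fin 0))]
    intro π hπ
    exact absurd (Subsingleton.elim π 1) hπ
  rw [hsum]
  have h0 : hs (1 : Matrix (Fin 0 → C) (Fin 0 → C) ℂ) (φ 1 • (1 : Matrix (Fin 0 → C) (Fin 0 → C) ℂ)) =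
      ‖φ 1‖ ^ 2 := by
    unfold hs
    rw [inv_one, Matrix.mul_one, Matrix.conjTranspose_smul, Matrix.conjTranspose_one, Matrix.smul_mul,
      Matrix.one_mul, smul_smul, Matrix.trace_smul, Matrix.trace_one]
    simp only [Fintype.card_unique, Nat.cast_one, smul_eq_mul, mul_one]
    rw [Complex.star_def, ← Complex.normSq_eq_conj_mul_self]
    rw [Complex.ofReal_re, Complex.normSq_eq_norm_sq]
  rw [h0]
  have h2 : 0 ≤ ‖φ 1‖ ^ 2 := by positivity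
  simp only [Nat.factorial_zero, Nat.cast_one, one_mul]
  nlinarith

/-- **`(H1)` for the universal mixture.** -/
theorem H1_mixCF (hT : 1 ≤ T) (hN : 1 ≤ N) {δ δ' : ℝ} (hδ : 0 < δ) (hδ' : 0 < δ') {i : ℕ} (hi : i ≤ N)
    (φ : Equiv.Perm (Fin i) → ℂ) :
    hs (mixY (Fin i) (mixCF hT hN).w (mixCF hT hN).E) (∑ π, φ π • rhoG (Fin T) π) ≤
      ((i.factorial : ℝ) * BMix T N δ δ' i) * ∑ π, ‖φ π‖ ^ 2 := by
  rcases Nat.eq_zero_or_pos i with rfl | hi1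
  · exact H1_zero _ (JMix.sum_wt hT hN) _ (one_le_BMix hN hδ hδ') φ
  · exact JH1.H1_mix hT hi1 hi (BMix_nonneg hδ hδ' i)
      (fun μ hμ d hd => JBnum.ck_bound hT hi1 hi hδ hδ' μ hμ d hd) φ

end Mix

section Top

variable {d : ℕ} (F : Family (Equiv.Perm (B (d + 1)))) (i : Fin F.r)
  (Fm : ∀ m, Family (Equiv.Perm (Fin m)))

lemma sum_m_eq_level {S₀ : Finset (ℕ × Bool)} {T : S₀ → ℕ} {m : S₀ → ℕ}
    (e : ∀ s, Fin (m s) ↪ B (d + 1)) (w₀ : B (d + 1) → Unit ⊕ (Σ s : S₀, Fin (T s)))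
    (hvac : (Finset.univ.filter fun x => w₀ x = Sum.inl ()).card + F.level i = Fintype.card (B (d + 1)))
    (he : ∀ s x, (∃ a, w₀ x = Sum.inr ⟨s, a⟩) ↔ x ∈ Set.range (e s)) :
    ∑ s, m s = F.level i := by
  classical
  have h1 : ∀ s, m s = ∑ x, if x ∈ Set.range (e s) then 1 else 0 := by
    intro s
    rw [Finset.sum_boole]
    have h3 : (Finset.univ.filter fun x => x ∈ Set.range (e s)) = Finset.univ.map (e s) := by
      ext x
      simp
    rw [h3, Finset.card_map, Finset.card_univ, Fintype.card_fin]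
    simp
  have h2 : ∀ x, (∑ s, if x ∈ Set.range (e s) then 1 else 0) = if w₀ x = Sum.inl () then 0 else 1 := by
    intro x
    rcases hw : w₀ x with c | ⟨s', a⟩
    · have : c = () := rfl
      subst this
      rw [if_pos rfl]
      refine Finset.sum_eq_zero fun s _ => ?_
      rw [if_neg]
      intro hx
      obtain ⟨a, ha⟩ := (he s x).2 hx
      rw [hw] at ha
      exact absurd ha (by simp)
    · rw [if_neg (by simp)]
      rw [Finset.sum_eq_single s']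
      · rw [if_pos ((he s' x).1 ⟨a, hw⟩)]
      · intro s _ hs
        rw [if_neg]
        intro hx
        obtain ⟨b, hb⟩ := (he s x).2 hx
        rw [hw] at hb
        have h4 := Sum.inr.inj hb
        exact hs (Sigma.mk.inj_iff.1 h4).1.symm
      · simp
  have h3 : ∑ s, m s = ∑ x, if w₀ x = Sum.inl () then 0 else 1 := by
    simp only [h1]
    rw [Finset.sum_comm]
    simp only [h2]
  have h5 : (Finset.univ.filter fun x => w₀ x = Sum.inl ()).card +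
      ∑ x, (if w₀ x = Sum.inl () then 0 else 1) = Fintype.card (B (d + 1)) := by
    rw [Finset.card_filter, ← Finset.sum_add_distrib, Finset.card_univ.symm, Finset.card_eq_sum_ones]
    refine Finset.sum_congr rfl fun x _ => ?_
    by_cases h : w₀ x = Sum.inl () <;> simp [h]
  rw [h3]
  omega

/-- The bound on the top of the chain in terms of shape data, for general families on the colours. -/
theorem J_top_of_data_gen {S₀ : Finset (ℕ × Bool)} {T : S₀ → ℕ} {m : S₀ → ℕ}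
    (e : ∀ s, Fin (m s) ↪ B (d + 1)) (j : ∀ s, Fin (Fm (m s)).r)
    (w₀ : B (d + 1) → Unit ⊕ (Σ s : S₀, Fin (T s))) (v₀ : Fin (F.d i) → ℂ) (hv0 : v₀ ≠ 0)
    (hAdm : Adm (F.R i) (Sum.elim (fun _ => false) (fun p => p.1.1.2)) w₀ v₀)
    (he : ∀ s x, (∃ a, w₀ x = Sum.inr ⟨s, a⟩) ↔ x ∈ Set.range (e s))
    (hiso : ∀ s, ((F.R i).comp (emb (e s))).lift ((Fm (m s)).idem (j s)) *ᵥ v₀ = v₀)
    (Ds : S₀ → ℕ) (hDs : ∀ s, Ds s ≤ d + 1) (Bs : S₀ → ℕ → ℝ) (hBs : ∀ s k, 0 ≤ Bs s k)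
    (G : ∀ s, CFam (Fin (T s))) (hGw : ∀ s, ∑ j, (G s).w j = 1)
    (hGt : ∀ s j, ∑ d', ∑ d, ‖(G s).E j d d'‖ ^ 2 ≤ 1)
    (hH1 : ∀ s, ∀ k ≤ 2 ^ Ds s, ∀ φ : Equiv.Perm (Fin k) → ℂ,
      hs (mixY (Fin k) (G s).w (G s).E) (∑ π, φ π • rhoG (Fin (T s)) π) ≤
        ((k.factorial : ℝ) * Bs s k) * ∑ π, ‖φ π‖ ^ 2)
    (τ : S₀ → ℝ) (u : Fin (F.d i) → ℂ) :
    nsq ((F.R i).lift (toC (passA d)) *ᵥ u) ≤
      Real.sqrt ((Real.exp (∑ s, (m s : ℝ) * τ s) *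
          ∏ s, gConv (Bs s) (Ds s) (τ s - JNum.tauD (Ds s)) ^ 2 ^ (d + 1 - Ds s)) *
        Real.sqrt (1 / ∏ s, ((Fm (m s)).d (j s) : ℝ))) * nsq u := by
  classical
  obtain ⟨o, ho⟩ : ∃ o : S₀ → Bool, o = fun s => s.1.2 := ⟨_, rfl⟩
  obtain ⟨M, hM⟩ : ∃ M : ℕ, M = 2 ^ (d + 1) := ⟨_, rfl⟩
  obtain ⟨F', hF', hMM⟩ := J_chain (Ts := T) (o := o) (M := M) (τ := τ) (B := Bs) hDs hM.ge hBs
    G hGw hGt hH1
  obtain ⟨w₁, hw₁⟩ : ∃ w₁ : B (d + 1) → TokS S₀ M ⊕ ColS T, ∀ x, w₁ x = Sum.inr (w₀ x) :=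
    ⟨_, fun _ => rfl⟩
  have hinB : inB (fun _ : TokS S₀ M => (none : Option (B (d + 1)))) w₁ := by
    intro a p
    simp [hw₁]
  -- the content
  have hcont : cont (ctS T M) w₁ = m := by
    funext s
    have h1 : cont (ctS T M) w₁ s = ∑ x, (ctS T M (w₁ x)) s := by
      unfold cont
      rw [Finset.sum_apply]
    rw [h1]
    have h2 : ∀ x, (ctS T M (w₁ x)) s = if x ∈ Set.range (e s) then 1 else 0 := by
      intro x
      by_cases hx : x ∈ Set.range (e s)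
      · rw [if_pos hx]
        obtain ⟨a, ha⟩ := (he s x).2 hx
        rw [hw₁, ha]
        simp [ctS]
      · rw [if_neg hx]
        rcases hw : w₀ x with c | ⟨s', a⟩
        · rw [hw₁, hw]
          simp [ctS]
        · rw [hw₁, hw]
          have hne : s' ≠ s := by
            rintro rfl
            exact hx ((he s' x).1 ⟨a, hw⟩)
          simp [ctS, Pi.single_apply, hne.symm]
    simp only [h2]
    rw [Finset.sum_boole]
    have h3 : (Finset.univ.filter fun x => x ∈ Set.range (e s)) = Finset.univ.map (e s) := by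
      ext x
      simp
    rw [h3, Finset.card_map, Finset.card_univ, Fintype.card_fin]
    simp
  -- the sign
  have hAdm' : Adm (F.R i) (odS T o M) w₁ v₀ := by
    refine hAdm.relabel ?_ ?_
    · intro x y h
      rw [hw₁, hw₁] at h
      exact Sum.inr.inj h
    · intro x
      rw [hw₁]
      rcases hw : w₀ x with c | ⟨s', a⟩
      · simp [odS]
      · simp [odS, ho]
  have hv : ∀ g : Equiv.Perm (B (d + 1)), w₁ ∘ g = w₁ →
      (F.R i).ρ g *ᵥ v₀ = epsS bval (odS T o M) g w₁ • v₀ :=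
    fun g hg => hAdm'.act_eq_epsS bval_injective g hg
  -- the top
  have hcnt : m ∈ Cnt (d + 1) (Finset.univ : Finset S₀) := by
    rw [mem_Cnt]
    refine ⟨fun s => ?_, fun s hs => absurd (Finset.mem_univ s) hs⟩
    have h1 := Fintype.card_le_of_embedding (e s)
    simpa [Fintype.card_fin] using h1
  have hMbd := hMM m hcnt
  have hy : ∀ u, (star (PhiS (odS T o M) (F.R i) w₁ v₀ u) ⬝ᵥ
      (F'.Y (d + 1) *ᵥ PhiS (odS T o M) (F.R i) w₁ v₀ u)).re ≤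
      Real.sqrt (1 / ∏ s, ((Fm (m s)).d (j s) : ℝ)) * nsq (PhiS (odS T o M) (F.R i) w₁ v₀ u) := by
    intro u
    have h1 := form_FamY_le (C := Option S₀) F' (clS T) hF'.block ?_ hv (ι := S₀)
      (Finset.univ : Finset S₀) (fun s => some s) (Option.some_injective _) m e (fun s => Fm (m s)) j
      ?_ (fun s _ => hiso s) u
    · rw [hF'.sum_w, one_mul] at h1
      exact h1
    · rintro q (_ | s)
      · exact hF'.tr_none q
      · exact hF'.tr_act q s (Finset.mem_univ s)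
    · intro s _ x
      rw [← he s x, hw₁]
      constructor
      · intro h
        rcases hw : w₀ x with c | ⟨s', a⟩
        · simp [hw, clE, clS] at h
        · simp [hw, clE, clS] at h
          subst h
          exact ⟨a, rfl⟩
      · rintro ⟨a, ha⟩
        simp [ha, clE, clS]
  exact nsq_lift_le_of_MM F i (odS T o M) (ctS T M) m hinB hcont hv hv0 (F'.Y_posDef (d + 1)) hMbd hy u

/-- The bound on the top of the chain in terms of shape data for the universal mixtures. -/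
theorem J_top_of_data {S₀ : Finset (ℕ × Bool)} {T : S₀ → ℕ} {m : S₀ → ℕ}
    (e : ∀ s, Fin (m s) ↪ B (d + 1)) (j : ∀ s, Fin (Fm (m s)).r)
    (w₀ : B (d + 1) → Unit ⊕ (Σ s : S₀, Fin (T s))) (v₀ : Fin (F.d i) → ℂ) (hv0 : v₀ ≠ 0)
    (hAdm : Adm (F.R i) (Sum.elim (fun _ => false) (fun p => p.1.1.2)) w₀ v₀)
    (he : ∀ s x, (∃ a, w₀ x = Sum.inr ⟨s, a⟩) ↔ x ∈ Set.range (e s)) (hT : ∀ s, 0 < T s)
    (hiso : ∀ s, ((F.R i).comp (emb (e s))).lift ((Fm (m s)).idem (j s)) *ᵥ v₀ = v₀)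
    (Ds : S₀ → ℕ) (hDs : ∀ s, Ds s ≤ d + 1) (δ δ' : S₀ → ℝ) (hδ : ∀ s, 0 < δ s) (hδ' : ∀ s, 0 < δ' s)
    (τ : S₀ → ℝ) (u : Fin (F.d i) → ℂ) :
    nsq ((F.R i).lift (toC (passA d)) *ᵥ u) ≤
      Real.sqrt ((Real.exp (∑ s, (m s : ℝ) * τ s) *
          ∏ s, gConv (BMix (T s) (2 ^ Ds s) (δ s) (δ' s)) (Ds s) (τ s - JNum.tauD (Ds s)) ^
            2 ^ (d + 1 - Ds s)) *
        Real.sqrt (1 / ∏ s, ((Fm (m s)).d (j s) : ℝ))) * nsq u := by
  have hN : ∀ s, 1 ≤ 2 ^ Ds s := fun s => Nat.one_le_two_pow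
  exact J_top_of_data_gen F i Fm e j w₀ v₀ hv0 hAdm he hiso Ds hDs _
    (fun s k => BMix_nonneg (hδ s) (hδ' s) k)
    (fun s => mixCF (hT s) (hN s)) (fun s => JMix.sum_wt (hT s) (hN s))
    (fun s κ => sum_norm_sqrt_le (hT s) κ)
    (fun s k hk φ => H1_mixCF (hT s) (hN s) (hδ s) (hδ' s) hk φ) τ u

/-- **Theorem J: the assembly**, with general families on the colours. -/
theorem J_top_gen :
    ∃ (S₀ : Finset (ℕ × Bool)) (T : S₀ → ℕ) (μ : ∀ s, Fin (T s) → ℕ) (m : S₀ → ℕ)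
      (j : ∀ s, Fin (Fm (m s)).r),
      (∀ s a, 2 ^ s.1.1 ≤ μ s a ∧ μ s a < 2 ^ (s.1.1 + 1)) ∧
      (∀ s, Antitone (μ s)) ∧
      (∀ s, 0 < T s) ∧
      (∀ s, m s = ∑ a, μ s a) ∧
      (∀ s, T s ≤ 3 * 2 ^ s.1.1 + 3) ∧
      (∀ s, 256 ≤ 2 ^ s.1.1 → 5 * T s ^ 2 ≤ 8 * m s) ∧
      (∑ s, m s = F.level i) ∧
      (∀ s, (m s).factorial * ∏ a : Fin (T s), (T s - 1 - a.val).factorial ≤
        (Fm (m s)).d (j s) * ∏ a : Fin (T s), (μ s a + (T s - 1 - a.val)).factorial) ∧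
      F.d i * ((Fintype.card (B (d + 1)) - F.level i).factorial * ∏ s, (m s).factorial) ≤
        (Fintype.card (B (d + 1))).factorial * ∏ s, (Fm (m s)).d (j s) ∧
      F.d i * ((Fintype.card (B (d + 1)) - F.level i).factorial * ∏ s, ∏ a, (μ s a).factorial) ≤
        (Fintype.card (B (d + 1))).factorial ∧
      ∀ (Ds : S₀ → ℕ), (∀ s, Ds s ≤ d + 1) → ∀ (Bs : S₀ → ℕ → ℝ), (∀ s k, 0 ≤ Bs s k) →
        ∀ (G : ∀ s, CFam (Fin (T s))), (∀ s, ∑ j, (G s).w j = 1) →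
        (∀ s j, ∑ d', ∑ d, ‖(G s).E j d d'‖ ^ 2 ≤ 1) →
        (∀ s, ∀ k ≤ 2 ^ Ds s, ∀ φ : Equiv.Perm (Fin k) → ℂ,
          hs (mixY (Fin k) (G s).w (G s).E) (∑ π, φ π • rhoG (Fin (T s)) π) ≤
            ((k.factorial : ℝ) * Bs s k) * ∑ π, ‖φ π‖ ^ 2) →
        ∀ (τ : S₀ → ℝ) (u : Fin (F.d i) → ℂ),
        nsq ((F.R i).lift (toC (passA d)) *ᵥ u) ≤
          Real.sqrt ((Real.exp (∑ s, (m s : ℝ) * τ s) *
              ∏ s, gConv (Bs s) (Ds s) (τ s - JNum.tauD (Ds s)) ^ 2 ^ (d + 1 - Ds s)) *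
            Real.sqrt (1 / ∏ s, ((Fm (m s)).d (j s) : ℝ))) * nsq u := by
  classical
  obtain ⟨S₀, T, μ, m, e, j, w₀, v₀, hv0, hAdm, hvac, he, hcard, hanti, hdy, hT, hm, hTle, hT2, hiso,
    hfrob, hdim⟩ := exists_shape_data2 F i Fm
  refine ⟨S₀, T, μ, m, j, hdy, hanti, hT, hm, hTle, hT2, ?_, hfrob, hdim, ?_, ?_⟩
  · exact sum_m_eq_level F i e w₀ hvac he
  · exact shape_index_bound F i hv0 hAdm hvac hcard
  · intro Ds hDs Bs hBs G hGw hGt hH1 τ u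
    exact J_top_of_data_gen F i Fm e j w₀ v₀ hv0 hAdm he hiso Ds hDs Bs hBs G hGw hGt hH1 τ u

/-- **Theorem J: the assembly.** -/
theorem J_top :
    ∃ (S₀ : Finset (ℕ × Bool)) (T : S₀ → ℕ) (μ : ∀ s, Fin (T s) → ℕ) (m : S₀ → ℕ)
      (j : ∀ s, Fin (Fm (m s)).r),
      (∀ s a, 2 ^ s.1.1 ≤ μ s a ∧ μ s a < 2 ^ (s.1.1 + 1)) ∧
      (∀ s, Antitone (μ s)) ∧
      (∀ s, 0 < T s) ∧
      (∀ s, m s = ∑ a, μ s a) ∧
      (∀ s, T s ≤ 3 * 2 ^ s.1.1 + 3) ∧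
      (∑ s, m s = F.level i) ∧
      (∀ s, (m s).factorial * ∏ a : Fin (T s), (T s - 1 - a.val).factorial ≤
        (Fm (m s)).d (j s) * ∏ a : Fin (T s), (μ s a + (T s - 1 - a.val)).factorial) ∧
      F.d i * ((Fintype.card (B (d + 1)) - F.level i).factorial * ∏ s, (m s).factorial) ≤
        (Fintype.card (B (d + 1))).factorial * ∏ s, (Fm (m s)).d (j s) ∧
      ∀ (Ds : S₀ → ℕ), (∀ s, Ds s ≤ d + 1) → ∀ (δ δ' : S₀ → ℝ), (∀ s, 0 < δ s) → (∀ s, 0 < δ' s) →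
        ∀ (τ : S₀ → ℝ) (u : Fin (F.d i) → ℂ),
        nsq ((F.R i).lift (toC (passA d)) *ᵥ u) ≤
          Real.sqrt ((Real.exp (∑ s, (m s : ℝ) * τ s) *
              ∏ s, gConv (BMix (T s) (2 ^ Ds s) (δ s) (δ' s)) (Ds s) (τ s - JNum.tauD (Ds s)) ^
                2 ^ (d + 1 - Ds s)) *
            Real.sqrt (1 / ∏ s, ((Fm (m s)).d (j s) : ℝ))) * nsq u := by
  classical
  obtain ⟨S₀, T, μ, m, e, j, w₀, v₀, hv0, hAdm, hvac, he, hcard, hanti, hdy, hT, hm, hTle, hiso, hfrob,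
    hdim⟩ := exists_shape_data F i Fm
  refine ⟨S₀, T, μ, m, j, hdy, hanti, hT, hm, hTle, ?_, hfrob, hdim, ?_⟩
  · -- the level
    exact sum_m_eq_level F i e w₀ hvac he
  · intro Ds hDs δ δ' hδ hδ' τ u
    exact J_top_of_data F i Fm e j w₀ v₀ hv0 hAdm he hT hiso Ds hDs δ δ' hδ hδ' τ u

end Top

section Val

lemma sqrt_exp_eq (x : ℝ) : Real.sqrt (Real.exp x) = Real.exp (x / 2) := by
  have h : Real.exp x = Real.exp (x / 2) * Real.exp (x / 2) := by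
    rw [← Real.exp_add]
    congr 1
    ring
  rw [h, Real.sqrt_mul_self (Real.exp_pos _).le]

variable {S₀ : Type} [Fintype S₀]

/-- The bound in exponential form. -/
lemma sqrt_conv_eq {m : S₀ → ℕ} {ds : S₀ → ℕ} (hds : ∀ s, 0 < ds s) (τ : S₀ → ℝ) {g : S₀ → ℝ}
    (hg : ∀ s, 0 < g s) (e : S₀ → ℕ) :
    Real.sqrt ((Real.exp (∑ s, (m s : ℝ) * τ s) * ∏ s, g s ^ e s) *
        Real.sqrt (1 / ∏ s, (ds s : ℝ))) =
      Real.exp (-((1 / 2 * ∑ s, Real.log (ds s) - ∑ s, (m s : ℝ) * τ s -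
        ∑ s, (e s : ℝ) * Real.log (g s)) / 2)) := by
  have hP : 0 < ∏ s, (ds s : ℝ) := Finset.prod_pos fun s _ => by exact_mod_cast hds s
  have h1 : 1 / ∏ s, (ds s : ℝ) = Real.exp (-∑ s, Real.log (ds s)) := by
    rw [← Real.log_prod (fun s _ => by exact_mod_cast (hds s).ne'), Real.exp_neg, Real.exp_log hP,
      one_div]
  have h2 : ∏ s, g s ^ e s = Real.exp (∑ s, (e s : ℝ) * Real.log (g s)) := by
    rw [Real.exp_sum]
    refine Finset.prod_congr rfl fun s _ => ?_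
    rw [Real.exp_nat_mul, Real.exp_log (hg s)]
  rw [h1, h2, sqrt_exp_eq, ← Real.exp_add, ← Real.exp_add, sqrt_exp_eq]
  congr 1
  ring

end Val

section Top2

variable {d : ℕ} (F : Family (Equiv.Perm (B (d + 1)))) (i : Fin F.r)
  (Fm : ∀ m, Family (Equiv.Perm (Fin m)))

/-- The value of the bound: `Jval` for the constants `C s` of the conversion. -/
noncomputable def Jval {S₀ : Type} [Fintype S₀] (d : ℕ) (m ds : S₀ → ℕ) (Ds : S₀ → ℕ) (C : S₀ → ℝ) : ℝ :=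
  1 / 2 * ∑ s, Real.log (ds s) - ∑ s, (m s : ℝ) * (JNum.tauD (Ds s) + 3 / 1000) -
    ∑ s, ((2 ^ (d + 1 - Ds s) : ℕ) : ℝ) * Real.log (((2 ^ Ds s + 1 : ℕ) : ℝ) * C s)

lemma gConv_const {C : ℝ} (D : ℕ) :
    gConv (fun k => C * Real.exp ((k : ℝ) * (3 / 1000))) D (JNum.tauD D + 3 / 1000 - JNum.tauD D) =
      ((2 ^ D + 1 : ℕ) : ℝ) * C := by
  unfold gConv
  have h : ∀ k ∈ Finset.range (2 ^ D + 1), C * Real.exp ((k : ℝ) * (3 / 1000)) *
      Real.exp (-((k : ℝ) * (JNum.tauD D + 3 / 1000 - JNum.tauD D))) = C := by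
    intro k _
    rw [mul_assoc, ← Real.exp_add]
    have : (k : ℝ) * (3 / 1000) + -((k : ℝ) * (JNum.tauD D + 3 / 1000 - JNum.tauD D)) = 0 := by ring
    rw [this, Real.exp_zero, mul_one]
  rw [Finset.sum_congr rfl h, Finset.sum_const, Finset.card_range, nsmul_eq_mul]

/-- **Theorem J, final form**, for families on the colours with the bound `(H1)` with constants
`C s · e^{3k/1000}`: `‖A u‖² ≤ e^{-Jval/2} ‖u‖²`. -/
theorem J_top_val :
    ∃ (S₀ : Finset (ℕ × Bool)) (T : S₀ → ℕ) (μ : ∀ s, Fin (T s) → ℕ) (m : S₀ → ℕ)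
      (j : ∀ s, Fin (Fm (m s)).r),
      (∀ s a, 2 ^ s.1.1 ≤ μ s a ∧ μ s a < 2 ^ (s.1.1 + 1)) ∧
      (∀ s, Antitone (μ s)) ∧
      (∀ s, 0 < T s) ∧
      (∀ s, m s = ∑ a, μ s a) ∧
      (∀ s, T s ≤ 3 * 2 ^ s.1.1 + 3) ∧
      (∀ s, 256 ≤ 2 ^ s.1.1 → 5 * T s ^ 2 ≤ 8 * m s) ∧
      (∑ s, m s = F.level i) ∧
      (∀ s, (m s).factorial * ∏ a : Fin (T s), (T s - 1 - a.val).factorial ≤
        (Fm (m s)).d (j s) * ∏ a : Fin (T s), (μ s a + (T s - 1 - a.val)).factorial) ∧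
      F.d i * ((Fintype.card (B (d + 1)) - F.level i).factorial * ∏ s, (m s).factorial) ≤
        (Fintype.card (B (d + 1))).factorial * ∏ s, (Fm (m s)).d (j s) ∧
      F.d i * ((Fintype.card (B (d + 1)) - F.level i).factorial * ∏ s, ∏ a, (μ s a).factorial) ≤
        (Fintype.card (B (d + 1))).factorial ∧
      ∀ (Ds : S₀ → ℕ), (∀ s, Ds s ≤ d + 1) → ∀ (C : S₀ → ℝ), (∀ s, 0 < C s) →
        ∀ (G : ∀ s, CFam (Fin (T s))), (∀ s, ∑ j, (G s).w j = 1) →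
        (∀ s j, ∑ d', ∑ d, ‖(G s).E j d d'‖ ^ 2 ≤ 1) →
        (∀ s, ∀ k ≤ 2 ^ Ds s, ∀ φ : Equiv.Perm (Fin k) → ℂ,
          hs (mixY (Fin k) (G s).w (G s).E) (∑ π, φ π • rhoG (Fin (T s)) π) ≤
            ((k.factorial : ℝ) * (C s * Real.exp ((k : ℝ) * (3 / 1000)))) * ∑ π, ‖φ π‖ ^ 2) →
        ∀ u : Fin (F.d i) → ℂ,
        nsq ((F.R i).lift (toC (passA d)) *ᵥ u) ≤
          Real.exp (-(Jval d m (fun s => (Fm (m s)).d (j s)) Ds C / 2)) * nsq u := by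
  classical
  obtain ⟨S₀, T, μ, m, j, hdy, hanti, hT, hm, hTle, hT2, hlev, hfrob, hdim, hidx, hmain⟩ := J_top_gen F i Fm
  refine ⟨S₀, T, μ, m, j, hdy, hanti, hT, hm, hTle, hT2, hlev, hfrob, hdim, hidx, ?_⟩
  intro Ds hDs C hC G hGw hGt hH1 u
  have h := hmain Ds hDs (fun s k => C s * Real.exp ((k : ℝ) * (3 / 1000)))
    (fun s k => mul_nonneg (hC s).le (Real.exp_pos _).le) G hGw hGt hH1
    (fun s => JNum.tauD (Ds s) + 3 / 1000) u
  simp only [gConv_const] at h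
  rw [sqrt_conv_eq (m := m) (ds := fun s => (Fm (m s)).d (j s)) (fun s => (Fm (m s)).dpos _)
    (fun s => JNum.tauD (Ds s) + 3 / 1000)
    (g := fun s => ((2 ^ Ds s + 1 : ℕ) : ℝ) * C s) (fun s => mul_pos (by positivity) (hC s))
    (fun s => 2 ^ (d + 1 - Ds s))] at h
  exact h

/-- **Theorem J, final form**, for the universal mixtures of `JMix`. -/
theorem J_top_val_mix :
    ∃ (S₀ : Finset (ℕ × Bool)) (T : S₀ → ℕ) (μ : ∀ s, Fin (T s) → ℕ) (m : S₀ → ℕ)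
      (j : ∀ s, Fin (Fm (m s)).r),
      (∀ s a, 2 ^ s.1.1 ≤ μ s a ∧ μ s a < 2 ^ (s.1.1 + 1)) ∧
      (∀ s, Antitone (μ s)) ∧
      (∀ s, 0 < T s) ∧
      (∀ s, m s = ∑ a, μ s a) ∧
      (∀ s, T s ≤ 3 * 2 ^ s.1.1 + 3) ∧
      (∀ s, 256 ≤ 2 ^ s.1.1 → 5 * T s ^ 2 ≤ 8 * m s) ∧
      (∑ s, m s = F.level i) ∧
      (∀ s, (m s).factorial * ∏ a : Fin (T s), (T s - 1 - a.val).factorial ≤
        (Fm (m s)).d (j s) * ∏ a : Fin (T s), (μ s a + (T s - 1 - a.val)).factorial) ∧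
      F.d i * ((Fintype.card (B (d + 1)) - F.level i).factorial * ∏ s, (m s).factorial) ≤
        (Fintype.card (B (d + 1))).factorial * ∏ s, (Fm (m s)).d (j s) ∧
      F.d i * ((Fintype.card (B (d + 1)) - F.level i).factorial * ∏ s, ∏ a, (μ s a).factorial) ≤
        (Fintype.card (B (d + 1))).factorial ∧
      ∀ (Ds : S₀ → ℕ), (∀ s, Ds s ≤ d + 1) → ∀ u : Fin (F.d i) → ℂ,
        nsq ((F.R i).lift (toC (passA d)) *ᵥ u) ≤
          Real.exp (-(Jval d m (fun s => (Fm (m s)).d (j s)) Ds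
            (fun s => √2 * ((2 ^ Ds s : ℕ) : ℝ) * JBnum.Xi (T s) (1 / 1000) (1 / 1000)) / 2)) * nsq u := by
  classical
  obtain ⟨S₀, T, μ, m, j, hdy, hanti, hT, hm, hTle, hT2, hlev, hfrob, hdim, hidx, hmain⟩ := J_top_val F i Fm
  refine ⟨S₀, T, μ, m, j, hdy, hanti, hT, hm, hTle, hT2, hlev, hfrob, hdim, hidx, ?_⟩
  intro Ds hDs u
  have hN : ∀ s, 1 ≤ 2 ^ Ds s := fun s => Nat.one_le_two_pow
  have hδ : (0 : ℝ) < 1 / 1000 := by norm_num
  refine hmain Ds hDs (fun s => √2 * ((2 ^ Ds s : ℕ) : ℝ) * JBnum.Xi (T s) (1 / 1000) (1 / 1000)) ?_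
    (fun s => mixCF (hT s) (hN s)) (fun s => JMix.sum_wt (hT s) (hN s))
    (fun s κ => sum_norm_sqrt_le (hT s) κ) ?_ u
  · intro s
    have h1 := JBnum.one_le_Xi (T s) hδ hδ
    have h2 : (0 : ℝ) < ((2 ^ Ds s : ℕ) : ℝ) := by exact_mod_cast hN s
    positivity
  · intro s k hk φ
    have h := H1_mixCF (hT s) (hN s) hδ hδ hk φ
    refine h.trans (le_of_eq ?_)
    unfold BMix
    congr 2
    have : (k : ℝ) * (1 / 1000 + 2 * (1 / 1000)) = (k : ℝ) * (3 / 1000) := by ring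
    rw [this]
    ring

end Top2

end Crest.Agent.S0222Lib.SWord
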