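import Crest.Agent.S0222Lib.JFam
import Crest.Agent.S0222Lib.SEmbed

/-!
# S0222: Theorem J, the extraction at the top

* `cs_dual`: `|⟨a, b⟩|² ≤ ⟨a, Y⁻¹ a⟩ ⟨b, Y b⟩`;
* `qf_mulVec_le`: `⟨D ξ, Y⁻¹ D ξ⟩ ≤ ‖ξ‖² ‖Y^{-1/2} D‖²_HS`;
* `lam_sq_le`: an eigenvector `ξ` of `Z` in the token-free words of content `α`:
  `|λ|² ‖ξ‖² ≤ MM Y Z f ∅ α · ⟨ξ, Y ξ⟩`.
-/

set_option autoImplicit false
set_option linter.unusedSectionVars false
set_option linter.unusedSimpArgs false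

namespace Crest.Agent.S0222Lib.SWord

open Matrix
open scoped Kronecker ComplexOrder
open Crest.Agent.S0222Lib.Planch Crest.Agent.S0222Lib.WordRep Crest.Agent.S0222Lib.JCore

section CS

variable {E G : Type*} [Fintype E] [DecidableEq E] [Fintype G] [DecidableEq G]

/-- **Cauchy-Schwarz for a dual pair of forms.** -/
theorem cs_dual {Y : Matrix E E ℂ} (hY : Y.PosDef) (a b : E → ℂ) :
    ‖star a ⬝ᵥ b‖ ^ 2 ≤ qf Y a * (star b ⬝ᵥ (Y *ᵥ b)).re := by
  classical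
  have hYu : IsUnit Y.det := (Matrix.isUnit_iff_isUnit_det _).mp hY.isUnit
  set v : E → ℂ := Y⁻¹ *ᵥ a with hv
  have hYv : Y *ᵥ v = a := by
    rw [hv, Matrix.mulVec_mulVec, Matrix.mul_nonsing_inv _ hYu, Matrix.one_mulVec]
  set P : (E → ℂ) → (E → ℂ) → ℂ := fun x y => star x ⬝ᵥ (Y *ᵥ y) with hP
  have hadj : ∀ x y : E → ℂ, star x ⬝ᵥ (Y *ᵥ y) = star (Y *ᵥ x) ⬝ᵥ y :=
    fun x y => by rw [dotProduct_mulVec, star_mulVec, hY.isHermitian.eq]
  have hsym : ∀ x y, P y x = star (P x y) := by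
    intro x y
    simp only [hP]
    rw [Matrix.star_dotProduct, ← hadj x y]
  have hpos : ∀ x, 0 ≤ P x x := fun x => hY.posSemidef.dotProduct_mulVec_nonneg x
  set A : ℝ := (P v v).re with hA
  set B : ℝ := (P b b).re with hB
  have hPA : P v v = (A : ℂ) := by
    have := Complex.le_def.mp (hpos v)
    apply Complex.ext
    · rfl
    · simpa using this.2.symm
  have hPB : P b b = (B : ℂ) := by
    have := Complex.le_def.mp (hpos b)
    apply Complex.ext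
    · rfl
    · simpa using this.2.symm
  have hB0 : 0 ≤ B := (Complex.le_def.mp (hpos b)).1
  have hA0 : 0 ≤ A := (Complex.le_def.mp (hpos v)).1
  have hq : qf Y a = A := by
    unfold qf
    rw [← hv]
    have : star a ⬝ᵥ v = P v v := by
      simp only [hP]
      rw [hadj v v, hYv]
    rw [this, hPA]
    simp
  have hab : star a ⬝ᵥ b = P v b := by
    simp only [hP]
    rw [hadj v b, hYv]
  rw [hq, hab]
  change ‖P v b‖ ^ 2 ≤ A * B
  by_cases hb : b = 0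
  · subst hb
    have : P v 0 = 0 := by simp [hP]
    rw [this]
    have h2 : (P 0 0).re = 0 := by simp [hP]
    have : B = 0 := h2
    rw [this]
    simp
  have hBpos : 0 < B := by
    have h1 := hY.dotProduct_mulVec_pos hb
    exact (Complex.lt_def.mp h1).1
  set μ : ℂ := P b v with hμ
  have hμ2 : P v b = star μ := by
    rw [hμ, hsym v b, star_star]
  set x : E → ℂ := (B : ℂ) • v - μ • b with hx
  have hexp : P x x = (B : ℂ) * (B : ℂ) * P v v - (B : ℂ) * μ * P v b - star μ * (B : ℂ) * P b v +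
      star μ * μ * P b b := by
    simp only [hP, hx]
    rw [star_sub, star_smul, star_smul, Matrix.mulVec_sub, Matrix.mulVec_smul, Matrix.mulVec_smul,
      sub_dotProduct, dotProduct_sub, dotProduct_sub, smul_dotProduct, smul_dotProduct,
      dotProduct_smul, dotProduct_smul, dotProduct_smul, dotProduct_smul]
    simp only [smul_eq_mul, Complex.star_def, Complex.conj_ofReal, smul_dotProduct, dotProduct_smul]
    ring
  have hn : star μ * μ = ((‖μ‖ ^ 2 : ℝ) : ℂ) := by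
    rw [Complex.star_def, mul_comm, Complex.mul_conj, Complex.normSq_eq_norm_sq]
  have hval : P x x = (((B * (B * A - ‖μ‖ ^ 2)) : ℝ) : ℂ) := by
    rw [hexp, hPA, hPB, hμ2, ← hμ]
    have e : (B : ℂ) * (B : ℂ) * (A : ℂ) - (B : ℂ) * μ * star μ - star μ * (B : ℂ) * μ +
        star μ * μ * (B : ℂ) = (B : ℂ) * ((B : ℂ) * (A : ℂ) - star μ * μ) := by ring
    rw [e, hn]
    push_cast
    ring
  have h0 := hpos x
  rw [hval] at h0
  have h1 : 0 ≤ B * (B * A - ‖μ‖ ^ 2) := by exact_mod_cast h0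
  have h2 : 0 ≤ B * A - ‖μ‖ ^ 2 := nonneg_of_mul_nonneg_right h1 hBpos
  have h3 : ‖star μ‖ = ‖μ‖ := norm_star _
  rw [hμ2, h3]
  linarith

/-- The dressed form of an image is bounded by the dressed Hilbert-Schmidt norm. -/
theorem qf_mulVec_le {Y : Matrix E E ℂ} (hY : Y.PosDef) (X : Matrix E G ℂ) (ξ : G → ℂ) :
    qf Y (X *ᵥ ξ) ≤ nsq ξ * hs Y X := by
  classical
  by_cases hξ : nsq ξ = 0
  · have h0 : ξ = 0 := by
      funext g
      have h1 : ∀ g ∈ Finset.univ, ‖ξ g‖ ^ 2 = 0 :=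
        (Finset.sum_eq_zero_iff_of_nonneg (fun _ _ => by positivity)).1 hξ
      have := h1 g (Finset.mem_univ g)
      simpa using this
    subst h0
    simp [qf, nsq]
  have hk : 0 < nsq ξ := lt_of_le_of_ne (nsq_nonneg _) (Ne.symm hξ)
  have hd : X *ᵥ ξ = ∑ g, ((star (ξ g) • (1 : Matrix E E ℂ))ᴴ) *ᵥ (fun e => X e g) := by
    funext e
    simp only [Matrix.mulVec, dotProduct, Finset.sum_apply, Matrix.conjTranspose_smul,
      Matrix.conjTranspose_one, star_star, Matrix.smul_apply, smul_eq_mul, Matrix.one_apply,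
      ite_mul, one_mul, zero_mul, Finset.sum_ite_eq, Finset.mem_univ, if_true, mul_ite, mul_zero]
    refine Finset.sum_congr rfl (fun g _ => ?_)
    ring
  rw [hd, hs_eq_sum_qf]
  refine qf_col_cs hY hY (fun g => star (ξ g) • (1 : Matrix E E ℂ)) (fun g e => X e g) hk ?_
  have e2 : ((nsq ξ : ℝ) : ℂ) • Y -
      ∑ g, (star (ξ g) • (1 : Matrix E E ℂ))ᴴ * Y * (star (ξ g) • (1 : Matrix E E ℂ)) = 0 := by
    have e3 : ∀ g, (star (ξ g) • (1 : Matrix E E ℂ))ᴴ * Y * (star (ξ g) • (1 : Matrix E E ℂ)) =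
        ((‖ξ g‖ ^ 2 : ℝ) : ℂ) • Y := by
      intro g
      simp only [Matrix.conjTranspose_smul, Matrix.conjTranspose_one, star_star, Matrix.smul_mul,
        Matrix.one_mul, Matrix.mul_smul, Matrix.mul_one, smul_smul]
      congr 1
      rw [Complex.star_def, mul_comm, Complex.mul_conj, Complex.normSq_eq_norm_sq]
    simp only [e3]
    rw [← Finset.sum_smul, sub_eq_zero]
    congr 1
    unfold nsq
    push_cast
    rfl
  rw [e2]
  exact Matrix.PosSemidef.zero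

end CS

section Top

variable {D : ℕ} {Tok Col A : Type*} [Fintype Tok] [DecidableEq Tok] [Fintype Col] [DecidableEq Col]
  [AddCommMonoid A]

lemma Dom_empty : Dom (B D) (∅ : Finset Tok) = {fun _ => none} := by
  ext u
  rw [mem_Dom, Finset.mem_singleton]
  constructor
  · intro h
    funext a
    have := (h a)
    simpa using this
  · rintro rfl a
    simp

lemma MM_empty (Y Z : Matrix (B D → (Tok ⊕ Col)) (B D → (Tok ⊕ Col)) ℂ) (f : Tok ⊕ Col → A) (α : A) :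
    MM Y Z f (∅ : Finset Tok) α = zq Y Z f (fun _ => none) (fun _ => none) α := by
  unfold MM MMz
  rw [Dom_empty]
  simp

/-- **The extraction at the top.** -/
theorem lam_sq_le {Y : Matrix (B D → (Tok ⊕ Col)) (B D → (Tok ⊕ Col)) ℂ} (hY : Y.PosDef)
    (Z : Matrix (B D → (Tok ⊕ Col)) (B D → (Tok ⊕ Col)) ℂ) (f : Tok ⊕ Col → A) (α : A)
    (ξ : (B D → (Tok ⊕ Col)) → ℂ) (hξ0 : ξ ≠ 0)
    (hξt : ∀ w, ξ w ≠ 0 → inB (fun _ : Tok => (none : Option (B D))) w)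
    (hξc : ∀ w, ξ w ≠ 0 → cont f w = α)
    (l : ℂ) (hl : Z *ᵥ ξ = l • ξ) :
    ‖l‖ ^ 2 * nsq ξ ≤ MM Y Z f (∅ : Finset Tok) α * (star ξ ⬝ᵥ (Y *ᵥ ξ)).re := by
  classical
  set X := PiB (fun _ : Tok => (none : Option (B D))) * Z *
    PiB (fun _ : Tok => (none : Option (B D))) *
      dp (fun w : B D → (Tok ⊕ Col) => cont f w = α) with hX
  have hdp : ∀ Q : (B D → (Tok ⊕ Col)) → Prop, (∀ w, ξ w ≠ 0 → Q w) → dp Q *ᵥ ξ = ξ := by
    intro Q hQ
    funext w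
    simp only [dp, Matrix.mulVec_diagonal]
    by_cases h : ξ w = 0
    · simp [h]
    · rw [if_pos (hQ w h), one_mul]
  have hXξ : X *ᵥ ξ = l • ξ := by
    rw [hX, ← Matrix.mulVec_mulVec, ← Matrix.mulVec_mulVec, ← Matrix.mulVec_mulVec, hdp _ hξc,
      hdp _ hξt, hl, Matrix.mulVec_smul, hdp _ hξt]
  have h1 := cs_dual hY (X *ᵥ ξ) ξ
  have h2 := qf_mulVec_le hY X ξ
  have h3 : hs Y X = MM Y Z f (∅ : Finset Tok) α := by
    rw [MM_empty, ← hs_eq_zq]
  rw [h3] at h2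
  have hk : 0 < nsq ξ := by
    have h4 : star ξ ⬝ᵥ ξ ≠ 0 := fun h => hξ0 (dotProduct_star_self_eq_zero.1 h)
    rw [dot_star_self] at h4
    have h5 : nsq ξ ≠ 0 := fun h => h4 (by rw [h]; simp)
    exact lt_of_le_of_ne (nsq_nonneg _) h5.symm
  have hL : ‖star (X *ᵥ ξ) ⬝ᵥ ξ‖ ^ 2 = ‖l‖ ^ 2 * nsq ξ * nsq ξ := by
    rw [hXξ, star_smul, smul_dotProduct, smul_eq_mul, dot_star_self, norm_mul, norm_star, mul_pow,
      Complex.norm_real, Real.norm_eq_abs, sq_abs]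
    ring
  have hYb : 0 ≤ (star ξ ⬝ᵥ (Y *ᵥ ξ)).re :=
    (Complex.le_def.mp (hY.posSemidef.dotProduct_mulVec_nonneg ξ)).1
  have h6 : ‖l‖ ^ 2 * nsq ξ * nsq ξ ≤
      (nsq ξ * MM Y Z f (∅ : Finset Tok) α) * (star ξ ⬝ᵥ (Y *ᵥ ξ)).re := by
    rw [← hL]
    exact h1.trans (mul_le_mul_of_nonneg_right h2 hYb)
  have h7 : nsq ξ * (‖l‖ ^ 2 * nsq ξ) ≤
      nsq ξ * (MM Y Z f (∅ : Finset Tok) α * (star ξ ⬝ᵥ (Y *ᵥ ξ)).re) := by
    calc _ = ‖l‖ ^ 2 * nsq ξ * nsq ξ := by ring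
      _ ≤ _ := h6
      _ = _ := by ring
  exact le_of_mul_le_mul_left h7 hk

end Top

end Crest.Agent.S0222Lib.SWord
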