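import Crest.Agent.S0222Lib.JTopAll
import Crest.Agent.S0222Lib.JBnum3

/-!
# S0222: Theorem J, the final form for the fine mixtures of `JMix3`

* `mixCF3`, `H1_mixCF3`;
* `J_top_val_mix3`: `‖A u‖² ≤ e^{-Jval/2} ‖u‖²` with `C s = (4/3) √2 2^(Ds s) Xi3 (T s) (1/1000) (1/1000)`.
-/

set_option autoImplicit false
set_option linter.unusedSectionVars false
set_option linter.unusedSimpArgs false

namespace Crest.Agent.S0222Lib.SWord

open Matrix MonoidAlgebra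
open scoped ComplexOrder MatrixOrder
open Crest.Agent.S0222Lib.Planch Crest.Agent.S0222Lib.WordRep Crest.Agent.S0222Lib.JCore
open Crest.Agent.S0222Lib.Site Crest.Agent.S0222Lib.JFin Crest.Agent.S0222Lib.Gain
open Crest.Agent.S0222Lib.Shape

section Mix

variable {T N : ℕ}

lemma idx3_nonempty (hT : 1 ≤ T) (hN : 1 ≤ N) : Nonempty (JMix3.Idx3 T N) := by
  by_contra h
  rw [not_nonempty_iff] at h
  have h2 := JMix3.sum_wt3 (T := T) (N := N) hT hN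
  simp at h2

/-- The fine mixture as a family of operators on the colours. -/
noncomputable def mixCF3 (hT : 1 ≤ T) (hN : 1 ≤ N) : CFam (Fin T) :=
  { J := JMix3.Idx3 T N
    fJ := inferInstance
    nJ := idx3_nonempty hT hN
    w := JMix3.wt3
    w_pos := fun κ => JMix3.wt3_pos κ
    E := fun κ => CFC.sqrt (JMix3.xx3 κ)
    E_pd := fun κ => sqrt_posDef (JMix3.xx3_posDef hT κ) }

lemma sum_norm_sqrt_le3 (hT : 1 ≤ T) (κ : JMix3.Idx3 T N) :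
    ∑ d', ∑ d, ‖(CFC.sqrt (JMix3.xx3 κ)) d d'‖ ^ 2 ≤ 1 := by
  have hpd := JMix3.xx3_posDef hT κ
  set A := CFC.sqrt (JMix3.xx3 κ) with hA
  have hAh : Aᴴ = A := (sqrt_posDef hpd).isHermitian.eq
  have hAA : A * A = JMix3.xx3 κ := sqrt_mul_self' hpd
  have htr : ((∑ d', ∑ d, ‖A d d'‖ ^ 2 : ℝ) : ℂ) = (JMix3.xx3 κ).trace := by
    rw [← hAA, Matrix.trace]
    push_cast
    refine Finset.sum_congr rfl fun d' _ => ?_
    rw [Matrix.diag_apply, Matrix.mul_apply]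
    refine Finset.sum_congr rfl fun d _ => ?_
    have h1 : A d' d = star (A d d') := by
      conv_lhs => rw [← hAh]
      rfl
    rw [h1, mul_comm]
    rw [← Complex.mul_conj' (A d d')]
    rfl
  rw [JMix3.trace_xx3 hT κ] at htr
  have : (∑ d', ∑ d, ‖A d d'‖ ^ 2 : ℝ) = 1 := by exact_mod_cast htr
  exact this.le

/-- **`(H1)` for the fine mixture.** -/
theorem H1_mixCF3 (hT : 1 ≤ T) (hN : 1 ≤ N) {δ δ' : ℝ} (hδ : 0 < δ) (hδ' : 0 < δ') {i : ℕ} (hi : i ≤ N)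
    (φ : Equiv.Perm (Fin i) → ℂ) :
    hs (mixY (Fin i) (mixCF3 hT hN).w (mixCF3 hT hN).E) (∑ π, φ π • rhoG (Fin T) π) ≤
      ((i.factorial : ℝ) * JBnum3.BMix3 T N δ δ' i) * ∑ π, ‖φ π‖ ^ 2 := by
  rcases Nat.eq_zero_or_pos i with rfl | hi1
  · exact H1_zero _ (JMix3.sum_wt3 hT hN) _ (JBnum3.one_le_BMix3 hN hδ hδ') φ
  · exact JBnum3.H1_mix3 hT hi1 hi hδ hδ' φ

end Mix

section Top

variable {d : ℕ} (F : Family (Equiv.Perm (B (d + 1)))) (i : Fin F.r)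
  (Fm : ∀ m, Family (Equiv.Perm (Fin m)))

/-- **Theorem J, final form**, for the fine mixtures of `JMix3`. -/
theorem J_top_val_mix3 :
    ∃ (S₀ : Finset (ℕ × Bool)) (T : S₀ → ℕ) (μ : ∀ s, Fin (T s) → ℕ) (m : S₀ → ℕ)
      (j : ∀ s, Fin (Fm (m s)).r),
      (∀ s a, 2 ^ s.1.1 ≤ μ s a ∧ μ s a < 2 ^ (s.1.1 + 1)) ∧
      (∀ s, Antitone (μ s)) ∧
      (∀ s, 0 < T s) ∧
      (∀ s, m s = ∑ a, μ s a) ∧
      (∀ s, T s ≤ 3 * 2 ^ s.1.1 + 3) ∧
      (∀ s, 256 ≤ 2 ^ s.1.1 → 5 * T s ^ 2 ≤ 8 * m s) ∧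
      (∑ s, m s = F.level i) ∧
      (∀ s, (m s).factorial * ∏ a : Fin (T s), (T s - 1 - a.val).factorial ≤
        (Fm (m s)).d (j s) * ∏ a : Fin (T s), (μ s a + (T s - 1 - a.val)).factorial) ∧
      F.d i * ((Fintype.card (B (d + 1)) - F.level i).factorial * ∏ s, (m s).factorial) ≤
        (Fintype.card (B (d + 1))).factorial * ∏ s, (Fm (m s)).d (j s) ∧
      F.d i * ((Fintype.card (B (d + 1)) - F.level i).factorial * ∏ s, ∏ a, (μ s a).factorial) ≤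
        (Fintype.card (B (d + 1))).factorial ∧
      ∀ (Ds : S₀ → ℕ), (∀ s, Ds s ≤ d + 1) → ∀ u : Fin (F.d i) → ℂ,
        nsq ((F.R i).lift (toC (passA d)) *ᵥ u) ≤
          Real.exp (-(Jval d m (fun s => (Fm (m s)).d (j s)) Ds
            (fun s => (4 / 3) * √2 * ((2 ^ Ds s : ℕ) : ℝ) *
              JBnum3.Xi3 (T s) (1 / 1000) (1 / 1000)) / 2)) * nsq u := by
  classical
  obtain ⟨S₀, T, μ, m, j, hdy, hanti, hT, hm, hTle, hT2, hlev, hfrob, hdim, hidx, hmain⟩ := J_top_val F i Fm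
  refine ⟨S₀, T, μ, m, j, hdy, hanti, hT, hm, hTle, hT2, hlev, hfrob, hdim, hidx, ?_⟩
  intro Ds hDs u
  have hN : ∀ s, 1 ≤ 2 ^ Ds s := fun s => Nat.one_le_two_pow
  have hδ : (0 : ℝ) < 1 / 1000 := by norm_num
  refine hmain Ds hDs (fun s => (4 / 3) * √2 * ((2 ^ Ds s : ℕ) : ℝ) *
    JBnum3.Xi3 (T s) (1 / 1000) (1 / 1000)) ?_
    (fun s => mixCF3 (hT s) (hN s)) (fun s => JMix3.sum_wt3 (hT s) (hN s))
    (fun s κ => sum_norm_sqrt_le3 (hT s) κ) ?_ u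
  · intro s
    have h1 := JBnum3.one_le_Xi3 (T s) hδ hδ
    have h2 : (0 : ℝ) < ((2 ^ Ds s : ℕ) : ℝ) := by exact_mod_cast hN s
    positivity
  · intro s k hk φ
    have h := H1_mixCF3 (hT s) (hN s) hδ hδ hk φ
    refine h.trans (le_of_eq ?_)
    unfold JBnum3.BMix3
    congr 2
    have : (k : ℝ) * (1 / 1000 + 2 * (1 / 1000)) = (k : ℝ) * (3 / 1000) := by ring
    rw [this]
    ring

end Top

end Crest.Agent.S0222Lib.SWord
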