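import Crest.Agent.S0222Lib.JSplit
import Crest.Agent.S0222Lib.JSum

/-!
# S0222: Theorem J, words of the double length as pair words

Along `pairE : (B (D+1) → L) ≃ (B D → L × L)`:
* `hs_reindex`: the dressed norm is invariant;
* `reindex_PiB`: the block of `U : Tok → Option (B (D+1))` is the pair block of `(low U, top U)`;
* `reindex_dp_cont`: the content projection is `dp (R2 f α)`;
* `reindex_mixY`: the mixture of the `c_ij` is `mixY2`;
* `sum_Dom_succ`: sums over partial placements at level `D+1` split as sums over `(ℓ, s)`.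
-/

set_option autoImplicit false
set_option linter.unusedSectionVars false
set_option linter.unusedSimpArgs false

namespace Crest.Agent.S0222Lib.JCore

open Matrix
open scoped Kronecker ComplexOrder
open Crest.Agent.S0222Lib.Site Crest.Agent.S0222Lib.WordRep

section Reindex

variable {n m : Type*} [Fintype n] [DecidableEq n] [Fintype m] [DecidableEq m] (e : n ≃ m)

lemma rei_mul (A C : Matrix n n ℂ) :
    Matrix.reindex e e (A * C) = Matrix.reindex e e A * Matrix.reindex e e C := by
  simp only [Matrix.reindex_apply]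
  rw [Matrix.submatrix_mul_equiv]

lemma rei_trace (A : Matrix n n ℂ) : (Matrix.reindex e e A).trace = A.trace := by
  simp only [Matrix.trace, Matrix.reindex_apply, Matrix.diag_apply, Matrix.submatrix_apply]
  exact Equiv.sum_comp e.symm (fun x => A x x)

lemma hs_reindex (Y X : Matrix n n ℂ) :
    hs (Matrix.reindex e e Y) (Matrix.reindex e e X) = hs Y X := by
  unfold hs
  rw [Matrix.conjTranspose_reindex, Matrix.inv_reindex, ← rei_mul, ← rei_mul, rei_trace]

lemma rei_dp (Q : n → Prop) :
    Matrix.reindex e e (dp Q) = dp (fun y => Q (e.symm y)) := by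
  classical
  ext x y
  simp only [Matrix.reindex_apply, Matrix.submatrix_apply, dp, Matrix.diagonal_apply]
  by_cases h : x = y
  · subst h; simp
  · have : e.symm x ≠ e.symm y := fun h' => h (e.symm.injective h')
    simp [h, this]

end Reindex

section Bsucc

variable {D : ℕ}

/-- Positions at level `D + 1` are a low position and a top bit. -/
def bSuccE (D : ℕ) : B (D + 1) ≃ B D × Bool where
  toFun x := (ini x, topB x)
  invFun p := snocB p.1 p.2
  left_inv x := snocB_ini_topB x
  right_inv p := by simp

lemma sum_B_succ {M : Type*} [AddCommMonoid M] (g : B (D + 1) → M) :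
    ∑ x, g x = ∑ u, (g (snocB u false) + g (snocB u true)) := by
  rw [← Equiv.sum_comp (bSuccE D).symm, Fintype.sum_prod_type]
  refine Finset.sum_congr rfl (fun u _ => ?_)
  rw [Fintype.sum_bool, add_comm]
  rfl

lemma prod_B_succ {M : Type*} [CommMonoid M] (g : B (D + 1) → M) :
    ∏ x, g x = ∏ u, (g (snocB u false) * g (snocB u true)) := by
  rw [← Equiv.prod_comp (bSuccE D).symm, Fintype.prod_prod_type]
  refine Finset.prod_congr rfl (fun u _ => ?_)
  rw [Fintype.prod_bool, mul_comm]
  rfl

variable {Tok Col A : Type*} [Fintype Tok] [DecidableEq Tok] [Fintype Col] [DecidableEq Col]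
  [AddCommMonoid A]

/-- The low part of a partial position. -/
def lowP (U : Tok → Option (B (D + 1))) : Tok → Option (B D) := fun a => (U a).map ini

/-- The top bit of a partial position. -/
def topP (U : Tok → Option (B (D + 1))) : Tok → Bool := fun a => (U a).elim false topB

/-- A partial position from its low part and a top bit. -/
def mkP (ℓ : Tok → Option (B D)) (s : Tok → Bool) : Tok → Option (B (D + 1)) :=
  fun a => (ℓ a).map (fun p => snocB p (s a))

lemma lowP_mkP (ℓ : Tok → Option (B D)) (s : Tok → Bool) : lowP (mkP ℓ s) = ℓ := by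
  funext a
  unfold lowP mkP
  cases ℓ a <;> simp

lemma topP_mkP {ℓ : Tok → Option (B D)} {s : Tok → Bool} (hs : OffDom ℓ s) : topP (mkP ℓ s) = s := by
  funext a
  unfold topP mkP
  cases h : ℓ a with
  | none => simp [hs a h]
  | some p => simp

lemma mkP_low_top (U : Tok → Option (B (D + 1))) : mkP (lowP U) (topP U) = U := by
  funext a
  unfold mkP lowP topP
  cases U a <;> simp

lemma offDom_topP (U : Tok → Option (B (D + 1))) : OffDom (lowP U) (topP U) := by
  intro a h
  unfold lowP at h
  unfold topP
  cases hU : U a with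
  | none => simp
  | some x => simp [hU] at h

lemma low_top_iff (U : Tok → Option (B (D + 1))) (a : Tok) (p : B D) (b : Bool) :
    (lowP U a = some p ∧ topP U a = b) ↔ U a = some (snocB p b) := by
  unfold lowP topP
  cases hU : U a with
  | none => simp
  | some x =>
    simp only [Option.map_some, Option.some.injEq, Option.elim_some]
    constructor
    · rintro ⟨rfl, rfl⟩
      simp
    · rintro rfl
      simp

/-- A word is in the block `U` iff its pair word is in the pair block of `(low U, top U)`. -/
lemma inB_iff_inB2 (U : Tok → Option (B (D + 1))) (w : B (D + 1) → (Tok ⊕ Col)) :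
    inB U w ↔ inB2 (lowP U) (topP U) (pairE (Tok ⊕ Col) D w) := by
  constructor
  · intro h p a
    rw [pairE_apply]
    exact ⟨(h a _).trans (low_top_iff U a p false).symm, (h a _).trans (low_top_iff U a p true).symm⟩
  · intro h a x
    have hx := h (ini x) a
    rw [pairE_apply] at hx
    have e := snocB_ini_topB x
    cases ht : topB x
    · rw [ht] at e
      have h1 := hx.1.trans (low_top_iff U a (ini x) false)
      rwa [e] at h1
    · rw [ht] at e
      have h1 := hx.2.trans (low_top_iff U a (ini x) true)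
      rwa [e] at h1

lemma reindex_PiB (U : Tok → Option (B (D + 1))) :
    Matrix.reindex (pairE (Tok ⊕ Col) D) (pairE (Tok ⊕ Col) D) (PiB U) =
      PiB2 (lowP U) (topP U) := by
  unfold PiB
  rw [rei_dp]
  refine dp_congr (fun v => ?_)
  rw [inB_iff_inB2]
  simp

lemma cont_eq_R2 (f : Tok ⊕ Col → A) (α : A) (w : B (D + 1) → (Tok ⊕ Col)) :
    cont f w = α ↔ R2 f α (pairE (Tok ⊕ Col) D w) := by
  unfold R2
  rw [R2_eq_sum]
  unfold cont
  rw [sum_B_succ]
  rfl

lemma reindex_dp_cont (f : Tok ⊕ Col → A) (α : A) :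
    Matrix.reindex (pairE (Tok ⊕ Col) D) (pairE (Tok ⊕ Col) D)
      (dp (fun w : B (D + 1) → (Tok ⊕ Col) => cont f w = α)) = dp (R2 f α) := by
  rw [rei_dp]
  refine dp_congr (fun v => ?_)
  rw [cont_eq_R2]
  simp

lemma reindex_tp_const {ι : Type*} [Fintype ι] [DecidableEq ι] (c : Matrix ι ι ℂ) :
    Matrix.reindex (pairE ι D) (pairE ι D) (tp (fun _ : B (D + 1) => c)) =
      tp (fun _ : B D => c ⊗ₖ c) := by
  ext p q
  simp only [Matrix.reindex_apply, Matrix.submatrix_apply, tp_apply]
  rw [prod_B_succ]
  refine Finset.prod_congr rfl (fun u _ => ?_)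
  simp only [pairE_symm_snoc, Matrix.kroneckerMap_apply]
  rfl

lemma reindex_mixY {I ι : Type*} [Fintype I] [Fintype ι] [DecidableEq ι]
    (w : I → ℝ) (c : I → I → Matrix ι ι ℂ) :
    Matrix.reindex (pairE ι D) (pairE ι D)
      (mixY (B (D + 1)) (fun i : I × I => w i.1 * w i.2) (fun i => c i.1 i.2)) =
      mixY2 (B D) w c := by
  unfold mixY mixY2
  rw [Fintype.sum_prod_type]
  ext p q
  simp only [Matrix.reindex_apply, Matrix.submatrix_apply, Matrix.sum_apply, Matrix.smul_apply]
  refine Finset.sum_congr rfl (fun i _ => Finset.sum_congr rfl (fun j _ => ?_))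
  have := congrFun (congrFun (reindex_tp_const (D := D) (c i j)) p) q
  simp only [Matrix.reindex_apply, Matrix.submatrix_apply] at this
  rw [this]

open Classical in
/-- The top bits compatible with the domain. -/
noncomputable def Off (ℓ : Tok → Option (B D)) : Finset (Tok → Bool) :=
  Finset.univ.filter (fun s => OffDom ℓ s)

lemma mem_Dom_low {T : Finset Tok} {U : Tok → Option (B (D + 1))} :
    lowP U ∈ Dom (B D) T ↔ U ∈ Dom (B (D + 1)) T := by
  simp only [mem_Dom, lowP, Option.isSome_map]

lemma sum_Dom_succ (T : Finset Tok) (F : (Tok → Option (B (D + 1))) → ℝ) :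
    ∑ U ∈ Dom (B (D + 1)) T, F U =
      ∑ ℓ ∈ Dom (B D) T, ∑ s ∈ Off ℓ, F (mkP ℓ s) := by
  classical
  rw [Finset.sum_sigma']
  refine Finset.sum_bij' (fun U _ => ⟨lowP U, topP U⟩) (fun x _ => mkP x.1 x.2) ?_ ?_ ?_ ?_ ?_
  · intro U hU
    rw [Finset.mem_sigma]
    exact ⟨mem_Dom_low.2 hU, by simp [Off, offDom_topP]⟩
  · rintro ⟨ℓ, s⟩ hx
    rw [Finset.mem_sigma] at hx
    rw [← mem_Dom_low, lowP_mkP]
    exact hx.1
  · intro U _
    exact mkP_low_top U
  · rintro ⟨ℓ, s⟩ hx
    rw [Finset.mem_sigma] at hx
    have hs : OffDom ℓ s := by simpa [Off] using hx.2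
    simp only [lowP_mkP, topP_mkP hs]
  · intro U _
    simp only [mkP_low_top]

end Bsucc

end Crest.Agent.S0222Lib.JCore
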