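import Crest.Prelude.Def_Shuffle

/-!
# S0222 / S0223: the Thorp-shuffle model

Basic facts on the shuffle of `Crest.ProbabilityR.Shuffle`:

* `stepPerm`: one shuffle as a permutation; `iterPerm`: a run of shuffles as a permutation;
* `lawP m t g`: the law of the run on `Equiv.Perm (Fin (2 * m))`, a probability vector;
* `tv_ge_of_support`: the support lower bound (this gives S0223);
* `tv_sq_le`: `tv ^ 2 ≤ (N! * ∑ P(g)^2 - 1) / 4` (chi-square bound).

Everything here is elementary and holds for any `m > 0`.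
-/

set_option autoImplicit false

namespace Crest.Agent.S0222Lib

open Crest.ProbabilityR.Shuffle

variable {m : ℕ}

/-- `stepPos` is injective. -/
theorem stepPos_injective (c : Fin m → Bool) : Function.Injective (stepPos m c) := by
  intro x y hxy
  have hx := x.isLt
  have hy := y.isLt
  have hmpos : 0 < m := by omega
  have hv : (stepPos m c x).val = (stepPos m c y).val := congrArg Fin.val hxy
  simp only [stepPos] at hv
  have hxm : x.val % m < m := Nat.mod_lt _ hmpos
  have hym : y.val % m < m := Nat.mod_lt _ hmpos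
  have hu : x.val % m = y.val % m := by
    split_ifs at hv <;> omega
  have hcc : (⟨x.val % m, hxm⟩ : Fin m) = ⟨y.val % m, hym⟩ := Fin.ext hu
  rw [hcc] at hv
  have hb : decide (m ≤ x.val) = decide (m ≤ y.val) := by
    by_contra hne
    have h1 : (xor (decide (m ≤ x.val)) (c ⟨y.val % m, hym⟩)) ≠
        (xor (decide (m ≤ y.val)) (c ⟨y.val % m, hym⟩)) := by
      intro h
      apply hne
      cases h1' : decide (m ≤ x.val) <;> cases h2' : decide (m ≤ y.val) <;>
        cases h3' : c ⟨y.val % m, hym⟩ <;> simp_all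
    split_ifs at hv <;> simp_all
  apply Fin.ext
  have hbb : m ≤ x.val ↔ m ≤ y.val := by simpa using hb
  rcases Nat.lt_or_ge x.val m with h | h
  · have hy' : y.val < m := by
      by_contra h'
      exact absurd (hbb.mpr (by omega)) (by omega)
    rwa [Nat.mod_eq_of_lt h, Nat.mod_eq_of_lt hy'] at hu
  · have hy' : m ≤ y.val := hbb.mp h
    have h1 : x.val % m = x.val - m := by
      rw [Nat.mod_eq_sub_mod h, Nat.mod_eq_of_lt (by omega)]
    have h2 : y.val % m = y.val - m := by
      rw [Nat.mod_eq_sub_mod hy', Nat.mod_eq_of_lt (by omega)]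
    omega

/-- One shuffle as a permutation. -/
noncomputable def stepPerm (c : Fin m → Bool) : Equiv.Perm (Fin (2 * m)) :=
  Equiv.ofBijective (stepPos m c) (Finite.injective_iff_bijective.mp (stepPos_injective c))

@[simp] theorem stepPerm_apply (c : Fin m → Bool) (x : Fin (2 * m)) :
    stepPerm c x = stepPos m c x := rfl

/-- A run of shuffles as a permutation. -/
noncomputable def iterPerm : (t : ℕ) → (Fin t → Fin m → Bool) → Equiv.Perm (Fin (2 * m))
  | 0, _ => 1
  | t + 1, cs => stepPerm (cs (Fin.last t)) * iterPerm t (fun i => cs i.castSucc)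

theorem iterPerm_coe (t : ℕ) (cs : Fin t → Fin m → Bool) : ⇑(iterPerm t cs) = iterPos m t cs := by
  induction t with
  | zero => funext x; rfl
  | succ t ih =>
    funext x
    simp only [iterPerm, iterPos, Equiv.Perm.mul_apply, stepPerm_apply]
    rw [ih]

/-- The law of a run of `t` shuffles. -/
noncomputable def lawP (m t : ℕ) (g : Equiv.Perm (Fin (2 * m))) : ℝ :=
  Crest.FinProb.uniformProb {cs : Fin t → Fin m → Bool | iterPos m t cs = ⇑g}

theorem lawP_eq (t : ℕ) (g : Equiv.Perm (Fin (2 * m))) [DecidableEq (Equiv.Perm (Fin (2 * m)))] :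
    lawP m t g =
      ((Finset.univ.filter (fun cs : Fin t → Fin m → Bool => iterPerm t cs = g)).card : ℝ) /
        (Fintype.card (Fin t → Fin m → Bool) : ℝ) := by
  classical
  unfold lawP Crest.FinProb.uniformProb
  congr 2
  apply Finset.card_bij (fun a _ => a)
  · intro a ha
    simp only [Finset.mem_filter, Finset.mem_univ, true_and, Set.mem_ofPred_eq] at ha ⊢
    apply Equiv.coe_fn_injective
    change ⇑(iterPerm t a) = ⇑g
    rw [iterPerm_coe]; exact ha
  · intro a _ b _ h; exact h
  · intro b hb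
    refine ⟨b, ?_, rfl⟩
    simp only [Finset.mem_filter, Finset.mem_univ, true_and, Set.mem_ofPred_eq] at hb ⊢
    rw [← iterPerm_coe, hb]

theorem lawP_nonneg (t : ℕ) (g : Equiv.Perm (Fin (2 * m))) : 0 ≤ lawP m t g := by
  classical
  rw [lawP_eq]; positivity

theorem card_table_ne (t : ℕ) : (Fintype.card (Fin t → Fin m → Bool) : ℝ) ≠ 0 := by
  have : 0 < Fintype.card (Fin t → Fin m → Bool) := Fintype.card_pos
  positivity

theorem sum_lawP (t : ℕ) : ∑ g : Equiv.Perm (Fin (2 * m)), lawP m t g = 1 := by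
  classical
  simp_rw [lawP_eq]
  rw [← Finset.sum_div, ← Nat.cast_sum, div_eq_one_iff_eq (card_table_ne t)]
  congr 1
  have := Finset.card_eq_sum_card_fiberwise
    (f := fun cs : Fin t → Fin m → Bool => iterPerm t cs)
    (s := Finset.univ) (t := Finset.univ) (fun _ _ => Finset.mem_univ _)
  rw [Finset.card_univ] at this
  exact this.symm

theorem card_table (t : ℕ) : Fintype.card (Fin t → Fin m → Bool) = 2 ^ (m * t) := by
  simp [← pow_mul]

/-- Support lower bound on the total variation distance. -/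
theorem tv_ge_of_support (t : ℕ) :
    1 - (2 : ℝ) ^ (m * t) / ((2 * m).factorial : ℝ) ≤ tvFromUniform m t := by
  classical
  set N := (2 * m).factorial with hN
  have hNpos : (0 : ℝ) < N := by positivity
  set u : ℝ := 1 / (N : ℝ) with hu
  have hupos : 0 ≤ u := by positivity
  let A : Finset (Equiv.Perm (Fin (2 * m))) := Finset.univ.image (iterPerm t)
  have hA : (A.card : ℝ) ≤ (2 : ℝ) ^ (m * t) := by
    have h1 : A.card ≤ (Finset.univ : Finset (Fin t → Fin m → Bool)).card := Finset.card_image_le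
    rw [Finset.card_univ, card_table] at h1
    exact_mod_cast h1
  have hcardG : (Fintype.card (Equiv.Perm (Fin (2 * m))) : ℝ) = N := by
    rw [Fintype.card_perm, Fintype.card_fin]
  have hzero : ∀ g, g ∉ A → lawP m t g = 0 := by
    intro g hg
    rw [lawP_eq]
    have : Finset.univ.filter (fun cs : Fin t → Fin m → Bool => iterPerm t cs = g) = ∅ := by
      apply Finset.filter_eq_empty_iff.mpr
      intro cs _ hcs
      exact hg (Finset.mem_image.mpr ⟨cs, Finset.mem_univ _, hcs⟩)
    rw [this]; simp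
  have hsumA : ∑ g ∈ A, lawP m t g = 1 := by
    rw [← sum_lawP (m := m) t]
    apply Finset.sum_subset (Finset.subset_univ _)
    intro g _ hg
    exact hzero g hg
  have hsplit : ∑ g, |lawP m t g - 1 / (N : ℝ)| =
      ∑ g ∈ A, |lawP m t g - u| + ∑ g ∈ Finset.univ \ A, |lawP m t g - u| := by
    rw [add_comm, Finset.sum_sdiff (Finset.subset_univ A)]
  have h1 : ∑ g ∈ A, (lawP m t g - u) ≤ ∑ g ∈ A, |lawP m t g - u| :=
    Finset.sum_le_sum (fun _ _ => le_abs_self _)
  have h2 : ∑ g ∈ Finset.univ \ A, |lawP m t g - u| = ((Finset.univ \ A).card : ℝ) * u := by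
    rw [Finset.sum_congr rfl (g := fun _ => u), Finset.sum_const, nsmul_eq_mul]
    intro g hg
    have hg' : g ∉ A := (Finset.mem_sdiff.mp hg).2
    rw [hzero g hg', zero_sub, abs_neg, abs_of_nonneg hupos]
  have h3 : ((Finset.univ \ A).card : ℝ) = N - A.card := by
    rw [Finset.card_sdiff_of_subset (Finset.subset_univ A), Finset.card_univ,
      Nat.cast_sub (Finset.card_le_univ A), hcardG]
  have h4 : ∑ g ∈ A, (lawP m t g - u) = 1 - A.card * u := by
    rw [Finset.sum_sub_distrib, hsumA, Finset.sum_const, nsmul_eq_mul]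
  have hNu : (N : ℝ) * u = 1 := by rw [hu]; field_simp
  unfold tvFromUniform
  change _ ≤ (1 / 2) * ∑ g : Equiv.Perm (Fin (2 * m)), |lawP m t g - 1 / (N : ℝ)|
  rw [hsplit, h2, h3]
  have h5 : (2 : ℝ) ^ (m * t) / (N : ℝ) = (2 : ℝ) ^ (m * t) * u := by
    rw [hu]; ring
  rw [h5]
  have h6 : (A.card : ℝ) * u ≤ (2 : ℝ) ^ (m * t) * u :=
    mul_le_mul_of_nonneg_right hA hupos
  have h7 : ((N : ℝ) - A.card) * u = 1 - A.card * u := by
    rw [sub_mul, hNu]
  rw [h7]
  linarith

/-- The chi-square bound. -/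
theorem tv_sq_le (t : ℕ) :
    (tvFromUniform m t) ^ 2 ≤
      (((2 * m).factorial : ℝ) * ∑ g : Equiv.Perm (Fin (2 * m)), (lawP m t g) ^ 2 - 1) / 4 := by
  classical
  set N := (2 * m).factorial with hN
  have hNpos : (0 : ℝ) < N := by positivity
  have hcardG : ((Finset.univ : Finset (Equiv.Perm (Fin (2 * m)))).card : ℝ) = N := by
    rw [Finset.card_univ, Fintype.card_perm, Fintype.card_fin]
  set u : ℝ := 1 / (N : ℝ) with hu
  have hNu : (N : ℝ) * u = 1 := by rw [hu]; field_simp
  have hcs : (∑ g : Equiv.Perm (Fin (2 * m)), |lawP m t g - u|) ^ 2 ≤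
      (N : ℝ) * ∑ g : Equiv.Perm (Fin (2 * m)), (lawP m t g - u) ^ 2 := by
    have := sq_sum_le_card_mul_sum_sq (s := (Finset.univ : Finset (Equiv.Perm (Fin (2 * m)))))
      (f := fun g => |lawP m t g - u|)
    rw [hcardG] at this
    simpa [sq_abs] using this
  have hexp : ∑ g : Equiv.Perm (Fin (2 * m)), (lawP m t g - u) ^ 2 =
      ∑ g : Equiv.Perm (Fin (2 * m)), (lawP m t g) ^ 2 - u := by
    have : ∀ g : Equiv.Perm (Fin (2 * m)), (lawP m t g - u) ^ 2 =
        (lawP m t g) ^ 2 - 2 * u * lawP m t g + u ^ 2 := fun g => by ring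
    simp_rw [this]
    rw [Finset.sum_add_distrib, Finset.sum_sub_distrib, ← Finset.mul_sum, sum_lawP,
      Finset.sum_const, nsmul_eq_mul, hcardG]
    have : (N : ℝ) * u ^ 2 = u := by
      calc (N : ℝ) * u ^ 2 = ((N : ℝ) * u) * u := by ring
        _ = u := by rw [hNu, one_mul]
    rw [this]; ring
  have hT : tvFromUniform m t = (1 / 2) * ∑ g : Equiv.Perm (Fin (2 * m)), |lawP m t g - u| := rfl
  rw [hT, mul_pow]
  have : (N : ℝ) * (∑ g : Equiv.Perm (Fin (2 * m)), (lawP m t g) ^ 2 - u) =
      (N : ℝ) * ∑ g : Equiv.Perm (Fin (2 * m)), (lawP m t g) ^ 2 - 1 := by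
    rw [mul_sub, hNu]
  rw [hexp, this] at hcs
  nlinarith [hcs]

end Crest.Agent.S0222Lib
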