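import Crest.Agent.S0222Lib.Site

/-!
# S0222: the spectral layer, with matrices only

For a finite group `G` (Wedderburn from Mathlib + Weyl's unitarian trick):

* `exists_family`: a finite family of unitary matrix representations `R i` such that
  `x ↦ ((R i).lift x)_i` is a bijection from `ℂ[G]` onto `Π_i M_{d_i}(ℂ)`, with one trivial member `i0`
  and `∑_g ρ_i g = 0` for `i ≠ i0`, and `r ≤ #ConjClasses G`.
* `plancherel`: `|G| ∑_g |x g|² = ∑_i d_i ‖(R i).lift x‖²_HS`.
* `chi2_le`: for `A ∈ ℝ[G]` with coefficient sum `1`, if `‖Â_i v‖² ≤ s_i ‖v‖²` then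
  `|G| ∑_g (A^K)(g)² - 1 ≤ ∑_{i ≠ i0} d_i² s_i^K`.
-/

set_option autoImplicit false
set_option linter.unusedSectionVars false

namespace Crest.Agent.S0222Lib.Planch

open Matrix Finset
open scoped ComplexOrder

section Basics

/-- A unitary matrix representation. -/
structure URep (G : Type*) [Group G] (d : ℕ) where
  /-- The matrices. -/
  ρ : G →* Matrix (Fin d) (Fin d) ℂ
  /-- They are unitary. -/
  unitary : ∀ g, (ρ g)ᴴ * ρ g = 1

variable {G : Type*} [Group G]

/-- The extension to the group algebra. -/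
noncomputable def URep.lift {d : ℕ} (R : URep G d) : MonoidAlgebra ℂ G →ₐ[ℂ] Matrix (Fin d) (Fin d) ℂ :=
  MonoidAlgebra.lift ℂ _ G R.ρ

@[simp] lemma URep.lift_single {d : ℕ} (R : URep G d) (g : G) (c : ℂ) :
    R.lift (MonoidAlgebra.single g c) = c • R.ρ g := by
  simp [URep.lift, MonoidAlgebra.lift_single]

lemma URep.lift_eq_sum [Fintype G] {d : ℕ} (R : URep G d) (x : MonoidAlgebra ℂ G) :
    R.lift x = ∑ g, x.coeff g • R.ρ g := by
  classical
  induction x using MonoidAlgebra.induction_linear with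
  | zero => simp
  | add x y hx hy =>
    simp only [map_add, hx, hy, MonoidAlgebra.coeff_add, Finsupp.add_apply, add_smul, sum_add_distrib]
  | single g c =>
    rw [URep.lift_single]
    rw [Finset.sum_eq_single g]
    · simp
    · intro h _ hne
      simp [MonoidAlgebra.coeff_single, hne.symm]
    · simp

lemma URep.inv_eq {d : ℕ} (R : URep G d) (g : G) : R.ρ g⁻¹ = (R.ρ g)ᴴ := by
  have h2 := R.unitary g
  calc R.ρ g⁻¹ = ((R.ρ g)ᴴ * R.ρ g) * R.ρ g⁻¹ := by rw [h2, Matrix.one_mul]
    _ = (R.ρ g)ᴴ * (R.ρ g * R.ρ g⁻¹) := Matrix.mul_assoc _ _ _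
    _ = (R.ρ g)ᴴ := by rw [← map_mul]; simp

end Basics

section Trace

lemma stdBasis_repr_apply {m n : Type*} [Fintype m] [Fintype n] (M : Matrix m n ℂ) (a : m) (b : n) :
    (Matrix.stdBasis ℂ m n).repr M (a, b) = M a b := by
  simp [Matrix.stdBasis, Module.Basis.map_repr]

/-- The trace of left multiplication on a product of matrix algebras. -/
lemma trace_mulLeft_pi {r : ℕ} {d : Fin r → ℕ} (y : Π i, Matrix (Fin (d i)) (Fin (d i)) ℂ) :
    LinearMap.trace ℂ (Π i, Matrix (Fin (d i)) (Fin (d i)) ℂ) (LinearMap.mulLeft ℂ y) =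
      ∑ i, (d i : ℂ) * (y i).trace := by
  classical
  let b := Pi.basis (fun i => Matrix.stdBasis ℂ (Fin (d i)) (Fin (d i)))
  rw [LinearMap.trace_eq_matrix_trace ℂ b, Matrix.trace]
  simp only [Matrix.diag_apply, LinearMap.toMatrix_apply]
  rw [Fintype.sum_sigma]
  refine Finset.sum_congr rfl fun i _ => ?_
  rw [Fintype.sum_prod_type]
  have h : ∀ a c : Fin (d i), b.repr ((LinearMap.mulLeft ℂ y) (b ⟨i, (a, c)⟩)) ⟨i, (a, c)⟩ = y i a a := by
    intro a c
    rw [Pi.basis_repr]
    simp only [LinearMap.mulLeft_apply]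
    change (Matrix.stdBasis ℂ (Fin (d i)) (Fin (d i))).repr ((y * b ⟨i, (a, c)⟩) i) (a, c) = _
    rw [stdBasis_repr_apply]
    simp only [b, Pi.basis_apply, Pi.mul_apply, Pi.single_eq_same, Matrix.stdBasis_eq_single]
    simp [Matrix.mul_apply, Matrix.single]
  simp only [h, Finset.sum_const, Finset.card_univ, Fintype.card_fin, nsmul_eq_mul, Matrix.trace,
    Matrix.diag_apply]
  rw [Finset.mul_sum]

variable {G : Type*} [Group G] [Fintype G] [DecidableEq G]

/-- The trace of left multiplication on the group algebra. -/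
lemma trace_mulLeft_group (x : MonoidAlgebra ℂ G) :
    LinearMap.trace ℂ (MonoidAlgebra ℂ G) (LinearMap.mulLeft ℂ x) =
      (Fintype.card G : ℂ) * x.coeff 1 := by
  rw [LinearMap.trace_eq_matrix_trace ℂ (MonoidAlgebra.basis G ℂ), Matrix.trace]
  simp only [Matrix.diag_apply, LinearMap.toMatrix_apply, LinearMap.mulLeft_apply]
  have : ∀ g : G, (MonoidAlgebra.basis G ℂ).repr (x * (MonoidAlgebra.basis G ℂ) g) g = x.coeff 1 := by
    intro g
    have h1 : (MonoidAlgebra.basis G ℂ) g = MonoidAlgebra.single g 1 := by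
      simp [MonoidAlgebra.basis]
    rw [h1]
    change (x * MonoidAlgebra.single g 1).coeff g = _
    rw [MonoidAlgebra.coeff_mul_single_apply]
    simp
  simp only [this, Finset.sum_const, Finset.card_univ, nsmul_eq_mul]

/-- **The regular trace through Wedderburn**. -/
theorem trace_reg {r : ℕ} {d : Fin r → ℕ}
    (e : MonoidAlgebra ℂ G ≃ₐ[ℂ] Π i, Matrix (Fin (d i)) (Fin (d i)) ℂ) (x : MonoidAlgebra ℂ G) :
    (Fintype.card G : ℂ) * x.coeff 1 = ∑ i, (d i : ℂ) * (e x i).trace := by
  rw [← trace_mulLeft_group, ← trace_mulLeft_pi, ← LinearMap.trace_conj' _ e.toLinearEquiv]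
  congr 1
  refine LinearMap.ext fun y => ?_
  simp [LinearEquiv.conj_apply]

end Trace

section Unitarise

variable {G : Type*} [Group G] [Fintype G] [DecidableEq G]

/-- **Weyl's unitarian trick**: every hom to matrices is conjugate to a unitary representation. -/
theorem exists_unitarise {d : ℕ} (φ : G →* Matrix (Fin d) (Fin d) ℂ) :
    ∃ c u : Matrix (Fin d) (Fin d) ℂ, c * u = 1 ∧ u * c = 1 ∧
      ∀ g, (c * φ g * u)ᴴ * (c * φ g * u) = 1 := by
  classical
  set Q : Matrix (Fin d) (Fin d) ℂ := ∑ g, (φ g)ᴴ * φ g with hQ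
  have hinv : ∀ h : G, (φ h)ᴴ * Q * φ h = Q := by
    intro h
    rw [hQ, Finset.mul_sum, Finset.sum_mul]
    rw [← Equiv.sum_comp (Equiv.mulRight h) (fun g => (φ g)ᴴ * φ g)]
    refine Finset.sum_congr rfl fun g _ => ?_
    simp only [Equiv.coe_mulRight, map_mul, Matrix.conjTranspose_mul]
    simp only [Matrix.mul_assoc]
  have hQpd : Q.PosDef := by
    rw [hQ, ← Finset.add_sum_erase Finset.univ _ (Finset.mem_univ (1 : G))]
    have h1 : (φ 1)ᴴ * φ 1 = 1 := by simp
    rw [h1]
    refine Matrix.PosDef.one.add_posSemidef (Matrix.posSemidef_sum _ fun g _ => ?_)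
    exact Matrix.posSemidef_conjTranspose_mul_self _
  obtain ⟨c, hc, hcc⟩ := Crest.Agent.S0222Lib.Site.exists_psd_sqrt hQpd.posSemidef
  have hdet : IsUnit c.det := by
    have h1 : IsUnit Q.det := (Matrix.isUnit_iff_isUnit_det Q).1 hQpd.isUnit
    rw [← hcc, Matrix.det_mul] at h1
    exact isUnit_of_mul_isUnit_left h1
  have hcu : c * c⁻¹ = 1 := Matrix.mul_nonsing_inv c hdet
  have huc : c⁻¹ * c = 1 := Matrix.nonsing_inv_mul c hdet
  have hch : cᴴ = c := hc.isHermitian.eq
  have huh : (c⁻¹)ᴴ = c⁻¹ := by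
    rw [Matrix.conjTranspose_nonsing_inv, hch]
  refine ⟨c, c⁻¹, hcu, huc, fun g => ?_⟩
  calc (c * φ g * c⁻¹)ᴴ * (c * φ g * c⁻¹)
      = c⁻¹ * ((φ g)ᴴ * (c * c) * φ g) * c⁻¹ := by
        simp only [Matrix.conjTranspose_mul, huh, hch, Matrix.mul_assoc]
    _ = c⁻¹ * (c * c) * c⁻¹ := by rw [hcc, hinv]
    _ = 1 := by
        rw [← Matrix.mul_assoc, huc, Matrix.one_mul, hcu]

end Unitarise

section Family

variable (G : Type*) [Group G] [Fintype G] [DecidableEq G]

/-- A complete family of unitary representations: `x ↦ ((R i).lift x)_i` is a bijection onto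
the product of the matrix algebras. -/
structure Family where
  /-- The number of representations. -/
  r : ℕ
  /-- The dimensions. -/
  d : Fin r → ℕ
  dpos : ∀ i, 0 < d i
  /-- The representations. -/
  R : ∀ i, URep G (d i)
  bij : Function.Bijective (fun x : MonoidAlgebra ℂ G => fun i => (R i).lift x)

instance instNeZeroCard : NeZero (Nat.card G : ℂ) := ⟨by
  have : Nat.card G ≠ 0 := Nat.card_pos.ne'
  exact_mod_cast this⟩

/-- **Existence** of a complete family. -/
theorem exists_family : Nonempty (Family G) := by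
  classical
  obtain ⟨r, d, hd, ⟨e⟩⟩ :=
    IsSemisimpleRing.exists_algEquiv_pi_matrix_of_isAlgClosed ℂ (MonoidAlgebra ℂ G)
  let φ : ∀ i, G →* Matrix (Fin (d i)) (Fin (d i)) ℂ := fun i =>
    { toFun := fun g => e (MonoidAlgebra.single g 1) i
      map_one' := by
        rw [← MonoidAlgebra.one_def, map_one]
        rfl
      map_mul' := fun g h => by
        rw [← Pi.mul_apply, ← map_mul, MonoidAlgebra.single_mul_single, one_mul] }
  choose c u hcu huc hU using fun i => exists_unitarise (φ i)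
  let ρ : ∀ i, G →* Matrix (Fin (d i)) (Fin (d i)) ℂ := fun i =>
    { toFun := fun g => c i * φ i g * u i
      map_one' := by
        simp [hcu]
      map_mul' := fun g h => by
        rw [map_mul]
        calc c i * (φ i g * φ i h) * u i = c i * φ i g * 1 * (φ i h * u i) := by
              simp only [Matrix.mul_one, Matrix.mul_assoc]
          _ = c i * φ i g * u i * (c i * φ i h * u i) := by
              rw [← huc i]
              simp only [Matrix.mul_assoc] }
  let R : ∀ i, URep G (d i) := fun i => ⟨ρ i, hU i⟩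
  have hlift : ∀ i (x : MonoidAlgebra ℂ G), (R i).lift x = c i * e x i * u i := by
    intro i x
    induction x using MonoidAlgebra.induction_linear with
    | zero => simp
    | add x y hx hy =>
      rw [map_add, hx, hy, map_add, Pi.add_apply, Matrix.mul_add, Matrix.add_mul]
    | single g a =>
      rw [URep.lift_single]
      have : MonoidAlgebra.single g a = a • MonoidAlgebra.single g (1 : ℂ) := by
        rw [MonoidAlgebra.smul_single']
        simp
      rw [this, map_smul, Pi.smul_apply, Matrix.mul_smul, Matrix.smul_mul]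
      rfl
  refine ⟨⟨r, d, fun i => Nat.pos_of_ne_zero (hd i).out, R, ?_, ?_⟩⟩
  · intro x y h
    apply e.injective
    funext i
    have h1 := congrFun h i
    simp only [hlift] at h1
    have key : ∀ y : Matrix (Fin (d i)) (Fin (d i)) ℂ, u i * (c i * y * u i) * c i = y := by
      intro y
      calc u i * (c i * y * u i) * c i = (u i * c i) * y * (u i * c i) := by
            simp only [Matrix.mul_assoc]
        _ = y := by rw [huc]; simp
    rw [← key (e x i), h1, key]
  · intro M
    refine ⟨e.symm (fun i => u i * M i * c i), ?_⟩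
    funext i
    simp only [hlift, AlgEquiv.apply_symm_apply]
    calc c i * (u i * M i * c i) * u i = (c i * u i) * M i * (c i * u i) := by
          simp only [Matrix.mul_assoc]
      _ = M i := by rw [hcu]; simp

variable {G}
variable (F : Family G)

/-- The algebra isomorphism of a family. -/
noncomputable def Family.E : MonoidAlgebra ℂ G ≃ₐ[ℂ] Π i, Matrix (Fin (F.d i)) (Fin (F.d i)) ℂ :=
  AlgEquiv.ofBijective (Pi.algHom ℂ _ (fun i => (F.R i).lift)) F.bij

lemma Family.E_apply (x : MonoidAlgebra ℂ G) (i : Fin F.r) : F.E x i = (F.R i).lift x := rfl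

/-- Each component of the family is surjective (Burnside). -/
lemma Family.surj (i : Fin F.r) (M : Matrix (Fin (F.d i)) (Fin (F.d i)) ℂ) :
    ∃ x, (F.R i).lift x = M := by
  classical
  obtain ⟨x, hx⟩ := F.bij.2 (Pi.single i M)
  refine ⟨x, ?_⟩
  have := congrFun hx i
  simpa using this

/-- The regular trace. -/
theorem Family.trace_reg (x : MonoidAlgebra ℂ G) :
    (Fintype.card G : ℂ) * x.coeff 1 = ∑ i, (F.d i : ℂ) * ((F.R i).lift x).trace :=
  Planch.trace_reg F.E x

/-- The adjoint in the group algebra. -/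
noncomputable def cstar (x : MonoidAlgebra ℂ G) : MonoidAlgebra ℂ G :=
  ∑ g, MonoidAlgebra.single g⁻¹ (star (x.coeff g))

lemma coeff_cstar (x : MonoidAlgebra ℂ G) (h : G) : (cstar x).coeff h = star (x.coeff h⁻¹) := by
  unfold cstar
  rw [MonoidAlgebra.coeff_sum, Finsupp.finsetSum_apply]
  rw [Finset.sum_eq_single h⁻¹]
  · simp [MonoidAlgebra.coeff_single]
  · intro g _ hne
    have : g⁻¹ ≠ h := fun e => hne (by rw [← e, inv_inv])
    simp [MonoidAlgebra.coeff_single, this]
  · simp

lemma URep.lift_cstar {d : ℕ} (R : URep G d) (x : MonoidAlgebra ℂ G) :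
    R.lift (cstar x) = (R.lift x)ᴴ := by
  unfold cstar
  rw [map_sum, R.lift_eq_sum x, Matrix.conjTranspose_sum]
  refine Finset.sum_congr rfl fun g _ => ?_
  rw [URep.lift_single, URep.inv_eq, Matrix.conjTranspose_smul]

lemma eq_sum_single (x : MonoidAlgebra ℂ G) : x = ∑ g, MonoidAlgebra.single g (x.coeff g) := by
  ext h
  rw [MonoidAlgebra.coeff_sum, Finsupp.finsetSum_apply, Finset.sum_eq_single h]
  · simp [MonoidAlgebra.coeff_single]
  · intro g _ hne
    simp [MonoidAlgebra.coeff_single, hne]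
  · simp

lemma coeff_mul_one (x y : MonoidAlgebra ℂ G) :
    (x * y).coeff 1 = ∑ g, x.coeff g * y.coeff g⁻¹ := by
  conv_lhs => rw [eq_sum_single x, Finset.sum_mul]
  rw [MonoidAlgebra.coeff_sum, Finsupp.finsetSum_apply]
  refine Finset.sum_congr rfl fun g _ => ?_
  rw [MonoidAlgebra.coeff_single_mul_apply, mul_one]

/-- The Hilbert-Schmidt norm squared. -/
noncomputable def hsq {m n : Type*} [Fintype m] [Fintype n] (M : Matrix m n ℂ) : ℝ :=
  ∑ a, ∑ b, ‖M a b‖ ^ 2

/-- The Euclidean norm squared. -/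
noncomputable def nsq {n : Type*} [Fintype n] (v : n → ℂ) : ℝ := ∑ a, ‖v a‖ ^ 2

/-- The equation lemma of `nsq` is generated here, once. -/
theorem nsq_eqns_here : True := by
  have _ := @nsq.eq_1.{0}
  trivial

lemma nsq_nonneg {n : Type*} [Fintype n] (v : n → ℂ) : 0 ≤ nsq v :=
  Finset.sum_nonneg fun _ _ => by positivity

lemma hsq_nonneg {m n : Type*} [Fintype m] [Fintype n] (M : Matrix m n ℂ) : 0 ≤ hsq M :=
  Finset.sum_nonneg fun _ _ => Finset.sum_nonneg fun _ _ => by positivity

lemma trace_mul_conjTranspose {m n : Type*} [Fintype m] [Fintype n] (M : Matrix m n ℂ) :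
    (M * Mᴴ).trace = (hsq M : ℂ) := by
  classical
  unfold hsq
  rw [Matrix.trace]
  simp only [Matrix.diag_apply, Matrix.mul_apply, Matrix.conjTranspose_apply]
  push_cast
  refine Finset.sum_congr rfl fun a _ => Finset.sum_congr rfl fun b _ => ?_
  rw [Complex.star_def, Complex.mul_conj, Complex.normSq_eq_norm_sq]
  push_cast
  rfl

/-- **Plancherel**. -/
theorem Family.plancherel (x : MonoidAlgebra ℂ G) :
    (Fintype.card G : ℝ) * ∑ g, ‖x.coeff g‖ ^ 2 = ∑ i, (F.d i : ℝ) * hsq ((F.R i).lift x) := by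
  have h := F.trace_reg (x * cstar x)
  apply Complex.ofReal_injective
  push_cast
  have h1 : (x * cstar x).coeff 1 = ∑ g, ((‖x.coeff g‖ : ℂ)) ^ 2 := by
    rw [coeff_mul_one]
    refine Finset.sum_congr rfl fun g _ => ?_
    rw [coeff_cstar, inv_inv, Complex.star_def, Complex.mul_conj, Complex.normSq_eq_norm_sq]
    push_cast
    rfl
  rw [h1] at h
  rw [h]
  refine Finset.sum_congr rfl fun i _ => ?_
  rw [map_mul, URep.lift_cstar, trace_mul_conjTranspose]

/-! ### The trivial representation -/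

variable (G) in
/-- The normalised sum of the group. -/
noncomputable def eps : MonoidAlgebra ℂ G := ∑ g, MonoidAlgebra.single g ((Fintype.card G : ℂ)⁻¹)

lemma card_ne : (Fintype.card G : ℂ) ≠ 0 := by
  exact_mod_cast Fintype.card_ne_zero

lemma coeff_eps (h : G) : (eps G).coeff h = (Fintype.card G : ℂ)⁻¹ := by
  unfold eps
  rw [MonoidAlgebra.coeff_sum, Finsupp.finsetSum_apply, Finset.sum_eq_single h]
  · simp [MonoidAlgebra.coeff_single]
  · intro g _ hne
    simp [MonoidAlgebra.coeff_single, hne]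
  · simp

lemma single_mul_eps (h : G) (a : ℂ) : MonoidAlgebra.single h a * eps G = a • eps G := by
  unfold eps
  rw [Finset.mul_sum, Finset.smul_sum,
    ← Equiv.sum_comp (Equiv.mulLeft h) (fun g => a • MonoidAlgebra.single g ((Fintype.card G : ℂ)⁻¹))]
  refine Finset.sum_congr rfl fun g _ => ?_
  rw [MonoidAlgebra.single_mul_single, MonoidAlgebra.smul_single']
  rfl

lemma eps_mul_single (h : G) (a : ℂ) : eps G * MonoidAlgebra.single h a = a • eps G := by
  unfold eps
  rw [Finset.sum_mul, Finset.smul_sum,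
    ← Equiv.sum_comp (Equiv.mulRight h) (fun g => a • MonoidAlgebra.single g ((Fintype.card G : ℂ)⁻¹))]
  refine Finset.sum_congr rfl fun g _ => ?_
  rw [MonoidAlgebra.single_mul_single, MonoidAlgebra.smul_single', mul_comm]
  rfl

lemma mul_eps (x : MonoidAlgebra ℂ G) : x * eps G = (∑ g, x.coeff g) • eps G := by
  conv_lhs => rw [eq_sum_single x, Finset.sum_mul]
  rw [Finset.sum_smul]
  exact Finset.sum_congr rfl fun g _ => single_mul_eps g _

lemma eps_mul (x : MonoidAlgebra ℂ G) : eps G * x = (∑ g, x.coeff g) • eps G := by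
  conv_lhs => rw [eq_sum_single x, Finset.mul_sum]
  rw [Finset.sum_smul]
  exact Finset.sum_congr rfl fun g _ => eps_mul_single g _

lemma eps_mul_eps : eps G * eps G = eps G := by
  rw [mul_eps]
  simp only [coeff_eps, Finset.sum_const, Finset.card_univ, nsmul_eq_mul]
  rw [mul_inv_cancel₀ card_ne, one_smul]

lemma eps_ne_zero : eps G ≠ 0 := by
  intro h
  have := coeff_eps (G := G) 1
  rw [h] at this
  simp only [MonoidAlgebra.coeff_zero, Finsupp.coe_zero, Pi.zero_apply] at this
  exact inv_ne_zero card_ne this.symm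

lemma URep.lift_eps {d : ℕ} (R : URep G d) :
    R.lift (eps G) = (Fintype.card G : ℂ)⁻¹ • ∑ g, R.ρ g := by
  rw [R.lift_eq_sum]
  simp only [coeff_eps, Finset.smul_sum]

/-- The value of `eps` in a component is `0` or `1`. -/
lemma Family.eps_dichotomy (i : Fin F.r) :
    (F.R i).lift (eps G) = 0 ∨ (F.R i).lift (eps G) = 1 := by
  set T := (F.R i).lift (eps G) with hT
  have hcen : T ∈ Set.center (Matrix (Fin (F.d i)) (Fin (F.d i)) ℂ) := by
    rw [Semigroup.mem_center_iff]
    intro M
    obtain ⟨x, rfl⟩ := F.surj i M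
    rw [hT, ← map_mul, ← map_mul, mul_eps, eps_mul]
  rw [Matrix.center_eq_range] at hcen
  obtain ⟨μ, hμ⟩ := hcen
  have hT2 : T * T = T := by
    rw [hT, ← map_mul, eps_mul_eps]
  have ha : Fin (F.d i) := ⟨0, F.dpos i⟩
  have hμ2 : μ * μ = μ := by
    have h := congrFun (congrFun hT2 ha) ha
    rw [← hμ] at h
    simpa [Matrix.mul_apply, Matrix.diagonal_apply, Matrix.scalar_apply] using h
  have hμ01 : μ = 0 ∨ μ = 1 := by
    have : μ * (μ - 1) = 0 := by ring_nf; rw [pow_two, hμ2]; ring
    rcases mul_eq_zero.1 this with h | h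
    · exact Or.inl h
    · exact Or.inr (sub_eq_zero.1 h)
  rcases hμ01 with rfl | rfl
  · left
    rw [← hμ]
    simp
  · right
    rw [← hμ]
    simp

lemma Family.triv_of_eps (i : Fin F.r) (h : (F.R i).lift (eps G) = 1) (g : G) :
    (F.R i).ρ g = 1 := by
  calc (F.R i).ρ g = (F.R i).lift (MonoidAlgebra.single g 1) * (F.R i).lift (eps G) := by
        rw [h, Matrix.mul_one, URep.lift_single, one_smul]
    _ = 1 := by
        rw [← map_mul, single_mul_eps, one_smul, h]

lemma Family.lift_of_triv (i : Fin F.r) (h : ∀ g, (F.R i).ρ g = 1) (x : MonoidAlgebra ℂ G) :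
    (F.R i).lift x = (∑ g, x.coeff g) • 1 := by
  rw [URep.lift_eq_sum, Finset.sum_smul]
  exact Finset.sum_congr rfl fun g _ => by rw [h]

/-- **The trivial index**. -/
theorem Family.exists_triv :
    ∃ i0, F.d i0 = 1 ∧ (∀ g, (F.R i0).ρ g = 1) ∧ ∀ i, i ≠ i0 → ∑ g, (F.R i).ρ g = 0 := by
  classical
  -- existence
  obtain ⟨i0, hi0⟩ : ∃ i, (F.R i).lift (eps G) = 1 := by
    by_contra hcon
    push Not at hcon
    have hz : ∀ i, (F.R i).lift (eps G) = 0 := fun i => (F.eps_dichotomy i).resolve_right (hcon i)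
    apply eps_ne_zero (G := G)
    apply F.bij.1
    funext i
    simp [hz i]
  have htriv := F.triv_of_eps i0 hi0
  have hl := F.lift_of_triv i0 htriv
  refine ⟨i0, ?_, htriv, ?_⟩
  · -- dimension one
    by_contra hd
    have hpos := F.dpos i0
    have h2 : 1 < F.d i0 := by omega
    let a : Fin (F.d i0) := ⟨0, hpos⟩
    let b : Fin (F.d i0) := ⟨1, h2⟩
    have hab : a ≠ b := by
      intro e
      have := congrArg Fin.val e
      simp [a, b] at this
    obtain ⟨x, hx⟩ := F.surj i0 (Matrix.single a b 1)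
    rw [hl] at hx
    have h1 := congrFun (congrFun hx a) a
    have h3 := congrFun (congrFun hx a) b
    simp [Matrix.single, hab] at h1 h3
  · intro i hne
    have hz : (F.R i).lift (eps G) = 0 := by
      refine (F.eps_dichotomy i).resolve_right fun h1 => ?_
      obtain ⟨x, hx⟩ := F.bij.2 (Pi.single i0 1)
      have hx0 := congrFun hx i0
      have hx1 := congrFun hx i
      simp only [Pi.single_eq_same] at hx0
      rw [Pi.single_eq_of_ne hne] at hx1
      simp only at hx0 hx1
      rw [hl] at hx0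
      rw [F.lift_of_triv i (F.triv_of_eps i h1)] at hx1
      have ha : Fin (F.d i) := ⟨0, F.dpos i⟩
      have ha0 : Fin (F.d i0) := ⟨0, F.dpos i0⟩
      have e0 := congrFun (congrFun hx0 ha0) ha0
      have e1 := congrFun (congrFun hx1 ha) ha
      simp at e0 e1
      rw [e1] at e0
      exact zero_ne_one e0
    rw [URep.lift_eps] at hz
    exact (smul_eq_zero.1 hz).resolve_left (inv_ne_zero card_ne)

/-- The trivial index of a family. -/
noncomputable def Family.i0 : Fin F.r := Classical.choose F.exists_triv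

lemma Family.d_i0 : F.d F.i0 = 1 := (Classical.choose_spec F.exists_triv).1

lemma Family.rho_i0 (g : G) : (F.R F.i0).ρ g = 1 := (Classical.choose_spec F.exists_triv).2.1 g

lemma Family.sum_rho (i : Fin F.r) (h : i ≠ F.i0) : ∑ g, (F.R i).ρ g = 0 :=
  (Classical.choose_spec F.exists_triv).2.2 i h

/-! ### The chi-square bound -/

/-- From real to complex coefficients. -/
noncomputable def toC : MonoidAlgebra ℝ G →+* MonoidAlgebra ℂ G :=
  MonoidAlgebra.mapRingHom G Complex.ofRealHom

@[simp] lemma coeff_toC (x : MonoidAlgebra ℝ G) (g : G) : (toC x).coeff g = (x.coeff g : ℂ) := by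
  simp [toC]

lemma nsq_pow_le {n : Type*} [Fintype n] [DecidableEq n] {M : Matrix n n ℂ} {s : ℝ} (hs : 0 ≤ s)
    (h : ∀ v, nsq (M *ᵥ v) ≤ s * nsq v) (K : ℕ) (v : n → ℂ) :
    nsq ((M ^ K) *ᵥ v) ≤ s ^ K * nsq v := by
  induction K with
  | zero => simp
  | succ K ih =>
    rw [pow_succ', ← Matrix.mulVec_mulVec]
    calc nsq (M *ᵥ ((M ^ K) *ᵥ v)) ≤ s * nsq ((M ^ K) *ᵥ v) := h _
      _ ≤ s * (s ^ K * nsq v) := mul_le_mul_of_nonneg_left ih hs
      _ = s ^ (K + 1) * nsq v := by ring

lemma hsq_eq_sum_nsq {n : Type*} [Fintype n] [DecidableEq n] (M : Matrix n n ℂ) :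
    hsq M = ∑ b, nsq (M *ᵥ Pi.single b 1) := by
  unfold hsq nsq
  rw [Finset.sum_comm]
  refine Finset.sum_congr rfl fun b _ => ?_
  simp

lemma nsq_single {n : Type*} [Fintype n] [DecidableEq n] (b : n) : nsq (Pi.single b (1 : ℂ)) = 1 := by
  unfold nsq
  rw [Finset.sum_eq_single b]
  · simp
  · intro c _ hc
    simp [hc]
  · simp

lemma hsq_pow_le {n : Type*} [Fintype n] [DecidableEq n] {M : Matrix n n ℂ} {s : ℝ} (hs : 0 ≤ s)
    (h : ∀ v, nsq (M *ᵥ v) ≤ s * nsq v) (K : ℕ) :
    hsq (M ^ K) ≤ (Fintype.card n : ℝ) * s ^ K := by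
  rw [hsq_eq_sum_nsq]
  calc ∑ b, nsq ((M ^ K) *ᵥ Pi.single b 1) ≤ ∑ _b : n, s ^ K := by
        refine Finset.sum_le_sum fun b _ => ?_
        have := nsq_pow_le hs h K (Pi.single b (1 : ℂ))
        rwa [nsq_single, mul_one] at this
    _ = _ := by simp

lemma hsq_one {n : Type*} [Fintype n] [DecidableEq n] :
    hsq (1 : Matrix n n ℂ) = (Fintype.card n : ℝ) := by
  unfold hsq
  have : ∀ a : n, ∑ b, ‖(1 : Matrix n n ℂ) a b‖ ^ 2 = 1 := by
    intro a
    rw [Finset.sum_eq_single a]
    · simp
    · intro b _ hb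
      simp [Matrix.one_apply, hb.symm]
    · simp
  simp [this]

/-- **The chi-square bound**: the non-trivial spectrum controls the `ℓ²` norm. -/
theorem Family.chi2_le (A : MonoidAlgebra ℝ G) (hA : ∑ g, A.coeff g = 1) (s : Fin F.r → ℝ)
    (hs0 : ∀ i, i ≠ F.i0 → 0 ≤ s i)
    (hs : ∀ i, i ≠ F.i0 → ∀ v, nsq ((F.R i).lift (toC A) *ᵥ v) ≤ s i * nsq v) (K : ℕ) :
    (Fintype.card G : ℝ) * ∑ g, ((A ^ K).coeff g) ^ 2 ≤
      1 + ∑ i ∈ Finset.univ.erase F.i0, (F.d i : ℝ) ^ 2 * s i ^ K := by
  classical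
  have hP := F.plancherel (toC (A ^ K))
  have h1 : ∑ g, ‖(toC (A ^ K)).coeff g‖ ^ 2 = ∑ g, ((A ^ K).coeff g) ^ 2 := by
    refine Finset.sum_congr rfl fun g _ => ?_
    rw [coeff_toC, Complex.norm_real, Real.norm_eq_abs, sq_abs]
  rw [h1] at hP
  rw [hP, ← Finset.add_sum_erase Finset.univ _ (Finset.mem_univ F.i0)]
  have hM : ∀ i, (F.R i).lift (toC (A ^ K)) = ((F.R i).lift (toC A)) ^ K := by
    intro i
    rw [map_pow, map_pow]
  have h0 : (F.d F.i0 : ℝ) * hsq ((F.R F.i0).lift (toC (A ^ K))) = 1 := by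
    have h2 : (F.R F.i0).lift (toC A) = 1 := by
      rw [F.lift_of_triv F.i0 F.rho_i0]
      simp only [coeff_toC]
      rw [← Complex.ofReal_sum, hA]
      simp
    rw [hM, h2, one_pow, hsq_one]
    simp [F.d_i0]
  rw [h0]
  refine add_le_add le_rfl (Finset.sum_le_sum fun i hi => ?_)
  have hi' := Finset.ne_of_mem_erase hi
  rw [hM]
  have := hsq_pow_le (hs0 i hi') (hs i hi') K
  simp only [Fintype.card_fin] at this
  calc (F.d i : ℝ) * hsq (((F.R i).lift (toC A)) ^ K)
      ≤ (F.d i : ℝ) * ((F.d i : ℝ) * s i ^ K) :=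
        mul_le_mul_of_nonneg_left this (by positivity)
    _ = (F.d i : ℝ) ^ 2 * s i ^ K := by ring

/-! ### The number of representations -/

/-- Central elements have coefficients constant on conjugacy classes. -/
lemma coeff_conj_of_central {y : MonoidAlgebra ℂ G}
    (hy : ∀ x : MonoidAlgebra ℂ G, x * y = y * x) (g h : G) :
    y.coeff (h * g * h⁻¹) = y.coeff g := by
  have h1 := hy (MonoidAlgebra.single h 1)
  have h2 : (MonoidAlgebra.single h (1 : ℂ) * y).coeff (h * g) = (y * MonoidAlgebra.single h (1 : ℂ)).coeff (h * g) := by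
    rw [h1]
  rw [MonoidAlgebra.coeff_single_mul_apply, MonoidAlgebra.coeff_mul_single_apply] at h2
  simp only [one_mul, mul_one, inv_mul_cancel_left] at h2
  exact h2.symm

/-- **The number of irreducible representations** is at most the number of conjugacy classes. -/
theorem Family.r_le : F.r ≤ Nat.card (ConjClasses G) := by
  classical
  letI : Fintype (ConjClasses G) := Fintype.ofFinite _
  let z : Fin F.r → MonoidAlgebra ℂ G := fun i => F.E.symm (Pi.single i 1)
  have hEz : ∀ (a : Fin F.r → ℂ) (i : Fin F.r), F.E (∑ j, a j • z j) i = a i • 1 := by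
    intro a i
    rw [map_sum, Finset.sum_apply, Finset.sum_eq_single i]
    · simp [z]
    · intro j _ hj
      simp [z, Pi.single_eq_of_ne hj.symm]
    · simp
  let Λ : (Fin F.r → ℂ) →ₗ[ℂ] (ConjClasses G → ℂ) :=
    { toFun := fun a C => (∑ j, a j • z j).coeff C.out
      map_add' := fun a b => by
        funext C
        simp [add_smul, Finset.sum_add_distrib]
      map_smul' := fun c a => by
        funext C
        simp [mul_smul, ← Finset.smul_sum] }
  have hinj : Function.Injective Λ := by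
    rw [injective_iff_map_eq_zero]
    intro a ha
    set y := ∑ j, a j • z j with hy
    have hcen : ∀ x, x * y = y * x := by
      intro x
      apply F.E.injective
      rw [map_mul, map_mul]
      funext i
      simp only [Pi.mul_apply]
      rw [hEz a i]
      simp
    have hy0 : y = 0 := by
      ext g
      obtain ⟨h, hh⟩ := isConj_iff.1 (ConjClasses.mk_eq_mk_iff_isConj.1
        (Quotient.out_eq (ConjClasses.mk g)) : IsConj _ g)
      have h1 := coeff_conj_of_central hcen (ConjClasses.mk g).out h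
      rw [hh] at h1
      have h2 := congrFun ha (ConjClasses.mk g)
      simp only [Pi.zero_apply] at h2
      rw [h1]
      exact h2
    funext i
    have h1 := hEz a i
    rw [← hy, hy0, map_zero] at h1
    have ha0 : Fin (F.d i) := ⟨0, F.dpos i⟩
    have h2 := congrFun (congrFun h1 ha0) ha0
    simpa using h2.symm
  have := LinearMap.finrank_le_finrank_of_injective hinj
  simpa [Nat.card_eq_fintype_card] using this

end Family

end Crest.Agent.S0222Lib.Planch
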