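import Crest.Agent.S0222Lib.PlanchEmbed

/-!
# S0222: the number of irreducible representations of a symmetric group

`card_partition_le`: if `n < m * m`, the number of partitions of `n` is at most `(n + 1) ^ (2 m)`:
a partition is determined by the multiplicities of the parts at most `m` and by the sorted list of
the fewer than `m` parts larger than `m`.

`Family.r_le_perm`: the number of irreducible representations of `Perm X` is at most this number.
-/

set_option autoImplicit false
set_option linter.unusedSectionVars false

namespace Crest.Agent.S0222Lib.Planch

open Finset

section Partitions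

lemma parts_le_sum {n : ℕ} (p : Nat.Partition n) {a : ℕ} (ha : a ∈ p.parts) : a ≤ n := by
  rw [← p.parts_sum]
  exact Multiset.le_sum_of_mem ha

lemma card_parts_le {n : ℕ} (p : Nat.Partition n) : p.parts.card ≤ n := by
  have h := Multiset.card_nsmul_le_sum (s := p.parts) (a := 1) (fun x hx => p.parts_pos hx)
  rw [p.parts_sum] at h
  simpa using h

lemma card_large_lt {n m : ℕ} (hm : n < m * m) (p : Nat.Partition n) :
    (p.parts.filter (fun a => m < a)).card < m := by
  by_contra hcon
  have hcon' : m ≤ (p.parts.filter (fun a => m < a)).card := not_lt.1 hcon
  have h := Multiset.card_nsmul_le_sum (s := p.parts.filter (fun a => m < a)) (a := m)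
    (fun x hx => (Multiset.mem_filter.1 hx).2.le)
  have h2 : (p.parts.filter (fun a => m < a)).sum ≤ p.parts.sum := by
    conv_rhs => rw [← Multiset.filter_add_not (fun a => m < a) p.parts, Multiset.sum_add]
    exact Nat.le_add_right _ _
  rw [p.parts_sum] at h2
  have h3 : m * m ≤ (p.parts.filter (fun a => m < a)).card * m := Nat.mul_le_mul_right m hcon'
  simp only [smul_eq_mul] at h
  omega

/-- The number of partitions. -/
theorem card_partition_le (n m : ℕ) (hm : n < m * m) :
    Fintype.card (Nat.Partition n) ≤ (n + 1) ^ m * (n + 1) ^ m := by
  classical
  let L : Nat.Partition n → List ℕ := fun p => (p.parts.filter (fun a => m < a)).sort (· ≤ ·)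
  have hLmem : ∀ p a, a ∈ L p ↔ a ∈ p.parts ∧ m < a := by
    intro p a
    simp only [L, Multiset.mem_sort, Multiset.mem_filter]
  have hLlen : ∀ p, (L p).length < m := by
    intro p
    simp only [L, Multiset.length_sort]
    exact card_large_lt hm p
  let code : Nat.Partition n → (Fin m → Fin (n + 1)) × (Fin m → Fin (n + 1)) := fun p =>
    (fun k => ⟨p.parts.count (k.1 + 1), Nat.lt_succ_of_le
        ((Multiset.count_le_card _ _).trans (card_parts_le p))⟩,
     fun l => ⟨(L p).getD l.1 0, Nat.lt_succ_of_le (by
        rw [List.getD_eq_getElem?_getD]
        cases h : (L p)[l.1]? with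
        | none => simp
        | some x =>
          simp only [Option.getD_some]
          exact parts_le_sum p ((hLmem p x).1 (List.mem_of_getElem? h)).1)⟩)
  have hcode : Function.Injective code := by
    intro p q hpq
    have h1 := (Prod.ext_iff.1 hpq).1
    have h2 := (Prod.ext_iff.1 hpq).2
    have hcount : ∀ k (hk : k < m), p.parts.count (k + 1) = q.parts.count (k + 1) := by
      intro k hk
      have := congrFun h1 ⟨k, hk⟩
      exact congrArg Fin.val this
    have hget : ∀ l (hl : l < m), (L p).getD l 0 = (L q).getD l 0 := by
      intro l hl
      have := congrFun h2 ⟨l, hl⟩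
      exact congrArg Fin.val this
    have hLeq : L p = L q := by
      apply List.ext_getElem?
      intro l
      by_cases hl : l < m
      · have h3 := hget l hl
        rw [List.getD_eq_getElem?_getD, List.getD_eq_getElem?_getD] at h3
        cases h4 : (L p)[l]? with
        | none =>
          cases h5 : (L q)[l]? with
          | none => rfl
          | some y =>
            rw [h4, h5] at h3
            have := ((hLmem q y).1 (List.mem_of_getElem? h5)).2
            simp only [Option.getD_none, Option.getD_some] at h3
            omega
        | some x =>
          cases h5 : (L q)[l]? with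
          | none =>
            rw [h4, h5] at h3
            have := ((hLmem p x).1 (List.mem_of_getElem? h4)).2
            simp only [Option.getD_none, Option.getD_some] at h3
            omega
          | some y =>
            rw [h4, h5] at h3
            simp only [Option.getD_some] at h3
            rw [h3]
      · have hp := hLlen p
        have hq := hLlen q
        rw [List.getElem?_eq_none (by omega), List.getElem?_eq_none (by omega)]
    have hfilt : p.parts.filter (fun a => m < a) = q.parts.filter (fun a => m < a) := by
      have := congrArg (fun l : List ℕ => (l : Multiset ℕ)) hLeq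
      simpa only [L, Multiset.sort_eq] using this
    apply Nat.Partition.ext
    ext a
    by_cases ha : m < a
    · have h3 := congrArg (Multiset.count a) hfilt
      rwa [Multiset.count_filter_of_pos ha, Multiset.count_filter_of_pos ha] at h3
    · rcases Nat.eq_zero_or_pos a with rfl | ha0
      · rw [Multiset.count_eq_zero_of_notMem (fun h => absurd (p.parts_pos h) (lt_irrefl 0)),
          Multiset.count_eq_zero_of_notMem (fun h => absurd (q.parts_pos h) (lt_irrefl 0))]
      · have := hcount (a - 1) (by omega)
        rwa [Nat.sub_add_cancel ha0] at this
  have := Fintype.card_le_of_injective code hcode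
  simpa [Fintype.card_prod] using this

end Partitions

/-- The number of conjugacy classes of a symmetric group is at most the number of partitions. -/
theorem card_conjClasses_perm_le {X : Type*} [Fintype X] [DecidableEq X] :
    Nat.card (ConjClasses (Equiv.Perm X)) ≤ Fintype.card (Nat.Partition (Fintype.card X)) := by
  classical
  rw [Nat.card_eq_fintype_card]
  apply Fintype.card_le_of_injective (fun C : ConjClasses (Equiv.Perm X) => C.out.partition)
  intro C C' h
  have h1 : IsConj C.out C'.out := Equiv.Perm.partition_eq_of_isConj.2 h
  have h2 := ConjClasses.mk_eq_mk_iff_isConj.2 h1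
  have h3 : ∀ D : ConjClasses (Equiv.Perm X), ConjClasses.mk D.out = D := fun D => Quotient.out_eq D
  rwa [h3, h3] at h2

/-- **The number of irreducible representations of `Perm X`**. -/
theorem Family.r_le_perm {X : Type*} [Fintype X] [DecidableEq X] (F : Family (Equiv.Perm X)) (m : ℕ)
    (hm : Fintype.card X < m * m) :
    F.r ≤ (Fintype.card X + 1) ^ m * (Fintype.card X + 1) ^ m :=
  F.r_le.trans (card_conjClasses_perm_le.trans (card_partition_le _ m hm))

end Crest.Agent.S0222Lib.Planch
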