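import Crest.Agent.S0222Lib.PlanchFR
import Crest.Agent.S0222Lib.FRStep

/-!
# S0222: the bridge to the real operator `Zop`

`Family.nsq_le_of_Zop`: the first-row bound for `Zop` on pure level `b` words is the bound on the
representations of level `b`.
-/

set_option autoImplicit false
set_option linter.unusedSectionVars false

namespace Crest.Agent.S0222Lib.Planch

open Finset Matrix Function
open Crest.Agent.S0222Lib Crest.Agent.S0222Lib.FRCore Crest.Agent.S0222Lib.WordRep

lemma nsq_Tw_ofR {Tok : Type*} [Fintype Tok] [DecidableEq Tok] (D : ℕ) (z : Vs (B D) Tok) :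
    nsq (Tw (Option Tok) D *ᵥ ofR z) = ip z (Zop Tok D z) := by
  have h1 : ((nsq (Tw (Option Tok) D *ᵥ ofR z) : ℝ) : ℂ) =
      star (ofR z) ⬝ᵥ (Zw (Option Tok) D *ᵥ ofR z) := by
    rw [← dot_star_self, Matrix.star_mulVec, ← Matrix.dotProduct_mulVec, Matrix.mulVec_mulVec, Zw]
  have h2 : star (ofR z) ⬝ᵥ (Zw (Option Tok) D *ᵥ ofR z) = ((ip z (Zop Tok D z) : ℝ) : ℂ) := by
    simp only [dotProduct, Matrix.mulVec, ip, Zop, Mop_apply, ofR]
    push_cast
    refine Finset.sum_congr rfl fun w _ => ?_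
    have h3 : star (ofR z) w = (z w : ℂ) := by
      simp [ofR]
    rw [h3]
    congr 1
    refine Finset.sum_congr rfl fun w' _ => ?_
    rw [Zw_ofReal]
  rw [h2] at h1
  exact Complex.ofReal_injective h1

/-- **The bridge to `Zop`**: the first-row bound on the pure level `b` words is the bound on the
representations of level `b`. -/
theorem Family.nsq_le_of_Zop {d : ℕ} (F : Family (Equiv.Perm (B (d + 1)))) (i : Fin F.r) {s : ℝ}
    (H : ∀ z : Vs (B (d + 1)) (Fin (F.level i)), z ∈ VT (univ : Finset (Fin (F.level i))) →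
      (∀ e, Dop e z = 0) → ip z (Zop (Fin (F.level i)) (d + 1) z) ≤ s * ip z z)
    (u : Fin (F.d i) → ℂ) :
    nsq ((F.R i).lift (toC (passA d)) *ᵥ u) ≤ s * nsq u :=
  F.nsq_le_of_word i (fun z hz hD => by
    rw [nsq_Tw_ofR]
    exact H z hz hD) u

end Crest.Agent.S0222Lib.Planch
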