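import Crest.Agent.S0222Lib.PlanchLevel

/-!
# S0222: the final sum

`Family.final_sum`: if every non-trivial representation `V_i` with `s_i ≠ 0` of level `b` has
`s_i ≤ e^{-ℓ_i}`, `ℓ_i ≥ c b (1 + log (n / b))` (`c ≥ 1/100`) and `log d_i ≤ 780 ℓ_i`, then
`∑_{i ≠ i0} d_i² s_i^1600 ≤ 2 / n` for `n ≥ 10^16`.
-/

set_option autoImplicit false
set_option linter.unusedSectionVars false

namespace Crest.Agent.S0222Lib.Planch

open Finset Matrix

section Numbers

lemma log_100_ge_one : 1 ≤ Real.log 100 := by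
  rw [Real.le_log_iff_exp_le (by norm_num)]
  have := Real.exp_one_lt_d9
  linarith

lemma log_bound {N : ℝ} (hN : (10 : ℝ) ^ 16 ≤ N) : 8 * Real.log 100 ≤ Real.log N := by
  have h : (100 : ℝ) ^ 8 ≤ N := by
    calc (100 : ℝ) ^ 8 = 10 ^ 16 := by norm_num
      _ ≤ N := hN
  have := Real.log_le_log (by positivity) h
  rwa [Real.log_pow, Nat.cast_ofNat] at this

/-- Small levels: the logarithm of `n / b` is large. -/
lemma small_log {N b : ℝ} (hN : (10 : ℝ) ^ 16 ≤ N) (hb : 1 ≤ b) (hsm : b * b ≤ 10 ^ 4 * N) :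
    (3 / 8) * Real.log N ≤ 1 + Real.log (N / b) := by
  have hNpos : 0 < N := by linarith [show (0 : ℝ) < 10 ^ 16 by positivity]
  have hbpos : 0 < b := by linarith
  have h1 := log_bound hN
  have h2 : Real.log (b * b) ≤ Real.log (10 ^ 4 * N) := Real.log_le_log (by positivity) hsm
  rw [Real.log_mul hbpos.ne' hbpos.ne', Real.log_mul (by positivity) hNpos.ne'] at h2
  have h3 : Real.log ((10 : ℝ) ^ 4) = 2 * Real.log 100 := by
    have : (10 : ℝ) ^ 4 = 100 ^ 2 := by norm_num
    rw [this, Real.log_pow]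
    norm_num
  rw [h3] at h2
  rw [Real.log_div hNpos.ne' hbpos.ne']
  linarith

/-- Large levels: the entropy is large (monotonicity of `x (1 + log (N / x))`). -/
lemma large_log {N b : ℝ} (hN : (10 : ℝ) ^ 16 ≤ N) (hbN : b ≤ N) (hb1 : 1 ≤ b)
    (hla : 10 ^ 4 * N < b * b) :
    (75 / 2) * Real.sqrt N * Real.log N ≤ b * (1 + Real.log (N / b)) := by
  have hNpos : 0 < N := by linarith [show (0 : ℝ) < 10 ^ 16 by positivity]
  have hbpos : 0 < b := by linarith
  have h1 := log_bound hN
  have hlog1 := log_100_ge_one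
  set r := Real.sqrt N with hr
  have hrpos : 0 < r := Real.sqrt_pos.2 hNpos
  have hrr : r * r = N := Real.mul_self_sqrt hNpos.le
  set x₀ := 100 * r with hx₀
  have hx₀pos : 0 < x₀ := by positivity
  have hx₀b : x₀ ≤ b := by
    by_contra hcon
    have h2 : b < x₀ := not_le.1 hcon
    have : b * b < x₀ * x₀ := by nlinarith
    have h3 : x₀ * x₀ = 10 ^ 4 * N := by rw [hx₀, ← hrr]; ring
    linarith
  set t := b / x₀ with ht
  have htpos : 0 < t := by positivity
  have ht1 : 1 ≤ t := by rw [ht, one_le_div hx₀pos]; exact hx₀b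
  have hbt : b = x₀ * t := by rw [ht]; field_simp
  set M := Real.log (N / x₀) with hM
  have hlogt : Real.log t ≤ M := by
    apply Real.log_le_log htpos
    rw [ht]
    exact div_le_div_of_nonneg_right hbN hx₀pos.le
  have hlog_b : Real.log (N / b) = M - Real.log t := by
    rw [hbt, hM, ← Real.log_div (by positivity) htpos.ne']
    congr 1
    field_simp
  have hlogt2 : Real.log t ≤ t - 1 := Real.log_le_sub_one_of_pos htpos
  have hlogt0 : 0 ≤ Real.log t := Real.log_nonneg ht1
  -- the value at x₀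
  have hM2 : (3 / 8) * Real.log N ≤ 1 + M := by
    have hlr : Real.log N = 2 * Real.log r := by
      rw [← hrr, Real.log_mul hrpos.ne' hrpos.ne']
      ring
    have : M = Real.log N - Real.log 100 - Real.log r := by
      rw [hM, hx₀, Real.log_div hNpos.ne' (by positivity), Real.log_mul (by norm_num) hrpos.ne']
      ring
    rw [this]
    have hlr2 : Real.log r = Real.log N / 2 := by rw [hlr]; ring
    rw [hlr2]
    linarith
  have hkey : x₀ * (1 + M) ≤ b * (1 + Real.log (N / b)) := by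
    rw [hlog_b, hbt]
    have h5 : 0 ≤ (t - 1) * (1 + M) - t * Real.log t := by
      have h6 : (t - 1) * Real.log t ≤ (t - 1) * M :=
        mul_le_mul_of_nonneg_left hlogt (by linarith)
      nlinarith
    have h6 : x₀ * (1 + M) + x₀ * ((t - 1) * (1 + M) - t * Real.log t) =
        x₀ * t * (1 + (M - Real.log t)) := by ring
    have h7 : 0 ≤ x₀ * ((t - 1) * (1 + M) - t * Real.log t) := mul_nonneg hx₀pos.le h5
    linarith
  have hlogN : 0 ≤ Real.log N := by linarith
  calc (75 / 2) * r * Real.log N = x₀ * ((3 / 8) * Real.log N) := by rw [hx₀]; ring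
    _ ≤ x₀ * (1 + M) := mul_le_mul_of_nonneg_left hM2 hx₀pos.le
    _ ≤ _ := hkey

end Numbers

variable {X : Type*} [Fintype X] [DecidableEq X] (F : Family (Equiv.Perm X))

/-- **The final sum**. -/
theorem Family.final_sum {c : ℝ} (hc : 1 / 100 ≤ c) (hn : 10 ^ 16 ≤ Fintype.card X)
    (s ℓ : Fin F.r → ℝ) (hs0 : ∀ i, 0 ≤ s i)
    (hs : ∀ i, i ≠ F.i0 → s i ≠ 0 → s i ≤ Real.exp (-ℓ i))
    (h1 : ∀ i, i ≠ F.i0 → s i ≠ 0 →
      c * ((F.level i : ℝ) * (1 + Real.log ((Fintype.card X : ℝ) / F.level i))) ≤ ℓ i)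
    (h2 : ∀ i, i ≠ F.i0 → s i ≠ 0 → Real.log (F.d i) ≤ 780 * ℓ i) :
    ∑ i ∈ Finset.univ.erase F.i0, (F.d i : ℝ) ^ 2 * s i ^ 1600 ≤ 2 / (Fintype.card X : ℝ) := by
  classical
  set n := Fintype.card X with hn_def
  set N : ℝ := (n : ℝ) with hN_def
  have hN : (10 : ℝ) ^ 16 ≤ N := by rw [hN_def]; exact_mod_cast hn
  have hNpos : 0 < N := by linarith [show (0 : ℝ) < 10 ^ 16 by positivity]
  set L := Real.log N with hL
  have hL8 : 8 * Real.log 100 ≤ L := log_bound hN
  have hlog1 := log_100_ge_one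
  have hL1 : 8 ≤ L := by linarith
  set Q : Fin F.r → ℝ := fun i => (F.d i : ℝ) ^ 2 * s i ^ 1600 with hQ
  have hQ0 : ∀ i, 0 ≤ Q i := fun i => mul_nonneg (by positivity) (pow_nonneg (hs0 i) _)
  -- the exponential form of the powers
  have hexpN : ∀ k : ℕ, (N : ℝ) ^ k = Real.exp (k * L) := by
    intro k
    rw [hL, mul_comm, Real.exp_mul, Real.exp_log hNpos, Real.rpow_natCast]
  have hs1600 : ∀ i, i ≠ F.i0 → s i ≠ 0 → s i ^ 1600 ≤ Real.exp (-(1600 * ℓ i)) := by
    intro i hi hsi
    calc s i ^ 1600 ≤ (Real.exp (-ℓ i)) ^ 1600 := pow_le_pow_left₀ (hs0 i) (hs i hi hsi) _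
      _ = Real.exp (-(1600 * ℓ i)) := by
          rw [← Real.exp_nat_mul]
          congr 1
          push_cast
          ring
  -- small levels
  have hsmall : ∀ i, i ≠ F.i0 → s i ≠ 0 → ((F.level i : ℝ) * F.level i ≤ 10 ^ 4 * N) →
      Q i ≤ Real.exp (-(4 * ((F.level i : ℝ) * L))) := by
    intro i hi hsi hsm
    set b : ℝ := (F.level i : ℝ) with hb
    have hb1 : 1 ≤ b := by rw [hb]; exact_mod_cast F.level_pos hi
    have h3 := small_log hN hb1 hsm
    have h4 := h1 i hi hsi
    have h5 : (1 / 100) * (b * ((3 / 8) * L)) ≤ ℓ i := by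
      refine le_trans ?_ h4
      have hbL : 0 ≤ b * ((3 / 8) * L) := by positivity
      calc (1 / 100) * (b * ((3 / 8) * L)) ≤ c * (b * ((3 / 8) * L)) :=
            mul_le_mul_of_nonneg_right hc hbL
        _ ≤ c * (b * (1 + Real.log (N / b))) := by
            apply mul_le_mul_of_nonneg_left _ (by linarith)
            exact mul_le_mul_of_nonneg_left h3 (by linarith)
    have h6 : (F.d i : ℝ) ^ 2 ≤ Real.exp (2 * (b * L)) := by
      have h7 : (F.d i : ℝ) ≤ N ^ F.level i := by rw [hN_def]; exact_mod_cast F.d_le_pow_level i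
      rw [hexpN] at h7
      calc (F.d i : ℝ) ^ 2 ≤ (Real.exp ((F.level i : ℝ) * L)) ^ 2 :=
            pow_le_pow_left₀ (by positivity) h7 2
        _ = _ := by
            rw [← Real.exp_nat_mul]
            congr 1
    calc Q i ≤ Real.exp (2 * (b * L)) * Real.exp (-(1600 * ℓ i)) :=
          mul_le_mul h6 (hs1600 i hi hsi) (pow_nonneg (hs0 i) _) (Real.exp_pos _).le
      _ = Real.exp (2 * (b * L) + -(1600 * ℓ i)) := (Real.exp_add _ _).symm
      _ ≤ _ := by
          apply Real.exp_le_exp.2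
          have : 6 * (b * L) ≤ 1600 * ℓ i := by linarith
          linarith
  -- large levels
  have hlarge : ∀ i, i ≠ F.i0 → s i ≠ 0 → ¬ ((F.level i : ℝ) * F.level i ≤ 10 ^ 4 * N) →
      Q i ≤ Real.exp (-(15 * (Real.sqrt N * L))) := by
    intro i hi hsi hla
    set b : ℝ := (F.level i : ℝ) with hb
    have hb1 : 1 ≤ b := by rw [hb]; exact_mod_cast F.level_pos hi
    have hbN : b ≤ N := by rw [hb, hN_def]; exact_mod_cast F.level_le_card i
    have h3 := large_log hN hbN hb1 (not_le.1 hla)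
    have h4 := h1 i hi hsi
    have hrt : 0 ≤ Real.sqrt N := Real.sqrt_nonneg _
    have h5 : (3 / 8) * (Real.sqrt N * L) ≤ ℓ i := by
      refine le_trans ?_ h4
      have hpos : 0 ≤ (75 / 2) * Real.sqrt N * L := by positivity
      calc (3 / 8) * (Real.sqrt N * L) = (1 / 100) * ((75 / 2) * Real.sqrt N * L) := by ring
        _ ≤ c * ((75 / 2) * Real.sqrt N * L) := mul_le_mul_of_nonneg_right hc hpos
        _ ≤ _ := mul_le_mul_of_nonneg_left h3 (by linarith)
    have hdpos : (0 : ℝ) < F.d i := by exact_mod_cast F.dpos i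
    have h6 : (F.d i : ℝ) ^ 2 ≤ Real.exp (1560 * ℓ i) := by
      have h7 : (F.d i : ℝ) ≤ Real.exp (780 * ℓ i) :=
        (Real.log_le_iff_le_exp hdpos).1 (h2 i hi hsi)
      calc (F.d i : ℝ) ^ 2 ≤ (Real.exp (780 * ℓ i)) ^ 2 := pow_le_pow_left₀ hdpos.le h7 2
        _ = _ := by
            rw [← Real.exp_nat_mul]
            congr 1
            push_cast
            ring
    calc Q i ≤ Real.exp (1560 * ℓ i) * Real.exp (-(1600 * ℓ i)) :=
          mul_le_mul h6 (hs1600 i hi hsi) (pow_nonneg (hs0 i) _) (Real.exp_pos _).le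
      _ = Real.exp (1560 * ℓ i + -(1600 * ℓ i)) := (Real.exp_add _ _).symm
      _ ≤ _ := by
          apply Real.exp_le_exp.2
          linarith
  -- the sets
  set I := Finset.univ.erase F.i0 with hI
  set Is := I.filter (fun i => s i ≠ 0 ∧ (F.level i : ℝ) * F.level i ≤ 10 ^ 4 * N) with hIs
  set Il := I.filter (fun i => s i ≠ 0 ∧ ¬ ((F.level i : ℝ) * F.level i ≤ 10 ^ 4 * N)) with hIl
  have hsplit : ∑ i ∈ I, Q i ≤ ∑ i ∈ Is, Q i + ∑ i ∈ Il, Q i := by
    have h3 : ∑ i ∈ I, Q i = ∑ i ∈ I.filter (fun i => s i ≠ 0), Q i := by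
      symm
      apply Finset.sum_filter_of_ne
      intro i _ hne hs
      apply hne
      simp [hQ, hs]
    rw [h3, ← Finset.sum_filter_add_sum_filter_not (I.filter (fun i => s i ≠ 0))
      (fun i => (F.level i : ℝ) * F.level i ≤ 10 ^ 4 * N), Finset.filter_filter, Finset.filter_filter]
  have hsqrt : 1 ≤ Real.sqrt N := by
    rw [Real.one_le_sqrt]
    linarith [show (1 : ℝ) ≤ 10 ^ 16 by norm_num]
  have hrr : Real.sqrt N * Real.sqrt N = N := Real.mul_self_sqrt hNpos.le
  -- the sum on small levels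
  have hSs : ∑ i ∈ Is, Q i ≤ 1 / N := by
    have hmaps : ∀ i ∈ Is, F.level i ∈ Finset.Icc 1 n := by
      intro i hi
      have hi' := Finset.ne_of_mem_erase (Finset.mem_filter.1 hi).1
      exact Finset.mem_Icc.2 ⟨F.level_pos hi', F.level_le_card i⟩
    rw [← Finset.sum_fiberwise_of_maps_to hmaps]
    have hb : ∀ b ∈ Finset.Icc 1 n, ∑ i ∈ Is.filter (fun i => F.level i = b), Q i ≤ Real.exp (-(3 * L)) := by
      intro b hb
      obtain ⟨hb1, hbn⟩ := Finset.mem_Icc.1 hb
      set S := Is.filter (fun i => F.level i = b) with hS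
      have hcard := F.card_level_eq_le b hbn S (fun i hi => (Finset.mem_filter.1 hi).2)
      by_cases hne : S.Nonempty
      · obtain ⟨i₁, hi₁⟩ := hne
        have hi₁' := Finset.mem_filter.1 hi₁
        have hi₂ := Finset.mem_filter.1 hi₁'.1
        have hsm : (b : ℝ) * b ≤ 10 ^ 4 * N := by
          have := hi₂.2.2
          rwa [hi₁'.2] at this
        -- `b + 1 ≤ n`
        have hbn1 : (b : ℝ) + 1 ≤ N := by
          by_contra hcon
          have h3 : N - 1 < (b : ℝ) := by linarith [not_le.1 hcon]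
          have h4 : (N - 1) * (N - 1) < (b : ℝ) * b := by
            apply mul_self_lt_mul_self _ h3
            linarith [show (1 : ℝ) ≤ 10 ^ 16 by norm_num]
          nlinarith [show (1 : ℝ) ≤ 10 ^ 16 by norm_num]
        have hcard2 : (S.card : ℝ) ≤ Real.exp ((b : ℝ) * L) := by
          have h3 : (S.card : ℝ) ≤ ((b : ℝ) + 1) ^ b := by exact_mod_cast hcard
          have h4 : ((b : ℝ) + 1) ^ b ≤ N ^ b := pow_le_pow_left₀ (by positivity) hbn1 _
          rw [hexpN] at h4
          exact h3.trans h4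
        have hQb : ∀ i ∈ S, Q i ≤ Real.exp (-(4 * ((b : ℝ) * L))) := by
          intro i hi
          have hi' := Finset.mem_filter.1 hi
          have hi2 := Finset.mem_filter.1 hi'.1
          have := hsmall i (Finset.ne_of_mem_erase hi2.1) hi2.2.1 hi2.2.2
          rwa [hi'.2] at this
        calc ∑ i ∈ S, Q i ≤ ∑ _i ∈ S, Real.exp (-(4 * ((b : ℝ) * L))) := Finset.sum_le_sum hQb
          _ = (S.card : ℝ) * Real.exp (-(4 * ((b : ℝ) * L))) := by
              rw [Finset.sum_const, nsmul_eq_mul]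
          _ ≤ Real.exp ((b : ℝ) * L) * Real.exp (-(4 * ((b : ℝ) * L))) :=
              mul_le_mul_of_nonneg_right hcard2 (Real.exp_pos _).le
          _ = Real.exp (-(3 * ((b : ℝ) * L))) := by
              rw [← Real.exp_add]
              congr 1
              ring
          _ ≤ _ := by
              apply Real.exp_le_exp.2
              have hb1' : (1 : ℝ) ≤ b := by exact_mod_cast hb1
              nlinarith
      · rw [Finset.not_nonempty_iff_eq_empty.1 hne]
        simp only [Finset.sum_empty]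
        exact (Real.exp_pos _).le
    calc ∑ b ∈ Finset.Icc 1 n, ∑ i ∈ Is.filter (fun i => F.level i = b), Q i
        ≤ ∑ _b ∈ Finset.Icc 1 n, Real.exp (-(3 * L)) := Finset.sum_le_sum hb
      _ = N * Real.exp (-(3 * L)) := by
          rw [Finset.sum_const, nsmul_eq_mul]
          simp [hN_def]
      _ ≤ 1 / N := by
          have h3 : Real.exp (-(3 * L)) = (N ^ 3)⁻¹ := by
            rw [Real.exp_neg, hexpN 3]
            norm_num
          rw [h3]
          have hN1 : 1 ≤ N := by linarith [show (1 : ℝ) ≤ 10 ^ 16 by norm_num]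
          rw [le_div_iff₀ hNpos]
          field_simp
          nlinarith
  -- the sum on large levels
  have hSl : ∑ i ∈ Il, Q i ≤ 1 / N := by
    set m := Nat.sqrt n + 1 with hm
    have hm2 : n < m * m := Nat.lt_succ_sqrt n
    have hr := F.r_le_perm m hm2
    have hmle : (m : ℝ) ≤ 2 * Real.sqrt N := by
      have h3 : ((Nat.sqrt n : ℕ) : ℝ) ≤ Real.sqrt N := by
        rw [hN_def]
        exact Real.nat_sqrt_le_real_sqrt
      rw [hm]
      push_cast
      linarith
    have hlogn1 : Real.log (N + 1) ≤ (3 / 2) * L := by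
      have h3 : N + 1 ≤ N * N := by nlinarith [show (1 : ℝ) ≤ 10 ^ 16 by norm_num]
      have h4 : N + 1 ≤ 100 * N := by nlinarith [show (1 : ℝ) ≤ 10 ^ 16 by norm_num]
      have h5 := Real.log_le_log (by positivity) h4
      rw [Real.log_mul (by norm_num) hNpos.ne'] at h5
      linarith
    have hcardIl : (Il.card : ℝ) ≤ Real.exp (6 * (Real.sqrt N * L)) := by
      have h3 : Il.card ≤ F.r := by
        have := Finset.card_le_univ Il
        simpa using this
      have h4 : (Il.card : ℝ) ≤ (N + 1) ^ m * (N + 1) ^ m := by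
        have : Il.card ≤ (n + 1) ^ m * (n + 1) ^ m := h3.trans hr
        rw [hN_def]
        exact_mod_cast this
      refine h4.trans ?_
      have h5 : (N + 1) ^ m = Real.exp ((m : ℝ) * Real.log (N + 1)) := by
        rw [mul_comm, Real.exp_mul, Real.exp_log (by positivity), Real.rpow_natCast]
      rw [h5, ← Real.exp_add]
      apply Real.exp_le_exp.2
      have h6 : 0 ≤ Real.log (N + 1) := Real.log_nonneg (by linarith [show (0 : ℝ) ≤ 10 ^ 16 by positivity])
      have h7 : (m : ℝ) * Real.log (N + 1) ≤ (2 * Real.sqrt N) * ((3 / 2) * L) :=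
        mul_le_mul hmle hlogn1 h6 (by positivity)
      nlinarith
    calc ∑ i ∈ Il, Q i ≤ ∑ _i ∈ Il, Real.exp (-(15 * (Real.sqrt N * L))) := by
          refine Finset.sum_le_sum fun i hi => ?_
          have hi2 := Finset.mem_filter.1 hi
          exact hlarge i (Finset.ne_of_mem_erase hi2.1) hi2.2.1 hi2.2.2
      _ = (Il.card : ℝ) * Real.exp (-(15 * (Real.sqrt N * L))) := by
          rw [Finset.sum_const, nsmul_eq_mul]
      _ ≤ Real.exp (6 * (Real.sqrt N * L)) * Real.exp (-(15 * (Real.sqrt N * L))) :=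
          mul_le_mul_of_nonneg_right hcardIl (Real.exp_pos _).le
      _ = Real.exp (-(9 * (Real.sqrt N * L))) := by
          rw [← Real.exp_add]
          congr 1
          ring
      _ ≤ Real.exp (-L) := by
          apply Real.exp_le_exp.2
          nlinarith
      _ = 1 / N := by
          rw [Real.exp_neg, hL, Real.exp_log hNpos, one_div]
  calc ∑ i ∈ I, Q i ≤ 1 / N + 1 / N := hsplit.trans (add_le_add hSs hSl)
    _ = 2 / N := by ring

end Crest.Agent.S0222Lib.Planch
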