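import Crest.Agent.S0222Lib.PlanchCount

/-!
# S0222: the level of an irreducible representation of a symmetric group

`F.level i`: the least `b` such that `V_i` has a nonzero vector fixed by the pointwise stabiliser of an
injective `b`-tuple.

* `Family.level_pos`: the level of a non-trivial representation is at least one;
* `Family.mem_fixedIdx_of_hasLevel`: conjugate tuples have conjugate stabilisers, so any tuple will do;
* `Family.d_le_pow_level`: `d_i ≤ n ^ level`;
* `Family.card_level_eq_le`: there are at most `(b+1)^b` representations of level `b`.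
-/

set_option autoImplicit false
set_option linter.unusedSectionVars false

namespace Crest.Agent.S0222Lib.Planch

open Finset Matrix
open scoped ComplexOrder

section Orbit

variable {G : Type*} [Group G] [Fintype G] [DecidableEq G]
variable {Ω : Type*} [Fintype Ω] [DecidableEq Ω] [MulAction G Ω]

/-- The orbit of a point as a finset. -/
noncomputable def orbitF (G : Type*) [Group G] [MulAction G Ω] (ω₀ : Ω) : Finset Ω := by
  classical exact Finset.univ.filter (fun ω => ∃ g : G, g • ω₀ = ω)

lemma mem_orbitF {ω₀ ω : Ω} : ω ∈ orbitF G ω₀ ↔ ∃ g : G, g • ω₀ = ω := by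
  classical simp [orbitF]

variable (F : Family G) (i : Fin F.r) {v' : Fin (F.d i) → ℂ}

lemma pos_nsq {n : Type*} [Fintype n] {v : n → ℂ} (hv0 : v ≠ 0) : 0 < nsq v := by
  have h3 : star v ⬝ᵥ v ≠ 0 := fun h => hv0 (dotProduct_star_self_eq_zero.1 h)
  rw [dot_star_self] at h3
  have h4 : nsq v ≠ 0 := fun h => h3 (by rw [h]; simp)
  exact lt_of_le_of_ne (nsq_nonneg _) h4.symm

lemma nsq_eq_zero_iff {n : Type*} [Fintype n] {v : n → ℂ} : nsq v = 0 ↔ v = 0 := by
  constructor
  · intro h
    by_contra hv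
    exact (pos_nsq hv).ne' h
  · rintro rfl
    simp [nsq]

/-- `Φ` is injective. -/
lemma Family.Phi_injective {ω₀ : Ω} (hv : ∀ g : G, g • ω₀ = ω₀ → (F.R i).ρ g *ᵥ v' = v')
    (hv0 : v' ≠ 0) : Function.Injective (Phi (F.R i) ω₀ v') := by
  rw [injective_iff_map_eq_zero]
  intro u hu
  have h := F.nsq_Phi i hv u
  rw [hu] at h
  have h0 : nsq (0 : Ω → ℂ) = 0 := nsq_eq_zero_iff.2 rfl
  rw [h0, mul_zero] at h
  have hk : 0 < (Fintype.card G : ℝ) / (F.d i : ℝ) * nsq v' := by
    have hc : (0 : ℝ) < Fintype.card G := by exact_mod_cast Fintype.card_pos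
    have hd : (0 : ℝ) < F.d i := by exact_mod_cast F.dpos i
    have := pos_nsq hv0
    positivity
  have : nsq u = 0 := by
    rcases mul_eq_zero.1 h.symm with h1 | h1
    · exact absurd h1 hk.ne'
    · exact h1
  exact nsq_eq_zero_iff.1 this

/-- **The dimension is at most the size of the orbit.** -/
theorem Family.d_le_orbit {ω₀ : Ω} (hv : ∀ g : G, g • ω₀ = ω₀ → (F.R i).ρ g *ᵥ v' = v')
    (hv0 : v' ≠ 0) : F.d i ≤ (orbitF G ω₀).card := by
  classical
  -- restrict the functions to the orbit
  let res : (Ω → ℂ) →ₗ[ℂ] ({ω // ω ∈ orbitF G ω₀} → ℂ) :=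
    { toFun := fun f ω => f ω.1
      map_add' := fun _ _ => rfl
      map_smul' := fun _ _ => rfl }
  have hinj : Function.Injective (res ∘ₗ Phi (F.R i) ω₀ v') := by
    rw [injective_iff_map_eq_zero]
    intro u hu
    apply F.Phi_injective i hv hv0
    rw [map_zero]
    funext ω
    by_cases hω : ∃ g : G, g • ω₀ = ω
    · exact congrFun hu ⟨ω, mem_orbitF.2 hω⟩
    · exact Phi_off _ hω
  have := LinearMap.finrank_le_finrank_of_injective hinj
  simpa using this

end Orbit

section Level

variable {X : Type*} [Fintype X] [DecidableEq X] (F : Family (Equiv.Perm X))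

/-- `V_i` has a nonzero vector fixed by the pointwise stabiliser of an injective `b`-tuple. -/
def Family.HasLevel (i : Fin F.r) (b : ℕ) : Prop :=
  ∃ a : Fin b → X, Function.Injective a ∧ i ∈ F.fixedIdx (ptStab a)

lemma Family.hasLevel_card (i : Fin F.r) : F.HasLevel i (Fintype.card X) := by
  classical
  let e := (Fintype.equivFin X).symm
  refine ⟨e, e.injective, F.mem_fixedIdx.2 ?_⟩
  have h1 : ∀ h ∈ ptStab (e : Fin (Fintype.card X) → X), h = 1 := by
    intro h hh
    ext x
    obtain ⟨j, rfl⟩ := e.surjective x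
    exact hh j
  let w : Fin (F.d i) → ℂ := Pi.single ⟨0, F.dpos i⟩ 1
  refine ⟨w, ?_, ?_⟩
  · intro hw
    have := congrFun hw ⟨0, F.dpos i⟩
    simp [w] at this
  · intro h hh
    rw [h1 h hh]
    simp

open Classical in
/-- The level of a representation. -/
noncomputable def Family.level (i : Fin F.r) : ℕ :=
  Nat.find (⟨_, F.hasLevel_card i⟩ : ∃ b, F.HasLevel i b)

lemma Family.level_spec (i : Fin F.r) : F.HasLevel i (F.level i) := by
  classical
  exact Nat.find_spec (⟨_, F.hasLevel_card i⟩ : ∃ b, F.HasLevel i b)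

lemma Family.level_min (i : Fin F.r) {b : ℕ} (hb : b < F.level i) : ¬ F.HasLevel i b := by
  classical
  exact Nat.find_min (⟨_, F.hasLevel_card i⟩ : ∃ b, F.HasLevel i b) hb

lemma Family.level_le_card (i : Fin F.r) : F.level i ≤ Fintype.card X := by
  classical
  exact Nat.find_min' (⟨_, F.hasLevel_card i⟩ : ∃ b, F.HasLevel i b) (F.hasLevel_card i)

/-- Conjugating a tuple: the level does not depend on the tuple. -/
theorem Family.mem_fixedIdx_of_hasLevel {i : Fin F.r} {b : ℕ} (h : F.HasLevel i b)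
    {a : Fin b → X} (ha : Function.Injective a) : i ∈ F.fixedIdx (ptStab a) := by
  obtain ⟨a', ha', hi⟩ := h
  obtain ⟨w, hw0, hw⟩ := F.mem_fixedIdx.1 hi
  obtain ⟨π, hπ⟩ := exists_perm_extend a' a ha' ha
  refine F.mem_fixedIdx.2 ⟨(F.R i).ρ π *ᵥ w, ?_, ?_⟩
  · intro h0
    apply hw0
    have h1 : (F.R i).ρ π⁻¹ *ᵥ ((F.R i).ρ π *ᵥ w) = w := by
      rw [Matrix.mulVec_mulVec, ← map_mul]
      simp
    rw [← h1, h0, Matrix.mulVec_zero]
  · intro h hh
    have hk : π⁻¹ * h * π ∈ ptStab a' := by
      intro j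
      simp only [Equiv.Perm.mul_apply, hπ]
      rw [hh j, Equiv.Perm.inv_eq_iff_eq, hπ]
    have h1 := hw _ hk
    calc (F.R i).ρ h *ᵥ ((F.R i).ρ π *ᵥ w) = (F.R i).ρ π *ᵥ ((F.R i).ρ (π⁻¹ * h * π) *ᵥ w) := by
          simp only [Matrix.mulVec_mulVec, ← map_mul]
          congr 2
          group
      _ = _ := by rw [h1]

/-- The level of a non-trivial representation is positive. -/
theorem Family.level_pos {i : Fin F.r} (hi : i ≠ F.i0) : 1 ≤ F.level i := by
  classical
  by_contra hcon
  have h0 : F.level i = 0 := by omega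
  have hl := F.level_spec i
  rw [h0] at hl
  obtain ⟨a, _, hfix⟩ := hl
  obtain ⟨w, hw0, hw⟩ := F.mem_fixedIdx.1 hfix
  have hall : ∀ g, (F.R i).ρ g *ᵥ w = w := fun g => hw g (fun j => j.elim0)
  have h1 := congrArg (fun M => M *ᵥ w) (F.sum_rho i hi)
  simp only [Matrix.sum_mulVec, hall, Matrix.zero_mulVec, Finset.sum_const, Finset.card_univ] at h1
  have h2 := (smul_eq_zero.1 h1).resolve_right hw0
  exact Fintype.card_ne_zero h2

/-- The dimension at level `b`. -/
theorem Family.d_le_pow_level (i : Fin F.r) : F.d i ≤ Fintype.card X ^ F.level i := by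
  classical
  obtain ⟨a, _, hfix⟩ := F.level_spec i
  obtain ⟨w, hw0, hw⟩ := F.mem_fixedIdx.1 hfix
  have h1 := F.d_le_orbit i (ω₀ := a) (v' := w) (fun g hg => hw g (fun j => by
    have := congrFun hg j
    simpa using this)) hw0
  refine h1.trans ?_
  refine (Finset.card_le_univ _).trans ?_
  simp

/-- The number of representations of level exactly `b`. -/
theorem Family.card_level_eq_le (b : ℕ) (hb : b ≤ Fintype.card X) (S : Finset (Fin F.r))
    (hS : ∀ i ∈ S, F.level i = b) : S.card ≤ (b + 1) ^ b := by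
  classical
  obtain ⟨a⟩ : Nonempty (Fin b ↪ X) := Function.Embedding.nonempty_of_card_le (by simpa using hb)
  refine le_trans (Finset.card_le_card ?_) (F.card_level_le a a.injective)
  intro i hi
  have h1 := F.level_spec i
  rw [hS i hi] at h1
  exact F.mem_fixedIdx_of_hasLevel h1 a.injective

end Level

end Crest.Agent.S0222Lib.Planch
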