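import Crest.Agent.S0222Lib.JInv

/-!
# S0222: the graded (Koszul signed) word representation

For a parity `od : L → Bool` on letters and a rank `rk : X → ℕ` (an order on positions):
`(rhoS g f)(w) = epsS g w · f (w ∘ g)`, with `epsS g w` the sign of the map `g⁻¹` on the odd positions of `w`.
* `epsS_mul` (the cocycle law), `rhoS_mul`, `rhoS_one`, `rhoS_conjTranspose`: a unitary representation;
* `rhoS_mul_tp_const`: it commutes with tensor powers of even operators;
* `rhoS_mul_dp`: it moves diagonal projections like the plain representation.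
-/

set_option autoImplicit false
set_option linter.unusedSectionVars false
set_option linter.unusedSimpArgs false

namespace Crest.Agent.S0222Lib.SWord

open Matrix MonoidAlgebra
open scoped Kronecker ComplexOrder
open Crest.Agent.S0222Lib.Site Crest.Agent.S0222Lib.WordRep Crest.Agent.S0222Lib.JCore

section Cocycle

variable {X L : Type*} [Fintype X] [DecidableEq X] [Fintype L] [DecidableEq L]
  (rk : X → ℕ) (od : L → Bool)

/-- The sign of the order of two positions. -/
def tauR (a b : X) : ℂ := if rk a < rk b then 1 else -1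

lemma tauR_mul_self (a b : X) : tauR rk a b * tauR rk a b = 1 := by
  unfold tauR
  split_ifs <;> simp

lemma tauR_star (a b : X) : star (tauR rk a b) = tauR rk a b := by
  unfold tauR
  split_ifs <;> simp

lemma tauR_anti {rk : X → ℕ} (hrk : Function.Injective rk) {a b : X} (h : a ≠ b) :
    tauR rk b a = - tauR rk a b := by
  unfold tauR
  have hne : rk a ≠ rk b := fun e => h (hrk e)
  rcases lt_or_gt_of_ne hne with h1 | h1
  · simp [h1, not_lt.2 h1.le]
  · simp [h1, not_lt.2 h1.le]

/-- The sign of `g⁻¹` on the odd positions of `w`. -/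
noncomputable def epsS (g : Equiv.Perm X) (w : X → L) : ℂ :=
  ∏ p : X × X, if rk p.1 < rk p.2 ∧ od (w p.1) = true ∧ od (w p.2) = true then
    tauR rk (g⁻¹ p.1) (g⁻¹ p.2) else 1

lemma epsS_mul_self (g : Equiv.Perm X) (w : X → L) : epsS rk od g w * epsS rk od g w = 1 := by
  unfold epsS
  rw [← Finset.prod_mul_distrib]
  refine Finset.prod_eq_one (fun p _ => ?_)
  split_ifs
  · exact tauR_mul_self _ _ _
  · simp

lemma epsS_star (g : Equiv.Perm X) (w : X → L) : star (epsS rk od g w) = epsS rk od g w := by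
  unfold epsS
  rw [star_prod]
  refine Finset.prod_congr rfl (fun p _ => ?_)
  split_ifs
  · exact tauR_star _ _ _
  · simp

lemma epsS_ne_zero (g : Equiv.Perm X) (w : X → L) : epsS rk od g w ≠ 0 := by
  intro h
  have := epsS_mul_self rk od g w
  rw [h] at this
  simp at this

lemma epsS_congr {w w' : X → L} (h : ∀ x, od (w x) = od (w' x)) (g : Equiv.Perm X) :
    epsS rk od g w = epsS rk od g w' := by
  unfold epsS
  simp only [h]

lemma epsS_one (w : X → L) : epsS rk od 1 w = 1 := by
  unfold epsS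
  refine Finset.prod_eq_one (fun p _ => ?_)
  split_ifs with h
  · simp [tauR, h.1]
  · rfl

/-- Splitting a product over ordered pairs along the order. -/
lemma prod_pairs {rk : X → ℕ} (hrk : Function.Injective rk) (G : X → X → ℂ)
    (hG : ∀ x, G x x = 1) :
    ∏ p : X × X, G p.1 p.2 =
      ∏ p : X × X, if rk p.1 < rk p.2 then G p.1 p.2 * G p.2 p.1 else 1 := by
  have h1 : ∀ p : X × X, G p.1 p.2 =
      (if rk p.1 < rk p.2 then G p.1 p.2 else 1) * (if rk p.2 < rk p.1 then G p.1 p.2 else 1) := by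
    rintro ⟨x, y⟩
    by_cases hxy : x = y
    · subst hxy
      simp [hG]
    · have hne : rk x ≠ rk y := fun e => hxy (hrk e)
      rcases lt_or_gt_of_ne hne with h | h
      · simp [h, not_lt.2 h.le]
      · simp [h, not_lt.2 h.le]
  rw [Finset.prod_congr rfl (fun p _ => h1 p), Finset.prod_mul_distrib]
  have h2 : ∏ p : X × X, (if rk p.2 < rk p.1 then G p.1 p.2 else 1) =
      ∏ p : X × X, (if rk p.1 < rk p.2 then G p.2 p.1 else 1) :=
    Equiv.prod_comp (Equiv.prodComm X X) (fun p : X × X => if rk p.2 < rk p.1 then G p.1 p.2 else 1) ▸ rfl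
  rw [h2, ← Finset.prod_mul_distrib]
  refine Finset.prod_congr rfl (fun p _ => ?_)
  split_ifs <;> simp

/-- Changing the order used to select the pairs. -/
lemma prod_change_order {rk a : X → ℕ} (hrk : Function.Injective rk) (ha : Function.Injective a)
    (A : X → X → Prop) [∀ x y, Decidable (A x y)] (hA : ∀ x y, A x y ↔ A y x) (f : X → X → ℂ) :
    (∏ p : X × X, if a p.1 < a p.2 ∧ A p.1 p.2 then f p.1 p.2 else 1) =
      ∏ p : X × X, if rk p.1 < rk p.2 ∧ A p.1 p.2 then
        (if a p.1 < a p.2 then f p.1 p.2 else f p.2 p.1) else 1 := by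
  rw [prod_pairs hrk (fun x y => if a x < a y ∧ A x y then f x y else 1) (by simp)]
  refine Finset.prod_congr rfl (fun p _ => ?_)
  obtain ⟨x, y⟩ := p
  by_cases h1 : rk x < rk y
  · simp only [h1, true_and, if_true]
    have hne : a x ≠ a y := by
      intro e
      have : x = y := ha e
      subst this
      exact lt_irrefl _ h1
    by_cases hA' : A x y
    · have hA2 : A y x := (hA x y).1 hA'
      rcases lt_or_gt_of_ne hne with h | h
      · simp [h, not_lt.2 h.le, hA', hA2]
      · simp [h, not_lt.2 h.le, hA', hA2]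
    · have hA2 : ¬ A y x := fun h => hA' ((hA x y).2 h)
      simp [hA', hA2]
  · simp [h1]

/-- **The cocycle law.** -/
theorem epsS_mul {rk : X → ℕ} (hrk : Function.Injective rk) (g h : Equiv.Perm X) (w : X → L) :
    epsS rk od (g * h) w = epsS rk od g w * epsS rk od h (w ∘ g) := by
  classical
  set a : X → ℕ := fun x => rk (g⁻¹ x) with ha
  have haI : Function.Injective a := fun x y e => g⁻¹.injective (hrk e)
  set A : X → X → Prop := fun x y => od (w x) = true ∧ od (w y) = true with hA
  set f : X → X → ℂ := fun x y => tauR rk (h⁻¹ (g⁻¹ x)) (h⁻¹ (g⁻¹ y)) with hf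
  have e1 : epsS rk od h (w ∘ g) =
      ∏ p : X × X, if a p.1 < a p.2 ∧ A p.1 p.2 then f p.1 p.2 else 1 := by
    unfold epsS
    rw [← Equiv.prod_comp (Equiv.prodCongr g⁻¹ g⁻¹)]
    refine Finset.prod_congr rfl (fun p _ => ?_)
    simp only [Equiv.prodCongr_apply, Prod.map_apply, Function.comp, ha, hA, hf]
    have e3 : ∀ x : X, g (g⁻¹ x) = x := fun x => by simp
    simp only [Prod.map_fst, Prod.map_snd, e3]
  rw [e1, prod_change_order hrk haI A (fun x y => by simp only [hA]; tauto) f]
  unfold epsS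
  rw [← Finset.prod_mul_distrib]
  refine Finset.prod_congr rfl (fun p _ => ?_)
  obtain ⟨x, y⟩ := p
  by_cases h1 : rk x < rk y ∧ od (w x) = true ∧ od (w y) = true
  · have hA' : A x y := h1.2
    rw [if_pos h1, if_pos h1, if_pos (⟨h1.1, hA'⟩ : rk x < rk y ∧ A x y)]
    have hxy : x ≠ y := by
      rintro rfl
      exact lt_irrefl _ h1.1
    have hg1 : g⁻¹ x ≠ g⁻¹ y := fun e => hxy (g⁻¹.injective e)
    have hg2 : (h⁻¹) (g⁻¹ y) ≠ (h⁻¹) (g⁻¹ x) := fun e => hg1 (h⁻¹.injective e).symm
    have hgh : ∀ z, (g * h)⁻¹ z = h⁻¹ (g⁻¹ z) := fun z => by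
      rw [_root_.mul_inv_rev]
      rfl
    by_cases h2 : a x < a y
    · rw [if_pos h2]
      have : tauR rk (g⁻¹ x) (g⁻¹ y) = 1 := by
        simp only [tauR]
        rw [if_pos h2]
      rw [this, one_mul, hgh, hgh]
    · rw [if_neg h2]
      have : tauR rk (g⁻¹ x) (g⁻¹ y) = -1 := by
        simp only [tauR]
        rw [if_neg h2]
      rw [this, hgh, hgh]
      simp only [hf]
      rw [tauR_anti hrk hg2]
      ring
  · rw [if_neg h1, if_neg h1, if_neg]
    · simp
    · rintro ⟨h3, h4⟩
      exact h1 ⟨h3, h4⟩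

/-- The graded action of a permutation on functions on words. -/
noncomputable def rhoS (g : Equiv.Perm X) : Matrix (X → L) (X → L) ℂ :=
  Matrix.of fun w w' => if w' = w ∘ g then epsS rk od g w else 0

@[simp] lemma rhoS_apply (g : Equiv.Perm X) (w w' : X → L) :
    rhoS rk od g w w' = if w' = w ∘ g then epsS rk od g w else 0 := rfl

lemma rhoS_mul_apply (g : Equiv.Perm X) {m : Type*} [Fintype m] (A : Matrix (X → L) m ℂ)
    (w : X → L) (q : m) : (rhoS rk od g * A) w q = epsS rk od g w * A (w ∘ g) q := by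
  simp only [Matrix.mul_apply, rhoS_apply]
  rw [Finset.sum_eq_single (w ∘ g)]
  · simp
  · intro b _ hb; simp [hb]
  · simp

lemma mul_rhoS_apply (g : Equiv.Perm X) {m : Type*} [Fintype m] (A : Matrix m (X → L) ℂ)
    (p : m) (w' : X → L) :
    (A * rhoS rk od g) p w' = A p (w' ∘ ⇑g⁻¹) * epsS rk od g (w' ∘ ⇑g⁻¹) := by
  simp only [Matrix.mul_apply, rhoS_apply]
  rw [Finset.sum_eq_single (w' ∘ ⇑g⁻¹)]
  · have : w' = w' ∘ ⇑g⁻¹ ∘ ⇑g := by funext x; simp
    rw [if_pos (by simpa [Function.comp_assoc] using this)]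
  · intro b _ hb
    rw [if_neg, mul_zero]
    intro h
    apply hb
    rw [h]
    funext x
    simp
  · simp

@[simp] lemma rhoS_one : rhoS rk od (1 : Equiv.Perm X) = 1 := by
  ext w w'
  simp only [rhoS_apply, Matrix.one_apply, epsS_one]
  by_cases h : w = w'
  · subst h; simp
  · rw [if_neg h, if_neg]
    intro h2
    apply h
    rw [h2]
    rfl

lemma rhoS_mul {rk : X → ℕ} (hrk : Function.Injective rk) (g h : Equiv.Perm X) :
    rhoS rk od (g * h) = rhoS rk od g * rhoS rk od h := by
  ext w w'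
  rw [rhoS_mul_apply]
  simp only [rhoS_apply]
  rw [epsS_mul od hrk]
  by_cases e : w' = w ∘ (g * h)
  · rw [if_pos e, if_pos]
    exact e
  · rw [if_neg e, if_neg]
    · simp
    · exact e

lemma rhoS_mul_inv {rk : X → ℕ} (hrk : Function.Injective rk) (g : Equiv.Perm X) :
    rhoS rk od g * rhoS rk od g⁻¹ = 1 := by
  rw [← rhoS_mul od hrk, mul_inv_cancel, rhoS_one]

lemma rhoS_inv_mul {rk : X → ℕ} (hrk : Function.Injective rk) (g : Equiv.Perm X) :
    rhoS rk od g⁻¹ * rhoS rk od g = 1 := by
  rw [← rhoS_mul od hrk, inv_mul_cancel, rhoS_one]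

lemma epsS_inv {rk : X → ℕ} (hrk : Function.Injective rk) (g : Equiv.Perm X) (w : X → L) :
    epsS rk od g⁻¹ w = epsS rk od g (w ∘ ⇑g⁻¹) := by
  have h1 := epsS_mul od hrk g⁻¹ g w
  rw [inv_mul_cancel, epsS_one] at h1
  have h2 := epsS_mul_self rk od g (w ∘ ⇑g⁻¹)
  calc epsS rk od g⁻¹ w = epsS rk od g⁻¹ w * (epsS rk od g (w ∘ ⇑g⁻¹) * epsS rk od g (w ∘ ⇑g⁻¹)) := by
        rw [h2, mul_one]
    _ = (epsS rk od g⁻¹ w * epsS rk od g (w ∘ ⇑g⁻¹)) * epsS rk od g (w ∘ ⇑g⁻¹) := by ring
    _ = _ := by rw [← h1, one_mul]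

lemma rhoS_conjTranspose {rk : X → ℕ} (hrk : Function.Injective rk) (g : Equiv.Perm X) :
    (rhoS rk od g)ᴴ = rhoS rk od g⁻¹ := by
  ext w w'
  simp only [conjTranspose_apply, rhoS_apply]
  by_cases h : w = w' ∘ g
  · have h' : w' = w ∘ ⇑g⁻¹ := by rw [h]; funext x; simp
    rw [if_pos h, if_pos h', epsS_star, epsS_inv od hrk, h']
  · rw [if_neg h, if_neg]
    · simp
    · intro h2
      apply h
      rw [h2]
      funext x
      simp

/-- Graded action moves diagonal projections like the plain action. -/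
lemma rhoS_mul_dp (g : Equiv.Perm X) (Q : (X → L) → Prop) :
    rhoS rk od g * dp Q = dp (fun w => Q (w ∘ g)) * rhoS rk od g := by
  classical
  ext w w'
  rw [mul_dp_apply, dp_mul_apply, rhoS_apply]
  by_cases h : w' = w ∘ g
  · subst h
    simp
  · simp [h]

variable {od}

/-- **Even operators**: tensor powers of even matrices commute with the graded action. -/
lemma rhoS_mul_tp_const {a : Matrix L L ℂ} (ha : EvenM od a) (g : Equiv.Perm X) :
    rhoS rk od g * tp (fun _ : X => a) = tp (fun _ : X => a) * rhoS rk od g := by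
  ext w w'
  rw [rhoS_mul_apply, mul_rhoS_apply]
  have h1 : tp (fun _ : X => a) (w ∘ g) w' = tp (fun _ : X => a) w (w' ∘ ⇑g⁻¹) := by
    have := tp_const_reindex a g w (w' ∘ ⇑g⁻¹)
    rw [← this]
    congr 1
    funext x
    simp
  rw [h1]
  by_cases h0 : tp (fun _ : X => a) w (w' ∘ ⇑g⁻¹) = 0
  · rw [h0]
    simp
  · have hpat : ∀ x, od (w x) = od ((w' ∘ ⇑g⁻¹) x) := by
      intro x
      apply ha
      intro h00
      apply h0
      simp only [tp_apply]
      exact Finset.prod_eq_zero (Finset.mem_univ x) h00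
    rw [epsS_congr rk od hpat, mul_comm]

end Cocycle

end Crest.Agent.S0222Lib.SWord
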