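import Crest.Agent.S0222Lib.SWord

/-!
# S0222: the graded word representation on bit vectors

The rank `bval` (top bit most significant).  In pair word coordinates:
* `epsS_joinP`, `reindex_rhoS_joinP`: the graded action of `joinP s₀ s₁` is `rhoS s₀ ⊗ rhoS s₁`;
* `epsS_flipT`, `reindex_rhoS_flipT`: the graded action of the top flip `flipT c` is
  `J (⊗_u (swS if c u else 1)) J` with the diagonal signs `J = diagonal (jS od)`;
* `avg_flips`: the average of the top flips is `J P J`, `P = tp (const (PiS od))`.
-/

set_option autoImplicit false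
set_option linter.unusedSectionVars false
set_option linter.unusedSimpArgs false

namespace Crest.Agent.S0222Lib.SWord

open Matrix MonoidAlgebra
open scoped Kronecker ComplexOrder
open Crest.Agent.S0222Lib.Site Crest.Agent.S0222Lib.WordRep Crest.Agent.S0222Lib.JCore

section Rank

/-- The value of a bit vector, the top bit being the most significant. -/
def bval : {D : ℕ} → B D → ℕ
  | 0, _ => 0
  | D + 1, x => bval (ini x) + (if topB x then 2 ^ D else 0)

variable {D : ℕ}

lemma bval_snoc (u : B D) (b : Bool) : bval (snocB u b) = bval u + (if b then 2 ^ D else 0) := by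
  simp [bval]

lemma bval_lt : ∀ {D : ℕ} (u : B D), bval u < 2 ^ D
  | 0, _ => by simp [bval]
  | D + 1, x => by
    have := bval_lt (ini x)
    simp only [bval, pow_succ]
    split_ifs <;> omega

lemma bval_injective : ∀ {D : ℕ}, Function.Injective (bval (D := D))
  | 0, x, y, _ => Subsingleton.elim x y
  | D + 1, x, y, h => by
    have hx := bval_lt (ini x)
    have hy := bval_lt (ini y)
    simp only [bval] at h
    have ht : topB x = topB y := by
      cases hxt : topB x <;> cases hyt : topB y <;> simp [hxt, hyt] at h ⊢ <;> omega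
    have hi : bval (ini x) = bval (ini y) := by
      rw [ht] at h
      omega
    exact B_ext_top (bval_injective hi) ht

lemma bval_snoc_lt (u u' : B D) (b b' : Bool) :
    bval (snocB u b) < bval (snocB u' b') ↔
      ((b = false ∧ b' = true) ∨ (b = b' ∧ bval u < bval u')) := by
  have h := bval_lt u
  have h' := bval_lt u'
  rw [bval_snoc, bval_snoc]
  cases b <;> cases b' <;> simp <;> omega

end Rank

section Split

variable {D : ℕ} {L : Type*} [Fintype L] [DecidableEq L] (od : L → Bool)

lemma prod_B_succ_pairs (F : B (D + 1) × B (D + 1) → ℂ) :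
    ∏ p, F p = ∏ p : B D × B D,
      (F (snocB p.1 false, snocB p.2 false) * F (snocB p.1 false, snocB p.2 true) *
        (F (snocB p.1 true, snocB p.2 false) * F (snocB p.1 true, snocB p.2 true))) := by
  rw [Fintype.prod_prod_type, Fintype.prod_prod_type, prod_B_succ]
  refine Finset.prod_congr rfl (fun u _ => ?_)
  rw [prod_B_succ, prod_B_succ, ← Finset.prod_mul_distrib]

lemma joinP_inv_snoc (s₀ s₁ : Equiv.Perm (B D)) (u : B D) (b : Bool) :
    (joinP s₀ s₁)⁻¹ (snocB u b) = snocB ((if b then s₁⁻¹ else s₀⁻¹) u) b := by
  rw [Equiv.Perm.inv_eq_iff_eq]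
  simp only [joinP_apply, ini_snocB, topB_snocB]
  cases b <;> simp

/-- The graded sign of a permutation preserving the halves. -/
theorem epsS_joinP (s₀ s₁ : Equiv.Perm (B D)) (w : B (D + 1) → L) :
    epsS bval od (joinP s₀ s₁) w =
      epsS bval od s₀ (fun u => (pairE L D w u).1) * epsS bval od s₁ (fun u => (pairE L D w u).2) := by
  unfold epsS
  rw [prod_B_succ_pairs, ← Finset.prod_mul_distrib]
  refine Finset.prod_congr rfl (fun p _ => ?_)
  obtain ⟨u, u'⟩ := p
  simp only [bval_snoc_lt, joinP_inv_snoc, Bool.false_eq_true, if_true, if_false, pairE_apply]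
  have hτ : ∀ a b : B D, ∀ c : Bool, tauR bval (snocB a c) (snocB b c) = tauR bval a b := by
    intro a b c
    unfold tauR
    simp [bval_snoc_lt]
  have h01 : ∀ a b : B D, tauR bval (snocB a false) (snocB b true) = 1 := by
    intro a b
    unfold tauR
    simp [bval_snoc_lt]
  simp only [hτ, h01]
  by_cases hA : bval u < bval u' ∧ od (w (snocB u false)) = true ∧ od (w (snocB u' false)) = true <;>
    by_cases hB : bval u < bval u' ∧ od (w (snocB u true)) = true ∧ od (w (snocB u' true)) = true <;>
    simp [hA, hB]

/-- The Koszul sign of the rearrangement of a pair word. -/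
noncomputable def jS (v : B D → L × L) : ℂ :=
  ∏ p : B D × B D, if bval p.1 < bval p.2 ∧ od (v p.1).2 = true ∧ od (v p.2).1 = true then -1 else 1

lemma jS_mul_self (v : B D → L × L) : jS od v * jS od v = 1 := by
  unfold jS
  rw [← Finset.prod_mul_distrib]
  refine Finset.prod_eq_one (fun p _ => ?_)
  split_ifs <;> simp

lemma jS_star (v : B D → L × L) : star (jS od v) = jS od v := by
  unfold jS
  rw [star_prod]
  refine Finset.prod_congr rfl (fun p _ => ?_)
  split_ifs <;> simp

lemma jS_congr {v v' : B D → L × L}
    (h : ∀ p, od (v p).1 = od (v' p).1 ∧ od (v p).2 = od (v' p).2) : jS od v = jS od v' := by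
  unfold jS
  refine Finset.prod_congr rfl (fun p _ => ?_)
  simp only [(h p.1).2, (h p.2).1]

/-- A product over pairs with the diagonal split off. -/
lemma prod_pairs_diag {X : Type*} [Fintype X] [DecidableEq X] {rk : X → ℕ}
    (hrk : Function.Injective rk) (G : X → X → ℂ) :
    ∏ p : X × X, G p.1 p.2 = (∏ x, G x x) *
      ∏ p : X × X, if rk p.1 < rk p.2 then G p.1 p.2 * G p.2 p.1 else 1 := by
  have h1 : ∀ p : X × X, G p.1 p.2 =
      (if p.1 = p.2 then G p.1 p.1 else 1) * (if p.1 = p.2 then 1 else G p.1 p.2) := by
    rintro ⟨x, y⟩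
    by_cases h : x = y
    · subst h; simp
    · simp [h]
  rw [Finset.prod_congr rfl (fun p _ => h1 p), Finset.prod_mul_distrib]
  congr 1
  · rw [Fintype.prod_prod_type]
    refine Finset.prod_congr rfl (fun x _ => ?_)
    rw [Finset.prod_ite_eq]
    simp
  · rw [prod_pairs hrk (fun x y => if x = y then 1 else G x y) (by simp)]
    refine Finset.prod_congr rfl (fun p _ => ?_)
    obtain ⟨x, y⟩ := p
    by_cases h : rk x < rk y
    · have hxy : x ≠ y := by
        rintro rfl
        exact lt_irrefl _ h
      simp [h, hxy, Ne.symm hxy]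
    · simp [h]

lemma flipT_inv (c : Coin D) : (flipT c)⁻¹ = flipT c := rfl

lemma flipT_snoc (c : Coin D) (u : B D) (b : Bool) :
    flipT c (snocB u b) = snocB u (xor b (c u)) := by
  simp

/-- The flipped pair word. -/
def flipV {L : Type*} (c : Coin D) (v : B D → L × L) : B D → L × L :=
  fun u => if c u then (v u).swap else v u

/-- **The graded sign of a top flip.** -/
theorem epsS_flipT (c : Coin D) (w : B (D + 1) → L) :
    epsS bval od (flipT c) w =
      jS od (pairE L D w) * jS od (flipV c (pairE L D w)) *
        ∏ u, if c u then sgP od (pairE L D w u) else 1 := by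
  classical
  set v := pairE L D w with hv
  unfold epsS
  rw [prod_B_succ_pairs]
  rw [prod_pairs_diag bval_injective (fun x y =>
    (if bval (snocB x false) < bval (snocB y false) ∧ od (w (snocB x false)) = true ∧
        od (w (snocB y false)) = true then
      tauR bval ((flipT c)⁻¹ (snocB x false)) ((flipT c)⁻¹ (snocB y false)) else 1) *
    (if bval (snocB x false) < bval (snocB y true) ∧ od (w (snocB x false)) = true ∧
        od (w (snocB y true)) = true then
      tauR bval ((flipT c)⁻¹ (snocB x false)) ((flipT c)⁻¹ (snocB y true)) else 1) *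
    ((if bval (snocB x true) < bval (snocB y false) ∧ od (w (snocB x true)) = true ∧
        od (w (snocB y false)) = true then
      tauR bval ((flipT c)⁻¹ (snocB x true)) ((flipT c)⁻¹ (snocB y false)) else 1) *
    (if bval (snocB x true) < bval (snocB y true) ∧ od (w (snocB x true)) = true ∧
        od (w (snocB y true)) = true then
      tauR bval ((flipT c)⁻¹ (snocB x true)) ((flipT c)⁻¹ (snocB y true)) else 1)))]
  rw [mul_comm]
  congr 1
  · -- pairs of different positions
    unfold jS
    rw [← Finset.prod_mul_distrib]
    refine Finset.prod_congr rfl (fun p _ => ?_)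
    obtain ⟨x, y⟩ := p
    by_cases hxy : bval x < bval y
    · have hyx : ¬ bval y < bval x := not_lt.2 hxy.le
      have hne : bval x ≠ bval y := hxy.ne
      have ht : ∀ a b : Bool, tauR bval (snocB x a) (snocB y b) =
          if (a = false ∧ b = true) ∨ (a = b) then 1 else -1 := by
        intro a b
        unfold tauR
        simp only [bval_snoc_lt, hxy, and_true]
      have ht' : ∀ a b : Bool, tauR bval (snocB y a) (snocB x b) =
          if (a = false ∧ b = true) then 1 else -1 := by
        intro a b
        unfold tauR
        simp only [bval_snoc_lt, hyx, and_false, or_false]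
      simp only [hxy, hyx, if_true, if_false, flipT_inv, flipT_snoc, bval_snoc_lt, true_and, false_and,
        and_true, and_false, or_false, or_true, Bool.false_eq_true, Bool.true_eq_false, ht, ht']
      have e1 : w (snocB x false) = (v x).1 := rfl
      have e2 : w (snocB x true) = (v x).2 := rfl
      have e3 : w (snocB y false) = (v y).1 := rfl
      have e4 : w (snocB y true) = (v y).2 := rfl
      simp only [e1, e2, e3, e4, flipV]
      by_cases hcx : c x = true <;> by_cases hcy : c y = true <;>
        by_cases a1 : od (v x).1 = true <;> by_cases a2 : od (v x).2 = true <;>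
        by_cases b1 : od (v y).1 = true <;> by_cases b2 : od (v y).2 = true <;>
        simp [a1, a2, b1, b2, hcx, hcy]
    · simp only [hxy, if_false, false_and]
      simp
  · -- one position
    refine Finset.prod_congr rfl (fun x _ => ?_)
    have e1 : w (snocB x false) = (v x).1 := rfl
    have e2 : w (snocB x true) = (v x).2 := rfl
    simp only [flipT_inv, flipT_snoc, bval_snoc_lt, lt_irrefl, and_false, or_false,
      Bool.false_eq_true, Bool.true_eq_false, false_and, true_and, if_false, mul_one, one_mul, e1, e2,
      and_true, if_true]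
    unfold sgP tauR
    simp only [bval_snoc_lt, lt_irrefl, and_false, or_false]
    cases hcx : c x <;> simp [hcx]

lemma rhoS_eq_rhoG {X : Type*} [Fintype X] [DecidableEq X] (rk : X → ℕ) (g : Equiv.Perm X)
    (w w' : X → L) : rhoS rk od g w w' = rhoG L g w w' * epsS rk od g w := by
  simp only [rhoS_apply, rhoG_apply]
  split_ifs <;> simp

/-- The graded action of `joinP` in pair word coordinates. -/
theorem reindex_rhoS_joinP (s₀ s₁ : Equiv.Perm (B D)) :
    Matrix.reindex (pairE L D) (pairE L D) (rhoS bval od (joinP s₀ s₁)) =
      JCore.dbl (rhoS bval od s₀) (rhoS bval od s₁) := by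
  ext p q
  have h := congrFun (congrFun (reindex_rhoG_joinP (L := L) s₀ s₁) p) q
  simp only [Matrix.reindex_apply, Matrix.submatrix_apply, WordRep.dbl_apply] at h
  simp only [Matrix.reindex_apply, Matrix.submatrix_apply, JCore.dbl_apply]
  rw [rhoS_eq_rhoG, h, epsS_joinP, rhoS_eq_rhoG, rhoS_eq_rhoG]
  simp only [Equiv.apply_symm_apply]
  ring

lemma tp_flip_apply (c : Coin D) (p q : B D → L × L) :
    tp (fun u => if c u then swS od else (1 : Matrix (L × L) (L × L) ℂ)) p q =
      if q = flipV c p then ∏ u, (if c u then sgP od (p u) else 1) else 0 := by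
  classical
  simp only [tp_apply]
  have hent : ∀ u, (if c u then swS od else (1 : Matrix (L × L) (L × L) ℂ)) (p u) (q u) =
      if q u = flipV c p u then (if c u then sgP od (p u) else 1) else 0 := by
    intro u
    unfold flipV
    by_cases h : c u = true
    · rw [if_pos h, if_pos h, if_pos h, swS_apply]
      by_cases h' : (p u).swap = q u
      · rw [if_pos h', if_pos h'.symm]
      · rw [if_neg h', if_neg (Ne.symm h')]
    · rw [if_neg h, if_neg h, if_neg h, Matrix.one_apply]
      by_cases h' : p u = q u
      · rw [if_pos h', if_pos h'.symm]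
      · rw [if_neg h', if_neg (Ne.symm h')]
  simp_rw [hent]
  by_cases hq : q = flipV c p
  · rw [if_pos hq]
    refine Finset.prod_congr rfl (fun u _ => ?_)
    rw [if_pos (congrFun hq u)]
  · rw [if_neg hq]
    have : ∃ u, q u ≠ flipV c p u := by
      by_contra hcon
      push Not at hcon
      exact hq (funext hcon)
    obtain ⟨u, hu⟩ := this
    exact Finset.prod_eq_zero (Finset.mem_univ u) (by rw [if_neg hu])

lemma flipV_pairE (c : Coin D) (w : B (D + 1) → L) :
    pairE L D (w ∘ flipT c) = flipV c (pairE L D w) := by
  funext u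
  rw [pairE_comp_flipT]
  rfl

/-- The graded action of a flip in pair word coordinates. -/
theorem reindex_rhoS_flipT (c : Coin D) :
    Matrix.reindex (pairE L D) (pairE L D) (rhoS bval od (flipT c)) =
      Matrix.diagonal (jS od) * tp (fun u => if c u then swS od else (1 : Matrix (L × L) (L × L) ℂ)) *
        Matrix.diagonal (jS od) := by
  ext p q
  simp only [Matrix.reindex_apply, Matrix.submatrix_apply, Matrix.diagonal_mul, Matrix.mul_diagonal,
    rhoS_apply]
  rw [tp_flip_apply]
  have key : (pairE L D).symm q = (pairE L D).symm p ∘ flipT c ↔ q = flipV c p := by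
    constructor
    · intro h
      have := congrArg (pairE L D) h
      rw [flipV_pairE] at this
      simpa using this
    · intro h
      apply (pairE L D).injective
      rw [flipV_pairE]
      simpa using h
  by_cases hq : q = flipV c p
  · rw [if_pos (key.2 hq), if_pos hq, epsS_flipT]
    simp only [Equiv.apply_symm_apply]
    rw [hq]
    ring
  · rw [if_neg (fun h => hq (key.1 h)), if_neg hq]
    simp

/-- The average of the graded swaps is the graded symmetrizer. -/
lemma sum_tp_flipsS :
    (((Fintype.card (Coin D) : ℝ)⁻¹) • ∑ c : Coin D,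
        tp (fun u => if c u then swS od else (1 : Matrix (L × L) (L × L) ℂ))) =
      (tp (fun _ : B D => PiS od) : Matrix (B D → L × L) (B D → L × L) ℂ) := by
  ext p q
  simp only [Matrix.smul_apply, Matrix.sum_apply, tp_apply]
  have h := Finset.prod_univ_sum (fun _ : B D => (Finset.univ : Finset Bool))
    (fun u b => (if b then swS od else (1 : Matrix (L × L) (L × L) ℂ)) (p u) (q u))
  rw [Fintype.piFinset_univ] at h
  have h2 : ∑ c : Coin D, ∏ u, (if c u then swS od else (1 : Matrix (L × L) (L × L) ℂ)) (p u) (q u) =
      ∏ u : B D, ∑ b : Bool, (if b then swS od else (1 : Matrix (L × L) (L × L) ℂ)) (p u) (q u) :=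
    h.symm
  rw [h2]
  have hPi : ∀ u : B D, PiS od (p u) (q u) = (1 / 2 : ℂ) *
      ∑ b : Bool, (if b then swS od else (1 : Matrix (L × L) (L × L) ℂ)) (p u) (q u) := by
    intro u
    simp [PiS, Matrix.smul_apply, Matrix.add_apply, add_comm]
  simp_rw [hPi]
  rw [Finset.prod_mul_distrib]
  simp only [Finset.prod_const, Finset.card_univ]
  rw [Complex.real_smul]
  congr 1
  simp only [Coin, B, Fintype.card_fun, Fintype.card_bool, Fintype.card_fin]
  push_cast
  simp [one_div]

/-- The symmetrizer on pair words with Koszul signs. -/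
noncomputable def PPs (od : L → Bool) (D : ℕ) : Matrix (B D → L × L) (B D → L × L) ℂ :=
  Matrix.diagonal (jS od) * tp (fun _ : B D => PiS od) * Matrix.diagonal (jS od)

/-- The average of the top flips on words. -/
noncomputable def Pw (od : L → Bool) (D : ℕ) : Matrix (B (D + 1) → L) (B (D + 1) → L) ℂ :=
  ((Fintype.card (Coin D) : ℝ)⁻¹) • ∑ c : Coin D, rhoS bval od (flipT c)

lemma reindex_smul_real {m m' : Type*} (e : m ≃ m') (r : ℝ) (A : Matrix m m ℂ) :
    Matrix.reindex e e (r • A) = r • Matrix.reindex e e A := by
  ext p q; simp [Matrix.reindex_apply]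

lemma reindex_sum' {m m' ι : Type*} (e : m ≃ m') (s : Finset ι) (A : ι → Matrix m m ℂ) :
    Matrix.reindex e e (∑ i ∈ s, A i) = ∑ i ∈ s, Matrix.reindex e e (A i) := by
  ext p q; simp [Matrix.reindex_apply, Matrix.sum_apply]

/-- The average of the top flips in pair word coordinates. -/
theorem reindex_Pw : Matrix.reindex (pairE L D) (pairE L D) (Pw od D) = PPs od D := by
  unfold Pw PPs
  rw [reindex_smul_real, reindex_sum', ← sum_tp_flipsS]
  simp only [reindex_rhoS_flipT, Matrix.smul_mul, Matrix.mul_smul, Matrix.sum_mul, Matrix.mul_sum]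

/-- Flips are absorbed. -/
lemma flipT_mul_flipT (c c' : Coin D) : flipT c * flipT c' = flipT (fun u => xor (c u) (c' u)) := by
  ext x : 1
  simp only [Equiv.Perm.mul_apply, flipT_apply, ini_snocB, topB_snocB]
  congr 1
  cases topB x <;> cases c (ini x) <;> cases c' (ini x) <;> rfl

/-- Adding a coin is a bijection of the coins. -/
def coinAdd (c' : Coin D) : Coin D ≃ Coin D where
  toFun c := fun u => xor (c u) (c' u)
  invFun c := fun u => xor (c u) (c' u)
  left_inv c := by funext u; simp
  right_inv c := by funext u; simp

theorem Pw_mul_flip (c' : Coin D) : Pw od D * rhoS bval od (flipT c') = Pw od D := by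
  unfold Pw
  rw [Matrix.smul_mul, Finset.sum_mul]
  have key : ∑ c, rhoS bval od (flipT c) * rhoS bval od (flipT c') =
      ∑ c : Coin D, rhoS bval od (flipT c) := by
    rw [← Equiv.sum_comp (coinAdd c') (fun c => rhoS bval od (flipT c))]
    refine Finset.sum_congr rfl (fun c _ => ?_)
    rw [← rhoS_mul od bval_injective, flipT_mul_flipT]
    rfl
  rw [key]

lemma flipT_mul_joinP (c : Coin D) (h : Equiv.Perm (B D)) :
    flipT c * joinP h h = joinP h h * flipT (fun u => c (h u)) := by
  ext x : 1
  simp

/-- Composition with a permutation of positions is a bijection of the coins. -/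
def coinComp (h : Equiv.Perm (B D)) : Coin D ≃ Coin D where
  toFun c := fun u => c (h u)
  invFun c := fun u => c (h⁻¹ u)
  left_inv c := by funext u; simp
  right_inv c := by funext u; simp

theorem Pw_comm_join (h : Equiv.Perm (B D)) :
    Pw od D * rhoS bval od (joinP h h) = rhoS bval od (joinP h h) * Pw od D := by
  unfold Pw
  rw [Matrix.smul_mul, Matrix.mul_smul, Finset.sum_mul, Finset.mul_sum]
  have key : ∑ c, rhoS bval od (flipT c) * rhoS bval od (joinP h h) =
      ∑ c : Coin D, rhoS bval od (joinP h h) * rhoS bval od (flipT c) := by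
    rw [← Equiv.sum_comp (coinComp h) (fun c => rhoS bval od (joinP h h) * rhoS bval od (flipT c))]
    refine Finset.sum_congr rfl (fun c _ => ?_)
    rw [← rhoS_mul od bval_injective, ← rhoS_mul od bval_injective, flipT_mul_joinP]
    rfl
  rw [key]

end Split

end Crest.Agent.S0222Lib.SWord
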