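import Crest.Agent.S0222Lib.SWordB

/-!
# S0222: the graded one-pass operator and the recursion of Theorem J for it

* `Ts od D`, `Zs od D`: the one-pass operator on graded words, `T_{2N} = (T_N ⊗ T_N) J P J`,
  `Z = T^* T`, `reindex_Zs_succ`;
* `rhoAS od`: the graded word representation of the group algebra, `Ts_succ_eq_rho`: `Ts` is a pass;
* `Ts_mul_rhoS`, `rhoS_mul_Zs_mul_rhoS`: bi-invariance under tree automorphisms;
* `Zs_ne_zero`: the entries are supported on rearrangements;
* `J_step_Zs`: **the recursion of Theorem J** for the dressed sums of `Zs`.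
-/

set_option autoImplicit false
set_option linter.unusedSectionVars false
set_option linter.unusedSimpArgs false

namespace Crest.Agent.S0222Lib.SWord

open Matrix MonoidAlgebra
open scoped Kronecker ComplexOrder
open Crest.Agent.S0222Lib.Site Crest.Agent.S0222Lib.WordRep Crest.Agent.S0222Lib.JCore

section Rec

variable {L : Type*} [Fintype L] [DecidableEq L] (od : L → Bool)

/-- One pass on graded words, defined recursively: `T_{2N} = (T_N ⊗ T_N) J P J`. -/
noncomputable def Ts : (D : ℕ) → Matrix (B D → L) (B D → L) ℂ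
  | 0 => 1
  | D + 1 => Matrix.reindex (pairE L D).symm (pairE L D).symm (JCore.dbl (Ts D) (Ts D) * PPs od D)

/-- The square `Z_N = T_N^* T_N` on graded words. -/
noncomputable def Zs (D : ℕ) : Matrix (B D → L) (B D → L) ℂ := (Ts od D)ᴴ * Ts od D

/-- The congruence lemma of `Zs` is generated here, once. -/
theorem Zs_congr_here : True := by
  have _ := @Zs.congr_simp.{0}
  trivial

@[simp] lemma Ts_zero : Ts od 0 = 1 := rfl

@[simp] lemma Zs_zero : Zs od 0 = 1 := by simp [Zs]

lemma reindex_Ts_succ (D : ℕ) :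
    Matrix.reindex (pairE L D) (pairE L D) (Ts od (D + 1)) = JCore.dbl (Ts od D) (Ts od D) * PPs od D := by
  ext p q
  simp [Ts, Matrix.reindex_apply]

lemma jDiag_conjTranspose (D : ℕ) :
    (Matrix.diagonal (jS od (D := D)))ᴴ = Matrix.diagonal (jS od) := by
  rw [Matrix.diagonal_conjTranspose]
  congr 1
  funext v
  exact jS_star od v

lemma PPs_isHermitian (D : ℕ) : (PPs od D).IsHermitian := by
  unfold PPs Matrix.IsHermitian
  rw [Matrix.conjTranspose_mul, Matrix.conjTranspose_mul, jDiag_conjTranspose,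
    (tp_isHermitian (fun _ => PiS_isHermitian od)).eq, Matrix.mul_assoc]

lemma Zs_isHermitian (D : ℕ) : (Zs od D).IsHermitian := by
  unfold Zs Matrix.IsHermitian
  simp [Matrix.conjTranspose_mul]

lemma Zs_posSemidef (D : ℕ) : (Zs od D).PosSemidef :=
  posSemidef_conjTranspose_mul_self _

/-- **The recursion of `Z`**: `Z_{2N} = J P J (Z_N ⊗ Z_N) J P J`, in pair-word coordinates. -/
theorem reindex_Zs_succ (D : ℕ) :
    Matrix.reindex (pairE L D) (pairE L D) (Zs od (D + 1)) =
      Matrix.diagonal (jS od) * tp (fun _ : B D => PiS od) * Matrix.diagonal (jS od) *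
        JCore.dbl (Zs od D) (Zs od D) *
        Matrix.diagonal (jS od) * tp (fun _ : B D => PiS od) * Matrix.diagonal (jS od) := by
  unfold Zs
  rw [rei_mul, ← Matrix.conjTranspose_reindex, reindex_Ts_succ, Matrix.conjTranspose_mul,
    (PPs_isHermitian od D).eq, JCore.dbl_conjTranspose]
  calc PPs od D * JCore.dbl (Ts od D)ᴴ (Ts od D)ᴴ * (JCore.dbl (Ts od D) (Ts od D) * PPs od D)
      = PPs od D * (JCore.dbl (Ts od D)ᴴ (Ts od D)ᴴ * JCore.dbl (Ts od D) (Ts od D)) * PPs od D := by
        simp only [Matrix.mul_assoc]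
    _ = _ := by
        rw [JCore.dbl_mul]
        unfold PPs
        simp only [Matrix.mul_assoc]

/-! ### The group algebra -/

/-- The graded word representation as a monoid homomorphism. -/
noncomputable def rhoSHom (D : ℕ) : Equiv.Perm (B D) →* Matrix (B D → L) (B D → L) ℂ where
  toFun := rhoS bval od
  map_one' := rhoS_one bval od
  map_mul' := rhoS_mul od bval_injective

/-- The graded word representation of the group algebra. -/
noncomputable def rhoAS (D : ℕ) :
    MonoidAlgebra ℝ (Equiv.Perm (B D)) →ₐ[ℝ] Matrix (B D → L) (B D → L) ℂ :=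
  MonoidAlgebra.lift ℝ _ _ (rhoSHom od D)

@[simp] lemma rhoAS_single {D : ℕ} (g : Equiv.Perm (B D)) (r : ℝ) :
    rhoAS od D (single g r) = r • rhoS bval od g := by
  simp [rhoAS, rhoSHom]

lemma rhoAS_flips (D : ℕ) :
    rhoAS od (D + 1) (((Fintype.card (Coin D) : ℝ)⁻¹) • ∑ c : Coin D, single (flipT c) (1 : ℝ)) =
      Pw od D := by
  unfold Pw
  simp only [map_smul, map_sum, rhoAS_single, one_smul]

lemma reindex_rhoAS_stepAvg_zero :
    Matrix.reindex (pairE L 0) (pairE L 0) (rhoAS od (0 + 1) (stepAvg 0)) = PPs od 0 := by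
  have hstep : ∀ c : Coin 0, stepPermB c = flipT c := by
    intro c
    ext x i
    have hi : i = 0 := Fin.ext (by omega)
    subst hi
    have hl : (0 : Fin 1) = Fin.last 0 := rfl
    simp only [stepPermB_apply, stepB, consB, Fin.cons_zero, flipT_apply, snocB]
    rw [hl]
    simp only [Fin.snoc_last]
  rw [← reindex_Pw od, ← rhoAS_flips]
  unfold stepAvg
  simp only [hstep]

lemma reindex_rhoAS_topAvg (d : ℕ) :
    Matrix.reindex (pairE L (d + 1)) (pairE L (d + 1)) (rhoAS od (d + 1 + 1) (topAvg d)) =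
      PPs od (d + 1) := by
  rw [← reindex_Pw od, ← rhoAS_flips]
  unfold topAvg
  simp only [← flipT_eq_flipTop]

lemma reindex_rhoAS_join (d : ℕ) (x y : GA d) :
    Matrix.reindex (pairE L (d + 1)) (pairE L (d + 1))
        (rhoAS od (d + 1 + 1) (mapDomainAlgHom ℝ ℝ (ι₀ d) x * mapDomainAlgHom ℝ ℝ (ι₁ d) y)) =
      JCore.dbl (rhoAS od (d + 1) x) (rhoAS od (d + 1) y) := by
  classical
  induction x using MonoidAlgebra.induction_linear with
  | zero => ext p q; simp [Matrix.reindex_apply]
  | add x₁ x₂ h₁ h₂ =>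
    rw [map_add, add_mul, map_add, reindex_add', h₁, h₂, map_add]
    ext p q
    simp only [Matrix.add_apply, JCore.dbl_apply, add_mul]
  | single σ₀ r₀ =>
    induction y using MonoidAlgebra.induction_linear with
    | zero => ext p q; simp [Matrix.reindex_apply]
    | add y₁ y₂ h₁ h₂ =>
      rw [map_add, mul_add, map_add, reindex_add', h₁, h₂, map_add]
      ext p q
      simp only [Matrix.add_apply, JCore.dbl_apply, mul_add]
    | single σ₁ r₁ =>
      simp only [mapDomainAlgHom_apply, mapDomain_single, single_mul_single, rhoAS_single]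
      rw [ι₀_mul_ι₁, reindex_smul_real, ← joinP_eq_joinPerm, reindex_rhoS_joinP]
      ext p q
      simp only [Matrix.smul_apply, JCore.dbl_apply, Complex.real_smul]
      push_cast
      ring

/-- **The recursion is the shuffle**: one pass in the graded word representation. -/
theorem Ts_succ_eq_rho (d : ℕ) : Ts od (d + 1) = rhoAS od (d + 1) (passA d) := by
  induction d with
  | zero =>
    apply (Matrix.reindex (pairE L 0) (pairE L 0)).injective
    rw [reindex_Ts_succ]
    have h0 : passA 0 = stepAvg 0 := by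
      unfold passA
      rw [lawAlg_eq_pow, pow_one]
    rw [h0, reindex_rhoAS_stepAvg_zero]
    simp [JCore.dbl_one]
  | succ d ih =>
    apply (Matrix.reindex (pairE L (d + 1)) (pairE L (d + 1))).injective
    rw [reindex_Ts_succ, passA_succ, map_mul, rei_mul, reindex_rhoAS_join, reindex_rhoAS_topAvg, ih]

variable {od}

lemma rhoAS_ne_zero {D : ℕ} (x : MonoidAlgebra ℝ (Equiv.Perm (B D)))
    (w w' : B D → L) (h : rhoAS od D x w w' ≠ 0) : ∃ g : Equiv.Perm (B D), w' = w ∘ g := by
  classical
  induction x using MonoidAlgebra.induction_linear with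
  | zero => simp at h
  | add x₁ x₂ h₁ h₂ =>
    by_cases h1 : rhoAS od D x₁ w w' = 0
    · apply h₂
      rw [map_add, Matrix.add_apply, h1, zero_add] at h
      exact h
    · exact h₁ h1
  | single g r =>
    refine ⟨g, ?_⟩
    rw [rhoAS_single, Matrix.smul_apply, rhoS_apply] at h
    by_contra hg
    rw [if_neg hg] at h
    simp at h

/-- The entries of `T` are supported on rearrangements. -/
theorem Ts_ne_zero {D : ℕ} {w w' : B D → L} (h : Ts od D w w' ≠ 0) :
    ∃ g : Equiv.Perm (B D), w' = w ∘ g := by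
  cases D with
  | zero =>
    refine ⟨1, ?_⟩
    simp only [Ts_zero, Matrix.one_apply] at h
    have : w = w' := by
      by_contra hne
      rw [if_neg hne] at h
      exact h rfl
    subst this
    rfl
  | succ d =>
    rw [Ts_succ_eq_rho] at h
    exact rhoAS_ne_zero _ _ _ h

/-- **Content preservation**: the entries of `Z` are supported on rearrangements. -/
theorem Zs_ne_zero {D : ℕ} {w w' : B D → L} (h : Zs od D w w' ≠ 0) :
    ∃ g : Equiv.Perm (B D), w' = w ∘ g := by
  unfold Zs at h
  rw [Matrix.mul_apply] at h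
  obtain ⟨v, -, hv⟩ := Finset.exists_ne_zero_of_sum_ne_zero h
  have h1 : Ts od D v w ≠ 0 := by
    intro h0
    apply hv
    simp [Matrix.conjTranspose_apply, h0]
  have h2 : Ts od D v w' ≠ 0 := by
    intro h0
    apply hv
    simp [h0]
  obtain ⟨g, hg⟩ := Ts_ne_zero h1
  obtain ⟨g', hg'⟩ := Ts_ne_zero h2
  refine ⟨g⁻¹ * g', ?_⟩
  rw [hg', hg]
  funext x
  simp

variable (od)

/-- **Right invariance of a pass under tree automorphisms**. -/
theorem Ts_mul_rhoS {D : ℕ} {g : Equiv.Perm (B D)} (hg : IsAut g) :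
    Ts od D * rhoS bval od g = Ts od D := by
  induction D with
  | zero =>
    have : g = 1 := Subsingleton.elim _ _
    subst this
    simp
  | succ D ih =>
    obtain ⟨h, hh, c, rfl⟩ := hg.decompose
    apply (Matrix.reindex (pairE L D) (pairE L D)).injective
    rw [rei_mul, reindex_Ts_succ, rhoS_mul od bval_injective, rei_mul, reindex_rhoS_joinP,
      ← reindex_Pw od]
    have hP : Matrix.reindex (pairE L D) (pairE L D) (Pw od D) *
        (JCore.dbl (rhoS bval od h) (rhoS bval od h) *
          Matrix.reindex (pairE L D) (pairE L D) (rhoS bval od (flipT c))) =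
        JCore.dbl (rhoS bval od h) (rhoS bval od h) *
          Matrix.reindex (pairE L D) (pairE L D) (Pw od D) := by
      rw [← reindex_rhoS_joinP, ← rei_mul, ← rei_mul, ← rei_mul, ← Matrix.mul_assoc,
        Pw_comm_join, Matrix.mul_assoc, Pw_mul_flip]
    rw [Matrix.mul_assoc, hP, ← Matrix.mul_assoc, JCore.dbl_mul, ih hh]

theorem Ts_mul_rhoS_inv {D : ℕ} {g : Equiv.Perm (B D)} (hg : IsAut g) :
    Ts od D * rhoS bval od g⁻¹ = Ts od D := Ts_mul_rhoS od hg.inv

/-- `Z` is invariant under tree automorphisms from the right. -/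
theorem Zs_mul_rhoS {D : ℕ} {g : Equiv.Perm (B D)} (hg : IsAut g) :
    Zs od D * rhoS bval od g = Zs od D := by
  unfold Zs
  rw [Matrix.mul_assoc, Ts_mul_rhoS od hg]

/-- `Z` is invariant under tree automorphisms from the left. -/
theorem rhoS_mul_Zs {D : ℕ} {g : Equiv.Perm (B D)} (hg : IsAut g) :
    rhoS bval od g * Zs od D = Zs od D := by
  unfold Zs
  rw [← Matrix.mul_assoc]
  have : rhoS bval od g * (Ts od D)ᴴ = (Ts od D * rhoS bval od g⁻¹)ᴴ := by
    rw [Matrix.conjTranspose_mul, rhoS_conjTranspose od bval_injective, inv_inv]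
  rw [this, Ts_mul_rhoS_inv od hg]

/-- **Bi-invariance of `Z` under `Aut(T) × Aut(T)`**. -/
theorem rhoS_mul_Zs_mul_rhoS {D : ℕ} {g h : Equiv.Perm (B D)} (hg : IsAut g) (hh : IsAut h) :
    rhoS bval od g * Zs od D * rhoS bval od h = Zs od D := by
  rw [rhoS_mul_Zs od hg, Zs_mul_rhoS od hh]

end Rec

section Step

variable {D : ℕ} {Tok Col A : Type*} [Fintype Tok] [DecidableEq Tok] [Fintype Col] [DecidableEq Col]
  [AddCommMonoid A] (od : Tok ⊕ Col → Bool)

lemma signPat_jS : SignPat (κ := B D) od (jS od) where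
  sq := jS_mul_self od
  real := jS_star od
  pat _ _ h := jS_congr od h

lemma wordSym_rhoS {I : Type*} [Fintype I] (w : I → ℝ) (a : I → Matrix (Tok ⊕ Col) (Tok ⊕ Col) ℂ)
    (hae : ∀ i, EvenM od (a i)) (hY : (mixY (B D) w a).PosDef) (f : Tok ⊕ Col → A) :
    WordSym (mixY (B D) w a) (Zs od D) f (rhoS bval od) where
  star_eq g := rhoS_conjTranspose od bval_injective g
  mul_inv g := rhoS_mul_inv od bval_injective g
  comm_inv g := by
    have hu : IsUnit (mixY (B D) w a).det := (Matrix.isUnit_iff_isUnit_det _).mp hY.isUnit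
    have hc : rhoS bval od g⁻¹ * mixY (B D) w a = mixY (B D) w a * rhoS bval od g⁻¹ := by
      unfold mixY
      rw [Finset.mul_sum, Finset.sum_mul]
      refine Finset.sum_congr rfl (fun i _ => ?_)
      rw [Matrix.mul_smul, Matrix.smul_mul, rhoS_mul_tp_const _ (hae i)]
    rw [comm_inv_of_comm _ _ hu hc, Matrix.mul_assoc, rhoS_inv_mul od bval_injective, Matrix.mul_one]
  block g v := by
    unfold PiB
    rw [rhoS_mul_dp, Matrix.mul_assoc, rhoS_mul_inv od bval_injective, Matrix.mul_one]
    exact dp_congr (fun x => inB_comp g v x)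
  cont g α := by
    rw [rhoS_mul_dp]
    congr 1
    exact dp_congr (fun x => by rw [cont_comp])
  inv g hg k hk := rhoS_mul_Zs_mul_rhoS od (IsAut.inv hg) hk

/-- **The recursion of Theorem J** for the graded one-pass operator. -/
theorem J_step_Zs {I : Type*} [Fintype I] [Nonempty I] (w : I → ℝ) (hw : ∀ i, 0 < w i)
    (a : I → Matrix (Tok ⊕ Col) (Tok ⊕ Col) ℂ) (c : I → I → Matrix (Tok ⊕ Col) (Tok ⊕ Col) ℂ)
    (hap : ∀ i, (a i).PosDef) (hcp : ∀ i j, (c i j).PosDef)
    (ha : ∀ i, TokId (a i)) (hc : ∀ i j, TokId (c i j))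
    (hae : ∀ i, EvenM od (a i)) (hce : ∀ i j, EvenM od (c i j))
    (h : ∀ i j, c i j * c i j = (1 / 2 : ℂ) • (a i * a i + a j * a j))
    (f : Tok ⊕ Col → A) [DecidableEq A] (F : Finset A) (hF : ∀ v : B D → (Tok ⊕ Col), cont f v ∈ F)
    (T : Finset Tok) (α : A) :
    MM (mixY (B (D + 1)) (fun i : I × I => w i.1 * w i.2) (fun i => c i.1 i.2)) (Zs od (D + 1)) f T α ≤
      (1 / 2 : ℝ) ^ T.card * ∑ T₀ ∈ T.powerset, kapD D T₀.card (T \ T₀).card *
        ∑ α₀ ∈ F, ∑ α₁ ∈ F, if α₀ + α₁ = α then
          MM (mixY (B D) w a) (Zs od D) f T₀ α₀ * MM (mixY (B D) w a) (Zs od D) f (T \ T₀) α₁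
          else 0 := by
  have hYP : (mixY (B D) w a).PosDef := posDef_sum_smul w hw _ (fun i => tp_posDef (fun _ => hap i))
  refine J_step od w hw a c hap hcp ha hc hae hce h (Zs od D)
    (presTok_of_comp (fun v v' h0 => Zs_ne_zero h0)) (Zs od (D + 1)) (signPat_jS od)
    (reindex_Zs_succ od D) f F hF ?_ T α
  intro α' g hg k hk u u'
  exact zq_inv (wordSym_rhoS od w a hae hYP f) α' g hg k hk u u'

end Step

end Crest.Agent.S0222Lib.SWord
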