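import Crest.Agent.S0222Lib.SpechtCount

/-!
# Dimension lower bound for representations of `S_n` from a top vector

Let `ρ` be a representation of `Perm (Fin n)` on a finite dimensional `𝕜`-space `V` (`𝕜 = ℝ, ℂ`),
`w₀ : Fin n → Fin r` a word with antitone content `μ`, and `v ≠ 0` a vector fixed by the stabiliser
of `w₀` (a Young subgroup) which satisfies the raising relations
`v + ∑_{i : w₀ i = a} (j i) v = 0` for `w₀ j = a + 1`.
Then `dim V ≥ #lattice words of content μ ≥ n! / ∏ a, (μ a + r - 1)!`.
The relations are automatic when `V` has no invariants under the Young subgroups of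
`μ + e_a - e_{a+1}`, and every nonzero `V` has such a top vector (`exists_top`).
No irreducibility is assumed anywhere.
-/

set_option autoImplicit false

namespace Crest.Agent.S0222Lib.Specht

open Finset Nat

variable {𝕜 : Type*} [RCLike 𝕜] {n r : ℕ}
variable {V : Type*} [AddCommGroup V] [Module 𝕜 V]

lemma sum_content (w : Word n r) : ∑ a, content w a = n := by
  classical
  have := Finset.card_eq_sum_card_fiberwise (s := (univ : Finset (Fin n))) (t := univ)
    (f := w) (fun _ _ => mem_univ _)
  have h2 : (univ : Finset (Fin n)).card = n := by simp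
  rw [h2] at this
  exact this.symm

section vec

variable (ρ : Representation 𝕜 (Equiv.Perm (Fin n)) V) (w₀ : Word n r) (v : V)

open Classical in
/-- The vector attached to a word: `g v` for the word `w₀ ∘ g⁻¹`. -/
noncomputable def vec (x : Word n r) : V :=
  if h : ∃ g : Equiv.Perm (Fin n), x ∘ g = w₀ then ρ h.choose v else 0

variable {ρ w₀ v}

lemma vec_eq (hfix : ∀ g : Equiv.Perm (Fin n), w₀ ∘ g = w₀ → ρ g v = v) {x : Word n r}
    {g : Equiv.Perm (Fin n)} (h : x ∘ g = w₀) : vec ρ w₀ v x = ρ g v := by
  classical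
  have hex : ∃ g : Equiv.Perm (Fin n), x ∘ g = w₀ := ⟨g, h⟩
  unfold vec
  rw [dif_pos hex]
  have hc := hex.choose_spec
  set g' := hex.choose
  have h1 : w₀ ∘ (g'⁻¹ * g : Equiv.Perm (Fin n)) = w₀ := by
    funext p
    have h2 : x (g p) = w₀ p := congrFun h p
    have h3 : x (g' (g'⁻¹ (g p))) = w₀ (g'⁻¹ (g p)) := congrFun hc _
    have h4 : g' (g'⁻¹ (g p)) = g p := by simp
    rw [h4] at h3
    simp only [Function.comp, Equiv.Perm.coe_mul]
    rw [← h3, h2]
  have h2 := hfix _ h1
  rw [map_mul, Module.End.mul_apply] at h2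
  have h3 : ρ g' (ρ g'⁻¹ (ρ g v)) = ρ g' v := by rw [h2]
  rw [← h3, ← Module.End.mul_apply, ← map_mul]
  simp

lemma vec_eq_zero {x : Word n r} (h : ¬ ∃ g : Equiv.Perm (Fin n), x ∘ g = w₀) :
    vec ρ w₀ v x = 0 := by
  classical
  unfold vec
  rw [dif_neg h]

lemma vec_comp (hfix : ∀ g : Equiv.Perm (Fin n), w₀ ∘ g = w₀ → ρ g v = v) (x : Word n r)
    (h : Equiv.Perm (Fin n)) : vec ρ w₀ v (x ∘ h) = ρ h⁻¹ (vec ρ w₀ v x) := by
  by_cases hex : ∃ g : Equiv.Perm (Fin n), x ∘ g = w₀
  · obtain ⟨g, hg⟩ := hex
    have h1 : (x ∘ h) ∘ (h⁻¹ * g : Equiv.Perm (Fin n)) = w₀ := by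
      rw [← hg]
      funext p
      simp
    rw [vec_eq hfix h1, vec_eq hfix hg, map_mul, Module.End.mul_apply]
  · have h1 : ¬ ∃ g : Equiv.Perm (Fin n), (x ∘ h) ∘ g = w₀ := by
      rintro ⟨g, hg⟩
      apply hex
      refine ⟨h * g, ?_⟩
      rw [← hg]
      funext p
      simp
    rw [vec_eq_zero h1, vec_eq_zero hex, map_zero]

lemma sum_vec_update (hfix : ∀ g : Equiv.Perm (Fin n), w₀ ∘ g = w₀ → ρ g v = v)
    {a b : Fin r} (hab : a ≠ b)
    (hrel : ∀ j, w₀ j = b → v + ∑ i ∈ univ.filter (fun i => w₀ i = a), ρ (Equiv.swap j i) v = 0)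
    (w' : Word n r) :
    ∑ i ∈ univ.filter (fun i => w' i = a), vec ρ w₀ v (Function.update w' i b) = 0 := by
  classical
  by_cases hex : ∃ i₀, w' i₀ = a ∧ ∃ g : Equiv.Perm (Fin n), (Function.update w' i₀ b) ∘ g = w₀
  · obtain ⟨i₀, hi₀, g, hg⟩ := hex
    set j := g⁻¹ i₀ with hj
    have hgj : g j = i₀ := by simp [hj]
    have hw₀ : ∀ p, w₀ p = Function.update w' i₀ b (g p) := fun p => (congrFun hg p).symm
    have hjb : w₀ j = b := by rw [hw₀, hgj, Function.update_self]
    have hmem : i₀ ∈ univ.filter (fun i => w' i = a) := by simp [hi₀]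
    rw [← Finset.add_sum_erase _ _ hmem]
    have h1 : Function.update w' i₀ b ∘ g = w₀ := hg
    rw [vec_eq hfix h1]
    have h2 : ∑ i ∈ (univ.filter (fun i => w' i = a)).erase i₀,
        vec ρ w₀ v (Function.update w' i b)
        = ∑ i' ∈ univ.filter (fun i => w₀ i = a), ρ g (ρ (Equiv.swap j i') v) := by
      symm
      refine Finset.sum_bij' (fun i' _ => g i') (fun i _ => g⁻¹ i) ?_ ?_ ?_ ?_ ?_
      · intro i' hi'
        simp only [mem_filter, mem_univ, true_and] at hi'
        rw [hw₀] at hi'
        by_cases hp : g i' = i₀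
        · rw [hp, Function.update_self] at hi'
          exact absurd hi'.symm hab
        · rw [Function.update_of_ne hp] at hi'
          simp [hp, hi']
      · intro i hi
        simp only [mem_erase, mem_filter, mem_univ, true_and] at hi
        simp only [mem_filter, mem_univ, true_and]
        rw [hw₀]
        have h4 : g (g⁻¹ i) = i := by simp
        rw [h4, Function.update_of_ne hi.1]
        exact hi.2
      · intro i' _; simp
      · intro i _; simp
      · intro i' hi'
        simp only [mem_filter, mem_univ, true_and] at hi'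
        have hne : i' ≠ j := by
          rintro rfl
          rw [hjb] at hi'
          exact hab hi'.symm
        have hgne : g i' ≠ i₀ := by
          intro h
          apply hne
          rw [hj, ← h]
          simp
        have h3 : (Function.update w' (g i') b) ∘ (g * Equiv.swap j i' : Equiv.Perm (Fin n)) = w₀ := by
          funext p
          simp only [Function.comp, Equiv.Perm.coe_mul]
          by_cases hp1 : p = j
          · subst hp1
            rw [Equiv.swap_apply_left, Function.update_self, hjb]
          · by_cases hp2 : p = i'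
            · subst hp2
              rw [Equiv.swap_apply_right, hgj, Function.update_of_ne (Ne.symm hgne), hi₀, hi']
            · rw [Equiv.swap_apply_of_ne_of_ne hp1 hp2, hw₀ p]
              have hg1 : g p ≠ g i' := fun h => hp2 (g.injective h)
              have hg2 : g p ≠ i₀ := by
                intro h
                apply hp1
                rw [hj, ← h]
                simp
              rw [Function.update_of_ne hg1, Function.update_of_ne hg2]
        rw [vec_eq hfix h3, map_mul, Module.End.mul_apply]
    rw [h2, ← map_sum, ← map_add, hrel j hjb, map_zero]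
  · push Not at hex
    refine Finset.sum_eq_zero fun i hi => ?_
    apply vec_eq_zero
    rintro ⟨g, hg⟩
    exact hex i (by simpa using hi) g hg

end vec

/-- **Main theorem.** A top vector forces `dim V ≥ #lattice words`. -/
theorem card_latticeWords_le_finrank_of_top [FiniteDimensional 𝕜 V]
    (ρ : Representation 𝕜 (Equiv.Perm (Fin n)) V) {μ : Fin r → ℕ} (hμ : Antitone μ)
    (w₀ : Word n r) (hw₀ : ∀ a, content w₀ a = μ a) (v : V) (hv : v ≠ 0)
    (hfix : ∀ g : Equiv.Perm (Fin n), w₀ ∘ g = w₀ → ρ g v = v)
    (hrel : ∀ (a b : Fin r), a.val + 1 = b.val → ∀ j, w₀ j = b →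
      v + ∑ i ∈ univ.filter (fun i => w₀ i = a), ρ (Equiv.swap j i) v = 0) :
    (latticeWords μ n).card ≤ Module.finrank 𝕜 V := by
  classical
  have hn : ∑ a, μ a = n := by
    rw [← sum_content w₀]
    exact Finset.sum_congr rfl fun a _ => (hw₀ a).symm
  let L : Module.Dual 𝕜 V →ₗ[𝕜] (Word n r → 𝕜) :=
    { toFun := fun f x => f (vec ρ w₀ v x)
      map_add' := fun f f' => by funext x; simp
      map_smul' := fun c f => by funext x; simp }
  have hLapply : ∀ f x, L f x = f (vec ρ w₀ v x) := fun _ _ => rfl
  let U := LinearMap.range L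
  have hinv : ∀ (g : Equiv.Perm (Fin n)), ∀ u ∈ U, act g u ∈ U := by
    rintro g _ ⟨f, rfl⟩
    refine ⟨f.comp (ρ g⁻¹), ?_⟩
    funext x
    simp only [LinearMap.comp_apply, hLapply, act]
    rw [vec_comp hfix]
  have hhw : ∀ u ∈ U, IsHW u := by
    rintro _ ⟨f, rfl⟩ a b hab w'
    have hne : a ≠ b := by
      intro h; rw [h] at hab; omega
    unfold psi
    simp only [hLapply]
    rw [← map_sum, sum_vec_update hfix hne (hrel a b hab) w', map_zero]
  have hsupp : ∀ u ∈ U, ∀ x, u x ≠ 0 → ∀ a, content x a = μ a := by
    rintro _ ⟨f, rfl⟩ x hx a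
    rw [hLapply] at hx
    by_contra hcon
    apply hx
    have : ¬ ∃ g : Equiv.Perm (Fin n), x ∘ g = w₀ := by
      rintro ⟨g, hg⟩
      apply hcon
      rw [← content_comp x g a, hg, hw₀]
    rw [vec_eq_zero this, map_zero]
  have hne : U ≠ ⊥ := by
    have hex : ∃ f : Module.Dual 𝕜 V, f v ≠ 0 := by
      by_contra hcon
      push Not at hcon
      exact hv ((Module.forall_dual_apply_eq_zero_iff 𝕜 v).1 hcon)
    obtain ⟨f, hf⟩ := hex
    intro hU
    have hmem : L f ∈ U := ⟨f, rfl⟩
    rw [hU, Submodule.mem_bot] at hmem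
    have h1 := congrFun hmem w₀
    rw [hLapply] at h1
    have h2 : w₀ ∘ (1 : Equiv.Perm (Fin n)) = w₀ := by funext p; simp
    rw [vec_eq hfix h2] at h1
    simp only [map_one, Module.End.one_apply, Pi.zero_apply] at h1
    exact hf h1
  have h1 := card_latticeWords_le_finrank hμ hn U hinv hhw hsupp hne
  have h2 : Module.finrank 𝕜 U ≤ Module.finrank 𝕜 (Module.Dual 𝕜 V) := LinearMap.finrank_range_le L
  rw [Subspace.dual_finrank_eq] at h2
  exact h1.trans h2

/-- **Dimension bound.** `n! ≤ dim V * ∏ a, (μ a + r - 1)!` for a top vector of shape `μ`. -/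
theorem factorial_le_finrank_mul_of_top [FiniteDimensional 𝕜 V]
    (ρ : Representation 𝕜 (Equiv.Perm (Fin n)) V) {μ : Fin r → ℕ} (hμ : Antitone μ)
    (w₀ : Word n r) (hw₀ : ∀ a, content w₀ a = μ a) (v : V) (hv : v ≠ 0)
    (hfix : ∀ g : Equiv.Perm (Fin n), w₀ ∘ g = w₀ → ρ g v = v)
    (hrel : ∀ (a b : Fin r), a.val + 1 = b.val → ∀ j, w₀ j = b →
      v + ∑ i ∈ univ.filter (fun i => w₀ i = a), ρ (Equiv.swap j i) v = 0) :
    n ! ≤ Module.finrank 𝕜 V * ∏ a, (μ a + r - 1)! := by
  have hn : ∑ a, μ a = n := by
    rw [← sum_content w₀]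
    exact Finset.sum_congr rfl fun a _ => (hw₀ a).symm
  refine (factorial_le_card_mul hμ hn).trans (Nat.mul_le_mul_right _ ?_)
  exact card_latticeWords_le_finrank_of_top ρ hμ w₀ hw₀ v hv hfix hrel

/-! ### Raising relations from maximality -/

section top

variable (ρ : Representation 𝕜 (Equiv.Perm (Fin n)) V)

/-- `V` has a nonzero vector fixed by the stabiliser of the word. -/
def HasInv (w : Word n r) : Prop :=
  ∃ v : V, v ≠ 0 ∧ ∀ g : Equiv.Perm (Fin n), w ∘ g = w → ρ g v = v

variable {ρ}

/-- If `V` has no invariants for the Young subgroup of `w₀` with `j` moved to the letter `a`, the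
raising relation holds. -/
theorem raising_relation {w₀ : Word n r} {v : V}
    (hfix : ∀ g : Equiv.Perm (Fin n), w₀ ∘ g = w₀ → ρ g v = v) {a b : Fin r} (hab : a ≠ b)
    {j : Fin n} (hj : w₀ j = b) (hno : ¬ HasInv ρ (Function.update w₀ j a)) :
    v + ∑ i ∈ univ.filter (fun i => w₀ i = a), ρ (Equiv.swap j i) v = 0 := by
  classical
  by_contra hz
  apply hno
  set w' := Function.update w₀ j a with hw'
  have hupd : Function.update w' j b = w₀ := by
    rw [hw', Function.update_idem, ← hj, Function.update_eq_self]
  have hfilter : univ.filter (fun i => w' i = a) = insert j (univ.filter fun i => w₀ i = a) := by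
    ext i
    simp only [mem_filter, mem_univ, true_and, mem_insert]
    by_cases hi : i = j
    · simp [hi, hw']
    · simp [hi, hw', Function.update_of_ne hi]
  have hjn : j ∉ univ.filter (fun i => w₀ i = a) := by
    simp only [mem_filter, mem_univ, true_and, hj]
    exact hab.symm
  have hz' : ∑ i ∈ univ.filter (fun i => w' i = a), vec ρ w₀ v (Function.update w' i b)
      = v + ∑ i ∈ univ.filter (fun i => w₀ i = a), ρ (Equiv.swap j i) v := by
    rw [hfilter, Finset.sum_insert hjn, hupd]
    congr 1
    · have h1 : w₀ ∘ (1 : Equiv.Perm (Fin n)) = w₀ := by funext p; simp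
      rw [vec_eq hfix h1]
      simp
    · refine Finset.sum_congr rfl fun i hi => ?_
      have hi' : w₀ i = a := by simpa using hi
      have hij : i ≠ j := by
        rintro rfl
        rw [hj] at hi'
        exact hab hi'.symm
      have h2 : (Function.update w' i b) ∘ (Equiv.swap j i : Equiv.Perm (Fin n)) = w₀ := by
        funext p
        simp only [Function.comp]
        by_cases hp1 : p = j
        · subst hp1
          rw [Equiv.swap_apply_left, Function.update_self, hj]
        · by_cases hp2 : p = i
          · subst hp2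
            rw [Equiv.swap_apply_right, Function.update_of_ne (Ne.symm hij), hw',
              Function.update_self, hi']
          · rw [Equiv.swap_apply_of_ne_of_ne hp1 hp2, Function.update_of_ne hp2, hw',
              Function.update_of_ne hp1]
      rw [vec_eq hfix h2]
  refine ⟨_, hz, fun g hg => ?_⟩
  rw [← hz', map_sum]
  refine Finset.sum_bij' (fun i _ => g i) (fun i _ => g⁻¹ i) ?_ ?_ ?_ ?_ ?_
  · intro i hi
    have hi' : w' i = a := by simpa using hi
    have := congrFun hg i
    simp only [Function.comp] at this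
    simp [this, hi']
  · intro i hi
    have hi' : w' i = a := by simpa using hi
    have := congrFun hg (g⁻¹ i)
    simp only [Function.comp] at this
    have h2 : g (g⁻¹ i) = i := by simp
    rw [h2] at this
    simp only [mem_filter, mem_univ, true_and]
    rw [← this]
    exact hi'
  · intro i _; simp
  · intro i _; simp
  · intro i _
    have h1 : (Function.update w' (g i) b) = (Function.update w' i b) ∘ (g⁻¹ : Equiv.Perm (Fin n)) := by
      funext p
      simp only [Function.comp]
      by_cases hp : p = g i
      · subst hp; simp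
      · have h3 : g⁻¹ p ≠ i := by
          intro h
          apply hp
          rw [← h]
          simp
        rw [Function.update_of_ne hp, Function.update_of_ne h3]
        have := congrFun hg (g⁻¹ p)
        simp only [Function.comp] at this
        have h2 : g (g⁻¹ p) = p := by simp
        rw [h2] at this
        exact this
    rw [h1, vec_comp hfix]
    simp

/-- Sum of squares of the contents. -/
def sqSum (w : Word n r) : ℕ := ∑ a, content w a ^ 2

lemma content_update {w : Word n r} {j : Fin n} {a b : Fin r} (hab : a ≠ b) (hj : w j = b) :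
    content (Function.update w j a) a = content w a + 1 ∧
      content (Function.update w j a) b + 1 = content w b ∧
      ∀ c, c ≠ a → c ≠ b → content (Function.update w j a) c = content w c := by
  classical
  have hsplit : ∀ (x : Word n r) (c : Fin r),
      content x c = (if x j = c then 1 else 0) + ∑ i ∈ univ.erase j, if x i = c then 1 else 0 := by
    intro x c
    rw [content_eq_sum, ← Finset.add_sum_erase _ _ (mem_univ j)]
  have hrest : ∀ c, ∑ i ∈ univ.erase j, (if Function.update w j a i = c then 1 else 0)
      = ∑ i ∈ univ.erase j, if w i = c then 1 else 0 := by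
    intro c
    refine Finset.sum_congr rfl fun i hi => ?_
    rw [Function.update_of_ne (Finset.ne_of_mem_erase hi)]
  refine ⟨?_, ?_, fun c h1 h2 => ?_⟩
  · rw [hsplit, hsplit w a, hrest, Function.update_self, hj, if_pos rfl, if_neg hab.symm]
    omega
  · rw [hsplit, hsplit w b, hrest, Function.update_self, hj, if_pos rfl, if_neg hab]
    omega
  · rw [hsplit, hsplit w c, hrest, Function.update_self, hj, if_neg h1.symm, if_neg h2.symm]

lemma sqSum_update_gt {w : Word n r} {j : Fin n} {a b : Fin r} (hab : a ≠ b) (hj : w j = b)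
    (hle : content w b ≤ content w a) : sqSum w < sqSum (Function.update w j a) := by
  classical
  obtain ⟨h1, h2, h3⟩ := content_update hab hj
  unfold sqSum
  have hsplit : ∀ f : Fin r → ℕ, ∑ c, f c = f a + (f b + ∑ c ∈ (univ.erase a).erase b, f c) := by
    intro f
    rw [Finset.add_sum_erase _ _ (mem_erase.2 ⟨hab.symm, mem_univ b⟩),
      Finset.add_sum_erase _ _ (mem_univ a)]
  rw [hsplit, hsplit (fun c => content (Function.update w j a) c ^ 2)]
  have hrest : ∑ c ∈ (univ.erase a).erase b, content (Function.update w j a) c ^ 2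
      = ∑ c ∈ (univ.erase a).erase b, content w c ^ 2 := by
    refine Finset.sum_congr rfl fun c hc => ?_
    have hc1 := Finset.ne_of_mem_erase hc
    have hc2 := Finset.ne_of_mem_erase (Finset.mem_of_mem_erase hc)
    rw [h3 c hc2 hc1]
  beta_reduce
  rw [hrest, h1, ← h2]
  rw [← h2] at hle
  nlinarith

/-- A word with invariants maximising `sqSum` (alphabet `Fin T`) gives, after sorting the alphabet,
a top vector. -/
theorem top_of_max {T : ℕ} (w : Word n T) (hw : HasInv ρ w)
    (hmax : ∀ w' : Word n T, HasInv ρ w' → sqSum w' ≤ sqSum w) :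
    ∃ (π : Equiv.Perm (Fin T)) (w₁ : Word n T) (v : V), Antitone (content w ∘ π) ∧
      (∀ a, content w₁ a = content w (π a)) ∧ v ≠ 0 ∧
      (∀ g : Equiv.Perm (Fin n), w₁ ∘ g = w₁ → ρ g v = v) ∧
      ∀ (a b : Fin T), a.val + 1 = b.val → ∀ j, w₁ j = b →
        v + ∑ i ∈ univ.filter (fun i => w₁ i = a), ρ (Equiv.swap j i) v = 0 := by
  classical
  -- sort the alphabet
  let f : Fin T → ℕ := content w
  let π : Equiv.Perm (Fin T) := Fin.revPerm.trans (Tuple.sort f)
  have hanti : Antitone (f ∘ π) := by
    intro a b hab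
    have h1 : Monotone (f ∘ Tuple.sort f) := Tuple.monotone_sort f
    have h2 := h1 (Fin.rev_le_rev.2 hab)
    simpa [π] using h2
  let w₁ : Word n T := fun i => π⁻¹ (w i)
  have hc₁ : ∀ a, content w₁ a = f (π a) := by
    intro a
    unfold content
    simp only [f, content]
    congr 1
    ext i
    simp only [mem_filter, mem_univ, true_and, w₁]
    rw [Equiv.Perm.inv_eq_iff_eq]
  have hstab : ∀ g : Equiv.Perm (Fin n), w₁ ∘ g = w₁ ↔ w ∘ g = w := by
    intro g
    constructor
    · intro h
      funext i
      have := congrFun h i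
      simpa [w₁] using this
    · intro h
      funext i
      have := congrFun h i
      simp only [Function.comp] at this
      simp [w₁, this]
  have hsq : sqSum w₁ = sqSum w := by
    unfold sqSum
    simp_rw [hc₁]
    exact Equiv.sum_comp π (fun a => f a ^ 2)
  obtain ⟨v, hv, hfix⟩ := hw
  have hfix₁ : ∀ g : Equiv.Perm (Fin n), w₁ ∘ g = w₁ → ρ g v = v :=
    fun g hg => hfix g ((hstab g).1 hg)
  refine ⟨π, w₁, v, hanti, hc₁, hv, hfix₁, ?_⟩
  intro a b hab j hj
  have hne' : a ≠ b := by
    intro h; rw [h] at hab; omega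
  refine raising_relation hfix₁ hne' hj fun hinv => ?_
  have hle : content w₁ b ≤ content w₁ a := by
    rw [hc₁, hc₁]
    exact hanti (Fin.le_def.2 (by omega))
  have hgt := sqSum_update_gt hne' hj hle
  -- transport back to the alphabet of `w`
  let w₂ : Word n T := fun i => π (Function.update w₁ j a i)
  have hw₂ : HasInv ρ w₂ := by
    obtain ⟨v', hv', hfix'⟩ := hinv
    refine ⟨v', hv', fun g hg => hfix' g ?_⟩
    funext i
    have := congrFun hg i
    simpa [w₂] using this
  have hsq₂ : sqSum w₂ = sqSum (Function.update w₁ j a) := by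
    unfold sqSum
    have hc₂ : ∀ c, content w₂ (π c) = content (Function.update w₁ j a) c := by
      intro c
      unfold content
      congr 1
      ext i
      simp [w₂]
    rw [← Equiv.sum_comp π (fun c => content w₂ c ^ 2)]
    simp_rw [hc₂]
  have := hmax w₂ hw₂
  omega

/-- **Dimension bound at a maximal composition**: if `w` (with at most `T` letters) has invariants
and maximises `∑ (content)²` among such words, then `n! ≤ dim V * ∏ a, (content w a + T - 1)!`. -/
theorem factorial_le_finrank_of_max [FiniteDimensional 𝕜 V] {T : ℕ} (w : Word n T)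
    (hw : HasInv ρ w) (hmax : ∀ w' : Word n T, HasInv ρ w' → sqSum w' ≤ sqSum w) :
    n ! ≤ Module.finrank 𝕜 V * ∏ a, (content w a + T - 1)! := by
  obtain ⟨π, w₁, v, h1, h2, h3, h4, h5⟩ := top_of_max w hw hmax
  have := factorial_le_finrank_mul_of_top ρ (μ := content w ∘ π) h1 w₁ h2 v h3 h4 h5
  rwa [show (∏ a, ((content w ∘ π) a + T - 1)!) = ∏ a, (content w a + T - 1)! from
    Equiv.prod_comp π (fun a => (content w a + T - 1)!)] at this

/-- **Existence of a top vector.** Every nonzero representation has a top vector of some shape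
with all parts positive. -/
theorem exists_top [Nontrivial V] (ρ : Representation 𝕜 (Equiv.Perm (Fin n)) V) :
    ∃ (r : ℕ) (μ : Fin r → ℕ) (w₀ : Word n r) (v : V), Antitone μ ∧ (∀ a, 0 < μ a) ∧
      (∀ a, content w₀ a = μ a) ∧ v ≠ 0 ∧
      (∀ g : Equiv.Perm (Fin n), w₀ ∘ g = w₀ → ρ g v = v) ∧
      ∀ (a b : Fin r), a.val + 1 = b.val → ∀ j, w₀ j = b →
        v + ∑ i ∈ univ.filter (fun i => w₀ i = a), ρ (Equiv.swap j i) v = 0 := by
  classical
  -- a maximal word over the alphabet `Fin n`
  have hne : (univ.filter fun w : Word n n => HasInv ρ w).Nonempty := by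
    obtain ⟨v, hv⟩ := exists_ne (0 : V)
    refine ⟨id, ?_⟩
    simp only [mem_filter, mem_univ, true_and]
    refine ⟨v, hv, fun g hg => ?_⟩
    have : g = 1 := by
      ext i
      have := congrFun hg i
      simp only [Function.comp, id] at this
      rw [this]
      simp
    rw [this]
    simp
  obtain ⟨w, hw, hmax⟩ := Finset.exists_max_image _ (sqSum (r := n) (n := n)) hne
  have hw' : HasInv ρ w := by simpa using hw
  obtain ⟨π, w₁, v, hanti, hc₁, hv, hfix₁, hrel₁⟩ :=
    top_of_max w hw' (fun w' h' => hmax w' (by simpa using h'))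
  let f : Fin n → ℕ := content w
  -- drop the empty letters
  let μ₁ : Fin n → ℕ := fun a => f (π a)
  have hμ₁ : Antitone μ₁ := hanti
  let m : ℕ := (univ.filter fun a : Fin n => 0 < μ₁ a).card
  have hlt_iff : ∀ a : Fin n, a.val < m ↔ 0 < μ₁ a := by
    have hset : (univ.filter fun a : Fin n => 0 < μ₁ a)
        = (univ.filter fun a : Fin n => a.val < m) := by
      -- an initial segment of `Fin n`
      have hinit : ∀ a b : Fin n, a ≤ b → 0 < μ₁ b → 0 < μ₁ a := fun a b hab hb =>
        lt_of_lt_of_le hb (hμ₁ hab)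
      have hcard : (univ.filter fun a : Fin n => a.val < m).card = m := by
        have hm : m ≤ n := by
          have := card_le_univ (univ.filter fun a : Fin n => 0 < μ₁ a)
          simpa using this
        rw [Fin.card_filter_val_lt]
        omega
      have hsub : ∀ a ∈ (univ.filter fun a : Fin n => 0 < μ₁ a), a.val < m := by
        intro a ha
        have ha' : 0 < μ₁ a := by simpa using ha
        have hIic : (univ.filter fun b : Fin n => b ≤ a) ⊆ (univ.filter fun a : Fin n => 0 < μ₁ a) := by
          intro b hb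
          have hb' : b ≤ a := by simpa using hb
          simpa using hinit b a hb' ha'
        have h1 := card_le_card hIic
        have h2 : (univ.filter fun b : Fin n => b ≤ a).card = a.val + 1 := by
          have := Fin.card_Iic a
          rwa [← Finset.filter_ge_eq_Iic] at this
        omega
      refine eq_of_subset_of_card_le ?_ hcard.le
      intro a ha
      simp only [mem_filter, mem_univ, true_and]
      exact hsub a ha
    intro a
    have := congrArg (fun s => a ∈ s) hset
    simp only [mem_filter, mem_univ, true_and, eq_iff_iff] at this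
    exact this.symm
  have hm_le : m ≤ n := by
    have := card_le_univ (univ.filter fun a : Fin n => 0 < μ₁ a)
    simpa using this
  have hw₁lt : ∀ i, (w₁ i).val < m := by
    intro i
    rw [hlt_iff]
    show 0 < content w (π (w₁ i))
    rw [← hc₁]
    simp only [content]
    exact card_pos.2 ⟨i, by simp⟩
  let w₃ : Word n m := fun i => ⟨(w₁ i).val, hw₁lt i⟩
  let up : Fin m → Fin n := Fin.castLE hm_le
  have hw₃ : ∀ i (a : Fin m), w₃ i = a ↔ w₁ i = up a := by
    intro i a
    simp [w₃, up, Fin.ext_iff]
  refine ⟨m, fun a => μ₁ (up a), w₃, v, ?_, ?_, ?_, hv, ?_, ?_⟩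
  · intro a b hab
    exact hμ₁ ((Fin.castLE_le_castLE_iff hm_le).2 hab)
  · intro a
    exact (hlt_iff (up a)).1 (by simp [up])
  · intro a
    unfold content
    have : (univ.filter fun i => w₃ i = a) = (univ.filter fun i => w₁ i = up a) := by
      ext i
      simp [hw₃]
    rw [this]
    exact hc₁ (up a)
  · intro g hg
    refine hfix₁ g ?_
    funext i
    have := congrArg Fin.val (congrFun hg i)
    exact Fin.ext this
  · intro a b hab j hj
    have hfil : (univ.filter fun i => w₃ i = a) = (univ.filter fun i => w₁ i = up a) := by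
      ext i
      simp [hw₃]
    rw [hfil]
    refine hrel₁ (up a) (up b) (by simpa [up] using hab) j ((hw₃ j b).1 hj)

/-- **Corollary.** Every nonzero representation of `S_n` has dimension at least
`n! / ∏ a, (μ a + r - 1)!` for a shape `μ` with `r` positive parts having a top vector. -/
theorem exists_shape_factorial_le [Nontrivial V] [FiniteDimensional 𝕜 V]
    (ρ : Representation 𝕜 (Equiv.Perm (Fin n)) V) :
    ∃ (r : ℕ) (μ : Fin r → ℕ) (w₀ : Word n r), Antitone μ ∧ (∀ a, 0 < μ a) ∧
      (∀ a, content w₀ a = μ a) ∧ HasInv ρ w₀ ∧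
      n ! ≤ Module.finrank 𝕜 V * ∏ a, (μ a + r - 1)! := by
  obtain ⟨r, μ, w₀, v, h1, h2, h3, h4, h5, h6⟩ := exists_top ρ
  exact ⟨r, μ, w₀, h1, h2, h3, ⟨v, h4, h5⟩,
    factorial_le_finrank_mul_of_top ρ h1 w₀ h3 v h4 h5 h6⟩

end top

end Crest.Agent.S0222Lib.Specht
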