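import Crest.Agent.S0222Lib.SWord
import Crest.Agent.S0222Lib.PlanchLevel
import Crest.Agent.S0222Lib.SpechtDim

/-!
# S0222: shape data of a representation of a symmetric group

No Young diagrams.  A *shape vector* for a word `w : X → L` with parity `od` on letters is a vector
on which each transposition inside a block of `w` acts by `+1` on even blocks and `-1` on odd ones
(`Adm`).

* `Adm.act_eq_epsS`: then `ρ(s) v = ε(s, w) v` on the whole stabiliser of `w`;
* `multi w`: the multinomial coefficient of the block sizes of `w`, the size of the orbit of `w`;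
* `Family.d_le_multi`: `d_V ≤ multi w`;
* `Adm.raise`: moving a point `j` to the block `a`: `v ± ∑_{i ∈ a} (j i) v` is a shape vector of the
  new word;
* `IsMinShape`: a word with a shape vector with least multinomial;
* `IsMinShape.raising`: at a minimal word, `v ± ∑_{i ∈ a} (j i) v = 0` if the block of `j` is
  not longer than `a`.
-/

set_option autoImplicit false
set_option linter.unusedSectionVars false

namespace Crest.Agent.S0222Lib.Shape

open Finset Matrix
open Crest.Agent.S0222Lib.Planch Crest.Agent.S0222Lib.SWord

variable {X L : Type*} [Fintype X] [DecidableEq X] [Fintype L] [DecidableEq L]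

/-- The sign of a letter. -/
def sgnL (od : L → Bool) (l : L) : ℂ := if od l = true then -1 else 1

lemma sgnL_mul_self (od : L → Bool) (l : L) : sgnL od l * sgnL od l = 1 := by
  unfold sgnL
  split_ifs <;> simp

lemma sgnL_ne_zero (od : L → Bool) (l : L) : sgnL od l ≠ 0 := by
  unfold sgnL
  split_ifs <;> simp

/-- A shape vector: transpositions inside the blocks of `w` act by the sign of the block. -/
def Adm {d : ℕ} (R : URep (Equiv.Perm X) d) (od : L → Bool) (w : X → L) (v : Fin d → ℂ) : Prop :=
  ∀ x y, x ≠ y → w x = w y → R.ρ (Equiv.swap x y) *ᵥ v = sgnL od (w x) • v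

section Stab

lemma comp_swap_eq {w : X → L} {x y : X} (h : w x = w y) : w ∘ Equiv.swap x y = w := by
  funext z
  simp only [Function.comp_apply]
  by_cases hz1 : z = x
  · subst hz1
    rw [Equiv.swap_apply_left, h]
  · by_cases hz2 : z = y
    · subst hz2
      rw [Equiv.swap_apply_right, h]
    · rw [Equiv.swap_apply_of_ne_of_ne hz1 hz2]

/-- The stabiliser of a word is generated by the transpositions inside the blocks; the
same for the part of the stabiliser moving only points in `S`. -/
theorem stab_induction {w : X → L} (S : Finset X) {P : Equiv.Perm X → Prop} (h1 : P 1)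
    (hs : ∀ (x y : X) (g : Equiv.Perm X), x ∈ S → y ∈ S → x ≠ y → w x = w y → w ∘ g = w → (∀ z, z ∉ S → g z = z) → P g →
      P (Equiv.swap x y * g)) :
    ∀ g : Equiv.Perm X, w ∘ g = w → (∀ z, z ∉ S → g z = z) → P g := by
  intro g
  induction hn : g.support.card using Nat.strong_induction_on generalizing g with
  | _ n ih =>
    intro hg hS
    by_cases hg1 : g = 1
    · rw [hg1]
      exact h1
    · have hex : ∃ x, g x ≠ x := by
        by_contra hc
        push Not at hc
        exact hg1 (Equiv.ext fun x => by simpa using hc x)
      obtain ⟨x, hx⟩ := hex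
      have hxS : x ∈ S := by
        by_contra h
        exact hx (hS x h)
      have hyS : g x ∈ S := by
        by_contra h
        exact hx (g.injective (hS _ h))
      have hwx : w (g x) = w x := congrFun hg x
      have hlt := Equiv.Perm.card_support_swap_mul hx
      have hw' : w ∘ (Equiv.swap x (g x) * g) = w := by
        funext z
        have h2 := congrFun (comp_swap_eq (w := w) (x := x) (y := g x) hwx.symm) (g z)
        simp only [Function.comp_apply] at h2
        simp only [Function.comp_apply, Equiv.Perm.coe_mul]
        rw [h2]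
        exact congrFun hg z
      have hS' : ∀ z, z ∉ S → (Equiv.swap x (g x) * g) z = z := by
        intro z hz
        rw [Equiv.Perm.mul_apply, hS z hz]
        apply Equiv.swap_apply_of_ne_of_ne
        · rintro rfl
          exact hz hxS
        · rintro rfl
          exact hz hyS
      have hP := ih _ (by omega) (Equiv.swap x (g x) * g) rfl hw' hS'
      have hfin := hs x (g x) _ hxS hyS hx.symm hwx.symm hw' hS' hP
      rwa [Equiv.swap_mul_self_mul] at hfin

/-- **The value of the cocycle on a transposition inside a block.** -/
theorem epsS_swap {rk : X → ℕ} (hrk : Function.Injective rk) (od : L → Bool) {x y : X} (hxy : x ≠ y)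
    (w : X → L) (h : w x = w y) : epsS rk od (Equiv.swap x y) w = sgnL od (w x) := by
  classical
  wlog hlt : rk x < rk y generalizing x y
  · have hne : rk x ≠ rk y := fun e => hxy (hrk e)
    have hlt' : rk y < rk x := by omega
    have := this hxy.symm h.symm hlt'
    rw [Equiv.swap_comm, this, h]
  have hinv : (Equiv.swap x y)⁻¹ = Equiv.swap x y := Equiv.swap_inv x y
  unfold epsS
  rw [hinv]
  by_cases hod : od (w x) = true
  · -- the odd case
    have hody : od (w y) = true := by rwa [← h]
    rw [show sgnL od (w x) = -1 by simp [sgnL, hod]]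
    set Bt : Finset X := univ.filter (fun z => od (w z) = true ∧ rk x < rk z ∧ rk z < rk y) with hBt
    set S : Finset (X × X) := insert (x, y) (Bt.image (fun z => (z, y)) ∪ Bt.image (fun z => (x, z)))
      with hS
    have hmem : ∀ a b : X, (a, b) ∈ S ↔ ((a, b) = (x, y) ∨ (a ∈ Bt ∧ b = y) ∨ (a = x ∧ b ∈ Bt)) := by
      intro a b
      simp only [hS, mem_insert, mem_union, mem_image, Prod.mk.injEq]
      constructor
      · rintro (h1 | ⟨z, hz, h2, h3⟩ | ⟨z, hz, h2, h3⟩)
        · exact Or.inl ⟨h1.1, h1.2⟩
        · subst h2
          subst h3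
          exact Or.inr (Or.inl ⟨hz, rfl⟩)
        · subst h2
          subst h3
          exact Or.inr (Or.inr ⟨rfl, hz⟩)
      · rintro (h1 | ⟨h1, h2⟩ | ⟨h1, h2⟩)
        · exact Or.inl h1
        · exact Or.inr (Or.inl ⟨a, h1, rfl, h2.symm⟩)
        · exact Or.inr (Or.inr ⟨b, h2, h1.symm, rfl⟩)
    have hBtm : ∀ z, z ∈ Bt ↔ (od (w z) = true ∧ rk x < rk z ∧ rk z < rk y) := by
      intro z
      simp [hBt]
    have hval : ∀ p : X × X, (if rk p.1 < rk p.2 ∧ od (w p.1) = true ∧ od (w p.2) = true then
        tauR rk (Equiv.swap x y p.1) (Equiv.swap x y p.2) else 1) =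
        if p ∈ S then (-1 : ℂ) else 1 := by
      rintro ⟨a, b⟩
      simp only [hmem, hBtm, Prod.mk.injEq]
      by_cases hc : rk a < rk b ∧ od (w a) = true ∧ od (w b) = true
      · rw [if_pos hc]
        obtain ⟨hc1, hc2, hc3⟩ := hc
        have hab : a ≠ b := by
          rintro rfl
          exact lt_irrefl _ hc1
        by_cases ha1 : a = x
        · subst ha1
          by_cases hb2 : b = y
          · subst hb2
            simp only [Equiv.swap_apply_left, Equiv.swap_apply_right, tauR]
            rw [if_neg (by omega), if_pos]
            exact Or.inl ⟨by simp, by simp⟩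
          · have hbx : b ≠ a := hab.symm
            rw [Equiv.swap_apply_left, Equiv.swap_apply_of_ne_of_ne hbx hb2]
            simp only [tauR]
            have hne : rk b ≠ rk y := fun e => hb2 (hrk e)
            by_cases hby : rk y < rk b
            · rw [if_pos hby, if_neg]
              rintro (⟨_, h2⟩ | ⟨h1, _⟩ | ⟨_, _, _, h3⟩)
              · exact hb2 h2
              · exact absurd h1.2.1 (lt_irrefl _)
              · omega
            · rw [if_neg hby, if_pos]
              exact Or.inr (Or.inr ⟨by simp, hc3, hc1, by omega⟩)
        · by_cases ha2 : a = y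
          · subst ha2
            have hbx : b ≠ x := by
              rintro rfl
              omega
            rw [Equiv.swap_apply_right, Equiv.swap_apply_of_ne_of_ne hbx hab.symm]
            simp only [tauR]
            rw [if_pos (by omega), if_neg]
            rintro (⟨h1, _⟩ | ⟨h1, _⟩ | ⟨h1, _⟩)
            · exact ha1 h1
            · have := h1.2.2
              omega
            · exact ha1 h1
          · rw [Equiv.swap_apply_of_ne_of_ne ha1 ha2]
            by_cases hb1 : b = x
            · subst hb1
              rw [Equiv.swap_apply_left]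
              simp only [tauR]
              rw [if_pos (by omega), if_neg]
              rintro (⟨h1, _⟩ | ⟨_, h2⟩ | ⟨h1, _⟩)
              · exact ha1 h1
              · exact hxy h2
              · exact ha1 h1
            · by_cases hb2 : b = y
              · subst hb2
                rw [Equiv.swap_apply_right]
                simp only [tauR]
                have hne : rk a ≠ rk x := fun e => ha1 (hrk e)
                by_cases hax : rk a < rk x
                · rw [if_pos hax, if_neg]
                  rintro (⟨h1, _⟩ | ⟨h1, _⟩ | ⟨h1, _⟩)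
                  · exact ha1 h1
                  · have := h1.2.1
                    omega
                  · exact ha1 h1
                · rw [if_neg hax, if_pos]
                  exact Or.inr (Or.inl ⟨⟨hc2, by omega, hc1⟩, by simp⟩)
              · rw [Equiv.swap_apply_of_ne_of_ne hb1 hb2]
                simp only [tauR]
                rw [if_pos hc1, if_neg]
                rintro (⟨h1, _⟩ | ⟨_, h2⟩ | ⟨h1, _⟩)
                · exact ha1 h1
                · exact hb2 h2
                · exact ha1 h1
      · rw [if_neg hc, if_neg]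
        rintro (⟨rfl, rfl⟩ | ⟨h1, rfl⟩ | ⟨rfl, h2⟩)
        · exact hc ⟨hlt, hod, hody⟩
        · exact hc ⟨h1.2.2, h1.1, hody⟩
        · exact hc ⟨h2.2.1, hod, h2.1⟩
    rw [Finset.prod_congr rfl (fun p _ => hval p), Finset.prod_ite_mem, Finset.univ_inter,
      Finset.prod_const]
    have hcard : S.card = 2 * Bt.card + 1 := by
      rw [hS, Finset.card_insert_of_notMem, Finset.card_union_of_disjoint,
        Finset.card_image_of_injective, Finset.card_image_of_injective]
      · ring
      · intro a b e
        exact (Prod.mk.inj e).2
      · intro a b e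
        exact (Prod.mk.inj e).1
      · rw [Finset.disjoint_left]
        intro p hp1 hp2
        obtain ⟨z, hz, rfl⟩ := mem_image.1 hp1
        obtain ⟨z', hz', e⟩ := mem_image.1 hp2
        have h1 := (Prod.mk.inj e).1
        subst h1
        have := ((hBtm _).1 hz).2.1
        exact lt_irrefl _ this
      · simp only [mem_union, mem_image, Prod.mk.injEq, not_or, not_exists, not_and]
        constructor
        · rintro z hz rfl _
          have := ((hBtm _).1 hz).2.1
          exact lt_irrefl _ this
        · rintro z hz _ rfl
          have := ((hBtm _).1 hz).2.2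
          exact lt_irrefl _ this
    rw [hcard, pow_succ, pow_mul]
    simp
  · -- the even case
    rw [show sgnL od (w x) = 1 by simp [sgnL, hod]]
    refine Finset.prod_eq_one fun p _ => ?_
    split_ifs with hc
    · obtain ⟨hc1, hc2, hc3⟩ := hc
      have h1 : p.1 ≠ x := by
        rintro e
        rw [e] at hc2
        exact hod hc2
      have h2 : p.1 ≠ y := by
        rintro e
        rw [e, ← h] at hc2
        exact hod hc2
      have h3 : p.2 ≠ x := by
        rintro e
        rw [e] at hc3
        exact hod hc3
      have h4 : p.2 ≠ y := by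
        rintro e
        rw [e, ← h] at hc3
        exact hod hc3
      rw [Equiv.swap_apply_of_ne_of_ne h1 h2, Equiv.swap_apply_of_ne_of_ne h3 h4]
      simp [tauR, hc1]
    · rfl

variable {d : ℕ} {R : URep (Equiv.Perm X) d} {od : L → Bool} {w : X → L} {v : Fin d → ℂ}

/-- **A shape vector transforms by the cocycle under the stabiliser.** -/
theorem Adm.act_eq_epsS {rk : X → ℕ} (hrk : Function.Injective rk) (hv : Adm R od w v)
    (s : Equiv.Perm X) (hs : w ∘ s = w) : R.ρ s *ᵥ v = epsS rk od s w • v := by
  refine stab_induction (w := w) univ (P := fun s => R.ρ s *ᵥ v = epsS rk od s w • v) ?_ ?_ s hs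
    (fun z hz => absurd (mem_univ z) hz)
  · simp [epsS_one]
  · intro x y g _ _ hxy hw hg _ hP
    have hco : w ∘ (Equiv.swap x y : Equiv.Perm X) = w := comp_swap_eq hw
    rw [epsS_mul od hrk, hco, map_mul, ← Matrix.mulVec_mulVec, hP, Matrix.mulVec_smul, hv x y hxy hw,
      epsS_swap hrk od hxy w hw, smul_smul, mul_comm]

end Stab

section Multi

open Nat in
/-- The size of a block. -/
def blk (w : X → L) (a : L) : ℕ := (univ.filter fun x => w x = a).card

lemma sum_blk (w : X → L) : ∑ a, blk w a = Fintype.card X := by
  have := Finset.card_eq_sum_card_fiberwise (s := (univ : Finset X)) (t := (univ : Finset L)) (f := w)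
    (fun _ _ => mem_univ _)
  rw [Finset.card_univ] at this
  exact this.symm

/-- The multinomial coefficient of the blocks of a word. -/
def multi (w : X → L) : ℕ := Nat.multinomial univ (blk w)

lemma multi_spec (w : X → L) :
    (∏ a, (blk w a).factorial) * multi w = (Fintype.card X).factorial := by
  have := Nat.multinomial_spec univ (blk w)
  rwa [sum_blk] at this

lemma multi_pos (w : X → L) : 0 < multi w := Nat.multinomial_pos _ _

lemma blk_update {w : X → L} {j : X} {a b : L} (hab : a ≠ b) (hj : w j = b) :
    blk (Function.update w j a) a = blk w a + 1 ∧ blk (Function.update w j a) b + 1 = blk w b ∧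
      ∀ c, c ≠ a → c ≠ b → blk (Function.update w j a) c = blk w c := by
  have hmem : ∀ x c, Function.update w j a x = c ↔ (x = j ∧ a = c) ∨ (x ≠ j ∧ w x = c) := by
    intro x c
    by_cases hx : x = j
    · subst hx
      simp
    · simp [hx]
  refine ⟨?_, ?_, ?_⟩
  · have h1 : (univ.filter fun x => Function.update w j a x = a) =
        insert j (univ.filter fun x => w x = a) := by
      ext x
      simp only [mem_filter, mem_univ, true_and, mem_insert, hmem]
      by_cases hx : x = j
      · simp [hx]
      · simp [hx]
    unfold blk
    rw [h1, Finset.card_insert_of_notMem]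
    simp only [mem_filter, mem_univ, true_and, hj]
    exact hab.symm
  · have h1 : (univ.filter fun x => w x = b) =
        insert j (univ.filter fun x => Function.update w j a x = b) := by
      ext x
      simp only [mem_filter, mem_univ, true_and, mem_insert, hmem]
      by_cases hx : x = j
      · simp [hx, hj]
      · simp [hx]
    unfold blk
    rw [h1, Finset.card_insert_of_notMem]
    simp only [mem_filter, mem_univ, true_and, hmem]
    simp [hab]
  · intro c hca hcb
    unfold blk
    congr 1
    ext x
    simp only [mem_filter, mem_univ, true_and, hmem]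
    by_cases hx : x = j
    · subst hx
      rw [hj]
      simp [hca.symm, hcb.symm]
    · simp [hx]

/-- Moving a point to a block. -/
theorem multi_update_mul {w : X → L} {j : X} {a : L} (hja : w j ≠ a) :
    multi (Function.update w j a) * (blk w a + 1) = multi w * blk w (w j) := by
  set b := w j with hb
  have hab : a ≠ b := hja.symm
  obtain ⟨h1, h2, h3⟩ := blk_update hab hb.symm
  have e1 := multi_spec w
  have e2 := multi_spec (Function.update w j a)
  rw [← Finset.mul_prod_erase univ _ (mem_univ a),
    ← Finset.mul_prod_erase (univ.erase a) _ (mem_erase.2 ⟨hab.symm, mem_univ b⟩)] at e1 e2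
  have hrest : ∏ c ∈ (univ.erase a).erase b, (blk (Function.update w j a) c).factorial =
      ∏ c ∈ (univ.erase a).erase b, (blk w c).factorial := by
    refine Finset.prod_congr rfl fun c hc => ?_
    have h4 := mem_erase.1 hc
    have h5 := mem_erase.1 h4.2
    rw [h3 c h5.1 h4.1]
  rw [hrest, h1] at e2
  set P := ∏ c ∈ (univ.erase a).erase b, (blk w c).factorial with hP
  have hPpos : 0 < P := Finset.prod_pos fun c _ => Nat.factorial_pos _
  set t := blk (Function.update w j a) b with ht
  have e3 : blk w b = t + 1 := h2.symm
  rw [e3, Nat.factorial_succ] at e1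
  rw [Nat.factorial_succ] at e2
  have hQ : 0 < (blk w a).factorial * t.factorial * P := by positivity
  rw [e3]
  apply Nat.eq_of_mul_eq_mul_left hQ
  have : (blk w a).factorial * ((t + 1) * t.factorial * P) * multi w =
      (blk w a + 1) * (blk w a).factorial * (t.factorial * P) * multi (Function.update w j a) := by
    rw [e1, e2]
  calc (blk w a).factorial * t.factorial * P * (multi (Function.update w j a) * (blk w a + 1))
      = (blk w a + 1) * (blk w a).factorial * (t.factorial * P) * multi (Function.update w j a) := by
        ring
    _ = (blk w a).factorial * ((t + 1) * t.factorial * P) * multi w := this.symm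
    _ = _ := by ring

lemma multi_update_lt {w : X → L} {j : X} {a : L} (hja : w j ≠ a) (hle : blk w (w j) ≤ blk w a) :
    multi (Function.update w j a) < multi w := by
  have h := multi_update_mul hja
  have hpos := multi_pos w
  by_contra hc
  push Not at hc
  have h1 : multi w * (blk w a + 1) ≤ multi (Function.update w j a) * (blk w a + 1) :=
    Nat.mul_le_mul_right _ hc
  rw [h] at h1
  have h2 : multi w * blk w (w j) ≤ multi w * blk w a := Nat.mul_le_mul_left _ hle
  nlinarith

end Multi

section Raise

variable {d : ℕ} {R : URep (Equiv.Perm X) d} {od : L → Bool} {w : X → L} {v : Fin d → ℂ}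

lemma mulVec_rho_mul (R : URep (Equiv.Perm X) d) (g h : Equiv.Perm X) (v : Fin d → ℂ) :
    R.ρ g *ᵥ (R.ρ h *ᵥ v) = R.ρ (g * h) *ᵥ v := by
  rw [Matrix.mulVec_mulVec, map_mul]

/-- The raised vector. -/
noncomputable def raiseV (R : URep (Equiv.Perm X) d) (od : L → Bool) (w : X → L) (v : Fin d → ℂ)
    (j : X) (a : L) : Fin d → ℂ :=
  v + sgnL od a • ∑ i ∈ univ.filter (fun i => w i = a), R.ρ (Equiv.swap j i) *ᵥ v

/-- Moving a point `j` to the block `a`: the raised vector is a shape vector of the new word. -/
theorem Adm.raise (hv : Adm R od w v) {j : X} {a : L} (hja : w j ≠ a) :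
    Adm R od (Function.update w j a) (raiseV R od w v j a) := by
  classical
  set A := univ.filter (fun i => w i = a) with hA
  have hmA : ∀ i, i ∈ A ↔ w i = a := fun i => by simp [hA]
  have hjA : j ∉ A := by
    rw [hmA]
    exact hja
  set σ := sgnL od a with hσ
  have hσσ : σ * σ = 1 := sgnL_mul_self od a
  -- the case of the moved point
  have key : ∀ y, w y = a → R.ρ (Equiv.swap j y) *ᵥ raiseV R od w v j a = σ • raiseV R od w v j a := by
    intro y hy
    have hyA : y ∈ A := (hmA y).2 hy
    have hjy : j ≠ y := fun e => hjA (e ▸ hyA)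
    have hterm : ∀ i ∈ A.erase y, R.ρ (Equiv.swap j y) *ᵥ (R.ρ (Equiv.swap j i) *ᵥ v) =
        σ • (R.ρ (Equiv.swap j i) *ᵥ v) := by
      intro i hi
      have hi1 := mem_erase.1 hi
      have hiy : i ≠ y := hi1.1
      have hwi : w i = a := (hmA i).1 hi1.2
      have hji : j ≠ i := fun e => hjA (e ▸ hi1.2)
      have hid : Equiv.swap j y * Equiv.swap j i = Equiv.swap j i * Equiv.swap i y := by
        ext z
        simp only [Equiv.Perm.coe_mul, Function.comp_apply, Equiv.swap_apply_def]
        split_ifs <;> simp_all
      rw [mulVec_rho_mul, hid, ← mulVec_rho_mul, hv i y hiy (by rw [hwi, hy]), hwi, Matrix.mulVec_smul]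
    have hself : R.ρ (Equiv.swap j y) *ᵥ (R.ρ (Equiv.swap j y) *ᵥ v) = v := by
      rw [mulVec_rho_mul, Equiv.swap_mul_self, map_one, Matrix.one_mulVec]
    unfold raiseV
    rw [← hA, ← hσ, ← Finset.add_sum_erase A _ hyA, Matrix.mulVec_add, Matrix.mulVec_smul,
      Matrix.mulVec_add, hself, Matrix.mulVec_sum, Finset.sum_congr rfl hterm, ← Finset.smul_sum]
    set E := ∑ i ∈ A.erase y, R.ρ (Equiv.swap j i) *ᵥ v with hE
    set t := R.ρ (Equiv.swap j y) *ᵥ v with ht
    funext k
    simp only [Pi.add_apply, Pi.smul_apply, smul_eq_mul]
    linear_combination (-(t k)) * hσσ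
  intro x y hxy hw'
  by_cases hxj : x = j
  · subst hxj
    have hwy : w y = a := by
      rw [Function.update_self, Function.update_of_ne hxy.symm] at hw'
      exact hw'.symm
    rw [Function.update_self]
    exact key y hwy
  · by_cases hyj : y = j
    · subst hyj
      have hwx : w x = a := by
        rw [Function.update_self, Function.update_of_ne hxj] at hw'
        exact hw'
      rw [Function.update_of_ne hxj, Equiv.swap_comm, hwx]
      exact key x hwx
    · rw [Function.update_of_ne hxj, Function.update_of_ne hyj] at hw'
      rw [Function.update_of_ne hxj]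
      set s := Equiv.swap x y with hs
      have hsj : s j = j := Equiv.swap_apply_of_ne_of_ne (Ne.symm hxj) (Ne.symm hyj)
      have hco : ∀ z, w (s z) = w z := fun z => congrFun (comp_swap_eq hw') z
      set τ := sgnL od (w x) with hτ
      have hterm : ∀ i, R.ρ s *ᵥ (R.ρ (Equiv.swap j i) *ᵥ v) = τ • (R.ρ (Equiv.swap j (s i)) *ᵥ v) := by
        intro i
        have hid : s * Equiv.swap j i = Equiv.swap j (s i) * s := by
          have := Equiv.mul_swap_eq_swap_mul s j i
          rwa [hsj] at this
        rw [mulVec_rho_mul, hid, ← mulVec_rho_mul, hv x y hxy hw', Matrix.mulVec_smul]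
      have hsum : ∑ i ∈ A, R.ρ (Equiv.swap j (s i)) *ᵥ v = ∑ i ∈ A, R.ρ (Equiv.swap j i) *ᵥ v := by
        refine Finset.sum_equiv s (fun i => ?_) (fun _ _ => rfl)
        rw [hmA, hmA, hco]
      unfold raiseV
      rw [← hA, ← hσ, Matrix.mulVec_add, Matrix.mulVec_smul, Matrix.mulVec_sum,
        Finset.sum_congr rfl (fun i _ => hterm i), ← Finset.smul_sum, hsum, hv x y hxy hw', smul_add,
        smul_comm σ τ]

/-- A word with a nonzero shape vector and least multinomial coefficient. -/
def IsMinShape (R : URep (Equiv.Perm X) d) (od : L → Bool) (w : X → L) : Prop :=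
  (∃ v : Fin d → ℂ, v ≠ 0 ∧ Adm R od w v) ∧
    ∀ w' : X → L, (∃ v' : Fin d → ℂ, v' ≠ 0 ∧ Adm R od w' v') → multi w ≤ multi w'

/-- **Raising relations at a minimal shape**. -/
theorem IsMinShape.raising (hmin : IsMinShape R od w) (hv : Adm R od w v) {j : X} {a : L}
    (hja : w j ≠ a) (hle : blk w (w j) ≤ blk w a) :
    v + sgnL od a • ∑ i ∈ univ.filter (fun i => w i = a), R.ρ (Equiv.swap j i) *ᵥ v = 0 := by
  by_contra hne
  have h1 := hmin.2 (Function.update w j a) ⟨_, hne, hv.raise hja⟩
  have h2 := multi_update_lt hja hle
  omega

lemma adm_of_injective (R : URep (Equiv.Perm X) d) (od : L → Bool) {w : X → L}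
    (hw : Function.Injective w) (v : Fin d → ℂ) : Adm R od w v :=
  fun _ _ hxy h => absurd (hw h) hxy

/-- A minimal word exists as soon as there is an injective word. -/
theorem exists_minShape (R : URep (Equiv.Perm X) d) (hd : 0 < d) (od : L → Bool) (e : X ↪ L) :
    ∃ w : X → L, IsMinShape R od w := by
  classical
  set S : Finset (X → L) := univ.filter fun w => ∃ v : Fin d → ℂ, v ≠ 0 ∧ Adm R od w v with hS
  have hne : S.Nonempty := by
    refine ⟨e, ?_⟩
    simp only [hS, mem_filter, mem_univ, true_and]
    refine ⟨Pi.single ⟨0, hd⟩ 1, ?_, adm_of_injective R od e.injective _⟩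
    intro h
    have := congrFun h ⟨0, hd⟩
    simp at this
  obtain ⟨w, hw, hmin⟩ := Finset.exists_min_image S multi hne
  refine ⟨w, by simpa [hS] using hw, fun w' hw' => hmin w' (by simpa [hS] using hw')⟩

end Raise

end Crest.Agent.S0222Lib.Shape
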