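import Crest.Agent.S0222Lib.ShapePrim

/-!
# S0222: the columns of a class

* `Specht.exists_col_vector`: a representation with a top vector of shape `μ` has a nonzero vector
  transforming by the sign under the column group of any tableau of shape `μ`;
* `IsMinOn.col_le`: at a minimal word, the product of the factorials of the columns of a class
  is at most the product of the factorials of its rows: the word with the rows of the class
  replaced by its columns, with the opposite parity, has a shape vector.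
-/

set_option autoImplicit false
set_option linter.unusedSectionVars false

namespace Crest.Agent.S0222Lib.Specht

open Finset

variable {𝕜 V : Type*} [RCLike 𝕜] [AddCommGroup V] [Module 𝕜 V] {n r : ℕ}

/-- **A top vector yields a vector antisymmetric under the columns of a tableau.** -/
theorem exists_col_vector [FiniteDimensional 𝕜 V]
    (ρ : Representation 𝕜 (Equiv.Perm (Fin n)) V) {μ : Fin r → ℕ} (hμ : Antitone μ)
    (w₀ : Word n r) (hw₀ : ∀ a, content w₀ a = μ a) (v : V) (hv : v ≠ 0)
    (hfix : ∀ g : Equiv.Perm (Fin n), w₀ ∘ g = w₀ → ρ g v = v)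
    (hrel : ∀ (a b : Fin r), a.val + 1 = b.val → ∀ j, w₀ j = b →
      v + ∑ i ∈ univ.filter (fun i => w₀ i = a), ρ (Equiv.swap j i) v = 0) (t : Tab μ n) :
    ∃ y : V, y ≠ 0 ∧ ∀ c ∈ colGroup t.col, ρ c y = sgn 𝕜 c • y := by
  classical
  have hn : ∑ a, μ a = n := by
    rw [← sum_content w₀]
    exact Finset.sum_congr rfl fun a _ => (hw₀ a).symm
  let L : Module.Dual 𝕜 V →ₗ[𝕜] (Word n r → 𝕜) :=
    { toFun := fun f x => f (vec ρ w₀ v x)
      map_add' := fun f f' => by funext x; simp
      map_smul' := fun c f => by funext x; simp }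
  have hLapply : ∀ f x, L f x = f (vec ρ w₀ v x) := fun _ _ => rfl
  let U := LinearMap.range L
  have hinv : ∀ (g : Equiv.Perm (Fin n)), ∀ u ∈ U, act g u ∈ U := by
    rintro g _ ⟨f, rfl⟩
    refine ⟨f.comp (ρ g⁻¹), ?_⟩
    funext x
    simp only [LinearMap.comp_apply, hLapply, act]
    rw [vec_comp hfix]
  have hhw : ∀ u ∈ U, IsHW u := by
    rintro _ ⟨f, rfl⟩ a b hab w'
    have hne : a ≠ b := by
      intro h; rw [h] at hab; omega
    unfold psi
    simp only [hLapply]
    rw [← map_sum, sum_vec_update hfix hne (hrel a b hab) w', map_zero]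
  have hsupp : ∀ u ∈ U, ∀ x, u x ≠ 0 → ∀ a, content x a = μ a := by
    rintro _ ⟨f, rfl⟩ x hx a
    rw [hLapply] at hx
    by_contra hcon
    apply hx
    have : ¬ ∃ g : Equiv.Perm (Fin n), x ∘ g = w₀ := by
      rintro ⟨g, hg⟩
      apply hcon
      rw [← content_comp x g a, hg, hw₀]
    rw [vec_eq_zero this, map_zero]
  have hne : U ≠ ⊥ := by
    have hex : ∃ f : Module.Dual 𝕜 V, f v ≠ 0 := by
      by_contra hcon
      push Not at hcon
      exact hv ((Module.forall_dual_apply_eq_zero_iff 𝕜 v).1 hcon)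
    obtain ⟨f, hf⟩ := hex
    intro hU
    have hmem : L f ∈ U := ⟨f, rfl⟩
    rw [hU, Submodule.mem_bot] at hmem
    have h1 := congrFun hmem w₀
    rw [hLapply] at h1
    have h2 : w₀ ∘ (1 : Equiv.Perm (Fin n)) = w₀ := by funext p; simp
    rw [vec_eq hfix h2] at h1
    simp only [map_one, Module.End.one_apply, Pi.zero_apply] at h1
    exact hf h1
  obtain ⟨f, hf⟩ := Tab.e_mem hμ hn U hinv hhw hsupp hne t
  set y : V := ∑ π ∈ colGroup t.col, sgn 𝕜 π • vec ρ w₀ v (t.w ∘ π) with hy
  have hfy : f y = ((colGroup t.col).card : 𝕜) := by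
    rw [hy, map_sum]
    have h1 : ∀ π ∈ colGroup t.col, f (sgn 𝕜 π • vec ρ w₀ v (t.w ∘ π)) = 1 := by
      intro π hπ
      rw [map_smul, smul_eq_mul, ← hLapply, hf, Tab.e_comp t _ hπ, Tab.e_self, mul_one, ← sgn_mul]
      simp [sgn, Int.units_mul_self]
    rw [Finset.sum_congr rfl h1]
    simp
  refine ⟨y, ?_, ?_⟩
  · intro h0
    rw [h0, map_zero] at hfy
    have hcard : (colGroup t.col).card ≠ 0 := by
      apply Finset.card_ne_zero_of_mem (a := 1)
      exact mem_colGroup.2 fun i => rfl
    exact hcard (by exact_mod_cast hfy.symm)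
  · intro c hc
    rw [hy, map_sum, Finset.smul_sum]
    refine Finset.sum_bij' (fun π _ => π * c⁻¹) (fun π _ => π * c) ?_ ?_ ?_ ?_ ?_
    · intro π hπ
      exact colGroup_mul hπ (colGroup_inv hc)
    · intro π hπ
      exact colGroup_mul hπ hc
    · intro π _
      simp
    · intro π _
      simp
    · intro π _
      have h1 : ρ c (vec ρ w₀ v (t.w ∘ π)) = vec ρ w₀ v (t.w ∘ (π * c⁻¹ : Equiv.Perm (Fin n))) := by
        have := vec_comp (ρ := ρ) (w₀ := w₀) (v := v) hfix (t.w ∘ π) c⁻¹
        rw [inv_inv] at this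
        rw [← this]
        congr 1
      rw [map_smul, h1, smul_smul]
      congr 1
      have h2 : sgn 𝕜 (π * c⁻¹) = sgn 𝕜 π * sgn 𝕜 c := by
        rw [sgn_mul, sgn_inv]
      have h3 : sgn 𝕜 c * sgn 𝕜 c = 1 := by
        rw [← sgn_mul]
        simp [sgn, Int.units_mul_self]
      rw [h2]
      linear_combination (-(sgn 𝕜 π)) * h3

end Crest.Agent.S0222Lib.Specht

namespace Crest.Agent.S0222Lib.Shape

open Finset Matrix
open scoped ComplexOrder
open Crest.Agent.S0222Lib.Planch Crest.Agent.S0222Lib.SWord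

variable {X : Type*} [Fintype X] [DecidableEq X] {d : ℕ} {R : URep (Equiv.Perm X) d} {B₀ : Finset X}
  {w₀ : X → UL X}

/-- **Columns against rows** at a minimal word. -/
theorem IsMinOn.col_le (h : IsMinOn R B₀ w₀) {v₀ : Fin d → ℂ} (hv : Adm R odU w₀ v₀) (hv0 : v₀ ≠ 0)
    {m : ℕ} (e : Fin m ↪ X) (A : Finset (UL X)) (σ : Bool) (hA1 : ∀ a, w₀ (e a) ∈ A)
    (hA2 : ∀ x, w₀ x ∈ A → x ∈ Set.range e) (hσ : ∀ l ∈ A, odU l = σ) (hnone : none ∉ A)
    (F' : Family (Equiv.Perm (Fin m))) (j : Fin F'.r)
    (hj : (R.comp (emb e)).lift (F'.idem j) *ᵥ v₀ = v₀)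
    (π : Fin A.card ≃ {l // l ∈ A}) (hπ : Antitone (fun c => blk w₀ (π c).1)) :
    ∏ c ∈ univ.image (Specht.colOf (clsWord e π hA1)),
        ((univ.filter fun a => Specht.colOf (clsWord e π hA1) a = c).card).factorial ≤
      ∏ l ∈ A, (blk w₀ l).factorial := by
  classical
  set w₁ := clsWord e π hA1 with hw₁
  set col := Specht.colOf w₁ with hcol
  set R' := R.comp (emb e) with hR'
  obtain ⟨T, hT, hTv⟩ := exists_equivariant F' j R' hj hv0
  have hT' : ∀ h y, T (R.ρ (emb e h) *ᵥ y) = (F'.R j).ρ h *ᵥ T y := hT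
  have hrais : ∀ (a : Fin m) (l : UL X), l ∈ A → w₀ (e a) ≠ l → blk w₀ (w₀ (e a)) ≤ blk w₀ l →
      v₀ + sgnL odU l • ∑ i ∈ univ.filter (fun i => w₀ i = l), R.ρ (Equiv.swap (e a) i) *ᵥ v₀ = 0 := by
    intro a l hl hne hle
    refine h.raising hv ?_ ?_ hne hle
    · rintro rfl
      exact hnone hl
    · intro h0
      apply hnone
      rw [← h0]
      exact hA1 a
  obtain ⟨hcont, hfix, hrel⟩ := class_top hv e A σ hA1 hA2 hσ hrais F' j (T := T) hT' π hπ
  obtain ⟨y₁, hy₁0, hy₁⟩ := Specht.exists_col_vector (𝕜 := ℂ) (twRep σ (F'.R j))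
    (μ := fun c => blk w₀ (π c).1) hπ w₁ hcont (T v₀) hTv hfix hrel (Specht.tabOf w₁ hcont)
  -- the new vector
  set u := T v₀ with hu
  set v' := R'.lift (rankEl F' j u y₁) *ᵥ v₀ with hv'
  have hTv' : T v' = (star u ⬝ᵥ u) • y₁ := by
    rw [hv', map_lift_rankEl F' j R' hT]
  have hv'0 : v' ≠ 0 := by
    intro h0
    rw [h0, map_zero] at hTv'
    have h1 : star u ⬝ᵥ u ≠ 0 := fun h => hTv (dotProduct_star_self_eq_zero.1 h)
    exact (smul_ne_zero h1 hy₁0) hTv'.symm
  -- the new word
  let K : Finset ℕ := univ.image col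
  let col' : Fin m → K := fun a => ⟨col a, mem_image_of_mem _ (mem_univ a)⟩
  let w' : X → UL X ⊕ K := Function.extend e (fun a => Sum.inr (col' a)) (fun x => Sum.inl (w₀ x))
  have hw'1 : ∀ a, w' (e a) = Sum.inr (col' a) := fun a => e.injective.extend_apply _ _ a
  have hw'2 : ∀ x, x ∉ Set.range e → w' x = Sum.inl (w₀ x) := fun x hx =>
    Function.extend_apply' _ _ _ (fun ⟨a, ha⟩ => hx ⟨a, ha⟩)
  let od' : UL X ⊕ K → Bool := Sum.elim odU (fun _ => !σ)
  have hAdm : Adm R od' w' v' := by
    intro x y hxy hw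
    by_cases hx : x ∈ Set.range e
    · obtain ⟨a, rfl⟩ := hx
      by_cases hy : y ∈ Set.range e
      · obtain ⟨b, rfl⟩ := hy
        rw [hw'1, hw'1] at hw
        have hab : a ≠ b := fun h => hxy (by rw [h])
        have hcab : col a = col b := congrArg Subtype.val (Sum.inr.inj hw)
        have hg : Equiv.swap a b ∈ Specht.colGroup (Specht.tabOf w₁ hcont).col :=
          Specht.colGroup_swap hcab
        have h1 := hy₁ _ hg
        rw [twRep_apply, Specht.sgn_swap hab, twist_swap σ hab] at h1
        have h2 : (F'.R j).ρ (Equiv.swap a b) *ᵥ y₁ = sgnL od' (w' (e a)) • y₁ := by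
          rw [hw'1]
          by_cases hσ' : σ = true
          · rw [if_pos hσ'] at h1
            have h3 : (F'.R j).ρ (Equiv.swap a b) *ᵥ y₁ = y₁ := by
              have := congrArg (fun z => (-1 : ℂ) • z) h1
              simpa using this
            rw [h3]
            simp [sgnL, od', hσ']
          · rw [if_neg hσ', one_smul] at h1
            rw [h1]
            simp [sgnL, od', hσ']
        have h3 : R.ρ (Equiv.swap (e a) (e b)) = R'.ρ (Equiv.swap a b) := by
          rw [hR', URep.comp_rho, emb_swap]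
        rw [h3, hv', rho_lift_rankEl, h2, rankEl_smul, map_smul, Matrix.smul_mulVec]
      · rw [hw'1, hw'2 y hy] at hw
        exact absurd hw (by simp)
    · by_cases hy : y ∈ Set.range e
      · obtain ⟨b, rfl⟩ := hy
        rw [hw'1, hw'2 x hx] at hw
        exact absurd hw (by simp)
      · rw [hw'2 x hx, hw'2 y hy] at hw
        have hwe : w₀ x = w₀ y := Sum.inl.inj hw
        have hfix' : ∀ a, Equiv.swap x y (e a) = e a := fun a =>
          Equiv.swap_apply_of_ne_of_ne (fun h => hx ⟨a, h⟩) (fun h => hy ⟨a, h⟩)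
        rw [hv', hR', rho_lift_comm_of_fix e _ hfix', hv _ _ hxy hwe, Matrix.mulVec_smul, hw'2 x hx]
        rfl
  have hvac : ∀ x, w' x = Sum.inl none ↔ x ∉ B₀ := by
    intro x
    by_cases hx : x ∈ Set.range e
    · obtain ⟨a, rfl⟩ := hx
      rw [hw'1]
      constructor
      · intro h0
        exact absurd h0 (by simp)
      · intro h0
        exfalso
        apply hnone
        rw [← (h.vac _).2 h0]
        exact hA1 a
    · rw [hw'2 x hx, ← h.vac x]
      simp
  have hle := h.le_multi od' (Sum.inl none) rfl w' hvac hv'0 hAdm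
  -- the blocks
  have hblk1 : ∀ c : K, blk w' (Sum.inr c) = (univ.filter fun a => col a = c.1).card := by
    intro c
    unfold blk
    have : (univ.filter fun x => w' x = Sum.inr c) = (univ.filter fun a => col a = c.1).map e := by
      ext x
      simp only [mem_filter, mem_univ, true_and, mem_map]
      by_cases hx : x ∈ Set.range e
      · obtain ⟨a, rfl⟩ := hx
        rw [hw'1]
        constructor
        · intro h0
          exact ⟨a, congrArg Subtype.val (Sum.inr.inj h0), rfl⟩
        · rintro ⟨b, hb, hab⟩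
          have : b = a := e.injective hab
          subst this
          congr 1
          exact Subtype.ext hb
      · rw [hw'2 x hx]
        constructor
        · intro h0
          exact absurd h0 (by simp)
        · rintro ⟨b, _, hab⟩
          exact absurd ⟨b, hab⟩ hx
    rw [this, Finset.card_map]
  have hblk2 : ∀ l : UL X, blk w' (Sum.inl l) = if l ∈ A then 0 else blk w₀ l := by
    intro l
    unfold blk
    split_ifs with hl
    · rw [Finset.card_eq_zero, Finset.filter_eq_empty_iff]
      intro x _ hx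
      by_cases hxr : x ∈ Set.range e
      · obtain ⟨a, rfl⟩ := hxr
        rw [hw'1] at hx
        exact absurd hx (by simp)
      · rw [hw'2 x hxr] at hx
        have hw : w₀ x = l := Sum.inl.inj hx
        exact hxr (hA2 x (hw ▸ hl))
    · congr 1
      ext x
      simp only [mem_filter, mem_univ, true_and]
      by_cases hxr : x ∈ Set.range e
      · obtain ⟨a, rfl⟩ := hxr
        rw [hw'1]
        constructor
        · intro h0
          exact absurd h0 (by simp)
        · intro h0
          exact absurd (h0 ▸ hA1 a) hl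
      · rw [hw'2 x hxr]
        simp
  -- the products
  have e1 := multi_spec w₀
  have e2 := multi_spec w'
  have hP : ∏ a, (blk w' a).factorial ≤ ∏ a, (blk w₀ a).factorial := by
    by_contra hc
    push Not at hc
    have h1 : (∏ a, (blk w₀ a).factorial) * multi w₀ ≤ (∏ a, (blk w₀ a).factorial) * multi w' :=
      Nat.mul_le_mul_left _ hle
    have h2 : (∏ a, (blk w₀ a).factorial) * multi w' < (∏ a, (blk w' a).factorial) * multi w' :=
      Nat.mul_lt_mul_of_pos_right hc (multi_pos w')
    omega
  rw [Fintype.prod_sum_type] at hP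
  simp only [hblk1, hblk2] at hP
  have hQ1 : ∏ l : UL X, (if l ∈ A then 0 else blk w₀ l).factorial = ∏ l ∈ Aᶜ, (blk w₀ l).factorial := by
    rw [← Finset.prod_mul_prod_compl A]
    have h1 : ∏ l ∈ A, (if l ∈ A then 0 else blk w₀ l).factorial = 1 :=
      Finset.prod_eq_one fun l hl => by rw [if_pos hl]; rfl
    rw [h1, one_mul]
    refine Finset.prod_congr rfl fun l hl => ?_
    rw [if_neg (Finset.mem_compl.1 hl)]
  rw [hQ1, ← Finset.prod_mul_prod_compl A (fun l => (blk w₀ l).factorial),
    mul_comm (∏ l ∈ A, (blk w₀ l).factorial)] at hP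
  have hQpos : 0 < ∏ l ∈ Aᶜ, (blk w₀ l).factorial := Finset.prod_pos fun _ _ => Nat.factorial_pos _
  have h3 := Nat.le_of_mul_le_mul_left hP hQpos
  refine le_trans (le_of_eq ?_) h3
  exact (Finset.prod_coe_sort (univ.image col)
    (fun c => ((univ.filter fun a => col a = c).card).factorial)).symm

end Crest.Agent.S0222Lib.Shape
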