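import Crest.Agent.S0222Lib.Shape

/-!
# S0222: dimension of the class representations of a shape vector

* `Family.d_le_multi`: `d_V ≤ multi w` for a nonzero shape vector of `w`;
* `Family.idem`: the central idempotents of a complete family; `URep.comp`: restriction along a
  homomorphism;
* `exists_equivariant`: a nonzero vector in the `j`-isotypic part of a representation has nonzero image
  under an equivariant map to `V_j`;
* `class_dim_le`: `m! ≤ d_j ∏_{l ∈ A} (|l| + |A| - 1)!` for a minimal word `w₀`, a class of blocks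
  `A` of one parity with `m` points, and a shape vector in the `j`-isotypic part for the symmetric
  group of the class;
* `exists_classes`: for a family of disjoint classes there is a shape vector `v₀` isotypic for
  the symmetric group of each class, and the dimension bound holds for each.
-/

set_option autoImplicit false
set_option linter.unusedSectionVars false

namespace Crest.Agent.S0222Lib.Planch

open Finset Matrix

section Idem

variable {G : Type*} [Group G] [Fintype G] [DecidableEq G] (F : Family G)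

/-- The central idempotent of a member of a complete family. -/
noncomputable def Family.idem (j : Fin F.r) : MonoidAlgebra ℂ G :=
  F.E.symm (fun k => if k = j then 1 else 0)

lemma Family.lift_idem (j k : Fin F.r) :
    (F.R k).lift (F.idem j) = if k = j then 1 else 0 := by
  have := congrFun (F.E.apply_symm_apply (fun k => if k = j then 1 else 0)) k
  rwa [F.E_apply] at this

lemma Family.lift_idem_self (j : Fin F.r) : (F.R j).lift (F.idem j) = 1 := by
  rw [F.lift_idem, if_pos rfl]

lemma Family.lift_idem_ne {j k : Fin F.r} (h : k ≠ j) : (F.R k).lift (F.idem j) = 0 := by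
  rw [F.lift_idem, if_neg h]

/-- Equality in the group algebra is tested on the family. -/
lemma Family.ext_lift {x y : MonoidAlgebra ℂ G} (h : ∀ k, (F.R k).lift x = (F.R k).lift y) : x = y :=
  F.bij.1 (funext h)

lemma Family.sum_idem : ∑ j, F.idem j = 1 := by
  apply F.ext_lift
  intro k
  rw [map_sum, map_one, Finset.sum_eq_single k]
  · exact F.lift_idem_self k
  · intro j _ hj
    exact F.lift_idem_ne hj.symm
  · simp

lemma Family.idem_mul_self (j : Fin F.r) : F.idem j * F.idem j = F.idem j := by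
  apply F.ext_lift
  intro k
  rw [map_mul, F.lift_idem]
  split_ifs <;> simp

lemma Family.idem_mul_ne {j j' : Fin F.r} (h : j ≠ j') : F.idem j * F.idem j' = 0 := by
  apply F.ext_lift
  intro k
  rw [map_mul, map_zero, F.lift_idem, F.lift_idem]
  split_ifs with h1 h2
  · exact absurd (h1.symm.trans h2) h
  · simp
  · simp
  · simp

lemma Family.idem_central (j : Fin F.r) (x : MonoidAlgebra ℂ G) :
    F.idem j * x = x * F.idem j := by
  apply F.ext_lift
  intro k
  rw [map_mul, map_mul, F.lift_idem]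
  split_ifs <;> simp

/-- Restriction of a representation along a homomorphism. -/
def URep.comp {H : Type*} [Group H] {d : ℕ} (R : URep G d) (φ : H →* G) : URep H d where
  ρ := R.ρ.comp φ
  unitary h := R.unitary (φ h)

@[simp] lemma URep.comp_rho {H : Type*} [Group H] {d : ℕ} (R : URep G d) (φ : H →* G) (h : H) :
    (R.comp φ).ρ h = R.ρ (φ h) := rfl

/-- The isotypic projections of a representation. -/
lemma URep.sum_lift_idem {d : ℕ} (R : URep G d) (v : Fin d → ℂ) :
    ∑ j, R.lift (F.idem j) *ᵥ v = v := by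
  rw [← Matrix.sum_mulVec, ← map_sum, F.sum_idem, map_one, Matrix.one_mulVec]

lemma URep.lift_idem_idem {d : ℕ} (R : URep G d) (j : Fin F.r) (v : Fin d → ℂ) :
    R.lift (F.idem j) *ᵥ (R.lift (F.idem j) *ᵥ v) = R.lift (F.idem j) *ᵥ v := by
  rw [Matrix.mulVec_mulVec, ← map_mul, F.idem_mul_self]

lemma URep.rho_mul_lift_idem {d : ℕ} (R : URep G d) (j : Fin F.r) (g : G) (v : Fin d → ℂ) :
    R.ρ g *ᵥ (R.lift (F.idem j) *ᵥ v) = R.lift (F.idem j) *ᵥ (R.ρ g *ᵥ v) := by
  have h1 : R.ρ g = R.lift (MonoidAlgebra.single g 1) := by simp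
  rw [h1, Matrix.mulVec_mulVec, Matrix.mulVec_mulVec, ← map_mul, ← map_mul, F.idem_central]

/-- **An equivariant map to `V_j`** not killing a given `j`-isotypic vector. -/
theorem exists_equivariant (j : Fin F.r) {d : ℕ} (R' : URep G d) {v : Fin d → ℂ}
    (hj : R'.lift (F.idem j) *ᵥ v = v) (hv0 : v ≠ 0) :
    ∃ T : (Fin d → ℂ) →ₗ[ℂ] (Fin (F.d j) → ℂ),
      (∀ h u, T (R'.ρ h *ᵥ u) = (F.R j).ρ h *ᵥ T u) ∧ T v ≠ 0 := by
  classical
  set E := F.idem j with hE
  -- the matrices
  let M : ∀ k : Fin F.r, Fin d → Matrix (Fin (F.d k)) (Fin (F.d k)) ℂ :=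
    fun k c => ∑ g : G, (R'.ρ g⁻¹ *ᵥ v) c • (F.R k).ρ g
  have hvc : ∀ (g : G) (c : Fin d), (R'.ρ g⁻¹ *ᵥ v) c = ∑ h : G, E.coeff h * (R'.ρ (g⁻¹ * h) *ᵥ v) c := by
    intro g c
    conv_lhs => rw [← hj]
    rw [R'.lift_eq_sum, Matrix.sum_mulVec, Matrix.mulVec_sum, Finset.sum_apply]
    refine Finset.sum_congr rfl fun h _ => ?_
    rw [Matrix.smul_mulVec, Matrix.mulVec_smul, Pi.smul_apply, smul_eq_mul, Matrix.mulVec_mulVec,
      map_mul]
  have hM : ∀ k c, M k c = (F.R k).lift E * M k c := by
    intro k c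
    have h2 : ∀ h : G, (F.R k).ρ h * M k c = ∑ g : G, (R'.ρ (g⁻¹ * h) *ᵥ v) c • (F.R k).ρ g := by
      intro h
      simp only [M]
      rw [Finset.mul_sum, ← Equiv.sum_comp (Equiv.mulLeft h)
        (fun g : G => (R'.ρ (g⁻¹ * h) *ᵥ v) c • (F.R k).ρ g)]
      refine Finset.sum_congr rfl fun g _ => ?_
      simp only [Equiv.coe_mulLeft]
      rw [Matrix.mul_smul, ← map_mul]
      congr 3
      group
    rw [(F.R k).lift_eq_sum, Finset.sum_mul]
    simp only [Matrix.smul_mul, h2]
    simp only [M]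
    simp only [Finset.smul_sum]
    rw [Finset.sum_comm]
    refine Finset.sum_congr rfl fun g _ => ?_
    rw [hvc g c, Finset.sum_smul]
    refine Finset.sum_congr rfl fun h _ => ?_
    rw [mul_smul]
  -- some matrix is nonzero
  have hex : ∃ c, M j c ≠ 0 := by
    by_contra hcon
    push Not at hcon
    apply hv0
    funext c
    -- the element of the group algebra
    let a : MonoidAlgebra ℂ G := ∑ g : G, MonoidAlgebra.single g ((R'.ρ g⁻¹ *ᵥ v) c)
    have hlift : ∀ k, (F.R k).lift a = M k c := by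
      intro k
      simp only [a, map_sum, URep.lift_single, M]
    have ha : a = 0 := by
      apply F.ext_lift
      intro k
      rw [hlift, map_zero]
      by_cases hk : k = j
      · subst hk
        exact hcon c
      · rw [hM, hE, F.lift_idem_ne hk, Matrix.zero_mul]
    have hco := congrArg (fun x : MonoidAlgebra ℂ G => x.coeff 1) ha
    simp only [a] at hco
    have h1 : ∀ g : G, (MonoidAlgebra.single g ((R'.ρ g⁻¹ *ᵥ v) c)).coeff 1 =
        if g = 1 then (R'.ρ g⁻¹ *ᵥ v) c else 0 := by
      intro g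
      rw [MonoidAlgebra.coeff_single, Finsupp.single_apply]
    rw [MonoidAlgebra.coeff_sum, Finsupp.finsetSum_apply] at hco
    simp only [h1] at hco
    rw [Finset.sum_ite_eq' univ (1 : G)] at hco
    simpa using hco
  obtain ⟨c, hc⟩ := hex
  obtain ⟨y, hy⟩ : ∃ y, M j c *ᵥ y ≠ 0 := by
    by_contra hcon
    push Not at hcon
    apply hc
    ext a b
    have := congrFun (hcon (Pi.single b 1)) a
    simpa using this
  -- the map
  let T : (Fin d → ℂ) →ₗ[ℂ] (Fin (F.d j) → ℂ) :=
    { toFun := fun x => ∑ g : G, (R'.ρ g⁻¹ *ᵥ x) c • ((F.R j).ρ g *ᵥ y)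
      map_add' := fun x x' => by
        rw [← Finset.sum_add_distrib]
        refine Finset.sum_congr rfl fun g _ => ?_
        rw [Matrix.mulVec_add, Pi.add_apply, add_smul]
      map_smul' := fun r x => by
        simp only [RingHom.id_apply]
        rw [Finset.smul_sum]
        refine Finset.sum_congr rfl fun g _ => ?_
        rw [Matrix.mulVec_smul, Pi.smul_apply, smul_eq_mul, mul_smul] }
  refine ⟨T, ?_, ?_⟩
  · intro h u
    show ∑ g : G, (R'.ρ g⁻¹ *ᵥ (R'.ρ h *ᵥ u)) c • ((F.R j).ρ g *ᵥ y) =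
      (F.R j).ρ h *ᵥ ∑ g : G, (R'.ρ g⁻¹ *ᵥ u) c • ((F.R j).ρ g *ᵥ y)
    rw [Matrix.mulVec_sum, ← Equiv.sum_comp (Equiv.mulLeft h)]
    refine Finset.sum_congr rfl fun g _ => ?_
    simp only [Equiv.coe_mulLeft]
    rw [Matrix.mulVec_smul, Matrix.mulVec_mulVec, Matrix.mulVec_mulVec, ← map_mul, ← map_mul]
    congr 3
    group
  · show ∑ g : G, (R'.ρ g⁻¹ *ᵥ v) c • ((F.R j).ρ g *ᵥ y) ≠ 0
    have : ∑ g : G, (R'.ρ g⁻¹ *ᵥ v) c • ((F.R j).ρ g *ᵥ y) = M j c *ᵥ y := by
      simp only [M]
      rw [Matrix.sum_mulVec]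
      refine Finset.sum_congr rfl fun g _ => ?_
      rw [Matrix.smul_mulVec]
    rw [this]
    exact hy

end Idem

end Crest.Agent.S0222Lib.Planch

namespace Crest.Agent.S0222Lib.Shape

open Finset Matrix
open Crest.Agent.S0222Lib.Planch Crest.Agent.S0222Lib.SWord

variable {X L : Type*} [Fintype X] [DecidableEq X] [Fintype L] [DecidableEq L]

section Orbit

attribute [local instance] arrowAction

lemma smul_word' (g : Equiv.Perm X) (w : X → L) : g • w = w ∘ ⇑g⁻¹ := rfl

lemma stabCard_word (w : X → L) :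
    stabCard (G := Equiv.Perm X) w = ∏ a, (blk w a).factorial := by
  classical
  have h1 := DomMulAct.stabilizer_card w
  have h2 : stabCard (G := Equiv.Perm X) w =
      Fintype.card {g : Equiv.Perm X // w ∘ g = w} := by
    unfold stabCard
    rw [Fintype.card_subtype]
    refine Finset.card_bij (fun g _ => g⁻¹) ?_ ?_ ?_
    · intro g hg
      simp only [mem_filter, mem_univ, true_and] at hg ⊢
      rw [smul_word'] at hg
      simpa using hg
    · intro a _ b _ e
      exact inv_injective e
    · intro g hg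
      simp only [mem_filter, mem_univ, true_and] at hg
      refine ⟨g⁻¹, ?_, by simp⟩
      simp only [mem_filter, mem_univ, true_and]
      rw [smul_word', inv_inv]
      exact hg
  rw [h2, h1]
  refine Finset.prod_congr rfl fun a _ => ?_
  congr 1
  rw [Fintype.card_subtype]
  rfl

/-- The size of the orbit of a word is the multinomial coefficient. -/
theorem card_orbit_word (w : X → L) : (orbitF (Equiv.Perm X) w).card = multi w := by
  classical
  have h := sum_smul_eq (G := Equiv.Perm X) w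
    (fun ω => if ω ∈ orbitF (Equiv.Perm X) w then (1 : ℝ) else 0) (fun ω hω => by
      rw [if_neg]
      rwa [mem_orbitF])
  have h1 : ∀ g : Equiv.Perm X, (if g • w ∈ orbitF (Equiv.Perm X) w then (1 : ℝ) else 0) = 1 := by
    intro g
    rw [if_pos]
    exact mem_orbitF.2 ⟨g, rfl⟩
  simp only [h1, Finset.sum_const, Finset.card_univ, nsmul_eq_mul, mul_one, Fintype.card_perm] at h
  rw [Finset.sum_boole] at h
  simp only [Finset.filter_mem_eq_inter, Finset.univ_inter] at h
  have h2 : (Fintype.card X).factorial = stabCard (G := Equiv.Perm X) w * (orbitF (Equiv.Perm X) w).card := by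
    exact_mod_cast h
  rw [stabCard_word] at h2
  have h3 := multi_spec w
  have hpos : 0 < ∏ a, (blk w a).factorial := Finset.prod_pos fun a _ => Nat.factorial_pos _
  exact Nat.eq_of_mul_eq_mul_left hpos (h2.symm.trans h3.symm)

/-- **The dimension is at most the multinomial coefficient of a nonzero shape vector.** -/
theorem d_le_multi (F : Family (Equiv.Perm X)) (i : Fin F.r) {od : L → Bool} {w : X → L}
    {v : Fin (F.d i) → ℂ} (hv : Adm (F.R i) od w v) (hv0 : v ≠ 0) : F.d i ≤ multi w := by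
  classical
  set R := F.R i with hR
  rw [← card_orbit_word]
  -- the injective map to functions on the orbit
  let rep : {ω // ω ∈ orbitF (Equiv.Perm X) w} → Equiv.Perm X :=
    fun ω => Classical.choose (mem_orbitF.1 ω.2)
  have hrep : ∀ ω, rep ω • w = ω.1 := fun ω => Classical.choose_spec (mem_orbitF.1 ω.2)
  let Ψ : (Fin (F.d i) → ℂ) →ₗ[ℂ] ({ω // ω ∈ orbitF (Equiv.Perm X) w} → ℂ) :=
    { toFun := fun u ω => star (R.ρ (rep ω) *ᵥ v) ⬝ᵥ u
      map_add' := fun u u' => by
        funext ω
        simp [dotProduct_add]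
      map_smul' := fun c u => by
        funext ω
        simp [dotProduct_smul] }
  have hinj : Function.Injective Ψ := by
    rw [injective_iff_map_eq_zero]
    intro u hu
    have hzero : ∀ g : Equiv.Perm X, star (R.ρ g *ᵥ v) ⬝ᵥ u = 0 := by
      intro g
      set ω : {ω // ω ∈ orbitF (Equiv.Perm X) w} := ⟨g • w, mem_orbitF.2 ⟨g, rfl⟩⟩ with hω
      have h1 : star (R.ρ (rep ω) *ᵥ v) ⬝ᵥ u = 0 := congrFun hu ω
      have h2 : rep ω • w = g • w := hrep ω
      set s := (rep ω)⁻¹ * g with hs
      have hsw : w ∘ s = w := by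
        have h3 : s • w = w := by
          rw [hs, mul_smul, ← h2, inv_smul_smul]
        rw [smul_word'] at h3
        funext x
        have := congrFun h3 (s x)
        simp only [Function.comp_apply] at this
        show w (s x) = w x
        rw [← this]
        simp
      have hrk : Function.Injective (fun x => (Fintype.equivFin X x).val) :=
        fun x y e => (Fintype.equivFin X).injective (Fin.ext e)
      have h4 := hv.act_eq_epsS hrk s hsw
      have h5 : g = rep ω * s := by
        rw [hs]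
        group
      rw [h5, map_mul, ← Matrix.mulVec_mulVec, h4, Matrix.mulVec_smul, star_smul, smul_dotProduct, h1]
      simp
    have hsch := F.schur i v u
    have h0 : ∑ g, ‖star (R.ρ g *ᵥ v) ⬝ᵥ u‖ ^ 2 = 0 := by
      refine Finset.sum_eq_zero fun g _ => ?_
      rw [hzero g]
      simp
    rw [h0] at hsch
    have hk : 0 < (Fintype.card (Equiv.Perm X) : ℝ) / (F.d i : ℝ) * nsq v := by
      have hc : (0 : ℝ) < Fintype.card (Equiv.Perm X) := by exact_mod_cast Fintype.card_pos
      have hd : (0 : ℝ) < F.d i := by exact_mod_cast F.dpos i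
      have := pos_nsq hv0
      positivity
    have : nsq u = 0 := by
      rcases mul_eq_zero.1 hsch.symm with h1 | h1
      · exact absurd h1 hk.ne'
      · exact h1
    exact nsq_eq_zero_iff.1 this
  have := LinearMap.finrank_le_finrank_of_injective hinj
  simpa using this

end Orbit

section Class

/-- The embedding of a symmetric group on a class of positions. -/
noncomputable abbrev emb {m : ℕ} (e : Fin m ↪ X) : Equiv.Perm (Fin m) →* Equiv.Perm X :=
  Equiv.Perm.viaEmbeddingHom e

lemma emb_apply {m : ℕ} (e : Fin m ↪ X) (g : Equiv.Perm (Fin m)) (a : Fin m) :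
    emb e g (e a) = e (g a) := by
  rw [Equiv.Perm.viaEmbeddingHom_apply]
  exact Equiv.Perm.viaEmbedding_apply g e a

lemma emb_off {m : ℕ} (e : Fin m ↪ X) (g : Equiv.Perm (Fin m)) {x : X} (hx : x ∉ Set.range e) :
    emb e g x = x := by
  rw [Equiv.Perm.viaEmbeddingHom_apply]
  exact Equiv.Perm.viaEmbedding_apply_of_notMem g e x hx

lemma emb_swap {m : ℕ} (e : Fin m ↪ X) (a b : Fin m) :
    emb e (Equiv.swap a b) = Equiv.swap (e a) (e b) := by
  ext x
  by_cases hx : x ∈ Set.range e
  · obtain ⟨c, rfl⟩ := hx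
    rw [emb_apply]
    by_cases h1 : c = a
    · subst h1
      simp
    · by_cases h2 : c = b
      · subst h2
        simp
      · rw [Equiv.swap_apply_of_ne_of_ne h1 h2, Equiv.swap_apply_of_ne_of_ne
          (fun h => h1 (e.injective h)) (fun h => h2 (e.injective h))]
  · rw [emb_off e _ hx, Equiv.swap_apply_of_ne_of_ne]
    · rintro rfl
      exact hx ⟨a, rfl⟩
    · rintro rfl
      exact hx ⟨b, rfl⟩

/-- The sign character as a character with complex values, or the trivial one. -/
noncomputable def twist (σ : Bool) (m : ℕ) : Equiv.Perm (Fin m) →* ℂ :=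
  if σ = true then
    ((Int.castRingHom ℂ : ℤ →+* ℂ) : ℤ →* ℂ).comp ((Units.coeHom ℤ).comp Equiv.Perm.sign)
  else 1

lemma twist_swap (σ : Bool) {m : ℕ} {a b : Fin m} (hab : a ≠ b) :
    twist σ m (Equiv.swap a b) = if σ = true then -1 else 1 := by
  unfold twist
  by_cases h : σ = true
  · simp [h, Equiv.Perm.sign_swap hab]
  · simp [h]

lemma twist_mul_self (σ : Bool) {m : ℕ} (g : Equiv.Perm (Fin m)) :
    twist σ m g * twist σ m g = 1 := by
  unfold twist
  by_cases h : σ = true
  · simp only [h, if_true, MonoidHom.comp_apply, Units.coeHom_apply]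
    rcases Int.units_eq_one_or (Equiv.Perm.sign g) with h1 | h1 <;> simp [h1]
  · simp [h]

/-- The representation `V_j` twisted by a character. -/
noncomputable def twRep (σ : Bool) {m d : ℕ} (R : URep (Equiv.Perm (Fin m)) d) :
    Representation ℂ (Equiv.Perm (Fin m)) (Fin d → ℂ) where
  toFun g := twist σ m g • Matrix.toLin' (R.ρ g)
  map_one' := by
    ext x
    simp
  map_mul' g h := by
    rw [map_mul, map_mul, Matrix.toLin'_mul]
    ext x k
    simp [mul_assoc, mul_left_comm]

lemma twRep_apply (σ : Bool) {m d : ℕ} (R : URep (Equiv.Perm (Fin m)) d) (g : Equiv.Perm (Fin m))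
    (x : Fin d → ℂ) : twRep σ R g x = twist σ m g • (R.ρ g *ᵥ x) := by
  simp [twRep]

/-- Sorting a set of letters by size. -/
lemma exists_sorted (A : Finset L) (c : L → ℕ) :
    ∃ π : Fin A.card ≃ {l // l ∈ A}, Antitone (fun a => c (π a).1) := by
  classical
  let e0 : {l // l ∈ A} ≃ Fin A.card := A.equivFin
  let f : Fin A.card → ℕ := fun a => c (e0.symm a).1
  let π0 : Equiv.Perm (Fin A.card) := Fin.revPerm.trans (Tuple.sort f)
  refine ⟨π0.trans e0.symm, ?_⟩
  intro a b hab
  have h1 : Monotone (f ∘ Tuple.sort f) := Tuple.monotone_sort f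
  exact h1 (Fin.rev_le_rev.2 hab)

variable {d : ℕ} {R : URep (Equiv.Perm X) d} {od : L → Bool} {w₀ : X → L}

/-- **The dimension bound for a class.** -/
theorem class_dim_le (hmin : IsMinShape R od w₀) {v : Fin d → ℂ} (hv : Adm R od w₀ v) (hv0 : v ≠ 0)
    {m : ℕ} (e : Fin m ↪ X) (A : Finset L) (σ : Bool) (hA1 : ∀ a, w₀ (e a) ∈ A)
    (hA2 : ∀ x, w₀ x ∈ A → x ∈ Set.range e) (hσ : ∀ l ∈ A, od l = σ)
    (F' : Family (Equiv.Perm (Fin m))) (j : Fin F'.r)
    (hj : (R.comp (emb e)).lift (F'.idem j) *ᵥ v = v) :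
    m.factorial ≤ F'.d j * ∏ l ∈ A, (blk w₀ l + A.card - 1).factorial := by
  classical
  obtain ⟨T, hT, hTv⟩ := exists_equivariant F' j (R.comp (emb e)) hj hv0
  obtain ⟨π, hπ⟩ := exists_sorted A (blk w₀)
  let w₁ : Fin m → Fin A.card := fun a => π.symm ⟨w₀ (e a), hA1 a⟩
  have hw₁ : ∀ a c, w₁ a = c ↔ w₀ (e a) = (π c).1 := by
    intro a c
    simp only [w₁]
    rw [Equiv.symm_apply_eq]
    exact Subtype.ext_iff
  -- the fibres
  have hfil : ∀ c, univ.filter (fun x => w₀ x = (π c).1) = (univ.filter fun i => w₁ i = c).map e := by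
    intro c
    ext x
    simp only [mem_filter, mem_univ, true_and, mem_map]
    constructor
    · intro hx
      have hxA : w₀ x ∈ A := by
        rw [hx]
        exact (π c).2
      obtain ⟨a, rfl⟩ := hA2 x hxA
      exact ⟨a, (hw₁ a c).2 hx, rfl⟩
    · rintro ⟨a, ha, rfl⟩
      exact (hw₁ a c).1 ha
  have hcont : ∀ c, Specht.content w₁ c = blk w₀ (π c).1 := by
    intro c
    unfold blk Specht.content
    rw [hfil, Finset.card_map]
  -- the sign of a class
  have hsgn : ∀ a b : Fin m, a ≠ b → sgnL od (w₀ (e a)) = twist σ m (Equiv.swap a b) := by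
    intro a b hab
    rw [twist_swap σ hab]
    unfold sgnL
    rw [hσ _ (hA1 a)]
  -- the stabiliser
  have hstab : ∀ g : Equiv.Perm (Fin m), w₁ ∘ g = w₁ → R.ρ (emb e g) *ᵥ v = twist σ m g • v := by
    intro g hg
    refine stab_induction (w := w₁) univ (P := fun g => R.ρ (emb e g) *ᵥ v = twist σ m g • v) ?_ ?_ g hg
      (fun z hz => absurd (mem_univ z) hz)
    · simp
    · intro x y g' _ _ hxy hw _ _ hP
      have hxy' : e x ≠ e y := fun h => hxy (e.injective h)
      have hwe : w₀ (e x) = w₀ (e y) := by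
        have h1 := (hw₁ x (w₁ x)).1 rfl
        have h2 := (hw₁ y (w₁ x)).1 hw.symm
        rw [h1, h2]
      rw [map_mul, map_mul, map_mul, emb_swap, ← Matrix.mulVec_mulVec, hP, Matrix.mulVec_smul,
        hv _ _ hxy' hwe, hsgn x y hxy, smul_smul, mul_comm]
  set v₁ := T v with hv₁
  set ρ' := twRep σ (F'.R j) with hρ'
  have hTrho : ∀ (g : Equiv.Perm (Fin m)) (u : Fin d → ℂ),
      T (R.ρ (emb e g) *ᵥ u) = (F'.R j).ρ g *ᵥ T u := fun g u => hT g u
  have hfix : ∀ g : Equiv.Perm (Fin m), w₁ ∘ g = w₁ → ρ' g v₁ = v₁ := by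
    intro g hg
    rw [hρ', twRep_apply, hv₁, ← hTrho, hstab g hg, map_smul, smul_smul, twist_mul_self, one_smul]
  have hrel : ∀ (a b : Fin A.card), a.val + 1 = b.val → ∀ j', w₁ j' = b →
      v₁ + ∑ i ∈ univ.filter (fun i => w₁ i = a), ρ' (Equiv.swap j' i) v₁ = 0 := by
    intro a b hab j' hj'
    have hne : a ≠ b := by
      intro h
      rw [h] at hab
      omega
    have hj'' : w₀ (e j') = (π b).1 := (hw₁ j' b).1 hj'
    have hla : w₀ (e j') ≠ (π a).1 := by
      rw [hj'']
      intro h
      exact hne (π.injective (Subtype.ext h)).symm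
    have hle : blk w₀ (w₀ (e j')) ≤ blk w₀ (π a).1 := by
      rw [hj'']
      have hab' : a ≤ b := Fin.le_def.2 (by omega)
      exact hπ hab'
    have hraise := hmin.raising hv hla hle
    rw [hfil, Finset.sum_map] at hraise
    have h2 := congrArg T hraise
    rw [map_add, map_smul, map_sum, map_zero] at h2
    rw [← h2]
    congr 1
    rw [Finset.smul_sum]
    refine Finset.sum_congr rfl fun i hi => ?_
    have hi' : w₁ i = a := by simpa using hi
    have hij : j' ≠ i := by
      rintro rfl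
      rw [hj'] at hi'
      exact hne hi'.symm
    have h3 : Equiv.swap (e j') (e i) = emb e (Equiv.swap j' i) := (emb_swap e j' i).symm
    rw [hρ', twRep_apply, h3, hTrho]
    congr 1
    rw [Equiv.swap_comm, ← hsgn i j' hij.symm, (hw₁ i a).1 hi']
  have hanti : Antitone (fun c => blk w₀ (π c).1) := hπ
  have hmain := Specht.factorial_le_finrank_mul_of_top ρ' (μ := fun c => blk w₀ (π c).1) hanti w₁ hcont
    v₁ hTv hfix hrel
  have hfin : Module.finrank ℂ (Fin (F'.d j) → ℂ) = F'.d j := by simp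
  rw [hfin] at hmain
  refine hmain.trans (le_of_eq ?_)
  congr 1
  rw [← Finset.prod_coe_sort A (fun l => (blk w₀ l + A.card - 1).factorial)]
  exact Equiv.prod_comp π (fun l : {l // l ∈ A} => (blk w₀ l.1 + A.card - 1).factorial)

/-- The isotypic projections of a class preserve shape vectors. -/
theorem Adm.lift_idem {v : Fin d → ℂ} (hv : Adm R od w₀ v) {m : ℕ} (e : Fin m ↪ X) (A : Finset L)
    (hA1 : ∀ a, w₀ (e a) ∈ A) (hA2 : ∀ x, w₀ x ∈ A → x ∈ Set.range e)
    (F' : Family (Equiv.Perm (Fin m))) (j : Fin F'.r) :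
    Adm R od w₀ ((R.comp (emb e)).lift (F'.idem j) *ᵥ v) := by
  intro x y hxy hw
  by_cases hx : x ∈ Set.range e
  · obtain ⟨a, rfl⟩ := hx
    have hy : y ∈ Set.range e := hA2 y (by rw [← hw]; exact hA1 a)
    obtain ⟨b, rfl⟩ := hy
    have hab : a ≠ b := fun h => hxy (by rw [h])
    have h1 : R.ρ (Equiv.swap (e a) (e b)) = (R.comp (emb e)).ρ (Equiv.swap a b) := by
      rw [URep.comp_rho, emb_swap]
    rw [h1, URep.rho_mul_lift_idem, ← h1, hv _ _ hxy hw, Matrix.mulVec_smul]
  · have hy : y ∉ Set.range e := by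
      intro hy
      obtain ⟨b, rfl⟩ := hy
      exact hx (hA2 x (by rw [hw]; exact hA1 b))
    have hcomm : R.ρ (Equiv.swap x y) * (R.comp (emb e)).lift (F'.idem j) =
        (R.comp (emb e)).lift (F'.idem j) * R.ρ (Equiv.swap x y) := by
      rw [URep.lift_eq_sum, Finset.mul_sum, Finset.sum_mul]
      refine Finset.sum_congr rfl fun g _ => ?_
      rw [Matrix.mul_smul, Matrix.smul_mul, URep.comp_rho, ← map_mul, ← map_mul]
      congr 2
      have := Equiv.mul_swap_eq_swap_mul (emb e g) x y
      rw [emb_off e g hx, emb_off e g hy] at this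
      exact this.symm
    rw [Matrix.mulVec_mulVec, hcomm, ← Matrix.mulVec_mulVec, hv _ _ hxy hw, Matrix.mulVec_smul]

/-- Projections for disjoint classes commute. -/
theorem lift_idem_comm {m m' : ℕ} (e : Fin m ↪ X) (e' : Fin m' ↪ X)
    (hdis : ∀ a b, e a ≠ e' b) (F' : Family (Equiv.Perm (Fin m))) (F'' : Family (Equiv.Perm (Fin m')))
    (j : Fin F'.r) (j' : Fin F''.r) (u : Fin d → ℂ) :
    (R.comp (emb e)).lift (F'.idem j) *ᵥ ((R.comp (emb e')).lift (F''.idem j') *ᵥ u) =
      (R.comp (emb e')).lift (F''.idem j') *ᵥ ((R.comp (emb e)).lift (F'.idem j) *ᵥ u) := by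
  rw [Matrix.mulVec_mulVec, Matrix.mulVec_mulVec]
  congr 1
  have hcg : ∀ g g', Commute ((R.comp (emb e)).ρ g) ((R.comp (emb e')).ρ g') := by
    intro g g'
    have hcomm : Equiv.Perm.Disjoint (emb e g) (emb e' g') := by
      intro x
      by_cases hx : x ∈ Set.range e
      · right
        apply emb_off
        rintro ⟨b, rfl⟩
        obtain ⟨a, ha⟩ := hx
        exact hdis a b ha
      · left
        exact emb_off e g hx
    rw [URep.comp_rho, URep.comp_rho]
    show _ * _ = _ * _
    rw [← map_mul, ← map_mul, hcomm.commute.eq]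
  have hc : Commute ((R.comp (emb e)).lift (F'.idem j)) ((R.comp (emb e')).lift (F''.idem j')) := by
    rw [URep.lift_eq_sum, URep.lift_eq_sum]
    refine Commute.sum_left _ _ _ fun g _ => Commute.sum_right _ _ _ fun g' _ => ?_
    exact ((hcg g g').smul_left _).smul_right _
  exact hc.eq

/-- **Classes**: for a family of disjoint classes of blocks at a minimal word there is a nonzero
shape vector isotypic for the symmetric group of each class, and the representations
have large dimensions. -/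
theorem exists_classes (hmin : IsMinShape R od w₀) {ι : Type*} [DecidableEq ι] (S : Finset ι)
    (m : ι → ℕ) (e : ∀ s, Fin (m s) ↪ X) (A : ι → Finset L) (σ : ι → Bool)
    (hA1 : ∀ s ∈ S, ∀ a, w₀ (e s a) ∈ A s) (hA2 : ∀ s ∈ S, ∀ x, w₀ x ∈ A s → x ∈ Set.range (e s))
    (hσ : ∀ s ∈ S, ∀ l ∈ A s, od l = σ s)
    (hdis : ∀ s ∈ S, ∀ s' ∈ S, s ≠ s' → ∀ a b, e s a ≠ e s' b)
    (Fs : ∀ s, Family (Equiv.Perm (Fin (m s)))) :
    ∃ v₀ : Fin d → ℂ, v₀ ≠ 0 ∧ Adm R od w₀ v₀ ∧ ∀ s ∈ S, ∃ j : Fin (Fs s).r,
      (R.comp (emb (e s))).lift ((Fs s).idem j) *ᵥ v₀ = v₀ ∧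
      (m s).factorial ≤ (Fs s).d j * ∏ l ∈ A s, (blk w₀ l + (A s).card - 1).factorial := by
  classical
  have key : ∀ S' : Finset ι, S' ⊆ S → ∃ v₀ : Fin d → ℂ, v₀ ≠ 0 ∧ Adm R od w₀ v₀ ∧ ∀ s ∈ S',
      ∃ j : Fin (Fs s).r, (R.comp (emb (e s))).lift ((Fs s).idem j) *ᵥ v₀ = v₀ := by
    intro S'
    induction S' using Finset.induction_on with
    | empty =>
      intro _
      obtain ⟨v, hv0, hv⟩ := hmin.1
      exact ⟨v, hv0, hv, fun s hs => absurd hs (Finset.notMem_empty s)⟩
    | insert s S'' hs ih =>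
      intro hsub
      obtain ⟨v, hv0, hv, hiso⟩ := ih (fun x hx => hsub (mem_insert_of_mem hx))
      have hsS : s ∈ S := hsub (mem_insert_self _ _)
      have hexj : ∃ j : Fin (Fs s).r, (R.comp (emb (e s))).lift ((Fs s).idem j) *ᵥ v ≠ 0 := by
        by_contra hc
        push Not at hc
        apply hv0
        rw [← (R.comp (emb (e s))).sum_lift_idem (Fs s) v]
        exact Finset.sum_eq_zero fun j _ => hc j
      obtain ⟨j, hj⟩ := hexj
      refine ⟨_, hj, hv.lift_idem (e s) (A s) (hA1 s hsS) (hA2 s hsS) (Fs s) j, ?_⟩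
      intro s' hs'
      rcases mem_insert.1 hs' with rfl | hs'
      · exact ⟨j, URep.lift_idem_idem (Fs s') _ j v⟩
      · obtain ⟨j', hj'⟩ := hiso s' hs'
        refine ⟨j', ?_⟩
        have hne : s' ≠ s := fun h => hs (h ▸ hs')
        rw [lift_idem_comm (e s') (e s) (hdis s' (hsub (mem_insert_of_mem hs')) s hsS hne), hj']
  obtain ⟨v₀, hv0, hv, hiso⟩ := key S subset_rfl
  refine ⟨v₀, hv0, hv, fun s hs => ?_⟩
  obtain ⟨j, hj⟩ := hiso s hs
  exact ⟨j, hj, class_dim_le hmin hv hv0 (e s) (A s) (σ s) (hA1 s hs) (hA2 s hs) (hσ s hs) (Fs s) j hj⟩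

end Class

end Crest.Agent.S0222Lib.Shape
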