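import Crest.Agent.S0222Lib.ShapeDim
import Crest.Agent.S0222Lib.FrobDim

/-!
# S0222: minimal words with a prescribed vacuum block, and the classes of a minimal word

* `multi_eq_of_iff`, `Adm.relabel`: `Adm` and `multi` depend only on the partition and the parities
  of a word;
* `IsMinOn R B₀ w₀`: `w₀` has the vacuum block `B₀ᶜ` exactly, a nonzero shape vector, and the least multinomial
  coefficient among such words (over any alphabet: `IsMinOn.le_multi`);
* `exists_isMinOn`, `IsMinOn.raising`: raising relations for moves outside the vacuum block;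
* `class_top`: at a word with raising relations, the image of a vector under an equivariant map
  to `V_j` is a top vector for the class in `V_j` twisted by the sign of the class;
* `class_frob`: the dimension bound of a class.
-/

set_option autoImplicit false
set_option linter.unusedSectionVars false

namespace Crest.Agent.S0222Lib.Shape

open Finset Matrix
open Crest.Agent.S0222Lib.Planch Crest.Agent.S0222Lib.SWord

variable {X : Type*} [Fintype X] [DecidableEq X]

section Relabel

variable {L L' : Type*} [Fintype L] [DecidableEq L] [Fintype L'] [DecidableEq L']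

attribute [local instance] arrowAction

/-- The multinomial coefficient depends only on the partition of a word. -/
theorem multi_eq_of_iff {w : X → L} {w' : X → L'} (h : ∀ x y, w x = w y ↔ w' x = w' y) :
    multi w = multi w' := by
  classical
  have h1 := multi_spec w
  have h2 := multi_spec w'
  rw [← stabCard_word] at h1 h2
  have h3 : stabCard (G := Equiv.Perm X) w = stabCard (G := Equiv.Perm X) w' := by
    unfold stabCard
    congr 1
    ext g
    simp only [mem_filter, mem_univ, true_and]
    rw [smul_word', smul_word', funext_iff, funext_iff]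
    exact forall_congr' fun x => h _ _
  rw [h3] at h1
  exact Nat.eq_of_mul_eq_mul_left (stabCard_pos (G := Equiv.Perm X) w') (h1.trans h2.symm)

variable {d : ℕ} {R : URep (Equiv.Perm X) d}

/-- Shape vectors depend only on the partition and the parities of a word. -/
lemma Adm.relabel {od : L → Bool} {od' : L' → Bool} {w : X → L} {w' : X → L'} {v : Fin d → ℂ}
    (hv : Adm R od w v) (h : ∀ x y, w' x = w' y → w x = w y) (hod : ∀ x, od' (w' x) = od (w x)) :
    Adm R od' w' v := by
  intro x y hxy he
  rw [hv x y hxy (h x y he)]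
  unfold sgnL
  rw [hod]

end Relabel

section MinOn

variable {d : ℕ}

/-- The universal alphabet. -/
abbrev UL (X : Type*) := Option (X × Bool)

/-- The parity of the universal alphabet: `none` is the even vacuum. -/
def odU : UL X → Bool
  | none => false
  | some l => l.2

/-- A word with vacuum block `B₀ᶜ` with a nonzero shape vector and the least multinomial. -/
structure IsMinOn (R : URep (Equiv.Perm X) d) (B₀ : Finset X) (w₀ : X → UL X) : Prop where
  vac : ∀ x, w₀ x = none ↔ x ∉ B₀
  ex : ∃ v : Fin d → ℂ, v ≠ 0 ∧ Adm R odU w₀ v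
  min : ∀ w' : X → UL X, (∀ x, w' x = none ↔ x ∉ B₀) →
    (∃ v' : Fin d → ℂ, v' ≠ 0 ∧ Adm R odU w' v') → multi w₀ ≤ multi w'

variable {R : URep (Equiv.Perm X) d} {B₀ : Finset X} {w₀ : X → UL X}

/-- Minimality against a word on any alphabet. -/
theorem IsMinOn.le_multi (h : IsMinOn R B₀ w₀) {L' : Type*} [Fintype L'] [DecidableEq L']
    (od' : L' → Bool) (l₀ : L') (hl₀ : od' l₀ = false) (w' : X → L')
    (hw' : ∀ x, w' x = l₀ ↔ x ∉ B₀) {v' : Fin d → ℂ} (hv0 : v' ≠ 0) (hv' : Adm R od' w' v') :
    multi w₀ ≤ multi w' := by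
  classical
  let ι : L' → UL X := fun l => if l = l₀ then none else
    if h : ∃ x, w' x = l then some (Classical.choose h, od' l) else none
  have hι₀ : ι l₀ = none := by simp [ι]
  have hι : ∀ x, w' x ≠ l₀ → ι (w' x) = some (Classical.choose (⟨x, rfl⟩ : ∃ y, w' y = w' x), od' (w' x)) := by
    intro x hx
    simp only [ι]
    rw [if_neg hx, dif_pos ⟨x, rfl⟩]
  have hiff : ∀ x y, ι (w' x) = ι (w' y) ↔ w' x = w' y := by
    intro x y
    constructor
    · intro e
      by_cases hx : w' x = l₀
      · by_cases hy : w' y = l₀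
        · rw [hx, hy]
        · rw [hx, hι₀, hι y hy] at e
          exact absurd e (by simp)
      · by_cases hy : w' y = l₀
        · rw [hy, hι₀, hι x hx] at e
          exact absurd e (by simp)
        · rw [hι x hx, hι y hy] at e
          have e1 : Classical.choose (⟨x, rfl⟩ : ∃ z, w' z = w' x) =
              Classical.choose (⟨y, rfl⟩ : ∃ z, w' z = w' y) := (Prod.mk.inj (Option.some.inj e)).1
          have h1 := Classical.choose_spec (⟨x, rfl⟩ : ∃ z, w' z = w' x)
          have h2 := Classical.choose_spec (⟨y, rfl⟩ : ∃ z, w' z = w' y)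
          rw [← h1, ← h2, e1]
    · intro e
      rw [e]
  have hod : ∀ x, odU (ι (w' x)) = od' (w' x) := by
    intro x
    by_cases hx : w' x = l₀
    · rw [hx, hι₀, hl₀]
      rfl
    · rw [hι x hx]
      rfl
  have hm : multi (ι ∘ w') = multi w' := multi_eq_of_iff (fun x y => hiff x y)
  rw [← hm]
  refine h.min _ ?_ ⟨v', hv0, ?_⟩
  · intro x
    rw [← hw' x]
    simp only [Function.comp_apply]
    constructor
    · intro e
      by_contra hx
      rw [hι x hx] at e
      exact absurd e (by simp)
    · intro e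
      rw [e, hι₀]
  · exact hv'.relabel (fun x y e => (hiff x y).1 e) hod

/-- **Existence of minimal words.** -/
theorem exists_isMinOn (R : URep (Equiv.Perm X) d) {b : ℕ} {a : Fin b → X} {v : Fin d → ℂ} (hv0 : v ≠ 0)
    (hv : ∀ h ∈ ptStab a, R.ρ h *ᵥ v = v) : ∃ w₀, IsMinOn R (univ.image a) w₀ := by
  classical
  set B₀ := univ.image a with hB₀
  set Q : Finset (X → UL X) := univ.filter fun w => (∀ x, w x = none ↔ x ∉ B₀) ∧
    ∃ v' : Fin d → ℂ, v' ≠ 0 ∧ Adm R odU w v' with hQ
  have hne : Q.Nonempty := by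
    refine ⟨fun x => if x ∈ B₀ then some (x, false) else none, ?_⟩
    simp only [hQ, mem_filter, mem_univ, true_and]
    refine ⟨fun x => ?_, v, hv0, ?_⟩
    · by_cases hx : x ∈ B₀ <;> simp [hx]
    · intro x y hxy he
      by_cases hx : x ∈ B₀
      · by_cases hy : y ∈ B₀
        · simp only [hx, hy, if_true, Option.some.injEq, Prod.mk.injEq, and_true] at he
          exact absurd he hxy
        · simp [hx, hy] at he
      · by_cases hy : y ∈ B₀
        · simp [hx, hy] at he
        · have hs : Equiv.swap x y ∈ ptStab a := by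
            intro j
            apply Equiv.swap_apply_of_ne_of_ne
            · rintro rfl
              exact hx (mem_image_of_mem a (mem_univ j))
            · rintro rfl
              exact hy (mem_image_of_mem a (mem_univ j))
          rw [hv _ hs]
          simp [hx, sgnL, odU]
  obtain ⟨w, hw, hmin⟩ := Finset.exists_min_image Q multi hne
  have hw' := (mem_filter.1 hw).2
  refine ⟨w, hw'.1, hw'.2, fun w' h1 h2 => hmin w' ?_⟩
  simp only [hQ, mem_filter, mem_univ, true_and]
  exact ⟨h1, h2⟩

/-- **Raising relations** at a minimal word, for moves outside the vacuum block. -/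
theorem IsMinOn.raising (h : IsMinOn R B₀ w₀) {v : Fin d → ℂ} (hv : Adm R odU w₀ v) {j : X}
    {l : UL X} (hl : l ≠ none) (hj : w₀ j ≠ none) (hjl : w₀ j ≠ l)
    (hle : blk w₀ (w₀ j) ≤ blk w₀ l) :
    v + sgnL odU l • ∑ i ∈ univ.filter (fun i => w₀ i = l), R.ρ (Equiv.swap j i) *ᵥ v = 0 := by
  classical
  by_contra hne
  have h1 := h.min (Function.update w₀ j l) (fun x => ?_) ⟨_, hne, hv.raise hjl⟩
  · have h2 := multi_update_lt hjl hle
    omega
  · by_cases hx : x = j
    · subst hx
      rw [Function.update_self]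
      constructor
      · intro e
        exact absurd e hl
      · intro e
        exact absurd ((h.vac x).2 e) hj
    · rw [Function.update_of_ne hx]
      exact h.vac x

end MinOn

section ClassTop

variable {L : Type*} [Fintype L] [DecidableEq L] {d : ℕ} {R : URep (Equiv.Perm X) d} {od : L → Bool}
  {w₀ : X → L}

/-- The word of a class on the positions of the class. -/
def clsWord {m : ℕ} (e : Fin m ↪ X) {A : Finset L} (π : Fin A.card ≃ {l // l ∈ A})
    (hA1 : ∀ a, w₀ (e a) ∈ A) : Fin m → Fin A.card :=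
  fun a => π.symm ⟨w₀ (e a), hA1 a⟩

lemma clsWord_eq_iff {m : ℕ} {e : Fin m ↪ X} {A : Finset L} {π : Fin A.card ≃ {l // l ∈ A}}
    {hA1 : ∀ a, w₀ (e a) ∈ A} (a : Fin m) (c : Fin A.card) :
    clsWord e π hA1 a = c ↔ w₀ (e a) = (π c).1 := by
  unfold clsWord
  rw [Equiv.symm_apply_eq]
  exact Subtype.ext_iff

/-- **A top vector in the class representation.** -/
theorem class_top {v : Fin d → ℂ} (hv : Adm R od w₀ v)
    {m : ℕ} (e : Fin m ↪ X) (A : Finset L) (σ : Bool) (hA1 : ∀ a, w₀ (e a) ∈ A)
    (hA2 : ∀ x, w₀ x ∈ A → x ∈ Set.range e) (hσ : ∀ l ∈ A, od l = σ)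
    (hrais : ∀ (a : Fin m) (l : L), l ∈ A → w₀ (e a) ≠ l → blk w₀ (w₀ (e a)) ≤ blk w₀ l →
      v + sgnL od l • ∑ i ∈ univ.filter (fun i => w₀ i = l), R.ρ (Equiv.swap (e a) i) *ᵥ v = 0)
    (F' : Family (Equiv.Perm (Fin m))) (j : Fin F'.r)
    {T : (Fin d → ℂ) →ₗ[ℂ] (Fin (F'.d j) → ℂ)}
    (hT : ∀ h u, T (R.ρ (emb e h) *ᵥ u) = (F'.R j).ρ h *ᵥ T u)
    (π : Fin A.card ≃ {l // l ∈ A}) (hπ : Antitone (fun c => blk w₀ (π c).1)) :
    (∀ c, Specht.content (clsWord e π hA1) c = blk w₀ (π c).1) ∧
    (∀ g : Equiv.Perm (Fin m), clsWord e π hA1 ∘ g = clsWord e π hA1 →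
      twRep σ (F'.R j) g (T v) = T v) ∧
    (∀ (a b : Fin A.card), a.val + 1 = b.val → ∀ j', clsWord e π hA1 j' = b →
      T v + ∑ i ∈ univ.filter (fun i => clsWord e π hA1 i = a),
        twRep σ (F'.R j) (Equiv.swap j' i) (T v) = 0) := by
  classical
  set w₁ := clsWord e π hA1 with hw₁def
  have hw₁ : ∀ a c, w₁ a = c ↔ w₀ (e a) = (π c).1 := fun a c => clsWord_eq_iff a c
  have hfil : ∀ c, univ.filter (fun x => w₀ x = (π c).1) = (univ.filter fun i => w₁ i = c).map e := by
    intro c
    ext x
    simp only [mem_filter, mem_univ, true_and, mem_map]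
    constructor
    · intro hx
      have hxA : w₀ x ∈ A := by
        rw [hx]
        exact (π c).2
      obtain ⟨a, rfl⟩ := hA2 x hxA
      exact ⟨a, (hw₁ a c).2 hx, rfl⟩
    · rintro ⟨a, ha, rfl⟩
      exact (hw₁ a c).1 ha
  have hcont : ∀ c, Specht.content w₁ c = blk w₀ (π c).1 := by
    intro c
    unfold blk Specht.content
    rw [hfil, Finset.card_map]
  have hsgn : ∀ a b : Fin m, a ≠ b → sgnL od (w₀ (e a)) = twist σ m (Equiv.swap a b) := by
    intro a b hab
    rw [twist_swap σ hab]
    unfold sgnL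
    rw [hσ _ (hA1 a)]
  have hstab : ∀ g : Equiv.Perm (Fin m), w₁ ∘ g = w₁ → R.ρ (emb e g) *ᵥ v = twist σ m g • v := by
    intro g hg
    refine stab_induction (w := w₁) univ (P := fun g => R.ρ (emb e g) *ᵥ v = twist σ m g • v) ?_ ?_ g hg
      (fun z hz => absurd (mem_univ z) hz)
    · simp
    · intro x y g' _ _ hxy hw _ _ hP
      have hxy' : e x ≠ e y := fun h => hxy (e.injective h)
      have hwe : w₀ (e x) = w₀ (e y) := by
        have h1 := (hw₁ x (w₁ x)).1 rfl
        have h2 := (hw₁ y (w₁ x)).1 hw.symm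
        rw [h1, h2]
      rw [map_mul, map_mul, map_mul, emb_swap, ← Matrix.mulVec_mulVec, hP, Matrix.mulVec_smul,
        hv _ _ hxy' hwe, hsgn x y hxy, smul_smul, mul_comm]
  refine ⟨hcont, ?_, ?_⟩
  · intro g hg
    rw [twRep_apply, ← hT, hstab g hg, map_smul, smul_smul, twist_mul_self, one_smul]
  · intro a b hab j' hj'
    have hne : a ≠ b := by
      intro h
      rw [h] at hab
      omega
    have hj'' : w₀ (e j') = (π b).1 := (hw₁ j' b).1 hj'
    have hla : w₀ (e j') ≠ (π a).1 := by
      rw [hj'']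
      intro h
      exact hne (π.injective (Subtype.ext h)).symm
    have hle : blk w₀ (w₀ (e j')) ≤ blk w₀ (π a).1 := by
      rw [hj'']
      have hab' : a ≤ b := Fin.le_def.2 (by omega)
      exact hπ hab'
    have hraise := hrais j' (π a).1 (π a).2 hla hle
    rw [hfil, Finset.sum_map] at hraise
    have h2 := congrArg T hraise
    rw [map_add, map_smul, map_sum, map_zero] at h2
    rw [← h2]
    congr 1
    rw [Finset.smul_sum]
    refine Finset.sum_congr rfl fun i hi => ?_
    have hi' : w₁ i = a := by simpa using hi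
    have hij : j' ≠ i := by
      rintro rfl
      rw [hj'] at hi'
      exact hne hi'.symm
    have h3 : Equiv.swap (e j') (e i) = emb e (Equiv.swap j' i) := (emb_swap e j' i).symm
    rw [twRep_apply, h3, hT]
    congr 1
    rw [Equiv.swap_comm, ← hsgn i j' hij.symm, (hw₁ i a).1 hi']

/-- **The dimension bound of a class** (Frobenius). -/
theorem class_frob {v : Fin d → ℂ} (hv : Adm R od w₀ v) (hv0 : v ≠ 0)
    {m : ℕ} (e : Fin m ↪ X) (A : Finset L) (σ : Bool) (hA1 : ∀ a, w₀ (e a) ∈ A)
    (hA2 : ∀ x, w₀ x ∈ A → x ∈ Set.range e) (hσ : ∀ l ∈ A, od l = σ)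
    (hrais : ∀ (a : Fin m) (l : L), l ∈ A → w₀ (e a) ≠ l → blk w₀ (w₀ (e a)) ≤ blk w₀ l →
      v + sgnL od l • ∑ i ∈ univ.filter (fun i => w₀ i = l), R.ρ (Equiv.swap (e a) i) *ᵥ v = 0)
    (F' : Family (Equiv.Perm (Fin m))) (j : Fin F'.r)
    (hj : (R.comp (emb e)).lift (F'.idem j) *ᵥ v = v)
    (π : Fin A.card ≃ {l // l ∈ A}) (hπ : Antitone (fun c => blk w₀ (π c).1)) :
    m.factorial * ∏ a : Fin A.card, (A.card - 1 - a.val).factorial ≤
      F'.d j * ∏ a : Fin A.card, (blk w₀ (π a).1 + (A.card - 1 - a.val)).factorial := by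
  classical
  obtain ⟨T, hT, hTv⟩ := exists_equivariant F' j (R.comp (emb e)) hj hv0
  obtain ⟨hcont, hfix, hrel⟩ := class_top hv e A σ hA1 hA2 hσ hrais F' j (T := T) hT π hπ
  have hmain := Specht.frob_finrank_lower (twRep σ (F'.R j)) (μ := fun c => blk w₀ (π c).1) hπ
    (clsWord e π hA1) hcont (T v) hTv hfix hrel
  have hfin : Module.finrank ℂ (Fin (F'.d j) → ℂ) = F'.d j := by simp
  rwa [hfin] at hmain

end ClassTop

end Crest.Agent.S0222Lib.Shape
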