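import Crest.Agent.S0222Lib.ShapeMin

/-!
# S0222: primitive shape vectors

* `rankEl F j u z`: the element of the group algebra acting as `|z⟩⟨u|` on `V_j` and as zero on the others;
* `exists_primitive`: from a nonzero shape vector to one with the cyclic span under the symmetric groups
  of the classes of dimension at most `∏_s d_s`;
* `d_le_multi_mul`: `d_V ≤ multi P · dim Y` for a subspace `Y ∋ v₀` invariant under the stabiliser of
  the pattern `P`.
-/

set_option autoImplicit false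
set_option linter.unusedSectionVars false

namespace Crest.Agent.S0222Lib.Shape

open Finset Matrix
open scoped ComplexOrder
open Crest.Agent.S0222Lib.Planch Crest.Agent.S0222Lib.SWord

section RankOne

variable {H : Type*} [Group H] [Fintype H] [DecidableEq H] (F' : Family H) (j : Fin F'.r)

/-- The element of the group algebra acting as `|z⟩⟨u|` on `V_j`, and as zero on the others. -/
noncomputable def rankEl (u z : Fin (F'.d j) → ℂ) : MonoidAlgebra ℂ H :=
  F'.E.symm (Pi.single j (Matrix.vecMulVec z (star u)))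

lemma lift_rankEl_self (u z : Fin (F'.d j) → ℂ) :
    (F'.R j).lift (rankEl F' j u z) = Matrix.vecMulVec z (star u) := by
  have := congrFun (F'.E.apply_symm_apply (Pi.single j (Matrix.vecMulVec z (star u)))) j
  rwa [F'.E_apply, Pi.single_eq_same] at this

lemma lift_rankEl_ne {k : Fin F'.r} (h : k ≠ j) (u z : Fin (F'.d j) → ℂ) :
    (F'.R k).lift (rankEl F' j u z) = 0 := by
  have := congrFun (F'.E.apply_symm_apply (Pi.single j (Matrix.vecMulVec z (star u)))) k
  rwa [F'.E_apply, Pi.single_eq_of_ne h] at this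

lemma single_mul_rankEl (h : H) (u z : Fin (F'.d j) → ℂ) :
    MonoidAlgebra.single h 1 * rankEl F' j u z = rankEl F' j u ((F'.R j).ρ h *ᵥ z) := by
  apply F'.ext_lift
  intro k
  by_cases hk : k = j
  · subst hk
    rw [map_mul, lift_rankEl_self, lift_rankEl_self, URep.lift_single, one_smul]
    ext a b
    simp [Matrix.mul_apply, Matrix.vecMulVec_apply, Matrix.mulVec, dotProduct, Finset.sum_mul, mul_assoc]
  · rw [map_mul, lift_rankEl_ne F' j hk, lift_rankEl_ne F' j hk, mul_zero]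

lemma idem_mul_rankEl (u z : Fin (F'.d j) → ℂ) : F'.idem j * rankEl F' j u z = rankEl F' j u z := by
  apply F'.ext_lift
  intro k
  rw [map_mul, F'.lift_idem]
  split_ifs with hk
  · rw [one_mul]
  · rw [zero_mul, lift_rankEl_ne F' j hk]

lemma rankEl_mul_idem (u z : Fin (F'.d j) → ℂ) : rankEl F' j u z * F'.idem j = rankEl F' j u z := by
  rw [← F'.idem_central, idem_mul_rankEl]

lemma rankEl_add (u z z' : Fin (F'.d j) → ℂ) :
    rankEl F' j u (z + z') = rankEl F' j u z + rankEl F' j u z' := by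
  apply F'.ext_lift
  intro k
  by_cases hk : k = j
  · subst hk
    rw [map_add, lift_rankEl_self, lift_rankEl_self, lift_rankEl_self]
    ext a b
    simp [Matrix.vecMulVec_apply, add_mul]
  · rw [map_add, lift_rankEl_ne F' j hk, lift_rankEl_ne F' j hk, lift_rankEl_ne F' j hk, add_zero]

lemma rankEl_smul (u z : Fin (F'.d j) → ℂ) (c : ℂ) :
    rankEl F' j u (c • z) = c • rankEl F' j u z := by
  apply F'.ext_lift
  intro k
  by_cases hk : k = j
  · subst hk
    rw [map_smul, lift_rankEl_self, lift_rankEl_self]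
    ext a b
    simp [Matrix.vecMulVec_apply, mul_assoc]
  · rw [map_smul, lift_rankEl_ne F' j hk, lift_rankEl_ne F' j hk, smul_zero]

/-- The expansion in the standard basis. -/
lemma rankEl_eq_sum (u z : Fin (F'.d j) → ℂ) :
    rankEl F' j u z = ∑ a, z a • rankEl F' j u (Pi.single a 1) := by
  have h : ∀ s : Finset (Fin (F'.d j)), rankEl F' j u (∑ a ∈ s, z a • Pi.single a (1 : ℂ)) =
      ∑ a ∈ s, z a • rankEl F' j u (Pi.single a 1) := by
    intro s
    induction s using Finset.induction_on with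
    | empty =>
      have h0 : rankEl F' j u 0 = 0 := by
        have := rankEl_smul F' j u 0 0
        simpa using this
      simpa using h0
    | insert a s ha ih =>
      rw [Finset.sum_insert ha, Finset.sum_insert ha, rankEl_add, rankEl_smul, ih]
  have h1 : z = ∑ a, z a • Pi.single a (1 : ℂ) := by
    funext b
    simp [Finset.sum_apply, Pi.single_apply]
  conv_lhs => rw [h1]
  exact h univ

/-- An equivariant map intertwines the group algebras. -/
lemma map_lift_mulVec {d : ℕ} (R' : URep H d) {T : (Fin d → ℂ) →ₗ[ℂ] (Fin (F'.d j) → ℂ)}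
    (hT : ∀ h y, T (R'.ρ h *ᵥ y) = (F'.R j).ρ h *ᵥ T y) (x : MonoidAlgebra ℂ H) (y : Fin d → ℂ) :
    T (R'.lift x *ᵥ y) = (F'.R j).lift x *ᵥ T y := by
  rw [URep.lift_eq_sum, URep.lift_eq_sum, Matrix.sum_mulVec, Matrix.sum_mulVec, map_sum]
  refine Finset.sum_congr rfl fun g _ => ?_
  rw [Matrix.smul_mulVec, Matrix.smul_mulVec, map_smul, hT]

lemma map_lift_rankEl {d : ℕ} (R' : URep H d) {T : (Fin d → ℂ) →ₗ[ℂ] (Fin (F'.d j) → ℂ)}
    (hT : ∀ h y, T (R'.ρ h *ᵥ y) = (F'.R j).ρ h *ᵥ T y) (u z : Fin (F'.d j) → ℂ) (y : Fin d → ℂ) :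
    T (R'.lift (rankEl F' j u z) *ᵥ y) = (star u ⬝ᵥ T y) • z := by
  rw [map_lift_mulVec F' j R' hT, lift_rankEl_self]
  funext b
  simp only [Matrix.mulVec, Matrix.vecMulVec_apply, dotProduct, Pi.smul_apply, smul_eq_mul,
    Finset.mul_sum, Finset.sum_mul]
  refine Finset.sum_congr rfl fun a _ => ?_
  simp only [Pi.star_apply]
  ring

/-- Translating the rank one element. -/
lemma rho_lift_rankEl {d : ℕ} (R' : URep H d) (h : H) (u z : Fin (F'.d j) → ℂ) (y : Fin d → ℂ) :
    R'.ρ h *ᵥ (R'.lift (rankEl F' j u z) *ᵥ y) = R'.lift (rankEl F' j u ((F'.R j).ρ h *ᵥ z)) *ᵥ y := by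
  rw [← single_mul_rankEl, map_mul, URep.lift_single, one_smul, Matrix.mulVec_mulVec]

end RankOne

section Commute

variable {X : Type*} [Fintype X] [DecidableEq X] {d : ℕ} {R : URep (Equiv.Perm X) d}

/-- The action of the symmetric group of a subset commutes with permutations fixing the subset. -/
lemma rho_lift_comm_of_fix {m : ℕ} (e : Fin m ↪ X) (g : Equiv.Perm X) (hg : ∀ a, g (e a) = e a)
    (x : MonoidAlgebra ℂ (Equiv.Perm (Fin m))) (y : Fin d → ℂ) :
    R.ρ g *ᵥ ((R.comp (emb e)).lift x *ᵥ y) = (R.comp (emb e)).lift x *ᵥ (R.ρ g *ᵥ y) := by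
  have hcomm : R.ρ g * (R.comp (emb e)).lift x = (R.comp (emb e)).lift x * R.ρ g := by
    rw [URep.lift_eq_sum, Finset.mul_sum, Finset.sum_mul]
    refine Finset.sum_congr rfl fun h _ => ?_
    rw [Matrix.mul_smul, Matrix.smul_mul, URep.comp_rho, ← map_mul, ← map_mul]
    congr 2
    have hd : Equiv.Perm.Disjoint (emb e h) g := by
      intro z
      by_cases hz : z ∈ Set.range e
      · right
        obtain ⟨a, rfl⟩ := hz
        exact hg a
      · left
        exact emb_off e h hz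
    exact hd.commute.symm.eq
  rw [Matrix.mulVec_mulVec, hcomm, ← Matrix.mulVec_mulVec]

/-- The group algebras of disjoint classes commute. -/
lemma lift_lift_comm {m m' : ℕ} (e : Fin m ↪ X) (e' : Fin m' ↪ X) (hdis : ∀ a b, e a ≠ e' b)
    (x : MonoidAlgebra ℂ (Equiv.Perm (Fin m))) (x' : MonoidAlgebra ℂ (Equiv.Perm (Fin m')))
    (y : Fin d → ℂ) :
    (R.comp (emb e)).lift x *ᵥ ((R.comp (emb e')).lift x' *ᵥ y) =
      (R.comp (emb e')).lift x' *ᵥ ((R.comp (emb e)).lift x *ᵥ y) := by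
  rw [URep.lift_eq_sum (R.comp (emb e')) x', Matrix.sum_mulVec, Matrix.sum_mulVec, Matrix.mulVec_sum]
  simp only [Matrix.smul_mulVec, Matrix.mulVec_smul]
  refine Finset.sum_congr rfl fun g _ => ?_
  rw [URep.comp_rho, ← rho_lift_comm_of_fix e (emb e' g)]
  intro a
  apply emb_off
  rintro ⟨b, hb⟩
  exact hdis a b hb.symm

end Commute

section Prim

variable {X : Type*} [Fintype X] [DecidableEq X] {L : Type*} [Fintype L] [DecidableEq L]
  {d : ℕ} {R : URep (Equiv.Perm X) d} {od : L → Bool} {w₀ : X → L}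

/-- **The primitive step.** -/
theorem prim_step {v : Fin d → ℂ} (hv : Adm R od w₀ v) {m : ℕ} (e : Fin m ↪ X) (A : Finset L)
    (hA1 : ∀ a, w₀ (e a) ∈ A) (hA2 : ∀ x, w₀ x ∈ A → x ∈ Set.range e)
    (F' : Family (Equiv.Perm (Fin m))) (j : Fin F'.r) (u : Fin (F'.d j) → ℂ)
    {T : (Fin d → ℂ) →ₗ[ℂ] (Fin (F'.d j) → ℂ)}
    (hT : ∀ h y, T (R.ρ (emb e h) *ᵥ y) = (F'.R j).ρ h *ᵥ T y) (huv : T v = u) :
    Adm R od w₀ ((R.comp (emb e)).lift (rankEl F' j u u) *ᵥ v) := by
  intro x y hxy hw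
  by_cases hx : x ∈ Set.range e
  · obtain ⟨a, rfl⟩ := hx
    have hy : y ∈ Set.range e := hA2 y (by rw [← hw]; exact hA1 a)
    obtain ⟨b, rfl⟩ := hy
    have h1 : R.ρ (Equiv.swap (e a) (e b)) = (R.comp (emb e)).ρ (Equiv.swap a b) := by
      rw [URep.comp_rho, emb_swap]
    have hu : (F'.R j).ρ (Equiv.swap a b) *ᵥ u = sgnL od (w₀ (e a)) • u := by
      rw [← huv, ← hT, emb_swap, hv _ _ hxy hw, map_smul]
    rw [h1, rho_lift_rankEl, hu, rankEl_smul, map_smul, Matrix.smul_mulVec]
  · have hy : y ∉ Set.range e := by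
      intro hy
      obtain ⟨b, rfl⟩ := hy
      exact hx (hA2 x (by rw [hw]; exact hA1 b))
    have hfix : ∀ a, Equiv.swap x y (e a) = e a := fun a =>
      Equiv.swap_apply_of_ne_of_ne (fun h => hx ⟨a, h⟩) (fun h => hy ⟨a, h⟩)
    rw [rho_lift_comm_of_fix e _ hfix, hv _ _ hxy hw, Matrix.mulVec_smul]

variable {ι : Type*} [DecidableEq ι]

/-- Swaps allowed for the invariance of the primitive span. -/
def RelSwap (w₀ : X → L) (S : Finset ι) (m : ι → ℕ) (e : ∀ s, Fin (m s) ↪ X) (x y : X) : Prop :=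
  w₀ x = w₀ y ∨ ∃ s ∈ S, x ∈ Set.range (e s) ∧ y ∈ Set.range (e s)

/-- **The primitive vector.** For classes of blocks: there is a nonzero shape vector `v₀`,
isotypic for the symmetric group of each class, in a subspace `Y` of dimension at most `∏_s d_s`
invariant under the transpositions inside a block or inside a class. -/
theorem exists_primitive {v : Fin d → ℂ} (hv : Adm R od w₀ v) (hv0 : v ≠ 0) (S : Finset ι)
    (m : ι → ℕ) (e : ∀ s, Fin (m s) ↪ X) (A : ι → Finset L)
    (hA1 : ∀ s ∈ S, ∀ a, w₀ (e s a) ∈ A s) (hA2 : ∀ s ∈ S, ∀ x, w₀ x ∈ A s → x ∈ Set.range (e s))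
    (hdis : ∀ s ∈ S, ∀ s' ∈ S, s ≠ s' → ∀ a b, e s a ≠ e s' b)
    (Fs : ∀ s, Family (Equiv.Perm (Fin (m s)))) :
    ∃ (v₀ : Fin d → ℂ) (j : ∀ s, Fin (Fs s).r) (Y : Submodule ℂ (Fin d → ℂ)),
      v₀ ≠ 0 ∧ Adm R od w₀ v₀ ∧
      (∀ s ∈ S, (R.comp (emb (e s))).lift ((Fs s).idem (j s)) *ᵥ v₀ = v₀) ∧ v₀ ∈ Y ∧
      Module.finrank ℂ Y ≤ ∏ s ∈ S, (Fs s).d (j s) ∧
      ∀ x y, x ≠ y → RelSwap w₀ S m e x y → ∀ y' ∈ Y, R.ρ (Equiv.swap x y) *ᵥ y' ∈ Y := by
  classical
  induction S using Finset.induction_on with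
  | empty =>
    refine ⟨v, fun s => (Fs s).i0, Submodule.span ℂ {v}, hv0, hv, fun s hs => absurd hs (by simp),
      Submodule.mem_span_singleton_self v, ?_, ?_⟩
    · simpa using finrank_span_singleton (K := ℂ) hv0 |>.le
    · intro x y hxy hrel y' hy'
      obtain ⟨c, rfl⟩ := Submodule.mem_span_singleton.1 hy'
      rcases hrel with hrel | ⟨s, hs, -⟩
      · rw [Matrix.mulVec_smul, hv x y hxy hrel]
        exact Submodule.smul_mem _ _ (Submodule.smul_mem _ _ (Submodule.mem_span_singleton_self v))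
      · exact absurd hs (by simp)
  | insert s S hs ih =>
    obtain ⟨v₁, j₁, Y₁, hv₁0, hv₁, hiso₁, hvY₁, hfin₁, hinv₁⟩ := ih
      (fun s' h => hA1 s' (mem_insert_of_mem h)) (fun s' h => hA2 s' (mem_insert_of_mem h))
      (fun a ha b hb => hdis a (mem_insert_of_mem ha) b (mem_insert_of_mem hb))
    have hsS : s ∈ insert s S := mem_insert_self _ _
    have hA1s := hA1 s hsS
    have hA2s := hA2 s hsS
    set R' := R.comp (emb (e s)) with hR'
    -- the isotypic component
    have hexj : ∃ j₀ : Fin (Fs s).r, R'.lift ((Fs s).idem j₀) *ᵥ v₁ ≠ 0 := by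
      by_contra hc
      push Not at hc
      apply hv₁0
      rw [← R'.sum_lift_idem (Fs s) v₁]
      exact Finset.sum_eq_zero fun j _ => hc j
    obtain ⟨j₀, hj₀⟩ := hexj
    obtain ⟨T, hT, hTv⟩ := exists_equivariant (Fs s) j₀ R' (URep.lift_idem_idem (Fs s) R' j₀ v₁) hj₀
    -- the image of the vector
    set u := T v₁ with hu
    have hTv' : T (R'.lift ((Fs s).idem j₀) *ᵥ v₁) = u := by
      rw [map_lift_mulVec (Fs s) j₀ R' hT, (Fs s).lift_idem_self, Matrix.one_mulVec]
    rw [hTv'] at hTv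
    have hT' : ∀ h y, T (R.ρ (emb (e s) h) *ᵥ y) = ((Fs s).R j₀).ρ h *ᵥ T y := hT
    -- the new vector
    set v' := R'.lift (rankEl (Fs s) j₀ u u) *ᵥ v₁ with hv'
    have hTv'' : T v' = (star u ⬝ᵥ u) • u := by
      rw [hv', map_lift_rankEl (Fs s) j₀ R' hT]
    have hv'0 : v' ≠ 0 := by
      intro h0
      rw [h0, map_zero] at hTv''
      have h1 : star u ⬝ᵥ u ≠ 0 := fun h => hTv (dotProduct_star_self_eq_zero.1 h)
      exact (smul_ne_zero h1 hTv) hTv''.symm
    have hAdm' : Adm R od w₀ v' :=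
      prim_step hv₁ (e s) (A s) hA1s hA2s (Fs s) j₀ u hT' rfl
    -- the new subspace
    let Φ : (Fin ((Fs s).d j₀) → Y₁) →ₗ[ℂ] (Fin d → ℂ) :=
      { toFun := fun f => ∑ a, R'.lift (rankEl (Fs s) j₀ u (Pi.single a 1)) *ᵥ (f a : Fin d → ℂ)
        map_add' := fun f f' => by
          rw [← Finset.sum_add_distrib]
          refine Finset.sum_congr rfl fun a _ => ?_
          simp [Matrix.mulVec_add]
        map_smul' := fun c f => by
          rw [RingHom.id_apply, Finset.smul_sum]
          refine Finset.sum_congr rfl fun a _ => ?_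
          simp [Matrix.mulVec_smul] }
    set Y' := LinearMap.range Φ with hY'
    have hmem : ∀ (z : Fin ((Fs s).d j₀) → ℂ) (y : Fin d → ℂ), y ∈ Y₁ →
        R'.lift (rankEl (Fs s) j₀ u z) *ᵥ y ∈ Y' := by
      intro z y hy
      refine ⟨fun a => ⟨z a • y, Submodule.smul_mem _ _ hy⟩, ?_⟩
      show ∑ a, R'.lift (rankEl (Fs s) j₀ u (Pi.single a 1)) *ᵥ (z a • y) = _
      conv_rhs => rw [rankEl_eq_sum, map_sum, Matrix.sum_mulVec]
      refine Finset.sum_congr rfl fun a _ => ?_
      rw [map_smul, Matrix.smul_mulVec, Matrix.mulVec_smul]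
    have hfin' : Module.finrank ℂ Y' ≤ (Fs s).d j₀ * Module.finrank ℂ Y₁ := by
      refine (LinearMap.finrank_range_le Φ).trans (le_of_eq ?_)
      rw [Module.finrank_pi_fintype]
      simp
    -- invariance
    have hinv' : ∀ (M : Matrix (Fin d) (Fin d) ℂ),
        (∀ (a : Fin ((Fs s).d j₀)) (y : Fin d → ℂ), y ∈ Y₁ →
          M *ᵥ (R'.lift (rankEl (Fs s) j₀ u (Pi.single a 1)) *ᵥ y) ∈ Y') →
        ∀ y' ∈ Y', M *ᵥ y' ∈ Y' := by
      rintro M hM _ ⟨f, rfl⟩
      show M *ᵥ (∑ a, R'.lift (rankEl (Fs s) j₀ u (Pi.single a 1)) *ᵥ (f a : Fin d → ℂ)) ∈ Y'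
      rw [Matrix.mulVec_sum]
      exact Submodule.sum_mem _ fun a _ => hM a _ (f a).2
    refine ⟨v', Function.update j₁ s j₀, Y', hv'0, hAdm', ?_, ?_, ?_, ?_⟩
    · intro s' hs'
      rcases mem_insert.1 hs' with rfl | hs''
      · rw [Function.update_self]
        rw [hv', Matrix.mulVec_mulVec, ← map_mul, idem_mul_rankEl]
      · have hne : s' ≠ s := fun h => hs (h ▸ hs'')
        rw [Function.update_of_ne hne, hv', lift_lift_comm (e s') (e s)
          (hdis s' hs' s hsS hne), hiso₁ s' hs'']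
    · exact hmem u v₁ hvY₁
    · rw [Finset.prod_insert hs, Function.update_self]
      have hprod : ∏ s' ∈ S, (Fs s').d (Function.update j₁ s j₀ s') = ∏ s' ∈ S, (Fs s').d (j₁ s') := by
        refine Finset.prod_congr rfl fun s' hs' => ?_
        have hne : s' ≠ s := fun h => hs (h ▸ hs')
        rw [Function.update_of_ne hne]
      rw [hprod]
      exact hfin'.trans (Nat.mul_le_mul_left _ hfin₁)
    · intro x y hxy hrel
      apply hinv'
      intro a y₀ hy₀
      by_cases hboth : x ∈ Set.range (e s) ∧ y ∈ Set.range (e s)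
      · obtain ⟨⟨a₁, rfl⟩, ⟨a₂, rfl⟩⟩ := hboth
        have h1 : R.ρ (Equiv.swap (e s a₁) (e s a₂)) = R'.ρ (Equiv.swap a₁ a₂) := by
          rw [hR', URep.comp_rho, emb_swap]
        rw [h1, rho_lift_rankEl]
        exact hmem _ _ hy₀
      · -- both outside the class
        have hout : x ∉ Set.range (e s) ∧ y ∉ Set.range (e s) ∧ RelSwap w₀ S m e x y := by
          rcases hrel with hw | ⟨s', hs', hx', hy'⟩
          · have hx : x ∉ Set.range (e s) := by
              intro hx
              obtain ⟨b, rfl⟩ := hx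
              exact hboth ⟨⟨b, rfl⟩, hA2s y (by rw [← hw]; exact hA1s b)⟩
            have hy : y ∉ Set.range (e s) := by
              intro hy
              obtain ⟨b, rfl⟩ := hy
              exact hboth ⟨hA2s x (by rw [hw]; exact hA1s b), ⟨b, rfl⟩⟩
            exact ⟨hx, hy, Or.inl hw⟩
          · rcases mem_insert.1 hs' with rfl | hs''
            · exact absurd ⟨hx', hy'⟩ hboth
            · have hne : s' ≠ s := fun h => hs (h ▸ hs'')
              have hd := hdis s' hs' s hsS hne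
              refine ⟨?_, ?_, Or.inr ⟨s', hs'', hx', hy'⟩⟩
              · rintro ⟨b, rfl⟩
                obtain ⟨c, hc⟩ := hx'
                exact hd c b hc
              · rintro ⟨b, rfl⟩
                obtain ⟨c, hc⟩ := hy'
                exact hd c b hc
        obtain ⟨hx, hy, hrel'⟩ := hout
        have hfix : ∀ b, Equiv.swap x y (e s b) = e s b := fun b =>
          Equiv.swap_apply_of_ne_of_ne (fun h => hx ⟨b, h⟩) (fun h => hy ⟨b, h⟩)
        rw [hR', rho_lift_comm_of_fix (e s) _ hfix]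
        exact hmem _ _ (hinv₁ x y hxy hrel' _ hy₀)

end Prim

section DimBound

attribute [local instance] arrowAction

variable {X : Type*} [Fintype X] [DecidableEq X] {C : Type*} [Fintype C] [DecidableEq C]

/-- **The dimension of the representation** from a subspace invariant under the stabiliser of a
pattern. -/
theorem d_le_multi_mul (F : Family (Equiv.Perm X)) (i : Fin F.r) {v₀ : Fin (F.d i) → ℂ} (hv0 : v₀ ≠ 0)
    {Y : Submodule ℂ (Fin (F.d i) → ℂ)} (hY : v₀ ∈ Y) (P : X → C)
    (hinv : ∀ x y, x ≠ y → P x = P y → ∀ y' ∈ Y, (F.R i).ρ (Equiv.swap x y) *ᵥ y' ∈ Y) :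
    F.d i ≤ multi P * Module.finrank ℂ Y := by
  classical
  set R := F.R i with hR
  -- invariance under the stabiliser
  have hstab : ∀ s : Equiv.Perm X, P ∘ s = P → ∀ y' ∈ Y, R.ρ s *ᵥ y' ∈ Y := by
    intro s hs
    refine stab_induction (w := P) univ (P := fun s => ∀ y' ∈ Y, R.ρ s *ᵥ y' ∈ Y) ?_ ?_ s hs
      (fun z hz => absurd (mem_univ z) hz)
    · intro y' hy'
      simpa using hy'
    · intro x y g _ _ hxy hw _ _ hP y' hy'
      rw [map_mul, ← Matrix.mulVec_mulVec]
      exact hinv x y hxy hw _ (hP y' hy')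
  rw [← card_orbit_word]
  let rep : {ω // ω ∈ orbitF (Equiv.Perm X) P} → Equiv.Perm X :=
    fun ω => Classical.choose (mem_orbitF.1 ω.2)
  have hrep : ∀ ω, rep ω • P = ω.1 := fun ω => Classical.choose_spec (mem_orbitF.1 ω.2)
  let b := Module.finBasis ℂ Y
  let Ψ : (Fin (F.d i) → ℂ) →ₗ[ℂ] ({ω // ω ∈ orbitF (Equiv.Perm X) P} ×
      Fin (Module.finrank ℂ Y) → ℂ) :=
    { toFun := fun u p => star (R.ρ (rep p.1) *ᵥ (b p.2 : Fin (F.d i) → ℂ)) ⬝ᵥ u
      map_add' := fun u u' => by
        funext p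
        simp [dotProduct_add]
      map_smul' := fun c u => by
        funext p
        simp [dotProduct_smul] }
  have hinj : Function.Injective Ψ := by
    rw [injective_iff_map_eq_zero]
    intro u hu
    have hperp : ∀ ω, ∀ y' ∈ Y, star (R.ρ (rep ω) *ᵥ y') ⬝ᵥ u = 0 := by
      intro ω y' hy'
      have h1 := b.sum_repr ⟨y', hy'⟩
      have h2 : y' = ∑ k, (b.repr ⟨y', hy'⟩ k) • (b k : Fin (F.d i) → ℂ) := by
        have h3 : ((∑ k, b.repr ⟨y', hy'⟩ k • b k : Y) : Fin (F.d i) → ℂ) = y' := by rw [h1]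
        rw [Submodule.coe_sum] at h3
        simp only [Submodule.coe_smul] at h3
        exact h3.symm
      rw [h2, Matrix.mulVec_sum, star_sum, sum_dotProduct]
      refine Finset.sum_eq_zero fun k _ => ?_
      rw [Matrix.mulVec_smul, star_smul, smul_dotProduct]
      have h3 : star (R.ρ (rep ω) *ᵥ (b k : Fin (F.d i) → ℂ)) ⬝ᵥ u = 0 := congrFun hu (ω, k)
      rw [h3, smul_zero]
    have hzero : ∀ g : Equiv.Perm X, star (R.ρ g *ᵥ v₀) ⬝ᵥ u = 0 := by
      intro g
      set ω : {ω // ω ∈ orbitF (Equiv.Perm X) P} := ⟨g • P, mem_orbitF.2 ⟨g, rfl⟩⟩ with hω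
      have h2 : rep ω • P = g • P := hrep ω
      set s := (rep ω)⁻¹ * g with hs
      have hsw : P ∘ s = P := by
        have h3 : s • P = P := by
          rw [hs, mul_smul, ← h2, inv_smul_smul]
        rw [smul_word'] at h3
        funext x
        have := congrFun h3 (s x)
        simp only [Function.comp_apply] at this
        show P (s x) = P x
        rw [← this]
        simp
      have h5 : g = rep ω * s := by
        rw [hs]
        group
      rw [h5, map_mul, ← Matrix.mulVec_mulVec]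
      exact hperp ω _ (hstab s hsw v₀ hY)
    have hsch := F.schur i v₀ u
    have h0 : ∑ g, ‖star (R.ρ g *ᵥ v₀) ⬝ᵥ u‖ ^ 2 = 0 := by
      refine Finset.sum_eq_zero fun g _ => ?_
      rw [hzero g]
      simp
    rw [h0] at hsch
    have hk : 0 < (Fintype.card (Equiv.Perm X) : ℝ) / (F.d i : ℝ) * nsq v₀ := by
      have hc : (0 : ℝ) < Fintype.card (Equiv.Perm X) := by exact_mod_cast Fintype.card_pos
      have hd : (0 : ℝ) < F.d i := by exact_mod_cast F.dpos i
      have := pos_nsq hv0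
      positivity
    have : nsq u = 0 := by
      rcases mul_eq_zero.1 hsch.symm with h1 | h1
      · exact absurd h1 hk.ne'
      · exact h1
    exact nsq_eq_zero_iff.1 this
  have := LinearMap.finrank_le_finrank_of_injective hinj
  simpa using this

end DimBound

end Crest.Agent.S0222Lib.Shape
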