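import Mathlib

/-!
# Site inequalities (Ando form, no functional calculus)

For positive semidefinite `a b c` with `c * c = (1/2) • (a * a + b * b)`:
* `(1/2)(a + b) ≤ c`,
* `(1/2)(a ⊗ b + b ⊗ a) ≤ c ⊗ c`,
* `(1/2)(a ⊗ a + b ⊗ b) ≤ c ⊗ c`.
All proofs are by the elementary "R² ≤ T² ⟹ R ≤ T" lemma.
-/

set_option autoImplicit false

namespace Crest.Agent.S0222Lib.Site

open Matrix
open scoped Kronecker ComplexOrder

variable {n : Type*} [Fintype n] [DecidableEq n]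

set_option linter.unusedSectionVars false
set_option linter.unusedSimpArgs false
set_option linter.unnecessarySimpa false

/-- `R² ≤ T²`, `T ≥ 0`, `R` Hermitian imply `R ≤ T`. -/
theorem sub_psd_of_sq_sub_psd {R T : Matrix n n ℂ} (hR : R.IsHermitian) (hT : T.PosSemidef)
    (h : (T * T - R * R).PosSemidef) : (T - R).PosSemidef := by
  have hD : (T - R).IsHermitian := hT.isHermitian.sub hR
  rw [hD.posSemidef_iff_eigenvalues_nonneg]
  intro i
  by_contra hneg
  have hμ : hD.eigenvalues i < 0 := by simpa using hneg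
  set μ : ℝ := hD.eigenvalues i with hμdef
  set v : n → ℂ := ⇑(hD.eigenvectorBasis i) with hv
  have hev : (T - R) *ᵥ v = (μ : ℂ) • v := by
    have := hD.mulVec_eigenvectorBasis i
    rw [this]
    ext j
    simp [hμdef, hv]
  have hv0 : v ≠ 0 := by
    intro h0
    have := hD.eigenvectorBasis.orthonormal.ne_zero i
    apply this
    ext j
    simpa using congrFun h0 j
  have hn : 0 < star v ⬝ᵥ v := by
    have := dotProduct_star_self_pos_iff.mpr hv0
    simpa [dotProduct_comm] using this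
  set a : ℂ := star v ⬝ᵥ (T *ᵥ v) with ha
  set b : ℂ := star v ⬝ᵥ (R *ᵥ v) with hb
  set N : ℂ := star v ⬝ᵥ v with hN
  have ha0 : 0 ≤ a := hT.dotProduct_mulVec_nonneg v
  have hab : a - b = (μ : ℂ) * N := by
    have : star v ⬝ᵥ ((T - R) *ᵥ v) = (μ : ℂ) * N := by
      rw [hev, dotProduct_smul, smul_eq_mul]
    rw [sub_mulVec, dotProduct_sub] at this
    exact this
  have h0 := h.dotProduct_mulVec_nonneg v
  have hexp : star v ⬝ᵥ ((T * T - R * R) *ᵥ v) = (μ : ℂ) * (a + b) := by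
    have hdec : T * T - R * R = T * (T - R) + (T - R) * R := by noncomm_ring
    rw [hdec, add_mulVec, dotProduct_add, ← mulVec_mulVec, ← mulVec_mulVec, hev, mulVec_smul,
      dotProduct_smul, smul_eq_mul, dotProduct_mulVec (star v) (T - R)]
    have hs : star v ᵥ* (T - R) = star ((T - R) *ᵥ v) := by
      rw [star_mulVec, hD.eq]
    rw [hs, hev, star_smul, smul_dotProduct]
    simp only [Complex.star_def, Complex.conj_ofReal, smul_eq_mul]
    ring
  rw [hexp] at h0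
  have hb' : b = a - (μ : ℂ) * N := by rw [← hab]; ring
  have hre : 0 ≤ ((μ : ℂ) * (a + b)).re := (Complex.le_def.mp h0).1
  have hNre : 0 < N.re := (Complex.lt_def.mp hn).1
  have hNim : N.im = 0 := ((Complex.lt_def.mp hn).2).symm
  have hare : 0 ≤ a.re := (Complex.le_def.mp ha0).1
  have hcalc : ((μ : ℂ) * (a + b)).re = 2 * μ * a.re - μ ^ 2 * N.re := by
    rw [hb']
    simp [Complex.mul_re, Complex.add_re, Complex.sub_re]
    ring
  rw [hcalc] at hre
  have h1 : 2 * μ * a.re ≤ 0 := by nlinarith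
  have h2 : 0 < μ ^ 2 * N.re := mul_pos (by nlinarith [sq_nonneg μ, mul_pos_of_neg_of_neg hμ hμ]) hNre
  linarith

lemma adj {A : Matrix n n ℂ} (hA : A.IsHermitian) (x y : n → ℂ) :
    star x ⬝ᵥ (A *ᵥ y) = star (A *ᵥ x) ⬝ᵥ y := by
  rw [dotProduct_mulVec, star_mulVec, hA.eq]

lemma star_dot_self_nonneg (w : n → ℂ) : 0 ≤ star w ⬝ᵥ w := by
  simpa [dotProduct_comm] using dotProduct_star_self_nonneg w

/-- Ando-type lemma with an invertible left factor. `p` positive definite, `q` Hermitian commuting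
with `p`, `T = p⁻¹ q` PSD, `X` Hermitian, and the block form bound. Then `X ≤ p q`. -/
theorem le_mul_of_block_posDef {p q X : Matrix n n ℂ} (hp : p.PosDef) (hq : q.IsHermitian)
    (hX : X.IsHermitian) (hpq : p * q = q * p) (hT : (p⁻¹ * q).PosSemidef)
    (hblock : ∀ u w : n → ℂ, 2 * (star u ⬝ᵥ (X *ᵥ w)).re ≤
      (star u ⬝ᵥ ((p * p) *ᵥ u)).re + (star w ⬝ᵥ ((q * q) *ᵥ w)).re) :
    (p * q - X).PosSemidef := by
  have hpu : IsUnit p := hp.isUnit
  have hpdet : IsUnit p.det := (Matrix.isUnit_iff_isUnit_det p).mp hpu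
  have hpinvH : (p⁻¹).IsHermitian := hp.inv.isHermitian
  have hpH : p.IsHermitian := hp.isHermitian
  set r := p⁻¹ with hr
  have hrp : r * p = 1 := Matrix.nonsing_inv_mul p hpdet
  have hpr : p * r = 1 := Matrix.mul_nonsing_inv p hpdet
  set R := r * X * r with hRdef
  set T := r * q with hTdef
  have hRH : R.IsHermitian := by
    unfold Matrix.IsHermitian
    rw [hRdef, conjTranspose_mul, conjTranspose_mul, hpinvH.eq, hX.eq, Matrix.mul_assoc]
  have hqr : q * r = r * q := by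
    calc q * r = r * p * (q * r) := by rw [hrp, Matrix.one_mul]
      _ = r * (p * q) * r := by simp only [Matrix.mul_assoc]
      _ = r * (q * p) * r := by rw [hpq]
      _ = r * q * (p * r) := by simp only [Matrix.mul_assoc]
      _ = r * q := by rw [hpr, Matrix.mul_one]
  have hTT : (T * T - R * R).PosSemidef := by
    have hH : (T * T - R * R).IsHermitian := by
      apply Matrix.IsHermitian.sub
      · unfold Matrix.IsHermitian
        rw [conjTranspose_mul, hT.isHermitian.eq]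
      · unfold Matrix.IsHermitian
        rw [conjTranspose_mul, hRH.eq]
    refine PosSemidef.of_dotProduct_mulVec_nonneg hH (fun v => ?_)
    set y := r *ᵥ v with hy
    set z := R *ᵥ v with hz
    have hz' : z = r *ᵥ (X *ᵥ y) := by
      simp only [hz, hy, hRdef, mulVec_mulVec, Matrix.mul_assoc]
    set u := r *ᵥ z with hu
    set g := q *ᵥ y with hg
    have hb := hblock u y
    have h1 : star u ⬝ᵥ (X *ᵥ y) = star z ⬝ᵥ z := by
      rw [hu, ← adj hpinvH, ← hz']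
    have h2 : star u ⬝ᵥ ((p * p) *ᵥ u) = star z ⬝ᵥ z := by
      have hpu' : p *ᵥ u = z := by
        rw [hu, mulVec_mulVec, hpr, one_mulVec]
      rw [← mulVec_mulVec, adj hpH, hpu']
    have h3 : star y ⬝ᵥ ((q * q) *ᵥ y) = star g ⬝ᵥ g := by
      rw [← mulVec_mulVec, adj hq]
    have hTv : T *ᵥ v = g := by
      rw [hg, hy, mulVec_mulVec, hqr]
    have h4 : star v ⬝ᵥ ((T * T) *ᵥ v) = star g ⬝ᵥ g := by
      rw [← mulVec_mulVec, adj hT.isHermitian, hTv]
    have h5 : star v ⬝ᵥ ((R * R) *ᵥ v) = star z ⬝ᵥ z := by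
      rw [← mulVec_mulVec, adj hRH]
    rw [sub_mulVec, dotProduct_sub, h4, h5]
    rw [h1, h2, h3] at hb
    have hzn := star_dot_self_nonneg z
    have hgn := star_dot_self_nonneg g
    rw [Complex.le_def] at hzn hgn ⊢
    simp only [Complex.zero_re, Complex.zero_im, Complex.sub_re, Complex.sub_im] at hzn hgn ⊢
    constructor
    · linarith
    · rw [← hzn.2, ← hgn.2]; simp
  have hsub := sub_psd_of_sq_sub_psd hRH hT hTT
  have hconj := hsub.conjTranspose_mul_mul_same p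
  have hfin : pᴴ * (T - R) * p = p * q - X := by
    rw [hpH.eq, Matrix.mul_sub, Matrix.sub_mul]
    have e1 : p * T * p = p * q := by
      rw [hTdef, ← Matrix.mul_assoc, hpr, Matrix.one_mul, hpq]
    have e2 : p * R * p = X := by
      rw [hRdef]
      calc p * (r * X * r) * p = (p * r) * X * (r * p) := by simp only [Matrix.mul_assoc]
        _ = X := by rw [hpr, hrp, Matrix.one_mul, Matrix.mul_one]
    rw [e1, e2]
  rwa [hfin] at hconj

/-- Ando-type lemma, `p` only positive semidefinite. -/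
theorem le_mul_of_block {p q X : Matrix n n ℂ} (hp : p.PosSemidef) (hq : q.IsHermitian)
    (hX : X.IsHermitian) (hpq : p * q = q * p)
    (hT : ∀ δ : ℝ, 0 < δ → ((p + (δ : ℂ) • (1 : Matrix n n ℂ))⁻¹ * q).PosSemidef)
    (hblock : ∀ u w : n → ℂ, 2 * (star u ⬝ᵥ (X *ᵥ w)).re ≤
      (star u ⬝ᵥ ((p * p) *ᵥ u)).re + (star w ⬝ᵥ ((q * q) *ᵥ w)).re) :
    (p * q - X).PosSemidef := by
  have hH : (p * q - X).IsHermitian := by
    apply Matrix.IsHermitian.sub _ hX
    unfold Matrix.IsHermitian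
    rw [conjTranspose_mul, hq.eq, hp.isHermitian.eq, hpq]
  have key : ∀ δ : ℝ, 0 < δ → ((p + (δ : ℂ) • (1 : Matrix n n ℂ)) * q - X).PosSemidef := by
    intro δ hδ
    have hone : (((δ : ℂ)) • (1 : Matrix n n ℂ)).PosDef := by
      refine Matrix.PosDef.one.smul ?_
      exact_mod_cast hδ
    have hpd : (p + (δ : ℂ) • (1 : Matrix n n ℂ)).PosDef := hone.posSemidef_add hp
    refine le_mul_of_block_posDef hpd hq hX ?_ (hT δ hδ) ?_
    · simp [Matrix.add_mul, Matrix.mul_add, hpq]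
    · intro u w
      refine (hblock u w).trans ?_
      have : ((p + (δ : ℂ) • (1 : Matrix n n ℂ)) * (p + (δ : ℂ) • (1 : Matrix n n ℂ))) =
          p * p + ((2 * δ : ℝ) : ℂ) • p + ((δ ^ 2 : ℝ) : ℂ) • (1 : Matrix n n ℂ) := by
        simp only [Matrix.add_mul, Matrix.mul_add, smul_mul_assoc, mul_smul_comm,
          Matrix.one_mul, Matrix.mul_one, smul_add]
        push_cast
        rw [two_mul, add_smul, sq, ← smul_smul]
        abel
      rw [this, add_mulVec, add_mulVec, dotProduct_add, dotProduct_add, Complex.add_re,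
        Complex.add_re, smul_mulVec, smul_mulVec, dotProduct_smul, dotProduct_smul]
      have h1 : 0 ≤ (star u ⬝ᵥ (p *ᵥ u)) := hp.dotProduct_mulVec_nonneg u
      have h2 : 0 ≤ (star u ⬝ᵥ u) := star_dot_self_nonneg u
      rw [Complex.le_def] at h1 h2
      simp only [Complex.zero_re, Complex.zero_im] at h1 h2
      simp only [smul_eq_mul, one_mulVec, Complex.re_ofReal_mul]
      have h3 : 0 ≤ 2 * δ * (star u ⬝ᵥ (p *ᵥ u)).re := by
        have := h1.1; positivity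
      have h7 : 0 ≤ δ ^ 2 * (star u ⬝ᵥ u).re := by
        have := h2.1; positivity
      nlinarith
  refine PosSemidef.of_dotProduct_mulVec_nonneg hH (fun v => ?_)
  have him : (star v ⬝ᵥ ((p * q - X) *ᵥ v)).im = 0 := hH.im_star_dotProduct_mulVec_self v
  rw [Complex.le_def]
  refine ⟨?_, him.symm⟩
  by_contra hneg
  push Not at hneg
  simp only [Complex.zero_re] at hneg
  set x := (star v ⬝ᵥ ((p * q - X) *ᵥ v)).re with hx
  set y := (star v ⬝ᵥ (q *ᵥ v)).re with hy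
  have hkey : ∀ δ : ℝ, 0 < δ → 0 ≤ x + δ * y := by
    intro δ hδ
    have h := (key δ hδ).dotProduct_mulVec_nonneg v
    have e : (p + (δ : ℂ) • (1 : Matrix n n ℂ)) * q - X = (p * q - X) + (δ : ℂ) • q := by
      simp only [Matrix.add_mul, Matrix.smul_mul, Matrix.one_mul]
      abel
    rw [e, add_mulVec, dotProduct_add, smul_mulVec, dotProduct_smul] at h
    have := (Complex.le_def.mp h).1
    simpa [Complex.add_re, Complex.mul_re] using this
  by_cases hy0 : y ≤ 0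
  · have := hkey 1 one_pos
    nlinarith
  · push Not at hy0
    have hδ : 0 < -x / (2 * y) := by
      apply div_pos <;> linarith
    have := hkey _ hδ
    have e : -x / (2 * y) * y = -x / 2 := by
      field_simp
    rw [e] at this
    linarith


open scoped MatrixOrder in
/-- Existence of a positive semidefinite square root. -/
theorem exists_psd_sqrt {A : Matrix n n ℂ} (hA : A.PosSemidef) :
    ∃ c : Matrix n n ℂ, c.PosSemidef ∧ c * c = A :=
  ⟨CFC.sqrt A, (CFC.sqrt_nonneg A).posSemidef, CFC.sqrt_mul_sqrt_self A hA.nonneg⟩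

theorem eq_conjTranspose_mul_self_of_psd {A : Matrix n n ℂ} (hA : A.PosSemidef) :
    ∃ B : Matrix n n ℂ, A = Bᴴ * B := by
  obtain ⟨c, hc, hcc⟩ := exists_psd_sqrt hA
  exact ⟨c, by rw [hc.isHermitian.eq, hcc]⟩

lemma two_re_le (s t : n → ℂ) :
    2 * (star s ⬝ᵥ t).re ≤ (star s ⬝ᵥ s).re + (star t ⬝ᵥ t).re := by
  have h := (Complex.le_def.mp (star_dot_self_nonneg (s - t))).1
  simp only [Complex.zero_re, star_sub, sub_dotProduct, dotProduct_sub, Complex.sub_re] at h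
  have h2 : (star t ⬝ᵥ s).re = (star s ⬝ᵥ t).re := by
    rw [Matrix.star_dotProduct t s]
    simp [Complex.star_def]
  linarith

section Tensor

variable {m : Type*} [Fintype m] [DecidableEq m]

/-- The generic tensor site inequality: if `a₁² + a₂² = 2 c²` and `b₁² + b₂² = 2 c'²`
then `(a₁ ⊗ b₁ + a₂ ⊗ b₂)/2 ≤ c ⊗ c'`. -/
theorem site_tensor {a₁ a₂ c : Matrix n n ℂ} {b₁ b₂ c' : Matrix m m ℂ}
    (ha₁ : a₁.IsHermitian) (ha₂ : a₂.IsHermitian) (hb₁ : b₁.IsHermitian) (hb₂ : b₂.IsHermitian)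
    (hc : c.PosSemidef) (hc' : c'.PosSemidef)
    (h : c * c = (1 / 2 : ℂ) • (a₁ * a₁ + a₂ * a₂))
    (h' : c' * c' = (1 / 2 : ℂ) • (b₁ * b₁ + b₂ * b₂)) :
    (c ⊗ₖ c' - (1 / 2 : ℂ) • (a₁ ⊗ₖ b₁ + a₂ ⊗ₖ b₂)).PosSemidef := by
  set p : Matrix (n × m) (n × m) ℂ := c ⊗ₖ (1 : Matrix m m ℂ) with hp
  set q : Matrix (n × m) (n × m) ℂ := (1 : Matrix n n ℂ) ⊗ₖ c' with hq
  have hpq : p * q = c ⊗ₖ c' := by
    rw [hp, hq, ← mul_kronecker_mul, Matrix.mul_one, Matrix.one_mul]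
  have hqp : q * p = c ⊗ₖ c' := by
    rw [hp, hq, ← mul_kronecker_mul, Matrix.mul_one, Matrix.one_mul]
  have hpP : p.PosSemidef := hc.kronecker PosSemidef.one
  have hqP : q.PosSemidef := PosSemidef.one.kronecker hc'
  have hXH : ((1 / 2 : ℂ) • (a₁ ⊗ₖ b₁ + a₂ ⊗ₖ b₂)).IsHermitian := by
    unfold Matrix.IsHermitian
    rw [conjTranspose_smul, conjTranspose_add, conjTranspose_kronecker, conjTranspose_kronecker,
      ha₁.eq, ha₂.eq, hb₁.eq, hb₂.eq]
    congr 1
    simp [Complex.star_def]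
  have key := le_mul_of_block (p := p) (q := q)
    (X := (1 / 2 : ℂ) • (a₁ ⊗ₖ b₁ + a₂ ⊗ₖ b₂)) hpP hqP.isHermitian hXH (by rw [hpq, hqp]) ?_ ?_
  · rwa [hpq] at key
  · intro δ hδ
    have hone : ((δ : ℂ) • (1 : Matrix n n ℂ)).PosDef := by
      refine Matrix.PosDef.one.smul ?_
      exact_mod_cast hδ
    have hd : (c + (δ : ℂ) • (1 : Matrix n n ℂ)).PosDef := hone.posSemidef_add hc
    have e : p + (δ : ℂ) • (1 : Matrix (n × m) (n × m) ℂ) =
        (c + (δ : ℂ) • (1 : Matrix n n ℂ)) ⊗ₖ (1 : Matrix m m ℂ) := by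
      rw [hp, add_kronecker, smul_kronecker, one_kronecker_one]
    have hinv : (p + (δ : ℂ) • (1 : Matrix (n × m) (n × m) ℂ))⁻¹ =
        (c + (δ : ℂ) • (1 : Matrix n n ℂ))⁻¹ ⊗ₖ (1 : Matrix m m ℂ) := by
      rw [e]
      apply Matrix.inv_eq_right_inv
      rw [← mul_kronecker_mul, Matrix.mul_one, Matrix.mul_nonsing_inv _
        ((Matrix.isUnit_iff_isUnit_det _).mp hd.isUnit), one_kronecker_one]
    rw [hinv, hq, ← mul_kronecker_mul, Matrix.mul_one, Matrix.one_mul]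
    exact hd.inv.posSemidef.kronecker hc'
  · intro u w
    have hpp : p * p = (c * c) ⊗ₖ (1 : Matrix m m ℂ) := by
      rw [hp, ← mul_kronecker_mul, Matrix.mul_one]
    have hqq : q * q = (1 : Matrix n n ℂ) ⊗ₖ (c' * c') := by
      rw [hq, ← mul_kronecker_mul, Matrix.mul_one]
    -- left and right factors
    have L₁ : (a₁ ⊗ₖ (1 : Matrix m m ℂ)).IsHermitian := by
      unfold Matrix.IsHermitian
      rw [conjTranspose_kronecker, ha₁.eq, conjTranspose_one]
    have L₂ : (a₂ ⊗ₖ (1 : Matrix m m ℂ)).IsHermitian := by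
      unfold Matrix.IsHermitian
      rw [conjTranspose_kronecker, ha₂.eq, conjTranspose_one]
    have R₁ : ((1 : Matrix n n ℂ) ⊗ₖ b₁).IsHermitian := by
      unfold Matrix.IsHermitian
      rw [conjTranspose_kronecker, hb₁.eq, conjTranspose_one]
    have R₂ : ((1 : Matrix n n ℂ) ⊗ₖ b₂).IsHermitian := by
      unfold Matrix.IsHermitian
      rw [conjTranspose_kronecker, hb₂.eq, conjTranspose_one]
    set s₁ := (a₁ ⊗ₖ (1 : Matrix m m ℂ)) *ᵥ u with hs₁
    set s₂ := (a₂ ⊗ₖ (1 : Matrix m m ℂ)) *ᵥ u with hs₂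
    set t₁ := ((1 : Matrix n n ℂ) ⊗ₖ b₁) *ᵥ w with ht₁
    set t₂ := ((1 : Matrix n n ℂ) ⊗ₖ b₂) *ᵥ w with ht₂
    have e₁ : a₁ ⊗ₖ b₁ = (a₁ ⊗ₖ (1 : Matrix m m ℂ)) * ((1 : Matrix n n ℂ) ⊗ₖ b₁) := by
      rw [← mul_kronecker_mul, Matrix.mul_one, Matrix.one_mul]
    have e₂ : a₂ ⊗ₖ b₂ = (a₂ ⊗ₖ (1 : Matrix m m ℂ)) * ((1 : Matrix n n ℂ) ⊗ₖ b₂) := by
      rw [← mul_kronecker_mul, Matrix.mul_one, Matrix.one_mul]
    have hX : star u ⬝ᵥ (((1 / 2 : ℂ) • (a₁ ⊗ₖ b₁ + a₂ ⊗ₖ b₂)) *ᵥ w) =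
        (1 / 2 : ℂ) * (star s₁ ⬝ᵥ t₁ + star s₂ ⬝ᵥ t₂) := by
      rw [smul_mulVec, dotProduct_smul, add_mulVec, dotProduct_add, e₁, e₂, ← mulVec_mulVec,
        ← mulVec_mulVec, adj L₁, adj L₂, smul_eq_mul]
    have hU : star u ⬝ᵥ ((p * p) *ᵥ u) = (1 / 2 : ℂ) * (star s₁ ⬝ᵥ s₁ + star s₂ ⬝ᵥ s₂) := by
      have : p * p = (1 / 2 : ℂ) • ((a₁ ⊗ₖ (1 : Matrix m m ℂ)) * (a₁ ⊗ₖ (1 : Matrix m m ℂ)) +
          (a₂ ⊗ₖ (1 : Matrix m m ℂ)) * (a₂ ⊗ₖ (1 : Matrix m m ℂ))) := by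
        rw [hpp, h, ← mul_kronecker_mul, ← mul_kronecker_mul, Matrix.mul_one,
          smul_kronecker, add_kronecker]
      rw [this, smul_mulVec, dotProduct_smul, add_mulVec, dotProduct_add, ← mulVec_mulVec,
        ← mulVec_mulVec, adj L₁, adj L₂, smul_eq_mul]
    have hW : star w ⬝ᵥ ((q * q) *ᵥ w) = (1 / 2 : ℂ) * (star t₁ ⬝ᵥ t₁ + star t₂ ⬝ᵥ t₂) := by
      have : q * q = (1 / 2 : ℂ) • (((1 : Matrix n n ℂ) ⊗ₖ b₁) * ((1 : Matrix n n ℂ) ⊗ₖ b₁) +
          ((1 : Matrix n n ℂ) ⊗ₖ b₂) * ((1 : Matrix n n ℂ) ⊗ₖ b₂)) := by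
        rw [hqq, h', ← mul_kronecker_mul, ← mul_kronecker_mul, Matrix.mul_one,
          kronecker_smul, kronecker_add]
      rw [this, smul_mulVec, dotProduct_smul, add_mulVec, dotProduct_add, ← mulVec_mulVec,
        ← mulVec_mulVec, adj R₁, adj R₂, smul_eq_mul]
    rw [hX, hU, hW]
    have h1 := two_re_le s₁ t₁
    have h2 := two_re_le s₂ t₂
    have half : ∀ z : ℂ, ((1 / 2 : ℂ) * z).re = (1 / 2 : ℝ) * z.re := by
      intro z
      have : (1 / 2 : ℂ) = ((1 / 2 : ℝ) : ℂ) := by push_cast; rfl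
      rw [this, Complex.re_ofReal_mul]
    simp only [half, Complex.add_re]
    linarith

/-- `(a ⊗ b + b ⊗ a)/2 ≤ c ⊗ c` -/
theorem site_cross {a b c : Matrix n n ℂ} (ha : a.IsHermitian) (hb : b.IsHermitian)
    (hc : c.PosSemidef) (h : c * c = (1 / 2 : ℂ) • (a * a + b * b)) :
    (c ⊗ₖ c - (1 / 2 : ℂ) • (a ⊗ₖ b + b ⊗ₖ a)).PosSemidef :=
  site_tensor ha hb hb ha hc hc h (by rw [h, add_comm])

/-- `(a ⊗ a + b ⊗ b)/2 ≤ c ⊗ c` -/
theorem site_diag {a b c : Matrix n n ℂ} (ha : a.IsHermitian) (hb : b.IsHermitian)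
    (hc : c.PosSemidef) (h : c * c = (1 / 2 : ℂ) • (a * a + b * b)) :
    (c ⊗ₖ c - (1 / 2 : ℂ) • (a ⊗ₖ a + b ⊗ₖ b)).PosSemidef :=
  site_tensor ha hb ha hb hc hc h h

/-- `(a + b)/2 ≤ c` -/
theorem site_mean {a b c : Matrix n n ℂ} (ha : a.IsHermitian) (hb : b.IsHermitian)
    (hc : c.PosSemidef) (h : c * c = (1 / 2 : ℂ) • (a * a + b * b)) :
    (c - (1 / 2 : ℂ) • (a + b)).PosSemidef := by
  have hR : ((1 / 2 : ℂ) • (a + b)).IsHermitian := by
    unfold Matrix.IsHermitian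
    rw [conjTranspose_smul, conjTranspose_add, ha.eq, hb.eq]
    congr 1
    simp [Complex.star_def]
  refine sub_psd_of_sq_sub_psd hR hc ?_
  have e : c * c - (1 / 2 : ℂ) • (a + b) * ((1 / 2 : ℂ) • (a + b)) =
      (1 / 4 : ℂ) • ((a - b) * (a - b)) := by
    rw [h]
    simp only [smul_mul_assoc, mul_smul_comm, smul_smul, Matrix.add_mul, Matrix.mul_add,
      Matrix.sub_mul, Matrix.mul_sub, smul_add, smul_sub]
    ext i j
    simp only [Matrix.sub_apply, Matrix.add_apply, Matrix.smul_apply, smul_eq_mul]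
    ring
  rw [e]
  refine PosSemidef.smul ?_ (by rw [Complex.le_def]; norm_num)
  have := posSemidef_conjTranspose_mul_self (a - b)
  rwa [conjTranspose_sub, ha.eq, hb.eq] at this

end Tensor

end Crest.Agent.S0222Lib.Site
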