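import Crest.Agent.S0222Lib.SpechtTab

/-!
# The number of lattice words

`n! * det [1 / (μ i - i + j)!]` (Aitken) and the lower bound
`n! ≤ #lattice words * ∏ a, (μ a + r - 1)!`.
-/

set_option autoImplicit false

namespace Crest.Agent.S0222Lib.Specht

open Finset Nat

variable {n r : ℕ}

/-- Reciprocal factorial on the integers. -/
noncomputable def ifac (z : ℤ) : ℚ := if z < 0 then 0 else (((z.toNat)! : ℕ) : ℚ)⁻¹

lemma ifac_neg {z : ℤ} (h : z < 0) : ifac z = 0 := if_pos h

lemma ifac_natCast (m : ℕ) : ifac m = ((m ! : ℕ) : ℚ)⁻¹ := by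
  simp [ifac]

lemma ifac_shift (z : ℤ) : ifac (z - 1) = z * ifac z := by
  rcases lt_trichotomy z 0 with h | h | h
  · rw [ifac_neg h, ifac_neg (by omega), mul_zero]
  · subst h
    simp [ifac]
  · obtain ⟨m, rfl⟩ : ∃ m : ℕ, z = (m : ℤ) + 1 := ⟨(z - 1).toNat, by omega⟩
    have h1 : ((m : ℤ) + 1 - 1) = (m : ℤ) := by ring
    have h2 : ((m : ℤ) + 1) = ((m + 1 : ℕ) : ℤ) := by push_cast; ring
    rw [h1, h2, ifac_natCast, ifac_natCast, Nat.factorial_succ]
    have : ((m ! : ℕ) : ℚ) ≠ 0 := by exact_mod_cast Nat.factorial_ne_zero m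
    have h3 : ((m : ℚ) + 1) ≠ 0 := by positivity
    push_cast
    field_simp

/-- The Aitken matrix. -/
noncomputable def aitken (z : Fin r → ℤ) : Matrix (Fin r) (Fin r) ℚ :=
  Matrix.of fun i j => ifac (z i - (i.val : ℤ) + (j.val : ℤ))

/-- The Aitken determinant. -/
noncomputable def aitkenDet (z : Fin r → ℤ) : ℚ := (aitken z).det

lemma aitkenDet_eq (z : Fin r → ℤ) :
    aitkenDet z = ∑ σ : Equiv.Perm (Fin r),
      ((Equiv.Perm.sign σ : ℤ) : ℚ) * ∏ i, ifac (z i - (i.val : ℤ) + ((σ i).val : ℤ)) := by
  unfold aitkenDet
  rw [← Matrix.det_transpose, Matrix.det_apply']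
  refine Finset.sum_congr rfl fun σ _ => ?_
  simp [aitken, Matrix.transpose_apply]

/-- The recursion: one line in Leibniz form. -/
theorem aitkenDet_rec (z : Fin r → ℤ) :
    ∑ a, aitkenDet (Function.update z a (z a - 1)) = ((∑ a, z a : ℤ) : ℚ) * aitkenDet z := by
  classical
  simp only [aitkenDet_eq]
  rw [Finset.sum_comm, Finset.mul_sum]
  refine Finset.sum_congr rfl fun σ _ => ?_
  have hterm : ∀ a : Fin r,
      ∏ i, ifac (Function.update z a (z a - 1) i - (i.val : ℤ) + ((σ i).val : ℤ))
        = ((z a - (a.val : ℤ) + ((σ a).val : ℤ) : ℤ) : ℚ)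
          * ∏ i, ifac (z i - (i.val : ℤ) + ((σ i).val : ℤ)) := by
    intro a
    rw [← Finset.mul_prod_erase univ _ (mem_univ a),
      ← Finset.mul_prod_erase univ (fun i => ifac (z i - (i.val : ℤ) + ((σ i).val : ℤ)))
        (mem_univ a), ← mul_assoc]
    congr 1
    · simp only [Function.update_self]
      have : z a - 1 - (a.val : ℤ) + ((σ a).val : ℤ)
          = (z a - (a.val : ℤ) + ((σ a).val : ℤ)) - 1 := by ring
      rw [this, ifac_shift]
    · refine Finset.prod_congr rfl fun i hi => ?_
      rw [Function.update_of_ne (Finset.ne_of_mem_erase hi)]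
  simp_rw [hterm]
  have hsum : ∑ a, ((σ a).val : ℤ) = ∑ a : Fin r, (a.val : ℤ) :=
    Equiv.sum_comp σ (fun a : Fin r => (a.val : ℤ))
  have hz : ∑ a, (z a - (a.val : ℤ) + ((σ a).val : ℤ)) = ∑ a, z a := by
    rw [Finset.sum_add_distrib, Finset.sum_sub_distrib, hsum]
    ring
  have hc : ∑ a, ((z a - (a.val : ℤ) + ((σ a).val : ℤ) : ℤ) : ℚ) = ((∑ a, z a : ℤ) : ℚ) := by
    rw [← Int.cast_sum, hz]
  rw [← hc, Finset.sum_mul]
  refine Finset.sum_congr rfl fun a _ => ?_
  ring

lemma aitkenDet_zero_vec : aitkenDet (0 : Fin r → ℤ) = 1 := by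
  unfold aitkenDet
  rw [Matrix.det_of_isUpperTriangular]
  · simp [aitken, ifac]
  · intro i j hij
    simp only [aitken, Matrix.of_apply, Pi.zero_apply]
    apply ifac_neg
    have : (j.val : ℤ) < (i.val : ℤ) := by exact_mod_cast hij
    omega

/-! ### Words of length `n + 1` -/

/-- Initial part of a word. -/
def winit (w : Word (n + 1) r) : Word n r := fun i => w i.castSucc

lemma content_eq_sum (w : Word n r) (c : Fin r) :
    content w c = ∑ i, if w i = c then 1 else 0 := by
  unfold content
  rw [Finset.card_filter]

lemma pc_eq_sum (w : Word n r) (k : ℕ) (c : Fin r) :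
    pc w k c = ∑ i : Fin n, if i.val < k ∧ w i = c then 1 else 0 := by
  unfold pc
  rw [Finset.card_filter]

lemma content_succ (w : Word (n + 1) r) (c : Fin r) :
    content w c = content (winit w) c + if w (Fin.last n) = c then 1 else 0 := by
  rw [content_eq_sum, content_eq_sum, Fin.sum_univ_castSucc]
  rfl

lemma pc_of_ge (w : Word n r) {k : ℕ} (hk : n ≤ k) (c : Fin r) : pc w k c = content w c := by
  unfold pc content
  congr 1
  ext i
  have := i.isLt
  simp only [mem_filter, mem_univ, true_and]
  constructor
  · exact fun h => h.2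
  · exact fun h => ⟨by omega, h⟩

lemma pc_succ_of_le (w : Word (n + 1) r) {k : ℕ} (hk : k ≤ n) (c : Fin r) :
    pc w k c = pc (winit w) k c := by
  rw [pc_eq_sum, pc_eq_sum, Fin.sum_univ_castSucc]
  have : ¬ ((Fin.last n).val < k ∧ w (Fin.last n) = c) := by
    rintro ⟨h, _⟩
    simp at h
    omega
  rw [if_neg this, add_zero]
  rfl

lemma isLattice_succ_iff (w : Word (n + 1) r) :
    IsLattice w ↔ IsLattice (winit w) ∧
      ∀ a b : Fin r, a.val + 1 = b.val → content w b ≤ content w a := by
  constructor
  · intro h
    refine ⟨fun k a b hab => ?_, fun a b hab => ?_⟩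
    · by_cases hk : k ≤ n
      · rw [← pc_succ_of_le w hk, ← pc_succ_of_le w hk]
        exact h k a b hab
      · rw [pc_of_ge _ (by omega), pc_of_ge _ (by omega), ← pc_of_ge _ (le_refl n),
          ← pc_of_ge _ (le_refl n), ← pc_succ_of_le w (le_refl n), ← pc_succ_of_le w (le_refl n)]
        exact h n a b hab
    · rw [← pc_of_ge w (le_refl (n + 1)), ← pc_of_ge w (le_refl (n + 1))]
      exact h _ a b hab
  · rintro ⟨h1, h2⟩ k a b hab
    by_cases hk : k ≤ n
    · rw [pc_succ_of_le w hk, pc_succ_of_le w hk]
      exact h1 k a b hab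
    · rw [pc_of_ge _ (by omega), pc_of_ge _ (by omega)]
      exact h2 a b hab

lemma isLattice_zero (w : Word 0 r) : IsLattice w := by
  intro k a b _
  simp [pc]

/-- The recursion for the number of lattice words, `μ` antitone. -/
theorem card_latticeWords_succ {μ : Fin r → ℕ} (hμ : Antitone μ) :
    (latticeWords μ (n + 1)).card
      = ∑ a, if μ a = 0 then 0 else (latticeWords (Function.update μ a (μ a - 1)) n).card := by
  classical
  rw [Finset.card_eq_sum_card_fiberwise (f := fun w : Word (n + 1) r => w (Fin.last n))
    (t := univ) (fun _ _ => mem_univ _)]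
  refine Finset.sum_congr rfl fun a _ => ?_
  by_cases ha : μ a = 0
  · rw [if_pos ha]
    rw [Finset.card_eq_zero, Finset.filter_eq_empty_iff]
    intro w hw hla
    simp only [latticeWords, mem_filter, mem_univ, true_and] at hw
    have h1 := hw.1 a
    rw [content_succ, hla, if_pos rfl] at h1
    omega
  · rw [if_neg ha]
    refine Finset.card_bij' (fun w _ => winit w) (fun w _ => Fin.snoc w a) ?_ ?_ ?_ ?_
    · intro w hw
      simp only [latticeWords, mem_filter, mem_univ, true_and] at hw ⊢
      obtain ⟨⟨hc, hl⟩, hla⟩ := hw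
      refine ⟨fun c => ?_, ((isLattice_succ_iff w).1 hl).1⟩
      have h1 := hc c
      rw [content_succ, hla] at h1
      by_cases hcc : a = c
      · subst hcc
        rw [if_pos rfl] at h1
        rw [Function.update_self]
        omega
      · rw [if_neg hcc] at h1
        rw [Function.update_of_ne (Ne.symm hcc)]
        omega
    · intro w hw
      simp only [latticeWords, mem_filter, mem_univ, true_and] at hw ⊢
      obtain ⟨hc, hl⟩ := hw
      have hinit : winit (Fin.snoc w a : Word (n + 1) r) = w := by
        funext i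
        simp [winit]
      have hlast : (Fin.snoc w a : Word (n + 1) r) (Fin.last n) = a := by simp
      have hcont : ∀ c, content (Fin.snoc w a : Word (n + 1) r) c = μ c := by
        intro c
        rw [content_succ, hinit, hlast, hc c]
        by_cases hcc : a = c
        · subst hcc
          rw [if_pos rfl, Function.update_self]
          omega
        · rw [if_neg hcc, Function.update_of_ne (Ne.symm hcc), add_zero]
      refine ⟨⟨hcont, (isLattice_succ_iff _).2 ⟨by rwa [hinit], fun c d hcd => ?_⟩⟩, hlast⟩
      rw [hcont, hcont]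
      exact hμ (Fin.le_def.2 (by omega))
    · intro w hw
      simp only [mem_filter] at hw
      funext i
      refine Fin.lastCases ?_ (fun j => ?_) i
      · simp [hw.2]
      · simp [winit]
    · intro w hw
      funext i
      simp [winit]

/-- Lattice words exist only for antitone contents. -/
lemma latticeWords_eq_empty {μ : Fin r → ℕ} (h : ¬ Antitone μ) : latticeWords μ n = ∅ := by
  classical
  rw [Finset.eq_empty_iff_forall_notMem]
  intro w hw
  simp only [latticeWords, mem_filter, mem_univ, true_and] at hw
  obtain ⟨hc, hl⟩ := hw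
  apply h
  have hadj : ∀ a b : Fin r, a.val + 1 = b.val → μ b ≤ μ a := by
    intro a b hab
    have := hl n a b hab
    rwa [pc_of_ge _ (le_refl n), pc_of_ge _ (le_refl n), hc, hc] at this
  have key : ∀ (d : ℕ) (a b : Fin r), b.val = a.val + d → μ b ≤ μ a := by
    intro d
    induction d with
    | zero =>
      intro a b hab
      have : a = b := Fin.ext (by omega)
      rw [this]
    | succ d ih =>
      intro a b hab
      have hb := b.isLt
      have h1 := ih a ⟨a.val + d, by omega⟩ rfl
      have h2 := hadj ⟨a.val + d, by omega⟩ b (by simp; omega)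
      omega
  intro a b hab
  exact key (b.val - a.val) a b (by rw [Fin.le_def] at hab; omega)

/-- Aitken's formula. -/
theorem card_latticeWords_eq (n : ℕ) (μ : Fin r → ℕ) (hμ : Antitone μ) (hn : ∑ a, μ a = n) :
    ((latticeWords μ n).card : ℚ) = (n ! : ℕ) * aitkenDet (fun a => (μ a : ℤ)) := by
  classical
  induction n generalizing μ with
  | zero =>
    have h0 : ∀ a, μ a = 0 := by
      intro a
      have := (Finset.sum_eq_zero_iff.1 hn) a (mem_univ a)
      exact this
    have hv : (fun a => (μ a : ℤ)) = 0 := by
      funext a; simp [h0 a]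
    rw [hv, aitkenDet_zero_vec]
    have : latticeWords μ 0 = {fun i => i.elim0} := by
      ext w
      simp only [latticeWords, mem_filter, mem_univ, true_and, mem_singleton]
      constructor
      · intro _; funext i; exact i.elim0
      · intro _
        refine ⟨fun a => ?_, isLattice_zero w⟩
        rw [h0 a]
        simp [content]
    rw [this]
    simp
  | succ n ih =>
    rw [card_latticeWords_succ hμ]
    have hterm : ∀ a : Fin r,
        (((if μ a = 0 then 0 else (latticeWords (Function.update μ a (μ a - 1)) n).card : ℕ)) : ℚ)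
          = (n ! : ℕ) * aitkenDet (Function.update (fun a => (μ a : ℤ)) a ((μ a : ℤ) - 1)) := by
      intro a
      by_cases hrow : ∃ b : Fin r, a.val + 1 = b.val ∧ μ a = μ b
      · -- rows `a`, `b` coincide
        obtain ⟨b, hab, hμab⟩ := hrow
        have hne : a ≠ b := by
          intro h; rw [h] at hab; omega
        have hdet : aitkenDet (Function.update (fun a => (μ a : ℤ)) a ((μ a : ℤ) - 1)) = 0 := by
          unfold aitkenDet
          refine Matrix.det_zero_of_row_eq hne ?_
          funext j
          simp only [aitken, Matrix.of_apply, Function.update_self,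
            Function.update_of_ne (Ne.symm hne)]
          congr 1
          rw [hμab]
          push_cast [← hab]
          ring
        rw [hdet, mul_zero]
        by_cases h0 : μ a = 0
        · simp [h0]
        · rw [if_neg h0, latticeWords_eq_empty]
          · simp
          · intro hanti
            have hle : a ≤ b := Fin.le_def.2 (by omega)
            have := hanti hle
            rw [Function.update_self, Function.update_of_ne (Ne.symm hne)] at this
            omega
      · push Not at hrow
        by_cases h0 : μ a = 0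
        · -- then `a` is the last row and the row vanishes
          have hlast : ∀ b : Fin r, b.val ≠ a.val + 1 := by
            intro b hb
            have hle : a ≤ b := Fin.le_def.2 (by omega)
            have h1 := hμ hle
            exact hrow b hb.symm (by omega)
          have hdet : aitkenDet (Function.update (fun a => (μ a : ℤ)) a ((μ a : ℤ) - 1)) = 0 := by
            unfold aitkenDet
            refine Matrix.det_eq_zero_of_row_eq_zero a fun j => ?_
            simp only [aitken, Matrix.of_apply, Function.update_self]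
            apply ifac_neg
            have hj : j.val ≤ a.val := by
              by_contra hlt
              push Not at hlt
              exact hlast ⟨a.val + 1, by have := j.isLt; omega⟩ rfl
            rw [h0]
            push_cast
            omega
          rw [hdet, mul_zero]
          simp [h0]
        · rw [if_neg h0]
          have hcast : Function.update (fun a => (μ a : ℤ)) a ((μ a : ℤ) - 1)
              = fun c => ((Function.update μ a (μ a - 1) c : ℕ) : ℤ) := by
            funext c
            by_cases hc : c = a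
            · subst hc
              simp only [Function.update_self]
              omega
            · simp only [Function.update_of_ne hc]
          rw [hcast]
          refine ih _ ?_ ?_
          · -- antitone
            intro c d hcd
            by_cases hda : d = a
            · subst hda
              by_cases hca : c = d
              · subst hca; exact le_refl _
              · rw [Function.update_self, Function.update_of_ne hca]
                have := hμ hcd
                omega
            · rw [Function.update_of_ne hda]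
              by_cases hca : c = a
              · subst hca
                rw [Function.update_self]
                -- `d > c`; use that `μ c ≠ μ (c+1)`
                have hlt : c.val < d.val := by
                  rw [Fin.le_def] at hcd
                  have : c.val ≠ d.val := fun h => hda (Fin.ext h.symm)
                  omega
                have hnext : c.val + 1 < r := by have := d.isLt; omega
                have h1 := hrow ⟨c.val + 1, hnext⟩ rfl
                have h2 : μ ⟨c.val + 1, hnext⟩ ≤ μ c := hμ (Fin.le_def.2 (by simp))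
                have h3 : μ d ≤ μ ⟨c.val + 1, hnext⟩ := hμ (Fin.le_def.2 (by simp; omega))
                omega
              · rw [Function.update_of_ne hca]
                exact hμ hcd
          · -- total
            have hsum := Finset.add_sum_erase univ μ (mem_univ a)
            have hsum2 := Finset.add_sum_erase univ (Function.update μ a (μ a - 1)) (mem_univ a)
            have heq : ∑ x ∈ univ.erase a, Function.update μ a (μ a - 1) x
                = ∑ x ∈ univ.erase a, μ x := by
              refine Finset.sum_congr rfl fun x hx => ?_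
              rw [Function.update_of_ne (Finset.ne_of_mem_erase hx)]
            rw [Function.update_self, heq] at hsum2
            omega
    rw [Nat.cast_sum, Finset.sum_congr rfl (fun a _ => hterm a), ← Finset.mul_sum]
    have hrec := aitkenDet_rec (fun a => (μ a : ℤ))
    rw [hrec]
    have hs : ((∑ a, (μ a : ℤ) : ℤ) : ℚ) = ((n : ℚ) + 1) := by
      have : (∑ a, (μ a : ℤ)) = ((∑ a, μ a : ℕ) : ℤ) := by push_cast; rfl
      rw [this, hn]
      push_cast
      ring
    rw [hs, Nat.factorial_succ]
    push_cast
    ring

/-! ### The lower bound -/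

lemma ifac_sub (l k : ℕ) : ifac ((l : ℤ) - (k : ℤ)) = ((l ! : ℕ) : ℚ)⁻¹ * (l.descFactorial k : ℚ) := by
  by_cases h : k ≤ l
  · have h1 : ((l : ℤ) - (k : ℤ)) = ((l - k : ℕ) : ℤ) := by omega
    rw [h1, ifac_natCast]
    have h2 := Nat.factorial_mul_descFactorial h
    have h3 : ((l ! : ℕ) : ℚ) = ((l - k)! : ℕ) * (l.descFactorial k : ℚ) := by
      rw [← h2]; push_cast; ring
    have h4 : (((l - k)! : ℕ) : ℚ) ≠ 0 := by exact_mod_cast Nat.factorial_ne_zero _
    have h5 : ((l.descFactorial k : ℕ) : ℚ) ≠ 0 := by
      have : l.descFactorial k ≠ 0 := by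
        intro h6
        rw [h6] at h2
        simp at h2
        exact Nat.factorial_ne_zero _ h2.symm
      exact_mod_cast this
    rw [h3]
    field_simp
  · push Not at h
    rw [ifac_neg (by omega), Nat.descFactorial_eq_zero_iff_lt.2 h]
    simp

/-- The absolute value of the Aitken determinant is at least the reciprocal factorial product. -/
lemma prod_le_abs_aitkenDet {μ : Fin r → ℕ} (hμ : Antitone μ) :
    ∏ i : Fin r, (((μ i + (r - 1 - i.val))! : ℕ) : ℚ)⁻¹
      ≤ |aitkenDet (fun a => (μ a : ℤ))| := by
  classical
  set l : Fin r → ℕ := fun i => μ i + (r - 1 - i.val) with hl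
  have hlinj : Function.Injective l := by
    intro i j hij
    by_contra hne
    rcases lt_or_gt_of_ne hne with h | h
    · have h1 := hμ (le_of_lt h)
      have h2 := Fin.lt_def.1 h
      have h3 := j.isLt
      simp only [hl] at hij
      omega
    · have h1 := hμ (le_of_lt h)
      have h2 := Fin.lt_def.1 h
      have h3 := i.isLt
      simp only [hl] at hij
      omega
  let C : Matrix (Fin r) (Fin r) ℚ := Matrix.of fun i k => ((l i).descFactorial k : ℚ)
  let B : Matrix (Fin r) (Fin r) ℚ :=
    Matrix.of fun i k => (((l i)! : ℕ) : ℚ)⁻¹ * C i k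
  have hA : aitken (fun a => (μ a : ℤ)) = B.submatrix id Fin.revPerm := by
    ext i j
    simp only [aitken, Matrix.of_apply, Matrix.submatrix_apply, id, B, C]
    rw [← ifac_sub]
    congr 1
    simp only [hl, Fin.revPerm_apply, Fin.val_rev]
    have hi := i.isLt
    have hj := j.isLt
    push_cast [Nat.cast_sub (show i.val ≤ r - 1 by omega)]
    omega
  have hB : B.det = (∏ i, (((l i)! : ℕ) : ℚ)⁻¹) * C.det :=
    Matrix.det_mul_column (fun i => (((l i)! : ℕ) : ℚ)⁻¹) C
  have hC : C.det = (Matrix.vandermonde fun i => (l i : ℚ)).det := by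
    rw [Matrix.det_eval_matrixOfPolynomials_eq_det_vandermonde (fun i => (l i : ℚ))
      (fun k : Fin r => descPochhammer ℚ k.val)
      (fun k => descPochhammer_natDegree ℚ k.val) (fun k => monic_descPochhammer ℚ k.val)]
    congr 1
    ext i k
    simp only [C, Matrix.of_apply]
    rw [descPochhammer_eval_eq_descFactorial]
  have hV : 1 ≤ |(Matrix.vandermonde fun i => (l i : ℚ)).det| := by
    rw [Matrix.det_vandermonde, Finset.abs_prod]
    have : ∀ i ∈ (univ : Finset (Fin r)), (1 : ℚ) ≤ |∏ j ∈ Finset.Ioi i, ((l j : ℚ) - (l i : ℚ))| := by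
      intro i _
      rw [Finset.abs_prod]
      have h2 : ∀ j ∈ Finset.Ioi i, (1 : ℚ) ≤ |((l j : ℚ) - (l i : ℚ))| := by
        intro j hj
        have hne : l j ≠ l i := fun h => (ne_of_gt (Finset.mem_Ioi.1 hj)) (hlinj h)
        have hz : (1 : ℤ) ≤ |(l j : ℤ) - (l i : ℤ)| := by
          apply Int.one_le_abs
          omega
        have : ((|(l j : ℤ) - (l i : ℤ)| : ℤ) : ℚ) = |((l j : ℚ) - (l i : ℚ))| := by
          push_cast; rfl
        rw [← this]
        exact_mod_cast hz
      calc (1 : ℚ) = ∏ j ∈ Finset.Ioi i, (1 : ℚ) := by simp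
        _ ≤ _ := Finset.prod_le_prod (fun _ _ => zero_le_one) h2
    calc (1 : ℚ) = ∏ i ∈ (univ : Finset (Fin r)), (1 : ℚ) := by simp
      _ ≤ _ := Finset.prod_le_prod (fun _ _ => zero_le_one) this
  unfold aitkenDet
  rw [hA, Matrix.det_permute', hB, hC, abs_mul, abs_mul]
  have hsign : |(((Equiv.Perm.sign (Fin.revPerm : Equiv.Perm (Fin r)) : ℤˣ) : ℤ) : ℚ)| = 1 := by
    rcases Int.units_eq_one_or (Equiv.Perm.sign (Fin.revPerm : Equiv.Perm (Fin r))) with h | h <;>
      simp [h]
  rw [hsign, one_mul]
  have hpos : 0 ≤ ∏ i, (((l i)! : ℕ) : ℚ)⁻¹ := Finset.prod_nonneg fun i _ => by positivity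
  rw [abs_of_nonneg hpos]
  exact le_mul_of_one_le_right hpos hV

/-- **The lower bound** `n! / ∏ (μ a + r - 1)! ≤ #lattice words`. -/
theorem factorial_le_card_mul {μ : Fin r → ℕ} (hμ : Antitone μ) (hn : ∑ a, μ a = n) :
    n ! ≤ (latticeWords μ n).card * ∏ a, (μ a + r - 1)! := by
  have hcard := card_latticeWords_eq n μ hμ hn
  have hfac : (0 : ℚ) < (n ! : ℕ) := by exact_mod_cast Nat.factorial_pos n
  have hDnn : 0 ≤ aitkenDet (fun a => (μ a : ℤ)) := by
    have : (0 : ℚ) ≤ ((latticeWords μ n).card : ℚ) := by positivity
    rw [hcard] at this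
    exact nonneg_of_mul_nonneg_right this hfac
  have hD := prod_le_abs_aitkenDet hμ
  rw [abs_of_nonneg hDnn] at hD
  have hle : ∏ i : Fin r, (((μ i + r - 1)! : ℕ) : ℚ)⁻¹
      ≤ ∏ i : Fin r, (((μ i + (r - 1 - i.val))! : ℕ) : ℚ)⁻¹ := by
    refine Finset.prod_le_prod (fun _ _ => by positivity) fun i _ => ?_
    apply inv_anti₀
    · exact_mod_cast Nat.factorial_pos _
    · have : μ i + (r - 1 - i.val) ≤ μ i + r - 1 := by
        have := i.isLt
        omega
      exact_mod_cast Nat.factorial_le this
  have hP : (0 : ℚ) < ∏ a, (((μ a + r - 1)! : ℕ) : ℚ) :=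
    Finset.prod_pos fun a _ => by exact_mod_cast Nat.factorial_pos _
  have hinv : (∏ i : Fin r, (((μ i + r - 1)! : ℕ) : ℚ)⁻¹) * ∏ a, (((μ a + r - 1)! : ℕ) : ℚ) = 1 := by
    rw [← Finset.prod_mul_distrib]
    refine Finset.prod_eq_one fun a _ => ?_
    have : (((μ a + r - 1)! : ℕ) : ℚ) ≠ 0 := by exact_mod_cast Nat.factorial_ne_zero _
    field_simp
  have hq : ((n ! : ℕ) : ℚ) ≤ ((latticeWords μ n).card : ℚ) * ∏ a, (((μ a + r - 1)! : ℕ) : ℚ) := by
    rw [hcard]
    have h1 : (1 : ℚ) ≤ aitkenDet (fun a => (μ a : ℤ)) * ∏ a, (((μ a + r - 1)! : ℕ) : ℚ) := by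
      rw [← hinv]
      exact mul_le_mul_of_nonneg_right (hle.trans hD) hP.le
    calc ((n ! : ℕ) : ℚ) = ((n ! : ℕ) : ℚ) * 1 := by ring
      _ ≤ ((n ! : ℕ) : ℚ) * (aitkenDet (fun a => (μ a : ℤ)) * ∏ a, (((μ a + r - 1)! : ℕ) : ℚ)) :=
          mul_le_mul_of_nonneg_left h1 hfac.le
      _ = _ := by ring
  have : ((n ! : ℕ) : ℚ) ≤ (((latticeWords μ n).card * ∏ a, (μ a + r - 1)! : ℕ) : ℚ) := by
    push_cast
    exact hq
  exact_mod_cast this

end Crest.Agent.S0222Lib.Specht
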