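import Crest.Agent.S0222Lib.SpechtWords

/-!
# Polytabloids

Column antisymmetrisers `kap`, polytabloids `e t`, the basic lemma `kap u = c • e t`, and the
theorem: an `S_n`-invariant subspace of `∩ ker psi` on words of content `μ` is zero or contains all
polytabloids; the polytabloids of lattice words are independent.
-/

set_option autoImplicit false

namespace Crest.Agent.S0222Lib.Specht

open Finset

variable {𝕜 : Type*} [RCLike 𝕜] {n r : ℕ}

/-- Sign of a permutation as a scalar. -/
noncomputable def sgn (𝕜 : Type*) [RCLike 𝕜] (π : Equiv.Perm (Fin n)) : 𝕜 :=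
  ((Equiv.Perm.sign π : ℤ) : 𝕜)

lemma sgn_mul (π ρ : Equiv.Perm (Fin n)) : sgn 𝕜 (π * ρ) = sgn 𝕜 π * sgn 𝕜 ρ := by
  simp [sgn]

lemma sgn_one : sgn 𝕜 (1 : Equiv.Perm (Fin n)) = 1 := by
  simp [sgn]

lemma sgn_inv (π : Equiv.Perm (Fin n)) : sgn 𝕜 π⁻¹ = sgn 𝕜 π := by
  simp [sgn]

lemma sgn_swap {i j : Fin n} (h : i ≠ j) : sgn 𝕜 (Equiv.swap i j) = -1 := by
  simp [sgn, Equiv.Perm.sign_swap h]

lemma conj_sgn (π : Equiv.Perm (Fin n)) : (starRingEnd 𝕜) (sgn 𝕜 π) = sgn 𝕜 π := by
  simp [sgn]

lemma sgn_ne_zero (π : Equiv.Perm (Fin n)) : sgn 𝕜 π ≠ 0 := by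
  rcases Int.units_eq_one_or (Equiv.Perm.sign π) with h | h <;> simp [sgn, h]

/-- Column-preserving permutations. -/
def colGroup (col : Fin n → ℕ) : Finset (Equiv.Perm (Fin n)) :=
  univ.filter fun π => ∀ i, col (π i) = col i

lemma mem_colGroup {col : Fin n → ℕ} {π : Equiv.Perm (Fin n)} :
    π ∈ colGroup col ↔ ∀ i, col (π i) = col i := by
  simp [colGroup]

lemma colGroup_mul {col : Fin n → ℕ} {π ρ : Equiv.Perm (Fin n)} (h1 : π ∈ colGroup col)
    (h2 : ρ ∈ colGroup col) : π * ρ ∈ colGroup col := by
  rw [mem_colGroup] at *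
  intro i
  simp [h1, h2]

lemma colGroup_inv {col : Fin n → ℕ} {π : Equiv.Perm (Fin n)} (h1 : π ∈ colGroup col) :
    π⁻¹ ∈ colGroup col := by
  rw [mem_colGroup] at *
  intro i
  have := h1 (π⁻¹ i)
  simpa using this.symm

lemma colGroup_swap {col : Fin n → ℕ} {i j : Fin n} (h : col i = col j) :
    Equiv.swap i j ∈ colGroup col := by
  rw [mem_colGroup]
  intro x
  by_cases h1 : x = i
  · subst h1; simp [h]
  · by_cases h2 : x = j
    · subst h2; simp [h]
    · rw [Equiv.swap_apply_of_ne_of_ne h1 h2]

/-- Column antisymmetriser. -/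
noncomputable def kap (col : Fin n → ℕ) (u : Word n r → 𝕜) (x : Word n r) : 𝕜 :=
  ∑ π ∈ colGroup col, sgn 𝕜 π * u (x ∘ π)

/-- The permutation action on functions on words. -/
def act (g : Equiv.Perm (Fin n)) (u : Word n r → 𝕜) : Word n r → 𝕜 := fun x => u (x ∘ g)

/-- Indicator of a word. -/
noncomputable def dlt (y : Word n r) : Word n r → 𝕜 := fun x => if x = y then 1 else 0

lemma kap_eq_sum (col : Fin n → ℕ) (u : Word n r → 𝕜) :
    kap col u = ∑ π ∈ colGroup col, sgn 𝕜 π • act π u := by
  funext x
  simp [kap, act, Finset.sum_apply]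

lemma kap_comp (col : Fin n → ℕ) (u : Word n r → 𝕜) (x : Word n r) {σ : Equiv.Perm (Fin n)}
    (hσ : σ ∈ colGroup col) : kap col u (x ∘ σ) = sgn 𝕜 σ * kap col u x := by
  unfold kap
  rw [Finset.mul_sum]
  refine Finset.sum_bij' (fun π _ => σ * π) (fun π _ => σ⁻¹ * π) ?_ ?_ ?_ ?_ ?_
  · intro π hπ; exact colGroup_mul hσ hπ
  · intro π hπ; exact colGroup_mul (colGroup_inv hσ) hπ
  · intro π _; simp
  · intro π _; simp
  · intro π _
    have : x ∘ σ ∘ π = x ∘ (σ * π : Equiv.Perm (Fin n)) := by
      funext i; simp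
    have h2 : (x ∘ ⇑σ) ∘ ⇑π = x ∘ (σ * π : Equiv.Perm (Fin n)) := by
      funext i; simp
    rw [h2, sgn_mul]
    have h3 : sgn 𝕜 σ * sgn 𝕜 σ = 1 := by
      rw [← sgn_mul]
      simp [sgn, Int.units_mul_self]
    calc sgn 𝕜 π * u (x ∘ (σ * π : Equiv.Perm (Fin n)))
        = (sgn 𝕜 σ * sgn 𝕜 σ) * sgn 𝕜 π * u (x ∘ (σ * π : Equiv.Perm (Fin n))) := by
          rw [h3, one_mul]
      _ = sgn 𝕜 σ * (sgn 𝕜 σ * sgn 𝕜 π * u (x ∘ (σ * π : Equiv.Perm (Fin n)))) := by ring

/-- If `x` is fixed by a column transposition, `kap u x = 0`. -/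
lemma kap_eq_zero_of_fix_left (col : Fin n → ℕ) (u : Word n r → 𝕜) {x : Word n r} {i j : Fin n}
    (hij : i ≠ j) (hc : col i = col j) (hx : x i = x j) : kap col u x = 0 := by
  have hfix : x ∘ Equiv.swap i j = x := by
    funext p
    simp only [Function.comp]
    by_cases h1 : p = i
    · subst h1; simp [hx]
    · by_cases h2 : p = j
      · subst h2; simp [hx]
      · rw [Equiv.swap_apply_of_ne_of_ne h1 h2]
  have := kap_comp col u x (colGroup_swap hc)
  rw [hfix, sgn_swap hij] at this
  have h2 : (2 : 𝕜) * kap col u x = 0 := by linear_combination this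
  simpa using h2

/-- If `u` is fixed by a column transposition on the right, `kap u = 0`. -/
lemma kap_eq_zero_of_fix_right (col : Fin n → ℕ) (u : Word n r → 𝕜) {i j : Fin n}
    (hij : i ≠ j) (hc : col i = col j) (hu : ∀ x, u (x ∘ Equiv.swap i j) = u x) (x : Word n r) :
    kap col u x = 0 := by
  have h : kap col u x = - kap col u x := by
    unfold kap
    rw [← Finset.sum_neg_distrib]
    refine Finset.sum_bij' (fun π _ => π * Equiv.swap i j) (fun π _ => π * Equiv.swap i j)
      ?_ ?_ ?_ ?_ ?_
    · intro π hπ; exact colGroup_mul hπ (colGroup_swap hc)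
    · intro π hπ; exact colGroup_mul hπ (colGroup_swap hc)
    · intro π _; simp [mul_assoc]
    · intro π _; simp [mul_assoc]
    · intro π _
      rw [sgn_mul, sgn_swap hij]
      have : x ∘ (π * Equiv.swap i j : Equiv.Perm (Fin n)) = (x ∘ π) ∘ Equiv.swap i j := by
        funext p; simp
      rw [this, hu]
      ring
  have h2 : (2 : 𝕜) * kap col u x = 0 := by linear_combination h
  simpa using h2

lemma dlt_comp_swap {y : Word n r} {i j : Fin n} (hy : y i = y j) (x : Word n r) :
    (dlt y : Word n r → 𝕜) (x ∘ Equiv.swap i j) = dlt y x := by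
  have hfix : y ∘ Equiv.swap i j = y := by
    funext p
    simp only [Function.comp]
    by_cases h1 : p = i
    · subst h1; simp [hy]
    · by_cases h2 : p = j
      · subst h2; simp [hy]
      · rw [Equiv.swap_apply_of_ne_of_ne h1 h2]
  unfold dlt
  have : x ∘ Equiv.swap i j = y ↔ x = y := by
    constructor
    · intro h
      have h3 := congrArg (· ∘ Equiv.swap i j) h
      simp only [Function.comp_assoc, hfix] at h3
      have h4 : (⇑(Equiv.swap i j) ∘ ⇑(Equiv.swap i j)) = id := by
        funext p; simp
      rwa [h4, Function.comp_id] at h3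
    · rintro rfl; exact hfix
  simp [this]

/-- A tableau of shape `μ` (not nec. standard): rows `w`, columns `col`. -/
structure Tab (μ : Fin r → ℕ) (n : ℕ) where
  /-- rows -/
  w : Word n r
  /-- columns -/
  col : Fin n → ℕ
  inj : ∀ i j, w i = w j → col i = col j → i = j
  lt : ∀ i, col i < μ (w i)

/-- The polytabloid. -/
noncomputable def Tab.e {μ : Fin r → ℕ} (t : Tab μ n) : Word n r → 𝕜 := kap t.col (dlt t.w)

variable {μ : Fin r → ℕ}

lemma Tab.e_self (t : Tab μ n) : (t.e : Word n r → 𝕜) t.w = 1 := by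
  unfold Tab.e kap
  rw [Finset.sum_eq_single (1 : Equiv.Perm (Fin n))]
  · simp [sgn_one, dlt]
  · intro π hπ hne
    have : t.w ∘ π ≠ t.w := by
      intro h
      apply hne
      ext i
      have h1 := congrFun h i
      have h2 := (mem_colGroup.1 hπ) i
      exact congrArg Fin.val (t.inj _ _ h1 h2)
    simp [dlt, this]
  · intro h
    exact absurd (mem_colGroup.2 (fun i => rfl)) h

lemma Tab.e_supp (t : Tab μ n) {x : Word n r} (h : (t.e : Word n r → 𝕜) x ≠ 0) :
    ∃ π ∈ colGroup t.col, x ∘ π = t.w := by
  by_contra hne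
  push Not at hne
  apply h
  unfold Tab.e kap
  refine Finset.sum_eq_zero fun π hπ => ?_
  simp [dlt, hne π hπ]

lemma Tab.e_comp (t : Tab μ n) (x : Word n r) {σ : Equiv.Perm (Fin n)}
    (hσ : σ ∈ colGroup t.col) :
    (t.e : Word n r → 𝕜) (x ∘ σ) = sgn 𝕜 σ * t.e x := kap_comp _ _ _ hσ

/-- Two injective placements in the diagram differ by a permutation. -/
lemma exists_perm_of_inj (hn : ∑ a, μ a = n) (x₁ x₂ : Word n r) (c₁ c₂ : Fin n → ℕ)
    (h₁ : ∀ i, c₁ i < μ (x₁ i)) (h₂ : ∀ i, c₂ i < μ (x₂ i))
    (i₁ : ∀ i j, x₁ i = x₁ j → c₁ i = c₁ j → i = j)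
    (i₂ : ∀ i j, x₂ i = x₂ j → c₂ i = c₂ j → i = j) :
    ∃ π : Equiv.Perm (Fin n), ∀ i, x₁ (π i) = x₂ i ∧ c₁ (π i) = c₂ i := by
  let f₁ : Fin n → Σ a, Fin (μ a) := fun i => ⟨x₁ i, ⟨c₁ i, h₁ i⟩⟩
  let f₂ : Fin n → Σ a, Fin (μ a) := fun i => ⟨x₂ i, ⟨c₂ i, h₂ i⟩⟩
  have hg : ∀ {p q : Σ a, Fin (μ a)}, p = q → p.1 = q.1 ∧ (p.2 : ℕ) = q.2 := by
    rintro p q rfl; exact ⟨rfl, rfl⟩
  have hcard : Fintype.card (Fin n) = Fintype.card (Σ a, Fin (μ a)) := by
    simp [Fintype.card_sigma, hn]
  have hf₁ : Function.Bijective f₁ := by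
    rw [Fintype.bijective_iff_injective_and_card]
    refine ⟨fun i j h => ?_, hcard⟩
    obtain ⟨h1, h2⟩ := hg h
    exact i₁ i j h1 h2
  have hf₂ : Function.Bijective f₂ := by
    rw [Fintype.bijective_iff_injective_and_card]
    refine ⟨fun i j h => ?_, hcard⟩
    obtain ⟨h1, h2⟩ := hg h
    exact i₂ i j h1 h2
  let π : Equiv.Perm (Fin n) :=
    (Equiv.ofBijective f₂ hf₂).trans (Equiv.ofBijective f₁ hf₁).symm
  refine ⟨π, fun i => ?_⟩
  have : f₁ (π i) = f₂ i := (Equiv.ofBijective f₁ hf₁).apply_symm_apply (f₂ i)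
  exact hg this

/-- A word of content `μ` with no repeated letter in a column of a tableau of shape `μ` sits inside
the diagram. -/
lemma col_lt_of_content (hμ : Antitone μ) (t : Tab μ n) {x : Word n r}
    (hc : ∀ a, content x a = μ a) (hinj : ∀ i j, t.col i = t.col j → x i = x j → i = j) :
    ∀ i, t.col i < μ (x i) := by
  classical
  -- strong induction on the letter
  have key : ∀ (m : ℕ) (a : Fin r), a.val = m → ∀ i, x i = a → t.col i < μ a := by
    intro m
    induction m using Nat.strong_induction_on with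
    | _ m ih =>
      intro a ha i hi
      by_contra hge
      push Not at hge
      set c := t.col i with hc'
      let L : Finset (Fin r) := univ.filter fun a' => c < μ a'
      let Cpos : Finset (Fin n) := univ.filter fun p => t.col p = c
      have hCL : Cpos.card ≤ L.card := by
        refine card_le_card_of_injOn t.w ?_ ?_
        · intro p hp
          simp only [Cpos, coe_filter, mem_univ, true_and, Set.mem_ofPred_eq] at hp
          simp only [L, coe_filter, mem_univ, true_and, Set.mem_ofPred_eq]
          rw [← hp]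
          exact t.lt p
        · intro p hp q hq hpq
          simp only [Cpos, coe_filter, mem_univ, true_and, Set.mem_ofPred_eq] at hp hq
          exact t.inj _ _ hpq (hp.trans hq.symm)
      have haL : a ∉ L := by
        simp only [L, mem_filter, mem_univ, true_and, not_lt]
        exact hge
      have hsub : insert a L ⊆ Cpos.image x := by
        intro a' ha'
        rw [mem_insert] at ha'
        rcases ha' with rfl | ha'
        · exact mem_image.2 ⟨i, by simp [Cpos, hc'], hi⟩
        · simp only [L, mem_filter, mem_univ, true_and] at ha'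
          have hlt : a' < a := by
            by_contra hle
            push Not at hle
            have := hμ hle
            omega
          have ih' := ih a'.val (by rw [← ha]; exact hlt) a' rfl
          -- the columns of letter `a'` fill `range (μ a')`
          let A : Finset (Fin n) := univ.filter fun p => x p = a'
          have hAcard : A.card = μ a' := hc a'
          have himg : A.image t.col = range (μ a') := by
            refine eq_of_subset_of_card_le ?_ ?_
            · intro v hv
              obtain ⟨p, hp, rfl⟩ := mem_image.1 hv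
              simp only [A, mem_filter, mem_univ, true_and] at hp
              exact mem_range.2 (ih' p hp)
            · rw [card_range, card_image_of_injOn, hAcard]
              intro p hp q hq hpq
              simp only [A, coe_filter, mem_univ, true_and, Set.mem_ofPred_eq] at hp hq
              exact hinj _ _ hpq (hp.trans hq.symm)
          have hcmem : c ∈ A.image t.col := by
            rw [himg]
            exact mem_range.2 ha'
          obtain ⟨p, hp, hpc⟩ := mem_image.1 hcmem
          simp only [A, mem_filter, mem_univ, true_and] at hp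
          exact mem_image.2 ⟨p, by simp [Cpos, hpc], hp⟩
      have h1 := card_le_card hsub
      rw [card_insert_of_notMem haL] at h1
      have h2 : (Cpos.image x).card ≤ Cpos.card := card_image_le
      omega
  intro i
  exact key _ (x i) rfl i rfl

/-- Combinatorial lemma: a word of content `μ` without repeated letter in a column is a column
permutation of the tableau word. -/
lemma exists_colperm (hμ : Antitone μ) (hn : ∑ a, μ a = n) (t : Tab μ n) {x : Word n r}
    (hc : ∀ a, content x a = μ a) (hinj : ∀ i j, t.col i = t.col j → x i = x j → i = j) :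
    ∃ π ∈ colGroup t.col, x ∘ π = t.w := by
  obtain ⟨π, hπ⟩ := exists_perm_of_inj hn x t.w t.col t.col (col_lt_of_content hμ t hc hinj) t.lt
    (fun i j h1 h2 => hinj i j h2 h1) t.inj
  exact ⟨π, mem_colGroup.2 fun i => (hπ i).2, funext fun i => (hπ i).1⟩

lemma content_comp (x : Word n r) (π : Equiv.Perm (Fin n)) (a : Fin r) :
    content (x ∘ π) a = content x a := by
  unfold content
  refine card_bij (fun i _ => π i) ?_ ?_ ?_
  · intro i hi; simpa using hi
  · intro i _ j _ h; exact π.injective h
  · intro j hj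
    refine ⟨π⁻¹ j, ?_, by simp⟩
    simpa using hj

/-- Basic lemma. -/
theorem Tab.kap_eq (hμ : Antitone μ) (hn : ∑ a, μ a = n) (t : Tab μ n) (u : Word n r → 𝕜)
    (hu : ∀ x, u x ≠ 0 → ∀ a, content x a = μ a) (x : Word n r) :
    kap t.col u x = kap t.col u t.w * t.e x := by
  classical
  by_cases hx : ∃ π ∈ colGroup t.col, x ∘ π = t.w
  · obtain ⟨π, hπ, hxπ⟩ := hx
    have hx' : x = t.w ∘ (π⁻¹ : Equiv.Perm (Fin n)) := by
      rw [← hxπ]
      funext i
      simp
    rw [hx', kap_comp _ _ _ (colGroup_inv hπ), Tab.e_comp t _ (colGroup_inv hπ), t.e_self]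
    ring
  · have he : (t.e : Word n r → 𝕜) x = 0 := by
      by_contra h
      exact hx (t.e_supp h)
    rw [he, mul_zero]
    by_cases hc : ∀ a, content x a = μ a
    · by_cases hinj : ∀ i j, t.col i = t.col j → x i = x j → i = j
      · exact absurd (exists_colperm hμ hn t hc hinj) hx
      · push Not at hinj
        obtain ⟨i, j, h1, h2, h3⟩ := hinj
        exact kap_eq_zero_of_fix_left _ _ h3 h1 h2
    · refine Finset.sum_eq_zero fun π _ => ?_
      have : u (x ∘ π) = 0 := by
        by_contra h
        apply hc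
        intro a
        rw [← content_comp x π a]
        exact hu _ h a
      rw [this, mul_zero]

/-- `kap` preserves invariant subspaces. -/
lemma kap_mem (U : Submodule 𝕜 (Word n r → 𝕜)) (hinv : ∀ (g : Equiv.Perm (Fin n)), ∀ u ∈ U, act g u ∈ U)
    (col : Fin n → ℕ) {u : Word n r → 𝕜} (hu : u ∈ U) : kap col u ∈ U := by
  rw [kap_eq_sum]
  exact U.sum_mem fun π _ => U.smul_mem _ (hinv π u hu)

/-- Transitivity on tableaux: polytabloids are translates of each other. -/
lemma Tab.e_eq_act (t t' : Tab μ n) {π : Equiv.Perm (Fin n)}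
    (hπ : ∀ i, t.w (π i) = t'.w i ∧ t.col (π i) = t'.col i) :
    (t'.e : Word n r → 𝕜) = act π⁻¹ t.e := by
  funext x
  have hw : t'.w = t.w ∘ π := funext fun i => (hπ i).1.symm
  have hc : t'.col = t.col ∘ π := funext fun i => (hπ i).2.symm
  simp only [Tab.e, kap, act]
  refine Finset.sum_bij' (fun ρ _ => π * ρ * π⁻¹) (fun ρ _ => π⁻¹ * ρ * π) ?_ ?_ ?_ ?_ ?_
  · intro ρ hρ
    rw [mem_colGroup] at hρ ⊢
    intro i
    have := hρ (π⁻¹ i)
    rw [hc] at this
    simpa using this
  · intro ρ hρ
    rw [mem_colGroup] at hρ ⊢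
    intro i
    rw [hc]
    have := hρ (π i)
    simpa using this
  · intro ρ _; simp [mul_assoc]
  · intro ρ _; simp [mul_assoc]
  · intro ρ _
    have h1 : sgn 𝕜 (π * ρ * π⁻¹) = sgn 𝕜 ρ := by
      rw [sgn_mul, sgn_mul, sgn_inv]
      have h3 : sgn 𝕜 π * sgn 𝕜 π = 1 := by
        rw [← sgn_mul]
        simp [sgn, Int.units_mul_self]
      calc sgn 𝕜 π * sgn 𝕜 ρ * sgn 𝕜 π = (sgn 𝕜 π * sgn 𝕜 π) * sgn 𝕜 ρ := by ring
        _ = sgn 𝕜 ρ := by rw [h3, one_mul]
    rw [h1]
    congr 1
    simp only [dlt]
    have : (x ∘ ⇑ρ = t'.w) ↔ (x ∘ ⇑(π⁻¹ : Equiv.Perm (Fin n)) ∘ ⇑(π * ρ * π⁻¹) = t.w) := by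
      rw [hw]
      constructor
      · intro h
        funext i
        have := congrFun h (π⁻¹ i)
        simpa using this
      · intro h
        funext i
        have := congrFun h (π i)
        simpa using this
    simp only [this, Function.comp_assoc]

/-- The pairing of a polytabloid with a function. -/
lemma Tab.sum_e_mul (t : Tab μ n) (u : Word n r → 𝕜) :
    ∑ x, (t.e : Word n r → 𝕜) x * u x = kap t.col u t.w := by
  classical
  simp only [Tab.e, kap, Finset.sum_mul]
  rw [Finset.sum_comm]
  have h1 : ∀ π ∈ colGroup t.col, ∑ x, sgn 𝕜 π * (dlt t.w : Word n r → 𝕜) (x ∘ π) * u x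
      = sgn 𝕜 π * u (t.w ∘ (π⁻¹ : Equiv.Perm (Fin n))) := by
    intro π _
    rw [Finset.sum_eq_single (t.w ∘ (π⁻¹ : Equiv.Perm (Fin n)))]
    · have : (t.w ∘ (π⁻¹ : Equiv.Perm (Fin n))) ∘ π = t.w := by
        funext i; simp
      simp only [dlt]
      rw [if_pos this, mul_one]
    · intro x _ hx
      have : x ∘ π ≠ t.w := by
        intro h
        apply hx
        rw [← h]
        funext i
        simp
      simp [dlt, this]
    · intro h; exact absurd (mem_univ _) h
  rw [Finset.sum_congr rfl h1]
  refine Finset.sum_bij' (fun π _ => π⁻¹) (fun π _ => π⁻¹) ?_ ?_ ?_ ?_ ?_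
  · intro π hπ; exact colGroup_inv hπ
  · intro π hπ; exact colGroup_inv hπ
  · intro π _; simp
  · intro π _; simp
  · intro π _; rw [sgn_inv]

/-! ### Polytabloids are killed by raising operators -/

lemma psi_act (a b : Fin r) (g : Equiv.Perm (Fin n)) (u : Word n r → 𝕜) (w' : Word n r) :
    psi a b (act g u) w' = psi a b u (w' ∘ g) := by
  classical
  unfold psi act
  refine Finset.sum_bij' (fun i _ => g⁻¹ i) (fun j _ => g j) ?_ ?_ ?_ ?_ ?_
  · intro i hi; simpa using hi
  · intro j hj; simpa using hj
  · intro i _; simp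
  · intro j _; simp
  · intro i _
    congr 1
    funext p
    by_cases hp : g p = i
    · subst hp; simp
    · have : p ≠ g⁻¹ i := by
        intro h; apply hp; rw [h]; simp
      show Function.update w' i b (g p) = _
      rw [Function.update_of_ne hp, Function.update_of_ne this]
      rfl

lemma psi_kap (a b : Fin r) (col : Fin n → ℕ) (u : Word n r → 𝕜) (w' : Word n r) :
    psi a b (kap col u) w' = kap col (psi a b u) w' := by
  classical
  rw [kap_eq_sum]
  unfold kap
  unfold psi
  simp only [Finset.sum_apply, Pi.smul_apply, smul_eq_mul, Finset.mul_sum]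
  rw [Finset.sum_comm]
  refine Finset.sum_congr rfl fun π _ => ?_
  have := psi_act a b π u w'
  unfold psi at this
  rw [← Finset.mul_sum, ← Finset.mul_sum, this]

lemma psi_dlt {a b : Fin r} (y : Word n r) (w' : Word n r) :
    psi a b (dlt y : Word n r → 𝕜) w'
      = ∑ j ∈ univ.filter (fun j => y j = b), (dlt (Function.update y j a) : Word n r → 𝕜) w' := by
  classical
  unfold psi dlt
  rw [Finset.sum_filter, Finset.sum_filter]
  refine Finset.sum_congr rfl fun i _ => ?_
  by_cases h : w' i = a ∧ Function.update w' i b = y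
  · obtain ⟨h1, h2⟩ := h
    have h3 : y i = b := by rw [← h2]; simp
    have h4 : w' = Function.update y i a := by
      rw [← h2]
      funext p
      by_cases hp : p = i
      · subst hp; simp [h1]
      · simp [Function.update_of_ne hp]
    simp [h1, h2, h3, ← h4]
  · by_cases h1 : w' i = a
    · have h2 : Function.update w' i b ≠ y := fun h2 => h ⟨h1, h2⟩
      rw [if_pos h1, if_neg h2]
      by_cases h3 : y i = b
      · have h4 : w' ≠ Function.update y i a := by
          intro h5
          apply h2
          rw [h5]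
          funext p
          by_cases hp : p = i
          · subst hp; simp [h3]
          · simp [Function.update_of_ne hp]
        simp [h3, h4]
      · simp [h3]
    · rw [if_neg h1]
      by_cases h3 : y i = b
      · have h4 : w' ≠ Function.update y i a := by
          intro h5
          apply h1
          rw [h5]; simp
        simp [h3, h4]
      · simp [h3]

/-- Polytabloids are killed by adjacent raising operators. -/
theorem Tab.isHW_e (hμ : Antitone μ) (hn : ∑ a, μ a = n) (t : Tab μ n) :
    IsHW (t.e : Word n r → 𝕜) := by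
  classical
  intro a b hab w'
  have hne : a ≠ b := by
    intro h; rw [h] at hab; omega
  have hale : a ≤ b := by rw [Fin.le_def]; omega
  unfold Tab.e
  rw [psi_kap]
  have hpsi : psi a b (dlt t.w : Word n r → 𝕜)
      = ∑ j ∈ univ.filter (fun j => t.w j = b), (dlt (Function.update t.w j a) : Word n r → 𝕜) := by
    funext x
    rw [psi_dlt, Finset.sum_apply]
  rw [hpsi]
  unfold kap
  simp only [Finset.sum_apply, Finset.mul_sum]
  rw [Finset.sum_comm]
  refine Finset.sum_eq_zero fun j hj => ?_
  have hj' : t.w j = b := by simpa using hj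
  -- the cell (a, col j) is in the diagram
  have hcell : t.col j < μ a := lt_of_lt_of_le (by have := t.lt j; rwa [hj'] at this) (hμ hale)
  -- hence occupied, since the tableau fills the diagram
  have : ∃ i, t.w i = a ∧ t.col i = t.col j := by
    let f : Fin n → Σ a, Fin (μ a) := fun i => ⟨t.w i, ⟨t.col i, t.lt i⟩⟩
    have hg : ∀ {p q : Σ a, Fin (μ a)}, p = q → p.1 = q.1 ∧ (p.2 : ℕ) = q.2 := by
      rintro p q rfl; exact ⟨rfl, rfl⟩
    have hcard : Fintype.card (Fin n) = Fintype.card (Σ a, Fin (μ a)) := by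
      simp [Fintype.card_sigma, hn]
    have hf : Function.Bijective f := by
      rw [Fintype.bijective_iff_injective_and_card]
      refine ⟨fun i j h => ?_, hcard⟩
      obtain ⟨h1, h2⟩ := hg h
      exact t.inj i j h1 h2
    obtain ⟨i, hi⟩ := hf.2 ⟨a, ⟨t.col j, hcell⟩⟩
    obtain ⟨h1, h2⟩ := hg hi
    exact ⟨i, h1, h2⟩
  obtain ⟨i, hi1, hi2⟩ := this
  have hij : i ≠ j := by
    intro h
    rw [h, hj'] at hi1
    exact hne hi1.symm
  have hy : Function.update t.w j a i = Function.update t.w j a j := by
    rw [Function.update_of_ne hij, Function.update_self, hi1]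
  have := kap_eq_zero_of_fix_right (𝕜 := 𝕜) t.col (dlt (Function.update t.w j a)) hij hi2
    (fun x => dlt_comp_swap hy x) w'
  unfold kap at this
  exact this

/-! ### Tableaux from lattice words -/

/-- The column of a position in the tableau of a word. -/
def colOf (w : Word n r) : Fin n → ℕ := fun i => pc w i.val (w i)

lemma pc_lt_pc_of_lt (w : Word n r) {i j : Fin n} (hij : i < j) :
    pc w i.val (w i) < pc w j.val (w i) := by
  classical
  have h1 := pc_succ w i.val i.isLt (w i)
  simp only [Fin.eta, if_true] at h1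
  have h2 : pc w (i.val + 1) (w i) ≤ pc w j.val (w i) := pc_le_of_le w (by
    rw [Fin.lt_def] at hij; omega) _
  omega

lemma colOf_inj (w : Word n r) (i j : Fin n) (h1 : w i = w j) (h2 : colOf w i = colOf w j) :
    i = j := by
  rcases lt_trichotomy i j with h | h | h
  · have := pc_lt_pc_of_lt w h
    simp only [colOf] at h2
    rw [← h1] at h2
    omega
  · exact h
  · have := pc_lt_pc_of_lt w h
    simp only [colOf] at h2
    rw [h1] at h2
    omega

lemma colOf_lt_content (w : Word n r) (i : Fin n) : colOf w i < content w (w i) := by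
  classical
  unfold colOf pc content
  refine card_lt_card ⟨?_, ?_⟩
  · intro p hp
    simp only [mem_filter, mem_univ, true_and] at hp ⊢
    exact hp.2
  · intro h
    have := h (show i ∈ _ by simp)
    simp at this

/-- The tableau of a word of content `μ`. -/
def tabOf (w : Word n r) (hc : ∀ a, content w a = μ a) : Tab μ n where
  w := w
  col := colOf w
  inj := colOf_inj w
  lt := fun i => by rw [← hc]; exact colOf_lt_content w i

lemma lattice_mono {w : Word n r} (hw : IsLattice w) (k : ℕ) {a b : Fin r} (hab : a ≤ b) :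
    pc w k b ≤ pc w k a := by
  have key : ∀ (d : ℕ) (a b : Fin r), b.val = a.val + d → pc w k b ≤ pc w k a := by
    intro d
    induction d with
    | zero =>
      intro a b h
      have : a = b := Fin.ext (by omega)
      rw [this]
    | succ d ih =>
      intro a b h
      have hb := b.isLt
      have h1 := ih a ⟨a.val + d, by omega⟩ rfl
      have h2 := hw k ⟨a.val + d, by omega⟩ b (by simp; omega)
      omega
  exact key (b.val - a.val) a b (by rw [Fin.le_def] at hab; omega)

/-- Columns of a lattice word increase. -/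
lemma lattice_col_incr {w : Word n r} (hw : IsLattice w) {i j : Fin n} (hij : i < j)
    (hc : colOf w i = colOf w j) : w i < w j := by
  classical
  by_contra hle
  push Not at hle
  rcases eq_or_lt_of_le hle with h | h
  · exact (ne_of_lt hij) (colOf_inj w i j h.symm hc)
  · have h1 := pc_succ w i.val i.isLt (w i)
    simp only [Fin.eta, if_true] at h1
    have h2 := lattice_mono hw (i.val + 1) (le_of_lt h)
    have h3 : pc w (i.val + 1) (w j) ≤ pc w j.val (w j) := pc_le_of_le w (by
      rw [Fin.lt_def] at hij; omega) _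
    simp only [colOf] at hc
    omega

lemma rkey_comp_lt {w : Word n r} (hw : IsLattice w) {π : Equiv.Perm (Fin n)}
    (hπ : π ∈ colGroup (colOf w)) (hne : π ≠ 1) : rkey (w ∘ π) < rkey w := by
  classical
  have hS : (univ.filter fun j => π j ≠ j).Nonempty := by
    by_contra h
    rw [Finset.not_nonempty_iff_eq_empty, Finset.filter_eq_empty_iff] at h
    apply hne
    ext j
    have := h (mem_univ j)
    simp only [ne_eq, not_not] at this
    simp [this]
  set i := (univ.filter fun j => π j ≠ j).max' hS with hi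
  have hi1 : π i ≠ i := by
    have := Finset.max'_mem _ hS
    simpa using this
  have hfix : ∀ j, i < j → π j = j := by
    intro j hj
    by_contra h
    have : j ≤ i := Finset.le_max' _ _ (by simpa using h)
    exact absurd hj (not_lt.2 this)
  have hlt : π i < i := by
    rcases lt_trichotomy (π i) i with h | h | h
    · exact h
    · exact absurd h hi1
    · have := hfix _ h
      exact absurd (π.injective this) hi1
  refine rkey_lt i ?_ ?_
  · intro j hj
    simp [hfix j hj]
  · have h2 := (mem_colGroup.1 hπ) i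
    exact lattice_col_incr hw hlt h2

/-- The polytabloid of a lattice word has leading word that word. -/
theorem tabOf_lead {w : Word n r} (hw : IsLattice w) (hc : ∀ a, content w a = μ a) :
    ((tabOf w hc).e : Word n r → 𝕜) w = 1 ∧
      ∀ x, ((tabOf w hc).e : Word n r → 𝕜) x ≠ 0 → rkey x ≤ rkey w := by
  refine ⟨(tabOf w hc).e_self, fun x hx => ?_⟩
  obtain ⟨π, hπ, hxπ⟩ := (tabOf w hc).e_supp hx
  have hx' : x = w ∘ (π⁻¹ : Equiv.Perm (Fin n)) := by
    have : (tabOf w hc).w = w := rfl
    rw [this] at hxπ
    rw [← hxπ]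
    funext i
    simp
  by_cases h1 : π = 1
  · subst h1
    rw [hx']
    simp
  · rw [hx']
    refine le_of_lt (rkey_comp_lt hw (colGroup_inv hπ) ?_)
    intro h
    exact h1 (inv_eq_one.1 h)

/-! ### Span, independence, invariant subspaces -/

open Classical in
/-- The lattice words of content `μ`. -/
noncomputable def latticeWords (μ : Fin r → ℕ) (n : ℕ) : Finset (Word n r) :=
  univ.filter fun w => (∀ a, content w a = μ a) ∧ IsLattice w

/-- The polytabloid of a word. -/
noncomputable def stdE (w : Word n r) : Word n r → 𝕜 := kap (colOf w) (dlt w)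

lemma stdE_eq {w : Word n r} (hc : ∀ a, content w a = μ a) :
    (stdE w : Word n r → 𝕜) = (tabOf w hc).e := rfl

lemma psi_sub_smul (a b : Fin r) (u v : Word n r → 𝕜) (c : 𝕜) (w' : Word n r) :
    psi a b (u - c • v) w' = psi a b u w' - c * psi a b v w' := by
  simp [psi, Finset.sum_sub_distrib, Finset.mul_sum]

/-- Every highest weight function of content `μ` is a combination of standard polytabloids. -/
theorem mem_span_std (hμ : Antitone μ) (hn : ∑ a, μ a = n) (u : Word n r → 𝕜) (hu : IsHW u)
    (hs : ∀ x, u x ≠ 0 → ∀ a, content x a = μ a) :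
    u ∈ Submodule.span 𝕜 ((stdE : Word n r → (Word n r → 𝕜)) '' (latticeWords μ n)) := by
  classical
  by_cases h0 : u = 0
  · rw [h0]; exact Submodule.zero_mem _
  obtain ⟨w, hw⟩ := exists_lead u h0
  have : Finite (Colex (Fin n → Fin r)) := (inferInstance : Finite (Fin n → Fin r))
  have : WellFoundedLT (Colex (Fin n → Fin r)) := Finite.to_wellFoundedLT
  have key : ∀ (w : Word n r) (u : Word n r → 𝕜), IsHW u →
      (∀ x, u x ≠ 0 → ∀ a, content x a = μ a) → IsLead u w →
      u ∈ Submodule.span 𝕜 ((stdE : Word n r → (Word n r → 𝕜)) '' (latticeWords μ n)) := by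
    intro w
    refine (InvImage.wf (rkey : Word n r → _) wellFounded_lt).induction
      (C := fun w => ∀ (u : Word n r → 𝕜), IsHW u →
        (∀ x, u x ≠ 0 → ∀ a, content x a = μ a) → IsLead u w →
        u ∈ Submodule.span 𝕜 ((stdE : Word n r → (Word n r → 𝕜)) '' (latticeWords μ n))) w ?_
    intro w ih u hu hs hw
    have hlat := lead_isLattice hu hw
    have hcw := hs w hw.1
    have hmem : w ∈ latticeWords μ n := by
      simp only [latticeWords, mem_filter, mem_univ, true_and]
      exact ⟨hcw, hlat⟩
    have hstd : (stdE w : Word n r → 𝕜)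
        ∈ Submodule.span 𝕜 ((stdE : Word n r → (Word n r → 𝕜)) '' (latticeWords μ n)) :=
      Submodule.subset_span ⟨w, hmem, rfl⟩
    obtain ⟨he1, he2⟩ := tabOf_lead (𝕜 := 𝕜) hlat hcw
    set t := tabOf w hcw with ht
    set u' : Word n r → 𝕜 := u - (u w) • t.e with hu'
    have hdecomp : u = u' + (u w) • stdE w := by
      rw [hu', stdE_eq hcw]; abel
    rw [hdecomp]
    refine Submodule.add_mem _ ?_ (Submodule.smul_mem _ _ hstd)
    by_cases h0 : u' = 0
    · rw [h0]; exact Submodule.zero_mem _
    have hHW : IsHW u' := by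
      intro a b hab w'
      rw [hu', psi_sub_smul, hu a b hab, t.isHW_e hμ hn a b hab]
      simp
    have hsupp' : ∀ x, u' x ≠ 0 → u x ≠ 0 ∨ (t.e : Word n r → 𝕜) x ≠ 0 := by
      intro x hx
      by_contra hcon
      push Not at hcon
      apply hx
      simp [hu', hcon.1, hcon.2]
    have hs' : ∀ x, u' x ≠ 0 → ∀ a, content x a = μ a := by
      intro x hx a
      rcases hsupp' x hx with h | h
      · exact hs x h a
      · obtain ⟨π, _, hxπ⟩ := t.e_supp h
        rw [← content_comp x π a, hxπ]
        exact hcw a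
    obtain ⟨w', hw'⟩ := exists_lead u' h0
    have hlt : rkey w' < rkey w := by
      have hne : w' ≠ w := by
        rintro rfl
        apply hw'.1
        simp only [hu', Pi.sub_apply, Pi.smul_apply, smul_eq_mul]
        rw [show (t.e : Word n r → 𝕜) w' = 1 from he1]
        simp
      have hle : rkey w' ≤ rkey w := by
        rcases hsupp' w' hw'.1 with h | h
        · exact hw.2 _ h
        · exact he2 _ h
      exact lt_of_le_of_ne hle (fun h => hne (rkey_injective h))
    exact ih w' hlt u' hHW hs' hw'
  exact key w u hu hs hw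

/-- Independence of standard polytabloids. -/
theorem linearIndependent_std :
    LinearIndependent 𝕜 (fun w : latticeWords μ n => (stdE w.1 : Word n r → 𝕜)) := by
  classical
  rw [linearIndependent_iff']
  intro s g hsum
  by_contra hcon
  push Not at hcon
  obtain ⟨i₀, hi₀, hg₀⟩ := hcon
  obtain ⟨i, hi, hmax⟩ := Finset.exists_max_image (s.filter fun i => g i ≠ 0)
    (fun i => rkey i.1) ⟨i₀, by simp [hi₀, hg₀]⟩
  have hi' : i ∈ s ∧ g i ≠ 0 := by simpa using hi
  have hc : ∀ w : latticeWords μ n, ∀ a, content w.1 a = μ a := by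
    intro w a
    have := w.2
    simp only [latticeWords, mem_filter, mem_univ, true_and] at this
    exact this.1 a
  have hl : ∀ w : latticeWords μ n, IsLattice w.1 := by
    intro w
    have := w.2
    simp only [latticeWords, mem_filter, mem_univ, true_and] at this
    exact this.2
  have hev := congrFun hsum i.1
  simp only [Finset.sum_apply, Pi.smul_apply, smul_eq_mul, Pi.zero_apply] at hev
  rw [Finset.sum_eq_single i] at hev
  · have : (stdE i.1 : Word n r → 𝕜) i.1 = 1 := (tabOf_lead (hl i) (hc i)).1
    rw [this, mul_one] at hev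
    exact hi'.2 hev
  · intro j hj hji
    by_cases hgj : g j = 0
    · simp [hgj]
    · have hle := hmax j (by simp [hj, hgj])
      by_contra hne
      have hne' : (stdE j.1 : Word n r → 𝕜) i.1 ≠ 0 := fun h => hne (by rw [h, mul_zero])
      have hle2 := (tabOf_lead (hl j) (hc j)).2 i.1 hne'
      have : rkey j.1 = rkey i.1 := le_antisymm hle hle2
      exact hji (Subtype.ext (rkey_injective this))
  · intro h; exact absurd hi'.1 h

/-- Polytabloids are real. -/
lemma conj_stdE (w : Word n r) (x : Word n r) :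
    (starRingEnd 𝕜) ((stdE w : Word n r → 𝕜) x) = stdE w x := by
  simp only [stdE, kap, map_sum, map_mul, conj_sgn]
  refine Finset.sum_congr rfl fun π _ => ?_
  congr 1
  unfold dlt
  split_ifs <;> simp

/-- **Invariant subspaces.** A nonzero invariant subspace of highest weight functions of content
`μ` contains all polytabloids. -/
theorem Tab.e_mem (hμ : Antitone μ) (hn : ∑ a, μ a = n) (U : Submodule 𝕜 (Word n r → 𝕜))
    (hinv : ∀ (g : Equiv.Perm (Fin n)), ∀ u ∈ U, act g u ∈ U) (hhw : ∀ u ∈ U, IsHW u)
    (hsupp : ∀ u ∈ U, ∀ x, u x ≠ 0 → ∀ a, content x a = μ a) (hne : U ≠ ⊥) (t : Tab μ n) :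
    t.e ∈ U := by
  classical
  by_cases hA : ∃ u ∈ U, ∃ t₀ : Tab μ n, kap t₀.col u t₀.w ≠ 0
  · obtain ⟨u, hu, t₀, ht₀⟩ := hA
    have h1 : (kap t₀.col u) = (kap t₀.col u t₀.w) • (t₀.e : Word n r → 𝕜) := by
      funext x
      rw [t₀.kap_eq hμ hn u (hsupp u hu) x]
      simp
    have h2 : kap t₀.col u ∈ U := kap_mem U hinv _ hu
    rw [h1] at h2
    have h3 : (t₀.e : Word n r → 𝕜) ∈ U := (U.smul_mem_iff ht₀).1 h2
    obtain ⟨π, hπ⟩ := exists_perm_of_inj hn t₀.w t.w t₀.col t.col t₀.lt t.lt t₀.inj t.inj
    rw [t₀.e_eq_act t hπ]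
    exact hinv _ _ h3
  · push Not at hA
    exfalso
    obtain ⟨u, hu, hu0⟩ := Submodule.exists_mem_ne_zero_of_ne_bot hne
    apply hu0
    have hspan := mem_span_std hμ hn u (hhw u hu) (hsupp u hu)
    -- the conjugate of `u` is also in the span
    have hconj : (fun x => (starRingEnd 𝕜) (u x))
        ∈ Submodule.span 𝕜 ((stdE : Word n r → (Word n r → 𝕜)) '' (latticeWords μ n)) := by
      refine Submodule.span_induction (p := fun f _ => (fun x => (starRingEnd 𝕜) (f x))
        ∈ Submodule.span 𝕜 ((stdE : Word n r → (Word n r → 𝕜)) '' (latticeWords μ n))) ?_ ?_ ?_ ?_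
        hspan
      · rintro f ⟨w, hw, rfl⟩
        have : (fun x => (starRingEnd 𝕜) ((stdE w : Word n r → 𝕜) x)) = stdE w :=
          funext fun x => conj_stdE w x
        rw [this]
        exact Submodule.subset_span ⟨w, hw, rfl⟩
      · have h00 : (fun x => (starRingEnd 𝕜) ((0 : Word n r → 𝕜) x)) = 0 := by
          funext x; simp
        rw [h00]
        exact Submodule.zero_mem _
      · intro f g _ _ hf hg
        have := Submodule.add_mem _ hf hg
        convert this using 1
        funext x
        simp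
      · intro c f _ hf
        have := Submodule.smul_mem _ ((starRingEnd 𝕜) c) hf
        convert this using 1
        funext x
        simp
    -- the pairing with `u` vanishes on the span
    have hpair : ∀ f ∈ Submodule.span 𝕜 ((stdE : Word n r → (Word n r → 𝕜)) '' (latticeWords μ n)),
        ∑ x, f x * u x = 0 := by
      intro f hf
      refine Submodule.span_induction (p := fun f _ => ∑ x, f x * u x = 0) ?_ ?_ ?_ ?_ hf
      · rintro f ⟨w, hw, rfl⟩
        simp only [latticeWords, coe_filter, mem_univ, true_and, Set.mem_ofPred_eq] at hw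
        have := (tabOf w hw.1).sum_e_mul u
        rw [hA u hu (tabOf w hw.1)] at this
        exact this
      · simp
      · intro f g _ _ hf hg
        simp only [Pi.add_apply, add_mul, Finset.sum_add_distrib, hf, hg, add_zero]
      · intro c f _ hf
        simp only [Pi.smul_apply, smul_eq_mul, mul_assoc, ← Finset.mul_sum, hf, mul_zero]
    have h0 := hpair _ hconj
    have h1 : ∀ x, (starRingEnd 𝕜) (u x) * u x = ((‖u x‖ ^ 2 : ℝ) : 𝕜) := by
      intro x
      rw [RCLike.conj_mul]
      simp
    simp_rw [h1] at h0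
    rw [← RCLike.ofReal_sum, RCLike.ofReal_eq_zero,
      Finset.sum_eq_zero_iff_of_nonneg (fun x _ => by positivity)] at h0
    funext x
    have := h0 x (mem_univ _)
    simpa using this

/-- The dimension bound for invariant subspaces. -/
theorem card_latticeWords_le_finrank (hμ : Antitone μ) (hn : ∑ a, μ a = n)
    (U : Submodule 𝕜 (Word n r → 𝕜))
    (hinv : ∀ (g : Equiv.Perm (Fin n)), ∀ u ∈ U, act g u ∈ U) (hhw : ∀ u ∈ U, IsHW u)
    (hsupp : ∀ u ∈ U, ∀ x, u x ≠ 0 → ∀ a, content x a = μ a) (hne : U ≠ ⊥) :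
    (latticeWords μ n).card ≤ Module.finrank 𝕜 U := by
  classical
  have hli := linearIndependent_std (𝕜 := 𝕜) (n := n) (μ := μ)
  have hmem : ∀ w : latticeWords μ n, (stdE w.1 : Word n r → 𝕜) ∈ U := by
    intro w
    have := w.2
    simp only [latticeWords, mem_filter, mem_univ, true_and] at this
    rw [stdE_eq this.1]
    exact Tab.e_mem hμ hn U hinv hhw hsupp hne _
  have hle : Submodule.span 𝕜 (Set.range fun w : latticeWords μ n => (stdE w.1 : Word n r → 𝕜))
      ≤ U := Submodule.span_le.2 (by rintro _ ⟨w, rfl⟩; exact hmem w)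
  have := Submodule.finrank_mono hle
  rw [finrank_span_eq_card hli, Fintype.card_coe] at this
  exact this

end Crest.Agent.S0222Lib.Specht
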