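import Mathlib

/-!
# Words, raising operators and the leading word of a highest weight vector

`Word n r = Fin n → Fin r`.  Functions on words are the tensor space `(𝕜^r)^{⊗ n}`, with the
adjacent raising operators `psi a b`.  The main result here: the leading word (rightmost
difference order) of a nonzero function killed by all adjacent raising operators is a lattice
word.  The proof uses only one `sl₂` identity on subsets of a finite set.
-/

set_option autoImplicit false

namespace Crest.Agent.S0222Lib.Specht

open Finset

/-! ### The `sl₂` identity on subsets -/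

section SL2

variable {P : Type*} [Fintype P] [DecidableEq P]

/-- Down operator on functions on subsets. -/
def sDown (F : Finset P → ℝ) (S : Finset P) : ℝ := ∑ i ∈ Sᶜ, F (insert i S)

/-- Up operator on functions on subsets. -/
def sUp (F : Finset P → ℝ) (S : Finset P) : ℝ := ∑ i ∈ S, F (S.erase i)

lemma sum_sDown_mul (F G : Finset P → ℝ) :
    ∑ S, sDown F S * G S = ∑ T, F T * sUp G T := by
  simp only [sDown, sUp, Finset.sum_mul, Finset.mul_sum]
  rw [Finset.sum_sigma', Finset.sum_sigma']
  refine Finset.sum_bij' (fun x _ => ⟨insert x.2 x.1, x.2⟩) (fun x _ => ⟨x.1.erase x.2, x.2⟩)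
    ?_ ?_ ?_ ?_ ?_
  · rintro ⟨S, i⟩ h
    simp only [mem_sigma, mem_univ, true_and, mem_compl] at h ⊢
    exact mem_insert_self _ _
  · rintro ⟨T, i⟩ h
    simp only [mem_sigma, mem_univ, true_and, mem_compl] at h ⊢
    exact notMem_erase _ _
  · rintro ⟨S, i⟩ h
    simp only [mem_sigma, mem_univ, true_and, mem_compl] at h
    simp [erase_insert h]
  · rintro ⟨T, i⟩ h
    simp only [mem_sigma, mem_univ, true_and] at h
    simp [insert_erase h]
  · rintro ⟨S, i⟩ h
    simp only [mem_sigma, mem_univ, true_and, mem_compl] at h
    simp [erase_insert h]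

lemma sUp_sDown (F : Finset P → ℝ) (S : Finset P) :
    sUp (sDown F) S = sDown (sUp F) S
      + (2 * (S.card : ℝ) - Fintype.card P) * F S := by
  have h1 : sUp (sDown F) S
      = ∑ j ∈ S, (F S + ∑ i ∈ Sᶜ, F (insert i (S.erase j))) := by
    refine Finset.sum_congr rfl fun j hj => ?_
    have : (S.erase j)ᶜ = insert j Sᶜ := by
      ext x
      simp only [mem_compl, mem_erase, not_and, mem_insert]
      by_cases hx : x = j
      · simp [hx]
      · simp [hx]
    simp only [sDown]
    rw [this, Finset.sum_insert (by simpa using hj), insert_erase hj]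
  have h2 : sDown (sUp F) S
      = ∑ i ∈ Sᶜ, (F S + ∑ j ∈ S, F (insert i (S.erase j))) := by
    refine Finset.sum_congr rfl fun i hi => ?_
    have hi' : i ∉ S := by simpa using hi
    simp only [sUp]
    rw [Finset.sum_insert hi', erase_insert hi']
    congr 1
    refine Finset.sum_congr rfl fun j hj => ?_
    have hij : i ≠ j := fun h => hi' (h ▸ hj)
    rw [erase_insert_of_ne hij]
  rw [h1, h2, Finset.sum_add_distrib, Finset.sum_add_distrib, Finset.sum_const, Finset.sum_const,
    Finset.sum_comm (s := S) (t := Sᶜ), card_compl]
  have hc : S.card ≤ Fintype.card P := card_le_univ S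
  rw [nsmul_eq_mul, nsmul_eq_mul, Nat.cast_sub hc]
  ring

/-- `sl₂`: a function on `q`-subsets of a `p`-set, `2 q > p`, whose Down vanishes, is zero. -/
theorem sl2_injective_real (F : Finset P → ℝ) (q : ℕ)
    (hsupp : ∀ S, F S ≠ 0 → S.card = q) (hq : Fintype.card P < 2 * q)
    (hD : ∀ S : Finset P, S.card + 1 = q → ∑ i ∈ Sᶜ, F (insert i S) = 0) :
    F = 0 := by
  have hD0 : ∀ S, sDown F S = 0 := by
    intro S
    by_cases hS : S.card + 1 = q
    · exact hD S hS
    · refine Finset.sum_eq_zero fun i hi => ?_
      by_contra hne
      have := hsupp _ hne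
      rw [card_insert_of_notMem (by simpa using hi)] at this
      exact hS this
  have key : ∑ S, sDown F S * sDown F S
      = ∑ T, sUp F T * sUp F T
        + ∑ T, (2 * ((T.card : ℕ) : ℝ) - Fintype.card P) * (F T * F T) := by
    rw [sum_sDown_mul F (sDown F)]
    have : ∀ T, F T * sUp (sDown F) T
        = sDown (sUp F) T * F T
          + (2 * ((T.card : ℕ) : ℝ) - Fintype.card P) * (F T * F T) := by
      intro T
      rw [sUp_sDown]
      ring
    simp_rw [this]
    rw [Finset.sum_add_distrib, sum_sDown_mul (sUp F) F]
  have h0 : ∑ T, (2 * ((T.card : ℕ) : ℝ) - Fintype.card P) * (F T * F T) ≤ 0 := by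
    have h1 : ∑ S, sDown F S * sDown F S = 0 := by simp [hD0]
    have h2 : 0 ≤ ∑ T, sUp F T * sUp F T :=
      Finset.sum_nonneg fun _ _ => mul_self_nonneg _
    linarith
  have hterm : ∀ T, 0 ≤ (2 * ((T.card : ℕ) : ℝ) - Fintype.card P) * (F T * F T) := by
    intro T
    by_cases hT : F T = 0
    · simp [hT]
    · have hc := hsupp T hT
      rw [hc]
      have : (Fintype.card P : ℝ) < 2 * q := by exact_mod_cast hq
      exact mul_nonneg (by linarith) (mul_self_nonneg _)
  have hall := (Finset.sum_eq_zero_iff_of_nonneg (fun T _ => hterm T)).1
    (le_antisymm h0 (Finset.sum_nonneg fun T _ => hterm T))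
  funext T
  by_contra hT
  have hT' : F T ≠ 0 := hT
  have := hall T (mem_univ _)
  rw [hsupp T hT'] at this
  have hlt : (Fintype.card P : ℝ) < 2 * q := by exact_mod_cast hq
  have hpos : 0 < F T * F T := mul_self_pos.2 hT'
  have : (0 : ℝ) < (2 * (q : ℝ) - Fintype.card P) * (F T * F T) :=
    mul_pos (by linarith) hpos
  linarith

/-- `sl₂` over `RCLike 𝕜`: real and imaginary parts. -/
theorem sl2_injective {𝕜 : Type*} [RCLike 𝕜] (F : Finset P → 𝕜) (q : ℕ)
    (hsupp : ∀ S, F S ≠ 0 → S.card = q) (hq : Fintype.card P < 2 * q)
    (hD : ∀ S : Finset P, S.card + 1 = q → ∑ i ∈ Sᶜ, F (insert i S) = 0) :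
    F = 0 := by
  have hre : (fun S => RCLike.re (F S)) = 0 := by
    refine sl2_injective_real _ q ?_ hq ?_
    · intro S hS
      refine hsupp S fun h => hS ?_
      simp [h]
    · intro S hS
      have := congrArg RCLike.re (hD S hS)
      simpa using this
  have him : (fun S => RCLike.im (F S)) = 0 := by
    refine sl2_injective_real _ q ?_ hq ?_
    · intro S hS
      refine hsupp S fun h => hS ?_
      simp [h]
    · intro S hS
      have := congrArg RCLike.im (hD S hS)
      simpa using this
  funext S
  have h1 := congrFun hre S
  have h2 := congrFun him S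
  apply RCLike.ext <;> simpa using by first | exact h1 | exact h2

end SL2

/-! ### Words -/

section Words

variable {n r : ℕ}

/-- Words of length `n` in the alphabet `Fin r`. -/
abbrev Word (n r : ℕ) := Fin n → Fin r

/-- Number of occurrences of a letter. -/
def content (w : Word n r) (a : Fin r) : ℕ := (univ.filter fun i => w i = a).card

/-- Number of occurrences of a letter among the positions `< k`. -/
def pc (w : Word n r) (k : ℕ) (a : Fin r) : ℕ :=
  (univ.filter fun i : Fin n => i.val < k ∧ w i = a).card

/-- Lattice (ballot, Yamanouchi) words. -/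
def IsLattice (w : Word n r) : Prop :=
  ∀ (k : ℕ) (a b : Fin r), a.val + 1 = b.val → pc w k b ≤ pc w k a

/-- The comparison key: lexicographic from the right. -/
def rkey (w : Word n r) : Colex (Fin n → Fin r) := toColex w

lemma rkey_injective : Function.Injective (rkey : Word n r → _) := toColex.injective

lemma rkey_lt {w w' : Word n r} (i : Fin n) (h : ∀ j, i < j → w j = w' j) (hi : w i < w' i) :
    rkey w < rkey w' :=
  ⟨i, fun j hj => h j hj, hi⟩

/-- Raising operator: `(psi a b u)(w') = ∑_{i : w'_i = a} u (w' with position i changed to b)`. -/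
def psi {𝕜 : Type*} [AddCommMonoid 𝕜] (a b : Fin r) (u : Word n r → 𝕜) (w' : Word n r) : 𝕜 :=
  ∑ i ∈ univ.filter (fun i => w' i = a), u (Function.update w' i b)

/-- Killed by all adjacent raising operators. -/
def IsHW {𝕜 : Type*} [AddCommMonoid 𝕜] (u : Word n r → 𝕜) : Prop :=
  ∀ (a b : Fin r), a.val + 1 = b.val → ∀ w', psi a b u w' = 0

/-- `w` is the leading word of `u`. -/
def IsLead {𝕜 : Type*} [Zero 𝕜] (u : Word n r → 𝕜) (w : Word n r) : Prop :=
  u w ≠ 0 ∧ ∀ x, u x ≠ 0 → rkey x ≤ rkey w

lemma exists_lead {𝕜 : Type*} [Zero 𝕜] (u : Word n r → 𝕜) (hu : u ≠ 0) : ∃ w, IsLead u w := by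
  classical
  have : ∃ x, u x ≠ 0 := by
    by_contra h
    push Not at h
    exact hu (funext h)
  obtain ⟨x, hx⟩ := this
  obtain ⟨w, hw, hmax⟩ := Finset.exists_max_image (univ.filter fun y => u y ≠ 0) rkey
    ⟨x, by simpa using hx⟩
  refine ⟨w, by simpa using hw, fun y hy => hmax y (by simpa using hy)⟩

lemma pc_le_of_le (w : Word n r) {k k' : ℕ} (h : k ≤ k') (a : Fin r) : pc w k a ≤ pc w k' a := by
  refine card_le_card fun i => ?_
  simp only [mem_filter, mem_univ, true_and]
  rintro ⟨h1, h2⟩
  exact ⟨by omega, h2⟩

lemma pc_zero (w : Word n r) (a : Fin r) : pc w 0 a = 0 := by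
  simp [pc]

/-- `pc` at `k+1`. -/
lemma pc_succ (w : Word n r) (k : ℕ) (hk : k < n) (a : Fin r) :
    pc w (k + 1) a = pc w k a + if w ⟨k, hk⟩ = a then 1 else 0 := by
  classical
  have : (univ.filter fun i : Fin n => i.val < k + 1 ∧ w i = a)
      = (univ.filter fun i : Fin n => i.val < k ∧ w i = a) ∪
        (if w ⟨k, hk⟩ = a then {⟨k, hk⟩} else ∅) := by
    ext i
    simp only [mem_filter, mem_univ, true_and, mem_union]
    by_cases h : w ⟨k, hk⟩ = a
    · simp only [h, if_true, mem_singleton]
      constructor
      · rintro ⟨h1, h2⟩
        by_cases hik : i.val < k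
        · exact Or.inl ⟨hik, h2⟩
        · exact Or.inr (Fin.ext (by simp; omega))
      · rintro (⟨h1, h2⟩ | h1)
        · exact ⟨by omega, h2⟩
        · subst h1; exact ⟨by simp, h⟩
    · simp only [h, if_false, notMem_empty, or_false]
      constructor
      · rintro ⟨h1, h2⟩
        refine ⟨?_, h2⟩
        by_contra hik
        have : i = ⟨k, hk⟩ := Fin.ext (by simp; omega)
        exact h (this ▸ h2)
      · rintro ⟨h1, h2⟩
        exact ⟨by omega, h2⟩
  unfold pc
  rw [this, card_union_of_disjoint]
  · by_cases h : w ⟨k, hk⟩ = a <;> simp [h]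
  · by_cases h : w ⟨k, hk⟩ = a
    · simp only [h, if_true, disjoint_singleton_right, mem_filter, mem_univ, true_and, not_and]
      intro hh; simp at hh
    · simp [h]

/-- First ballot violation. -/
lemma exists_first_violation {w : Word n r} (hw : ¬ IsLattice w) :
    ∃ (a b : Fin r) (k : Fin n), a.val + 1 = b.val ∧ w k = b ∧
      pc w k.val b = pc w k.val a := by
  unfold IsLattice at hw
  push Not at hw
  obtain ⟨k, a, b, hab, hk⟩ := hw
  -- minimal k for this pair
  classical
  have hex : ∃ k, pc w k a < pc w k b := ⟨k, hk⟩
  let m := Nat.find hex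
  have hm : pc w m a < pc w m b := Nat.find_spec hex
  have hm0 : m ≠ 0 := by
    intro h0
    rw [h0] at hm
    simp [pc_zero] at hm
  obtain ⟨m', hm'⟩ := Nat.exists_eq_succ_of_ne_zero hm0
  have hmin : pc w m' b ≤ pc w m' a := by
    have := Nat.find_min hex (m := m') (by omega)
    omega
  -- m' < n, else counts saturate
  have hlt : m' < n := by
    by_contra hge
    have hs : ∀ c, pc w (m' + 1) c = pc w m' c := by
      intro c
      unfold pc
      congr 1
      ext i
      have := i.isLt
      simp only [mem_filter, mem_univ, true_and]
      constructor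
      · rintro ⟨_, h2⟩; exact ⟨by omega, h2⟩
      · rintro ⟨_, h2⟩; exact ⟨by omega, h2⟩
    rw [hm', Nat.succ_eq_add_one, hs, hs] at hm
    omega
  have hb := pc_succ w m' hlt b
  have ha := pc_succ w m' hlt a
  rw [hm', Nat.succ_eq_add_one] at hm
  refine ⟨a, b, ⟨m', hlt⟩, hab, ?_, ?_⟩
  · by_contra hne
    rw [if_neg hne] at hb
    split_ifs at ha <;> omega
  · have hne : a ≠ b := by
      intro h; rw [h] at hab; omega
    have hwb : w ⟨m', hlt⟩ = b := by
      by_contra hne'
      rw [if_neg hne'] at hb
      split_ifs at ha <;> omega
    have hwa : w ⟨m', hlt⟩ ≠ a := by rw [hwb]; exact hne.symm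
    rw [if_neg hwa] at ha
    rw [if_pos hwb] at hb
    simp only
    omega

/-- **Leading word theorem.** The leading word of a nonzero function killed by all adjacent
raising operators is a lattice word. -/
theorem lead_isLattice {𝕜 : Type*} [RCLike 𝕜] {u : Word n r → 𝕜} (hu : IsHW u) {w : Word n r}
    (hw : IsLead u w) : IsLattice w := by
  classical
  by_contra hnl
  obtain ⟨a, b, k, hab, hkb, heq⟩ := exists_first_violation hnl
  have hne : a ≠ b := by
    intro h; rw [h] at hab; omega
  have halt : a < b := by rw [Fin.lt_def]; omega
  set m := pc w k.val a with hm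
  let Pset : Finset (Fin n) := univ.filter fun i => i ≤ k ∧ (w i = a ∨ w i = b)
  let A : Finset (Fin n) := univ.filter fun i : Fin n => i.val < k.val ∧ w i = a
  let B : Finset (Fin n) := univ.filter fun i : Fin n => i.val < k.val ∧ w i = b
  have hAcard : A.card = m := rfl
  have hBcard : B.card = m := heq
  have hPset : Pset = insert k (A ∪ B) := by
    ext i
    simp only [Pset, A, B, mem_filter, mem_univ, true_and, mem_insert, mem_union]
    constructor
    · rintro ⟨h1, h2⟩
      by_cases hik : i = k
      · exact Or.inl hik
      · have : i.val < k.val := by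
          rw [Fin.le_def] at h1
          have : i.val ≠ k.val := fun h => hik (Fin.ext h)
          omega
        rcases h2 with h2 | h2
        · exact Or.inr (Or.inl ⟨this, h2⟩)
        · exact Or.inr (Or.inr ⟨this, h2⟩)
    · rintro (h | ⟨h1, h2⟩ | ⟨h1, h2⟩)
      · subst h; exact ⟨le_refl _, Or.inr hkb⟩
      · exact ⟨Fin.le_def.2 (by omega), Or.inl h2⟩
      · exact ⟨Fin.le_def.2 (by omega), Or.inr h2⟩
  have hkAB : k ∉ A ∪ B := by
    simp [A, B]
  have hAB : Disjoint A B := by
    rw [Finset.disjoint_left]
    intro i hi hi'
    simp only [A, B, mem_filter, mem_univ, true_and] at hi hi'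
    exact hne (hi.2.symm.trans hi'.2)
  have hPcard : Pset.card = 2 * m + 1 := by
    rw [hPset, card_insert_of_notMem hkAB, card_union_of_disjoint hAB, hAcard, hBcard]
    ring
  let wd : Finset Pset → Word n r := fun I i =>
    if h : i ∈ Pset then (if (⟨i, h⟩ : Pset) ∈ I then b else a) else w i
  let F : Finset Pset → 𝕜 := fun I => if I.card = m + 1 then u (wd I) else 0
  let J : Finset Pset := univ.filter fun p => w p.val = b
  have hJcard : J.card = m + 1 := by
    have : J.image Subtype.val = insert k B := by
      ext i
      simp only [J, mem_image, mem_filter, mem_univ, true_and, Subtype.exists, exists_and_right,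
        exists_eq_right, mem_insert, B]
      constructor
      · rintro ⟨hi, hib⟩
        have hi' := hi
        simp only [Pset, mem_filter, mem_univ, true_and] at hi'
        by_cases hik : i = k
        · exact Or.inl hik
        · refine Or.inr ⟨?_, hib⟩
          have h1 := Fin.le_def.1 hi'.1
          have : i.val ≠ k.val := fun h => hik (Fin.ext h)
          omega
      · rintro (h | ⟨h1, h2⟩)
        · subst h
          refine ⟨?_, hkb⟩
          simp [Pset, hkb]
        · refine ⟨?_, h2⟩
          simp only [Pset, mem_filter, mem_univ, true_and]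
          exact ⟨Fin.le_def.2 (by omega), Or.inr h2⟩
    have hkB : k ∉ B := by simp [B]
    rw [← card_image_of_injective J Subtype.val_injective, this, card_insert_of_notMem hkB, hBcard]
  have hwdJ : wd J = w := by
    funext i
    simp only [wd]
    split_ifs with h1 h2
    · simp only [J, mem_filter, mem_univ, true_and] at h2
      exact h2.symm
    · simp only [J, mem_filter, mem_univ, true_and] at h2
      have h3 := h1
      simp only [Pset, mem_filter, mem_univ, true_and] at h3
      rcases h3.2 with h4 | h4
      · exact h4.symm
      · exact absurd h4 h2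
    · rfl
  have hFzero : F = 0 := by
    refine sl2_injective F (m + 1) ?_ ?_ ?_
    · intro S hS
      by_contra hc
      exact hS (if_neg hc)
    · rw [Fintype.card_coe, hPcard]
      omega
    · intro S hS
      have hS' : S.card = m := by omega
      have hins : ∀ p ∈ Sᶜ, F (insert p S) = u (Function.update (wd S) p.val b) := by
        intro p hp
        have hp' : p ∉ S := by simpa using hp
        have hc : (insert p S).card = m + 1 := by
          rw [card_insert_of_notMem hp', hS']
        simp only [F]
        rw [if_pos hc]
        congr 1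
        funext i
        by_cases hi : i = p.val
        · subst hi
          simp [wd]
        · rw [Function.update_of_ne hi]
          simp only [wd]
          split_ifs with h1 h2 h3 h3
          · rfl
          · exfalso
            rw [mem_insert] at h2
            rcases h2 with h2 | h2
            · exact hi (congrArg Subtype.val h2)
            · exact h3 h2
          · exfalso
            exact h2 (mem_insert_of_mem h3)
          · rfl
          · rfl
      rw [Finset.sum_congr rfl hins]
      have hpsi := hu a b hab (wd S)
      unfold psi at hpsi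
      have hsub : (Sᶜ.map (Function.Embedding.subtype _)) ⊆
          univ.filter (fun i => wd S i = a) := by
        intro i hi
        rw [mem_map] at hi
        obtain ⟨p, hp, rfl⟩ := hi
        have hp' : p ∉ S := by simpa using hp
        simp only [mem_filter, mem_univ, true_and, Function.Embedding.subtype_apply, wd]
        rw [dif_pos p.2]
        simp [hp']
      have hrest : ∀ x ∈ univ.filter (fun i => wd S i = a),
          x ∉ (Sᶜ.map (Function.Embedding.subtype _)) →
            u (Function.update (wd S) x b) = 0 := by
        intro x hx hx'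
        simp only [mem_filter, mem_univ, true_and] at hx
        have hxP : x ∉ Pset := by
          intro hxP
          apply hx'
          rw [mem_map]
          refine ⟨⟨x, hxP⟩, ?_, rfl⟩
          rw [mem_compl]
          intro hxS
          simp only [wd] at hx
          rw [dif_pos hxP, if_pos hxS] at hx
          exact hne hx.symm
        have hwx : w x = a := by
          have : wd S x = w x := by
            simp only [wd]; rw [dif_neg hxP]
          rw [← this]; exact hx
        have hkx : k < x := by
          by_contra hle
          apply hxP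
          simp only [Pset, mem_filter, mem_univ, true_and]
          exact ⟨not_lt.1 hle, Or.inl hwx⟩
        by_contra hne0
        have hle := hw.2 _ hne0
        have hlt : rkey w < rkey (Function.update (wd S) x b) := by
          refine rkey_lt x ?_ ?_
          · intro j hj
            have hjx : j ≠ x := ne_of_gt hj
            rw [Function.update_of_ne hjx]
            have hjP : j ∉ Pset := by
              simp only [Pset, mem_filter, mem_univ, true_and, not_and]
              intro hjk
              exact absurd (lt_of_lt_of_le (hkx.trans hj) hjk) (lt_irrefl _)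
            simp only [wd]
            rw [dif_neg hjP]
          · rw [Function.update_self, hwx]
            exact halt
        exact absurd hle (not_le.2 hlt)
      have := Finset.sum_subset hsub hrest
      rw [Finset.sum_map] at this
      simp only [Function.Embedding.subtype_apply] at this
      rw [this]
      exact hpsi
  have : F J = 0 := congrFun hFzero J
  simp only [F] at this
  rw [if_pos hJcard, hwdJ] at this
  exact hw.1 this

end Words

end Crest.Agent.S0222Lib.Specht
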